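import Mathlib
import Crest.Prelude.Def_PeriodicPerimeter

/-! Row 214 (isoperimetric problem in the flat cubic torus): common definitions.
`unf D` = periodic, even, symmetric decreasing set whose scaled octant is the open lower set `D`. -/

set_option autoImplicit false
open MeasureTheory Set Filter Topology
open Crest.GeometryTopology.PeriodicPerimeter

namespace Crest.Agent.T3

noncomputable section

/-- The distance to the integers, scaled by two: a 1-periodic even function, `fold (u/2) = u` on `[0,1]`. -/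
def fold (x : ℝ) : ℝ := 2 * |x - round x|

/-- The periodic even set with scaled octant `D ∩ [0,1)ⁿ`. -/
def unf {n : ℕ} (D : Set (Fin n → ℝ)) : Set (EuclideanSpace ℝ (Fin n)) :=
  {x | (fun i => fold (x i)) ∈ D}

/-- Volume of the part of `D` in `[0,1)ⁿ`. -/
def vol01 {n : ℕ} (D : Set (Fin n → ℝ)) : ℝ :=
  (volume (D ∩ Set.pi univ (fun _ => Ico (0 : ℝ) 1))).toReal

/-- Insert the value `t` as `k`-th coordinate. -/
def ins {n : ℕ} (k : Fin (n + 1)) (t : ℝ) (x : EuclideanSpace ℝ (Fin n)) :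
    EuclideanSpace ℝ (Fin (n + 1)) :=
  WithLp.toLp 2 (k.insertNth (α := fun _ => ℝ) t (fun i => x i))

/-- The slice `{x : (x, x_k = t) ∈ E}`. -/
def slE {n : ℕ} (k : Fin (n + 1)) (t : ℝ) (E : Set (EuclideanSpace ℝ (Fin (n + 1)))) :
    Set (EuclideanSpace ℝ (Fin n)) :=
  {x | ins k t x ∈ E}

/-- The slice `{y : (y, y_k = u) ∈ D}`. -/
def sl {n : ℕ} (k : Fin (n + 1)) (u : ℝ) (D : Set (Fin (n + 1) → ℝ)) : Set (Fin n → ℝ) :=
  {y | k.insertNth (α := fun _ => ℝ) u y ∈ D}

/-- Length of the gradient. -/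
def gr {n : ℕ} (f : EuclideanSpace ℝ (Fin n) → ℝ) (x : EuclideanSpace ℝ (Fin n)) : ℝ :=
  Real.sqrt (∑ i, (fderiv ℝ f x (EuclideanSpace.single i 1)) ^ 2)

/-- `f` is an approximating sequence of the periodic set `E` with total variations at most `c`. -/
structure Approx {n : ℕ} (E : Set (EuclideanSpace ℝ (Fin n))) (c : ℝ)
    (f : ℕ → EuclideanSpace ℝ (Fin n) → ℝ) : Prop where
  smooth : ∀ j, ContDiff ℝ 2 (f j)
  per : ∀ j v, HasIntegerCoords v → ∀ x, f j (x + v) = f j x
  mem : ∀ j x, f j x ∈ Icc (0 : ℝ) 1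
  ae : ∀ᵐ x, Tendsto (fun j => f j x) atTop (𝓝 (E.indicator (fun _ => (1 : ℝ)) x))
  le : ∀ j, ∫ x in unitCell n, gr (f j) x ≤ c

/-- `c` is a lower bound for the relative perimeter `q(D) = periodicPerimeter (unf D) / 2`. -/
def QL {n : ℕ} (D : Set (Fin n → ℝ)) (c : ℝ) : Prop :=
  ENNReal.ofReal (2 * c) ≤ periodicPerimeter (unf D)

/-- Areas of the slices in direction `k`. -/
def sv {n : ℕ} (D : Set (Fin (n + 1) → ℝ)) (k : Fin (n + 1)) (u : ℝ) : ℝ := vol01 (sl k u D)

/-- The limit of the slice areas at the far side `u → 1-`. -/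
def sEnd {n : ℕ} (D : Set (Fin (n + 1) → ℝ)) (k : Fin (n + 1)) : ℝ := sInf (sv D k '' Ico 0 1)

/-- Point of the plane with coordinate `i` equal to `u`, the other one equal to `v`. -/
def pt (i : Fin 2) (u v : ℝ) : Fin 2 → ℝ := i.insertNth (α := fun _ => ℝ) u (fun _ => v)

/-- `Kf m l = ∫_0^m sqrt (1 - l² u²) du`. -/
def Kf (m l : ℝ) : ℝ := ∫ u in (0 : ℝ)..m, Real.sqrt (1 - l ^ 2 * u ^ 2)

end

end Crest.Agent.T3
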