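import Crest.Agent.T3.Defs

/-! Row 214, rigidity (7a): definitions.  Steiner symmetrisation in direction `k`, centred standard sets, arcs. -/

set_option autoImplicit false
open MeasureTheory Set Filter Topology
open Crest.GeometryTopology.PeriodicPerimeter

namespace Crest.Agent.T3

noncomputable section

abbrev E2 := EuclideanSpace ℝ (Fin 2)
abbrev E3 := EuclideanSpace ℝ (Fin 3)

/-- Remove the `k`-th coordinate. -/
def rem {n : ℕ} (k : Fin (n + 1)) (x : EuclideanSpace ℝ (Fin (n + 1))) : EuclideanSpace ℝ (Fin n) :=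
  WithLp.toLp 2 (fun i => x (k.succAbove i))

/-- Line of `E` over `y` in direction `k`, a 1-periodic subset of `ℝ`. -/
def lineE {n : ℕ} (k : Fin (n + 1)) (E : Set (EuclideanSpace ℝ (Fin (n + 1))))
    (y : EuclideanSpace ℝ (Fin n)) : Set ℝ := {t | ins k t y ∈ E}

/-- Measure (mod 1) of the line of `E` over `y` in direction `k`. -/
def ll {n : ℕ} (k : Fin (n + 1)) (E : Set (EuclideanSpace ℝ (Fin (n + 1))))
    (y : EuclideanSpace ℝ (Fin n)) : ℝ := (volume (lineE k E y ∩ Ico 0 1)).toReal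

/-- Steiner symmetrisation in direction `k`. -/
def St {n : ℕ} (k : Fin (n + 1)) (E : Set (EuclideanSpace ℝ (Fin (n + 1)))) :
    Set (EuclideanSpace ℝ (Fin (n + 1))) := {x | fold (x k) < ll k E (rem k x)}

/-- The arc (mod 1) with midpoint `m` and length `l`. -/
def arc (m l : ℝ) : Set ℝ := {t | fold (t - m) < l}

/-- The region over the plane with profile `L` and midpoint `m` in direction `k`. -/
def reg (k : Fin 3) (L : E2 → ℝ) (m : ℝ) : Set E3 := {x | fold (x k - m) < L (rem k x)}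

/-- The function `∂ζ/∂x_i`. -/
def dd {n : ℕ} (i : Fin n) (ζ : EuclideanSpace ℝ (Fin n) → ℝ) (x : EuclideanSpace ℝ (Fin n)) : ℝ :=
  fderiv ℝ ζ x (EuclideanSpace.single i 1)

/-- Periodic functions. -/
def Per {n : ℕ} {α : Type} (f : EuclideanSpace ℝ (Fin n) → α) : Prop :=
  ∀ v, HasIntegerCoords v → ∀ x, f (x + v) = f x

/-- The open set where the profile is neither `0` nor `1`. -/
def GG (L : E2 → ℝ) : Set E2 := {y | 0 < L y ∧ L y < 1}

/-- `φ₀ = -∇L/√(4+|∇L|²)` -/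
def ph0 (L : E2 → ℝ) (i : Fin 2) (y : E2) : ℝ :=
  -dd i L y / Real.sqrt (4 + (dd 0 L y) ^ 2 + (dd 1 L y) ^ 2)

/-- Profiles to which the rigidity theorem applies: `c` is the perimeter of `reg k L m`. -/
structure Prof (L : E2 → ℝ) (c : ℝ) : Prop where
  per : Per L
  cont : Continuous L
  mem : ∀ y, L y ∈ Icc (0 : ℝ) 1
  c1 : ContDiffOn ℝ 1 L (GG L)
  /-- calibrating fields -/
  cal : ∀ K : Set E2, IsClosed K → (∀ v, HasIntegerCoords v → ∀ x, x + v ∈ K ↔ x ∈ K) → K ⊆ GG L →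
    ∀ δ : ℝ, 0 < δ → ∃ φ : Fin 2 → E2 → ℝ, (∀ i, ContDiff ℝ 1 (φ i)) ∧ (∀ i, Per (φ i)) ∧
      (∀ y, φ 0 y ^ 2 + φ 1 y ^ 2 ≤ 1) ∧ (∀ y ∈ K, ∀ i, φ i y = ph0 L i y) ∧
      c - δ ≤ (∫ y in unitCell 2, L y * (dd 0 (φ 0) y + dd 1 (φ 1) y)) +
        ∫ y in GG L ∩ unitCell 2, 2 * Real.sqrt (1 - φ 0 y ^ 2 - φ 1 y ^ 2)
  /-- `GG L` is the union of the translates of a connected open set -/
  conn : ∃ G0 : Set E2, IsOpen G0 ∧ IsPreconnected G0 ∧ G0 ⊆ GG L ∧
    ∀ y ∈ GG L, ∃ v, HasIntegerCoords v ∧ y + v ∈ G0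

/-- Centred standard sets: ball, tube in direction `j`, slab with normal `j`. -/
inductive Shape
  | ball (r : ℝ)
  | tube (j : Fin 3) (r : ℝ)
  | slab (j : Fin 3) (w : ℝ)

/-- The centred standard sets. -/
def stdB : Shape → Set E3
  | .ball r => {x | (fold (x 0) / 2) ^ 2 + (fold (x 1) / 2) ^ 2 + (fold (x 2) / 2) ^ 2 < r ^ 2}
  | .tube j r => {x | (fold (rem j x 0) / 2) ^ 2 + (fold (rem j x 1) / 2) ^ 2 < r ^ 2}
  | .slab j w => {x | fold (x j) < w}

/-- Perimeters of the standard sets. -/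
def stdP : Shape → ℝ
  | .ball r => 4 * Real.pi * r ^ 2
  | .tube _ r => 2 * Real.pi * r
  | .slab _ _ => 2

/-- Valid parameters. -/
def stdOk : Shape → Prop
  | .ball r => 0 < r ∧ r < 1 / 2
  | .tube _ r => 0 < r ∧ r < 1 / 2
  | .slab _ w => 0 < w ∧ w < 1

end

end Crest.Agent.T3
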