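import Crest.Agent.T3.R1

/-! Row 214, region R1x: `s(0) ≥ 7/10` and `s(1-) ≥ 2/5`. -/

set_option autoImplicit false
open MeasureTheory Set Filter Topology
open Crest.GeometryTopology.PeriodicPerimeter

namespace Crest.Agent.T3

def r1xs : List Bx := [
  { s1a := 4000, m1a := 10000, s1b := 5001, m1b := 10000, E := 12367, l := -5918, cells := [(3391, 5601, 10000), (4249, 6273, 10000), (5009, 7000, 9707)] }]

theorem r1xs_ok : okBs 7000 9707 8200 7519 4000 r1xs 5001 = true := by decide +kernel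

private theorem r1x_sEnd (D : Set (Fin 3 → ℝ)) (hD : IsLowerSet D) (hO : IsOpen D) (k : Fin 3) :
    sEnd D k ≤ vol01 D := by
  rw [← sv_integral D hO k]
  have h := intervalIntegral.integral_mono_on_of_le_Ioo (μ := volume) (zero_le_one (α := ℝ))
    (intervalIntegrable_const (μ := volume) (c := sEnd D k)) (sv_intervalIntegrable D hD k 0 1)
    (fun u hu => c1_sEnd_le D k u ⟨hu.1.le, hu.2⟩)
  simpa using h

theorem r1x (D : Set (Fin 3 → ℝ)) (hD : IsLowerSet D) (hO : IsOpen D) (k : Fin 3)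
    (hV0 : 0 < vol01 D) (hV : vol01 D ≤ 1 / 2) (he : 2 / 5 ≤ sEnd D k) (hs : 7 / 10 ≤ sv D k 0) :
    ∃ c, Crest.Agent.IT.prof (vol01 D) / 2 < c ∧ QL D c := by
  rcases le_or_gt (82 / 100) (sv D k 0) with h | h
  · refine r1_strict D hD hO k hV0 hV h fun h2 => ?_
    rw [h2.2] at he
    norm_num at he
  · have hE := (r1x_sEnd D hD hO k).trans hV
    refine bs_sound D hD hO k hV0 hV 7000 9707 8200 7519 ?_ ?_ r1xs 4000 5001 r1xs_ok ?_ ?_
    · norm_num; linarith
    · norm_num; linarith
    · norm_num; linarith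
    · norm_num; linarith

end Crest.Agent.T3
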