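import Crest.Agent.T3.R3DatA
import Crest.Agent.T3.R3DatB
import Crest.Agent.T3.R3DatC
import Crest.Agent.T3.R3DatD

/-! Row 214: all certificates of region R3. -/

set_option autoImplicit false

namespace Crest.Agent.T3.Pl

/-- all `h` cells -/
def cells : List HCell :=
  [c_0, c_1, c_2, c_3, c_4, c_5, c_6, c_7, c_8, c_9, c_10, c_11, c_12, c_13, c_14, c_15, c_16]

theorem cells_ok : ∀ c ∈ cells, checkH c = true := by
  intro c hc
  simp only [cells, List.mem_cons, List.not_mem_nil, or_false] at hc
  rcases hc with rfl | rfl | rfl | rfl | rfl | rfl | rfl | rfl | rfl | rfl | rfl | rfl | rfl | rfl | rfl | rfl | rfl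
  · exact c_0_ok
  · exact c_1_ok
  · exact c_2_ok
  · exact c_3_ok
  · exact c_4_ok
  · exact c_5_ok
  · exact c_6_ok
  · exact c_7_ok
  · exact c_8_ok
  · exact c_9_ok
  · exact c_10_ok
  · exact c_11_ok
  · exact c_12_ok
  · exact c_13_ok
  · exact c_14_ok
  · exact c_15_ok
  · exact c_16_ok

theorem chain_ok : chainH 0 cells = true := by decide +kernel

end Crest.Agent.T3.Pl
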