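import Crest.Agent.T3.CaseBounds

/-! Row 214: the one-dimensional lower bound for table R3 (case I with the height `h`). -/

set_option autoImplicit false
open MeasureTheory Set Filter Topology
open Crest.GeometryTopology.PeriodicPerimeter

namespace Crest.Agent.T3

/-- Calibration `a = √(1-η²u²)`, `B = η u σ`. -/
theorem calOn_lin {eta u0 u1 : ℝ} (he : 0 ≤ eta) (h0 : 0 ≤ u0) (h1 : eta * u1 ≤ 1) :
    CalOn (fun u _ => Real.sqrt (1 - eta ^ 2 * u ^ 2)) (fun u σ => eta * u * σ) u0 u1 := by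
  refine ⟨?_, ?_, fun u hu σ _ => ?_⟩
  · fun_prop
  · fun_prop
  · have hd : deriv (fun τ => eta * u * τ) σ = eta * u := by
      rw [deriv_const_mul_field, deriv_id'', mul_one]
    have hu0 : 0 ≤ u := h0.trans hu.1.le
    have hu1 : eta * u ≤ 1 := (mul_le_mul_of_nonneg_left hu.2.le he).trans h1
    have hnn : 0 ≤ eta * u := mul_nonneg he hu0
    refine ⟨Real.sqrt_nonneg _, ?_⟩
    show Real.sqrt (1 - eta ^ 2 * u ^ 2) ^ 2 + (deriv (fun τ => eta * u * τ) σ) ^ 2 ≤ 1
    rw [hd, Real.sq_sqrt (by nlinarith)]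
    nlinarith

theorem calVal_lin (S g : ℝ → ℝ) (eta u0 u1 : ℝ) :
    calVal S g (fun u _ => Real.sqrt (1 - eta ^ 2 * u ^ 2)) (fun u σ => eta * u * σ) u0 u1 =
      (∫ u in u0..u1, (Real.sqrt (1 - eta ^ 2 * u ^ 2) * g u + eta * S u)) +
        eta * u0 * S u0 - eta * u1 * S u1 := by
  unfold calVal
  have hd : ∀ u : ℝ, deriv (fun τ => eta * τ * S u) u = eta * S u := by
    intro u
    have : (fun τ => eta * τ * S u) = fun τ => (eta * S u) * τ := by funext τ; ring
    rw [this, deriv_const_mul_field, deriv_id'', mul_one]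
  simp only [hd]

/-- **C4.** mixed slicing inequality. -/
theorem slice_C4 {n : ℕ} (D : Set (Fin (n + 1) → ℝ)) (hD : IsLowerSet D) (hO : IsOpen D)
    (k : Fin (n + 1)) (g : ℝ → ℝ) (M : ℝ) (hgm : Measurable g) (hg : ∀ u, g u ∈ Icc 0 M)
    (hgq : ∀ u ∈ Ioo (0 : ℝ) 1, QL (sl k u D) (g u)) (β : ℝ) (hβ : β ∈ Ioo (0 : ℝ) 1)
    (eta : ℝ) (he : 0 ≤ eta) (he1 : eta * β < 1) (A2 B2 : ℝ → ℝ) (hA2 : Continuous A2)
    (hB2 : Continuous B2) (hAB2 : ∀ σ, 0 ≤ A2 σ ∧ (A2 σ) ^ 2 + (B2 σ) ^ 2 ≤ 1) :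
    QL D ((∫ u in (0 : ℝ)..β, (Real.sqrt (1 - eta ^ 2 * u ^ 2) * g u + eta * sv D k u)) -
      eta * β * sv D k β + ((∫ u in β..1, A2 (sv D k u) * g u) +
      ∫ σ in (sEnd D k)..(sv D k β), B2 σ)) := by
  have hA2' : ∀ σ, |A2 σ| ≤ 1 := fun σ => by
    rw [← sq_le_one_iff_abs_le_one]; nlinarith [(hAB2 σ).2, sq_nonneg (B2 σ)]
  obtain ⟨G, hG, hmain⟩ := slice_two D hD hO k
  have hv : ∃ v, β < v ∧ v ≤ (β + 1) / 2 ∧ eta * v ≤ 1 := by
    refine ⟨min ((β + 1) / 2) (β + (1 - eta * β) / (eta + 1)), lt_min (by linarith [hβ.2]) ?_,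
      min_le_left _ _, ?_⟩
    · have : 0 < (1 - eta * β) / (eta + 1) := div_pos (by linarith) (by linarith)
      linarith
    · have h1 : min ((β + 1) / 2) (β + (1 - eta * β) / (eta + 1)) ≤
        β + (1 - eta * β) / (eta + 1) := min_le_right _ _
      have h2 := mul_le_mul_of_nonneg_left h1 he
      have h3 : eta * ((1 - eta * β) / (eta + 1)) ≤ 1 - eta * β := by
        rw [mul_div_assoc', div_le_iff₀ (by linarith)]
        nlinarith
      nlinarith
  obtain ⟨v, hv1, hv2, hv3⟩ := hv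
  obtain ⟨x, hx, hxt⟩ := seq_right hG hβ.1
  obtain ⟨y, hy, hyt⟩ := seq_right hG hv1
  obtain ⟨z, hz, hzt⟩ := seq_left hG (show (β + 1) / 2 < 1 by linarith [hβ.2])
  have hSm := sv_measurable D hD k
  have hS0 : Tendsto (fun j => sv D k (x j)) atTop (𝓝 (sv D k 0)) := (sv_right D hD hO k 0).comp hxt
  have hSβ : Tendsto (fun j => sv D k (y j)) atTop (𝓝 (sv D k β)) := (sv_right D hD hO k β).comp hyt
  have hS1 : Tendsto (fun j => sv D k (z j)) atTop (𝓝 (sEnd D k)) := (sEnd_tendsto D hD k).comp hzt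
  have hxt' : Tendsto x atTop (𝓝 0) := hxt.mono_right nhdsWithin_le_nhds
  have hyt' : Tendsto y atTop (𝓝 β) := hyt.mono_right nhdsWithin_le_nhds
  have hzt' : Tendsto z atTop (𝓝 1) := hzt.mono_right nhdsWithin_le_nhds
  have hii : ∀ a b : ℝ, IntervalIntegrable
      (fun u => Real.sqrt (1 - eta ^ 2 * u ^ 2) * g u + eta * sv D k u) volume a b := by
    intro a b
    refine ii_of_bdd (M := 1 * M + eta * 1) ?_ (fun u => ?_) a b
    · exact ((by fun_prop : Continuous fun u : ℝ => Real.sqrt (1 - eta ^ 2 * u ^ 2)).measurable.mul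
        hgm).add (hSm.const_mul eta)
    · have h1 : Real.sqrt (1 - eta ^ 2 * u ^ 2) ≤ 1 := by
        rw [Real.sqrt_le_one]
        have : 0 ≤ eta ^ 2 * u ^ 2 := by positivity
        linarith
      have h2 := Real.sqrt_nonneg (1 - eta ^ 2 * u ^ 2)
      have h3 := hg u
      have h4 := sv_mem D k u
      rw [abs_of_nonneg (add_nonneg (mul_nonneg h2 h3.1) (mul_nonneg he h4.1))]
      exact add_le_add (mul_le_mul h1 h3.2 h3.1 zero_le_one) (mul_le_mul_of_nonneg_left h4.2 he)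
  have key : ∀ j, QL D (((∫ u in (x j)..(y j),
      (Real.sqrt (1 - eta ^ 2 * u ^ 2) * g u + eta * sv D k u)) +
      eta * (x j) * sv D k (x j) - eta * (y j) * sv D k (y j)) +
      ((∫ u in (y j)..(z j), A2 (sv D k u) * g u) +
      ∫ σ in (sv D k (z j))..(sv D k (y j)), B2 σ)) := by
    intro j
    have := hmain g M hgm hg hgq (x j) (hx j).1 (y j) (hy j).1 (z j) (hz j).1 (hx j).2.1
      ((hx j).2.2.trans (hy j).2.1) ((hy j).2.2.trans_le (hv2.trans (hz j).2.1.le)) (hz j).2.2 _ _ _ _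
      (calOn_lin he (hx j).2.1.le ((mul_le_mul_of_nonneg_left (hy j).2.2.le he).trans hv3))
      (calOn_area hA2 hB2 hAB2 (y j) (z j))
    rwa [calVal_lin, calVal_area hB2] at this
  refine QL_closed key ?_
  have e0 : (∫ u in (0 : ℝ)..β, (Real.sqrt (1 - eta ^ 2 * u ^ 2) * g u + eta * sv D k u)) -
      eta * β * sv D k β = (∫ u in (0 : ℝ)..β,
      (Real.sqrt (1 - eta ^ 2 * u ^ 2) * g u + eta * sv D k u)) +
      eta * 0 * sv D k 0 - eta * β * sv D k β := by ring
  rw [e0]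
  refine Tendsto.add (Tendsto.sub (Tendsto.add ?_ ?_) ?_) (Tendsto.add ?_ ?_)
  · exact tendsto_interval hii hxt' hyt'
  · exact (hxt'.const_mul eta).mul hS0
  · exact (hyt'.const_mul eta).mul hSβ
  · exact tendsto_interval (ii_area hA2 hA2' hSm hgm hg) hyt' hzt'
  · exact tendsto_interval (fun _ _ => hB2.intervalIntegrable _ _) hS1 hSβ

/-! ### The function `gA` -/

theorem gA_le {h s r : ℝ} (h1 : h < 1) (hs : s ≤ 1) (hr : 0 < r) (hr2 : r ≤ 1 - h) :
    gA h s ≤ Real.pi * r / 4 + (1 - s) / r := by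
  have hpi := Real.pi_pos
  unfold gA
  split_ifs with hc
  · rw [le_div_iff₀ hpi] at hc
    set x := 1 - s with hx
    set H := 1 - h with hH
    have hH0 : 0 < H := by linarith
    have h6 : Real.pi * (r * H) ≤ 4 * x := by
      have : r * H ≤ H ^ 2 := by nlinarith
      nlinarith
    have h7 : Real.pi * r / 4 + x / r - (Real.pi * H / 4 + x / H) =
        (H - r) * (4 * x - Real.pi * (r * H)) / (4 * (r * H)) := by
      field_simp
      ring
    have h8 : 0 ≤ (H - r) * (4 * x - Real.pi * (r * H)) / (4 * (r * H)) := by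
      apply div_nonneg
      · exact mul_nonneg (by linarith) (by linarith)
      · positivity
    linarith
  · have hx : 0 ≤ 1 - s := by linarith
    have h2 : 0 ≤ Real.pi * r / 4 + (1 - s) / r := by positivity
    rw [Real.sqrt_le_left h2]
    have h3 : Real.pi * r / 4 * ((1 - s) / r) = Real.pi * (1 - s) / 4 := by
      field_simp
    nlinarith [sq_nonneg (Real.pi * r / 4 - (1 - s) / r)]

theorem gA_eq {h s : ℝ} (h1 : h < 1) (hs : s < 1) :
    ∃ r : ℝ, 0 < r ∧ r ≤ 1 - h ∧ gA h s = Real.pi * r / 4 + (1 - s) / r := by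
  have hpi := Real.pi_pos
  by_cases hc : (1 - h) ^ 2 ≤ 4 * (1 - s) / Real.pi
  · exact ⟨1 - h, by linarith, le_rfl, by unfold gA; rw [if_pos hc]⟩
  · have hx : 0 < 1 - s := by linarith
    have hq : 0 < (1 - s) / Real.pi := div_pos hx hpi
    refine ⟨2 * Real.sqrt ((1 - s) / Real.pi), by positivity, ?_, ?_⟩
    · push Not at hc
      have h2 : (2 * Real.sqrt ((1 - s) / Real.pi)) ^ 2 < (1 - h) ^ 2 := by
        rw [mul_pow, Real.sq_sqrt hq.le]
        calc 2 ^ 2 * ((1 - s) / Real.pi) = 4 * (1 - s) / Real.pi := by ring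
          _ < _ := hc
      exact (lt_of_pow_lt_pow_left₀ 2 (by linarith) h2).le
    · unfold gA
      rw [if_neg hc]
      set q := Real.sqrt ((1 - s) / Real.pi) with hqd
      have hq0 : 0 < q := Real.sqrt_pos.2 hq
      have hq2 : q ^ 2 = (1 - s) / Real.pi := Real.sq_sqrt hq.le
      have hx2 : 1 - s = Real.pi * q ^ 2 := by rw [hq2]; field_simp
      rw [hx2, show Real.pi * (Real.pi * q ^ 2) = (Real.pi * q) ^ 2 by ring,
        Real.sqrt_sq (by positivity)]
      field_simp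
      ring

theorem gA_one {h : ℝ} (h1 : h < 1) : gA h 1 = 0 := by
  unfold gA
  rw [if_neg]
  · simp
  · simp only [sub_self, mul_zero, zero_div, not_le]
    have : 0 < 1 - h := by linarith
    positivity

theorem gA_nonneg {h s : ℝ} (h1 : h < 1) (hs : s ≤ 1) : 0 ≤ gA h s := by
  rcases hs.lt_or_eq with hs | rfl
  · obtain ⟨r, hr, -, e⟩ := gA_eq h1 hs
    rw [e]
    have := Real.pi_pos
    have : 0 < 1 - s := by linarith
    positivity
  · rw [gA_one h1]

theorem gA_anti {h s s' : ℝ} (h1 : h < 1) (hss : s ≤ s') (hs : s' ≤ 1) : gA h s' ≤ gA h s := by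
  rcases (hss.trans hs).lt_or_eq with h2 | h2
  · obtain ⟨r, hr, hr2, e⟩ := gA_eq h1 h2
    rw [e]
    refine (gA_le h1 hs hr hr2).trans ?_
    have : (1 - s') / r ≤ (1 - s) / r := div_le_div_of_nonneg_right (by linarith) hr.le
    linarith
  · have : s' = s := by linarith
    rw [this]

/-- concavity of `gA` in the area -/
theorem gA_concave {h s0 s s1 : ℝ} (h1 : h < 1) (h01 : s0 ≤ s) (h02 : s ≤ s1) (hs : s1 ≤ 1) :
    (s1 - s) * gA h s0 + (s - s0) * gA h s1 ≤ (s1 - s0) * gA h s := by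
  rcases (h02.trans hs).lt_or_eq with h2 | h2
  · obtain ⟨r, hr, hr2, e⟩ := gA_eq h1 h2
    rw [e]
    have e0 := mul_le_mul_of_nonneg_left (gA_le h1 (by linarith : s0 ≤ 1) hr hr2)
      (by linarith : 0 ≤ s1 - s)
    have e1 := mul_le_mul_of_nonneg_left (gA_le h1 hs hr hr2) (by linarith : 0 ≤ s - s0)
    have : (s1 - s) * (Real.pi * r / 4 + (1 - s0) / r) + (s - s0) *
        (Real.pi * r / 4 + (1 - s1) / r) = (s1 - s0) * (Real.pi * r / 4 + (1 - s) / r) := by
      ring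
    linarith
  · have e1 : s1 = s := by linarith
    rw [e1]
    simp

theorem gA_le_two {h s : ℝ} (h0 : 0 ≤ h) (h1 : h < 1) (hs : h ≤ s) (hs1 : s ≤ 1) :
    gA h s ≤ 2 := by
  refine (gA_le h1 hs1 (by linarith : 0 < 1 - h) le_rfl).trans ?_
  have hpi := Real.pi_lt_four
  have hpi0 := Real.pi_pos
  have h2 : (1 - s) / (1 - h) ≤ 1 := by
    rw [div_le_one (by linarith)]; linarith
  nlinarith

/-- Phase A pointwise inequality. -/
theorem phaseA {h sg s sm al eta lam : ℝ} (h1 : h < 1) (hsg : sg ≤ s) (hsm : s ≤ sm)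
    (hsm1 : sm ≤ 1) (ha0 : 0 ≤ al) (ha1 : al ≤ 1)
    (hc : gA h sg - gA h sm ≤ (eta - lam) * (sm - sg)) :
    al * gA h sg + (eta - lam) * sg + lam * s ≤ al * gA h s + eta * s := by
  rcases (hsg.trans hsm).eq_or_lt with e | hlt
  · have e1 : s = sg := le_antisymm (by linarith) hsg
    rw [e1]
    linarith
  · have hcon := gA_concave h1 hsg hsm hsm1
    have hanti := gA_anti h1 (hsg.trans hsm) hsm1
    -- (sm - sg) * (al (gA s - gA sg) + (eta - lam)(s - sg)) ≥ 0
    have h3 : al * (gA h sg - gA h sm) ≤ (eta - lam) * (sm - sg) := by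
      refine le_trans ?_ hc
      nlinarith
    have h4 : (s - sg) * (al * (gA h sg - gA h sm)) ≤ (s - sg) * ((eta - lam) * (sm - sg)) :=
      mul_le_mul_of_nonneg_left h3 (by linarith)
    have h5 : al * ((sm - s) * gA h sg + (s - sg) * gA h sm) ≤ al * ((sm - sg) * gA h s) :=
      mul_le_mul_of_nonneg_left hcon ha0
    have h6 : 0 ≤ (sm - sg) * (al * (gA h s - gA h sg) + (eta - lam) * (s - sg)) := by
      nlinarith
    have h7 := nonneg_of_mul_nonneg_right h6 (by linarith)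
    linarith

/-- **R3 interface.** -/
theorem caseI_bound (D : Set (Fin 3 → ℝ)) (hD : IsLowerSet D) (hO : IsOpen D) (k : Fin 3)
    (hA hB : ℝ) (hA0 : 0 ≤ hA) (hA1 : hA < 1) (cA : CaseA D k hA) (cB : CaseB D k hB)
    (eta lam sg sm E : ℝ) (hsm : sv D k 0 ≤ sm) (hsm1 : sm ≤ 1) (he : 0 ≤ eta)
    (he1 : eta / 10 < 1) (hsg : sg ≤ max (sv D k (1 / 10)) hA) (hsgm : sg ≤ sm)
    (hc : gA hA sg - gA hA sm ≤ (eta - lam) * (sm - sg))
    (a b : ℝ → ℝ) (ha : ContinuousOn a (Icc (sEnd D k) (sv D k (1 / 10))))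
    (hb : ContinuousOn b (Icc (sEnd D k) (sv D k (1 / 10))))
    (hab : ∀ σ ∈ Icc (sEnd D k) (sv D k (1 / 10)), 0 ≤ a σ ∧ 0 ≤ b σ ∧ (a σ) ^ 2 + (b σ) ^ 2 ≤ 1)
    (hE : ∀ s ∈ Icc (sEnd D k) (sv D k (1 / 10)), ∃ l1 ∈ Icc (0 : ℝ) 1, ∃ l2 ∈ Ioc (0 : ℝ) 1,
      E + lam * s ≤ a s * gB hB l1 l2 s) :
    QL D (lam * vol01 D + gA hA sg * Kf (1 / 10) eta + (eta - lam) * sg / 10 -
      eta * sv D k (1 / 10) / 10 + 9 / 10 * E + ∫ σ in (sEnd D k)..(sv D k (1 / 10)), b σ) := by
  have hle : sEnd D k ≤ sv D k (1 / 10) := sEnd_le D hD k (by norm_num)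
  obtain ⟨A, B, hAc, hBc, hAB, eA, eB⟩ := ext_pair hle ha hb hab
  have hSm := sv_measurable D hD k
  have hSA : ∀ u, u < 1 / 10 → hA ≤ sv D k u := by
    intro u hu
    have h1 : max u (1 / 20) ∈ Ioo (0 : ℝ) (1 / 10) :=
      ⟨lt_of_lt_of_le (by norm_num) (le_max_right _ _), max_lt hu (by norm_num)⟩
    exact (cA _ h1).1.trans (sv_anti D hD k (le_max_left _ _))
  have hmemS : ∀ u ∈ Ico (1 / 10 : ℝ) 1, sv D k u ∈ Icc (sEnd D k) (sv D k (1 / 10)) := fun u hu =>
    ⟨sEnd_le D hD k hu.2, sv_anti D hD k hu.1⟩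
  set g : ℝ → ℝ := fun u => if u < 1 / 10 then gA hA (sv D k u) else
    if u ≤ 1 / 10 then 0 else gOf A E lam (sv D k u) with hg
  have hgAm : Measurable (gA hA) := by
    unfold gA
    refine Measurable.ite ?_ ?_ ?_
    · exact (isClosed_le (by fun_prop) (by fun_prop)).measurableSet
    · fun_prop
    · fun_prop
  have hgm : Measurable g := by
    refine Measurable.ite measurableSet_Iio (hgAm.comp hSm) (Measurable.ite measurableSet_Iic
      measurable_const ?_)
    refine measurable_const.min (measurable_const.max ?_)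
    exact (measurable_const.add (hSm.const_mul lam)).div (hAc.measurable.comp hSm)
  have hgmem : ∀ u, g u ∈ Icc (0 : ℝ) 2 := by
    intro u
    simp only [hg]
    split_ifs with h1 h2
    · exact ⟨gA_nonneg hA1 (sv_mem D k u).2, gA_le_two hA0 hA1 (hSA u h1) (sv_mem D k u).2⟩
    · exact ⟨le_rfl, by norm_num⟩
    · exact gOf_mem _ _ _ _
  have hgB2 : ∀ l1 l2 s : ℝ, s ≤ 1 → gB hB l1 l2 s ≤ 2 := fun l1 l2 s hs =>
    (min_le_left _ _).trans (sqrt_pi_le_two hs)
  have hgq : ∀ u ∈ Ioo (0 : ℝ) 1, QL (sl k u D) (g u) := by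
    intro u hu
    simp only [hg]
    split_ifs with h1 h2
    · exact (cA u ⟨hu.1, h1⟩).2
    · exact QL_zero' le_rfl
    · push Not at h2
      have hm := hmemS u ⟨h2.le, hu.2⟩
      obtain ⟨l1, hl1, l2, hl2, hl⟩ := hE _ hm
      refine gOf_QL (hAB _).1 ?_ (cB u ⟨h2, hu.2⟩ l1 hl1 l2 hl2)
      rw [eA _ hm]
      exact hl
  have key := slice_C4 D hD hO k g 2 hgm hgmem hgq (1 / 10) ⟨by norm_num, by norm_num⟩ eta he
    (by linarith) A B hAc hBc hAB
  refine QLmono ?_ key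
  have e1 : (∫ σ in (sEnd D k)..(sv D k (1 / 10)), B σ) =
      ∫ σ in (sEnd D k)..(sv D k (1 / 10)), b σ := by
    refine intervalIntegral.integral_congr fun σ hσ => ?_
    rw [uIcc_of_le hle] at hσ
    exact eB _ hσ
  rw [e1]
  have hA1' : ∀ σ, |A σ| ≤ 1 := fun σ => by
    rw [← sq_le_one_iff_abs_le_one]; nlinarith [(hAB σ).2, sq_nonneg (B σ)]
  have hSi : ∀ c d : ℝ, IntervalIntegrable (fun u => sv D k u) volume c d := fun c d =>
    (sv_anti D hD k).intervalIntegrable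
  -- phase B
  have h2 : ∫ u in (1 / 10 : ℝ)..1, (E + lam * sv D k u) ≤
      ∫ u in (1 / 10 : ℝ)..1, A (sv D k u) * g u := by
    refine intervalIntegral.integral_mono_on_of_le_Ioo (by norm_num)
      (intervalIntegrable_const.add ((hSi _ _).const_mul lam))
      (ii_area hAc hA1' hSm hgm hgmem _ _) (fun u hu => ?_)
    have hm := hmemS u ⟨hu.1.le, hu.2⟩
    obtain ⟨l1, hl1, l2, hl2, hl⟩ := hE _ hm
    simp only [hg]
    rw [if_neg (by linarith [hu.1]), if_neg (by linarith [hu.1])]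
    refine gOf_ge (hAB _).1 (hgB2 l1 l2 _ (sv_mem D k u).2) ?_
    rw [eA _ hm]
    exact hl
  -- phase A
  have hcs : Continuous fun u : ℝ => Real.sqrt (1 - eta ^ 2 * u ^ 2) := by fun_prop
  have hii : IntervalIntegrable
      (fun u => Real.sqrt (1 - eta ^ 2 * u ^ 2) * g u + eta * sv D k u) volume 0 (1 / 10) := by
    refine ii_of_bdd (M := 1 * 2 + eta * 1) ?_ (fun u => ?_) _ _
    · exact (hcs.measurable.mul hgm).add (hSm.const_mul eta)
    · have h1 : Real.sqrt (1 - eta ^ 2 * u ^ 2) ≤ 1 := by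
        rw [Real.sqrt_le_one]
        have : 0 ≤ eta ^ 2 * u ^ 2 := by positivity
        linarith
      have h2 := Real.sqrt_nonneg (1 - eta ^ 2 * u ^ 2)
      have h3 := hgmem u
      have h4 := sv_mem D k u
      rw [abs_of_nonneg (add_nonneg (mul_nonneg h2 h3.1) (mul_nonneg he h4.1))]
      exact add_le_add (mul_le_mul h1 h3.2 h3.1 zero_le_one) (mul_le_mul_of_nonneg_left h4.2 he)
  have h3 : ∫ u in (0 : ℝ)..(1 / 10), (Real.sqrt (1 - eta ^ 2 * u ^ 2) * gA hA sg +
      (eta - lam) * sg + lam * sv D k u) ≤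
      ∫ u in (0 : ℝ)..(1 / 10), (Real.sqrt (1 - eta ^ 2 * u ^ 2) * g u + eta * sv D k u) := by
    refine intervalIntegral.integral_mono_on_of_le_Ioo (by norm_num)
      ((((hcs.intervalIntegrable _ _).mul_const _).add intervalIntegrable_const).add
        ((hSi _ _).const_mul lam)) hii (fun u hu => ?_)
    simp only [hg]
    rw [if_pos hu.2]
    refine phaseA hA1 (hsg.trans (max_le (sv_anti D hD k hu.2.le) (hSA u hu.2)))
      ((sv_anti D hD k hu.1.le).trans hsm) hsm1 (Real.sqrt_nonneg _) ?_ hc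
    rw [Real.sqrt_le_one]
    have : 0 ≤ eta ^ 2 * u ^ 2 := by positivity
    linarith
  rw [intervalIntegral.integral_add intervalIntegrable_const ((hSi _ _).const_mul lam),
    intervalIntegral.integral_const_mul] at h2
  rw [intervalIntegral.integral_add (((hcs.intervalIntegrable _ _).mul_const _).add
    intervalIntegrable_const) ((hSi _ _).const_mul lam),
    intervalIntegral.integral_add ((hcs.intervalIntegrable _ _).mul_const _)
    intervalIntegrable_const, intervalIntegral.integral_mul_const,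
    intervalIntegral.integral_const_mul] at h3
  simp only [intervalIntegral.integral_const, intervalIntegral.integral_const_mul, sub_zero,
    smul_eq_mul] at h2 h3
  have h4 : (∫ u in (0 : ℝ)..(1 / 10), sv D k u) + ∫ u in (1 / 10 : ℝ)..1, sv D k u =
      vol01 D := by
    rw [intervalIntegral.integral_add_adjacent_intervals (hSi _ _) (hSi _ _), sv_integral D hO k]
  have h5 : (∫ u in (0 : ℝ)..(1 / 10), Real.sqrt (1 - eta ^ 2 * u ^ 2)) = Kf (1 / 10) eta := rfl
  rw [h5] at h3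
  rw [← h4, mul_add]
  linarith

end Crest.Agent.T3
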