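import Crest.Agent.T3.R3Def
import Crest.Agent.IT.StdFinal

/-! Row 214: `F10` is an upper bound of the Legendre transform of the profile. -/

set_option autoImplicit false
open MeasureTheory Set

namespace Crest.Agent.T3.Pl

theorem ftab_amgm (p q b : ℝ) (hp : 0 ≤ p) (hq : 0 ≤ q) (hb : b ^ 3 ≤ 27 * p * q ^ 2) :
    b ≤ p + 2 * q := by
  by_contra h
  push Not at h
  have h1 : (p + 2 * q) ^ 3 < b ^ 3 := pow_lt_pow_left₀ h (by positivity) (by norm_num)
  have h2 : 0 ≤ (p - q) ^ 2 * (p + 8 * q) := by positivity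
  nlinarith

theorem ftab_div (A L : ℕ) (hL : 0 < L) : (A : ℝ) / (L : ℝ) ≤ ((A / L + 1 : ℕ) : ℝ) := by
  have hL' : (0 : ℝ) < L := by exact_mod_cast hL
  rw [div_le_iff₀ hL']
  have h := Nat.lt_mul_div_succ A hL
  have h' : (A : ℝ) < ((L * (A / L + 1) : ℕ) : ℝ) := by exact_mod_cast h
  push_cast at h' ⊢
  linarith

/-- Proof: `f V := prof V / 2 = min (min ((9π/2)^(1/3) V^(2/3)) (sqrt(πV))) 1`. With `l = lam/10^4`:
(a) `0 ≤ l ≤ π/2`: if `V ≥ 1/π`: `1 - lV ≤ 1 - l/π`; else `sqrt(πV) ≤ 1/2 + πV/2` and `(π/2 - l) V ≤ (π/2 - l)/π`.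
(b) `sqrt(πV) ≤ π/(4l) + l V` (AM-GM) for all `l > 0`.
(c) `(9π/2)^(1/3) V^(2/3) ≤ 2π/(3l²) + l V` for all `l > 0` (three-term AM-GM, or: `y = (9π/2)^(1/3) V^(2/3)` has
`y³ = 9π/2 V²`, so `V = sqrt(2 y³/(9π))`).
(d) `9/4 ≤ l ≤ 3`: `≤ 2π/9 - 4πl/81` (the maximum is at `V = 4π/81`: for `V ≥ 4π/81` use `sqrt(πV) ≤` tangent of
slope `9/4` at `4π/81`, for `V ≤ 4π/81` the tangent of slope `3` of `V^(2/3)`).
Numerics: `1/π ≥ .3183098…`, `π/4 ≤ .7853981634`, `2π/9 ≤ .69813170080`, `4π/81 ≥ .1551403`, `2π/3 ≤ 2.0943951024`. -/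
theorem F10_le (lam : ℕ) (V : ℝ) (hV : 0 < V) (hV2 : V ≤ 1 / 2) :
    Crest.Agent.IT.prof V / 2 - (lam : ℝ) / 10000 * V ≤ (F10 lam : ℝ) / 10000000000 := by
  have hpi1 : Real.pi < 3.14159265358979323847 := Real.pi_lt_d20
  have hpi2 : 3.14159265358979323846 < Real.pi := Real.pi_gt_d20
  have hpi0 : 0 < Real.pi := Real.pi_pos
  set x : ℝ := Crest.Agent.IT.prof V / 2 with hx
  set b : ℝ := (36 * Real.pi) ^ ((1 : ℝ) / 3) * V ^ ((2 : ℝ) / 3) / 2 with hb
  set c : ℝ := Real.sqrt (Real.pi * V) with hc
  have hx1 : x ≤ 1 := by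
    have : Crest.Agent.IT.prof V ≤ 2 := min_le_right _ _
    linarith
  have hxb : x ≤ b := by
    have : Crest.Agent.IT.prof V ≤ (36 * Real.pi) ^ ((1 : ℝ) / 3) * V ^ ((2 : ℝ) / 3) :=
      (min_le_left _ _).trans (min_le_left _ _)
    linarith
  have hxc : x ≤ c := by
    have : Crest.Agent.IT.prof V ≤ 2 * Real.sqrt (Real.pi * V) :=
      (min_le_left _ _).trans (min_le_right _ _)
    linarith
  have hb3 : b ^ 3 = 9 / 2 * Real.pi * V ^ 2 := by
    have := Crest.Agent.IT.beta_pow V hV.le
    rw [hb, div_pow, this]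
    ring
  have hc2 : c ^ 2 = Real.pi * V := Real.sq_sqrt (by positivity)
  have hc0 : 0 ≤ c := Real.sqrt_nonneg _
  clear_value x b c
  set l : ℝ := (lam : ℝ) / 10000 with hl
  have hlam : (lam : ℝ) = 10000 * l := by rw [hl]; ring
  have hl0 : 0 ≤ l := by rw [hl]; positivity
  rw [le_div_iff₀ (by norm_num : (0 : ℝ) < 10000000000)]
  unfold F10
  by_cases h1 : lam ≤ 15707
  · rw [if_pos (Nat.ble_eq_true_of_le h1)]
    have hsub : lam * 318309 ≤ 10000000000 := by omega
    rw [Nat.cast_sub hsub]
    push_cast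
    rw [hlam]
    have hl1 : l ≤ 1.5707 := by
      have : (lam : ℝ) ≤ 15707 := by exact_mod_cast h1
      rw [hl]
      linarith
    have hV1 : (0.318309 : ℝ) ≤ 1 / Real.pi := by
      rw [le_div_iff₀ hpi0]
      nlinarith
    have hmain : x - l * V ≤ 1 - l * (1 / Real.pi) := by
      rcases le_total (1 / Real.pi) V with hcase | hcase
      · have := mul_le_mul_of_nonneg_left hcase hl0
        linarith
      · have h3 : c ≤ (1 + Real.pi * V) / 2 := by nlinarith [sq_nonneg (c - 1)]
        have h4 : (Real.pi / 2 - l) * V ≤ (Real.pi / 2 - l) * (1 / Real.pi) :=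
          mul_le_mul_of_nonneg_left hcase (by linarith)
        have h5 : Real.pi / 2 * (1 / Real.pi) = 1 / 2 := by field_simp
        nlinarith
    have h6 := mul_le_mul_of_nonneg_left hV1 hl0
    nlinarith
  · rw [if_neg (by simpa using h1)]
    by_cases h2 : lam ≤ 22500
    · rw [if_pos (Nat.ble_eq_true_of_le h2)]
      have hlpos : 0 < lam := by omega
      have hd := ftab_div 78539817000000 lam hlpos
      refine le_trans ?_ hd
      have hl' : (0 : ℝ) < lam := by exact_mod_cast hlpos
      rw [le_div_iff₀ hl']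
      have hlp : 0 < l := by rw [hl]; positivity
      -- 4 l (c - l V) ≤ π
      have h3 : 4 * l * (c - l * V) ≤ Real.pi := by
        have h4 : 0 ≤ (Real.pi - 2 * l * c) ^ 2 := sq_nonneg _
        have h5 : (Real.pi - 2 * l * c) ^ 2 =
            Real.pi * (Real.pi - 4 * l * (c - l * V)) := by
          have : c ^ 2 = Real.pi * V := hc2
          calc (Real.pi - 2 * l * c) ^ 2 = Real.pi ^ 2 - 4 * Real.pi * l * c + 4 * l ^ 2 * c ^ 2 := by ring
            _ = _ := by rw [this]; ring
        rw [h5] at h4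
        have := nonneg_of_mul_nonneg_right h4 hpi0
        linarith
      have h6 : x - l * V ≤ c - l * V := by linarith
      have h7 : (x - l * V) * (4 * l) ≤ Real.pi :=
        (mul_le_mul_of_nonneg_right h6 (by positivity)).trans (by linarith)
      rw [hlam]
      push_cast
      nlinarith
    · rw [if_neg (by simpa using h2)]
      by_cases h3 : lam ≤ 30000
      · rw [if_pos (Nat.ble_eq_true_of_le h3)]
        have hsub : lam * 155140 ≤ 6981317009 := by omega
        rw [Nat.cast_sub hsub]
        push_cast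
        rw [hlam]
        have hl1 : l ≤ 3 := by
          have : (lam : ℝ) ≤ 30000 := by exact_mod_cast h3
          rw [hl]
          linarith
        have hl2 : 9 / 4 ≤ l := by
          have : (22500 : ℝ) ≤ lam := by
            have : 22500 ≤ lam := by omega
            exact_mod_cast this
          rw [hl]
          linarith
        have hmain : x - l * V ≤ 2 * Real.pi / 9 - l * (4 * Real.pi / 81) := by
          rcases le_total (4 * Real.pi / 81) V with hcase | hcase
          · have h4 : c ≤ Real.pi / 9 + 9 / 4 * V := by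
              have h5 : 0 ≤ (c - 2 * Real.pi / 9) ^ 2 := sq_nonneg _
              have h6 : 4 * Real.pi / 9 * c ≤ 4 * Real.pi / 9 * (Real.pi / 9 + 9 / 4 * V) := by
                nlinarith
              exact le_of_mul_le_mul_left h6 (by positivity)
            have h7 : (l - 9 / 4) * (4 * Real.pi / 81) ≤ (l - 9 / 4) * V :=
              mul_le_mul_of_nonneg_left hcase (by linarith)
            nlinarith
          · have h4 : b ≤ 2 * Real.pi / 27 + 2 * (3 * V / 2) := by
              refine ftab_amgm _ _ _ (by positivity) (by positivity) ?_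
              rw [hb3]
              apply le_of_eq
              ring
            have h7 : (3 - l) * V ≤ (3 - l) * (4 * Real.pi / 81) :=
              mul_le_mul_of_nonneg_left hcase (by linarith)
            nlinarith
        have h8 : (0.155140 : ℝ) ≤ 4 * Real.pi / 81 := by linarith
        have h9 := mul_le_mul_of_nonneg_left h8 hl0
        nlinarith
      · rw [if_neg (by simpa using h3)]
        have hlpos : 0 < lam := by omega
        have hd := ftab_div 2094395102400000000 (lam * lam) (Nat.mul_pos hlpos hlpos)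
        refine le_trans ?_ hd
        have hl' : (0 : ℝ) < lam := by exact_mod_cast hlpos
        push_cast
        rw [le_div_iff₀ (by positivity), hlam]
        have hlp : 0 < l := by rw [hl]; positivity
        have h4 : b ≤ 2 * Real.pi / (3 * l ^ 2) + 2 * (l * V / 2) := by
          refine ftab_amgm _ _ _ (by positivity) (by positivity) ?_
          rw [hb3]
          apply le_of_eq
          field_simp
          ring
        have h5 : x - l * V ≤ 2 * Real.pi / (3 * l ^ 2) := by linarith
        have h6 : (x - l * V) * (3 * l ^ 2) ≤ 2 * Real.pi := by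
          have := mul_le_mul_of_nonneg_right h5 (by positivity : (0 : ℝ) ≤ 3 * l ^ 2)
          rwa [div_mul_cancel₀ _ (by positivity)] at this
        nlinarith

end Crest.Agent.T3.Pl
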