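import Crest.Agent.T3.Defs

/-! Row 214, chunk T3-KF: the function `Kf m l = ∫_0^m sqrt(1 - l²u²) du`. -/

set_option autoImplicit false
open MeasureTheory Set Filter Topology

namespace Crest.Agent.T3

private theorem kf_cont (l : ℝ) : Continuous (fun u : ℝ => Real.sqrt (1 - l ^ 2 * u ^ 2)) := by
  fun_prop

theorem Kf_mono (m m' l : ℝ) (h0 : 0 ≤ m) (h : m ≤ m') : Kf m l ≤ Kf m' l := by
  have h1 : Kf m' l = Kf m l + ∫ u in m..m', Real.sqrt (1 - l ^ 2 * u ^ 2) := by
    unfold Kf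
    rw [intervalIntegral.integral_add_adjacent_intervals]
    · exact (kf_cont l).intervalIntegrable _ _
    · exact (kf_cont l).intervalIntegrable _ _
  have h2 : 0 ≤ ∫ u in m..m', Real.sqrt (1 - l ^ 2 * u ^ 2) :=
    intervalIntegral.integral_nonneg h (fun u _ => Real.sqrt_nonneg _)
  linarith

/-- closed form for `0 < l ≤ 1`, `0 ≤ m`, `l m ≤ 1`:
`∫_0^m sqrt(1-l²u²) du = (m sqrt(1-l²m²) + arcsin(l m)/l)/2`. -/
private theorem Kf_closed' (m l : ℝ) (hm : 0 ≤ m) (hl : 0 < l) (hml : l * m ≤ 1) :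
    Kf m l = (m * Real.sqrt (1 - l ^ 2 * m ^ 2) + Real.arcsin (l * m) / l) / 2 := by
  have key := intervalIntegral.integral_eq_sub_of_hasDerivAt_of_le (a := 0) (b := m)
    (f := fun u => (u * Real.sqrt (1 - l ^ 2 * u ^ 2) + Real.arcsin (l * u) / l) / 2)
    (f' := fun u => Real.sqrt (1 - l ^ 2 * u ^ 2)) hm
    (by
      apply Continuous.continuousOn
      have h1 := Real.continuous_arcsin
      fun_prop)
    (by
      intro u hu
      have hu0 : 0 < u := hu.1
      have hlu : l * u < 1 := lt_of_lt_of_le (mul_lt_mul_of_pos_left hu.2 hl) hml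
      have hlu0 : 0 < l * u := mul_pos hl hu0
      have hpos : 0 < 1 - l ^ 2 * u ^ 2 := by nlinarith
      set w := Real.sqrt (1 - l ^ 2 * u ^ 2) with hw
      have hwpos : 0 < w := Real.sqrt_pos.2 hpos
      have hww : w * w = 1 - l ^ 2 * u ^ 2 := Real.mul_self_sqrt hpos.le
      have d1 : HasDerivAt (fun u : ℝ => 1 - l ^ 2 * u ^ 2) (-(l ^ 2 * (2 * u))) u := by
        have := ((hasDerivAt_pow 2 u).const_mul (l ^ 2)).const_sub 1
        simpa using this
      have d2 : HasDerivAt (fun u : ℝ => Real.sqrt (1 - l ^ 2 * u ^ 2))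
          (-(l ^ 2 * (2 * u)) / (2 * w)) u := d1.sqrt hpos.ne'
      have d3 : HasDerivAt (fun u : ℝ => u * Real.sqrt (1 - l ^ 2 * u ^ 2))
          (1 * w + u * (-(l ^ 2 * (2 * u)) / (2 * w))) u := (hasDerivAt_id u).mul d2
      have d4 : HasDerivAt (fun u : ℝ => l * u) l u := by
        simpa using (hasDerivAt_id u).const_mul l
      have d5 : HasDerivAt (fun u : ℝ => Real.arcsin (l * u))
          (1 / Real.sqrt (1 - (l * u) ^ 2) * l) u :=
        (Real.hasDerivAt_arcsin (by linarith) (by linarith)).comp u d4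
      have d6 := ((d3.add (d5.div_const l)).div_const 2)
      refine d6.congr_deriv ?_
      have h7 : Real.sqrt (1 - (l * u) ^ 2) = w := by rw [hw, mul_pow]
      rw [h7]
      field_simp
      nlinarith [hww])
    ((kf_cont l).intervalIntegrable _ _)
  unfold Kf
  rw [key]
  simp

/-- `∫_0^{1/l} sqrt(1-l²u²) du = π/(4l)` (substitution `v = l u`, `∫_0^1 sqrt(1-v²) = π/4`,
`integral_sqrt_one_sub_sq` gives `∫_{-1}^1 = π/2`). -/
theorem Kf_full (l : ℝ) (hl : 0 < l) : Kf (1 / l) l = Real.pi / (4 * l) := by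
  have h1 : l * (1 / l) = 1 := by field_simp
  rw [Kf_closed' (1 / l) l (by positivity) hl h1.le, h1, Real.arcsin_one]
  have h2 : 1 - l ^ 2 * (1 / l) ^ 2 = 0 := by
    rw [← mul_pow, h1]
    norm_num
  rw [h2, Real.sqrt_zero]
  field_simp
  ring

/-- hence `Kf m l ≤ π/(4l)` for all `m ≥ 0` with equality for `m ≥ 1/l`. -/
theorem Kf_le (m l : ℝ) (hm : 0 ≤ m) (hl : 0 < l) : Kf m l ≤ Real.pi / (4 * l) := by
  rcases le_total m (1 / l) with h | h
  · rw [← Kf_full l hl]
    exact Kf_mono m (1 / l) l hm h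
  · rw [← Kf_full l hl]
    have h1 : Kf m l = Kf (1 / l) l + ∫ u in (1 / l)..m, Real.sqrt (1 - l ^ 2 * u ^ 2) := by
      unfold Kf
      rw [intervalIntegral.integral_add_adjacent_intervals]
      · exact (kf_cont l).intervalIntegrable _ _
      · exact (kf_cont l).intervalIntegrable _ _
    have h2 : ∫ u in (1 / l)..m, Real.sqrt (1 - l ^ 2 * u ^ 2) = 0 := by
      rw [intervalIntegral.integral_congr (g := fun _ => (0 : ℝ))]
      · simp
      · intro u hu
        rw [uIcc_of_le h] at hu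
        have h3 : 1 ≤ l * u := by
          have := mul_le_mul_of_nonneg_left hu.1 hl.le
          have h4 : l * (1 / l) = 1 := by field_simp
          linarith
        show Real.sqrt (1 - l ^ 2 * u ^ 2) = 0
        apply Real.sqrt_eq_zero_of_nonpos
        nlinarith
    rw [h1, h2, add_zero]

/-- closed form for `0 < l ≤ 1`, `0 ≤ m`, `l m ≤ 1`:
`∫_0^m sqrt(1-l²u²) du = (m sqrt(1-l²m²) + arcsin(l m)/l)/2`. -/
theorem Kf_closed (m l : ℝ) (hm : 0 ≤ m) (hl : 0 < l) (hml : l * m ≤ 1) :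
    Kf m l = (m * Real.sqrt (1 - l ^ 2 * m ^ 2) + Real.arcsin (l * m) / l) / 2 :=
  Kf_closed' m l hm hl hml

/-- `Kf` is continuous in both variables on `m ≥ 0`. -/
theorem Kf_continuous : Continuous (fun p : ℝ × ℝ => Kf p.1 p.2) := by
  unfold Kf
  refine intervalIntegral.continuous_parametric_intervalIntegral_of_continuous
    (f := fun (p : ℝ × ℝ) (u : ℝ) => Real.sqrt (1 - p.2 ^ 2 * u ^ 2)) ?_ continuous_fst
  unfold Function.uncurry
  fun_prop

end Crest.Agent.T3
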