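import Crest.Agent.T3.R3Def
import Crest.Agent.T3.KfLemmas

/-! Row 214: the tables `Ktab`, `Ktab9` are lower bounds of `10^6 Kf 1 (m/20)`, `10^6 Kf (9/10) (m/20)`. -/

set_option autoImplicit false
open MeasureTheory Set

namespace Crest.Agent.T3.Pl

theorem ktab_mono (f g f' g' : ℝ → ℝ) (hf : ∀ x, HasDerivAt f (f' x) x)
    (hg : ∀ x, HasDerivAt g (g' x) x) (h0 : f 0 ≤ g 0) (h : ∀ x, 0 ≤ x → f' x ≤ g' x) :
    ∀ x, 0 ≤ x → f x ≤ g x := by
  intro x hx
  have hd : ∀ y, HasDerivAt (fun y => g y - f y) (g' y - f' y) y := fun y => (hg y).sub (hf y)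
  have hm : MonotoneOn (fun y => g y - f y) (Ici (0 : ℝ)) := by
    apply monotoneOn_of_deriv_nonneg (convex_Ici 0)
    · exact fun y _ => (hd y).continuousAt.continuousWithinAt
    · exact fun y _ => (hd y).differentiableAt.differentiableWithinAt
    · intro y hy
      rw [interior_Ici] at hy
      rw [(hd y).deriv]
      have := h y (le_of_lt hy)
      linarith
  have := hm (mem_Ici.2 le_rfl) (mem_Ici.2 hx) hx
  simp only at this
  linarith

theorem ktab_d (n : ℕ) (c : ℝ) (x : ℝ) : HasDerivAt (fun y : ℝ => y ^ (n + 1) / c)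
    (((n : ℝ) + 1) * x ^ n / c) x := by
  have := (hasDerivAt_pow (n + 1) x).div_const c
  simpa using this

theorem ktab_sin9 (x : ℝ) (hx : 0 ≤ x) :
    Real.sin x ≤ x - x ^ 3 / 6 + x ^ 5 / 120 - x ^ 7 / 5040 + x ^ 9 / 362880 := by
  have hs := Real.hasDerivAt_sin
  have hc := Real.hasDerivAt_cos
  have hid : ∀ x : ℝ, HasDerivAt (fun y : ℝ => y) 1 x := fun x => hasDerivAt_id' x
  -- sin x ≤ x
  have a1 : ∀ x : ℝ, 0 ≤ x → Real.sin x ≤ x :=
    ktab_mono Real.sin (fun y => y) Real.cos (fun _ => 1) hs hid (by simp)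
      (fun x _ => Real.cos_le_one x)
  have a2 : ∀ x : ℝ, 0 ≤ x → 1 - x ^ 2 / 2 ≤ Real.cos x := by
    refine ktab_mono (fun y => 1 - y ^ 2 / 2) Real.cos (fun x => 0 - ((1 : ℕ) + 1) * x ^ 1 / 2)
      (fun x => -Real.sin x) (fun x => (hasDerivAt_const x (1 : ℝ)).sub (ktab_d 1 2 x)) hc (by simp) ?_
    intro x hx
    have := a1 x hx
    push_cast
    nlinarith
  have a3 : ∀ x : ℝ, 0 ≤ x → x - x ^ 3 / 6 ≤ Real.sin x := by
    refine ktab_mono (fun y => y - y ^ 3 / 6) Real.sin (fun x => 1 - ((2 : ℕ) + 1) * x ^ 2 / 6)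
      Real.cos (fun x => (hid x).sub (ktab_d 2 6 x)) hs (by simp) ?_
    intro x hx
    have := a2 x hx
    push_cast
    nlinarith
  have a4 : ∀ x : ℝ, 0 ≤ x → Real.cos x ≤ 1 - x ^ 2 / 2 + x ^ 4 / 24 := by
    refine ktab_mono Real.cos (fun y => 1 - y ^ 2 / 2 + y ^ 4 / 24) (fun x => -Real.sin x)
      (fun x => 0 - ((1 : ℕ) + 1) * x ^ 1 / 2 + ((3 : ℕ) + 1) * x ^ 3 / 24) hc
      (fun x => ((hasDerivAt_const x (1 : ℝ)).sub (ktab_d 1 2 x)).add (ktab_d 3 24 x)) (by simp) ?_
    intro x hx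
    have := a3 x hx
    push_cast
    nlinarith
  have a5 : ∀ x : ℝ, 0 ≤ x → Real.sin x ≤ x - x ^ 3 / 6 + x ^ 5 / 120 := by
    refine ktab_mono Real.sin (fun y => y - y ^ 3 / 6 + y ^ 5 / 120) Real.cos
      (fun x => 1 - ((2 : ℕ) + 1) * x ^ 2 / 6 + ((4 : ℕ) + 1) * x ^ 4 / 120) hs
      (fun x => ((hid x).sub (ktab_d 2 6 x)).add (ktab_d 4 120 x)) (by simp) ?_
    intro x hx
    have := a4 x hx
    push_cast
    nlinarith
  have a6 : ∀ x : ℝ, 0 ≤ x → 1 - x ^ 2 / 2 + x ^ 4 / 24 - x ^ 6 / 720 ≤ Real.cos x := by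
    refine ktab_mono (fun y => 1 - y ^ 2 / 2 + y ^ 4 / 24 - y ^ 6 / 720) Real.cos
      (fun x => 0 - ((1 : ℕ) + 1) * x ^ 1 / 2 + ((3 : ℕ) + 1) * x ^ 3 / 24 -
        ((5 : ℕ) + 1) * x ^ 5 / 720) (fun x => -Real.sin x)
      (fun x => (((hasDerivAt_const x (1 : ℝ)).sub (ktab_d 1 2 x)).add (ktab_d 3 24 x)).sub
        (ktab_d 5 720 x)) hc (by simp) ?_
    intro x hx
    have := a5 x hx
    push_cast
    nlinarith
  have a7 : ∀ x : ℝ, 0 ≤ x → x - x ^ 3 / 6 + x ^ 5 / 120 - x ^ 7 / 5040 ≤ Real.sin x := by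
    refine ktab_mono (fun y => y - y ^ 3 / 6 + y ^ 5 / 120 - y ^ 7 / 5040) Real.sin
      (fun x => 1 - ((2 : ℕ) + 1) * x ^ 2 / 6 + ((4 : ℕ) + 1) * x ^ 4 / 120 -
        ((6 : ℕ) + 1) * x ^ 6 / 5040) Real.cos
      (fun x => (((hid x).sub (ktab_d 2 6 x)).add (ktab_d 4 120 x)).sub (ktab_d 6 5040 x)) hs
      (by simp) ?_
    intro x hx
    have := a6 x hx
    push_cast
    nlinarith
  have a8 : ∀ x : ℝ, 0 ≤ x →
      Real.cos x ≤ 1 - x ^ 2 / 2 + x ^ 4 / 24 - x ^ 6 / 720 + x ^ 8 / 40320 := by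
    refine ktab_mono Real.cos (fun y => 1 - y ^ 2 / 2 + y ^ 4 / 24 - y ^ 6 / 720 + y ^ 8 / 40320)
      (fun x => -Real.sin x)
      (fun x => 0 - ((1 : ℕ) + 1) * x ^ 1 / 2 + ((3 : ℕ) + 1) * x ^ 3 / 24 -
        ((5 : ℕ) + 1) * x ^ 5 / 720 + ((7 : ℕ) + 1) * x ^ 7 / 40320) hc
      (fun x => ((((hasDerivAt_const x (1 : ℝ)).sub (ktab_d 1 2 x)).add (ktab_d 3 24 x)).sub
        (ktab_d 5 720 x)).add (ktab_d 7 40320 x)) (by simp) ?_
    intro x hx
    have := a7 x hx
    push_cast
    nlinarith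
  refine ktab_mono Real.sin
    (fun y => y - y ^ 3 / 6 + y ^ 5 / 120 - y ^ 7 / 5040 + y ^ 9 / 362880) Real.cos
    (fun x => 1 - ((2 : ℕ) + 1) * x ^ 2 / 6 + ((4 : ℕ) + 1) * x ^ 4 / 120 -
        ((6 : ℕ) + 1) * x ^ 6 / 5040 + ((8 : ℕ) + 1) * x ^ 8 / 362880) hs
    (fun x => ((((hid x).sub (ktab_d 2 6 x)).add (ktab_d 4 120 x)).sub (ktab_d 6 5040 x)).add
      (ktab_d 8 362880 x)) (by simp) ?_ x hx
  intro x hx
  have := a8 x hx
  push_cast
  nlinarith

theorem ktab_gen (M l s t c : ℝ) (hM : 0 ≤ M) (hl : 0 < l) (hlM : l * M ≤ 1) (hs : 0 ≤ s)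
    (hs2 : s ^ 2 ≤ 1 - l ^ 2 * M ^ 2) (ht0 : 0 ≤ t) (ht1 : t ≤ 3 / 2)
    (hsin : t - t ^ 3 / 6 + t ^ 5 / 120 - t ^ 7 / 5040 + t ^ 9 / 362880 ≤ l * M)
    (hc : c ≤ (M * s + t / l) / 2) : c ≤ Kf M l := by
  rw [Kf_closed M l hM hl hlM]
  have h1 : s ≤ Real.sqrt (1 - l ^ 2 * M ^ 2) := Real.le_sqrt_of_sq_le hs2
  have hpi : (3 : ℝ) < Real.pi := Real.pi_gt_three
  have h2 : t ≤ Real.arcsin (l * M) := by
    rw [Real.le_arcsin_iff_sin_le ⟨by linarith, by linarith⟩
      ⟨by linarith [mul_nonneg hl.le hM], hlM⟩]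
    exact (ktab_sin9 t ht0).trans hsin
  have h3 : M * s ≤ M * Real.sqrt (1 - l ^ 2 * M ^ 2) := mul_le_mul_of_nonneg_left h1 hM
  have h4 : t / l ≤ Real.arcsin (l * M) / l := div_le_div_of_nonneg_right h2 hl.le
  linarith

theorem ktab_zero (M : ℝ) : Kf M 0 = M := by
  unfold Kf
  simp

/-- Hint: `Kf_closed` gives `Kf m l = (m sqrt(1-l²m²) + arcsin(l m)/l)/2`; `arcsin y ≥ t` iff `sin t ≤ y`
(Taylor upper bound of `sin t` with a rational `t`), or: the integrand is concave in `u`, trapezoid rule. -/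
theorem kt_le (m : ℕ) (h : m ≤ 20) : (kt m : ℝ) / 1000000 ≤ Kf 1 ((m : ℝ) / 20) := by
  interval_cases m
  · rw [show (((0 : ℕ) : ℝ) / 20) = 0 by norm_num, ktab_zero]
    norm_num [kt, Ktab]
  · exact ktab_gen 1 ((1 : ℕ) / 20) (2496873 / 2500000) (31263 / 625000) _ (by norm_num) (by norm_num) (by norm_num)
      (by norm_num) (by norm_num) (by norm_num) (by norm_num) (by norm_num)
      (by norm_num [kt, kt9, Ktab, Ktab9])
  · exact ktab_gen 1 ((2 : ℕ) / 20) (4974937 / 5000000) (500837 / 5000000) _ (by norm_num) (by norm_num) (by norm_num)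
      (by norm_num) (by norm_num) (by norm_num) (by norm_num) (by norm_num)
      (by norm_num [kt, kt9, Ktab, Ktab9])
  · exact ktab_gen 1 ((3 : ℕ) / 20) (9886859 / 10000000) (752841 / 5000000) _ (by norm_num) (by norm_num) (by norm_num)
      (by norm_num) (by norm_num) (by norm_num) (by norm_num) (by norm_num)
      (by norm_num [kt, kt9, Ktab, Ktab9])
  · exact ktab_gen 1 ((4 : ℕ) / 20) (4898979 / 5000000) (2013579 / 10000000) _ (by norm_num) (by norm_num) (by norm_num)
      (by norm_num) (by norm_num) (by norm_num) (by norm_num) (by norm_num)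
      (by norm_num [kt, kt9, Ktab, Ktab9])
  · exact ktab_gen 1 ((5 : ℕ) / 20) (4841229 / 5000000) (1263401 / 5000000) _ (by norm_num) (by norm_num) (by norm_num)
      (by norm_num) (by norm_num) (by norm_num) (by norm_num) (by norm_num)
      (by norm_num [kt, kt9, Ktab, Ktab9])
  · exact ktab_gen 1 ((6 : ℕ) / 20) (149053 / 156250) (1523463 / 5000000) _ (by norm_num) (by norm_num) (by norm_num)
      (by norm_num) (by norm_num) (by norm_num) (by norm_num) (by norm_num)
      (by norm_num [kt, kt9, Ktab, Ktab9])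
  · exact ktab_gen 1 ((7 : ℕ) / 20) (1170937 / 1250000) (3575711 / 10000000) _ (by norm_num) (by norm_num) (by norm_num)
      (by norm_num) (by norm_num) (by norm_num) (by norm_num) (by norm_num)
      (by norm_num [kt, kt9, Ktab, Ktab9])
  · exact ktab_gen 1 ((8 : ℕ) / 20) (9165151 / 10000000) (128599 / 312500) _ (by norm_num) (by norm_num) (by norm_num)
      (by norm_num) (by norm_num) (by norm_num) (by norm_num) (by norm_num)
      (by norm_num [kt, kt9, Ktab, Ktab9])
  · exact ktab_gen 1 ((9 : ℕ) / 20) (1786057 / 2000000) (4667653 / 10000000) _ (by norm_num) (by norm_num) (by norm_num)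
      (by norm_num) (by norm_num) (by norm_num) (by norm_num) (by norm_num)
      (by norm_num [kt, kt9, Ktab, Ktab9])
  · exact ktab_gen 1 ((10 : ℕ) / 20) (4330127 / 5000000) (5235987 / 10000000) _ (by norm_num) (by norm_num) (by norm_num)
      (by norm_num) (by norm_num) (by norm_num) (by norm_num) (by norm_num)
      (by norm_num [kt, kt9, Ktab, Ktab9])
  · exact ktab_gen 1 ((11 : ℕ) / 20) (4175823 / 5000000) (2911821 / 5000000) _ (by norm_num) (by norm_num) (by norm_num)
      (by norm_num) (by norm_num) (by norm_num) (by norm_num) (by norm_num)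
      (by norm_num [kt, kt9, Ktab, Ktab9])
  · exact ktab_gen 1 ((12 : ℕ) / 20) (4 / 5) (6435011 / 10000000) _ (by norm_num) (by norm_num) (by norm_num)
      (by norm_num) (by norm_num) (by norm_num) (by norm_num) (by norm_num)
      (by norm_num [kt, kt9, Ktab, Ktab9])
  · exact ktab_gen 1 ((13 : ℕ) / 20) (3799671 / 5000000) (1768961 / 2500000) _ (by norm_num) (by norm_num) (by norm_num)
      (by norm_num) (by norm_num) (by norm_num) (by norm_num) (by norm_num)
      (by norm_num [kt, kt9, Ktab, Ktab9])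
  · exact ktab_gen 1 ((14 : ℕ) / 20) (1785357 / 2500000) (3876987 / 5000000) _ (by norm_num) (by norm_num) (by norm_num)
      (by norm_num) (by norm_num) (by norm_num) (by norm_num) (by norm_num)
      (by norm_num [kt, kt9, Ktab, Ktab9])
  · exact ktab_gen 1 ((15 : ℕ) / 20) (3307189 / 5000000) (424031 / 500000) _ (by norm_num) (by norm_num) (by norm_num)
      (by norm_num) (by norm_num) (by norm_num) (by norm_num) (by norm_num)
      (by norm_num [kt, kt9, Ktab, Ktab9])
  · exact ktab_gen 1 ((16 : ℕ) / 20) (3 / 5) (9272951 / 10000000) _ (by norm_num) (by norm_num) (by norm_num)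
      (by norm_num) (by norm_num) (by norm_num) (by norm_num) (by norm_num)
      (by norm_num [kt, kt9, Ktab, Ktab9])
  · exact ktab_gen 1 ((17 : ℕ) / 20) (2633913 / 5000000) (2539963 / 2500000) _ (by norm_num) (by norm_num) (by norm_num)
      (by norm_num) (by norm_num) (by norm_num) (by norm_num) (by norm_num)
      (by norm_num [kt, kt9, Ktab, Ktab9])
  · exact ktab_gen 1 ((18 : ℕ) / 20) (2179449 / 5000000) (11197693 / 10000000) _ (by norm_num) (by norm_num) (by norm_num)
      (by norm_num) (by norm_num) (by norm_num) (by norm_num) (by norm_num)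
      (by norm_num [kt, kt9, Ktab, Ktab9])
  · exact ktab_gen 1 ((19 : ℕ) / 20) (1561249 / 5000000) (12532349 / 10000000) _ (by norm_num) (by norm_num) (by norm_num)
      (by norm_num) (by norm_num) (by norm_num) (by norm_num) (by norm_num)
      (by norm_num [kt, kt9, Ktab, Ktab9])
  · rw [show (((20 : ℕ) : ℝ) / 20) = 1 by norm_num]
    have h1 := Kf_full 1 one_pos
    rw [div_one, mul_one] at h1
    rw [h1]
    have := Real.pi_gt_d6
    have e : (kt 20 : ℝ) = 785393 := by norm_num [kt, Ktab]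
    rw [e]
    linarith

theorem kt9_le (m : ℕ) (h : m ≤ 20) : (kt9 m : ℝ) / 1000000 ≤ Kf (9 / 10) ((m : ℝ) / 20) := by
  interval_cases m
  · rw [show (((0 : ℕ) : ℝ) / 20) = 0 by norm_num, ktab_zero]
    norm_num [kt9, Ktab9]
  · exact ktab_gen (9 / 10) ((1 : ℕ) / 20) (9989869 / 10000000) (56269 / 1250000) _ (by norm_num) (by norm_num) (by norm_num)
      (by norm_num) (by norm_num) (by norm_num) (by norm_num) (by norm_num)
      (by norm_num [kt, kt9, Ktab, Ktab9])
  · exact ktab_gen (9 / 10) ((2 : ℕ) / 20) (9959417 / 10000000) (901219 / 10000000) _ (by norm_num) (by norm_num) (by norm_num)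
      (by norm_num) (by norm_num) (by norm_num) (by norm_num) (by norm_num)
      (by norm_num [kt, kt9, Ktab, Ktab9])
  · exact ktab_gen (9 / 10) ((3 : ℕ) / 20) (1981691 / 2000000) (677067 / 5000000) _ (by norm_num) (by norm_num) (by norm_num)
      (by norm_num) (by norm_num) (by norm_num) (by norm_num) (by norm_num)
      (by norm_num [kt, kt9, Ktab, Ktab9])
  · exact ktab_gen (9 / 10) ((4 : ℕ) / 20) (4918333 / 5000000) (226233 / 1250000) _ (by norm_num) (by norm_num) (by norm_num)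
      (by norm_num) (by norm_num) (by norm_num) (by norm_num) (by norm_num)
      (by norm_num [kt, kt9, Ktab, Ktab9])
  · exact ktab_gen (9 / 10) ((5 : ℕ) / 20) (9743587 / 10000000) (226943 / 1000000) _ (by norm_num) (by norm_num) (by norm_num)
      (by norm_num) (by norm_num) (by norm_num) (by norm_num) (by norm_num)
      (by norm_num [kt, kt9, Ktab, Ktab9])
  · exact ktab_gen (9 / 10) ((6 : ℕ) / 20) (9628603 / 10000000) (273393 / 1000000) _ (by norm_num) (by norm_num) (by norm_num)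
      (by norm_num) (by norm_num) (by norm_num) (by norm_num) (by norm_num)
      (by norm_num [kt, kt9, Ktab, Ktab9])
  · exact ktab_gen (9 / 10) ((7 : ℕ) / 20) (2372729 / 2500000) (1602283 / 5000000) _ (by norm_num) (by norm_num) (by norm_num)
      (by norm_num) (by norm_num) (by norm_num) (by norm_num) (by norm_num)
      (by norm_num [kt, kt9, Ktab, Ktab9])
  · exact ktab_gen (9 / 10) ((8 : ℕ) / 20) (9329523 / 10000000) (1841339 / 5000000) _ (by norm_num) (by norm_num) (by norm_num)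
      (by norm_num) (by norm_num) (by norm_num) (by norm_num) (by norm_num)
      (by norm_num [kt, kt9, Ktab, Ktab9])
  · exact ktab_gen (9 / 10) ((9 : ℕ) / 20) (4571583 / 5000000) (1042447 / 2500000) _ (by norm_num) (by norm_num) (by norm_num)
      (by norm_num) (by norm_num) (by norm_num) (by norm_num) (by norm_num)
      (by norm_num [kt, kt9, Ktab, Ktab9])
  · exact ktab_gen (9 / 10) ((10 : ℕ) / 20) (1786057 / 2000000) (4667653 / 10000000) _ (by norm_num) (by norm_num) (by norm_num)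
      (by norm_num) (by norm_num) (by norm_num) (by norm_num) (by norm_num)
      (by norm_num [kt, kt9, Ktab, Ktab9])
  · exact ktab_gen (9 / 10) ((11 : ℕ) / 20) (8688929 / 10000000) (1294587 / 2500000) _ (by norm_num) (by norm_num) (by norm_num)
      (by norm_num) (by norm_num) (by norm_num) (by norm_num) (by norm_num)
      (by norm_num [kt, kt9, Ktab, Ktab9])
  · exact ktab_gen (9 / 10) ((12 : ℕ) / 20) (168333 / 200000) (5704371 / 10000000) _ (by norm_num) (by norm_num) (by norm_num)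
      (by norm_num) (by norm_num) (by norm_num) (by norm_num) (by norm_num)
      (by norm_num [kt, kt9, Ktab, Ktab9])
  · exact ktab_gen (9 / 10) ((13 : ℕ) / 20) (2027583 / 2500000) (7811 / 12500) _ (by norm_num) (by norm_num) (by norm_num)
      (by norm_num) (by norm_num) (by norm_num) (by norm_num) (by norm_num)
      (by norm_num [kt, kt9, Ktab, Ktab9])
  · exact ktab_gen (9 / 10) ((14 : ℕ) / 20) (7765951 / 10000000) (1703883 / 2500000) _ (by norm_num) (by norm_num) (by norm_num)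
      (by norm_num) (by norm_num) (by norm_num) (by norm_num) (by norm_num)
      (by norm_num [kt, kt9, Ktab, Ktab9])
  · exact ktab_gen (9 / 10) ((15 : ℕ) / 20) (7378177 / 10000000) (7409647 / 10000000) _ (by norm_num) (by norm_num) (by norm_num)
      (by norm_num) (by norm_num) (by norm_num) (by norm_num) (by norm_num)
      (by norm_num [kt, kt9, Ktab, Ktab9])
  · exact ktab_gen (9 / 10) ((16 : ℕ) / 20) (346987 / 500000) (8038023 / 10000000) _ (by norm_num) (by norm_num) (by norm_num)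
      (by norm_num) (by norm_num) (by norm_num) (by norm_num) (by norm_num)
      (by norm_num [kt, kt9, Ktab, Ktab9])
  · exact ktab_gen (9 / 10) ((17 : ℕ) / 20) (3220151 / 5000000) (8710413 / 10000000) _ (by norm_num) (by norm_num) (by norm_num)
      (by norm_num) (by norm_num) (by norm_num) (by norm_num) (by norm_num)
      (by norm_num [kt, kt9, Ktab, Ktab9])
  · exact ktab_gen (9 / 10) ((18 : ℕ) / 20) (2932149 / 5000000) (118019 / 125000) _ (by norm_num) (by norm_num) (by norm_num)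
      (by norm_num) (by norm_num) (by norm_num) (by norm_num) (by norm_num)
      (by norm_num [kt, kt9, Ktab, Ktab9])
  · exact ktab_gen (9 / 10) ((19 : ℕ) / 20) (5186279 / 10000000) (10255507 / 10000000) _ (by norm_num) (by norm_num) (by norm_num)
      (by norm_num) (by norm_num) (by norm_num) (by norm_num) (by norm_num)
      (by norm_num [kt, kt9, Ktab, Ktab9])
  · exact ktab_gen (9 / 10) ((20 : ℕ) / 20) (2179449 / 5000000) (11197693 / 10000000) _ (by norm_num) (by norm_num) (by norm_num)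
      (by norm_num) (by norm_num) (by norm_num) (by norm_num) (by norm_num)
      (by norm_num [kt, kt9, Ktab, Ktab9])

end Crest.Agent.T3.Pl
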