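import Crest.Agent.T3.STab

/-! Row 214: soundness of `okEta`. -/

set_option autoImplicit false
open MeasureTheory Set

namespace Crest.Agent.T3.Pl

theorem sqrt_pi_upper : Real.sqrt Real.pi ≤ 1.772453851 := by
  rw [Real.sqrt_le_left (by norm_num)]
  have := Real.pi_lt_d20
  norm_num
  linarith

theorem sqrt_pi_lower : (1.772452 : ℝ) ≤ Real.sqrt Real.pi := by
  apply Real.le_sqrt_of_sq_le
  have := Real.pi_gt_d20
  norm_num
  linarith

theorem c6_le (hm : ℕ) (hhm : hm ≤ 10000) :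
    (c6 hm : ℝ) / 1000000 ≤ Real.sqrt Real.pi / 2 * (1 - X hm) := by
  have h1 : (c6 hm : ℝ) ≤ 886226 * (10000 - hm) / 10000 := by
    unfold c6
    have := @Nat.cast_div_le ℝ _ _ _ (886226 * (10000 - hm)) 10000
    refine this.trans_eq ?_
    push_cast [Nat.cast_sub hhm]
    ring
  have h2 : (0 : ℝ) ≤ 1 - X hm := by
    unfold X
    have : (hm : ℝ) ≤ 10000 := by exact_mod_cast hhm
    rw [sub_nonneg, div_le_one (by norm_num)]
    exact this
  have h3 := mul_le_mul_of_nonneg_right (div_le_div_of_nonneg_right sqrt_pi_lower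
    (by norm_num : (0 : ℝ) ≤ 2)) h2
  refine le_trans ?_ h3
  unfold X at *
  rw [div_le_iff₀ (by norm_num)]
  refine h1.trans_eq ?_
  ring

theorem okEta_sound' (hm xp lam eta : ℕ) (h : okEta hm xp lam eta = true) (hhm : hm < 10000)
    (hxp : xp ≤ 8200) (x : ℝ) (hx : x ≤ X xp) :
    gA (X hm) x - gA (X hm) (82 / 100) ≤ ((eta : ℝ) - lam) / 10000 * (82 / 100 - x) := by
  unfold okEta at h
  simp only at h
  have h0 := Nat.le_of_ble_eq_true h
  set A := isq ((10000 - xp) * 100000000) 1000000 with hA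
  have hAsq : A * A ≤ (10000 - xp) * 100000000 := isq_sq _ _
  have hle : lam ≤ eta := by
    by_contra hc
    push Not at hc
    rw [Nat.sub_eq_zero_of_le hc.le] at h0
    simp at h0
  have h1 : (17724538510 : ℝ) ≤ ((eta : ℝ) - lam) * (((min A (c6 hm) : ℕ) : ℝ) +
      ((min 424264 (c6 hm) : ℕ) : ℝ)) := by
    have := (Nat.cast_le (α := ℝ)).2 h0
    push_cast [Nat.cast_sub hle] at this
    push_cast
    exact this
  have hX : X hm < 1 := by
    unfold X
    have : (hm : ℝ) < 10000 := by exact_mod_cast hhm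
    rw [div_lt_one (by norm_num)]
    exact this
  have hxp' : X xp ≤ 82 / 100 := by
    unfold X
    have : (xp : ℝ) ≤ 8200 := by exact_mod_cast hxp
    rw [div_le_iff₀ (by norm_num)]
    linarith
  have hc6 := c6_le hm hhm.le
  have hm1 : ((min A (c6 hm) : ℕ) : ℝ) ≤ A := by exact_mod_cast min_le_left _ _
  have hm2 : ((min A (c6 hm) : ℕ) : ℝ) ≤ c6 hm := by exact_mod_cast min_le_right _ _
  have hm3 : ((min 424264 (c6 hm) : ℕ) : ℝ) ≤ 424264 := by exact_mod_cast min_le_left _ _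
  have hm4 : ((min 424264 (c6 hm) : ℕ) : ℝ) ≤ c6 hm := by exact_mod_cast min_le_right _ _
  refine gA_drop (X hm) x (82 / 100) (((eta : ℝ) - lam) / 10000)
    (((min A (c6 hm) : ℕ) : ℝ) / 1000000) (((min 424264 (c6 hm) : ℕ) : ℝ) / 1000000) hX
    (hx.trans hxp') (by norm_num) (by positivity) (by positivity) ?_ ?_ ?_ ?_ ?_ ?_
  · apply Real.le_sqrt_of_sq_le
    have hA2 : ((A : ℝ) * A) ≤ (10000 - xp) * 100000000 := by
      have := (Nat.cast_le (α := ℝ)).2 hAsq
      push_cast [Nat.cast_sub (by omega : xp ≤ 10000)] at this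
      exact this
    have h5 : (((min A (c6 hm) : ℕ) : ℝ)) ^ 2 ≤ (A : ℝ) ^ 2 :=
      pow_le_pow_left₀ (Nat.cast_nonneg _) hm1 2
    have h6 : (((min A (c6 hm) : ℕ) : ℝ) / 1000000) ^ 2 ≤ 1 - X xp := by
      unfold X
      rw [div_pow, div_le_iff₀ (by norm_num)]
      nlinarith
    linarith
  · exact (div_le_div_of_nonneg_right hm2 (by norm_num)).trans hc6
  · apply Real.le_sqrt_of_sq_le
    have h5 : (((min 424264 (c6 hm) : ℕ) : ℝ)) ^ 2 ≤ (424264 : ℝ) ^ 2 :=
      pow_le_pow_left₀ (Nat.cast_nonneg _) hm3 2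
    rw [div_pow, div_le_iff₀ (by norm_num)]
    refine h5.trans ?_
    norm_num
  · exact (div_le_div_of_nonneg_right hm4 (by norm_num)).trans hc6
  · have : (lam : ℝ) ≤ eta := by exact_mod_cast hle
    exact div_nonneg (by linarith) (by norm_num)
  · refine sqrt_pi_upper.trans ?_
    have e : ((eta : ℝ) - lam) / 10000 * (((min A (c6 hm) : ℕ) : ℝ) / 1000000 +
        ((min 424264 (c6 hm) : ℕ) : ℝ) / 1000000) = ((eta : ℝ) - lam) * (((min A (c6 hm) : ℕ) : ℝ) +
      ((min 424264 (c6 hm) : ℕ) : ℝ)) / 10000000000 := by ring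
    rw [e, le_div_iff₀ (by norm_num)]
    refine le_trans ?_ h1
    norm_num

theorem okEta_sound {hm x1 lam eta : ℕ} {σ : ℝ} (hh : hm < 8200) (h : okEta hm x1 lam eta = true)
    (hx : x1 ≤ 8200) (hσ : σ ≤ X x1) :
    gA (X hm) σ - gA (X hm) (82 / 100) ≤ ((eta : ℝ) / 10000 - (lam : ℝ) / 10000) * (82 / 100 - σ) := by
  have := okEta_sound' hm x1 lam eta h (by omega) hx σ hσ
  rwa [sub_div] at this

end Crest.Agent.T3.Pl
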