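import Crest.Agent.T3.TwoUp

/-! Row 214: F5 (both far sides touched, height at least `h`), and the combined form `gA`. -/

set_option autoImplicit false
open MeasureTheory Set Filter Topology
open Crest.GeometryTopology.PeriodicPerimeter

namespace Crest.Agent.T3

/-- phase A lower bound -/
noncomputable def gA (h s : ℝ) : ℝ :=
  if (1 - h) ^ 2 ≤ 4 * (1 - s) / Real.pi then Real.pi * (1 - h) / 4 + (1 - s) / (1 - h)
  else Real.sqrt (Real.pi * (1 - s))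

theorem f5_QLmono {n : ℕ} {D : Set (Fin n → ℝ)} {c c' : ℝ} (h : c' ≤ c) (hc : QL D c) : QL D c' := by
  unfold QL at *
  exact le_trans (ENNReal.ofReal_le_ofReal (by linarith)) hc

theorem f5_tau (D : Set (Fin 2 → ℝ)) (hD : IsLowerSet D) (hO : IsOpen D) (i : Fin 2)
    (h1 : ∀ u ∈ Ico (0 : ℝ) 1, pt i u 0 ∈ D) (h2 : ∀ v ∈ Ico (0 : ℝ) 1, pt i 0 v ∈ D) :
    sv D i 0 = 1 ∧ ((∀ u ∈ Ico (0 : ℝ) 1, sv D i u = 1) ∨ ∃ τ, 0 ≤ τ ∧ τ < 1 ∧
      (∀ u ∈ Ico 0 τ, sv D i u = 1) ∧ (∀ u ∈ Ioo τ 1, sv D i u ∈ Ioo (0 : ℝ) 1)) := by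
  have hanti : Antitone (sv D i) := sv_anti D hD i
  have hmem : ∀ u, sv D i u ∈ Icc (0 : ℝ) 1 := fun u => sv_mem D i u
  have hS0 : sv D i 0 = 1 := by
    by_contra hne
    have hlt : sv D i 0 < 1 := lt_of_le_of_ne (hmem 0).2 hne
    have h3 := (pt_mem_iff D hD hO i 0 (sv D i 0) (hmem 0).1 hlt).1 (h2 _ ⟨(hmem 0).1, hlt⟩)
    exact lt_irrefl _ h3
  have hpos : ∀ u ∈ Ico (0 : ℝ) 1, 0 < sv D i u := fun u hu =>
    (pt_mem_iff D hD hO i u 0 le_rfl one_pos).1 (h1 u hu)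
  refine ⟨hS0, ?_⟩
  let A : Set ℝ := {u | u ∈ Ico (0 : ℝ) 1 ∧ sv D i u = 1}
  have hA0 : (0 : ℝ) ∈ A := ⟨⟨le_rfl, one_pos⟩, hS0⟩
  have hbdd : BddAbove A := ⟨1, fun u hu => hu.1.2.le⟩
  have hlow : ∀ u, 0 ≤ u → u < sSup A → sv D i u = 1 := by
    intro u hu0 hu
    obtain ⟨v, hv, huv⟩ := exists_lt_of_lt_csSup ⟨0, hA0⟩ hu
    exact le_antisymm (hmem u).2 (by rw [← hv.2]; exact hanti huv.le)
  have hsup0 : 0 ≤ sSup A := le_csSup hbdd hA0
  have hsup1 : sSup A ≤ 1 := csSup_le ⟨0, hA0⟩ (fun u hu => hu.1.2.le)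
  rcases hsup1.lt_or_eq with h | h
  · right
    refine ⟨sSup A, hsup0, h, fun u hu => hlow u hu.1 hu.2, fun u hu => ?_⟩
    have hu0 : 0 ≤ u := le_trans hsup0 hu.1.le
    refine ⟨hpos u ⟨hu0, hu.2⟩, lt_of_le_of_ne (hmem u).2 fun he => ?_⟩
    have : u ≤ sSup A := le_csSup hbdd ⟨⟨hu0, hu.2⟩, he⟩
    exact absurd hu.1 (not_lt.2 this)
  · left
    intro u hu
    exact hlow u hu.1 (by rw [h]; exact hu.2)

theorem f5_vol_one (D : Set (Fin 2 → ℝ)) (hO : IsOpen D) (i : Fin 2)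
    (h : ∀ u ∈ Ico (0 : ℝ) 1, sv D i u = 1) : vol01 D = 1 := by
  rw [← sv_integral D hO i, intervalIntegral.integral_of_le zero_le_one,
    integral_Ioc_eq_integral_Ioo]
  rw [setIntegral_congr_fun (g := fun _ => (1 : ℝ)) measurableSet_Ioo
    (fun u hu => h u ⟨hu.1.le, hu.2⟩)]
  simp

theorem f5_vol_le (D : Set (Fin 2 → ℝ)) (hD : IsLowerSet D) (hO : IsOpen D) :
    vol01 D ≤ 1 := by
  rw [← sv_integral D hO 0]
  have h1 : ∫ u in (0 : ℝ)..1, sv D 0 u ≤ ∫ u in (0 : ℝ)..1, (1 : ℝ) :=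
    intervalIntegral.integral_mono_on zero_le_one (sv_anti D hD 0).intervalIntegrable
      intervalIntegrable_const (fun u _ => (sv_mem D 0 u).2)
  simpa using h1

/-- **F5.** Both far sides touched and `[0,h) × [0,1) ⊆ D` (coordinate `i` is the first one), `h < 1`,
`(1-h)² ≤ 4(1-s)/π`: `q ≥ π(1-h)/4 + (1-s)/(1-h)`. -/
theorem two_F5 (D : Set (Fin 2 → ℝ)) (hD : IsLowerSet D) (hO : IsOpen D) (i : Fin 2) (h : ℝ)
    (h1 : ∀ u ∈ Ico (0 : ℝ) 1, pt i u 0 ∈ D) (h2 : ∀ v ∈ Ico (0 : ℝ) 1, pt i 0 v ∈ D)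
    (hh0 : 0 ≤ h) (hh1 : h < 1) (hh : ∀ u ∈ Ico (0 : ℝ) h, ∀ v ∈ Ico (0 : ℝ) 1, pt i u v ∈ D)
    (hc : (1 - h) ^ 2 ≤ 4 * (1 - vol01 D) / Real.pi) :
    QL D (Real.pi * (1 - h) / 4 + (1 - vol01 D) / (1 - h)) := by
  obtain ⟨hS0, h'⟩ := f5_tau D hD hO i h1 h2
  have hpi := Real.pi_pos
  rcases h' with h' | ⟨τ, hτ0, hτ1, hone, hlt⟩
  · rw [f5_vol_one D hO i h'] at hc
    have : 0 < (1 - h) ^ 2 := by have : 0 < 1 - h := by linarith
                                 positivity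
    simp at hc
    linarith
  · have hhτ : h ≤ τ := by
      by_contra hne
      push Not at hne
      obtain ⟨w, hw1, hw2⟩ := exists_between hne
      have hw0 : 0 ≤ w := le_trans hτ0 hw1.le
      have h3 := hlt w ⟨hw1, hw2.trans hh1⟩
      have h4 := hh w ⟨hw0, hw2⟩ (sv D i w) ⟨h3.1.le, h3.2⟩
      have h5 := (pt_mem_iff D hD hO i w (sv D i w) h3.1.le h3.2).1 h4
      exact lt_irrefl _ h5
    have hR : 0 < 1 - τ := by linarith
    have hq := two_up_base D hD hO i τ (1 / (1 - τ)) hτ0 hτ1 hS0 hone hlt (by positivity)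
      (by rw [one_div_mul_cancel hR.ne'])
    have hK : Kf (1 - τ) (1 / (1 - τ)) = Real.pi / (4 * (1 / (1 - τ))) := by
      have := Kf_full (1 / (1 - τ)) (by positivity)
      rwa [one_div_one_div] at this
    rw [hK] at hq
    refine f5_QLmono ?_ hq
    set s := 1 - vol01 D with hs
    set R := 1 - τ with hRd
    set H := 1 - h with hHd
    have hRH : R ≤ H := by linarith
    have hH : 0 < H := by linarith
    have e : 1 / R * s + Real.pi / (4 * (1 / R)) = s / R + Real.pi * R / 4 := by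
      field_simp
    rw [e]
    rw [le_div_iff₀ hpi] at hc
    -- π H / 4 + s / H ≤ s / R + π R / 4
    have h6 : Real.pi * (R * H) ≤ 4 * s := by
      have : R * H ≤ H ^ 2 := by nlinarith
      nlinarith
    have h7 : s / R + Real.pi * R / 4 - (Real.pi * H / 4 + s / H) =
        (H - R) * (4 * s - Real.pi * (R * H)) / (4 * (R * H)) := by
      field_simp
      ring
    have h8 : 0 ≤ (H - R) * (4 * s - Real.pi * (R * H)) / (4 * (R * H)) := by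
      apply div_nonneg
      · exact mul_nonneg (by linarith) (by linarith)
      · positivity
    linarith

/-- combined form -/
theorem two_gA (D : Set (Fin 2 → ℝ)) (hD : IsLowerSet D) (hO : IsOpen D) (i : Fin 2) (h : ℝ)
    (h1 : ∀ u ∈ Ico (0 : ℝ) 1, pt i u 0 ∈ D) (h2 : ∀ v ∈ Ico (0 : ℝ) 1, pt i 0 v ∈ D)
    (hh0 : 0 ≤ h) (hh1 : h < 1) (hh : ∀ u ∈ Ico (0 : ℝ) h, ∀ v ∈ Ico (0 : ℝ) 1, pt i u v ∈ D) :
    QL D (gA h (vol01 D)) := by
  unfold gA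
  split_ifs with hc
  · exact two_F5 D hD hO i h h1 h2 hh0 hh1 hh hc
  · exact two_F3 D hD hO i h1 h2

end Crest.Agent.T3
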