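import Crest.Agent.T3.Cases
import Crest.Agent.T3.TwoF5

/-! Row 214: refined case distinction (case I with the height `h`). -/

set_option autoImplicit false
open MeasureTheory Set Filter Topology
open Crest.GeometryTopology.PeriodicPerimeter

namespace Crest.Agent.T3

/-- lower bound after the split -/
noncomputable def gB (h l1 l2 s : ℝ) : ℝ :=
  min (Real.sqrt (Real.pi * s)) (min (l1 * (s - h) + Kf 1 l1)
    (max (Real.sqrt (Real.pi * (1 - s))) (l2 * (1 - s) + Kf (1 - h) l2)))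

def CaseA (D : Set (Fin 3 → ℝ)) (k : Fin 3) (hA : ℝ) : Prop :=
  ∀ u ∈ Ioo (0 : ℝ) (1 / 10), hA ≤ sv D k u ∧ QL (sl k u D) (gA hA (sv D k u))

def CaseB (D : Set (Fin 3 → ℝ)) (k : Fin 3) (hB : ℝ) : Prop :=
  ∀ u ∈ Ioo (1 / 10 : ℝ) 1, ∀ l1 ∈ Icc (0 : ℝ) 1, ∀ l2 ∈ Ioc (0 : ℝ) 1,
    QL (sl k u D) (gB hB l1 l2 (sv D k u))

theorem slice_single' (D : Set (Fin 3 → ℝ)) (hD : IsLowerSet D) (hO : IsOpen D) (k a b : Fin 3)
    (hka : a ≠ k) (hkb : b ≠ k) (hab : a ≠ b) (t : ℝ) (β : ℝ) (hβ : 0 ≤ β)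
    (ha : Tch D a k t) (hb : ¬ Tch D b k t)
    (hth : ∀ y ∈ Ioo β 1, ∃ x ∈ Ico (0 : ℝ) 1, p3 a b x y t ∉ D) (l : ℝ) (hl : l ∈ Icc (0 : ℝ) 1) :
    QL (sl k t D) (l * (sv D k t - β) + Kf 1 l) := by
  obtain ⟨i, hi⟩ := slice_pt D k a b hka hkb hab t
  have e : sv D k t = vol01 (sl k t D) := rfl
  rw [tch_slice D k a b hka hkb hab] at ha
  rw [tch_slice D k b a hkb hka hab.symm] at hb
  push Not at hb
  rw [e]
  refine two_F2 _ (sl_lower D hD k t) (sl_open D hO k t) i β l ?_ ?_ hβ ?_ hl.1 hl.2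
  · intro u hu
    rw [hi]; exact ha u hu
  · obtain ⟨v, hv, hv2⟩ := hb
    exact ⟨v, hv, by rw [hi, p3_swap a b hab]; exact hv2⟩
  · intro y hy
    obtain ⟨x, hx, hx2⟩ := hth y hy
    exact ⟨x, hx, by rw [hi]; exact hx2⟩

theorem slice_both_thin' (D : Set (Fin 3 → ℝ)) (hD : IsLowerSet D) (hO : IsOpen D) (k a b : Fin 3)
    (hka : a ≠ k) (hkb : b ≠ k) (hab : a ≠ b) (t : ℝ) (β : ℝ) (hβ : 0 ≤ β)
    (hβ1 : β < 1) (ha : Tch D a k t) (hb : Tch D b k t)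
    (hth : ∀ y ∈ Ioo β 1, ∃ x ∈ Ico (0 : ℝ) 1, p3 b a x y t ∉ D) (l : ℝ)
    (hl : l ∈ Ioc (0 : ℝ) 1) :
    QL (sl k t D) (min (Real.sqrt (Real.pi * sv D k t))
      (l * (1 - sv D k t) + Kf (1 - β) l)) := by
  have hs := sv_mem D k t
  by_cases hc : l ^ 2 * (4 * (1 - sv D k t) / Real.pi) ≤ 1
  · refine QLmono (min_le_right _ _) ?_
    obtain ⟨i, hi⟩ := slice_pt D k a b hka hkb hab t
    have e : sv D k t = vol01 (sl k t D) := rfl
    rw [tch_slice D k a b hka hkb hab] at ha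
    rw [tch_slice D k b a hkb hka hab.symm] at hb
    rw [e] at hc ⊢
    refine two_F4 _ (sl_lower D hD k t) (sl_open D hO k t) i β l ?_ ?_ hβ hβ1 ?_ hl.1 ?_ hc
    · intro u hu
      rw [hi]; exact ha u hu
    · intro v hv
      rw [hi, p3_swap a b hab]; exact hb v hv
    · intro y hy
      obtain ⟨x, hx, hx2⟩ := hth y hy
      exact ⟨x, hx, by rw [hi, p3_swap a b hab]; exact hx2⟩
    · nlinarith [hl.1, hl.2]
  · refine QLmono ((min_le_left _ _).trans ?_) (slice_both D hD hO k a b hka hkb hab t ha hb)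
    apply Real.sqrt_le_sqrt
    have hpi := Real.pi_gt_three
    push Not at hc
    have h1 : 1 < 4 * (1 - sv D k t) / Real.pi := by
      have h2 : l ^ 2 * (4 * (1 - sv D k t) / Real.pi) ≤ 1 * (4 * (1 - sv D k t) / Real.pi) := by
        apply mul_le_mul_of_nonneg_right
        · nlinarith [hl.1, hl.2]
        · exact div_nonneg (by linarith [hs.2]) (by linarith)
      linarith
    rw [lt_div_iff₀ (by linarith)] at h1
    nlinarith

/-- The area of a slice is at least the height of the touched side. -/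
theorem height_le_area (D : Set (Fin 3 → ℝ)) (hD : IsLowerSet D) (hO : IsOpen D) (k a b : Fin 3)
    (hka : a ≠ k) (hkb : b ≠ k) (hab : a ≠ b) (t h : ℝ) (h0 : 0 ≤ h) (h1 : h ≤ 1)
    (hh : ∀ y ∈ Ico (0 : ℝ) h, ∀ x ∈ Ico (0 : ℝ) 1, p3 a b x y t ∈ D) : h ≤ sv D k t := by
  obtain ⟨i, hi⟩ := slice_pt D k a b hka hkb hab t
  have hl := sl_lower D hD k t
  have ho := sl_open D hO k t
  have hx : ∀ x ∈ Ico (0 : ℝ) 1, h ≤ sv (sl k t D) i x := by
    intro x hx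
    by_contra hc
    push Not at hc
    have hm := sv_mem (sl k t D) i x
    have h2 := hh _ ⟨hm.1, hc⟩ x hx
    rw [← hi] at h2
    have h3 := (pt_mem_iff _ hl ho i x _ hm.1 (lt_of_lt_of_le hc h1)).1 h2
    exact lt_irrefl _ h3
  have e : sv D k t = vol01 (sl k t D) := rfl
  rw [e, ← sv_integral (sl k t D) ho i]
  have h4 : ∫ _u in (0 : ℝ)..1, h ≤ ∫ u in (0 : ℝ)..1, sv (sl k t D) i u := by
    refine intervalIntegral.integral_mono_on_of_le_Ioo zero_le_one intervalIntegrable_const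
      (sv_anti _ hl i).intervalIntegrable (fun u hu => hx u ⟨hu.1.le, hu.2⟩)
  simpa using h4

/-- refined case I, with the side `a` touched at least as long as the side `b` -/
theorem caseR_aux (D : Set (Fin 3 → ℝ)) (hD : IsLowerSet D) (hO : IsOpen D) (k a b : Fin 3)
    (hka : a ≠ k) (hkb : b ≠ k) (hab : a ≠ b) (ha : Tch D a k (1 / 10)) (hb : Tch D b k (1 / 10))
    (hlong : ∀ t, Tch D b k t → Tch D a k t) :
    ∃ h : ℝ, 0 ≤ h ∧ h ≤ 1 ∧ h ≤ sv D k (1 / 10) ∧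
      (∀ hA : ℝ, 0 ≤ hA → hA ≤ h → hA < 1 → CaseA D k hA) ∧
      (∀ hB : ℝ, h ≤ hB → hB < 1 → CaseB D k hB) := by
  let Y : Set ℝ := {y | y ∈ Icc (0 : ℝ) 1 ∧ ∀ x ∈ Ico (0 : ℝ) 1, p3 a b x y (1 / 10) ∈ D}
  have ha' := (tch_slice D k a b hka hkb hab (1 / 10)).1 ha
  have hY0 : (0 : ℝ) ∈ Y := ⟨⟨le_rfl, zero_le_one⟩, ha'⟩
  have hbdd : BddAbove Y := ⟨1, fun y hy => hy.1.2⟩
  have hlow : ∀ y, y < sSup Y → ∀ x ∈ Ico (0 : ℝ) 1, p3 a b x y (1 / 10) ∈ D := by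
    intro y hy x hx
    obtain ⟨z, hz, hyz⟩ := exists_lt_of_lt_csSup ⟨0, hY0⟩ hy
    exact p3_mono D hD a b le_rfl hyz.le le_rfl (hz.2 x hx)
  have hsup0 : 0 ≤ sSup Y := le_csSup hbdd hY0
  have hsup1 : sSup Y ≤ 1 := csSup_le ⟨0, hY0⟩ (fun y hy => hy.1.2)
  have hup : ∀ y, sSup Y < y → y ≤ 1 → ∃ x ∈ Ico (0 : ℝ) 1, p3 a b x y (1 / 10) ∉ D := by
    intro y hy hy1
    by_contra hc
    push Not at hc
    have : y ≤ sSup Y := le_csSup hbdd ⟨⟨hsup0.trans hy.le, hy1⟩, hc⟩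
    linarith
  have harea : sSup Y ≤ sv D k (1 / 10) :=
    height_le_area D hD hO k a b hka hkb hab (1 / 10) (sSup Y) hsup0 hsup1
      (fun y hy x hx => hlow y hy.2 x hx)
  refine ⟨sSup Y, hsup0, hsup1, harea, ?_, ?_⟩
  · intro hA hA0 hAh hA1 u hu
    have hmono : sv D k (1 / 10) ≤ sv D k u := sv_anti D hD k hu.2.le
    refine ⟨hAh.trans (harea.trans hmono), ?_⟩
    have hau := (tch_slice D k a b hka hkb hab u).1 (tch_anti D hD a k hu.2.le ha)
    have hbu := (tch_slice D k b a hkb hka hab.symm u).1 (tch_anti D hD b k hu.2.le hb)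
    obtain ⟨j, hj⟩ := slice_pt D k b a hkb hka hab.symm u
    have e : sv D k u = vol01 (sl k u D) := rfl
    rw [e]
    refine two_gA _ (sl_lower D hD k u) (sl_open D hO k u) j hA ?_ ?_ hA0 hA1 ?_
    · intro v hv
      rw [hj]; exact hbu v hv
    · intro v hv
      rw [hj, p3_swap b a hab.symm]; exact hau v hv
    · intro y hy x hx
      rw [hj, p3_swap b a hab.symm]
      exact p3_mono D hD a b le_rfl le_rfl hu.2.le (hlow y (lt_of_lt_of_le hy.2 hAh) x hx)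
  · intro hB hhB hB1 u hu l1 hl1 l2 hl2
    have hB0 : 0 ≤ hB := hsup0.trans hhB
    have hth : ∀ y ∈ Ioo hB 1, ∃ x ∈ Ico (0 : ℝ) 1, p3 a b x y u ∉ D := by
      intro y hy
      obtain ⟨x, hx, hx2⟩ := hup y (lt_of_le_of_lt hhB hy.1) hy.2.le
      exact ⟨x, hx, fun h2 => hx2 (p3_mono D hD a b le_rfl le_rfl hu.1.le h2)⟩
    by_cases ta : Tch D a k u
    · by_cases tb : Tch D b k u
      · have q1 := slice_both D hD hO k a b hka hkb hab u ta tb
        have q2 := slice_both_thin' D hD hO k b a hkb hka hab.symm u hB hB0 hB1 tb ta hth l2 hl2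
        unfold gB
        rcases le_total (l2 * (1 - sv D k u) + Kf (1 - hB) l2)
          (Real.sqrt (Real.pi * (1 - sv D k u))) with hc | hc
        · rw [max_eq_left hc]
          exact QLmono ((min_le_right _ _).trans (min_le_right _ _)) q1
        · rw [max_eq_right hc]
          exact QLmono (le_min (min_le_left _ _) ((min_le_right _ _).trans (min_le_right _ _))) q2
      · exact QLmono ((min_le_right _ _).trans (min_le_left _ _))
          (slice_single' D hD hO k a b hka hkb hab u hB hB0 ta tb hth l1 hl1)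
    · have tb : ¬ Tch D b k u := fun h => ta (hlong u h)
      exact QLmono (min_le_left _ _) (slice_none D hD hO k a b hka hkb hab u ta tb)

theorem caseR_both (D : Set (Fin 3 → ℝ)) (hD : IsLowerSet D) (hO : IsOpen D) (k a b : Fin 3)
    (hka : a ≠ k) (hkb : b ≠ k) (hab : a ≠ b) (ha : Tch D a k (1 / 10)) (hb : Tch D b k (1 / 10)) :
    ∃ h : ℝ, 0 ≤ h ∧ h ≤ 1 ∧ h ≤ sv D k (1 / 10) ∧
      (∀ hA : ℝ, 0 ≤ hA → hA ≤ h → hA < 1 → CaseA D k hA) ∧
      (∀ hB : ℝ, h ≤ hB → hB < 1 → CaseB D k hB) := by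
  by_cases hlong : ∀ t, Tch D b k t → Tch D a k t
  · exact caseR_aux D hD hO k a b hka hkb hab ha hb hlong
  · push Not at hlong
    obtain ⟨t0, h1, h2⟩ := hlong
    refine caseR_aux D hD hO k b a hkb hka hab.symm hb ha (fun t ht => ?_)
    rcases le_total t t0 with h | h
    · exact tch_anti D hD b k h h1
    · exact absurd (tch_anti D hD a k h ht) h2

/-- **The refined case distinction.** -/
theorem case_splitR (D : Set (Fin 3 → ℝ)) (hD : IsLowerSet D) (hO : IsOpen D) :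
    (∃ k, CaseII D (1 / 10) k) ∨ ∃ (k : Fin 3) (h : ℝ), 0 ≤ h ∧ h ≤ 1 ∧ h ≤ sv D k (1 / 10) ∧
      (∀ hA : ℝ, 0 ≤ hA → hA ≤ h → hA < 1 → CaseA D k hA) ∧
      (∀ hB : ℝ, h ≤ hB → hB < 1 → CaseB D k hB) := by
  have h10 : (0 : ℝ) ≤ 1 / 10 := by norm_num
  have h101 : (1 / 10 : ℝ) < 1 := by norm_num
  by_cases c0 : Tch D 1 0 (1 / 10) ∧ Tch D 2 0 (1 / 10)
  · exact Or.inr ⟨0, caseR_both D hD hO 0 1 2 (by decide) (by decide) (by decide) c0.1 c0.2⟩
  by_cases c1 : Tch D 0 1 (1 / 10) ∧ Tch D 2 1 (1 / 10)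
  · exact Or.inr ⟨1, caseR_both D hD hO 1 0 2 (by decide) (by decide) (by decide) c1.1 c1.2⟩
  by_cases c2 : Tch D 0 2 (1 / 10) ∧ Tch D 1 2 (1 / 10)
  · exact Or.inr ⟨2, caseR_both D hD hO 2 0 1 (by decide) (by decide) (by decide) c2.1 c2.2⟩
  left
  by_cases d0 : ¬ Tch D 1 2 (1 / 10) ∧ ¬ Tch D 2 1 (1 / 10)
  · exact ⟨0, caseII_two D hD hO (1 / 10) h10 h101 0 1 2 (by decide) (by decide) (by decide)
      d0.1 d0.2⟩
  by_cases d1 : ¬ Tch D 0 2 (1 / 10) ∧ ¬ Tch D 2 0 (1 / 10)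
  · exact ⟨1, caseII_two D hD hO (1 / 10) h10 h101 1 0 2 (by decide) (by decide) (by decide)
      d1.1 d1.2⟩
  by_cases d2 : ¬ Tch D 0 1 (1 / 10) ∧ ¬ Tch D 1 0 (1 / 10)
  · exact ⟨2, caseII_two D hD hO (1 / 10) h10 h101 2 0 1 (by decide) (by decide) (by decide)
      d2.1 d2.2⟩
  by_cases e : Tch D 1 0 (1 / 10)
  · refine ⟨0, caseII_three D hD hO (1 / 10) h10 h101 0 2 1 (by decide) (by decide) (by decide)
      ?_ e ?_⟩ <;> tauto
  · refine ⟨0, caseII_three D hD hO (1 / 10) h10 h101 0 1 2 (by decide) (by decide) (by decide)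
      e ?_ ?_⟩ <;> tauto

end Crest.Agent.T3
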