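import Crest.Agent.T3.R3Def
import Crest.Agent.T3.CasesR
import Crest.Agent.T3.KfLemmas

/-! Row 214: `S8` is a lower bound of `10^8 Kf (1/10) eta`; drop of `gA`. -/

set_option autoImplicit false
open MeasureTheory Set

namespace Crest.Agent.T3.Pl

theorem STab_int (η K : ℝ) (h : ∀ u ∈ Icc (0 : ℝ) (1 / 10),
    1 - η ^ 2 * u ^ 2 / 2 - K * (η ^ 4 * u ^ 4) ≤ Real.sqrt (1 - η ^ 2 * u ^ 2)) :
    1 / 10 - η ^ 2 / 6000 - K * η ^ 4 / 500000 ≤ Kf (1 / 10) η := by
  have h1 : ∫ u in (0 : ℝ)..(1 / 10), (1 - η ^ 2 * u ^ 2 / 2 - K * (η ^ 4 * u ^ 4)) =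
      1 / 10 - η ^ 2 / 6000 - K * η ^ 4 / 500000 := by
    have hd : ∀ u ∈ uIcc (0 : ℝ) (1 / 10),
        HasDerivAt (fun u : ℝ => u - η ^ 2 * u ^ 3 / 6 - K * (η ^ 4 * u ^ 5 / 5))
        (1 - η ^ 2 * u ^ 2 / 2 - K * (η ^ 4 * u ^ 4)) u := by
      intro u _
      have d1 := hasDerivAt_id u
      have d2 := ((hasDerivAt_pow 3 u).const_mul (η ^ 2)).div_const 6
      have d3 := (((hasDerivAt_pow 5 u).const_mul (η ^ 4)).div_const 5).const_mul K
      have d4 := (d1.sub d2).sub d3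
      refine d4.congr_deriv ?_
      push_cast
      ring
    rw [intervalIntegral.integral_eq_sub_of_hasDerivAt hd
      (Continuous.intervalIntegrable (by fun_prop) _ _)]
    norm_num
    ring
  rw [← h1]
  unfold Kf
  apply intervalIntegral.integral_mono_on (by norm_num)
  · exact Continuous.intervalIntegrable (by fun_prop) _ _
  · exact Continuous.intervalIntegrable (by fun_prop) _ _
  · exact h

/-- Proof: `sqrt(1-y) ≥ 1 - y/2 - y²/6` for `0 ≤ y ≤ .4225` (`≤ .464`), `sqrt(1-y) ≥ 1 - y/2 - y²/2` for `0 ≤ y ≤ 1`;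
integrate with `y = η² u²`, `u ∈ [0, 1/10]`: `(1/10)(1 - x²/6 - x⁴/30)` resp. `x⁴/10`, `x = η/10`. -/
theorem S8_le (eta : ℕ) (h : eta ≤ 99999) :
    (S8 eta : ℝ) / 100000000 ≤ Kf (1 / 10) ((eta : ℝ) / 10000) := by
  have he0 : (0 : ℝ) ≤ (eta : ℝ) / 10000 := by positivity
  have hA1 : eta * eta / 6000 ≤ 1666633 := by
    calc eta * eta / 6000 ≤ 99999 * 99999 / 6000 := Nat.div_le_div_right (Nat.mul_le_mul h h)
      _ ≤ 1666633 := by norm_num
  have hA2 : (eta : ℝ) * eta ≤ 6000 * (((eta * eta / 6000 : ℕ) : ℝ) + 1) := by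
    have h2 : eta * eta < 6000 * (eta * eta / 6000 + 1) := by omega
    exact_mod_cast h2.le
  by_cases hle : eta ≤ 65000
  · have hB1 : eta * eta * (eta * eta) / 300000000000000 ≤ 60000 := by
      calc eta * eta * (eta * eta) / 300000000000000 ≤
          65000 * 65000 * (65000 * 65000) / 300000000000000 :=
            Nat.div_le_div_right (Nat.mul_le_mul (Nat.mul_le_mul hle hle) (Nat.mul_le_mul hle hle))
        _ ≤ 60000 := by norm_num
    have hB2 : (eta : ℝ) * eta * (eta * eta) ≤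
        300000000000000 * (((eta * eta * (eta * eta) / 300000000000000 : ℕ) : ℝ) + 1) := by
      have h2 : eta * eta * (eta * eta) <
          300000000000000 * (eta * eta * (eta * eta) / 300000000000000 + 1) := by omega
      exact_mod_cast h2.le
    have hS : S8 eta + (eta * eta / 6000 + 1) + (eta * eta * (eta * eta) / 300000000000000 + 1) =
        10000000 := by
      unfold S8
      rw [if_pos (by simpa using hle)]
      omega
    have hS' : (S8 eta : ℝ) + (((eta * eta / 6000 : ℕ) : ℝ) + 1) +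
        (((eta * eta * (eta * eta) / 300000000000000 : ℕ) : ℝ) + 1) = 10000000 := by
      exact_mod_cast hS
    have hη : (eta : ℝ) / 10000 ≤ 13 / 2 := by
      have : (eta : ℝ) ≤ 65000 := by exact_mod_cast hle
      linarith
    have key := STab_int ((eta : ℝ) / 10000) (1 / 6) (by
      intro u hu
      set η := (eta : ℝ) / 10000 with hηd
      apply Real.le_sqrt_of_sq_le
      set y := η ^ 2 * u ^ 2 with hy
      have hy4 : η ^ 4 * u ^ 4 = y ^ 2 := by rw [hy]; ring
      rw [hy4]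
      have hy0 : 0 ≤ y := by positivity
      have hy1 : y ≤ 169 / 400 := by
        have h3 : η * u ≤ 13 / 20 := by nlinarith [hu.1, hu.2]
        have h4 : 0 ≤ η * u := mul_nonneg he0 hu.1
        have h5 : y = (η * u) ^ 2 := by rw [hy]; ring
        rw [h5]
        nlinarith
      have h6 : y ^ 2 * (y ^ 2 + 6 * y - 3) ≤ 0 := by
        apply mul_nonpos_of_nonneg_of_nonpos (by positivity)
        nlinarith
      nlinarith)
    refine le_trans ?_ key
    rw [div_le_iff₀ (by norm_num)]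
    have e1 : (1 / 10 - ((eta : ℝ) / 10000) ^ 2 / 6000 - 1 / 6 * ((eta : ℝ) / 10000) ^ 4 / 500000) *
        100000000 = 10000000 - (eta : ℝ) * eta / 6000 -
          (eta : ℝ) * eta * (eta * eta) / 300000000000000 := by ring
    rw [e1]
    have e2 : (eta : ℝ) * eta / 6000 ≤ ((eta * eta / 6000 : ℕ) : ℝ) + 1 := by
      rw [div_le_iff₀ (by norm_num)]; linarith
    have e3 : (eta : ℝ) * eta * (eta * eta) / 300000000000000 ≤
        ((eta * eta * (eta * eta) / 300000000000000 : ℕ) : ℝ) + 1 := by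
      rw [div_le_iff₀ (by norm_num)]; linarith
    linarith
  · have hB1 : eta * eta * (eta * eta) / 100000000000000 ≤ 1000000 := by
      calc eta * eta * (eta * eta) / 100000000000000 ≤
          99999 * 99999 * (99999 * 99999) / 100000000000000 :=
            Nat.div_le_div_right (Nat.mul_le_mul (Nat.mul_le_mul h h) (Nat.mul_le_mul h h))
        _ ≤ 1000000 := by norm_num
    have hB2 : (eta : ℝ) * eta * (eta * eta) ≤
        100000000000000 * (((eta * eta * (eta * eta) / 100000000000000 : ℕ) : ℝ) + 1) := by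
      have h2 : eta * eta * (eta * eta) <
          100000000000000 * (eta * eta * (eta * eta) / 100000000000000 + 1) := by omega
      exact_mod_cast h2.le
    have hS : S8 eta + (eta * eta / 6000 + 1) + (eta * eta * (eta * eta) / 100000000000000 + 1) =
        10000000 := by
      unfold S8
      rw [if_neg (by simpa using hle)]
      omega
    have hS' : (S8 eta : ℝ) + (((eta * eta / 6000 : ℕ) : ℝ) + 1) +
        (((eta * eta * (eta * eta) / 100000000000000 : ℕ) : ℝ) + 1) = 10000000 := by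
      exact_mod_cast hS
    have hη : (eta : ℝ) / 10000 ≤ 10 := by
      have : (eta : ℝ) ≤ 99999 := by exact_mod_cast h
      linarith
    have key := STab_int ((eta : ℝ) / 10000) (1 / 2) (by
      intro u hu
      set η := (eta : ℝ) / 10000 with hηd
      apply Real.le_sqrt_of_sq_le
      set y := η ^ 2 * u ^ 2 with hy
      have hy4 : η ^ 4 * u ^ 4 = y ^ 2 := by rw [hy]; ring
      rw [hy4]
      have hy0 : 0 ≤ y := by positivity
      have hy1 : y ≤ 1 := by
        have h3 : η * u ≤ 1 := by nlinarith [hu.1, hu.2]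
        have h4 : 0 ≤ η * u := mul_nonneg he0 hu.1
        have h5 : y = (η * u) ^ 2 := by rw [hy]; ring
        rw [h5]
        nlinarith
      have e0 : (1 - y / 2 - 1 / 2 * y ^ 2) ^ 2 = (1 - y) - (1 - y) * (y ^ 2 * (3 + y)) / 4 := by
        ring
      rw [e0]
      have h6 : 0 ≤ (1 - y) * (y ^ 2 * (3 + y)) :=
        mul_nonneg (by linarith) (by positivity)
      linarith)
    refine le_trans ?_ key
    rw [div_le_iff₀ (by norm_num)]
    have e1 : (1 / 10 - ((eta : ℝ) / 10000) ^ 2 / 6000 - 1 / 2 * ((eta : ℝ) / 10000) ^ 4 / 500000) *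
        100000000 = 10000000 - (eta : ℝ) * eta / 6000 -
          (eta : ℝ) * eta * (eta * eta) / 100000000000000 := by ring
    rw [e1]
    have e2 : (eta : ℝ) * eta / 6000 ≤ ((eta * eta / 6000 : ℕ) : ℝ) + 1 := by
      rw [div_le_iff₀ (by norm_num)]; linarith
    have e3 : (eta : ℝ) * eta * (eta * eta) / 100000000000000 ≤
        ((eta * eta * (eta * eta) / 100000000000000 : ℕ) : ℝ) + 1 := by
      rw [div_le_iff₀ (by norm_num)]; linarith
    linarith

/-- the normalised `gA` -/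
noncomputable def STab_phi (c t : ℝ) : ℝ := if c ≤ t then (c + t ^ 2 / c) / 2 else t

theorem STab_gA_phi (h s : ℝ) (hh : h < 1) (hs : s ≤ 1) :
    gA h s = Real.sqrt Real.pi * STab_phi (Real.sqrt Real.pi / 2 * (1 - h)) (Real.sqrt (1 - s)) := by
  have hpi := Real.pi_pos
  have hp0 : 0 < Real.sqrt Real.pi := Real.sqrt_pos.2 hpi
  have hpp : Real.sqrt Real.pi ^ 2 = Real.pi := Real.sq_sqrt hpi.le
  set p := Real.sqrt Real.pi with hp
  set H := 1 - h with hH
  have hH0 : 0 < H := by linarith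
  have ht0 : 0 ≤ Real.sqrt (1 - s) := Real.sqrt_nonneg _
  have htt : Real.sqrt (1 - s) ^ 2 = 1 - s := Real.sq_sqrt (by linarith)
  set t := Real.sqrt (1 - s) with ht
  have hiff : H ^ 2 ≤ 4 * (1 - s) / Real.pi ↔ p / 2 * H ≤ t := by
    rw [le_div_iff₀ hpi, ← hpp, ← htt]
    constructor
    · intro h1
      have h2 : (p / 2 * H) ^ 2 ≤ t ^ 2 := by nlinarith
      exact (pow_le_pow_iff_left₀ (by positivity) ht0 (by norm_num)).1 h2
    · intro h1
      have h2 : (p / 2 * H) ^ 2 ≤ t ^ 2 := pow_le_pow_left₀ (by positivity) h1 2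
      nlinarith
  unfold gA STab_phi
  rw [← hH]
  by_cases hc : H ^ 2 ≤ 4 * (1 - s) / Real.pi
  · rw [if_pos hc, if_pos (hiff.1 hc), ← htt]
    rw [← hpp]
    field_simp
    ring
  · rw [if_neg hc, if_neg (fun hcon => hc (hiff.2 hcon)), Real.sqrt_mul hpi.le]

theorem STab_phi_ge {c t : ℝ} (hc : 0 < c) : t ≤ STab_phi c t := by
  unfold STab_phi
  split_ifs with h
  · rw [le_div_iff₀ (by norm_num)]
    have h1 : c + t ^ 2 / c - t * 2 = (c - t) ^ 2 / c := by
      field_simp
      ring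
    have h2 : 0 ≤ (c - t) ^ 2 / c := by positivity
    linarith
  · exact le_rfl

/-- monotone and the key inequality -/
theorem STab_phi_key {c t u : ℝ} (hc : 0 < c) (hu : 0 ≤ u) (hut : u ≤ t) :
    0 ≤ STab_phi c t - STab_phi c u ∧
    (STab_phi c t - STab_phi c u) * (min t c + min u c) ≤ t ^ 2 - u ^ 2 := by
  have hsq : u ^ 2 ≤ t ^ 2 := pow_le_pow_left₀ hu hut 2
  unfold STab_phi
  by_cases h1 : c ≤ t
  · by_cases h2 : c ≤ u
    · rw [if_pos h1, if_pos h2, min_eq_right h1, min_eq_right h2]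
      have h3 : (c + t ^ 2 / c) / 2 - (c + u ^ 2 / c) / 2 = (t ^ 2 - u ^ 2) / (2 * c) := by
        field_simp
        ring
      rw [h3]
      refine ⟨div_nonneg (by linarith) (by positivity), le_of_eq ?_⟩
      field_simp
      ring
    · push Not at h2
      rw [if_pos h1, if_neg (not_le.2 h2), min_eq_right h1, min_eq_left h2.le]
      have h3 : (c + t ^ 2 / c) / 2 - u = (c ^ 2 + t ^ 2 - 2 * u * c) / (2 * c) := by
        field_simp
      rw [h3]
      have h4 : c ^ 2 ≤ t ^ 2 := pow_le_pow_left₀ hc.le h1 2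
      refine ⟨div_nonneg (by nlinarith) (by positivity), ?_⟩
      rw [div_mul_eq_mul_div, div_le_iff₀ (by positivity)]
      have h5 : (t ^ 2 - u ^ 2) * (2 * c) - (c ^ 2 + t ^ 2 - 2 * u * c) * (c + u) =
          (c - u) * (t ^ 2 - c ^ 2) := by ring
      have h6 : 0 ≤ (c - u) * (t ^ 2 - c ^ 2) := mul_nonneg (by linarith) (by linarith)
      linarith
  · push Not at h1
    have h2 : u < c := lt_of_le_of_lt hut h1
    rw [if_neg (not_le.2 h1), if_neg (not_le.2 h2), min_eq_left h1.le, min_eq_left h2.le]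
    exact ⟨by linarith, le_of_eq (by ring)⟩

/-- `ρ, r` lower bounds of `min (sqrt(1-x)) c`, `min (sqrt(1-y)) c`, `c = (sqrt π/2)(1-h)`.
Proof (`s* = 1 - π(1-h)²/4`, `sqrt(1-s*) = c`): (i) `x, y` in the square root branch:
`sqrt π (sqrt(1-x) - sqrt(1-y)) = sqrt π (y-x)/(sqrt(1-x)+sqrt(1-y))`; (ii) both in the linear branch:
`(y-x)/(1-h)` and `κ ≥ sqrt π/(2c) = 1/(1-h)`; (iii) mixed: split at `s*` (both formulas agree there). -/
theorem gA_drop (h x y κ ρ r : ℝ) (hh : h < 1) (hxy : x ≤ y) (hy : y ≤ 1) (hρ : 0 ≤ ρ) (hr : 0 ≤ r)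
    (hρ1 : ρ ≤ Real.sqrt (1 - x)) (hρ2 : ρ ≤ Real.sqrt Real.pi / 2 * (1 - h))
    (hr1 : r ≤ Real.sqrt (1 - y)) (hr2 : r ≤ Real.sqrt Real.pi / 2 * (1 - h))
    (hκ : 0 ≤ κ) (hk : Real.sqrt Real.pi ≤ κ * (ρ + r)) :
    gA h x - gA h y ≤ κ * (y - x) := by
  have hpi := Real.pi_pos
  have hp0 : 0 < Real.sqrt Real.pi := Real.sqrt_pos.2 hpi
  have hc : 0 < Real.sqrt Real.pi / 2 * (1 - h) := mul_pos (by positivity) (by linarith)
  have hut : Real.sqrt (1 - y) ≤ Real.sqrt (1 - x) := Real.sqrt_le_sqrt (by linarith)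
  have h1 := STab_phi_key hc (Real.sqrt_nonneg (1 - y)) hut
  rw [Real.sq_sqrt (by linarith : (0:ℝ) ≤ 1 - x), Real.sq_sqrt (by linarith : (0:ℝ) ≤ 1 - y)] at h1
  rw [STab_gA_phi h x hh (by linarith), STab_gA_phi h y hh hy, ← mul_sub]
  obtain ⟨h2, h3⟩ := h1
  have h4 : ρ + r ≤ min (Real.sqrt (1 - x)) (Real.sqrt Real.pi / 2 * (1 - h)) +
      min (Real.sqrt (1 - y)) (Real.sqrt Real.pi / 2 * (1 - h)) :=
    add_le_add (le_min hρ1 hρ2) (le_min hr1 hr2)
  set Δ := STab_phi (Real.sqrt Real.pi / 2 * (1 - h)) (Real.sqrt (1 - x)) -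
    STab_phi (Real.sqrt Real.pi / 2 * (1 - h)) (Real.sqrt (1 - y)) with hΔ
  calc Real.sqrt Real.pi * Δ ≤ κ * (ρ + r) * Δ := mul_le_mul_of_nonneg_right hk h2
    _ = κ * (Δ * (ρ + r)) := by ring
    _ ≤ κ * (y - x) := by
        apply mul_le_mul_of_nonneg_left _ hκ
        have h5 := mul_le_mul_of_nonneg_left h4 h2
        linarith

/-- the square root is always a lower bound of `gA` -/
theorem gA_ge_sqrt (h s : ℝ) (hh : h < 1) (hs : s ≤ 1) : Real.sqrt (Real.pi * (1 - s)) ≤ gA h s := by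
  have hpi := Real.pi_pos
  have hc : 0 < Real.sqrt Real.pi / 2 * (1 - h) :=
    mul_pos (by have := Real.sqrt_pos.2 hpi; positivity) (by linarith)
  rw [STab_gA_phi h s hh hs, Real.sqrt_mul hpi.le]
  exact mul_le_mul_of_nonneg_left (STab_phi_ge hc) (Real.sqrt_nonneg _)

end Crest.Agent.T3.Pl
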