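import Crest.Agent.T3.R3Def
import Crest.Agent.T3.KTab
import Crest.Agent.T3.CaseR3
import Crest.Agent.T3.STab

/-! Row 214: node tables of R3 give admissible chords. -/

set_option autoImplicit false
open MeasureTheory Set Filter Topology

namespace Crest.Agent.T3.Pl

/-- admissible lower bounds in phase B -/
def g3 (hp : ℕ) (s c : ℝ) : Prop := ∃ l1 ∈ Icc (0 : ℝ) 1, ∃ l2 ∈ Ioc (0 : ℝ) 1, c ≤ gB (X hp) l1 l2 s

theorem sq_chord {a b p q t : ℝ} (ha : 0 ≤ a) (hb : 0 ≤ b) (hp : a ^ 2 ≤ p) (hq : b ^ 2 ≤ q)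
    (h0 : 0 ≤ t) (h1 : t ≤ 1) : (1 - t) * a + t * b ≤ Real.sqrt ((1 - t) * p + t * q) := by
  apply Real.le_sqrt_of_sq_le
  have h2 : 0 ≤ t * (1 - t) := mul_nonneg h0 (by linarith)
  have h3 := mul_nonneg h2 (sq_nonneg (a - b))
  have h4 := mul_le_mul_of_nonneg_left hp (by linarith : 0 ≤ 1 - t)
  have h5 := mul_le_mul_of_nonneg_left hq h0
  nlinarith

theorem sq_node {g x : ℕ} (h : g * g ≤ 314159265 * x) : Y g ^ 2 ≤ Real.pi * X x := by
  have h1 : (g : ℝ) * g ≤ 314159265 * x := by exact_mod_cast h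
  have hpi : (3.14159265 : ℝ) ≤ Real.pi := by
    have := Real.pi_gt_d20
    linarith
  have h2 : Y g ^ 2 ≤ 3.14159265 * X x := by
    unfold Y X
    have e : ((g : ℝ) / 1000000) ^ 2 = (g : ℝ) * g / 1000000000000 := by ring
    rw [e, div_le_iff₀ (by norm_num)]
    linarith
  refine h2.trans (mul_le_mul_of_nonneg_right hpi ?_)
  unfold X; positivity

theorem cell3_sound {h : ℕ} {d0 d1 : Nd} {m1 : ℕ} (hx0 : d0.x ≤ 10000)
    (hc : cellOK3 h d0 d1 m1 = true) :
    CellG (g3 h) d0.x d0.g d1.x d1.g ∧ 0 < d1.g ∧ d1.x ≤ 10000 := by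
  unfold cellOK3 at hc
  simp only [Bool.and_eq_true] at hc
  obtain ⟨⟨⟨⟨⟨⟨⟨⟨c1, c2⟩, c3⟩, c4⟩, c5⟩, c6⟩, c7⟩, c8⟩, c9⟩ := hc
  have c1 := Nat.le_of_ble_eq_true c1
  have c2 := Nat.le_of_ble_eq_true c2
  have c3 := Nat.le_of_ble_eq_true c3
  have c4 := Nat.le_of_ble_eq_true c4
  have c5 := Nat.le_of_ble_eq_true c5
  have c6 := Nat.le_of_ble_eq_true c6
  have c7 := Nat.le_of_ble_eq_true c7
  have c8 := Nat.le_of_ble_eq_true c8
  have c9 := Nat.le_of_ble_eq_true c9
  refine ⟨?_, c9, c2⟩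
  intro t ht
  have hm : (m1 : ℝ) ≤ 20 := by exact_mod_cast c1
  refine ⟨(m1 : ℝ) / 20, ⟨by positivity, by linarith⟩, 1, ⟨one_pos, le_rfl⟩, ?_⟩
  have hY0 := Y_nonneg d0.g
  have hY1 := Y_nonneg d1.g
  unfold gB
  refine le_min ?_ (le_min ?_ (le_max_of_le_left ?_))
  · have := sq_chord hY0 hY1 (sq_node c3) (sq_node c4) ht.1 ht.2
    refine this.trans (le_of_eq ?_)
    congr 1; ring
  · have k1 := kt_le m1 c1
    have l0 : Y d0.g ≤ (m1 : ℝ) / 20 * (X d0.x - X h) + (kt m1 : ℝ) / 1000000 := by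
      have : (d0.g : ℝ) + 5 * m1 * h ≤ 5 * m1 * d0.x + kt m1 := by exact_mod_cast c5
      unfold Y X
      have e : (m1 : ℝ) / 20 * ((d0.x : ℝ) / 10000 - (h : ℝ) / 10000) + (kt m1 : ℝ) / 1000000 =
        (5 * m1 * d0.x - 5 * m1 * h + kt m1) / 1000000 := by ring
      rw [e]
      apply div_le_div_of_nonneg_right _ (by norm_num)
      linarith
    have l1 : Y d1.g ≤ (m1 : ℝ) / 20 * (X d1.x - X h) + (kt m1 : ℝ) / 1000000 := by
      have : (d1.g : ℝ) + 5 * m1 * h ≤ 5 * m1 * d1.x + kt m1 := by exact_mod_cast c6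
      unfold Y X
      have e : (m1 : ℝ) / 20 * ((d1.x : ℝ) / 10000 - (h : ℝ) / 10000) + (kt m1 : ℝ) / 1000000 =
        (5 * m1 * d1.x - 5 * m1 * h + kt m1) / 1000000 := by ring
      rw [e]
      apply div_le_div_of_nonneg_right _ (by norm_num)
      linarith
    have a0 := mul_le_mul_of_nonneg_left l0 (by linarith [ht.2] : 0 ≤ 1 - t)
    have a1 := mul_le_mul_of_nonneg_left l1 ht.1
    nlinarith
  · have e0 : d0.g * d0.g ≤ 314159265 * (10000 - d0.x) := c7
    have e1 : d1.g * d1.g ≤ 314159265 * (10000 - d1.x) := c8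
    have := sq_chord hY0 hY1 (sq_node e0) (sq_node e1) ht.1 ht.2
    refine this.trans (le_of_eq ?_)
    congr 1
    unfold X
    push_cast [Nat.cast_sub hx0, Nat.cast_sub c2]
    ring

theorem tab3_chainB (h : ℕ) : ∀ (l : List (Nd × ℕ)) (d0 : Nd), d0.x ≤ 10000 → tabOK3 h d0 l = true →
    ChainG (g3 h) d0.x d0.g (l.map Prod.fst)
  | [], _, _, _ => trivial
  | (d1, m1) :: l, d0, hx, ht => by
    simp only [tabOK3, Bool.and_eq_true] at ht
    obtain ⟨a, b, c⟩ := cell3_sound hx ht.1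
    exact ⟨a, b, tab3_chainB h l d1 c ht.2⟩

theorem pi_up : Real.pi ≤ 3.14159266 := by
  have := Real.pi_lt_d20
  linarith

theorem wA_soundC {hm x : ℕ} (hh : hm < 8200) (hx : x ≤ 10000) : Y (wA hm x) ≤ gA (X hm) (X x) := by
  have hpi : (3.14159265 : ℝ) ≤ Real.pi := by
    have := Real.pi_gt_d20
    linarith
  have hmr : (hm : ℝ) < 8200 := by exact_mod_cast hh
  have hxr : (x : ℝ) ≤ 10000 := by exact_mod_cast hx
  have hX1 : X hm < 1 := by rw [X, div_lt_one (by norm_num)]; linarith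
  have hXx : X x ≤ 1 := by rw [X, div_le_one (by norm_num)]; exact hxr
  have hhm : hm ≤ 10000 := by omega
  have h1h : 0 < 1 - X hm := by linarith
  unfold wA
  split_ifs with hok
  · unfold okA at hok
    have h1 := Nat.le_of_ble_eq_true hok
    have h2 : (314159266 : ℝ) * (((10000 - hm : ℕ) : ℝ) * ((10000 - hm : ℕ) : ℝ)) ≤
        ((10000 - x : ℕ) : ℝ) * 4000000000000 := by exact_mod_cast h1
    rw [Nat.cast_sub hhm, Nat.cast_sub hx] at h2
    push_cast at h2
    have e1 : (10000 : ℝ) - hm = 10000 * (1 - X hm) := by unfold X; ring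
    have e2 : (10000 : ℝ) - x = 10000 * (1 - X x) := by unfold X; ring
    rw [e1, e2] at h2
    have hcond : (1 - X hm) ^ 2 ≤ 4 * (1 - X x) / Real.pi := by
      rw [le_div_iff₀ Real.pi_pos]
      have h3 : (1 - X hm) ^ 2 * Real.pi ≤ (1 - X hm) ^ 2 * 3.14159266 :=
        mul_le_mul_of_nonneg_left pi_up (sq_nonneg _)
      nlinarith
    unfold gA
    rw [if_pos hcond]
    have f1 : (((10000 - hm) * 314159265 / 4000000 : ℕ) : ℝ) ≤
        ((10000 - hm : ℕ) : ℝ) * 314159265 / 4000000 := by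
      have := @Nat.cast_div_le ℝ _ _ _ ((10000 - hm) * 314159265) 4000000
      push_cast at this ⊢
      exact this
    have f2 : (((10000 - x) * 1000000 / (10000 - hm) : ℕ) : ℝ) ≤
        ((10000 - x : ℕ) : ℝ) * 1000000 / ((10000 - hm : ℕ) : ℝ) := by
      have := @Nat.cast_div_le ℝ _ _ _ ((10000 - x) * 1000000) (10000 - hm)
      push_cast at this ⊢
      exact this
    rw [Nat.cast_sub hhm] at f1
    rw [Nat.cast_sub hhm, Nat.cast_sub hx] at f2
    push_cast at f1 f2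
    rw [e1] at f1
    rw [e1, e2] at f2
    unfold Y
    push_cast
    have g1 : (10000 * (1 - X hm)) * 314159265 / 4000000 ≤ Real.pi * (1 - X hm) / 4 * 1000000 := by
      have := mul_le_mul_of_nonneg_right hpi h1h.le
      nlinarith
    have g2 : (10000 * (1 - X x)) * 1000000 / (10000 * (1 - X hm)) = (1 - X x) / (1 - X hm) * 1000000 := by
      field_simp
    rw [g2] at f2
    rw [div_le_iff₀ (by norm_num)]
    linarith
  · have h1 := isq_sq ((10000 - x) * 314159265) 1000000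
    have h2 : Y (isq ((10000 - x) * 314159265) 1000000) ^ 2 ≤ Real.pi * X (10000 - x) := by
      apply sq_node
      rw [Nat.mul_comm 314159265]
      exact h1
    have e : X (10000 - x) = 1 - X x := by
      unfold X
      push_cast [Nat.cast_sub hx]
      ring
    rw [e] at h2
    exact (Real.le_sqrt_of_sq_le h2).trans (gA_ge_sqrt _ _ hX1 hXx)

end Crest.Agent.T3.Pl
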