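import Crest.Agent.T3.R3Def
import Crest.Agent.T3.KTab
import Crest.Agent.T3.FTab
import Crest.Agent.T3.STab
import Crest.Agent.T3.CaseR3
import Crest.Agent.T3.R3TabB
import Crest.Agent.T3.R3Aux2

/-! Row 214: soundness of the R3 checker. -/

set_option autoImplicit false
open MeasureTheory Set Filter Topology

namespace Crest.Agent.T3.Pl

/-- position after `c` cells -/
def nx : ℕ → List Nd → ℕ → ℕ
  | x, _, 0 => x
  | x, [], _ + 1 => x
  | _, d :: l, c + 1 => nx d.x l c

theorem run_take_px (L : Ln) : ∀ (c : ℕ) (st : St) (l : List Nd), (run L st (l.take c)).px = nx st.px l c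
  | 0, st, l => by simp [run, nx]
  | c + 1, st, [] => by simp [run, nx]
  | c + 1, st, d :: l => by
    rw [List.take_succ_cons, run_cons, run_take_px L c, nx]
    rfl

theorem nx_add (c j : ℕ) : ∀ (x : ℕ) (l : List Nd), nx x l (c + j) = nx (nx x l c) (l.drop c) j := by
  induction c with
  | zero => intro x l; simp [nx]
  | succ c ih =>
    intro x l
    cases l with
    | nil =>
      have h : ∀ n, nx x [] n = x := by intro n; cases n <;> rfl
      rw [h, h]; simp [h]
    | cons d l =>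
      rw [Nat.succ_add]
      show nx d.x l (c + j) = _
      rw [ih]
      rfl

theorem run_T_le {L : Ln} : ∀ {l : List Nd} {st : St}, st.T ≤ (run L st l).T
  | [], _ => le_rfl
  | d :: l, st => by
    rw [run_cons]
    refine le_trans ?_ (run_T_le (l := l))
    exact Nat.le_add_right _ _

theorem getD_nx : ∀ (i : ℕ) (d0 df : Nd) (l : List Nd), i ≤ l.length → ((d0 :: l).getD i df).x = nx d0.x l i
  | 0, d0, df, l, _ => by simp [nx]
  | i + 1, d0, df, [], h => by simp at h
  | i + 1, d0, df, d :: l, h => by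
    have := getD_nx i d df l (by simpa using h)
    rw [List.getD_cons_succ, this]
    rfl

theorem getD_out (i : ℕ) (d0 df : Nd) (l : List Nd) (h : l.length < i) : (d0 :: l).getD i df = df := by
  rw [List.getD_eq_default]
  simp; omega

/-- final arithmetic -/
theorem fin_arith {V A K lam eta σ E F J m X0 X1 S I P : ℝ} {w0 w1 : ℝ} (hX0 : X0 ≤ σ) (hX1 : σ ≤ X1)
    (hS : 0 ≤ S) (hSK : S ≤ K) (hw0 : 0 ≤ w0) (hw1 : 0 ≤ w1)
    (h0 : F + 1 / 10000000000 + lam * X0 / 10 ≤ w0 * S + 9 / 10 * E + J)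
    (h1 : F + 1 / 10000000000 + lam * X1 / 10 ≤ w1 * S + 9 / 10 * E + J + (X1 - X0) * m)
    (hA : (X1 - σ) * w0 + (σ - X0) * w1 ≤ (X1 - X0) * A) (hA0 : 0 ≤ A) (hA1 : w0 ≤ A ∨ X0 < X1)
    (hI : J + (σ - X0) * m ≤ I) (hP : P ≤ lam * V + F) :
    P < lam * V + A * K + (eta - lam) * σ / 10 - eta * σ / 10 + 9 / 10 * E + I := by
  have hAK : A * S ≤ A * K := mul_le_mul_of_nonneg_left hSK hA0
  rcases hX0.trans hX1 |>.lt_or_eq with hlt | heq
  · have hd : 0 < X1 - X0 := by linarith
    have key : (X1 - X0) * (F + 1 / 10000000000 + lam * σ / 10) ≤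
        (X1 - X0) * (A * S + 9 / 10 * E + J + (σ - X0) * m) := by
      have a0 := mul_le_mul_of_nonneg_left h0 (by linarith : 0 ≤ X1 - σ)
      have a1 := mul_le_mul_of_nonneg_left h1 (by linarith : 0 ≤ σ - X0)
      have a2 := mul_le_mul_of_nonneg_right hA hS
      nlinarith
    have := le_of_mul_le_mul_left key hd
    nlinarith
  · have e : σ = X0 := by linarith
    have hw : w0 ≤ A := by
      rcases hA1 with h | h
      · exact h
      · linarith
    have := mul_le_mul_of_nonneg_right hw hS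
    rw [e] at hI ⊢
    nlinarith

theorem kf_nonneg {m l : ℝ} (hm : 0 ≤ m) : 0 ≤ Kf m l :=
  intervalIntegral.integral_nonneg hm (fun _ _ => Real.sqrt_nonneg _)

theorem Y_eq (a : ℕ) : Y a = (a : ℝ) / 1000000 := rfl
theorem X_eq (a : ℕ) : X a = (a : ℝ) / 10000 := rfl

theorem min_beq {a b : ℕ} (h : Nat.ble a b = true) : (a : ℝ) ≤ b := by
  exact_mod_cast Nat.le_of_ble_eq_true h

/-- the real inequality from `fin3` at one end -/
theorem fin3_real {F lam x w S Ep En J : ℕ}
    (h : F + 90 * En + 1 + 10 * lam * x ≤ w * S / 10000 + 90 * Ep + J) :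
    (F : ℝ) / 10000000000 + 1 / 10000000000 + (lam : ℝ) / 10000 * X x / 10 ≤
      Y w * ((S : ℝ) / 100000000) + 9 / 10 * (((Ep : ℝ) - En) / 100000000) + (J : ℝ) / 10000000000 := by
  have h1 : ((F + 90 * En + 1 + 10 * lam * x : ℕ) : ℝ) ≤ ((w * S / 10000 + 90 * Ep + J : ℕ) : ℝ) := by
    exact_mod_cast h
  have h2 : ((w * S / 10000 : ℕ) : ℝ) ≤ (w : ℝ) * S / 10000 := by
    have := @Nat.cast_div_le ℝ _ _ _ (w * S) 10000
    push_cast at this ⊢
    exact this
  push_cast at h1 h2
  rw [X_eq, Y_eq]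
  have e1 : (F : ℝ) / 10000000000 + 1 / 10000000000 + (lam : ℝ) / 10000 * ((x : ℝ) / 10000) / 10 =
    ((F : ℝ) + 1 + 10 * lam * x) / 10000000000 := by ring
  have e2 : (w : ℝ) / 1000000 * ((S : ℝ) / 100000000) + 9 / 10 * (((Ep : ℝ) - En) / 100000000) +
    (J : ℝ) / 10000000000 = ((w : ℝ) * S / 10000 + 90 * Ep - 90 * En + J) / 10000000000 := by ring
  rw [e1, e2]
  apply div_le_div_of_nonneg_right _ (by norm_num)
  linarith

section R3

variable {D : Set (Fin 3 → ℝ)} {k : Fin 3}

/-- the data of an R3 situation -/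
structure Sit (D : Set (Fin 3 → ℝ)) (k : Fin 3) (hm hp : ℕ) : Prop where
  hD : IsLowerSet D
  hO : IsOpen D
  V0 : 0 < vol01 D
  V1 : vol01 D ≤ 1 / 2
  hm1 : hm < 8200
  hp1 : hp < 10000
  cA : CaseA D k (X hm)
  cB : CaseB D k (X hp)
  s0 : sv D k 0 ≤ 82 / 100
  sg : X hm ≤ sv D k (1 / 10)
  sk : sEnd D k < 2 / 5 ∨ sv D k 0 < 7 / 10

theorem Sit.mem {hm hp : ℕ} (S : Sit D k hm hp) : sEnd D k ≤ sv D k (1 / 10) ∧
    sv D k (1 / 10) ≤ 82 / 100 ∧ 0 ≤ sEnd D k ∧ sEnd D k ≤ 1 / 2 := by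
  refine ⟨sEnd_le D S.hD k (by norm_num), (sv_anti D S.hD k (by norm_num)).trans S.s0,
    (sEnd_mem D S.hD k).1, ?_⟩
  have h1 : sEnd D k ≤ vol01 D := by
    rw [← sv_integral D S.hO k]
    have h2 : ∫ _ in (0 : ℝ)..1, sEnd D k ≤ ∫ u in (0 : ℝ)..1, sv D k u := by
      refine intervalIntegral.integral_mono_on_of_le_Ioo zero_le_one intervalIntegrable_const
        (sv_anti D S.hD k).intervalIntegrable (fun u hu => sEnd_le D S.hD k hu.2)
    simpa using h2
  exact h1.trans S.V1

theorem box3_sound {hm hp c1 j : ℕ} {d0 : Nd} {rest : List Nd} {q : Par} (S : Sit D k hm hp)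
    (hb : box3 hm c1 j (d0 :: rest) q = true)
    (hch : ChainG (g3 hp) d0.x d0.g rest)
    (hs1 : X d0.x ≤ sEnd D k) (hs2 : sEnd D k ≤ X (nx d0.x rest c1))
    (hσ1 : X (nx d0.x rest j) ≤ sv D k (1 / 10))
    (hσ2 : sv D k (1 / 10) ≤ X (nx d0.x rest (j + q.c3))) :
    ∃ c > Crest.Agent.IT.prof (vol01 D) / 2, QL D c := by
  obtain ⟨m1, m2, m3, m4⟩ := S.mem
  set σ := sv D k (1 / 10) with hσ
  set V := vol01 D with hV
  cases rest with
  | nil => simp [box3] at hb
  | cons d1 l =>
  set L : Ln := ⟨q.Ep, q.En, q.lam, 0⟩ with hL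
  have hL2 : ∀ s, L.rv s = ((q.Ep : ℝ) - q.En) / 100000000 + (q.lam : ℝ) / 10000 * s := by
    intro s; simp [Ln.rv, hL]
  set st0 := start L d0 d1 with hst0
  -- common conclusion
  have main : ∀ (a b : ℝ → ℝ) (J bm x0 x1 : ℕ), Continuous a → Continuous b → (∀ s, 0 ≤ a s) →
      (∀ s, 0 ≤ b s) → (∀ s, a s ^ 2 + b s ^ 2 ≤ 1) →
      (∀ s ∈ Icc (X d0.x) (X x1), ∃ c, g3 hp s c ∧ L.rv s ≤ a s * c) →
      X x0 ≤ σ → σ ≤ X x1 → x0 ≤ x1 → fin3 hm x0 x1 J bm q = true →
      (J : ℝ) / 10000000000 + (σ - X x0) * Y bm ≤ ∫ s in (sEnd D k)..σ, b s →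
      ∃ c > Crest.Agent.IT.prof V / 2, QL D c := by
    intro a b J bm x0 x1 ca cb ha hb' hab hl hx0 hx1 hx01 hf hI
    unfold fin3 at hf
    simp only [Bool.and_eq_true] at hf
    obtain ⟨⟨⟨⟨f0, f1⟩, fe⟩, fη⟩, fx⟩ := hf
    have f0' := Nat.le_of_ble_eq_true f0
    have f1' := Nat.le_of_ble_eq_true f1
    have fη' := Nat.le_of_ble_eq_true fη
    have fx' := Nat.le_of_ble_eq_true fx
    have r0 := fin3_real f0'
    have f1'' : F10 q.lam + 90 * q.En + 1 + 10 * q.lam * x1 ≤
        wA hm x1 * S8 q.eta / 10000 + 90 * q.Ep + (J + (x1 - x0) * bm) := by omega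
    have r1 := fin3_real f1''
    have hxx : (((J + (x1 - x0) * bm : ℕ) : ℝ)) / 10000000000 =
        (J : ℝ) / 10000000000 + (X x1 - X x0) * Y bm := by
      rw [X_eq, X_eq, Y_eq]; push_cast [Nat.cast_sub hx01]; ring
    rw [hxx, ← add_assoc] at r1
    have hmx : X hm < 1 := by
      rw [X_eq]; have : (hm : ℝ) < 8200 := by exact_mod_cast S.hm1
      rw [div_lt_one (by norm_num)]; linarith
    have hηr : (q.eta : ℝ) ≤ 99999 := by exact_mod_cast fη'
    have hx1r : X x1 ≤ 82 / 100 := by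
      rw [X_eq]; have : (x1 : ℝ) ≤ 8200 := by exact_mod_cast fx'
      rw [div_le_iff₀ (by norm_num)]; linarith
    have w0 : Y (wA hm x0) ≤ gA (X hm) (X x0) := wA_soundC S.hm1 (by omega)
    have w1 : Y (wA hm x1) ≤ gA (X hm) (X x1) := wA_soundC S.hm1 (by omega)
    have hcon := gA_concave hmx hx0 hx1 (by linarith)
    have key := caseI_bound D S.hD S.hO k (X hm) (X hp) (by rw [X_eq]; positivity) hmx S.cA S.cB
      ((q.eta : ℝ) / 10000) ((q.lam : ℝ) / 10000) σ (82 / 100) (((q.Ep : ℝ) - q.En) / 100000000)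
      S.s0 (by norm_num) (by positivity) (by linarith) (le_max_left _ _) m2
      (okEta_sound S.hm1 fe fx' hx1) a b ca.continuousOn cb.continuousOn
      (fun s _ => ⟨ha s, hb' s, hab s⟩) (fun s hs => by
        obtain ⟨c, ⟨l1, hl1, l2, hl2, hc⟩, hrv⟩ := hl s ⟨hs1.trans hs.1, hs.2.trans hx1⟩
        refine ⟨l1, hl1, l2, hl2, ?_⟩
        rw [← hL2 s]
        exact hrv.trans (mul_le_mul_of_nonneg_left hc (ha s)))
    refine ⟨_, ?_, key⟩
    have hF := F10_le q.lam V S.V0 S.V1
    refine fin_arith (w0 := Y (wA hm x0)) (w1 := Y (wA hm x1)) (S := (S8 q.eta : ℝ) / 100000000)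
      hx0 hx1 (by positivity) (S8_le q.eta fη') (Y_nonneg _) (Y_nonneg _) r0 r1 ?_ ?_ ?_ hI (by linarith)
    · have a0 := mul_le_mul_of_nonneg_left w0 (by linarith : 0 ≤ X x1 - σ)
      have a1 := mul_le_mul_of_nonneg_left w1 (by linarith : 0 ≤ σ - X x0)
      linarith
    · exact gA_nonneg hmx (by linarith)
    · rcases hx01.lt_or_eq with h | h
      · exact Or.inr (X_lt h)
      · left
        have : σ = X x0 := le_antisymm (by rw [h]; exact hx1) hx0
        rw [this]; exact w0
  unfold box3 at hb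
  simp only at hb
  split_ifs at hb with hcj
  · have hcj' := Nat.le_of_ble_eq_true hcj
    set st1 := run L st0 ((d1 :: l).take c1) with hst1
    set st2 := run L st1 (((d1 :: l).drop c1).take (j - c1)) with hst2
    set r := runM L st2 st2.pb (((d1 :: l).drop j).take q.c3) with hr
    simp only [Bool.and_eq_true] at hb
    obtain ⟨hok, hf⟩ := hb
    obtain ⟨a, b, ca, cb, ha, hb', hab, hl, hI, hmin, p1, p2, p3⟩ :=
      box_core (g := g3 hp) hcj' hch st0 st1 st2 r.1 r.2 hst0 hst1 hst2 (by rw [hr]) (by rw [hr]) hok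
    have ok2 : st2.ok = true := by
      have : r.1 = run L st2 (((d1 :: l).drop j).take q.c3) := by rw [hr, runM_eq]
      rw [this] at hok; exact run_ok hok
    have e0 : st0.px = d0.x := by
      have hok1 : st1.ok = true := by rw [hst2] at ok2; exact run_ok ok2
      have hok0 : (start L d0 d1).ok = true := by rw [hst1] at hok1; exact run_ok hok1
      exact (start_good (g := g3 hp) hok0 hch.1).1
    have e1 : st1.px = nx d0.x (d1 :: l) c1 := by rw [hst1, run_take_px, e0]
    have e2 : st2.px = nx d0.x (d1 :: l) j := by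
      rw [hst2, run_take_px, e1, ← nx_add]; congr 1; omega
    have e3 : r.1.px = nx d0.x (d1 :: l) (j + q.c3) := by
      rw [hr, runM_eq, run_take_px, e2, ← nx_add]
    have hT : st1.T ≤ st2.T := run_T_le
    refine main a b ((st2.T - st1.T) / 2) r.2 st2.px r.1.px ca cb ha hb' hab hl
      (by rw [e2]; exact hσ1) (by rw [e3]; exact hσ2) p3 hf ?_
    have hs2' : sEnd D k ≤ X st1.px := by rw [e1]; exact hs2
    have hx2σ : X st2.px ≤ σ := by rw [e2]; exact hσ1
    have hσ3 : σ ≤ X r.1.px := by rw [e3]; exact hσ2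
    have i1 : 0 ≤ ∫ s in (sEnd D k)..(X st1.px), b s :=
      intervalIntegral.integral_nonneg hs2' (fun s _ => hb' s)
    have i3 : (σ - X st2.px) * Y r.2 ≤ ∫ s in (X st2.px)..σ, b s := by
      have h1 : ∫ _ in (X st2.px)..σ, Y r.2 ≤ ∫ s in (X st2.px)..σ, b s :=
        intervalIntegral.integral_mono_on hx2σ intervalIntegrable_const (cb.intervalIntegrable _ _)
          (fun s hs => hmin s ⟨hs.1, hs.2.trans hσ3⟩)
      simpa using h1
    have i2 : (((st2.T - st1.T) / 2 : ℕ) : ℝ) / 10000000000 ≤ ∫ s in (X st1.px)..(X st2.px), b s := by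
      rw [hI]
      have h1 : (((st2.T - st1.T) / 2 : ℕ) : ℝ) ≤ ((st2.T - st1.T : ℕ) : ℝ) / 2 := by
        have := @Nat.cast_div_le ℝ _ _ _ (st2.T - st1.T) 2
        simpa using this
      rw [Nat.cast_sub hT] at h1
      rw [div_le_div_iff₀ (by norm_num) (by norm_num)]
      linarith
    have e : ∫ s in (sEnd D k)..σ, b s = (∫ s in (sEnd D k)..(X st1.px), b s) +
        (∫ s in (X st1.px)..(X st2.px), b s) + ∫ s in (X st2.px)..σ, b s := by
      rw [intervalIntegral.integral_add_adjacent_intervals (cb.intervalIntegrable _ _)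
        (cb.intervalIntegrable _ _), intervalIntegral.integral_add_adjacent_intervals
        (cb.intervalIntegrable _ _) (cb.intervalIntegrable _ _)]
    rw [e]
    linarith
  · set st2 := run L st0 ((d1 :: l).take j) with hst2
    set st3 := run L st2 (((d1 :: l).drop j).take q.c3) with hst3
    simp only [Bool.and_eq_true] at hb
    obtain ⟨hok, hf⟩ := hb
    have hst2' : st2 = run L st2 (((d1 :: l).drop j).take (j - j)) := by simp [run]
    obtain ⟨a, b, ca, cb, ha, hb', hab, hl, hI, hmin, p1, p2, p3⟩ :=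
      box_core (g := g3 hp) (le_refl j) hch st0 st2 st2 st3
        (runM L st2 st2.pb (((d1 :: l).drop j).take q.c3)).2 hst0 hst2 hst2'
        (by rw [runM_eq]) rfl hok
    have ok2 : st2.ok = true := by rw [hst3] at hok; exact run_ok hok
    have e0 : st0.px = d0.x := by
      have hok0 : (start L d0 d1).ok = true := by rw [hst2] at ok2; exact run_ok ok2
      exact (start_good (g := g3 hp) hok0 hch.1).1
    have e2 : st2.px = nx d0.x (d1 :: l) j := by rw [hst2, run_take_px, e0]
    have e3 : st3.px = nx d0.x (d1 :: l) (j + q.c3) := by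
      rw [hst3, run_take_px, e2, ← nx_add]
    refine main a b 0 0 st2.px st3.px ca cb ha hb' hab hl
      (by rw [e2]; exact hσ1) (by rw [e3]; exact hσ2) p3 hf ?_
    have i1 : 0 ≤ ∫ s in (sEnd D k)..σ, b s := intervalIntegral.integral_nonneg m1 (fun s _ => hb' s)
    simp only [Y_eq, Nat.cast_zero, zero_div, mul_zero, add_zero]
    exact i1

theorem row3_sound {hm hp c1 : ℕ} {d0 : Nd} {rest : List Nd} (S : Sit D k hm hp)
    (hch : ChainG (g3 hp) d0.x d0.g rest)
    (hs1 : X d0.x ≤ sEnd D k) (hs2 : sEnd D k ≤ X (nx d0.x rest c1)) :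
    ∀ (qs : List Par) (j : ℕ), row3 hm c1 (d0 :: rest) j qs = true → qs ≠ [] →
      X (nx d0.x rest j) ≤ sv D k (1 / 10) →
      sv D k (1 / 10) ≤ X (nx d0.x rest (j + lenPs qs)) →
      ∃ c > Crest.Agent.IT.prof (vol01 D) / 2, QL D c
  | [], _, _, h, _, _ => absurd rfl h
  | q :: qs, j, hr, _, h1, h2 => by
    simp only [row3, Bool.and_eq_true] at hr
    rcases le_or_gt (sv D k (1 / 10)) (X (nx d0.x rest (j + q.c3))) with h | h
    · rcases (Bool.or_eq_true _ _).mp hr.1 with hs | hs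
      · exfalso
        unfold skip at hs
        simp only [Bool.and_eq_true, List.getD_cons_zero] at hs
        have a1 := Nat.le_of_ble_eq_true hs.1
        have a2 := Nat.le_of_ble_eq_true hs.2
        have hj : j ≤ rest.length := by
          by_contra hc
          rw [getD_out _ _ _ _ (by omega)] at a2
          simp at a2
        rw [getD_nx _ _ _ _ hj] at a2
        have a1' : (4000 : ℝ) ≤ d0.x := by exact_mod_cast a1
        have a2' : (7000 : ℝ) ≤ (nx d0.x rest j : ℕ) := by exact_mod_cast a2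
        rw [X_eq, div_le_iff₀ (by norm_num)] at hs1 h1
        have h0 : sv D k (1 / 10) ≤ sv D k 0 := sv_anti D S.hD k (by norm_num)
        rcases S.sk with hk | hk <;> linarith
      · exact box3_sound S hs hch hs1 hs2 h1 h
    · have hne : qs ≠ [] := by
        rintro rfl
        simp only [lenPs, add_zero] at h2
        linarith
      refine row3_sound S hch hs1 hs2 qs (j + q.c3) hr.2 hne h.le ?_
      have e : j + lenPs (q :: qs) = j + q.c3 + lenPs qs := by simp only [lenPs]; omega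
      rw [← e]; exact h2

theorem chain_drop {g : ℝ → ℝ → Prop} : ∀ (c : ℕ) (d0 : Nd) (rest : List Nd) (d : Nd) (l : List Nd),
    ChainG g d0.x d0.g rest → (d0 :: rest).drop c = d :: l →
      ChainG g d.x d.g l ∧ d.x = nx d0.x rest c
  | 0, d0, rest, d, l, h, e => by
    simp only [List.drop_zero, List.cons.injEq] at e
    obtain ⟨e1, e2⟩ := e
    subst e1 e2
    exact ⟨h, rfl⟩
  | c + 1, d0, [], d, l, h, e => by simp at e
  | c + 1, d0, d' :: rest, d, l, h, e => by
    rw [List.drop_succ_cons] at e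
    have h2 := chain_drop c d' rest d l h.2.2 e
    exact ⟨h2.1, h2.2⟩

theorem X_ge_of {x y : ℕ} (h : X x < X y) : x < y := by
  unfold X at h
  have : (x : ℝ) < y := by
    rw [div_lt_div_iff_of_pos_right (by norm_num)] at h; exact h
  exact_mod_cast this

theorem rows3_sound {hm hp : ℕ} (S : Sit D k hm hp) :
    ∀ (rs : List Row) (nds : List Nd), rows3 hm nds rs = true →
      (∀ d0 rest, nds = d0 :: rest → ChainG (g3 hp) d0.x d0.g rest ∧
        (d0.x = 0 ∨ X d0.x < sEnd D k)) →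
      ∃ c > Crest.Agent.IT.prof (vol01 D) / 2, QL D c
  | [], nds, h, hn => by
    exfalso
    obtain ⟨m1, m2, m3, m4⟩ := S.mem
    simp only [rows3] at h
    have h' := Nat.le_of_ble_eq_true h
    cases nds with
    | nil => simp at h'
    | cons d0 rest =>
      simp only [List.headD_cons] at h'
      rcases (hn d0 rest rfl).2 with hx | hx
      · omega
      · have : (5000 : ℝ) ≤ d0.x := by exact_mod_cast h'
        rw [X_eq, div_lt_iff₀ (by norm_num)] at hx
        linarith
  | r :: rs, nds, h, hn => by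
    obtain ⟨m1, m2, m3, m4⟩ := S.mem
    simp only [rows3, Bool.and_eq_true] at h
    obtain ⟨⟨⟨hr, hj⟩, he⟩, hrec⟩ := h
    have he' := Nat.le_of_ble_eq_true he
    cases nds with
    | nil => simp at he'
    | cons d0 rest =>
      obtain ⟨hch, hx⟩ := hn d0 rest rfl
      have hxle : X d0.x ≤ sEnd D k := by
        rcases hx with hx | hx
        · rw [hx, X_eq]; simpa using m3
        · exact hx.le
      have hlen : r.j0 + lenPs r.ps ≤ rest.length := by
        by_contra hc
        rw [getD_out _ _ _ _ (by omega)] at he'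
        simp at he'
      rw [getD_nx _ _ _ _ hlen] at he'
      have he'' : (82 / 100 : ℝ) ≤ X (nx d0.x rest (r.j0 + lenPs r.ps)) := by
        have : (8200 : ℝ) ≤ (nx d0.x rest (r.j0 + lenPs r.ps) : ℕ) := by exact_mod_cast he'
        rw [X_eq, le_div_iff₀ (by norm_num)]; linarith
      have hjx : (r.j0 = 0 ∨ nx d0.x rest r.j0 ≤ hm) := by
        simp only [Bool.or_eq_true] at hj
        rcases hj with hj | hj
        · left; exact Nat.eq_of_beq_eq_true hj
        · right
          have := Nat.le_of_ble_eq_true hj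
          rw [getD_nx _ _ _ _ (by omega)] at this
          exact this
      have hstart : X (nx d0.x rest r.j0) ≤ sv D k (1 / 10) := by
        rcases hjx with hj | hj
        · rw [hj]; exact hxle.trans m1
        · exact (X_le hj).trans S.sg
      by_cases hs : sEnd D k ≤ X (nx d0.x rest r.c1)
      · refine row3_sound S hch hxle hs r.ps r.j0 hr ?_ hstart (m2.trans he'')
        intro hps
        rw [hps] at he''
        simp only [lenPs, add_zero] at he''
        rcases hjx with hj | hj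
        · rw [hj] at he''
          have : nx d0.x rest 0 = d0.x := rfl
          rw [this] at he''
          linarith
        · have h1 := X_le hj
          have h2 : X hm < 82 / 100 := by
            have : (hm : ℝ) < 8200 := by exact_mod_cast S.hm1
            rw [X_eq, div_lt_iff₀ (by norm_num)]; linarith
          linarith
      · push Not at hs
        refine rows3_sound S rs _ hrec (fun d l e => ?_)
        obtain ⟨h1, h2⟩ := chain_drop _ d0 rest d l hch e
        exact ⟨h1, Or.inr (by rw [h2]; exact hs)⟩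

/-- chords of the node table are admissible -/
theorem checkH_sound {c : HCell} (hc : checkH c = true) (S : Sit D k c.hm c.hp) :
    ∃ v > Crest.Agent.IT.prof (vol01 D) / 2, QL D v := by
  unfold checkH at hc
  simp only [Bool.and_eq_true] at hc
  obtain ⟨⟨⟨⟨⟨hx, hg⟩, hp⟩, hmp⟩, ht⟩, hr⟩ := hc
  have hx0 := Nat.eq_of_beq_eq_true hx
  have hch := tab3_chainB c.hp c.tab c.d0 (by rw [hx0]; omega) ht
  refine rows3_sound S c.rows _ hr (fun d0 rest e => ?_)
  simp only [List.cons.injEq] at e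
  obtain ⟨e1, e2⟩ := e
  subst e1 e2
  exact ⟨hch, Or.inl hx0⟩

theorem chainH_find : ∀ (cs : List HCell) (h0 : ℕ) (h : ℝ), chainH h0 cs = true →
    (X h0 ≤ h) → (h0 = 0 ∨ X h0 < h) → h ≤ 82 / 100 →
      ∃ c ∈ cs, X c.hm ≤ h ∧ h ≤ X c.hp ∧ c.hm < 8200
  | [], h0, h, hc, h1, h2, h3 => by
    exfalso
    have := Nat.le_of_ble_eq_true (show Nat.ble 8200 h0 = true from hc)
    have h4 : (8200 : ℝ) ≤ h0 := by exact_mod_cast this
    rcases h2 with h2 | h2
    · omega
    · rw [X_eq, div_lt_iff₀ (by norm_num)] at h2; linarith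
  | c :: cs, h0, h, hc, h1, h2, h3 => by
    simp only [chainH, Bool.and_eq_true] at hc
    have e := Nat.eq_of_beq_eq_true hc.1
    rcases le_or_gt h (X c.hp) with hh | hh
    · refine ⟨c, List.mem_cons_self, by rw [e]; exact h1, hh, ?_⟩
      rw [e]
      rcases h2 with h2 | h2
      · omega
      · have : (h0 : ℝ) < 8200 := by
          rw [X_eq, div_lt_iff₀ (by norm_num)] at h2; linarith
        exact_mod_cast this
    · obtain ⟨c', hm, r⟩ := chainH_find cs c.hp h hc.2 hh.le (Or.inr hh) h3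
      exact ⟨c', List.mem_cons_of_mem _ hm, r⟩

/-- **R3**: case I with `s0 ≤ 82/100`. -/
theorem r3_of {cs : List HCell} (hcs : chainH 0 cs = true) (hall : ∀ c ∈ cs, checkH c = true)
    (hD : IsLowerSet D) (hO : IsOpen D) (V0 : 0 < vol01 D) (V1 : vol01 D ≤ 1 / 2)
    (hs0 : sv D k 0 ≤ 82 / 100) (hsk : sEnd D k < 2 / 5 ∨ sv D k 0 < 7 / 10)
    (h : ℝ) (h0 : 0 ≤ h) (hsg : h ≤ sv D k (1 / 10))
    (cA : ∀ hA : ℝ, 0 ≤ hA → hA ≤ h → hA < 1 → CaseA D k hA)
    (cB : ∀ hB : ℝ, h ≤ hB → hB < 1 → CaseB D k hB) :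
    ∃ v > Crest.Agent.IT.prof (vol01 D) / 2, QL D v := by
  have h82 : h ≤ 82 / 100 := hsg.trans ((sv_anti D hD k (by norm_num)).trans hs0)
  obtain ⟨c, hmem, h1, h2, h3⟩ := chainH_find cs 0 h hcs (by rw [X_eq]; simpa using h0) (Or.inl rfl) h82
  have hc := hall c hmem
  have hc' := hc
  unfold checkH at hc'
  simp only [Bool.and_eq_true] at hc'
  obtain ⟨⟨⟨⟨⟨hx, hg⟩, hp⟩, hmp⟩, ht⟩, hr⟩ := hc'
  have hp' := Nat.le_of_ble_eq_true hp
  have hp1 : X c.hp < 1 := by
    have : (c.hp : ℝ) < 10000 := by exact_mod_cast (show c.hp < 10000 by omega)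
    rw [X_eq, div_lt_one (by norm_num)]; exact this
  exact checkH_sound hc ⟨hD, hO, V0, V1, h3, by omega,
    cA _ (by rw [X_eq]; positivity) h1 (lt_of_le_of_lt (h1.trans h2) hp1), cB _ h2 hp1, hs0, h1.trans hsg, hsk⟩

end R3

end Crest.Agent.T3.Pl
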