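import Crest.Agent.T3.Final0
import Crest.Agent.T3.R1x
import Crest.Agent.T3.R3Sound
import Crest.Agent.T3.R3Dat

/-! Row 214: the lower bound and the equality case for down-sets. -/

set_option autoImplicit false
open MeasureTheory Set Filter Topology
open Crest.GeometryTopology.PeriodicPerimeter

namespace Crest.Agent.T3

theorem prof_nonneg (V : ℝ) (hV0 : 0 < V) : 0 ≤ Crest.Agent.IT.prof V := by
  unfold Crest.Agent.IT.prof
  positivity

theorem goal_all (V : ℝ) (hV0 : 0 < V) (hV1 : V ≤ 1 / 2) (D : Set (Fin 3 → ℝ)) (hO : IsOpen D)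
    (hD : IsLowerSet D) (hvol : vol01 D = V) : Goal D V := by
  subst hvol
  refine goal_of D hD hO _ (prof_nonneg _ hV0) hV0 hV1 rfl
    (fun k h1 h2 => r1x D hD hO k hV0 hV1 h1 h2) ?_
  intro k hs hsk h h0 h2 hA hB
  exact Pl.r3_of Pl.chain_ok Pl.cells_ok hD hO hV0 hV1 hs hsk h h0 h2 hA hB

/-- **The lower bound for down-sets.** -/
theorem lowerDown : LowerDown := fun V hV0 hV1 D hO hD hvol => (goal_all V hV0 hV1 D hO hD hvol).1

/-- **The equality case for down-sets.** -/
theorem eqDown : EqDown := fun V hV0 hV1 D hO hD hvol hP =>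
  (goal_all V hV0 hV1 D hO hD hvol).2 hP.le

end Crest.Agent.T3
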