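import Crest.Agent.T3.UnfBasic

/-! Row 214, chunk T3-SV: the slice area function `sv D k`. -/

set_option autoImplicit false
open MeasureTheory Set Filter Topology
open Crest.GeometryTopology.PeriodicPerimeter

namespace Crest.Agent.T3

private theorem sv_cube (n : ℕ) :
    volume (Set.pi univ (fun _ : Fin n => Ico (0 : ℝ) 1)) = 1 := by
  simp [Real.volume_pi_Ico]

private theorem sv_le_one {n : ℕ} (D : Set (Fin n → ℝ)) :
    volume (D ∩ Set.pi univ (fun _ => Ico (0 : ℝ) 1)) ≤ 1 := by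
  rw [← sv_cube n]
  exact measure_mono inter_subset_right

private theorem sv_ne_top {n : ℕ} (D : Set (Fin n → ℝ)) :
    volume (D ∩ Set.pi univ (fun _ => Ico (0 : ℝ) 1)) ≠ ⊤ :=
  ((sv_le_one D).trans_lt ENNReal.one_lt_top).ne

theorem sv_mem {n : ℕ} (D : Set (Fin (n + 1) → ℝ)) (k : Fin (n + 1)) (u : ℝ) :
    sv D k u ∈ Icc (0 : ℝ) 1 := by
  refine ⟨ENNReal.toReal_nonneg, ?_⟩
  have h := ENNReal.toReal_mono ENNReal.one_ne_top (sv_le_one (sl k u D))
  rwa [ENNReal.toReal_one] at h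

theorem sv_anti {n : ℕ} (D : Set (Fin (n + 1) → ℝ)) (hD : IsLowerSet D) (k : Fin (n + 1)) :
    Antitone (sv D k) := by
  intro u v huv
  exact ENNReal.toReal_mono (sv_ne_top _)
    (measure_mono (inter_subset_inter_left _ (sl_anti D hD k huv)))

/-- right-continuity: the slices `sl k v D` increase to `sl k u D` as `v ↓ u` (openness). -/
theorem sv_right {n : ℕ} (D : Set (Fin (n + 1) → ℝ)) (hD : IsLowerSet D) (hO : IsOpen D)
    (k : Fin (n + 1)) (u : ℝ) : Tendsto (sv D k) (𝓝[>] u) (𝓝 (sv D k u)) := by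
  have h1 := (sv_anti D hD k).tendsto_nhdsGT u
  have hv0 : Tendsto (fun j : ℕ => 1 / ((j : ℝ) + 1)) atTop (𝓝 0) :=
    tendsto_one_div_add_atTop_nhds_zero_nat
  have hv : Tendsto (fun j : ℕ => u + 1 / ((j : ℝ) + 1)) atTop (𝓝[>] u) := by
    rw [tendsto_nhdsWithin_iff]
    refine ⟨by simpa using hv0.const_add u, Eventually.of_forall fun j => ?_⟩
    have : (0 : ℝ) < 1 / ((j : ℝ) + 1) := by positivity
    simp only [mem_Ioi]
    linarith
  have hmono : Monotone (fun j : ℕ => sl k (u + 1 / ((j : ℝ) + 1)) D ∩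
      Set.pi univ (fun _ => Ico (0 : ℝ) 1)) := by
    intro i j hij
    refine inter_subset_inter_left _ (sl_anti D hD k ?_)
    have : (1 : ℝ) / ((j : ℝ) + 1) ≤ 1 / ((i : ℝ) + 1) := by
      apply one_div_le_one_div_of_le (by positivity)
      have : (i : ℝ) ≤ (j : ℝ) := by exact_mod_cast hij
      linarith
    linarith
  have hU : (⋃ j : ℕ, (sl k (u + 1 / ((j : ℝ) + 1)) D ∩ Set.pi univ (fun _ => Ico (0 : ℝ) 1))) =
      sl k u D ∩ Set.pi univ (fun _ => Ico (0 : ℝ) 1) := by
    rw [← iUnion_inter]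
    congr 1
    ext y
    rw [mem_iUnion]
    constructor
    · rintro ⟨j, hj⟩
      refine sl_anti D hD k ?_ hj
      have : (0 : ℝ) < 1 / ((j : ℝ) + 1) := by positivity
      linarith
    · intro hy
      have hc : Continuous (fun v : ℝ => (k.insertNth (α := fun _ => ℝ) v y : Fin (n+1) → ℝ)) := by
        refine continuous_pi fun i => ?_
        refine Fin.succAboveCases k ?_ ?_ i
        · simpa using (continuous_id' : Continuous fun v : ℝ => v)
        · intro j; simpa using continuous_const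
      have hev : ∀ᶠ v in 𝓝 u, y ∈ sl k v D := (hO.preimage hc).mem_nhds hy
      have hev2 := (hv.mono_right nhdsWithin_le_nhds).eventually hev
      exact hev2.exists
  have h2 : Tendsto (fun j : ℕ => sv D k (u + 1 / ((j : ℝ) + 1))) atTop (𝓝 (sv D k u)) := by
    have h3 := tendsto_measure_iUnion_atTop (μ := volume) hmono
    rw [hU] at h3
    exact (ENNReal.tendsto_toReal (sv_ne_top _)).comp h3
  have h4 := tendsto_nhds_unique (h1.comp hv) h2
  rw [h4] at h1
  exact h1

/-- Cavalieri. -/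
theorem sv_integral {n : ℕ} (D : Set (Fin (n + 1) → ℝ)) (hO : IsOpen D) (k : Fin (n + 1)) :
    ∫ u in (0 : ℝ)..1, sv D k u = vol01 D := by
  have hmp : MeasurePreserving (MeasurableEquiv.piFinSuccAbove (fun _ => ℝ) k).symm
      (volume : Measure (ℝ × (Fin n → ℝ))) (volume : Measure (Fin (n+1) → ℝ)) :=
    (volume_preserving_piFinSuccAbove (fun _ : Fin (n + 1) => ℝ) k).symm _
  have hQ : ∀ m : ℕ, MeasurableSet (Set.pi univ (fun _ : Fin m => Ico (0 : ℝ) 1)) := fun m =>
    MeasurableSet.univ_pi fun _ => measurableSet_Ico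
  have hDm : MeasurableSet (D ∩ Set.pi univ (fun _ => Ico (0 : ℝ) 1)) :=
    hO.measurableSet.inter (hQ _)
  have h1 := hmp.measure_preimage hDm.nullMeasurableSet
  have hpm : MeasurableSet ((MeasurableEquiv.piFinSuccAbove (fun _ : Fin (n + 1) => ℝ) k).symm ⁻¹'
      (D ∩ Set.pi univ (fun _ => Ico (0 : ℝ) 1))) :=
    hDm.preimage (MeasurableEquiv.piFinSuccAbove (fun _ : Fin (n + 1) => ℝ) k).symm.measurable
  rw [Measure.volume_eq_prod, Measure.prod_apply hpm] at h1
  have hsl : ∀ t : ℝ, (Prod.mk t ⁻¹'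
      ((MeasurableEquiv.piFinSuccAbove (fun _ : Fin (n + 1) => ℝ) k).symm ⁻¹'
      (D ∩ Set.pi univ (fun _ => Ico (0 : ℝ) 1)))) =
      {y | t ∈ Ico (0 : ℝ) 1 ∧ y ∈ sl k t D ∩ Set.pi univ (fun _ => Ico (0 : ℝ) 1)} := by
    intro t
    ext y
    change (k.insertNth (α := fun _ => ℝ) t y ∈ D ∧
      k.insertNth (α := fun _ => ℝ) t y ∈ Set.pi univ (fun _ => Ico (0 : ℝ) 1)) ↔
      (t ∈ Ico (0 : ℝ) 1 ∧ (k.insertNth (α := fun _ => ℝ) t y ∈ D ∧
        y ∈ Set.pi univ (fun _ => Ico (0 : ℝ) 1)))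
    have h2 : (k.insertNth (α := fun _ => ℝ) t y ∈ Set.pi univ (fun _ => Ico (0 : ℝ) 1)) ↔
        t ∈ Ico (0 : ℝ) 1 ∧ y ∈ Set.pi univ (fun _ => Ico (0 : ℝ) 1) := by
      simp only [mem_univ_pi]
      constructor
      · intro h
        refine ⟨by simpa using h k, fun i => by simpa using h (k.succAbove i)⟩
      · rintro ⟨ha, hb⟩ i
        refine Fin.succAboveCases k ?_ ?_ i
        · simpa using ha
        · intro j; simpa using hb j
    rw [h2]
    tauto
  have hint : (∫⁻ t : ℝ, volume (Prod.mk t ⁻¹'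
      ((MeasurableEquiv.piFinSuccAbove (fun _ : Fin (n + 1) => ℝ) k).symm ⁻¹'
      (D ∩ Set.pi univ (fun _ => Ico (0 : ℝ) 1))))) =
      ∫⁻ t in Ico (0 : ℝ) 1, volume (sl k t D ∩ Set.pi univ (fun _ => Ico (0 : ℝ) 1)) := by
    rw [← lintegral_indicator measurableSet_Ico]
    refine lintegral_congr fun t => ?_
    rw [hsl t]
    by_cases ht : t ∈ Ico (0 : ℝ) 1
    · rw [indicator_of_mem ht]
      congr 1
      ext y
      simp [ht]
    · rw [indicator_of_notMem ht]
      have : {y | t ∈ Ico (0 : ℝ) 1 ∧ y ∈ sl k t D ∩ Set.pi univ (fun _ => Ico (0 : ℝ) 1)} = ∅ := by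
        ext y
        simp [ht]
      rw [this, measure_empty]
  rw [hint] at h1
  have hmeas : AEMeasurable (fun t => volume (sl k t D ∩ Set.pi univ (fun _ => Ico (0 : ℝ) 1)))
      (volume.restrict (Ico (0 : ℝ) 1)) := by
    have hm := measurable_measure_prodMk_left (ν := (volume : Measure (Fin n → ℝ))) hpm
    refine hm.aemeasurable.congr ?_
    refine ae_restrict_of_forall_mem measurableSet_Ico fun t ht => ?_
    change volume (Prod.mk t ⁻¹' _) = _
    rw [hsl t]
    congr 1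
    ext y
    simp [ht]
  rw [intervalIntegral.integral_of_le zero_le_one, ← integral_Ico_eq_integral_Ioc]
  unfold sv vol01
  rw [integral_toReal hmeas (ae_of_all _ fun t =>
    (sv_le_one (sl k t D)).trans_lt ENNReal.one_lt_top), h1]

end Crest.Agent.T3
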