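import Crest.Agent.T3.SliceCor
import Crest.Agent.T3.Sv

/-! Row 214, chunk T3-C1: slicing with calibrations depending on the slice area. -/

set_option autoImplicit false
open MeasureTheory Set Filter Topology
open Crest.GeometryTopology.PeriodicPerimeter

namespace Crest.Agent.T3

/-- `QL` is closed. -/
theorem c1_QL_lim {n : ℕ} (D : Set (Fin n → ℝ)) (c : ℕ → ℝ) (c0 : ℝ)
    (h : ∀ j, QL D (c j)) (hc : Tendsto c atTop (𝓝 c0)) : QL D c0 := by
  unfold QL at *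
  have h1 : Tendsto (fun j => ENNReal.ofReal (2 * c j)) atTop (𝓝 (ENNReal.ofReal (2 * c0))) :=
    (ENNReal.continuous_ofReal.tendsto _).comp (hc.const_mul 2)
  exact le_of_tendsto h1 (Eventually.of_forall h)

theorem c1_sEnd_le {n : ℕ} (D : Set (Fin (n + 1) → ℝ)) (k : Fin (n + 1)) (u : ℝ)
    (hu : u ∈ Ico (0 : ℝ) 1) : sEnd D k ≤ sv D k u := by
  unfold sEnd
  refine csInf_le ⟨0, ?_⟩ ⟨u, hu, rfl⟩
  rintro x ⟨v, _, rfl⟩
  exact (sv_mem D k v).1

/-- `S(u_j) → sEnd` for `u_j → 1-`. -/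
theorem c1_sEnd_tendsto {n : ℕ} (D : Set (Fin (n + 1) → ℝ)) (hD : IsLowerSet D)
    (k : Fin (n + 1)) (u : ℕ → ℝ) (hu : ∀ j, u j ∈ Ico (0 : ℝ) 1)
    (hlim : Tendsto u atTop (𝓝 1)) : Tendsto (fun j => sv D k (u j)) atTop (𝓝 (sEnd D k)) := by
  rw [tendsto_order]
  constructor
  · intro a ha
    exact Eventually.of_forall fun j => lt_of_lt_of_le ha (c1_sEnd_le D k _ (hu j))
  · intro a ha
    obtain ⟨x, ⟨v, hv, rfl⟩, hx⟩ := exists_lt_of_csInf_lt
      (⟨sv D k 0, 0, ⟨le_refl _, one_pos⟩, rfl⟩ : (sv D k '' Ico (0 : ℝ) 1).Nonempty) ha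
    have h1 : ∀ᶠ j in atTop, v < u j := (tendsto_order.1 hlim).1 v hv.2
    filter_upwards [h1] with j hj
    exact lt_of_le_of_lt (sv_anti D hD k hj.le) hx

/-- points of a set of full measure in an interval -/
theorem c1_pick {G : Set ℝ} (hG : ∀ᵐ u : ℝ, u ∈ G) (a b : ℝ) (hab : a < b) :
    ∃ u ∈ G, a < u ∧ u < b := by
  have h1 : Dense G := by
    have := MeasureTheory.Measure.dense_of_ae (μ := (volume : Measure ℝ)) (p := fun u => u ∈ G) hG
    simpa using this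
  obtain ⟨u, hu1, hu2⟩ := h1.exists_between hab
  exact ⟨u, hu1, hu2.1, hu2.2⟩

/-- **C1.** `a, b` continuous on `[s(1-), s(0)]`, `a, b ≥ 0`, `a² + b² ≤ 1`.
Proof: extend `a, b` to `ℝ` by `projIcc` (`sEnd ≤ sv 0`), `B(u,σ) = ∫_0^σ b`; `slice_one` with
`u0 ↓ 0`, `u1 ↑ 1` in `G` (dense): `S(u0) → S(0)` (`sv_right`), `S(u1) → sEnd` (monotone), the integrals
converge (dominated), `QL` is closed (`ENNReal.ofReal` continuous). -/
theorem slice_C1 {n : ℕ} (D : Set (Fin (n + 1) → ℝ)) (hD : IsLowerSet D) (hO : IsOpen D)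
    (k : Fin (n + 1)) (g : ℝ → ℝ) (M : ℝ) (hgm : Measurable g) (hg : ∀ u, g u ∈ Icc 0 M)
    (hgq : ∀ u ∈ Ioo (0 : ℝ) 1, QL (sl k u D) (g u)) (a b : ℝ → ℝ)
    (ha : ContinuousOn a (Icc (sEnd D k) (sv D k 0)))
    (hb : ContinuousOn b (Icc (sEnd D k) (sv D k 0)))
    (hab : ∀ σ ∈ Icc (sEnd D k) (sv D k 0), 0 ≤ a σ ∧ 0 ≤ b σ ∧ (a σ) ^ 2 + (b σ) ^ 2 ≤ 1) :
    QL D ((∫ u in (0 : ℝ)..1, a (sv D k u) * g u) + ∫ σ in (sEnd D k)..(sv D k 0), b σ) := by
  obtain ⟨G, hG, hmain⟩ := slice_one D hD hO k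
  have hs : sEnd D k ≤ sv D k 0 := c1_sEnd_le D k 0 ⟨le_refl _, one_pos⟩
  set s0 := sEnd D k with hs0
  set s1 := sv D k 0 with hs1
  have hS : ∀ u ∈ Ico (0 : ℝ) 1, sv D k u ∈ Icc s0 s1 := fun u hu =>
    ⟨c1_sEnd_le D k u hu, sv_anti D hD k hu.1⟩
  let a' : ℝ → ℝ := IccExtend hs ((Icc s0 s1).domRestrict a)
  let b' : ℝ → ℝ := IccExtend hs ((Icc s0 s1).domRestrict b)
  have ha'c : Continuous a' := (continuousOn_iff_continuous_domRestrict.1 ha).Icc_extend'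
  have hb'c : Continuous b' := (continuousOn_iff_continuous_domRestrict.1 hb).Icc_extend'
  have ha'eq : ∀ σ ∈ Icc s0 s1, a' σ = a σ := fun σ hσ => by
    simp only [a']
    rw [IccExtend_of_mem hs _ hσ]
    rfl
  have hb'eq : ∀ σ ∈ Icc s0 s1, b' σ = b σ := fun σ hσ => by
    simp only [b']
    rw [IccExtend_of_mem hs _ hσ]
    rfl
  have hab' : ∀ σ, 0 ≤ a' σ ∧ 0 ≤ b' σ ∧ (a' σ) ^ 2 + (b' σ) ^ 2 ≤ 1 := by
    intro σ
    have := hab (projIcc s0 s1 hs σ) (projIcc s0 s1 hs σ).2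
    exact this
  have hb'i : ∀ x y : ℝ, IntervalIntegrable b' volume x y := fun x y => hb'c.intervalIntegrable _ _
  let P : ℝ → ℝ := fun σ => ∫ x in (0 : ℝ)..σ, b' x
  have hP : ∀ σ, HasDerivAt P (b' σ) σ := fun σ =>
    intervalIntegral.integral_hasDerivAt_right (hb'i _ _)
      (hb'c.stronglyMeasurableAtFilter _ _) hb'c.continuousAt
  have hPd : deriv P = b' := funext fun σ => (hP σ).deriv
  have hPc : ContDiff ℝ 1 P := by
    rw [contDiff_one_iff_deriv]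
    refine ⟨fun σ => (hP σ).differentiableAt, ?_⟩
    rw [hPd]
    exact hb'c
  have hcal : ∀ u0 u1 : ℝ, CalOn (fun _ σ => a' σ) (fun _ σ => P σ) u0 u1 := by
    intro u0 u1
    refine ⟨ha'c.comp continuous_snd, hPc.comp contDiff_snd, ?_⟩
    intro u _ σ _
    refine ⟨(hab' σ).1, ?_⟩
    have : deriv (fun τ => P τ) σ = b' σ := (hP σ).deriv
    rw [this]
    exact (hab' σ).2.2
  -- the integrand
  set h : ℝ → ℝ := fun u => a' (sv D k u) * g u with hh
  have hSm : Measurable (sv D k) := (sv_anti D hD k).measurable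
  have hhm : Measurable h := (ha'c.measurable.comp hSm).mul hgm
  have hhb : ∀ u, ‖h u‖ ≤ M := by
    intro u
    have h1 := hab' (sv D k u)
    have h2 := hg u
    have h3 : a' (sv D k u) ≤ 1 := by nlinarith [h1.1, h1.2.2, sq_nonneg (b' (sv D k u))]
    rw [Real.norm_eq_abs, abs_of_nonneg (mul_nonneg h1.1 h2.1)]
    calc a' (sv D k u) * g u ≤ 1 * g u := mul_le_mul_of_nonneg_right h3 h2.1
      _ ≤ M := by rw [one_mul]; exact h2.2
  have hhi : ∀ x y : ℝ, IntervalIntegrable h volume x y := by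
    intro x y
    rw [intervalIntegrable_iff]
    refine MeasureTheory.Measure.integrableOn_of_bounded (M := M) ?_ hhm.aestronglyMeasurable ?_
    · simp [uIoc]
    · exact Eventually.of_forall hhb
  have hval : ∀ u0 u1 : ℝ, calVal (sv D k) g (fun _ σ => a' σ) (fun _ σ => P σ) u0 u1 =
      (∫ u in u0..u1, h u) + P (sv D k u0) - P (sv D k u1) := by
    intro u0 u1
    unfold calVal
    simp [hh]
  -- choose the points
  have hp0 : ∀ j : ℕ, ∃ u ∈ G, (0 : ℝ) < u ∧ u < 1 / ((j : ℝ) + 3) := fun j =>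
    c1_pick hG _ _ (by positivity)
  have hp1 : ∀ j : ℕ, ∃ u ∈ G, 1 - 1 / ((j : ℝ) + 3) < u ∧ u < (1 : ℝ) := fun j =>
    c1_pick hG _ _ (by
      have : (0 : ℝ) < 1 / ((j : ℝ) + 3) := by positivity
      linarith)
  choose u hu0 hu1 hu2 using hp0
  choose v hv0 hv1 hv2 using hp1
  have hthird : ∀ j : ℕ, 1 / ((j : ℝ) + 3) ≤ 1 / 3 := fun j => by
    apply one_div_le_one_div_of_le (by norm_num)
    have : (0 : ℝ) ≤ j := Nat.cast_nonneg j
    linarith
  have hlim0 : Tendsto (fun j : ℕ => 1 / ((j : ℝ) + 3)) atTop (𝓝 0) := by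
    have h1 : Tendsto (fun j : ℕ => ((j : ℝ) + 3)) atTop atTop :=
      tendsto_atTop_add_const_right _ _ tendsto_natCast_atTop_atTop
    have h2 := h1.inv_tendsto_atTop
    refine h2.congr fun j => ?_
    simp
  have hu : Tendsto u atTop (𝓝 0) :=
    tendsto_of_tendsto_of_tendsto_of_le_of_le tendsto_const_nhds hlim0
      (fun j => (hu1 j).le) (fun j => (hu2 j).le)
  have hv : Tendsto v atTop (𝓝 1) := by
    have h1 : Tendsto (fun j : ℕ => 1 - 1 / ((j : ℝ) + 3)) atTop (𝓝 (1 - 0)) :=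
      tendsto_const_nhds.sub hlim0
    rw [sub_zero] at h1
    exact tendsto_of_tendsto_of_tendsto_of_le_of_le h1 tendsto_const_nhds
      (fun j => (hv1 j).le) (fun j => (hv2 j).le)
  have huv : ∀ j, u j < v j := fun j => by
    have := hthird j
    have := hu2 j
    have := hv1 j
    linarith
  have hQ : ∀ j, QL D ((∫ x in (u j)..(v j), h x) + P (sv D k (u j)) - P (sv D k (v j))) := by
    intro j
    rw [← hval]
    exact hmain g M hgm hg hgq (u j) (hu0 j) (v j) (hv0 j) (hu1 j) (huv j) (hv2 j) _ _ (hcal _ _)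
  -- limits
  have hSu : Tendsto (fun j => sv D k (u j)) atTop (𝓝 s1) := by
    have h1 : Tendsto u atTop (𝓝[>] 0) :=
      tendsto_nhdsWithin_iff.2 ⟨hu, Eventually.of_forall fun j => hu1 j⟩
    exact (sv_right D hD hO k 0).comp h1
  have hSv : Tendsto (fun j => sv D k (v j)) atTop (𝓝 s0) :=
    c1_sEnd_tendsto D hD k v (fun j => ⟨((hu1 j).trans (huv j)).le, hv2 j⟩) hv
  have hprim : Continuous (fun x => ∫ y in (0 : ℝ)..x, h y) :=
    intervalIntegral.continuous_primitive hhi 0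
  have hint : Tendsto (fun j => ∫ x in (u j)..(v j), h x) atTop (𝓝 (∫ x in (0 : ℝ)..1, h x)) := by
    have h1 : Tendsto (fun j => (∫ x in (0 : ℝ)..(v j), h x) - ∫ x in (0 : ℝ)..(u j), h x) atTop
        (𝓝 ((∫ x in (0 : ℝ)..1, h x) - ∫ x in (0 : ℝ)..0, h x)) :=
      ((hprim.tendsto 1).comp hv).sub ((hprim.tendsto 0).comp hu)
    rw [intervalIntegral.integral_same, sub_zero] at h1
    refine h1.congr fun j => ?_
    rw [intervalIntegral.integral_interval_sub_left (hhi _ _) (hhi _ _)]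
  have hPcont : Continuous P := hPc.continuous
  have hfin : Tendsto (fun j => (∫ x in (u j)..(v j), h x) + P (sv D k (u j)) - P (sv D k (v j)))
      atTop (𝓝 ((∫ x in (0 : ℝ)..1, h x) + P s1 - P s0)) :=
    (hint.add ((hPcont.tendsto _).comp hSu)).sub ((hPcont.tendsto _).comp hSv)
  have hfinal := c1_QL_lim D _ _ hQ hfin
  have e1 : (∫ x in (0 : ℝ)..1, h x) = ∫ u in (0 : ℝ)..1, a (sv D k u) * g u := by
    apply intervalIntegral.integral_congr_ae
    have h1 : ∀ᵐ x : ℝ, x ≠ 1 := by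
      simp [ae_iff]
    filter_upwards [h1] with x hx hx2
    rw [uIoc_of_le zero_le_one] at hx2
    simp only [hh]
    rw [ha'eq _ (hS x ⟨hx2.1.le, lt_of_le_of_ne hx2.2 hx⟩)]
  have e2 : P s1 - P s0 = ∫ σ in s0..s1, b σ := by
    have h1 : P s1 - P s0 = ∫ σ in s0..s1, b' σ :=
      intervalIntegral.integral_interval_sub_left (hb'i _ _) (hb'i _ _)
    rw [h1]
    apply intervalIntegral.integral_congr
    intro σ hσ
    rw [uIcc_of_le hs] at hσ
    exact hb'eq σ hσ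
  have e3 : (∫ x in (0 : ℝ)..1, h x) + P s1 - P s0 =
      (∫ u in (0 : ℝ)..1, a (sv D k u) * g u) + ∫ σ in s0..s1, b σ := by
    rw [← e1, ← e2]; ring
  rw [e3] at hfinal
  exact hfinal

end Crest.Agent.T3
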