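import Crest.Agent.T3.Sv

/-! Row 214: limit lemmas used in the slicing corollaries. -/

set_option autoImplicit false
open MeasureTheory Set Filter Topology
open Crest.GeometryTopology.PeriodicPerimeter

namespace Crest.Agent.T3

/-- A set of full measure meets every nonempty open interval. -/
theorem ae_meets {G : Set ℝ} (hG : ∀ᵐ u, u ∈ G) {u v : ℝ} (huv : u < v) :
    ∃ x ∈ G, u < x ∧ x < v := by
  have hd : Dense {x | x ∈ G} := Measure.dense_of_ae hG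
  obtain ⟨x, hx, hxG⟩ := hd.exists_mem_open isOpen_Ioo (nonempty_Ioo.2 huv)
  · exact ⟨x, hx, hxG.1, hxG.2⟩

theorem seq_right {G : Set ℝ} (hG : ∀ᵐ u, u ∈ G) {u v : ℝ} (huv : u < v) :
    ∃ x : ℕ → ℝ, (∀ n, x n ∈ G ∧ u < x n ∧ x n < v) ∧ Tendsto x atTop (𝓝[>] u) := by
  have h : ∀ n : ℕ, ∃ x ∈ G, u < x ∧ x < min v (u + 1 / ((n : ℝ) + 1)) := by
    intro n
    refine ae_meets hG (lt_min huv ?_)
    have : (0 : ℝ) < 1 / ((n : ℝ) + 1) := by positivity
    linarith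
  choose x hxG hx1 hx2 using h
  refine ⟨x, fun n => ⟨hxG n, hx1 n, (hx2 n).trans_le (min_le_left _ _)⟩, ?_⟩
  refine tendsto_nhdsWithin_iff.2 ⟨?_, Eventually.of_forall fun n => hx1 n⟩
  have h1 : Tendsto (fun n : ℕ => u + 1 / ((n : ℝ) + 1)) atTop (𝓝 (u + 0)) :=
    tendsto_const_nhds.add tendsto_one_div_add_atTop_nhds_zero_nat
  rw [add_zero] at h1
  exact tendsto_of_tendsto_of_tendsto_of_le_of_le tendsto_const_nhds h1
    (fun n => (hx1 n).le) (fun n => ((hx2 n).trans_le (min_le_right _ _)).le)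

theorem seq_left {G : Set ℝ} (hG : ∀ᵐ u, u ∈ G) {u v : ℝ} (huv : u < v) :
    ∃ x : ℕ → ℝ, (∀ n, x n ∈ G ∧ u < x n ∧ x n < v) ∧ Tendsto x atTop (𝓝[<] v) := by
  have h : ∀ n : ℕ, ∃ x ∈ G, max u (v - 1 / ((n : ℝ) + 1)) < x ∧ x < v := by
    intro n
    refine ae_meets hG (max_lt huv ?_)
    have : (0 : ℝ) < 1 / ((n : ℝ) + 1) := by positivity
    linarith
  choose x hxG hx1 hx2 using h
  refine ⟨x, fun n => ⟨hxG n, (le_max_left _ _).trans_lt (hx1 n), hx2 n⟩, ?_⟩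
  refine tendsto_nhdsWithin_iff.2 ⟨?_, Eventually.of_forall fun n => hx2 n⟩
  have h1 : Tendsto (fun n : ℕ => v - 1 / ((n : ℝ) + 1)) atTop (𝓝 (v - 0)) :=
    tendsto_const_nhds.sub tendsto_one_div_add_atTop_nhds_zero_nat
  rw [sub_zero] at h1
  exact tendsto_of_tendsto_of_tendsto_of_le_of_le h1 tendsto_const_nhds
    (fun n => ((le_max_right _ _).trans_lt (hx1 n)).le) (fun n => (hx2 n).le)

theorem sv_bdd {n : ℕ} (D : Set (Fin (n + 1) → ℝ)) (k : Fin (n + 1)) (s : Set ℝ) :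
    BddBelow (sv D k '' s) := ⟨0, by rintro _ ⟨u, _, rfl⟩; exact (sv_mem D k u).1⟩

theorem sEnd_le {n : ℕ} (D : Set (Fin (n + 1) → ℝ)) (hD : IsLowerSet D) (k : Fin (n + 1)) {u : ℝ}
    (hu : u < 1) : sEnd D k ≤ sv D k u := by
  have h1 : sEnd D k ≤ sv D k (max u 0) :=
    csInf_le (sv_bdd D k _) ⟨max u 0, ⟨le_max_right _ _, max_lt hu one_pos⟩, rfl⟩
  exact h1.trans (sv_anti D hD k (le_max_left _ _))

theorem sEnd_eq {n : ℕ} (D : Set (Fin (n + 1) → ℝ)) (hD : IsLowerSet D) (k : Fin (n + 1)) :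
    sEnd D k = sInf (sv D k '' Iio 1) := by
  refine le_antisymm ?_ ?_
  · refine le_csInf ⟨_, ⟨0, by simp, rfl⟩⟩ ?_
    rintro _ ⟨u, hu, rfl⟩
    exact sEnd_le D hD k hu
  · refine le_csInf ⟨_, ⟨0, by simp, rfl⟩⟩ ?_
    rintro _ ⟨u, hu, rfl⟩
    exact csInf_le (sv_bdd D k _) ⟨u, hu.2, rfl⟩

theorem sEnd_tendsto {n : ℕ} (D : Set (Fin (n + 1) → ℝ)) (hD : IsLowerSet D) (k : Fin (n + 1)) :
    Tendsto (sv D k) (𝓝[<] 1) (𝓝 (sEnd D k)) := by
  rw [sEnd_eq D hD k]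
  exact (sv_anti D hD k).tendsto_nhdsLT 1

theorem sEnd_mem {n : ℕ} (D : Set (Fin (n + 1) → ℝ)) (hD : IsLowerSet D) (k : Fin (n + 1)) :
    sEnd D k ∈ Icc (0 : ℝ) 1 := by
  refine ⟨le_csInf ⟨_, ⟨0, by simp, rfl⟩⟩ ?_, (sEnd_le D hD k one_pos).trans (sv_mem D k 0).2⟩
  rintro _ ⟨u, _, rfl⟩
  exact (sv_mem D k u).1

theorem sv_measurable {n : ℕ} (D : Set (Fin (n + 1) → ℝ)) (hD : IsLowerSet D) (k : Fin (n + 1)) :
    Measurable (sv D k) := (sv_anti D hD k).measurable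

/-- Convergence of interval integrals when the endpoints converge. -/
theorem tendsto_interval {h : ℝ → ℝ} (hh : ∀ a b : ℝ, IntervalIntegrable h volume a b)
    {x y : ℕ → ℝ} {a b : ℝ} (hx : Tendsto x atTop (𝓝 a)) (hy : Tendsto y atTop (𝓝 b)) :
    Tendsto (fun n => ∫ u in (x n)..(y n), h u) atTop (𝓝 (∫ u in a..b, h u)) := by
  have hc := intervalIntegral.continuous_primitive hh 0
  have e : ∀ c d : ℝ, ∫ u in c..d, h u = (∫ u in (0 : ℝ)..d, h u) - ∫ u in (0 : ℝ)..c, h u := by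
    intro c d
    rw [intervalIntegral.integral_interval_sub_left (hh _ _) (hh _ _)]
  rw [e a b, show (fun n => ∫ u in (x n)..(y n), h u) =
    fun n => (∫ u in (0 : ℝ)..(y n), h u) - ∫ u in (0 : ℝ)..(x n), h u from funext fun n => e _ _]
  exact ((hc.tendsto b).comp hy).sub ((hc.tendsto a).comp hx)

theorem QL_closed {n : ℕ} {D : Set (Fin n → ℝ)} {c : ℕ → ℝ} {c0 : ℝ} (hc : ∀ j, QL D (c j))
    (ht : Tendsto c atTop (𝓝 c0)) : QL D c0 := by
  have h : Tendsto (fun j => ENNReal.ofReal (2 * c j)) atTop (𝓝 (ENNReal.ofReal (2 * c0))) :=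
    ENNReal.tendsto_ofReal (ht.const_mul 2)
  exact le_of_tendsto' h hc

/-- The primitive as a `C¹` function of two variables. -/
theorem prim_contDiff {b : ℝ → ℝ} (hb : Continuous b) :
    ContDiff ℝ 1 (fun p : ℝ × ℝ => ∫ τ in (0 : ℝ)..p.2, b τ) := by
  have h1 : ContDiff ℝ 1 (fun σ : ℝ => ∫ τ in (0 : ℝ)..σ, b τ) := by
    rw [contDiff_one_iff_deriv]
    have hd : ∀ σ, HasDerivAt (fun σ : ℝ => ∫ τ in (0 : ℝ)..σ, b τ) (b σ) σ := fun σ =>
      intervalIntegral.integral_hasDerivAt_right (hb.intervalIntegrable _ _)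
        (hb.stronglyMeasurableAtFilter _ _) hb.continuousAt
    refine ⟨fun σ => (hd σ).differentiableAt, ?_⟩
    have : deriv (fun σ : ℝ => ∫ τ in (0 : ℝ)..σ, b τ) = b := by
      funext σ; exact (hd σ).deriv
    rw [this]; exact hb
  exact h1.comp contDiff_snd

theorem prim_deriv {b : ℝ → ℝ} (hb : Continuous b) (σ : ℝ) :
    deriv (fun σ : ℝ => ∫ τ in (0 : ℝ)..σ, b τ) σ = b σ :=
  (intervalIntegral.integral_hasDerivAt_right (hb.intervalIntegrable _ _)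
        (hb.stronglyMeasurableAtFilter _ _) hb.continuousAt).deriv

/-- Bounded measurable functions are interval integrable. -/
theorem ii_of_bdd {h : ℝ → ℝ} (hm : Measurable h) {M : ℝ} (hM : ∀ u, |h u| ≤ M) (a b : ℝ) :
    IntervalIntegrable h volume a b := by
  refine (intervalIntegrable_const (c := M)).mono_fun hm.aestronglyMeasurable ?_
  refine Eventually.of_forall fun u => ?_
  simp only [Real.norm_eq_abs]
  exact (hM u).trans (le_abs_self M)

end Crest.Agent.T3
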