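import Crest.Agent.T3.SliceCor
import Crest.Agent.T3.SliceLim

/-! Row 214, chunk T3-C2: slicing with a split point. -/

set_option autoImplicit false
open MeasureTheory Set Filter Topology
open Crest.GeometryTopology.PeriodicPerimeter

namespace Crest.Agent.T3

/-- Calibrations depending only on the area. -/
theorem calOn_area {a b : ℝ → ℝ} (ha : Continuous a) (hb : Continuous b)
    (hab : ∀ σ, 0 ≤ a σ ∧ (a σ) ^ 2 + (b σ) ^ 2 ≤ 1) (u0 u1 : ℝ) :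
    CalOn (fun _ σ => a σ) (fun _ σ => ∫ τ in (0 : ℝ)..σ, b τ) u0 u1 := by
  refine ⟨ha.comp continuous_snd, prim_contDiff hb, fun u _ σ _ => ?_⟩
  rw [prim_deriv hb σ]
  exact hab σ

theorem calVal_area {a b : ℝ → ℝ} (hb : Continuous b) (S g : ℝ → ℝ) (u0 u1 : ℝ) :
    calVal S g (fun _ σ => a σ) (fun _ σ => ∫ τ in (0 : ℝ)..σ, b τ) u0 u1 =
      (∫ u in u0..u1, a (S u) * g u) + ∫ σ in (S u1)..(S u0), b σ := by
  unfold calVal
  have e : ∀ c d : ℝ, ∫ u in c..d, b u = (∫ u in (0 : ℝ)..d, b u) - ∫ u in (0 : ℝ)..c, b u := by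
    intro c d
    rw [intervalIntegral.integral_interval_sub_left (hb.intervalIntegrable _ _)
      (hb.intervalIntegrable _ _)]
  simp only [deriv_const, add_zero]
  rw [e (S u1) (S u0)]
  ring

/-- Extension of a pair of functions from an interval. -/
theorem ext_pair {lo hi : ℝ} (h : lo ≤ hi) {a b : ℝ → ℝ} (ha : ContinuousOn a (Icc lo hi))
    (hb : ContinuousOn b (Icc lo hi))
    (hab : ∀ σ ∈ Icc lo hi, 0 ≤ a σ ∧ 0 ≤ b σ ∧ (a σ) ^ 2 + (b σ) ^ 2 ≤ 1) :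
    ∃ a' b' : ℝ → ℝ, Continuous a' ∧ Continuous b' ∧
      (∀ σ, 0 ≤ a' σ ∧ (a' σ) ^ 2 + (b' σ) ^ 2 ≤ 1) ∧
      (∀ σ ∈ Icc lo hi, a' σ = a σ) ∧ (∀ σ ∈ Icc lo hi, b' σ = b σ) := by
  refine ⟨fun σ => a (projIcc lo hi h σ), fun σ => b (projIcc lo hi h σ), ?_, ?_, ?_, ?_, ?_⟩
  · exact ha.comp_continuous (continuous_subtype_val.comp continuous_projIcc) (fun σ => (projIcc lo hi h σ).2)
  · exact hb.comp_continuous (continuous_subtype_val.comp continuous_projIcc) (fun σ => (projIcc lo hi h σ).2)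
  · intro σ
    have := hab _ (projIcc lo hi h σ).2
    exact ⟨this.1, this.2.2⟩
  · intro σ hσ; simp only [projIcc_of_mem h hσ]
  · intro σ hσ; simp only [projIcc_of_mem h hσ]

/-- Interval integrability of `a (S u) * g u`. -/
theorem ii_area {a S g : ℝ → ℝ} {M : ℝ} (ha : Continuous a) (h1 : ∀ σ, |a σ| ≤ 1) (hS : Measurable S)
    (hgm : Measurable g) (hg : ∀ u, g u ∈ Icc 0 M) (c d : ℝ) :
    IntervalIntegrable (fun u => a (S u) * g u) volume c d := by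
  refine ii_of_bdd (M := 1 * M) ((ha.measurable.comp hS).mul hgm) (fun u => ?_) c d
  show |a (S u) * g u| ≤ 1 * M
  rw [abs_mul]
  refine mul_le_mul (h1 _) ?_ (abs_nonneg _) zero_le_one
  rw [abs_of_nonneg (hg u).1]; exact (hg u).2

/-- **C2.** Split point `β`: `(a1,b1)` on `(0,β)` (areas in `[s(β), s(0)]`), `(a2,b2)` on `(β,1)`
(areas in `[s(1-), s(β)]`).
Proof: as C1 with `slice_two`, `u0 ↓ 0`, `u1 ↓ β`, `u2 ↑ 1` in `G`; extend `a_i, b_i` by `projIcc`;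
`S(u1) → S(β)` by right-continuity. -/
theorem slice_C2 {n : ℕ} (D : Set (Fin (n + 1) → ℝ)) (hD : IsLowerSet D) (hO : IsOpen D)
    (k : Fin (n + 1)) (g : ℝ → ℝ) (M : ℝ) (hgm : Measurable g) (hg : ∀ u, g u ∈ Icc 0 M)
    (hgq : ∀ u ∈ Ioo (0 : ℝ) 1, QL (sl k u D) (g u)) (β : ℝ) (hβ : β ∈ Ioo (0 : ℝ) 1)
    (a1 b1 a2 b2 : ℝ → ℝ)
    (ha1 : ContinuousOn a1 (Icc (sv D k β) (sv D k 0)))
    (hb1 : ContinuousOn b1 (Icc (sv D k β) (sv D k 0)))
    (ha2 : ContinuousOn a2 (Icc (sEnd D k) (sv D k β)))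
    (hb2 : ContinuousOn b2 (Icc (sEnd D k) (sv D k β)))
    (hab1 : ∀ σ ∈ Icc (sv D k β) (sv D k 0), 0 ≤ a1 σ ∧ 0 ≤ b1 σ ∧ (a1 σ) ^ 2 + (b1 σ) ^ 2 ≤ 1)
    (hab2 : ∀ σ ∈ Icc (sEnd D k) (sv D k β), 0 ≤ a2 σ ∧ 0 ≤ b2 σ ∧ (a2 σ) ^ 2 + (b2 σ) ^ 2 ≤ 1) :
    QL D ((∫ u in (0 : ℝ)..β, a1 (sv D k u) * g u) + (∫ u in β..1, a2 (sv D k u) * g u) +
      (∫ σ in (sv D k β)..(sv D k 0), b1 σ) + ∫ σ in (sEnd D k)..(sv D k β), b2 σ) := by
  have hl1 : sv D k β ≤ sv D k 0 := sv_anti D hD k hβ.1.le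
  have hl2 : sEnd D k ≤ sv D k β := sEnd_le D hD k hβ.2
  obtain ⟨A1, B1, hA1, hB1, hAB1, eA1, eB1⟩ := ext_pair hl1 ha1 hb1 hab1
  obtain ⟨A2, B2, hA2, hB2, hAB2, eA2, eB2⟩ := ext_pair hl2 ha2 hb2 hab2
  have hA1' : ∀ σ, |A1 σ| ≤ 1 := fun σ => by
    rw [← sq_le_one_iff_abs_le_one]; nlinarith [(hAB1 σ).2, sq_nonneg (B1 σ)]
  have hA2' : ∀ σ, |A2 σ| ≤ 1 := fun σ => by
    rw [← sq_le_one_iff_abs_le_one]; nlinarith [(hAB2 σ).2, sq_nonneg (B2 σ)]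
  obtain ⟨G, hG, hmain⟩ := slice_two D hD hO k
  obtain ⟨x, hx, hxt⟩ := seq_right hG hβ.1
  obtain ⟨y, hy, hyt⟩ := seq_right hG (show β < (β + 1) / 2 by linarith [hβ.2])
  obtain ⟨z, hz, hzt⟩ := seq_left hG (show (β + 1) / 2 < 1 by linarith [hβ.2])
  have hSm := sv_measurable D hD k
  have hS0 : Tendsto (fun j => sv D k (x j)) atTop (𝓝 (sv D k 0)) := (sv_right D hD hO k 0).comp hxt
  have hSβ : Tendsto (fun j => sv D k (y j)) atTop (𝓝 (sv D k β)) := (sv_right D hD hO k β).comp hyt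
  have hS1 : Tendsto (fun j => sv D k (z j)) atTop (𝓝 (sEnd D k)) := (sEnd_tendsto D hD k).comp hzt
  have hxt' : Tendsto x atTop (𝓝 0) := hxt.mono_right nhdsWithin_le_nhds
  have hyt' : Tendsto y atTop (𝓝 β) := hyt.mono_right nhdsWithin_le_nhds
  have hzt' : Tendsto z atTop (𝓝 1) := hzt.mono_right nhdsWithin_le_nhds
  have key : ∀ j, QL D (((∫ u in (x j)..(y j), A1 (sv D k u) * g u) +
      ∫ σ in (sv D k (y j))..(sv D k (x j)), B1 σ) +
      ((∫ u in (y j)..(z j), A2 (sv D k u) * g u) +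
      ∫ σ in (sv D k (z j))..(sv D k (y j)), B2 σ)) := by
    intro j
    have := hmain g M hgm hg hgq (x j) (hx j).1 (y j) (hy j).1 (z j) (hz j).1 (hx j).2.1
      ((hx j).2.2.trans (hy j).2.1) ((hy j).2.2.trans (hz j).2.1) (hz j).2.2 _ _ _ _
      (calOn_area hA1 hB1 hAB1 (x j) (y j)) (calOn_area hA2 hB2 hAB2 (y j) (z j))
    rwa [calVal_area hB1, calVal_area hB2] at this
  have hlim : QL D (((∫ u in (0 : ℝ)..β, A1 (sv D k u) * g u) +
      ∫ σ in (sv D k β)..(sv D k 0), B1 σ) +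
      ((∫ u in β..1, A2 (sv D k u) * g u) +
      ∫ σ in (sEnd D k)..(sv D k β), B2 σ)) := by
    refine QL_closed key ?_
    refine Tendsto.add (Tendsto.add ?_ ?_) (Tendsto.add ?_ ?_)
    · exact tendsto_interval (ii_area hA1 hA1' hSm hgm hg) hxt' hyt'
    · exact tendsto_interval (fun _ _ => hB1.intervalIntegrable _ _) hSβ hS0
    · exact tendsto_interval (ii_area hA2 hA2' hSm hgm hg) hyt' hzt'
    · exact tendsto_interval (fun _ _ => hB2.intervalIntegrable _ _) hS1 hSβ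
  have e1 : (∫ u in (0 : ℝ)..β, A1 (sv D k u) * g u) = ∫ u in (0 : ℝ)..β, a1 (sv D k u) * g u := by
    refine intervalIntegral.integral_congr fun u hu => ?_
    rw [uIcc_of_le hβ.1.le] at hu
    show A1 (sv D k u) * g u = a1 (sv D k u) * g u
    rw [eA1 _ ⟨sv_anti D hD k hu.2, sv_anti D hD k hu.1⟩]
  have e2 : (∫ u in β..1, A2 (sv D k u) * g u) = ∫ u in β..1, a2 (sv D k u) * g u := by
    refine intervalIntegral.integral_congr_ae ?_
    have h1 : ∀ᵐ u : ℝ, u ≠ 1 := by simp [ae_iff]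
    filter_upwards [h1] with u hu1 hu
    rw [uIoc_of_le hβ.2.le] at hu
    rw [eA2 _ ⟨sEnd_le D hD k (lt_of_le_of_ne hu.2 hu1), sv_anti D hD k hu.1.le⟩]
  have e3 : (∫ σ in (sv D k β)..(sv D k 0), B1 σ) = ∫ σ in (sv D k β)..(sv D k 0), b1 σ := by
    refine intervalIntegral.integral_congr fun σ hσ => ?_
    rw [uIcc_of_le hl1] at hσ
    exact eB1 _ hσ
  have e4 : (∫ σ in (sEnd D k)..(sv D k β), B2 σ) = ∫ σ in (sEnd D k)..(sv D k β), b2 σ := by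
    refine intervalIntegral.integral_congr fun σ hσ => ?_
    rw [uIcc_of_le hl2] at hσ
    exact eB2 _ hσ
  rw [e1, e2, e3, e4] at hlim
  convert hlim using 1
  ring

end Crest.Agent.T3
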