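import Crest.Agent.T3.CasesR
import Crest.Agent.T3.SliceC1
import Crest.Agent.T3.SliceC2

/-! Row 214: one-dimensional lower bounds for the tables R1, R2, R3. -/

set_option autoImplicit false
open MeasureTheory Set Filter Topology
open Crest.GeometryTopology.PeriodicPerimeter

namespace Crest.Agent.T3

theorem QL_zero' {n : ℕ} {D : Set (Fin n → ℝ)} {c : ℝ} (h : c ≤ 0) : QL D c := by
  unfold QL
  rw [ENNReal.ofReal_of_nonpos (by linarith)]
  exact bot_le

/-- the slice lower bound built from a calibration `E + lam s ≤ a s * G s` -/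
noncomputable def gOf (a : ℝ → ℝ) (E lam s : ℝ) : ℝ := min 2 (max 0 ((E + lam * s) / a s))

theorem gOf_mem (a : ℝ → ℝ) (E lam s : ℝ) : gOf a E lam s ∈ Icc (0 : ℝ) 2 :=
  ⟨le_min (by norm_num) (le_max_left _ _), min_le_left _ _⟩

theorem gOf_QL {n : ℕ} {D : Set (Fin n → ℝ)} {a : ℝ → ℝ} {E lam s G : ℝ} (ha : 0 ≤ a s)
    (hE : E + lam * s ≤ a s * G) (hq : QL D G) : QL D (gOf a E lam s) := by
  have h1 : QL D (max 0 ((E + lam * s) / a s)) := by
    rcases le_total 0 ((E + lam * s) / a s) with h | h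
    · rw [max_eq_right h]
      rcases ha.eq_or_lt with h0 | h0
      · rw [← h0, div_zero]
        exact QL_zero' le_rfl
      · refine QLmono ?_ hq
        rw [div_le_iff₀ h0]
        linarith
    · rw [max_eq_left h]
      exact QL_zero' le_rfl
  exact QLmono (min_le_right _ _) h1

theorem gOf_ge {a : ℝ → ℝ} {E lam s G : ℝ} (ha : 0 ≤ a s) (hG : G ≤ 2)
    (hE : E + lam * s ≤ a s * G) : E + lam * s ≤ a s * gOf a E lam s := by
  rcases ha.eq_or_lt with h0 | h0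
  · rw [← h0] at hE ⊢
    simpa using hE
  · have h1 : (E + lam * s) / a s ≤ G := by
      rw [div_le_iff₀ h0]; linarith
    have h2 : gOf a E lam s = max 0 ((E + lam * s) / a s) := by
      unfold gOf
      rw [min_eq_right]
      exact max_le (by norm_num) (h1.trans hG)
    rw [h2]
    have h3 : (E + lam * s) / a s ≤ max 0 ((E + lam * s) / a s) := le_max_right _ _
    calc E + lam * s = a s * ((E + lam * s) / a s) := by field_simp
      _ ≤ _ := mul_le_mul_of_nonneg_left h3 ha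

/-- General bound with an area calibration. -/
theorem area_gen (D : Set (Fin 3 → ℝ)) (hD : IsLowerSet D) (hO : IsOpen D) (k : Fin 3)
    (a b : ℝ → ℝ) (E lam : ℝ)
    (ha : ContinuousOn a (Icc (sEnd D k) (sv D k 0)))
    (hb : ContinuousOn b (Icc (sEnd D k) (sv D k 0)))
    (hab : ∀ σ ∈ Icc (sEnd D k) (sv D k 0), 0 ≤ a σ ∧ 0 ≤ b σ ∧ (a σ) ^ 2 + (b σ) ^ 2 ≤ 1)
    (hE : ∀ u ∈ Ioo (0 : ℝ) 1, ∃ G : ℝ, G ≤ 2 ∧ QL (sl k u D) G ∧
      E + lam * sv D k u ≤ a (sv D k u) * G) :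
    QL D (lam * vol01 D + E + ∫ σ in (sEnd D k)..(sv D k 0), b σ) := by
  have hle : sEnd D k ≤ sv D k 0 := sEnd_le D hD k one_pos
  obtain ⟨A, B, hA, hB, hAB, eA, eB⟩ := ext_pair hle ha hb hab
  have hSm := sv_measurable D hD k
  have hmemS : ∀ u ∈ Ioo (0 : ℝ) 1, sv D k u ∈ Icc (sEnd D k) (sv D k 0) := fun u hu =>
    ⟨sEnd_le D hD k hu.2, sv_anti D hD k hu.1.le⟩
  set g : ℝ → ℝ := fun u => gOf A E lam (sv D k u) with hg
  have hgm : Measurable g := by
    refine measurable_const.min (measurable_const.max ?_)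
    exact (measurable_const.add (hSm.const_mul lam)).div (hA.measurable.comp hSm)
  have hgmem : ∀ u, g u ∈ Icc (0 : ℝ) 2 := fun u => gOf_mem _ _ _ _
  have hgq : ∀ u ∈ Ioo (0 : ℝ) 1, QL (sl k u D) (g u) := by
    intro u hu
    obtain ⟨G, hG2, hGq, hGE⟩ := hE u hu
    refine gOf_QL (hAB _).1 ?_ hGq
    rw [eA _ (hmemS u hu)]
    exact hGE
  have key := slice_C1 D hD hO k g 2 hgm hgmem hgq A B hA.continuousOn hB.continuousOn
    (fun σ hσ => ⟨(hAB σ).1, by rw [eB σ hσ]; exact (hab σ hσ).2.1, (hAB σ).2⟩)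
  refine QLmono ?_ key
  have e1 : (∫ σ in (sEnd D k)..(sv D k 0), B σ) = ∫ σ in (sEnd D k)..(sv D k 0), b σ := by
    refine intervalIntegral.integral_congr fun σ hσ => ?_
    rw [uIcc_of_le hle] at hσ
    exact eB _ hσ
  rw [e1]
  have hA1 : ∀ σ, |A σ| ≤ 1 := fun σ => by
    rw [← sq_le_one_iff_abs_le_one]; nlinarith [(hAB σ).2, sq_nonneg (B σ)]
  have hSi : IntervalIntegrable (fun u => sv D k u) volume 0 1 :=
    (sv_anti D hD k).intervalIntegrable
  have h2 : ∫ u in (0 : ℝ)..1, (E + lam * sv D k u) ≤ ∫ u in (0 : ℝ)..1, A (sv D k u) * g u := by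
    refine intervalIntegral.integral_mono_on_of_le_Ioo zero_le_one
      (intervalIntegrable_const.add (hSi.const_mul lam))
      (ii_area hA hA1 hSm hgm hgmem 0 1) (fun u hu => ?_)
    obtain ⟨G, hG2, hGq, hGE⟩ := hE u hu
    refine gOf_ge (hAB _).1 hG2 ?_
    rw [eA _ (hmemS u hu)]
    exact hGE
  rw [intervalIntegral.integral_add intervalIntegrable_const (hSi.const_mul lam),
    intervalIntegral.integral_const_mul, sv_integral D hO k] at h2
  simp only [intervalIntegral.integral_const, sub_zero, one_smul] at h2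
  linarith

theorem sqrt_pi_le_two {x : ℝ} (hx : x ≤ 1) : Real.sqrt (Real.pi * x) ≤ 2 := by
  rw [Real.sqrt_le_left (by norm_num)]
  have := Real.pi_lt_four
  rcases le_total 0 x with h | h
  · nlinarith [Real.pi_pos]
  · nlinarith [Real.pi_pos]

/-- **R1 interface.** -/
theorem area_bound (D : Set (Fin 3 → ℝ)) (hD : IsLowerSet D) (hO : IsOpen D) (k : Fin 3)
    (a b : ℝ → ℝ) (E lam : ℝ)
    (ha : ContinuousOn a (Icc (sEnd D k) (sv D k 0)))
    (hb : ContinuousOn b (Icc (sEnd D k) (sv D k 0)))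
    (hab : ∀ σ ∈ Icc (sEnd D k) (sv D k 0), 0 ≤ a σ ∧ 0 ≤ b σ ∧ (a σ) ^ 2 + (b σ) ^ 2 ≤ 1)
    (hE : ∀ s ∈ Icc (sEnd D k) (sv D k 0), E + lam * s ≤ a s * min (Real.sqrt (Real.pi * s))
      (min 1 (Real.sqrt (Real.pi * (1 - s))))) :
    QL D (lam * vol01 D + E + ∫ σ in (sEnd D k)..(sv D k 0), b σ) := by
  refine area_gen D hD hO k a b E lam ha hb hab (fun u hu => ?_)
  refine ⟨_, ?_, slice_basic D hD hO k u, hE _ ⟨sEnd_le D hD k hu.2, sv_anti D hD k hu.1.le⟩⟩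
  exact (min_le_right _ _).trans ((min_le_left _ _).trans (by norm_num))

/-- **R2 interface.** -/
theorem caseII_bound (D : Set (Fin 3 → ℝ)) (hD : IsLowerSet D) (hO : IsOpen D) (β : ℝ) (k : Fin 3)
    (hII : CaseII D β k) (a b : ℝ → ℝ) (E lam : ℝ)
    (ha : ContinuousOn a (Icc (sEnd D k) (sv D k 0)))
    (hb : ContinuousOn b (Icc (sEnd D k) (sv D k 0)))
    (hab : ∀ σ ∈ Icc (sEnd D k) (sv D k 0), 0 ≤ a σ ∧ 0 ≤ b σ ∧ (a σ) ^ 2 + (b σ) ^ 2 ≤ 1)
    (hE : ∀ s ∈ Icc (sEnd D k) (sv D k 0), ∃ l1 ∈ Icc (0 : ℝ) 1, ∃ l2 ∈ Ioc (0 : ℝ) 1,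
      E + lam * s ≤ a s * gII β l1 l2 s) :
    QL D (lam * vol01 D + E + ∫ σ in (sEnd D k)..(sv D k 0), b σ) := by
  refine area_gen D hD hO k a b E lam ha hb hab (fun u hu => ?_)
  obtain ⟨l1, hl1, l2, hl2, h⟩ := hE _ ⟨sEnd_le D hD k hu.2, sv_anti D hD k hu.1.le⟩
  refine ⟨_, ?_, hII u hu l1 hl1 l2 hl2, h⟩
  exact (min_le_left _ _).trans (sqrt_pi_le_two (sv_mem D k u).2)

end Crest.Agent.T3
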