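import Crest.Agent.T3.TwoBase
import Crest.Agent.T3.KfLemmas

/-! Row 214, chunk T3-TWOUP: F3, F4, F5 (both far sides touched). -/

set_option autoImplicit false
open MeasureTheory Set Filter Topology
open Crest.GeometryTopology.PeriodicPerimeter

namespace Crest.Agent.T3

private theorem ql_mono {n : ℕ} {D : Set (Fin n → ℝ)} {c c' : ℝ} (h : c ≤ c') (hq : QL D c') :
    QL D c := by
  unfold QL at *
  refine le_trans ?_ hq
  apply ENNReal.ofReal_le_ofReal
  linarith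

private theorem ql_tendsto {n : ℕ} {D : Set (Fin n → ℝ)} {ι : Type} {l : Filter ι} [l.NeBot]
    {f : ι → ℝ} {c : ℝ} (h : Tendsto f l (𝓝 c)) (hq : ∀ᶠ x in l, QL D (f x)) : QL D c := by
  unfold QL at *
  exact le_of_tendsto (ENNReal.tendsto_ofReal (h.const_mul 2)) hq

private theorem ql_zero {n : ℕ} (D : Set (Fin n → ℝ)) {c : ℝ} (h : c ≤ 0) : QL D c := by
  unfold QL
  rw [ENNReal.ofReal_of_nonpos (by linarith)]
  exact zero_le

private theorem kf_shift (τ l : ℝ) :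
    ∫ u in τ..1, Real.sqrt (1 - l ^ 2 * (1 - u) ^ 2) = Kf (1 - τ) l := by
  unfold Kf
  have h := intervalIntegral.integral_comp_sub_left
    (f := fun u : ℝ => Real.sqrt (1 - l ^ 2 * u ^ 2)) (a := τ) (b := 1) 1
  rw [h]
  simp

private theorem two_up_strict (D : Set (Fin 2 → ℝ)) (hD : IsLowerSet D) (hO : IsOpen D) (i : Fin 2)
    (τ l : ℝ)
    (hτ0 : 0 ≤ τ) (hτ1 : τ < 1) (hS0 : sv D i 0 = 1) (hone : ∀ u ∈ Ico 0 τ, sv D i u = 1)
    (hlt : ∀ u ∈ Ioo τ 1, sv D i u ∈ Ioo (0 : ℝ) 1) (hl0 : 0 ≤ l) (hl1 : l * (1 - τ) < 1) :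
    QL D (l * (1 - vol01 D) + Kf (1 - τ) l) := by
  set S := sv D i with hSdef
  have hanti : Antitone S := sv_anti D hD i
  have hmem : ∀ u, S u ∈ Icc (0 : ℝ) 1 := fun u => sv_mem D i u
  -- choose u0
  obtain ⟨u0, hu0, hu0τ, hu0l, hSu0, hone0⟩ : ∃ u0, 0 ≤ u0 ∧ u0 ≤ τ ∧ l * (1 - u0) ≤ 1 ∧ S u0 = 1 ∧
      (∀ u, 0 ≤ u → u ≤ u0 → S u = 1) := by
    rcases hτ0.eq_or_lt with h | h
    · refine ⟨0, le_rfl, hτ0, ?_, hS0, fun u h1 h2 => ?_⟩
      · rw [← h] at hl1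
        exact hl1.le
      · rw [le_antisymm h2 h1]; exact hS0
    · have hc : Tendsto (fun u : ℝ => l * (1 - u)) (𝓝[<] τ) (𝓝 (l * (1 - τ))) := by
        have : Continuous (fun u : ℝ => l * (1 - u)) := by fun_prop
        exact (this.tendsto τ).mono_left nhdsWithin_le_nhds
      have h1 : ∀ᶠ u in 𝓝[<] τ, l * (1 - u) < 1 := hc.eventually_lt_const hl1
      have h2 : ∀ᶠ u in 𝓝[<] τ, u ∈ Ioo 0 τ := Ioo_mem_nhdsLT h
      obtain ⟨u, hu1, hu2⟩ := (h1.and h2).exists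
      refine ⟨u, hu2.1.le, hu2.2.le, hu1.le, hone u ⟨hu2.1.le, hu2.2⟩, fun v hv1 hv2 => ?_⟩
      exact hone v ⟨hv1, lt_of_le_of_lt hv2 hu2.2⟩
  have hu01 : u0 < 1 := lt_of_le_of_lt hu0τ hτ1
  let a : ℝ → ℝ := fun u => Real.sqrt (1 - l ^ 2 * (1 - u) ^ 2)
  let b : ℝ → ℝ := fun u => l * (1 - u)
  have ha : Continuous a := by
    show Continuous (fun u : ℝ => Real.sqrt (1 - l ^ 2 * (1 - u) ^ 2))
    fun_prop
  have hb : ContDiff ℝ 1 b := by
    show ContDiff ℝ 1 (fun u : ℝ => l * (1 - u))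
    fun_prop
  have hdb : ∀ u, deriv b u = -l := by
    intro u
    have h1 : HasDerivAt b (l * (-1)) u := by
      have := ((hasDerivAt_id u).const_sub 1).const_mul l
      simpa [b] using this
    rw [h1.deriv]; ring
  let f : ℝ → ℝ := fun u => a u * (Ioo (0 : ℝ) 1).indicator (fun _ => (1 : ℝ)) (S u) + deriv b u * S u
  have hSm : Measurable S := hanti.measurable
  have hSint : ∀ x y, IntervalIntegrable S volume x y := fun x y => hanti.intervalIntegrable
  have hind : Measurable (fun u => (Ioo (0 : ℝ) 1).indicator (fun _ => (1 : ℝ)) (S u)) :=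
    (measurable_const.indicator measurableSet_Ioo).comp hSm
  have hindint : ∀ x y, IntervalIntegrable
      (fun u => (Ioo (0 : ℝ) 1).indicator (fun _ => (1 : ℝ)) (S u)) volume x y := by
    intro x y
    have hc : IntervalIntegrable (fun _ : ℝ => (1 : ℝ)) volume x y := intervalIntegrable_const
    refine hc.mono_fun hind.aestronglyMeasurable ?_
    refine Filter.Eventually.of_forall fun u => ?_
    simp only [indicator]
    split_ifs <;> simp
  have hf1 : ∀ x y, IntervalIntegrable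
      (fun u => a u * (Ioo (0 : ℝ) 1).indicator (fun _ => (1 : ℝ)) (S u)) volume x y :=
    fun x y => (hindint x y).continuousOn_mul ha.continuousOn
  have hf2 : ∀ x y, IntervalIntegrable (fun u => deriv b u * S u) volume x y := by
    intro x y
    simp only [hdb]
    exact (hSint x y).const_mul (-l)
  have hfint : ∀ x y, IntervalIntegrable f volume x y := fun x y => (hf1 x y).add (hf2 x y)
  -- the values
  let G : ℝ → ℝ := fun u1 => (∫ u in u0..u1, f u) + b u0 * S u0 - b u1 * S u1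
  have hG : ∀ᶠ u1 in 𝓝[<] (1 : ℝ), QL D (G u1) := by
    have h2 : ∀ᶠ u in 𝓝[<] (1 : ℝ), u ∈ Ioo u0 1 := Ioo_mem_nhdsLT hu01
    filter_upwards [h2] with u1 hu1
    refine two_master D hD hO i u0 u1 (1 - u1) hu0 hu1.1 hu1.2 (by linarith [hu1.2]) a b ha hb ?_
    intro u hu
    refine ⟨Real.sqrt_nonneg _, ?_⟩
    have hu' : u ≤ 1 := by have := hu.2; linarith
    have hk : l ^ 2 * (1 - u) ^ 2 ≤ 1 := by
      have h3 : 0 ≤ l * (1 - u) := mul_nonneg hl0 (by linarith)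
      have h4 : l * (1 - u) ≤ 1 := le_trans (mul_le_mul_of_nonneg_left (by linarith [hu.1]) hl0) hu0l
      nlinarith
    show (Real.sqrt (1 - l ^ 2 * (1 - u) ^ 2)) ^ 2 + (l * (1 - u)) ^ 2 ≤ 1
    rw [Real.sq_sqrt (by linarith)]
    nlinarith
  have hlim : Tendsto G (𝓝[<] (1 : ℝ)) (𝓝 ((∫ u in u0..1, f u) + b u0 * S u0 - 0)) := by
    refine Tendsto.sub (Tendsto.add ?_ tendsto_const_nhds) ?_
    · exact ((intervalIntegral.continuous_primitive hfint u0).tendsto 1).mono_left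
        nhdsWithin_le_nhds
    · have hb1 : Tendsto b (𝓝[<] (1 : ℝ)) (𝓝 0) := by
        have := (hb.continuous.tendsto 1).mono_left (nhdsWithin_le_nhds (s := Iio (1 : ℝ)))
        simpa [b] using this
      have hb2 : Tendsto (fun u => |b u|) (𝓝[<] (1 : ℝ)) (𝓝 0) := by
        simpa using hb1.abs
      refine squeeze_zero_norm (fun u => ?_) hb2
      rw [norm_mul, Real.norm_eq_abs, Real.norm_eq_abs, abs_of_nonneg (hmem u).1]
      exact mul_le_of_le_one_right (abs_nonneg _) (hmem u).2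
  have hval : (∫ u in u0..1, f u) + b u0 * S u0 - 0 = l * (1 - vol01 D) + Kf (1 - τ) l := by
    have hA : ∫ u in u0..1, a u * (Ioo (0 : ℝ) 1).indicator (fun _ => (1 : ℝ)) (S u) =
        Kf (1 - τ) l := by
      rw [← kf_shift τ l]
      rw [← intervalIntegral.integral_add_adjacent_intervals (hf1 u0 τ) (hf1 τ 1)]
      have e1 : ∫ u in u0..τ, a u * (Ioo (0 : ℝ) 1).indicator (fun _ => (1 : ℝ)) (S u) = 0 := by
        rw [intervalIntegral.integral_of_le hu0τ, integral_Ioc_eq_integral_Ioo]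
        rw [setIntegral_congr_fun (g := fun _ => (0 : ℝ)) measurableSet_Ioo]
        · simp
        · intro u hu
          have : S u = 1 := hone u ⟨le_trans hu0 hu.1.le, hu.2⟩
          simp [this]
      have e2 : ∫ u in τ..1, a u * (Ioo (0 : ℝ) 1).indicator (fun _ => (1 : ℝ)) (S u) =
          ∫ u in τ..1, Real.sqrt (1 - l ^ 2 * (1 - u) ^ 2) := by
        rw [intervalIntegral.integral_of_le hτ1.le, intervalIntegral.integral_of_le hτ1.le,
          integral_Ioc_eq_integral_Ioo, integral_Ioc_eq_integral_Ioo]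
        refine setIntegral_congr_fun measurableSet_Ioo ?_
        intro u hu
        have : S u ∈ Ioo (0 : ℝ) 1 := hlt u hu
        simp [indicator_of_mem this, a]
      rw [e1, e2, zero_add]
    have hB : ∫ u in u0..1, deriv b u * S u = -l * (vol01 D - u0) := by
      simp only [hdb]
      rw [intervalIntegral.integral_const_mul]
      have h01 := intervalIntegral.integral_add_adjacent_intervals (hSint 0 u0) (hSint u0 1)
      have h0 : ∫ u in (0 : ℝ)..u0, S u = u0 := by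
        rw [intervalIntegral.integral_congr (g := fun _ => (1 : ℝ))]
        · simp
        · intro u hu
          rw [uIcc_of_le hu0] at hu
          exact hone0 u hu.1 hu.2
      have hs := sv_integral D hO i
      rw [h0] at h01
      rw [show (fun u => sv D i u) = S from rfl] at hs
      have : ∫ u in u0..1, S u = vol01 D - u0 := by linarith
      rw [this]
    have hsum : ∫ u in u0..1, f u = Kf (1 - τ) l + (-l * (vol01 D - u0)) := by
      have := intervalIntegral.integral_add (hf1 u0 1) (hf2 u0 1)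
      rw [hA, hB] at this
      exact this
    rw [hsum, hSu0]
    show Kf (1 - τ) l + -l * (vol01 D - u0) + (l * (1 - u0)) * 1 - 0 = _
    ring
  rw [← hval]
  exact ql_tendsto hlim hG

/-- Base lemma: `S = sv D i`; `S(u) = 1` for `u ∈ [0,τ)` and `0 < S(u) < 1` for `u ∈ (τ,1)`, `S(0) = 1`,
`0 ≤ τ < 1`. Then for `0 ≤ l ≤ 1/(1-τ)`: `q ≥ l (1-s) + Kf (1-τ) l`.
Proof: first `l (1-τ) < 1`. If `τ > 0`: choose `u0 < τ` close to `τ` with `l (1-u0) ≤ 1`; if `τ = 0` take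
`u0 = 0`. `two_master` on `[u0,u1]`, `u1 ↑ 1`, `b(u) = l (1-u)`, `a = sqrt(1-l²(1-u)²)`: value
`∫_τ^{u1} sqrt(1-l²(1-u)²) du - l ∫_{u0}^{u1} S + l(1-u0)·1 - l(1-u1) S(u1)
 → Kf (1-τ) l + l ∫_{u0}^1 (1 - S) = Kf (1-τ) l + l (1-s)` (`S(u0) = 1`, `∫_0^{u0} (1-S) = 0`).
Then `l ↑ 1/(1-τ)` by continuity. -/
theorem two_up_base (D : Set (Fin 2 → ℝ)) (hD : IsLowerSet D) (hO : IsOpen D) (i : Fin 2) (τ l : ℝ)
    (hτ0 : 0 ≤ τ) (hτ1 : τ < 1) (hS0 : sv D i 0 = 1) (hone : ∀ u ∈ Ico 0 τ, sv D i u = 1)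
    (hlt : ∀ u ∈ Ioo τ 1, sv D i u ∈ Ioo (0 : ℝ) 1) (hl0 : 0 ≤ l) (hl1 : l * (1 - τ) ≤ 1) :
    QL D (l * (1 - vol01 D) + Kf (1 - τ) l) := by
  rcases hl1.lt_or_eq with h | h
  · exact two_up_strict D hD hO i τ l hτ0 hτ1 hS0 hone hlt hl0 h
  · have hlpos : 0 < l := by
      rcases hl0.eq_or_lt with h' | h'
      · rw [← h'] at h; simp at h
      · exact h'
    have hcont : Continuous (fun l' : ℝ => l' * (1 - vol01 D) + Kf (1 - τ) l') := by
      refine Continuous.add (by fun_prop) ?_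
      exact Kf_continuous.comp (Continuous.prodMk continuous_const continuous_id)
    have ht : Tendsto (fun l' : ℝ => l' * (1 - vol01 D) + Kf (1 - τ) l') (𝓝[<] l)
        (𝓝 (l * (1 - vol01 D) + Kf (1 - τ) l)) := (hcont.tendsto l).mono_left nhdsWithin_le_nhds
    refine ql_tendsto ht ?_
    have h2 : ∀ᶠ u in 𝓝[<] l, u ∈ Ioo 0 l := Ioo_mem_nhdsLT hlpos
    filter_upwards [h2] with l' hl'
    refine two_up_strict D hD hO i τ l' hτ0 hτ1 hS0 hone hlt hl'.1.le ?_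
    calc l' * (1 - τ) < l * (1 - τ) := mul_lt_mul_of_pos_right hl'.2 (by linarith)
      _ = 1 := h

private theorem tau_exists (D : Set (Fin 2 → ℝ)) (hD : IsLowerSet D) (hO : IsOpen D) (i : Fin 2)
    (h1 : ∀ u ∈ Ico (0 : ℝ) 1, pt i u 0 ∈ D) (h2 : ∀ v ∈ Ico (0 : ℝ) 1, pt i 0 v ∈ D) :
    sv D i 0 = 1 ∧ ((∀ u ∈ Ico (0 : ℝ) 1, sv D i u = 1) ∨ ∃ τ, 0 ≤ τ ∧ τ < 1 ∧
      (∀ u ∈ Ico 0 τ, sv D i u = 1) ∧ (∀ u ∈ Ioo τ 1, sv D i u ∈ Ioo (0 : ℝ) 1)) := by
  have hanti : Antitone (sv D i) := sv_anti D hD i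
  have hmem : ∀ u, sv D i u ∈ Icc (0 : ℝ) 1 := fun u => sv_mem D i u
  have hS0 : sv D i 0 = 1 := by
    by_contra hne
    have hlt : sv D i 0 < 1 := lt_of_le_of_ne (hmem 0).2 hne
    have h3 := (pt_mem_iff D hD hO i 0 (sv D i 0) (hmem 0).1 hlt).1 (h2 _ ⟨(hmem 0).1, hlt⟩)
    exact lt_irrefl _ h3
  have hpos : ∀ u ∈ Ico (0 : ℝ) 1, 0 < sv D i u := fun u hu =>
    (pt_mem_iff D hD hO i u 0 le_rfl one_pos).1 (h1 u hu)
  refine ⟨hS0, ?_⟩
  let A : Set ℝ := {u | u ∈ Ico (0 : ℝ) 1 ∧ sv D i u = 1}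
  have hA0 : (0 : ℝ) ∈ A := ⟨⟨le_rfl, one_pos⟩, hS0⟩
  have hbdd : BddAbove A := ⟨1, fun u hu => hu.1.2.le⟩
  have hlow : ∀ u, 0 ≤ u → u < sSup A → sv D i u = 1 := by
    intro u hu0 hu
    obtain ⟨v, hv, huv⟩ := exists_lt_of_lt_csSup ⟨0, hA0⟩ hu
    exact le_antisymm (hmem u).2 (by rw [← hv.2]; exact hanti huv.le)
  have hsup0 : 0 ≤ sSup A := le_csSup hbdd hA0
  have hsup1 : sSup A ≤ 1 := csSup_le ⟨0, hA0⟩ (fun u hu => hu.1.2.le)
  rcases hsup1.lt_or_eq with h | h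
  · right
    refine ⟨sSup A, hsup0, h, fun u hu => hlow u hu.1 hu.2, fun u hu => ?_⟩
    have hu0 : 0 ≤ u := le_trans hsup0 hu.1.le
    refine ⟨hpos u ⟨hu0, hu.2⟩, lt_of_le_of_ne (hmem u).2 fun he => ?_⟩
    have : u ≤ sSup A := le_csSup hbdd ⟨⟨hu0, hu.2⟩, he⟩
    exact absurd hu.1 (not_lt.2 this)
  · left
    intro u hu
    exact hlow u hu.1 (by rw [h]; exact hu.2)

private theorem vol_eq_one (D : Set (Fin 2 → ℝ)) (hO : IsOpen D) (i : Fin 2)
    (h : ∀ u ∈ Ico (0 : ℝ) 1, sv D i u = 1) : vol01 D = 1 := by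
  rw [← sv_integral D hO i, intervalIntegral.integral_of_le zero_le_one,
    integral_Ioc_eq_integral_Ioo]
  rw [setIntegral_congr_fun (g := fun _ => (1 : ℝ)) measurableSet_Ioo
    (fun u hu => h u ⟨hu.1.le, hu.2⟩)]
  simp

private theorem vol_le_one (D : Set (Fin 2 → ℝ)) (hD : IsLowerSet D) (hO : IsOpen D) :
    vol01 D ≤ 1 := by
  rw [← sv_integral D hO 0]
  have h1 : ∫ u in (0 : ℝ)..1, sv D 0 u ≤ ∫ u in (0 : ℝ)..1, (1 : ℝ) :=
    intervalIntegral.integral_mono_on zero_le_one (sv_anti D hD 0).intervalIntegrable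
      intervalIntegrable_const (fun u _ => (sv_mem D 0 u).2)
  simpa using h1

/-- **F3.** Both far sides touched: `q ≥ sqrt(π (1-s))`.
(`τ = sup {u ∈ [0,1) : S u = 1}` or `0`; `l = 1/(1-τ)`, `Kf = π(1-τ)/4`, AM-GM.) -/
theorem two_F3 (D : Set (Fin 2 → ℝ)) (hD : IsLowerSet D) (hO : IsOpen D) (i : Fin 2)
    (h1 : ∀ u ∈ Ico (0 : ℝ) 1, pt i u 0 ∈ D) (h2 : ∀ v ∈ Ico (0 : ℝ) 1, pt i 0 v ∈ D) :
    QL D (Real.sqrt (Real.pi * (1 - vol01 D))) := by
  obtain ⟨hS0, h⟩ := tau_exists D hD hO i h1 h2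
  rcases h with h | ⟨τ, hτ0, hτ1, hone, hlt⟩
  · rw [vol_eq_one D hO i h]
    exact ql_zero D (by simp)
  · have hR : 0 < 1 - τ := by linarith
    have hq := two_up_base D hD hO i τ (1 / (1 - τ)) hτ0 hτ1 hS0 hone hlt (by positivity)
      (by rw [one_div_mul_cancel hR.ne'])
    have hK : Kf (1 - τ) (1 / (1 - τ)) = Real.pi / (4 * (1 / (1 - τ))) := by
      have := Kf_full (1 / (1 - τ)) (by positivity)
      rwa [one_div_one_div] at this
    rw [hK] at hq
    refine ql_mono ?_ hq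
    have hs : 0 ≤ 1 - vol01 D := by linarith [vol_le_one D hD hO]
    rw [Real.sqrt_le_left (by positivity)]
    have hpi := Real.pi_pos
    have e : 1 / (1 - τ) * (1 - vol01 D) + Real.pi / (4 * (1 / (1 - τ))) =
        (1 - vol01 D) / (1 - τ) + Real.pi * (1 - τ) / 4 := by
      field_simp
    rw [e]
    have hxy : (1 - vol01 D) / (1 - τ) * (Real.pi * (1 - τ) / 4) = Real.pi * (1 - vol01 D) / 4 := by
      field_simp
    nlinarith [sq_nonneg ((1 - vol01 D) / (1 - τ) - Real.pi * (1 - τ) / 4)]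

/-- **F4.** Both far sides touched, the height of `D` at the far side `x_j = 1` (`j ≠ i`, measured in
direction `i`) is at most `β < 1`. For `l > 0` with `l (1-β) ≤ 1` and `l² · 4(1-s)/π ≤ 1`:
`q ≥ l (1-s) + Kf (1-β) l`.
Proof: `τ ≤ β`, `R = 1-τ ≥ 1-β`. If `l R ≤ 1`: `two_up_base` and `Kf_mono`. Otherwise `1/l < R`; with
`l' = 1/R`: `q ≥ (1-s)/R + π R/4 ≥ l (1-s) + π/(4l)` because `x ↦ (1-s)/x + πx/4` is increasing for
`x² ≥ 4(1-s)/π` and `1/l` is in this range; `π/(4l) ≥ Kf (1-β) l` (`Kf_le`). -/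
theorem two_F4 (D : Set (Fin 2 → ℝ)) (hD : IsLowerSet D) (hO : IsOpen D) (i : Fin 2) (β l : ℝ)
    (h1 : ∀ u ∈ Ico (0 : ℝ) 1, pt i u 0 ∈ D) (h2 : ∀ v ∈ Ico (0 : ℝ) 1, pt i 0 v ∈ D)
    (hβ0 : 0 ≤ β) (hβ1 : β < 1) (hβ : ∀ u ∈ Ioo β 1, ∃ v ∈ Ico (0 : ℝ) 1, pt i u v ∉ D)
    (hl : 0 < l) (hl1 : l * (1 - β) ≤ 1) (hl2 : l ^ 2 * (4 * (1 - vol01 D) / Real.pi) ≤ 1) :
    QL D (l * (1 - vol01 D) + Kf (1 - β) l) := by
  obtain ⟨hS0, h⟩ := tau_exists D hD hO i h1 h2
  have hlt1 : ∀ u ∈ Ioo β 1, sv D i u < 1 := by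
    intro u hu
    obtain ⟨v, hv, hvD⟩ := hβ u hu
    have := (pt_mem_iff D hD hO i u v hv.1 hv.2).not.1 hvD
    exact lt_of_le_of_lt (not_lt.1 this) hv.2
  obtain ⟨m, hm1, hm2⟩ := exists_between hβ1
  rcases h with h | ⟨τ, hτ0, hτ1, hone, hlt⟩
  · exact absurd (h m ⟨le_trans hβ0 hm1.le, hm2⟩) (hlt1 m ⟨hm1, hm2⟩).ne
  · have hτβ : τ ≤ β := by
      by_contra hne
      push_neg at hne
      obtain ⟨w, hw1, hw2⟩ := exists_between hne
      exact absurd (hone w ⟨le_trans hβ0 hw1.le, hw2⟩) (hlt1 w ⟨hw1, lt_trans hw2 hτ1⟩).ne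
    by_cases hc : l * (1 - τ) ≤ 1
    · have hq := two_up_base D hD hO i τ l hτ0 hτ1 hS0 hone hlt hl.le hc
      refine ql_mono ?_ hq
      have := Kf_mono (1 - β) (1 - τ) l (by linarith) (by linarith)
      linarith
    · push_neg at hc
      have hR : 0 < 1 - τ := by linarith
      have hq := two_up_base D hD hO i τ (1 / (1 - τ)) hτ0 hτ1 hS0 hone hlt (by positivity)
        (by rw [one_div_mul_cancel hR.ne'])
      have hK : Kf (1 - τ) (1 / (1 - τ)) = Real.pi / (4 * (1 / (1 - τ))) := by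
        have := Kf_full (1 / (1 - τ)) (by positivity)
        rwa [one_div_one_div] at this
      rw [hK] at hq
      refine ql_mono ?_ hq
      have hK2 := Kf_le (1 - β) l (by linarith) hl
      have hs : 0 ≤ 1 - vol01 D := by linarith [vol_le_one D hD hO]
      have hpi := Real.pi_pos
      have e : 1 / (1 - τ) * (1 - vol01 D) + Real.pi / (4 * (1 / (1 - τ))) =
          (1 - vol01 D) / (1 - τ) + Real.pi * (1 - τ) / 4 := by
        field_simp
      rw [e]
      refine le_trans (add_le_add_right hK2 _) ?_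
      set s := 1 - vol01 D with hsdef
      set R := 1 - τ with hRdef
      have hl2' : l ^ 2 * (4 * s) ≤ Real.pi := by
        have : l ^ 2 * (4 * s / Real.pi) = l ^ 2 * (4 * s) / Real.pi := by ring
        rw [this, div_le_one hpi] at hl2
        exact hl2
      have key : s / R + Real.pi * R / 4 - (l * s + Real.pi / (4 * l)) =
          (l * R - 1) * (Real.pi * R - 4 * l * s) / (4 * l * R) := by
        field_simp
        ring
      have hnn : 0 ≤ (l * R - 1) * (Real.pi * R - 4 * l * s) / (4 * l * R) := by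
        apply div_nonneg _ (by positivity)
        apply mul_nonneg (by linarith)
        have h5 : 4 * l * s * l ≤ Real.pi := by nlinarith
        have h6 : Real.pi ≤ Real.pi * R * l := by nlinarith
        have h7 : (4 * l * s) * l ≤ (Real.pi * R) * l := by linarith
        have h8 := le_of_mul_le_mul_right h7 hl
        linarith
      linarith
end Crest.Agent.T3
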