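import Crest.Agent.T3.TwoDown
import Crest.Agent.T3.TwoUp

/-! Row 214: case distinction (4) for an open lower set of the space. -/

set_option autoImplicit false
open MeasureTheory Set Filter Topology
open Crest.GeometryTopology.PeriodicPerimeter

namespace Crest.Agent.T3

/-- The point of the space with coordinate `a` equal to `x`, coordinate `b` equal to `y` and third
coordinate `z`. -/
def p3 (a b : Fin 3) (x y z : ℝ) : Fin 3 → ℝ := fun i => if i = a then x else if i = b then y else z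

/-- The far side `x_a = 1` is touched at `x_b = y` (third coordinate `0`). -/
def Tch (D : Set (Fin 3 → ℝ)) (a b : Fin 3) (y : ℝ) : Prop :=
  ∀ x ∈ Ico (0 : ℝ) 1, p3 a b x y 0 ∈ D

theorem QLmono {n : ℕ} {D : Set (Fin n → ℝ)} {c c' : ℝ} (h : c' ≤ c) (hc : QL D c) : QL D c' := by
  unfold QL at *
  exact le_trans (ENNReal.ofReal_le_ofReal (by linarith)) hc

theorem succ_fin3 : ∀ (k a b : Fin 3) (i j : Fin 2), a ≠ k → b ≠ k → a ≠ b →
    k.succAbove i = a → j ≠ i → k.succAbove j = b := by decide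

/-- coordinates of the slice of direction `k`: `pt i u v ∈ sl k t D` is `p3` of the actual coordinates -/
theorem slice_pt (D : Set (Fin 3 → ℝ)) (k a b : Fin 3) (hka : a ≠ k) (hkb : b ≠ k) (hab : a ≠ b)
    (t : ℝ) : ∃ i : Fin 2, ∀ u v : ℝ,
      (pt i u v ∈ sl k t D ↔ p3 a b u v t ∈ D) := by
  have key : ∀ i : Fin 2, k.succAbove i = a → ∀ u v : ℝ,
      k.insertNth (α := fun _ => ℝ) t (pt i u v) = p3 a b u v t := by
    intro i hi u v
    funext m
    refine Fin.succAboveCases k ?_ ?_ m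
    · simp [p3, hka.symm, hkb.symm]
    · intro j
      rw [Fin.insertNth_apply_succAbove]
      by_cases hj : j = i
      · subst hj
        simp [pt, p3, hi]
      · have h1 : k.succAbove j ≠ a := fun h => hj (Fin.succAbove_right_injective (h.trans hi.symm))
        have h2 : k.succAbove j = b := succ_fin3 k a b i j hka hkb hab hi hj
        have h4 : pt i u v j = v := by
          unfold pt
          obtain ⟨m, rfl⟩ := Fin.exists_succAbove_eq hj
          simp
        rw [h4]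
        simp [p3, h2, hab.symm]
  have hex : ∃ i : Fin 2, k.succAbove i = a := Fin.exists_succAbove_eq hka
  obtain ⟨i, hi⟩ := hex
  exact ⟨i, fun u v => by unfold sl; rw [mem_ofPred_eq, key i hi u v]⟩


/-- both orders at once -/
theorem slice_pt' (D : Set (Fin 3 → ℝ)) (k a b : Fin 3) (hka : a ≠ k) (hkb : b ≠ k) (hab : a ≠ b)
    (t : ℝ) : ∃ i : Fin 2, (∀ u v : ℝ, (pt i u v ∈ sl k t D ↔ p3 a b u v t ∈ D)) ∧
      ∃ j : Fin 2, (∀ u v : ℝ, (pt j u v ∈ sl k t D ↔ p3 b a u v t ∈ D)) := by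
  obtain ⟨i, hi⟩ := slice_pt D k a b hka hkb hab t
  obtain ⟨j, hj⟩ := slice_pt D k b a hkb hka hab.symm t
  exact ⟨i, hi, j, hj⟩

theorem p3_swap (a b : Fin 3) (hab : a ≠ b) (x y z : ℝ) : p3 a b x y z = p3 b a y x z := by
  funext i
  unfold p3
  by_cases h1 : i = a
  · subst h1; simp [hab]
  · by_cases h2 : i = b
    · subst h2; simp [hab.symm]
    · simp [h1, h2]

/-- lower sets: decreasing the coordinates -/
theorem p3_mono (D : Set (Fin 3 → ℝ)) (hD : IsLowerSet D) (a b : Fin 3) {x y z x' y' z' : ℝ}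
    (hx : x' ≤ x) (hy : y' ≤ y) (hz : z' ≤ z) (h : p3 a b x y z ∈ D) : p3 a b x' y' z' ∈ D := by
  refine hD ?_ h
  intro i
  unfold p3
  split_ifs <;> assumption

/-- exchange of the roles of the third coordinate: `k, a, b` distinct -/
theorem p3_third (k a b : Fin 3) (hka : a ≠ k) (hkb : b ≠ k) (hab : a ≠ b) (x y z : ℝ) :
    p3 a b x y z = p3 a k x z y := by
  funext i
  have h : i = k ∨ i = a ∨ i = b := by
    revert k a b i; decide
  unfold p3
  rcases h with rfl | rfl | rfl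
  · simp [hka.symm, hkb.symm]
  · simp
  · simp [hab.symm, hkb]

/-- Touching in the slice `x_k = t`: far side `x_a = 1`. -/
theorem tch_slice (D : Set (Fin 3 → ℝ)) (k a b : Fin 3) (hka : a ≠ k) (hkb : b ≠ k) (hab : a ≠ b)
    (t : ℝ) : Tch D a k t ↔ ∀ x ∈ Ico (0 : ℝ) 1, p3 a b x 0 t ∈ D := by
  unfold Tch
  simp only [p3_third k a b hka hkb hab]

theorem tch_anti (D : Set (Fin 3 → ℝ)) (hD : IsLowerSet D) (a b : Fin 3) {y y' : ℝ} (h : y' ≤ y)
    (ht : Tch D a b y) : Tch D a b y' := fun x hx => p3_mono D hD a b le_rfl h le_rfl (ht x hx)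

/-- Thin height in every slice. -/
theorem thin_slice (D : Set (Fin 3 → ℝ)) (hD : IsLowerSet D) (a b : Fin 3) (β t : ℝ) (ht : 0 ≤ t)
    (h : ¬ Tch D a b β) : ∀ y, β ≤ y → ∃ x ∈ Ico (0 : ℝ) 1, p3 a b x y t ∉ D := by
  intro y hy
  unfold Tch at h
  push Not at h
  obtain ⟨x, hx, hx2⟩ := h
  exact ⟨x, hx, fun h2 => hx2 (p3_mono D hD a b le_rfl hy ht h2)⟩

theorem pt_swap01 (u v : ℝ) : pt 0 u v = pt 1 v u := by
  funext i
  fin_cases i
  · simp only [pt]
    have h : (0 : Fin 2) = (1 : Fin 2).succAbove 0 := by decide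
    change Fin.insertNth (α := fun _ => ℝ) 0 u (fun _ => v) 0 =
      Fin.insertNth (α := fun _ => ℝ) 1 v (fun _ => u) 0
    rw [Fin.insertNth_apply_same]
    conv_rhs => rw [h]
    exact (Fin.insertNth_apply_succAbove (α := fun _ : Fin 2 => ℝ) 1 v (fun _ => u) 0).symm
  · change Fin.insertNth (α := fun _ => ℝ) 0 u (fun _ => v) 1 =
      Fin.insertNth (α := fun _ => ℝ) 1 v (fun _ => u) 1
    rw [Fin.insertNth_apply_same]
    have h : (1 : Fin 2) = (0 : Fin 2).succAbove 0 := by decide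
    conv_lhs => rw [h]
    exact Fin.insertNth_apply_succAbove (α := fun _ : Fin 2 => ℝ) 0 u (fun _ => v) 0

/-- Lower bound of slices in all cases: `q ≥ min (sqrt(π s)) (min 1 (sqrt(π (1-s))))`. -/
theorem slice_basic (D : Set (Fin 3 → ℝ)) (hD : IsLowerSet D) (hO : IsOpen D) (k : Fin 3) (t : ℝ) :
    QL (sl k t D) (min (Real.sqrt (Real.pi * sv D k t))
      (min 1 (Real.sqrt (Real.pi * (1 - sv D k t))))) := by
  have hl := sl_lower D hD k t
  have ho := sl_open D hO k t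
  have e : sv D k t = vol01 (sl k t D) := rfl
  rw [e]
  by_cases h0 : ∀ u ∈ Ico (0 : ℝ) 1, pt 0 u 0 ∈ sl k t D
  · by_cases h1 : ∀ v ∈ Ico (0 : ℝ) 1, pt 0 0 v ∈ sl k t D
    · exact QLmono ((min_le_right _ _).trans (min_le_right _ _)) (two_F3 _ hl ho 0 h0 h1)
    · push Not at h1
      have := two_F2 _ hl ho 0 1 0 h0 h1 zero_le_one (fun y hy => absurd hy.2 (not_lt.2 hy.1.le))
        le_rfl zero_le_one
      refine QLmono ((min_le_right _ _).trans ((min_le_left _ _).trans ?_)) this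
      simp [Kf]
  · push Not at h0
    by_cases h1 : ∀ v ∈ Ico (0 : ℝ) 1, pt 0 0 v ∈ sl k t D
    · have hs : ∀ u v : ℝ, pt 0 u v = pt 1 v u := pt_swap01
      have := two_F2 _ hl ho 1 1 0 (fun u hu => by rw [← hs]; exact h1 u hu)
        (by obtain ⟨u, hu, hu2⟩ := h0; exact ⟨u, hu, by rw [← hs]; exact hu2⟩) zero_le_one
        (fun y hy => absurd hy.2 (not_lt.2 hy.1.le)) le_rfl zero_le_one
      refine QLmono ((min_le_right _ _).trans ((min_le_left _ _).trans ?_)) this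
      simp [Kf]
    · push Not at h1
      exact QLmono (min_le_left _ _) (two_F1 _ hl ho 0 h0 h1)


/-- The lower bound of case II. -/
noncomputable def gII (β l1 l2 s : ℝ) : ℝ :=
  min (Real.sqrt (Real.pi * s)) (min (l1 * (s - β) + Kf 1 l1) (l2 * (1 - s) + Kf (1 - β) l2))

theorem slice_none (D : Set (Fin 3 → ℝ)) (hD : IsLowerSet D) (hO : IsOpen D) (k a b : Fin 3)
    (hka : a ≠ k) (hkb : b ≠ k) (hab : a ≠ b) (t : ℝ) (ha : ¬ Tch D a k t) (hb : ¬ Tch D b k t) :
    QL (sl k t D) (Real.sqrt (Real.pi * sv D k t)) := by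
  obtain ⟨i, hi⟩ := slice_pt D k a b hka hkb hab t
  have e : sv D k t = vol01 (sl k t D) := rfl
  rw [tch_slice D k a b hka hkb hab] at ha
  rw [tch_slice D k b a hkb hka hab.symm] at hb
  push Not at ha hb
  rw [e]
  refine two_F1 _ (sl_lower D hD k t) (sl_open D hO k t) i ?_ ?_
  · obtain ⟨u, hu, hu2⟩ := ha
    exact ⟨u, hu, by rw [hi]; exact hu2⟩
  · obtain ⟨v, hv, hv2⟩ := hb
    exact ⟨v, hv, by rw [hi, p3_swap a b hab]; exact hv2⟩

theorem slice_single (D : Set (Fin 3 → ℝ)) (hD : IsLowerSet D) (hO : IsOpen D) (k a b : Fin 3)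
    (hka : a ≠ k) (hkb : b ≠ k) (hab : a ≠ b) (t : ℝ) (ht : 0 ≤ t) (β : ℝ) (hβ : 0 ≤ β)
    (ha : Tch D a k t) (hb : ¬ Tch D b k t) (hth : ¬ Tch D a b β) (l : ℝ) (hl : l ∈ Icc (0 : ℝ) 1) :
    QL (sl k t D) (l * (sv D k t - β) + Kf 1 l) := by
  obtain ⟨i, hi⟩ := slice_pt D k a b hka hkb hab t
  have e : sv D k t = vol01 (sl k t D) := rfl
  rw [tch_slice D k a b hka hkb hab] at ha
  rw [tch_slice D k b a hkb hka hab.symm] at hb
  push Not at hb
  rw [e]
  refine two_F2 _ (sl_lower D hD k t) (sl_open D hO k t) i β l ?_ ?_ hβ ?_ hl.1 hl.2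
  · intro u hu
    rw [hi]; exact ha u hu
  · obtain ⟨v, hv, hv2⟩ := hb
    exact ⟨v, hv, by rw [hi, p3_swap a b hab]; exact hv2⟩
  · intro y hy
    obtain ⟨x, hx, hx2⟩ := thin_slice D hD a b β t ht hth y hy.1.le
    exact ⟨x, hx, by rw [hi]; exact hx2⟩

theorem slice_both (D : Set (Fin 3 → ℝ)) (hD : IsLowerSet D) (hO : IsOpen D) (k a b : Fin 3)
    (hka : a ≠ k) (hkb : b ≠ k) (hab : a ≠ b) (t : ℝ) (ha : Tch D a k t) (hb : Tch D b k t) :
    QL (sl k t D) (Real.sqrt (Real.pi * (1 - sv D k t))) := by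
  obtain ⟨i, hi⟩ := slice_pt D k a b hka hkb hab t
  have e : sv D k t = vol01 (sl k t D) := rfl
  rw [tch_slice D k a b hka hkb hab] at ha
  rw [tch_slice D k b a hkb hka hab.symm] at hb
  rw [e]
  refine two_F3 _ (sl_lower D hD k t) (sl_open D hO k t) i ?_ ?_
  · intro u hu
    rw [hi]; exact ha u hu
  · intro v hv
    rw [hi, p3_swap a b hab]; exact hb v hv

theorem slice_both_thin (D : Set (Fin 3 → ℝ)) (hD : IsLowerSet D) (hO : IsOpen D) (k a b : Fin 3)
    (hka : a ≠ k) (hkb : b ≠ k) (hab : a ≠ b) (t : ℝ) (ht : 0 ≤ t) (β : ℝ) (hβ : 0 ≤ β)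
    (hβ1 : β < 1) (ha : Tch D a k t) (hb : Tch D b k t) (hth : ¬ Tch D b a β) (l : ℝ)
    (hl : l ∈ Ioc (0 : ℝ) 1) :
    QL (sl k t D) (min (Real.sqrt (Real.pi * sv D k t))
      (l * (1 - sv D k t) + Kf (1 - β) l)) := by
  have hs := sv_mem D k t
  by_cases hc : l ^ 2 * (4 * (1 - sv D k t) / Real.pi) ≤ 1
  · refine QLmono (min_le_right _ _) ?_
    obtain ⟨i, hi⟩ := slice_pt D k a b hka hkb hab t
    have e : sv D k t = vol01 (sl k t D) := rfl
    rw [tch_slice D k a b hka hkb hab] at ha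
    rw [tch_slice D k b a hkb hka hab.symm] at hb
    rw [e] at hc ⊢
    refine two_F4 _ (sl_lower D hD k t) (sl_open D hO k t) i β l ?_ ?_ hβ hβ1 ?_ hl.1 ?_ hc
    · intro u hu
      rw [hi]; exact ha u hu
    · intro v hv
      rw [hi, p3_swap a b hab]; exact hb v hv
    · intro y hy
      obtain ⟨x, hx, hx2⟩ := thin_slice D hD b a β t ht hth y hy.1.le
      exact ⟨x, hx, by rw [hi, p3_swap a b hab]; exact hx2⟩
    · nlinarith [hl.1, hl.2]
  · refine QLmono ((min_le_left _ _).trans ?_) (slice_both D hD hO k a b hka hkb hab t ha hb)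
    apply Real.sqrt_le_sqrt
    have hpi := Real.pi_gt_three
    push Not at hc
    have h1 : 1 < 4 * (1 - sv D k t) / Real.pi := by
      have h2 : l ^ 2 * (4 * (1 - sv D k t) / Real.pi) ≤ 1 * (4 * (1 - sv D k t) / Real.pi) := by
        apply mul_le_mul_of_nonneg_right
        · nlinarith [hl.1, hl.2]
        · exact div_nonneg (by linarith [hs.2]) (by linarith)
      linarith
    rw [lt_div_iff₀ (by linarith)] at h1
    nlinarith

/-- the statement of case II for one direction -/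
def CaseII (D : Set (Fin 3 → ℝ)) (β : ℝ) (k : Fin 3) : Prop :=
  ∀ t ∈ Ioo (0 : ℝ) 1, ∀ l1 ∈ Icc (0 : ℝ) 1, ∀ l2 ∈ Ioc (0 : ℝ) 1,
    QL (sl k t D) (gII β l1 l2 (sv D k t))

/-- the statement of case I for one direction -/
def CaseI (D : Set (Fin 3 → ℝ)) (β : ℝ) (k : Fin 3) : Prop :=
  (∀ t ∈ Ioo (0 : ℝ) β, QL (sl k t D) (Real.sqrt (Real.pi * (1 - sv D k t)))) ∧
  (∀ t ∈ Ioo (0 : ℝ) 1, QL (sl k t D) (min (Real.sqrt (Real.pi * sv D k t))
      (min 1 (Real.sqrt (Real.pi * (1 - sv D k t))))))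

theorem caseI_of (D : Set (Fin 3 → ℝ)) (hD : IsLowerSet D) (hO : IsOpen D) (β : ℝ) (k a b : Fin 3)
    (hka : a ≠ k) (hkb : b ≠ k) (hab : a ≠ b) (ha : Tch D a k β) (hb : Tch D b k β) :
    CaseI D β k := by
  refine ⟨fun t ht => ?_, fun t _ => slice_basic D hD hO k t⟩
  exact slice_both D hD hO k a b hka hkb hab t (tch_anti D hD a k ht.2.le ha)
    (tch_anti D hD b k ht.2.le hb)

/-- two-cycle -/
theorem caseII_two (D : Set (Fin 3 → ℝ)) (hD : IsLowerSet D) (hO : IsOpen D) (β : ℝ) (hβ : 0 ≤ β)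
    (hβ1 : β < 1) (k a b : Fin 3) (hka : a ≠ k) (hkb : b ≠ k) (hab : a ≠ b)
    (h1 : ¬ Tch D a b β) (h2 : ¬ Tch D b a β) : CaseII D β k := by
  intro t ht l1 hl1 l2 hl2
  by_cases ha : Tch D a k t
  · by_cases hb : Tch D b k t
    · exact QLmono (le_min (min_le_left _ _) ((min_le_right _ _).trans (min_le_right _ _)))
        (slice_both_thin D hD hO k a b hka hkb hab t ht.1.le β hβ hβ1 ha hb h2 l2 hl2)
    · exact QLmono ((min_le_right _ _).trans (min_le_left _ _))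
        (slice_single D hD hO k a b hka hkb hab t ht.1.le β hβ ha hb h1 l1 hl1)
  · by_cases hb : Tch D b k t
    · exact QLmono ((min_le_right _ _).trans (min_le_left _ _))
        (slice_single D hD hO k b a hkb hka hab.symm t ht.1.le β hβ hb ha h2 l1 hl1)
    · exact QLmono (min_le_left _ _) (slice_none D hD hO k a b hka hkb hab t ha hb)

/-- three-cycle: the side `a` is touched only together with the thin side `b` -/
theorem caseII_three (D : Set (Fin 3 → ℝ)) (hD : IsLowerSet D) (hO : IsOpen D) (β : ℝ) (hβ : 0 ≤ β)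
    (hβ1 : β < 1) (k a b : Fin 3) (hka : a ≠ k) (hkb : b ≠ k) (hab : a ≠ b)
    (h1 : ¬ Tch D a k β) (h2 : Tch D b k β) (h3 : ¬ Tch D b a β) : CaseII D β k := by
  intro t ht l1 hl1 l2 hl2
  by_cases ha : Tch D a k t
  · have htβ : t ≤ β := by
      by_contra hc
      push Not at hc
      exact h1 (tch_anti D hD a k hc.le ha)
    have hb : Tch D b k t := tch_anti D hD b k htβ h2
    exact QLmono (le_min (min_le_left _ _) ((min_le_right _ _).trans (min_le_right _ _)))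
      (slice_both_thin D hD hO k a b hka hkb hab t ht.1.le β hβ hβ1 ha hb h3 l2 hl2)
  · by_cases hb : Tch D b k t
    · exact QLmono ((min_le_right _ _).trans (min_le_left _ _))
        (slice_single D hD hO k b a hkb hka hab.symm t ht.1.le β hβ hb ha h3 l1 hl1)
    · exact QLmono (min_le_left _ _) (slice_none D hD hO k a b hka hkb hab t ha hb)

/-- **The case distinction.** -/
theorem case_split (D : Set (Fin 3 → ℝ)) (hD : IsLowerSet D) (hO : IsOpen D) (β : ℝ) (hβ : 0 ≤ β)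
    (hβ1 : β < 1) : (∃ k, CaseI D β k) ∨ (∃ k, CaseII D β k) := by
  by_cases c0 : Tch D 1 0 β ∧ Tch D 2 0 β
  · exact Or.inl ⟨0, caseI_of D hD hO β 0 1 2 (by decide) (by decide) (by decide) c0.1 c0.2⟩
  by_cases c1 : Tch D 0 1 β ∧ Tch D 2 1 β
  · exact Or.inl ⟨1, caseI_of D hD hO β 1 0 2 (by decide) (by decide) (by decide) c1.1 c1.2⟩
  by_cases c2 : Tch D 0 2 β ∧ Tch D 1 2 β
  · exact Or.inl ⟨2, caseI_of D hD hO β 2 0 1 (by decide) (by decide) (by decide) c2.1 c2.2⟩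
  right
  by_cases d0 : ¬ Tch D 1 2 β ∧ ¬ Tch D 2 1 β
  · exact ⟨0, caseII_two D hD hO β hβ hβ1 0 1 2 (by decide) (by decide) (by decide) d0.1 d0.2⟩
  by_cases d1 : ¬ Tch D 0 2 β ∧ ¬ Tch D 2 0 β
  · exact ⟨1, caseII_two D hD hO β hβ hβ1 1 0 2 (by decide) (by decide) (by decide) d1.1 d1.2⟩
  by_cases d2 : ¬ Tch D 0 1 β ∧ ¬ Tch D 1 0 β
  · exact ⟨2, caseII_two D hD hO β hβ hβ1 2 0 1 (by decide) (by decide) (by decide) d2.1 d2.2⟩
  by_cases e : Tch D 1 0 β
  · -- direction 0, a = 2, b = 1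
    refine ⟨0, caseII_three D hD hO β hβ hβ1 0 2 1 (by decide) (by decide) (by decide) ?_ e ?_⟩ <;> tauto
  · refine ⟨0, caseII_three D hD hO β hβ hβ1 0 1 2 (by decide) (by decide) (by decide) e ?_ ?_⟩ <;> tauto

end Crest.Agent.T3
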