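import Crest.Agent.T3.Ins

/-! Row 214, chunk T3-CELL: Fubini for the unit cell. -/

set_option autoImplicit false
open MeasureTheory Set Filter Topology
open Crest.GeometryTopology.PeriodicPerimeter

namespace Crest.Agent.T3

/-- `ins k` as a measurable equivalence. -/
noncomputable def insE {n : ℕ} (k : Fin (n + 1)) :
    (ℝ × EuclideanSpace ℝ (Fin n)) ≃ᵐ EuclideanSpace ℝ (Fin (n + 1)) :=
  ((MeasurableEquiv.prodCongr (MeasurableEquiv.refl ℝ)
      (MeasurableEquiv.toLp 2 (Fin n → ℝ)).symm).trans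
    (MeasurableEquiv.piFinSuccAbove (fun _ => ℝ) k).symm).trans
    (MeasurableEquiv.toLp 2 (Fin (n + 1) → ℝ))

theorem insE_apply {n : ℕ} (k : Fin (n + 1)) (p : ℝ × EuclideanSpace ℝ (Fin n)) :
    insE k p = ins k p.1 p.2 := rfl

theorem insE_mp {n : ℕ} (k : Fin (n + 1)) :
    MeasurePreserving (insE k) (volume : Measure (ℝ × EuclideanSpace ℝ (Fin n))) volume := by
  have h1 : MeasurePreserving (Prod.map id (WithLp.ofLp (p := 2) (V := Fin n → ℝ)))
      (volume : Measure (ℝ × EuclideanSpace ℝ (Fin n))) (volume : Measure (ℝ × (Fin n → ℝ))) := by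
    exact (MeasurePreserving.id volume).prod (PiLp.volume_preserving_ofLp (Fin n))
  have h2 : MeasurePreserving (MeasurableEquiv.piFinSuccAbove (fun _ => ℝ) k).symm
      (volume : Measure (ℝ × (Fin n → ℝ))) (volume : Measure (Fin (n+1) → ℝ)) :=
    (volume_preserving_piFinSuccAbove (fun _ : Fin (n + 1) => ℝ) k).symm _
  have h3 := PiLp.volume_preserving_toLp (Fin (n + 1))
  exact h3.comp (h2.comp h1)

theorem mem_unitCell_ins {n : ℕ} (k : Fin (n + 1)) (t : ℝ) (x : EuclideanSpace ℝ (Fin n)) :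
    ins k t x ∈ unitCell (n + 1) ↔ t ∈ Ico (0 : ℝ) 1 ∧ x ∈ unitCell n := by
  constructor
  · intro h
    refine ⟨?_, fun i => ?_⟩
    · have := h k
      rwa [ins_apply_self] at this
    · have := h (k.succAbove i)
      rwa [ins_apply_succAbove] at this
  · rintro ⟨h1, h2⟩ i
    refine Fin.succAboveCases k ?_ ?_ i
    · rw [ins_apply_self]; exact h1
    · intro j
      rw [ins_apply_succAbove]; exact h2 j

theorem insE_preimage_cell {n : ℕ} (k : Fin (n + 1)) :
    insE k ⁻¹' (unitCell (n + 1)) = Ico (0 : ℝ) 1 ×ˢ unitCell n := by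
  ext p
  rw [mem_preimage, insE_apply, mem_unitCell_ins]
  rfl

theorem measurableSet_unitCell (n : ℕ) : MeasurableSet (unitCell n) := by
  have : unitCell n = ⋂ i, {x : EuclideanSpace ℝ (Fin n) | 0 ≤ x i ∧ x i < 1} := by
    ext x; simp [unitCell]
  rw [this]
  refine MeasurableSet.iInter fun i => ?_
  have h : Measurable (fun x : EuclideanSpace ℝ (Fin n) => x i) := by fun_prop
  exact (measurableSet_Ico (a := (0:ℝ)) (b := 1)).preimage h

theorem volume_unitCell (n : ℕ) : volume (unitCell n) = 1 := by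
  have h := (PiLp.volume_preserving_ofLp (Fin n)).measure_preimage
    (s := Set.pi univ (fun _ => Ico (0 : ℝ) 1))
    (MeasurableSet.univ_pi fun _ => measurableSet_Ico).nullMeasurableSet
  have h2 : (WithLp.ofLp (p := 2) (V := Fin n → ℝ)) ⁻¹' (Set.pi univ (fun _ => Ico (0 : ℝ) 1)) =
      unitCell n := by
    ext x; simp [unitCell, Set.mem_pi]
  rw [h2] at h
  rw [h]
  simp [Real.volume_pi_Ico]

/-- Fubini on the cell. -/
theorem integral_cell_succ {n : ℕ} (F : EuclideanSpace ℝ (Fin (n + 1)) → ℝ)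
    (hF : IntegrableOn F (unitCell (n + 1))) (k : Fin (n + 1)) :
    ∫ x in unitCell (n + 1), F x = ∫ t in (0 : ℝ)..1, ∫ y in unitCell n, F (ins k t y) := by
  have h1 := (insE_mp k).setIntegral_preimage_emb (insE k).measurableEmbedding F
    (unitCell (n + 1))
  rw [← h1, insE_preimage_cell]
  have h2 : IntegrableOn (fun p => F (insE k p)) (Ico (0 : ℝ) 1 ×ˢ unitCell n)
      (volume : Measure (ℝ × EuclideanSpace ℝ (Fin n))) := by
    have := (insE_mp k).integrableOn_comp_preimage (insE k).measurableEmbedding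
      (f := F) (s := unitCell (n + 1))
    rw [insE_preimage_cell] at this
    exact this.2 hF
  rw [Measure.volume_eq_prod, setIntegral_prod _ (by rw [← Measure.volume_eq_prod]; exact h2)]
  rw [intervalIntegral.integral_of_le zero_le_one, ← integral_Ico_eq_integral_Ioc]
  rfl

/-- An almost everywhere statement holds almost everywhere on almost every slice. -/
theorem ae_slice {n : ℕ} {p : EuclideanSpace ℝ (Fin (n + 1)) → Prop} (h : ∀ᵐ x, p x)
    (k : Fin (n + 1)) : ∀ᵐ t : ℝ, ∀ᵐ y : EuclideanSpace ℝ (Fin n), p (ins k t y) := by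
  have h1 : ∀ᵐ q : ℝ × EuclideanSpace ℝ (Fin n), p (insE k q) :=
    (insE_mp k).quasiMeasurePreserving.ae h
  rw [Measure.volume_eq_prod] at h1
  exact Measure.ae_ae_of_ae_prod h1

end Crest.Agent.T3
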