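import Crest.Agent.T3.Ibp

/-! Row 214, chunk T3-CELLSHIFT. -/

set_option autoImplicit false
open MeasureTheory Set Filter Topology
open Crest.GeometryTopology.PeriodicPerimeter

namespace Crest.Agent.T3

theorem gr_periodic {n : ℕ} (f : EuclideanSpace ℝ (Fin n) → ℝ)
    (hp : ∀ v, HasIntegerCoords v → ∀ x, f (x + v) = f x) (v : EuclideanSpace ℝ (Fin n))
    (hv : HasIntegerCoords v) (x : EuclideanSpace ℝ (Fin n)) : gr f (x + v) = gr f x := by
  have h1 : fderiv ℝ f (x + v) = fderiv ℝ f x := by
    have h2 : (fun y => f (y + v)) = f := funext (hp v hv)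
    have h3 := fderiv_comp_add_right (𝕜 := ℝ) (f := f) (x := x) v
    rw [h2] at h3
    exact h3.symm
  unfold gr
  rw [h1]

theorem ins_add_one {n : ℕ} (k : Fin (n + 1)) (t : ℝ) (y : EuclideanSpace ℝ (Fin n)) :
    ins k (t + 1) y = ins k t y + EuclideanSpace.single k (1 : ℝ) := by
  ext j
  refine Fin.succAboveCases k ?_ ?_ j
  · simp [ins_apply_self]
  · intro j; simp [ins_apply_succAbove, Fin.succAbove_ne]

/-- The integral of `|∇ f_j|` over one period in direction `k`. -/
theorem integral_cell_shift {n : ℕ} {E : Set (EuclideanSpace ℝ (Fin (n + 1)))} {c : ℝ}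
    {f : ℕ → EuclideanSpace ℝ (Fin (n + 1)) → ℝ} (hf : Approx E c f)
    (k : Fin (n + 1)) (t0 : ℝ) (j : ℕ) :
    ∫ t in t0..(t0 + 1), ∫ y in unitCell n, gr (f j) (ins k t y) ≤ c := by
  have hper : Function.Periodic (fun t : ℝ => ∫ y in unitCell n, gr (f j) (ins k t y)) 1 := by
    intro t
    have hv : HasIntegerCoords (EuclideanSpace.single k (1 : ℝ)) := by
      intro i
      by_cases hi : i = k
      · subst hi; exact ⟨1, by simp⟩
      · exact ⟨0, by simp [hi]⟩
    show (∫ y in unitCell n, gr (f j) (ins k (t + 1) y)) = ∫ y in unitCell n, gr (f j) (ins k t y)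
    refine integral_congr_ae (Filter.Eventually.of_forall fun y => ?_)
    show gr (f j) (ins k (t + 1) y) = gr (f j) (ins k t y)
    rw [ins_add_one, gr_periodic (f j) (hf.per j) _ hv]
  have h1 := hper.intervalIntegral_add_eq t0 0
  rw [h1, zero_add]
  have hc : Continuous (gr (f j)) := gr_continuous (f j) ((hf.smooth j).of_le (by norm_num))
  rw [← integral_cell_succ _ (cont_integrableOn_cell _ hc) k]
  exact hf.le j

end Crest.Agent.T3
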