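import Crest.Agent.T3.SliceUnf

/-! Row 214, chunk T3-INEQ: the slicing inequality with an existential slice perimeter (for helper5). -/

set_option autoImplicit false
open MeasureTheory Set Filter Topology
open Crest.GeometryTopology.PeriodicPerimeter

namespace Crest.Agent.T3

private theorem ineq_mem {G : Set ℝ} (hG : ∀ᵐ u, u ∈ G) {x y : ℝ} (h : x < y) :
    ∃ u ∈ G, x < u ∧ u < y := by
  by_contra hcon
  push Not at hcon
  have h1 : Ioo x y ⊆ {u | ¬ u ∈ G} := fun u hu hG' => absurd hu.2 (not_lt.2 (hcon u hG' hu.1))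
  have h2 : volume (Ioo x y) = 0 := measure_mono_null h1 hG
  rw [Real.volume_Ioo, ENNReal.ofReal_eq_zero] at h2
  linarith

private theorem ineq_send {n : ℕ} (D : Set (Fin (n + 1) → ℝ)) (hD : IsLowerSet D)
    (k : Fin (n + 1)) : Tendsto (sv D k) (𝓝[<] 1) (𝓝 (sEnd D k)) := by
  have hA := sv_anti D hD k
  have hb : ∀ T : Set ℝ, BddBelow (sv D k '' T) := by
    intro T
    refine ⟨0, ?_⟩
    rintro _ ⟨u, _, rfl⟩
    exact (sv_mem D k u).1
  have h := hA.tendsto_nhdsLT 1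
  have he : sInf (sv D k '' Iio 1) = sEnd D k := by
    unfold sEnd
    refine le_antisymm ?_ ?_
    · exact csInf_le_csInf (hb _) ⟨_, 0, ⟨le_rfl, one_pos⟩, rfl⟩
        (image_mono fun u hu => hu.2)
    · refine le_csInf ⟨_, 0, mem_Iio.2 one_pos, rfl⟩ ?_
      rintro _ ⟨u, hu, rfl⟩
      have hu' : u < 1 := hu
      have h1 : sInf (sv D k '' Ico 0 1) ≤ sv D k (max u 0) :=
        csInf_le (hb _) (mem_image_of_mem _ ⟨le_max_right _ _, max_lt hu' one_pos⟩)
      exact h1.trans (hA (le_max_left _ _))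
  rwa [he] at h

/-- From `slice_two_ex` with `B(u,σ) = ∫_0^σ b`, one piece (second calibration zero), `u0 ↓ 0`, `u1 ↑ 1`
in `G` (dense): `S(u0) → S(0)` (`sv_right`), `S(u1) → sEnd` (monotone), dominated convergence
(`a ≤ 1`, `g` integrable). -/
theorem slice_ineq {n : ℕ} (D : Set (Fin (n + 1) → ℝ)) (hD : IsLowerSet D) (hO : IsOpen D)
    (k : Fin (n + 1)) (Q : ℝ) (hQ0 : 0 ≤ Q)
    (hQ : periodicPerimeter (unf D) ≤ ENNReal.ofReal (2 * Q)) :
    ∃ g : ℝ → ℝ, Measurable g ∧ (∀ u, 0 ≤ g u) ∧ IntegrableOn g (Ioo 0 1) ∧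
      (∀ᵐ u, u ∈ Ioo (0 : ℝ) 1 → ∀ c, QL (sl k u D) c → c ≤ g u) ∧
      ∀ a b : ℝ → ℝ, Continuous a → Continuous b → (∀ x, 0 ≤ a x) → (∀ x, 0 ≤ b x) →
        (∀ x, a x ^ 2 + b x ^ 2 ≤ 1) →
        (∫ u in Ioo (0 : ℝ) 1, a (sv D k u) * g u) + (∫ x in (sEnd D k)..(sv D k 0), b x) ≤ Q := by
  obtain ⟨g, ⟨hgm, hg0, hgi, hgl⟩, G, hG, hmain⟩ := slice_two_ex D hD hO k Q hQ0 hQ
  refine ⟨g, hgm, hg0, hgi, hgl, ?_⟩
  intro a b ha hb ha0 hb0 hab
  have hS := sv_anti D hD k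
  -- the primitive of `b`
  have hBd : ∀ σ, HasDerivAt (fun τ => ∫ x in (0 : ℝ)..τ, b x) (b σ) σ := fun σ =>
    hb.integral_hasStrictDerivAt 0 σ |>.hasDerivAt
  have hBc : ContDiff ℝ 1 (fun τ => ∫ x in (0 : ℝ)..τ, b x) := by
    rw [contDiff_one_iff_deriv]
    refine ⟨fun σ => (hBd σ).differentiableAt, ?_⟩
    have : deriv (fun τ => ∫ x in (0 : ℝ)..τ, b x) = b := funext fun σ => (hBd σ).deriv
    rw [this]
    exact hb
  have hcal1 : ∀ u0 u1 : ℝ, CalOn (fun _ σ => a σ) (fun _ σ => ∫ x in (0 : ℝ)..σ, b x) u0 u1 := by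
    intro u0 u1
    refine ⟨ha.comp continuous_snd, hBc.comp contDiff_snd, fun u _ σ _ => ⟨ha0 σ, ?_⟩⟩
    rw [(hBd σ).deriv]
    exact hab σ
  have hcal2 : ∀ u0 u1 : ℝ, CalOn (fun _ _ => 0) (fun _ _ => 0) u0 u1 := by
    intro u0 u1
    refine ⟨continuous_const, contDiff_const, fun u _ σ _ => ⟨le_rfl, ?_⟩⟩
    simp
  set F : ℝ → ℝ := fun u => a (sv D k u) * g u with hF
  set P : ℝ → ℝ := fun x => ∫ t in (0 : ℝ)..x, F t with hP
  -- integrability
  have hFi : IntegrableOn F (Ioo 0 1) := by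
    refine Integrable.bdd_mul (c := 1) hgi ?_ ?_
    · exact (ha.measurable.comp hS.measurable).aestronglyMeasurable
    · refine Filter.Eventually.of_forall fun u => ?_
      rw [Real.norm_eq_abs, abs_of_nonneg (ha0 _)]
      have h1 := hab (sv D k u)
      have h2 := ha0 (sv D k u)
      nlinarith [sq_nonneg (b (sv D k u))]
  have hFi' : IntegrableOn F (uIcc 0 1) := by
    rw [uIcc_of_le zero_le_one]
    exact (integrableOn_Icc_iff_integrableOn_Ioo).2 hFi
  have hPc : ContinuousOn P (uIcc 0 1) := intervalIntegral.continuousOn_primitive_interval hFi'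
  have hFii : ∀ x ∈ Icc (0 : ℝ) 1, IntervalIntegrable F volume 0 x := by
    intro x hx
    refine (hFi'.mono_set ?_).intervalIntegrable
    rw [uIcc_of_le hx.1, uIcc_of_le zero_le_one]
    exact Icc_subset_Icc le_rfl hx.2
  -- the inequality on `(u0, u1)`
  have hkey : ∀ u0 ∈ G, ∀ u1 ∈ G, 0 < u0 → u0 < u1 → u1 < 1 →
      P u1 - P u0 + ((∫ x in (0 : ℝ)..sv D k u0, b x) - ∫ x in (0 : ℝ)..sv D k u1, b x) ≤ Q := by
    intro u0 h0 u1 h1 h0' h01 h1'
    obtain ⟨u2, h2, h12, h2'⟩ := ineq_mem hG h1'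
    have h := hmain u0 h0 u1 h1 u2 h2 h0' h01 h12 h2' _ _ _ _ (hcal1 u0 u1) (hcal2 u1 u2)
    have e2 : calVal (sv D k) g (fun _ _ => 0) (fun _ _ => 0) u1 u2 = 0 := by
      unfold calVal
      simp
    have e1 : calVal (sv D k) g (fun _ σ => a σ) (fun _ σ => ∫ x in (0 : ℝ)..σ, b x) u0 u1 =
        P u1 - P u0 + ((∫ x in (0 : ℝ)..sv D k u0, b x) - ∫ x in (0 : ℝ)..sv D k u1, b x) := by
      unfold calVal
      have : (∫ u in u0..u1, (a (sv D k u) * g u +
          deriv (fun _ : ℝ => ∫ x in (0 : ℝ)..sv D k u, b x) u)) = P u1 - P u0 := by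
        rw [hP]
        simp only
        rw [intervalIntegral.integral_interval_sub_left
          (hFii u1 ⟨(h0'.trans h01).le, h1'.le⟩) (hFii u0 ⟨h0'.le, (h01.trans h1').le⟩)]
        refine intervalIntegral.integral_congr fun u _ => ?_
        simp only [deriv_const, add_zero]
        rfl
      rw [this]
      ring
    rw [e1, e2, add_zero] at h
    exact h
  -- sequences
  have hseq0 : ∀ m : ℕ, ∃ u ∈ G, 0 < u ∧ u < 1 / ((m : ℝ) + 2) := fun m =>
    ineq_mem hG (by positivity)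
  have hseq1 : ∀ m : ℕ, ∃ u ∈ G, 1 - 1 / ((m : ℝ) + 2) < u ∧ u < 1 := fun m =>
    ineq_mem hG (by
      have : (0 : ℝ) < 1 / ((m : ℝ) + 2) := by positivity
      linarith)
  choose x hxG hx0 hx1 using hseq0
  choose y hyG hy0 hy1 using hseq1
  have hlim : Tendsto (fun m : ℕ => 1 / ((m : ℝ) + 2)) atTop (𝓝 0) := by
    have h1 : Tendsto (fun m : ℕ => ((m : ℝ) + 2)) atTop atTop :=
      tendsto_atTop_add_const_right _ _ tendsto_natCast_atTop_atTop
    have h2 : (fun m : ℕ => 1 / ((m : ℝ) + 2)) = (fun m : ℕ => ((m : ℝ) + 2))⁻¹ := by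
      funext m
      rw [Pi.inv_apply, one_div]
    rw [h2]
    exact h1.inv_tendsto_atTop
  have hhalf : ∀ m : ℕ, 1 / ((m : ℝ) + 2) ≤ 1 / 2 := by
    intro m
    apply one_div_le_one_div_of_le (by norm_num)
    have : (0 : ℝ) ≤ m := m.cast_nonneg
    linarith
  have hxl : Tendsto x atTop (𝓝 0) :=
    tendsto_of_tendsto_of_tendsto_of_le_of_le tendsto_const_nhds hlim (fun m => (hx0 m).le)
      (fun m => (hx1 m).le)
  have hyl : Tendsto y atTop (𝓝 1) := by
    have h1 : Tendsto (fun m : ℕ => 1 - 1 / ((m : ℝ) + 2)) atTop (𝓝 (1 - 0)) :=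
      tendsto_const_nhds.sub hlim
    rw [sub_zero] at h1
    exact tendsto_of_tendsto_of_tendsto_of_le_of_le h1 tendsto_const_nhds (fun m => (hy0 m).le)
      (fun m => (hy1 m).le)
  have hxS : Tendsto (fun m => sv D k (x m)) atTop (𝓝 (sv D k 0)) := by
    refine (sv_right D hD hO k 0).comp ?_
    exact tendsto_nhdsWithin_iff.2 ⟨hxl, Filter.Eventually.of_forall fun m => hx0 m⟩
  have hyS : Tendsto (fun m => sv D k (y m)) atTop (𝓝 (sEnd D k)) := by
    refine (ineq_send D hD k).comp ?_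
    exact tendsto_nhdsWithin_iff.2 ⟨hyl, Filter.Eventually.of_forall fun m => hy1 m⟩
  have hBcont : Continuous (fun τ => ∫ x in (0 : ℝ)..τ, b x) := hBc.continuous
  have hP0 : P 0 = 0 := by
    rw [hP]
    simp
  have hxP : Tendsto (fun m => P (x m)) atTop (𝓝 (P 0)) := by
    have h1 : ContinuousWithinAt P (uIcc 0 1) 0 := hPc 0 left_mem_uIcc
    refine h1.tendsto.comp (tendsto_nhdsWithin_iff.2 ⟨hxl, Filter.Eventually.of_forall fun m => ?_⟩)
    rw [uIcc_of_le zero_le_one]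
    have := hhalf m
    have := hx1 m
    exact ⟨(hx0 m).le, by linarith⟩
  have hyP : Tendsto (fun m => P (y m)) atTop (𝓝 (P 1)) := by
    have h1 : ContinuousWithinAt P (uIcc 0 1) 1 := hPc 1 right_mem_uIcc
    refine h1.tendsto.comp (tendsto_nhdsWithin_iff.2 ⟨hyl, Filter.Eventually.of_forall fun m => ?_⟩)
    rw [uIcc_of_le zero_le_one]
    have := hhalf m
    have := hy0 m
    exact ⟨by linarith, (hy1 m).le⟩
  have hfin : Tendsto (fun m => P (y m) - P (x m) +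
      ((∫ z in (0 : ℝ)..sv D k (x m), b z) - ∫ z in (0 : ℝ)..sv D k (y m), b z)) atTop
      (𝓝 (P 1 - P 0 + ((∫ z in (0 : ℝ)..sv D k 0, b z) - ∫ z in (0 : ℝ)..sEnd D k, b z))) :=
    (hyP.sub hxP).add (((hBcont.tendsto _).comp hxS).sub ((hBcont.tendsto _).comp hyS))
  have hle := le_of_tendsto' hfin fun m => hkey (x m) (hxG m) (y m) (hyG m) (hx0 m)
    (by
      have h1 := hhalf m
      have h2 := hx1 m
      have h3 := hy0 m
      linarith) (hy1 m)
  rw [hP0, sub_zero, intervalIntegral.integral_interval_sub_left (hb.intervalIntegrable _ _)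
    (hb.intervalIntegrable _ _)] at hle
  have hP1 : P 1 = ∫ u in Ioo (0 : ℝ) 1, a (sv D k u) * g u := by
    rw [hP]
    simp only
    rw [intervalIntegral.integral_of_le zero_le_one, integral_Ioc_eq_integral_Ioo]
  rw [← hP1]
  exact hle

end Crest.Agent.T3
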