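import Crest.Agent.T3.Moll
import Crest.Agent.T3.Unf

/-! Row 214, chunk T3-ONED: perimeter in dimension one. -/

set_option autoImplicit false
open MeasureTheory Set Filter Topology
open Crest.GeometryTopology.PeriodicPerimeter

namespace Crest.Agent.T3

/-- the point of the line with coordinate `t` -/
noncomputable def oneDpt (t : ℝ) : EuclideanSpace ℝ (Fin 1) := EuclideanSpace.single 0 t

theorem oneD_pt_eq (x : EuclideanSpace ℝ (Fin 1)) : oneDpt (x 0) = x := by
  ext i
  fin_cases i
  simp [oneDpt]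

theorem oneD_pt_smul (t : ℝ) : oneDpt t = t • (EuclideanSpace.single 0 1 : EuclideanSpace ℝ (Fin 1)) := by
  ext i
  fin_cases i
  simp [oneDpt]

theorem oneD_ins (t : ℝ) (y : EuclideanSpace ℝ (Fin 0)) : ins 0 t y = oneDpt t := by
  ext i
  fin_cases i
  simp [oneDpt, ins]

theorem oneD_hasDeriv (f : EuclideanSpace ℝ (Fin 1) → ℝ) (hf : ContDiff ℝ 2 f) (t : ℝ) :
    HasDerivAt (fun s => f (oneDpt s)) (fderiv ℝ f (oneDpt t) (EuclideanSpace.single 0 1)) t := by
  have h1 : HasDerivAt oneDpt (EuclideanSpace.single 0 1 : EuclideanSpace ℝ (Fin 1)) t := by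
    have : HasDerivAt (fun s : ℝ => s • (EuclideanSpace.single 0 1 : EuclideanSpace ℝ (Fin 1)))
        ((1 : ℝ) • (EuclideanSpace.single 0 1 : EuclideanSpace ℝ (Fin 1))) t :=
      (hasDerivAt_id t).smul_const _
    rw [one_smul] at this
    refine this.congr_of_eventuallyEq ?_
    exact Filter.Eventually.of_forall fun s => oneD_pt_smul s
  have h2 : HasFDerivAt f (fderiv ℝ f (oneDpt t)) (oneDpt t) :=
    (hf.differentiable (by norm_num) _).hasFDerivAt
  exact h2.comp_hasDerivAt t h1

theorem oneD_gr (f : EuclideanSpace ℝ (Fin 1) → ℝ) (x : EuclideanSpace ℝ (Fin 1)) :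
    gr f x = |fderiv ℝ f x (EuclideanSpace.single 0 1)| := by
  unfold gr
  rw [Fin.sum_univ_one, Real.sqrt_sq_eq_abs]

theorem oneD_cell (f : EuclideanSpace ℝ (Fin 1) → ℝ) (hf : ContDiff ℝ 2 f) :
    ∫ x in unitCell 1, gr f x = ∫ t in (0:ℝ)..1, |fderiv ℝ f (oneDpt t) (EuclideanSpace.single 0 1)| := by
  have hc : Continuous (fun x : EuclideanSpace ℝ (Fin 1) => gr f x) := by
    have h1 : Continuous (fun x => fderiv ℝ f x (EuclideanSpace.single 0 1)) :=
      (hf.continuous_fderiv (by norm_num)).clm_apply continuous_const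
    simp only [oneD_gr]
    exact h1.abs
  have hi : IntegrableOn (fun x : EuclideanSpace ℝ (Fin 1) => gr f x) (unitCell 1) := by
    have hK : IsCompact ((fun x : Fin 1 → ℝ => (WithLp.toLp 2 x : EuclideanSpace ℝ (Fin 1))) ''
        (Set.pi univ (fun _ => Icc (0:ℝ) 1))) := by
      refine IsCompact.image (isCompact_univ_pi fun _ => isCompact_Icc) ?_
      exact PiLp.continuous_toLp 2 _
    refine (hc.continuousOn.integrableOn_compact hK).mono_set ?_
    intro x hx
    refine ⟨fun i => x i, ?_, ?_⟩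
    · intro i _
      exact ⟨(hx i).1, (hx i).2.le⟩
    · rfl
  rw [integral_cell_succ _ hi 0]
  refine intervalIntegral.integral_congr fun t _ => ?_
  have h0 : ∀ y : EuclideanSpace ℝ (Fin 0), gr f (ins 0 t y) =
      |fderiv ℝ f (oneDpt t) (EuclideanSpace.single 0 1)| := by
    intro y
    rw [oneD_ins, oneD_gr]
  simp only [h0]
  rw [setIntegral_const, smul_eq_mul]
  have : (volume : Measure (EuclideanSpace ℝ (Fin 0))).real (unitCell 0) = 1 := by
    rw [Measure.real, volume_unitCell]; rfl
  rw [this, one_mul]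

/-- total variation of a periodic function is at least twice its oscillation -/
theorem oneD_osc (g g' : ℝ → ℝ) (hg : ∀ t, HasDerivAt g (g' t) t) (hc : Continuous g')
    (hp : ∀ t, g (t + 1) = g t) (hp' : ∀ t, g' (t + 1) = g' t) (s t : ℝ) (h1 : s ≤ t) (h2 : t ≤ s + 1) :
    2 * |g s - g t| ≤ ∫ u in (0:ℝ)..1, |g' u| := by
  have hper : Function.Periodic (fun u => |g' u|) 1 := fun u => by simp only [hp']
  have e1 : ∫ u in (0:ℝ)..1, |g' u| = ∫ u in s..(s+1), |g' u| := by
    have := hper.intervalIntegral_add_eq 0 s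
    rwa [zero_add] at this
  have hii : ∀ a b : ℝ, IntervalIntegrable (fun u => |g' u|) volume a b :=
    fun a b => hc.abs.intervalIntegrable a b
  have hii' : ∀ a b : ℝ, IntervalIntegrable g' volume a b := fun a b => hc.intervalIntegrable a b
  rw [e1, ← intervalIntegral.integral_add_adjacent_intervals (hii s t) (hii t (s+1))]
  have k1 : ∀ a b : ℝ, a ≤ b → |g b - g a| ≤ ∫ u in a..b, |g' u| := by
    intro a b hab
    rw [← intervalIntegral.integral_eq_sub_of_hasDerivAt (fun x _ => hg x) (hii' a b)]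
    exact intervalIntegral.abs_integral_le_integral_abs hab
  have a1 := k1 s t h1
  have a2 := k1 t (s+1) h2
  rw [hp s] at a2
  have e3 : |g s - g t| = |g t - g s| := abs_sub_comm _ _
  linarith

theorem oneD_osc' (f : EuclideanSpace ℝ (Fin 1) → ℝ) (hf : ContDiff ℝ 2 f)
    (hper : ∀ v, HasIntegerCoords v → ∀ x, f (x + v) = f x) (x y : EuclideanSpace ℝ (Fin 1))
    (hx : x ∈ unitCell 1) (hy : y ∈ unitCell 1) :
    2 * |f x - f y| ≤ ∫ z in unitCell 1, gr f z := by
  rw [oneD_cell f hf]
  have hone : HasIntegerCoords (oneDpt 1) := by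
    intro i
    fin_cases i
    exact ⟨1, by simp [oneDpt]⟩
  have hadd : ∀ t : ℝ, oneDpt (t + 1) = oneDpt t + oneDpt 1 := by
    intro t
    ext i
    fin_cases i
    simp [oneDpt]
  have hp : ∀ t, f (oneDpt (t + 1)) = f (oneDpt t) := fun t => by
    rw [hadd]; exact hper _ hone _
  have hp' : ∀ t, fderiv ℝ f (oneDpt (t + 1)) (EuclideanSpace.single 0 1) =
      fderiv ℝ f (oneDpt t) (EuclideanSpace.single 0 1) := by
    intro t
    rw [hadd]
    have : (fun x => f (x + oneDpt 1)) = f := by
      funext x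
      exact hper _ hone _
    have h3 := fderiv_comp_add_right (𝕜 := ℝ) (f := f) (x := oneDpt t) (oneDpt 1)
    rw [this] at h3
    rw [← h3]
  have hc : Continuous (fun t => fderiv ℝ f (oneDpt t) (EuclideanSpace.single 0 1)) := by
    have h1 : Continuous (fun x => fderiv ℝ f x (EuclideanSpace.single 0 1)) :=
      (hf.continuous_fderiv (by norm_num)).clm_apply continuous_const
    refine h1.comp ?_
    have : oneDpt = fun t : ℝ => t • (EuclideanSpace.single 0 1 : EuclideanSpace ℝ (Fin 1)) := by
      funext t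
      exact oneD_pt_smul t
    rw [this]
    fun_prop
  have key := oneD_osc (fun s => f (oneDpt s)) _ (oneD_hasDeriv f hf) hc hp hp'
  have hx0 := hx 0
  have hy0 := hy 0
  have ex : f x = f (oneDpt (x 0)) := by rw [oneD_pt_eq]
  have ey : f y = f (oneDpt (y 0)) := by rw [oneD_pt_eq]
  rcases le_total (x 0) (y 0) with h | h
  · rw [ex, ey]
    exact key (x 0) (y 0) h (by linarith [hx0.1, hy0.2])
  · rw [ex, ey, abs_sub_comm]
    exact key (y 0) (x 0) h (by linarith [hy0.1, hx0.2])

/-- A periodic subset of the line with measure strictly between `0` and `1` has perimeter at least `2`.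
Proof: if finite, take `f` from `exists_approx`; there are `x ∈ A`, `y ∉ A` with `f_j x → 1`, `f_j y → 0`
(both sets have positive measure in the cell), w.l.o.g. `x < y < x + 1` as real numbers (periodicity);
`∫_{cell} |f_j'| = ∫_x^{x+1} |f_j'| ≥ |f_j(y) - f_j(x)| + |f_j(x+1) - f_j(y)| → 2`. -/
theorem one_d_general (A : Set (EuclideanSpace ℝ (Fin 1))) (hA : MeasurableSet A)
    (hper : IsLatticePeriodic A) (h0 : 0 < periodicVolume A) (h1 : periodicVolume A < 1) :
    2 ≤ periodicPerimeter A := by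
  by_cases hfin : periodicPerimeter A = ⊤
  · rw [hfin]; exact le_top
  obtain ⟨f, hf⟩ := exists_approx A hA hper hfin
  have hex : ∀ B : Set (EuclideanSpace ℝ (Fin 1)), volume B ≠ 0 →
      ∃ x ∈ B, Tendsto (fun j => f j x) atTop (𝓝 (A.indicator (fun _ => (1 : ℝ)) x)) := by
    intro B hB
    by_contra hcon
    push Not at hcon
    apply hB
    refine measure_mono_null (fun x hx => ?_) hf.ae
    exact hcon x hx
  have hv0 : volume (A ∩ unitCell 1) ≠ 0 := by
    intro h
    unfold periodicVolume at h0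
    rw [h] at h0
    simp at h0
  have hv1 : volume (unitCell 1 \ A) ≠ 0 := by
    intro h
    have h2 : volume (unitCell 1) ≤ volume (A ∩ unitCell 1) + volume (unitCell 1 \ A) := by
      refine (measure_mono ?_).trans (measure_union_le _ _)
      intro x hx
      by_cases hxA : x ∈ A
      · exact Or.inl ⟨hxA, hx⟩
      · exact Or.inr ⟨hx, hxA⟩
    rw [volume_unitCell, h, add_zero] at h2
    unfold periodicVolume at h1
    have h3 : volume (A ∩ unitCell 1) ≤ 1 := by
      rw [← volume_unitCell 1]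
      exact measure_mono inter_subset_right
    have h4 : volume (A ∩ unitCell 1) = 1 := le_antisymm h3 h2
    rw [h4] at h1
    simp at h1
  obtain ⟨x, hx, hxl⟩ := hex _ hv0
  obtain ⟨y, hy, hyl⟩ := hex _ hv1
  rw [indicator_of_mem hx.1] at hxl
  rw [indicator_of_notMem hy.2] at hyl
  have hlim : Tendsto (fun j => 2 * |f j x - f j y|) atTop (𝓝 (2 * |(1:ℝ) - 0|)) :=
    ((hxl.sub hyl).abs).const_mul 2
  have hle : 2 * |(1:ℝ) - 0| ≤ (periodicPerimeter A).toReal := by
    refine le_of_tendsto' hlim fun j => ?_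
    exact (oneD_osc' (f j) (hf.smooth j) (hf.per j) x y hx.2 hy.1).trans (hf.le j)
  have h2 : (2:ℝ) ≤ (periodicPerimeter A).toReal := by
    simpa using hle
  have h3 : ENNReal.ofReal 2 ≤ periodicPerimeter A := ENNReal.ofReal_le_of_le_toReal h2
  simpa using h3

theorem one_d (D : Set (Fin 1 → ℝ)) (hO : IsOpen D) (h0 : 0 < vol01 D) (h1 : vol01 D < 1) :
    QL D 1 := by
  have h := one_d_general (unf D) (unf_open D hO).measurableSet (unf_periodic D)
    (by rw [periodicVolume_unf D hO]; exact h0) (by rw [periodicVolume_unf D hO]; exact h1)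
  unfold QL
  simpa using h

end Crest.Agent.T3
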