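import Crest.Agent.T3.SliceC3
import Crest.Agent.T3.OneD

/-! Row 214, chunk T3-TWOBASE: slicing a plane down-set. -/

set_option autoImplicit false
open MeasureTheory Set Filter Topology
open Crest.GeometryTopology.PeriodicPerimeter

namespace Crest.Agent.T3

/-- the trace of a one-dimensional set on the line -/
private theorem vol01_one (A : Set (Fin 1 → ℝ)) (hA : MeasurableSet A) :
    vol01 A = (volume ({t : ℝ | (fun _ => t) ∈ A} ∩ Ico 0 1)).toReal := by
  unfold vol01
  have hmp := MeasureTheory.volume_preserving_funUnique (Fin 1) ℝ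
  have hset : A ∩ Set.pi univ (fun _ => Ico (0 : ℝ) 1) =
      (MeasurableEquiv.funUnique (Fin 1) ℝ) ⁻¹' ({t : ℝ | (fun _ => t) ∈ A} ∩ Ico 0 1) := by
    ext y
    have hy : (fun _ => y 0 : Fin 1 → ℝ) = y := by
      funext i
      rw [Subsingleton.elim i 0]
    constructor
    · rintro ⟨h1, h2⟩
      refine ⟨?_, ?_⟩
      · show (fun _ => y 0 : Fin 1 → ℝ) ∈ A
        rw [hy]; exact h1
      · exact h2 0 (mem_univ _)
    · rintro ⟨h1, h2⟩
      refine ⟨?_, ?_⟩
      · have h1' : (fun _ => y 0 : Fin 1 → ℝ) ∈ A := h1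
        rwa [hy] at h1'
      · intro i _
        rw [Subsingleton.elim i 0]
        exact h2
  rw [hset]
  exact congrArg ENNReal.toReal (hmp.measure_preimage_equiv ({t : ℝ | (fun _ => t) ∈ A} ∩ Ico 0 1))

private theorem pt_mem_iff_aux (A : Set (Fin 1 → ℝ)) (hA : IsLowerSet A) (hO : IsOpen A) (v : ℝ)
    (h0 : 0 ≤ v) (h1 : v < 1) : (fun _ => v : Fin 1 → ℝ) ∈ A ↔ v < vol01 A := by
  rw [vol01_one A hO.measurableSet]
  set T : Set ℝ := {t : ℝ | (fun _ => t : Fin 1 → ℝ) ∈ A} with hT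
  have hTo : IsOpen T := hO.preimage (continuous_pi fun _ => continuous_id)
  have hTl : ∀ s t, s ≤ t → t ∈ T → s ∈ T := fun s t hst ht => hA (fun _ => hst) ht
  have hfin : volume (T ∩ Ico 0 1) ≠ ⊤ := by
    have : volume (T ∩ Ico 0 1) ≤ volume (Ico (0 : ℝ) 1) := measure_mono inter_subset_right
    rw [Real.volume_Ico] at this
    exact ne_top_of_le_ne_top ENNReal.ofReal_ne_top this
  constructor
  · intro hv
    have hvT : v ∈ T := hv
    obtain ⟨ε, hε, hball⟩ := Metric.isOpen_iff.mp hTo v hvT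
    set v' : ℝ := v + min (ε / 2) ((1 - v) / 2) with hv'
    have hmin : 0 < min (ε / 2) ((1 - v) / 2) := lt_min (by linarith) (by linarith)
    have hmin1 : min (ε / 2) ((1 - v) / 2) ≤ ε / 2 := min_le_left _ _
    have hmin2 : min (ε / 2) ((1 - v) / 2) ≤ (1 - v) / 2 := min_le_right _ _
    have hv'T : v' ∈ T := by
      apply hball
      rw [Metric.mem_ball, Real.dist_eq, hv', add_sub_cancel_left, abs_of_pos hmin]
      linarith
    have hsub : Ico 0 v' ⊆ T ∩ Ico 0 1 := by
      intro t ht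
      refine ⟨hTl t v' ht.2.le hv'T, ht.1, ?_⟩
      have := ht.2
      linarith
    have hle : ENNReal.ofReal v' ≤ volume (T ∩ Ico 0 1) := by
      have := measure_mono (μ := volume) hsub
      rwa [Real.volume_Ico, sub_zero] at this
    have := (ENNReal.ofReal_le_iff_le_toReal hfin).mp hle
    linarith
  · intro hv
    by_contra hnot
    have hvT : v ∉ T := hnot
    have hsub : T ∩ Ico 0 1 ⊆ Ico 0 v := by
      rintro t ⟨ht, ht0, ht1⟩
      refine ⟨ht0, ?_⟩
      by_contra hc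
      push Not at hc
      exact hvT (hTl v t hc ht)
    have hle : volume (T ∩ Ico 0 1) ≤ ENNReal.ofReal v := by
      have := measure_mono (μ := volume) hsub
      rwa [Real.volume_Ico, sub_zero] at this
    have := ENNReal.toReal_le_of_le_ofReal h0 hle
    linarith

/-- The one-dimensional slices of a plane down-set are `[0, S(u))`:
`pt i u v ∈ D ↔ v < S(u)` for `0 ≤ v < 1`, `S = sv D i`.
(`sl i u D` is an open lower subset of `Fin 1 → ℝ`; its part in `[0,1)` is an interval `[0,c)`.) -/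
theorem pt_mem_iff (D : Set (Fin 2 → ℝ)) (hD : IsLowerSet D) (hO : IsOpen D) (i : Fin 2) (u v : ℝ)
    (h0 : 0 ≤ v) (h1 : v < 1) : pt i u v ∈ D ↔ v < sv D i u :=
  pt_mem_iff_aux (sl i u D) (sl_lower D hD i u) (sl_open D hO i u) v h0 h1

/-- **Master inequality in the plane** (C3 with `g(u) = 1` if `0 < S(u) < 1`, else `0`; the slices are
one-dimensional, `one_d`; `q ≥ 0` trivially). -/
theorem two_master (D : Set (Fin 2 → ℝ)) (hD : IsLowerSet D) (hO : IsOpen D) (i : Fin 2)
    (u0 u1 δ : ℝ) (h0 : 0 ≤ u0) (h01 : u0 < u1) (h1 : u1 < 1) (hδ : 0 < δ) (a b : ℝ → ℝ)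
    (ha : Continuous a) (hb : ContDiff ℝ 1 b)
    (hab : ∀ u ∈ Icc u0 (u1 + δ), 0 ≤ a u ∧ (a u) ^ 2 + (b u) ^ 2 ≤ 1) :
    QL D ((∫ u in u0..u1, (a u * (Ioo (0 : ℝ) 1).indicator (fun _ => (1 : ℝ)) (sv D i u) +
        deriv b u * sv D i u)) + b u0 * sv D i u0 - b u1 * sv D i u1) := by
  refine slice_C3 D hD hO i (fun u => (Ioo (0 : ℝ) 1).indicator (fun _ => (1 : ℝ)) (sv D i u)) 1
    ?_ ?_ ?_ u0 u1 δ h0 h01 h1 hδ a b ha hb hab
  · have hm : Measurable (sv D i) := (sv_anti D hD i).measurable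
    exact (measurable_const.indicator measurableSet_Ioo).comp hm
  · intro u
    show (Ioo (0 : ℝ) 1).indicator (fun _ => (1 : ℝ)) (sv D i u) ∈ Icc (0 : ℝ) 1
    by_cases h : sv D i u ∈ Ioo (0 : ℝ) 1
    · rw [indicator_of_mem h]; exact ⟨zero_le_one, le_refl _⟩
    · rw [indicator_of_notMem h]; exact ⟨le_refl _, zero_le_one⟩
  · intro u _
    show QL (sl i u D) ((Ioo (0 : ℝ) 1).indicator (fun _ => (1 : ℝ)) (sv D i u))
    by_cases h : sv D i u ∈ Ioo (0 : ℝ) 1
    · rw [indicator_of_mem h]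
      exact one_d (sl i u D) (sl_open D hO i u) h.1 h.2
    · rw [indicator_of_notMem h]
      unfold QL
      simp

end Crest.Agent.T3
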