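import Crest.Agent.T3.EqInt
import Crest.Agent.T3.SliceIneq
import Crest.Agent.T3.TwoBase
import Crest.Agent.T3.Sv

/-! Row 214, (7b): rigidity in the plane: equality in F1 forces a quarter disc. -/

set_option autoImplicit false
open MeasureTheory Set Filter Topology
open Crest.GeometryTopology.PeriodicPerimeter

namespace Crest.Agent.T3

/-- The clamp of `x / r`. -/
noncomputable def clampd (r x : ℝ) : ℝ := max 0 (min 1 (x / r))

theorem clampd_cont (r : ℝ) : Continuous (clampd r) := by unfold clampd; fun_prop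

theorem clampd_mem (r x : ℝ) : 0 ≤ clampd r x ∧ clampd r x ≤ 1 :=
  ⟨le_max_left _ _, max_le zero_le_one (min_le_left _ _)⟩

theorem clampd_eq {r x : ℝ} (hr : 0 < r) (hx : x ∈ Icc 0 r) : clampd r x = x / r := by
  unfold clampd
  have h1 : x / r ≤ 1 := (div_le_one hr).2 hx.2
  have h2 : 0 ≤ x / r := div_nonneg hx.1 hr.le
  rw [min_eq_right h1, max_eq_right h2]

theorem sEnd_eq_zero {n : ℕ} (D : Set (Fin (n + 1) → ℝ)) (k : Fin (n + 1)) (u : ℝ)
    (hu : u ∈ Ico (0 : ℝ) 1) (h : sv D k u = 0) : sEnd D k = 0 := by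
  unfold sEnd
  refine le_antisymm ?_ ?_
  · exact (csInf_le ⟨0, by rintro _ ⟨v, _, rfl⟩; exact (sv_mem D k v).1⟩ ⟨u, hu, h⟩)
  · exact le_csInf ⟨_, ⟨u, hu, rfl⟩⟩ (by rintro _ ⟨v, _, rfl⟩; exact (sv_mem D k v).1)

theorem two_rigid (D : Set (Fin 2 → ℝ)) (hD : IsLowerSet D) (hO : IsOpen D) (i : Fin 2)
    (h1 : ∃ u ∈ Ico (0 : ℝ) 1, pt i u 0 ∉ D) (h2 : ∃ v ∈ Ico (0 : ℝ) 1, pt i 0 v ∉ D)
    (hs : 0 < vol01 D)
    (hQ : periodicPerimeter (unf D) ≤ ENNReal.ofReal (2 * Real.sqrt (Real.pi * vol01 D))) :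
    ∀ u v : ℝ, 0 ≤ u → u < 1 → 0 ≤ v → v < 1 →
      (pt i u v ∈ D ↔ u ^ 2 + v ^ 2 < 4 * vol01 D / Real.pi) := by
  have hπ := Real.pi_pos
  obtain ⟨u1, hu1, hu1D⟩ := h1
  obtain ⟨v1, hv1, hv1D⟩ := h2
  set S := sv D i with hSdef
  set s := vol01 D with hsdef
  have hSmem : ∀ u, S u ∈ Icc (0 : ℝ) 1 := sv_mem D i
  have hSanti : Antitone S := sv_anti D hD i
  have hSmeas : Measurable S := hSanti.measurable
  have hS0lt : S 0 ≤ v1 := by
    by_contra h
    push Not at h
    exact hv1D ((pt_mem_iff D hD hO i 0 v1 hv1.1 hv1.2).2 h)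
  have hSu1 : S u1 = 0 := by
    refine le_antisymm ?_ (hSmem u1).1
    by_contra h
    push Not at h
    exact hu1D ((pt_mem_iff D hD hO i u1 0 le_rfl zero_lt_one).2 h)
  have hEnd : sEnd D i = 0 := sEnd_eq_zero D i u1 hu1 hSu1
  have hint : ∫ u in Ioo (0 : ℝ) 1, S u = s := by
    have := sv_integral D hO i
    rw [intervalIntegral.integral_of_le zero_le_one, integral_Ioc_eq_integral_Ioo] at this
    exact this
  have hSi : IntegrableOn S (Ioo 0 1) := by
    refine Integrable.mono' (g := fun _ => (1 : ℝ)) (integrableOn_const (by simp))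
      hSmeas.aestronglyMeasurable ?_
    refine Eventually.of_forall fun u => ?_
    rw [Real.norm_eq_abs, abs_of_nonneg (hSmem u).1]; exact (hSmem u).2
  set r := S 0 with hrdef
  have hSr : ∀ u, 0 ≤ u → S u ≤ r := fun u hu => hSanti hu
  have hr0 : 0 < r := by
    by_contra h
    push Not at h
    have : ∫ u in Ioo (0 : ℝ) 1, S u = 0 := by
      rw [setIntegral_congr_fun measurableSet_Ioo (g := fun _ => (0 : ℝ))
        (fun u hu => le_antisymm ((hSr u hu.1.le).trans h) (hSmem u).1)]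
      simp
    linarith
  have hr1 : r < 1 := hS0lt.trans_lt hv1.2
  set Q := Real.sqrt (Real.pi * s) with hQdef
  obtain ⟨g, hgm, hg0, hgi, hgQ, hC1⟩ := slice_ineq D hD hO i Q (Real.sqrt_nonneg _) hQ
  rw [hEnd] at hC1
  have hg1 : ∀ᵐ u ∂(volume.restrict (Ioo (0 : ℝ) 1)), 0 < S u → 1 ≤ g u := by
    rw [ae_restrict_iff' measurableSet_Ioo]
    filter_upwards [hgQ] with u hu hu01 hSu
    refine hu hu01 1 (one_d _ (sl_open D hO i u) hSu ?_)
    exact (hSr u hu01.1.le).trans_lt hr1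
  set A := clampd r with hAdef
  have hle : ∀ a : ℝ → ℝ, Continuous a → (∀ x, 0 ≤ a x ∧ a x ≤ 1) →
      (∫ t in Ioo (0 : ℝ) 1, a (S t) * g t) + ∫ x in (0 : ℝ)..r, Real.sqrt (1 - a x ^ 2) ≤ Q := by
    intro a hac ha
    refine hC1 a (fun x => Real.sqrt (1 - a x ^ 2)) hac (by fun_prop) (fun x => (ha x).1)
      (fun x => Real.sqrt_nonneg _) (fun x => ?_)
    have h3 : 0 ≤ 1 - a x ^ 2 := by nlinarith [(ha x).1, (ha x).2]
    rw [Real.sq_sqrt h3]; linarith
  have hAeq : ∀ u ∈ Ioo (0 : ℝ) 1, A (S u) = S u / r := fun u hu =>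
    clampd_eq hr0 ⟨(hSmem u).1, hSr u hu.1.le⟩
  have hAgi : IntegrableOn (fun t => A (S t) * g t) (Ioo 0 1) := by
    refine Integrable.bdd_mul (c := 1) hgi ((clampd_cont r).measurable.comp hSmeas).aestronglyMeasurable
      (Eventually.of_forall fun t => ?_)
    rw [Real.norm_eq_abs, abs_of_nonneg (clampd_mem _ _).1]; exact (clampd_mem _ _).2
  have hASi : IntegrableOn (fun t => A (S t)) (Ioo 0 1) := by
    refine Integrable.mono' (g := fun _ => (1 : ℝ)) (integrableOn_const (by simp))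
      ((clampd_cont r).measurable.comp hSmeas).aestronglyMeasurable (Eventually.of_forall fun u => ?_)
    rw [Real.norm_eq_abs, abs_of_nonneg (clampd_mem _ _).1]; exact (clampd_mem _ _).2
  have hAS : ∫ t in Ioo (0 : ℝ) 1, A (S t) = s / r := by
    rw [setIntegral_congr_fun measurableSet_Ioo hAeq, integral_div, hint]
  have hAS0 : ∀ u ∈ Ioo (0 : ℝ) 1, ¬ 0 < S u → A (S u) = 0 := by
    intro u hu h
    have : S u = 0 := le_antisymm (not_lt.1 h) (hSmem u).1
    rw [hAeq u hu, this, zero_div]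
  have hge : s / r ≤ ∫ t in Ioo (0 : ℝ) 1, A (S t) * g t := by
    rw [← hAS]
    refine integral_mono_ae hASi hAgi ?_
    filter_upwards [hg1, ae_restrict_mem measurableSet_Ioo] with u hu hu01
    by_cases h : 0 < S u
    · exact le_mul_of_one_le_right (clampd_mem _ _).1 (hu h)
    · simp only [hAS0 u hu01 h, zero_mul]; rfl
  have hAint : ∫ x in (0 : ℝ)..r, Real.sqrt (1 - A x ^ 2) = Real.pi * r / 4 := by
    rw [← int_sqrt_one r hr0]
    refine intervalIntegral.integral_congr fun x hx => ?_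
    rw [uIcc_of_le hr0.le] at hx
    simp only [hAdef]
    rw [clampd_eq hr0 hx]
  have hup := hle A (clampd_cont r) (clampd_mem r)
  rw [hAint] at hup
  -- AM-GM
  have hQ2 : Q ^ 2 = Real.pi * s := Real.sq_sqrt (by positivity)
  have hQ0 : 0 ≤ Q := Real.sqrt_nonneg _
  have hkey : s / r = Real.pi * r / 4 := by
    have hle1 : s / r + Real.pi * r / 4 ≤ Q := by linarith
    have h4 : (s / r) * (Real.pi * r / 4) * 4 = Q ^ 2 := by rw [hQ2]; field_simp
    have h5 : 0 ≤ s / r + Real.pi * r / 4 := by positivity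
    have h6 : (s / r - Real.pi * r / 4) ^ 2 ≤ 0 := by nlinarith
    have h7 : s / r - Real.pi * r / 4 = 0 := by
      have := le_antisymm h6 (sq_nonneg _)
      exact pow_eq_zero_iff (two_ne_zero) |>.1 this
    linarith
  have hsr : s = Real.pi * r ^ 2 / 4 := by
    field_simp at hkey
    linarith
  have hQr : Q = Real.pi * r / 2 := by
    have : Q ^ 2 = (Real.pi * r / 2) ^ 2 := by rw [hQ2, hsr]; ring
    exact (pow_left_inj₀ hQ0 (by positivity) two_ne_zero).1 this
  have heqA : ∫ t in Ioo (0 : ℝ) 1, A (S t) * g t = s / r := by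
    refine le_antisymm ?_ hge
    rw [hkey]; linarith
  -- g = 1 on {S > 0}
  have hg1' : ∀ᵐ u ∂(volume.restrict (Ioo (0 : ℝ) 1)), 0 < S u → g u = 1 := by
    have h0 : ∫ t in Ioo (0 : ℝ) 1, (A (S t) * g t - A (S t)) = 0 := by
      rw [integral_sub hAgi hASi, heqA, hAS, sub_self]
    rw [setIntegral_eq_zero_iff_of_nonneg_ae] at h0
    · filter_upwards [h0, ae_restrict_mem measurableSet_Ioo] with u hu hu01 hSu
      have h3 : A (S u) * g u - A (S u) = 0 := hu
      have h4 : A (S u) * (g u - 1) = 0 := by linarith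
      have h5 : A (S u) ≠ 0 := by rw [hAeq u hu01]; positivity
      have := (mul_eq_zero.1 h4).resolve_left h5
      linarith
    · filter_upwards [hg1, ae_restrict_mem measurableSet_Ioo] with u hu hu01
      by_cases h : 0 < S u
      · have := le_mul_of_one_le_right (clampd_mem r (S u)).1 (hu h)
        simp only [Pi.zero_apply]; linarith
      · simp [hAS0 u hu01 h]
    · exact hAgi.sub hASi
  have hvar := first_variation S hSmeas r g hgi A (clampd_cont r) (clampd_mem r)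
    (fun x hx => by
      rw [hAdef, clampd_eq hr0 ⟨hx.1.le, hx.2.le⟩]
      exact ⟨div_pos hx.1 hr0, (div_lt_one hr0).2 hx.2⟩) Q hle (by rw [heqA, hAint, hkey, hQr]; linarith)
  have hdist : ∀ β, TestOn r β → ∫ t in Ioo (0 : ℝ) 1, β (S t)
      = ∫ t in Ioo 0 r, β (Real.sqrt (r ^ 2 - t ^ 2)) := by
    intro β hβ
    rw [← int_arc r hr0 β hβ A (fun x hx => clampd_eq hr0 hx), ← hvar β hβ]
    refine integral_congr_ae ?_
    filter_upwards [hg1', ae_restrict_mem measurableSet_Ioo] with u hu hu01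
    by_cases h : 0 < S u
    · rw [hu h, mul_one]
    · have h3 : S u = 0 := le_antisymm (not_lt.1 h) (hSmem u).1
      obtain ⟨_, p, q, hp, _, _, hsupp⟩ := hβ
      have : β (S u) = 0 := hsupp _ (fun hh => by rw [h3] at hh; linarith [hh.1])
      rw [this, zero_mul]
  have hprof := profile_of_dist S hSmeas (hSanti.antitoneOn _) r r hr0 hr0 hr1.le
    (fun t ht => ⟨(hSmem t).1, hSr t ht.1.le⟩) (fun t => Real.sqrt (r ^ 2 - t ^ 2)) (by fun_prop)
    (by
      intro x hx y hy hxy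
      apply Real.sqrt_lt_sqrt
      · nlinarith [hy.1, hy.2]
      · nlinarith [hx.1, hy.1])
    (by simp [Real.sqrt_sq hr0.le]) (by simp) hdist
    (by
      rw [hint, hsr, ← int_sqrt_sub r hr0, intervalIntegral.integral_of_le hr0.le,
        integral_Ioc_eq_integral_Ioo])
  -- conclusion
  have h4s : 4 * s / Real.pi = r ^ 2 := by rw [hsr]; field_simp
  have hSform : ∀ u, 0 ≤ u → u < 1 → (u < r → S u = Real.sqrt (r ^ 2 - u ^ 2)) ∧ (r ≤ u → S u = 0) := by
    intro u hu0 hu1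
    rcases eq_or_lt_of_le hu0 with h | h
    · subst h
      refine ⟨fun _ => ?_, fun h => absurd h (not_le.2 hr0)⟩
      simp [Real.sqrt_sq hr0.le, ← hrdef]
    · exact hprof u ⟨h, hu1⟩
  intro u v hu0 hu1' hv0 hv1'
  rw [pt_mem_iff D hD hO i u v hv0 hv1', h4s]
  rcases lt_or_ge u r with h | h
  · rw [show sv D i u = S u from rfl, (hSform u hu0 hu1').1 h, Real.lt_sqrt hv0]
    constructor <;> intro h3 <;> linarith
  · rw [show sv D i u = S u from rfl, (hSform u hu0 hu1').2 h]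
    constructor
    · intro h3; linarith
    · intro h3; nlinarith

end Crest.Agent.T3
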