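import Crest.Agent.T3.TwoBase
import Crest.Agent.T3.KfLemmas

/-! Row 214, chunk T3-TWODOWN: F1 and F2. -/

set_option autoImplicit false
open MeasureTheory Set Filter Topology
open Crest.GeometryTopology.PeriodicPerimeter

namespace Crest.Agent.T3

namespace TwoDownAux

theorem QL_mono {n : ℕ} {D : Set (Fin n → ℝ)} {c c' : ℝ} (h : c ≤ c') (hc : QL D c') : QL D c :=
  (ENNReal.ofReal_le_ofReal (by linarith)).trans hc

theorem QL_lim {n : ℕ} {D : Set (Fin n → ℝ)} {ι : Type*} {f : Filter ι} [f.NeBot] {c : ι → ℝ} {c₀ : ℝ}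
    (h : Tendsto c f (𝓝 c₀)) (hc : ∀ᶠ x in f, QL D (c x)) : QL D c₀ := by
  have h1 : Tendsto (fun x => ENNReal.ofReal (2 * c x)) f (𝓝 (ENNReal.ofReal (2 * c₀))) :=
    (ENNReal.continuous_ofReal.tendsto _).comp (h.const_mul 2)
  exact le_of_tendsto h1 hc

theorem QL_zero {n : ℕ} {D : Set (Fin n → ℝ)} {c : ℝ} (h : c ≤ 0) : QL D c := by
  unfold QL
  rw [ENNReal.ofReal_of_nonpos (by linarith)]
  exact bot_le

theorem int_congr_Ioo {f g : ℝ → ℝ} {x y : ℝ} (hxy : x ≤ y) (h : ∀ u ∈ Ioo x y, f u = g u) :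
    ∫ u in x..y, f u = ∫ u in x..y, g u := by
  apply intervalIntegral.integral_congr_ae
  have h0 : ∀ᵐ u : ℝ, u ≠ y := by
    simp [ae_iff]
  filter_upwards [h0] with u hu hu2
  rw [uIoc_of_le hxy] at hu2
  exact h u ⟨hu2.1, lt_of_le_of_ne hu2.2 hu⟩

theorem ii_congr_Ioo {f g : ℝ → ℝ} {x y : ℝ} (hxy : x ≤ y) (h : ∀ u ∈ Ioo x y, f u = g u)
    (hg : IntervalIntegrable g volume x y) : IntervalIntegrable f volume x y := by
  have h0 : ∀ᵐ u : ℝ, u ≠ y := by
    simp [ae_iff]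
  have : g =ᵐ[volume.restrict (Set.uIoc x y)] f := by
    rw [uIoc_of_le hxy]
    filter_upwards [ae_restrict_of_ae h0, ae_restrict_mem measurableSet_Ioc] with u hu hu2
    exact (h u ⟨hu2.1, lt_of_le_of_ne hu2.2 hu⟩).symm
  exact hg.congr_ae this

theorem split_int {f g : ℝ → ℝ} {x y z : ℝ} (hxy : x ≤ y) (hyz : y ≤ z)
    (h1 : ∀ u ∈ Ioo x y, f u = g u) (hg : IntervalIntegrable g volume x y)
    (h2 : ∀ u ∈ Ioo y z, f u = 0) : ∫ u in x..z, f u = ∫ u in x..y, g u := by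
  have e1 : IntervalIntegrable f volume x y := ii_congr_Ioo hxy h1 hg
  have e2 : IntervalIntegrable f volume y z :=
    ii_congr_Ioo (g := fun _ => 0) hyz h2 intervalIntegrable_const
  rw [← intervalIntegral.integral_add_adjacent_intervals e1 e2, int_congr_Ioo hxy h1,
    int_congr_Ioo (g := fun _ => 0) hyz h2]
  simp

theorem cont_a (l : ℝ) : Continuous fun u : ℝ => Real.sqrt (1 - l ^ 2 * u ^ 2) := by
  fun_prop

end TwoDownAux

open TwoDownAux

/-- Base lemma for F1: `S = sv D i`, `S(0) < 1`, `r ∈ (0,1)`, `S > 0` on `[0,r)`, `S = 0` on `(r,1)`: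
`q(D) ≥ π r/4 + s/r`, `s = vol01 D`.
Proof: for `r < v < w < 1` use `two_master` on `[0,v]` with `b(u) = u/w`, `a(u) = sqrt(1-u²/w²)`,
`δ = w - v`: value `∫_0^v a·1_{0<S<1} + (1/w)∫_0^v S - (v/w) S(v) = ∫_0^r sqrt(1-u²/w²) + s/w`
(`S v = 0`, `∫_0^1 S = s` by `sv_integral`); let `w ↓ r`: `Kf r (1/w) → Kf r (1/r) = π r/4`. -/
theorem two_down_base (D : Set (Fin 2 → ℝ)) (hD : IsLowerSet D) (hO : IsOpen D) (i : Fin 2) (r : ℝ)
    (hr0 : 0 < r) (hr1 : r < 1) (hS : sv D i 0 < 1) (hpos : ∀ u ∈ Ico 0 r, 0 < sv D i u)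
    (hzero : ∀ u ∈ Ioo r 1, sv D i u = 0) :
    QL D (Real.pi * r / 4 + vol01 D / r) := by
  have hSi : ∀ x y, IntervalIntegrable (sv D i) volume x y := fun x y =>
    (sv_anti D hD i).intervalIntegrable
  have hint : ∫ u in (0 : ℝ)..r, sv D i u = vol01 D := by
    rw [← sv_integral D hO i]
    exact (split_int hr0.le hr1.le (fun _ _ => rfl) (hSi 0 r) hzero).symm
  have hmain : ∀ w ∈ Ioo r 1, QL D (Kf r (1 / w) + vol01 D / w) := by
    intro w hw
    have hw0 : 0 < w := hr0.trans hw.1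
    have hvr : r < (r + w) / 2 := by linarith [hw.1]
    have hvw : (r + w) / 2 < w := by linarith [hw.1]
    have h := two_master D hD hO i 0 ((r + w) / 2) (w - (r + w) / 2) le_rfl (by linarith)
      (by linarith [hw.2]) (by linarith) (fun u => Real.sqrt (1 - (1 / w) ^ 2 * u ^ 2))
      (fun u => (1 / w) * u) (cont_a _) (by fun_prop) (by
        intro u hu
        refine ⟨Real.sqrt_nonneg _, ?_⟩
        have hu1 : u ≤ w := by linarith [hu.2]
        have h3 : u / w ≤ 1 := (div_le_one hw0).2 hu1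
        have h4 : 0 ≤ u / w := div_nonneg hu.1 hw0.le
        have h2 : (1 / w) ^ 2 * u ^ 2 ≤ 1 := by
          have : (1 / w) ^ 2 * u ^ 2 = (u / w) ^ 2 := by ring
          rw [this]
          nlinarith
        rw [Real.sq_sqrt (by linarith)]
        exact le_of_eq (by ring))
    have hderiv : ∀ u, deriv (fun u : ℝ => (1 / w) * u) u = 1 / w := by
      intro u
      simp
    have hSv : sv D i ((r + w) / 2) = 0 := hzero _ ⟨hvr, by linarith [hw.2]⟩
    rw [hSv] at h
    have hI : ∫ u in (0 : ℝ)..((r + w) / 2),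
        (Real.sqrt (1 - (1 / w) ^ 2 * u ^ 2) * (Ioo (0 : ℝ) 1).indicator (fun _ => (1 : ℝ)) (sv D i u) +
        deriv (fun u : ℝ => (1 / w) * u) u * sv D i u) =
        Kf r (1 / w) + vol01 D / w := by
      rw [split_int (y := r) (g := fun u => Real.sqrt (1 - (1 / w) ^ 2 * u ^ 2) + (1 / w) * sv D i u)
        hr0.le hvr.le]
      · rw [intervalIntegral.integral_add ((cont_a _).intervalIntegrable _ _)
          ((hSi 0 r).const_mul _), intervalIntegral.integral_const_mul, hint]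
        unfold Kf
        ring
      · intro u hu
        rw [hderiv, indicator_of_mem, mul_one]
        exact ⟨hpos u ⟨hu.1.le, hu.2⟩, lt_of_le_of_lt (sv_anti D hD i hu.1.le) hS⟩
      · exact ((cont_a _).intervalIntegrable _ _).add ((hSi 0 r).const_mul _)
      · intro u hu
        rw [hzero u ⟨hu.1, by linarith [hu.2, hw.2]⟩, indicator_of_notMem (by simp)]
        simp
    rw [hI] at h
    simpa using h
  have hlim : Tendsto (fun w => Kf r (1 / w) + vol01 D / w) (𝓝[>] r)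
      (𝓝 (Kf r (1 / r) + vol01 D / r)) := by
    apply Tendsto.mono_left _ nhdsWithin_le_nhds
    have hc : ContinuousAt (fun w : ℝ => 1 / w) r := by
      exact (continuousAt_const).div continuousAt_id hr0.ne'
    have h1 : Tendsto (fun w : ℝ => Kf r (1 / w)) (𝓝 r) (𝓝 (Kf r (1 / r))) := by
      have h2 : Tendsto (fun w : ℝ => ((r, 1 / w) : ℝ × ℝ)) (𝓝 r) (𝓝 (r, 1 / r)) :=
        tendsto_const_nhds.prodMk_nhds hc
      exact (Kf_continuous.tendsto _).comp h2
    have h3 : ContinuousAt (fun w : ℝ => vol01 D / w) r :=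
      (continuousAt_const).div continuousAt_id hr0.ne'
    exact h1.add h3
  have hfin := QL_lim (D := D) hlim (by
    filter_upwards [Ioo_mem_nhdsGT hr1] with w hw using hmain w hw)
  have hK : Kf r (1 / r) = Real.pi * r / 4 := by
    have h1 := Kf_full (1 / r) (by positivity)
    rw [one_div_one_div] at h1
    rw [h1]
    field_simp
  rwa [hK] at hfin

/-- **F1.** No far side is touched: `q ≥ sqrt(π s)`. (`r = sup {u : S u > 0}`, AM-GM; `s = 0` trivial.) -/
theorem two_F1 (D : Set (Fin 2 → ℝ)) (hD : IsLowerSet D) (hO : IsOpen D) (i : Fin 2)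
    (h1 : ∃ u ∈ Ico (0 : ℝ) 1, pt i u 0 ∉ D) (h2 : ∃ v ∈ Ico (0 : ℝ) 1, pt i 0 v ∉ D) :
    QL D (Real.sqrt (Real.pi * vol01 D)) := by
  obtain ⟨u₁, hu₁, hu₁D⟩ := h1
  obtain ⟨v₁, hv₁, hv₁D⟩ := h2
  rw [pt_mem_iff D hD hO i u₁ 0 le_rfl one_pos] at hu₁D
  rw [pt_mem_iff D hD hO i 0 v₁ hv₁.1 hv₁.2] at hv₁D
  have hanti := sv_anti D hD i
  have hS0 : sv D i 0 < 1 := lt_of_le_of_lt (not_lt.1 hv₁D) hv₁.2
  have hSu₁ : sv D i u₁ = 0 := le_antisymm (not_lt.1 hu₁D) (sv_mem D i u₁).1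
  have hv0 : 0 ≤ vol01 D := ENNReal.toReal_nonneg
  rcases eq_or_lt_of_le (sv_mem D i 0).1 with h0 | h0
  · -- trivial case
    have : vol01 D = 0 := by
      rw [← sv_integral D hO i]
      have : ∫ u in (0 : ℝ)..1, sv D i u = ∫ u in (0 : ℝ)..1, (0 : ℝ) := by
        apply int_congr_Ioo zero_le_one
        intro u hu
        apply le_antisymm _ (sv_mem D i u).1
        rw [h0]
        exact hanti hu.1.le
      rw [this]; simp
    rw [this, mul_zero, Real.sqrt_zero]
    exact QL_zero le_rfl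
  · set T : Set ℝ := {u | 0 ≤ u ∧ 0 < sv D i u} with hT
    have hTb : ∀ u ∈ T, u ≤ u₁ := by
      intro u hu
      by_contra hc
      have := hanti (not_le.1 hc).le
      rw [hSu₁] at this
      exact absurd hu.2 (not_lt.2 this)
    have hTbdd : BddAbove T := ⟨u₁, hTb⟩
    have hTne : T.Nonempty := ⟨0, le_rfl, h0⟩
    set r := sSup T with hr
    have hr1 : r < 1 := lt_of_le_of_lt (csSup_le hTne hTb) hu₁.2
    have hr0 : 0 < r := by
      have h3 := (sv_right D hD hO i 0).eventually (lt_mem_nhds h0)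
      obtain ⟨u, hu1, hu2⟩ := (h3.and self_mem_nhdsWithin).exists
      exact lt_of_lt_of_le hu2 (le_csSup hTbdd ⟨(show (0 : ℝ) < u from hu2).le, hu1⟩)
    have hpos : ∀ u ∈ Ico 0 r, 0 < sv D i u := by
      intro u hu
      obtain ⟨u', hu', huu'⟩ := exists_lt_of_lt_csSup hTne hu.2
      exact lt_of_lt_of_le hu'.2 (hanti huu'.le)
    have hzero : ∀ u ∈ Ioo r 1, sv D i u = 0 := by
      intro u hu
      by_contra hc
      have : u ∈ T := ⟨hr0.le.trans hu.1.le, lt_of_le_of_ne (sv_mem D i u).1 (Ne.symm hc)⟩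
      exact absurd (le_csSup hTbdd this) (not_le.2 hu.1)
    refine QL_mono ?_ (two_down_base D hD hO i r hr0 hr1 hS0 hpos hzero)
    rw [Real.sqrt_le_iff]
    refine ⟨by positivity, ?_⟩
    have h5 : (Real.pi * r / 4) * (vol01 D / r) = Real.pi * vol01 D / 4 := by
      field_simp
    nlinarith [sq_nonneg (Real.pi * r / 4 - vol01 D / r), h5]

/-- **F2.** The far side `x_i = 1` is touched with height at most `h`, the other one is not touched:
`q ≥ l (s - h) + Kf 1 l` for `0 ≤ l ≤ 1`.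
Proof: `two_master` on `[0,v]`, `v ↑ 1`, `b(u) = l' u`, `l' < l`, `a = sqrt(1 - l'²u²)`, `0 < S(u) < 1` for
all `u ∈ [0,1)`: value `Kf v l' + l' (∫_0^v S - v S(v))`, `S(v) → sEnd ≤ h`; then `l' → l`. -/
theorem two_F2 (D : Set (Fin 2 → ℝ)) (hD : IsLowerSet D) (hO : IsOpen D) (i : Fin 2) (h l : ℝ)
    (h1 : ∀ u ∈ Ico (0 : ℝ) 1, pt i u 0 ∈ D) (h2 : ∃ v ∈ Ico (0 : ℝ) 1, pt i 0 v ∉ D)
    (hh : 0 ≤ h) (hh2 : ∀ y ∈ Ioo h 1, ∃ u ∈ Ico (0 : ℝ) 1, pt i u y ∉ D)
    (hl0 : 0 ≤ l) (hl1 : l ≤ 1) :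
    QL D (l * (vol01 D - h) + Kf 1 l) := by
  obtain ⟨v₁, hv₁, hv₁D⟩ := h2
  rw [pt_mem_iff D hD hO i 0 v₁ hv₁.1 hv₁.2] at hv₁D
  have hanti := sv_anti D hD i
  have hS0 : sv D i 0 < 1 := lt_of_le_of_lt (not_lt.1 hv₁D) hv₁.2
  have hpos : ∀ u ∈ Ico (0 : ℝ) 1, 0 < sv D i u := fun u hu =>
    (pt_mem_iff D hD hO i u 0 le_rfl one_pos).1 (h1 u hu)
  have hSi : ∀ x y, IntervalIntegrable (sv D i) volume x y := fun x y =>
    hanti.intervalIntegrable
  -- the far end
  have hend : ∀ ε > 0, ∃ u ∈ Ico (0 : ℝ) 1, sv D i u ≤ h + ε := by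
    intro ε hε
    by_cases h1' : 1 ≤ h
    · exact ⟨0, ⟨le_rfl, one_pos⟩, by linarith⟩
    · have h1'' := not_le.1 h1'
      have hy : min (h + ε) ((h + 1) / 2) ∈ Ioo h 1 :=
        ⟨lt_min (by linarith) (by linarith), lt_of_le_of_lt (min_le_right _ _) (by linarith)⟩
      obtain ⟨u, hu, huD⟩ := hh2 _ hy
      rw [pt_mem_iff D hD hO i u _ (hh.trans hy.1.le) hy.2] at huD
      exact ⟨u, hu, (not_lt.1 huD).trans (min_le_left _ _)⟩
  have hmain : ∀ v ∈ Ioo (0 : ℝ) 1, QL D (Kf v l + l * (vol01 D - (1 - v)) - l * sv D i v) := by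
    intro v hv
    have hm := two_master D hD hO i 0 v (1 - v) le_rfl hv.1 hv.2 (by linarith [hv.2])
      (fun u => Real.sqrt (1 - l ^ 2 * u ^ 2)) (fun u => l * u) (cont_a _) (by fun_prop) (by
        intro u hu
        refine ⟨Real.sqrt_nonneg _, ?_⟩
        have hu1 : u ≤ 1 := by linarith [hu.2]
        have h3 : l * u ≤ 1 := mul_le_one₀ hl1 hu.1 hu1
        have h4 : 0 ≤ l * u := mul_nonneg hl0 hu.1
        have h2 : l ^ 2 * u ^ 2 ≤ 1 := by
          have : l ^ 2 * u ^ 2 = (l * u) ^ 2 := by ring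
          rw [this]
          nlinarith
        rw [Real.sq_sqrt (by linarith)]
        exact le_of_eq (by ring))
    have hderiv : ∀ u, deriv (fun u : ℝ => l * u) u = l := by
      intro u
      simp
    have hI : ∫ u in (0 : ℝ)..v,
        (Real.sqrt (1 - l ^ 2 * u ^ 2) * (Ioo (0 : ℝ) 1).indicator (fun _ => (1 : ℝ)) (sv D i u) +
        deriv (fun u : ℝ => l * u) u * sv D i u) =
        Kf v l + l * ∫ u in (0 : ℝ)..v, sv D i u := by
      rw [int_congr_Ioo (g := fun u => Real.sqrt (1 - l ^ 2 * u ^ 2) + l * sv D i u) hv.1.le]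
      · rw [intervalIntegral.integral_add ((cont_a _).intervalIntegrable _ _)
          ((hSi 0 v).const_mul _), intervalIntegral.integral_const_mul]
        rfl
      · intro u hu
        rw [hderiv, indicator_of_mem, mul_one]
        exact ⟨hpos u ⟨hu.1.le, hu.2.trans hv.2⟩, lt_of_le_of_lt (hanti hu.1.le) hS0⟩
    rw [hI] at hm
    refine QL_mono ?_ hm
    have h5 : vol01 D - (1 - v) ≤ ∫ u in (0 : ℝ)..v, sv D i u := by
      have e := intervalIntegral.integral_add_adjacent_intervals (hSi 0 v) (hSi v 1)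
      rw [sv_integral D hO i] at e
      have e2 : ∫ u in v..1, sv D i u ≤ ∫ u in v..1, (1 : ℝ) :=
        intervalIntegral.integral_mono_on hv.2.le (hSi v 1) intervalIntegrable_const
          fun u _ => (sv_mem D i u).2
      rw [intervalIntegral.integral_const, smul_eq_mul, mul_one] at e2
      linarith
    have h6 : l * (vol01 D - (1 - v)) ≤ l * ∫ u in (0 : ℝ)..v, sv D i u :=
      mul_le_mul_of_nonneg_left h5 hl0
    have h7 : l * v * sv D i v ≤ l * sv D i v := by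
      have := (sv_mem D i v).1
      have h8 : l * v ≤ l := by nlinarith [hv.2]
      exact mul_le_mul_of_nonneg_right h8 this
    simp only [mul_zero, zero_mul, add_zero]
    linarith
  have hmain2 : ∀ ε > 0, QL D (Kf 1 l + l * (vol01 D - (1 - 1)) - l * (h + ε)) := by
    intro ε hε
    obtain ⟨u, hu, hSu⟩ := hend ε hε
    have hlim : Tendsto (fun v => Kf v l + l * (vol01 D - (1 - v)) - l * (h + ε)) (𝓝[<] 1)
        (𝓝 (Kf 1 l + l * (vol01 D - (1 - 1)) - l * (h + ε))) := by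
      apply Tendsto.mono_left _ nhdsWithin_le_nhds
      have hc : Continuous fun v : ℝ => Kf v l + l * (vol01 D - (1 - v)) - l * (h + ε) := by
        have hk : Continuous fun v : ℝ => Kf v l :=
          Kf_continuous.comp (continuous_id.prodMk continuous_const)
        fun_prop
      exact hc.tendsto 1
    refine QL_lim hlim ?_
    filter_upwards [Ioo_mem_nhdsLT hu.2] with v hv
    refine QL_mono ?_ (hmain v ⟨lt_of_le_of_lt hu.1 hv.1, hv.2⟩)
    have : l * sv D i v ≤ l * (h + ε) :=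
      mul_le_mul_of_nonneg_left ((hanti hv.1.le).trans hSu) hl0
    linarith
  have hlim : Tendsto (fun ε : ℝ => Kf 1 l + l * (vol01 D - (1 - 1)) - l * (h + ε)) (𝓝[>] 0)
      (𝓝 (Kf 1 l + l * (vol01 D - (1 - 1)) - l * (h + 0))) := by
    apply Tendsto.mono_left _ nhdsWithin_le_nhds
    have hc : Continuous fun ε : ℝ => Kf 1 l + l * (vol01 D - (1 - 1)) - l * (h + ε) := by
      fun_prop
    exact hc.tendsto 0
  have hfin := QL_lim (D := D) hlim (by
    filter_upwards [self_mem_nhdsWithin] with ε hε using hmain2 ε hε)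
  refine QL_mono ?_ hfin
  linarith

end Crest.Agent.T3
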