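import Crest.Agent.T3.Eq2
import Crest.Agent.T3.TwoDown

/-! Row 214, (7b): rigidity for down-sets of space: ball, tube, slab. -/

set_option autoImplicit false
open MeasureTheory Set Filter Topology
open Crest.GeometryTopology.PeriodicPerimeter

namespace Crest.Agent.T3

/-- Neither far side is touched. -/
def NT (A : Set (Fin 2 → ℝ)) : Prop :=
  (∃ u ∈ Ico (0 : ℝ) 1, pt 0 u 0 ∉ A) ∧ (∃ v ∈ Ico (0 : ℝ) 1, pt 0 0 v ∉ A)

/-- Every slice in direction `k` with positive area has no touched side, or perimeter strictly above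
the isoperimetric bound. -/
def ThinDir (D : Set (Fin 3 → ℝ)) (k : Fin 3) : Prop :=
  ∀ t ∈ Ioo (0 : ℝ) 1, 0 < sv D k t →
    NT (sl k t D) ∨ ∃ c, Real.sqrt (Real.pi * sv D k t) < c ∧ QL (sl k t D) c

theorem pt_eta (y : Fin 2 → ℝ) : pt 0 (y 0) (y 1) = y := by
  funext i
  fin_cases i
  · simp [pt]
  · simp [pt]

theorem vol01_pos {n : ℕ} (A : Set (Fin n → ℝ)) (hO : IsOpen A) (y : Fin n → ℝ) (hy : y ∈ A)
    (hy01 : ∀ j, 0 ≤ y j ∧ y j < 1) : 0 < vol01 A := by
  unfold vol01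
  have hopen : IsOpen (A ∩ Set.pi univ (fun _ => Ioo (0 : ℝ) 1)) :=
    hO.inter (isOpen_set_pi finite_univ fun _ _ => isOpen_Ioo)
  have hne : (A ∩ Set.pi univ (fun _ => Ioo (0 : ℝ) 1)).Nonempty := by
    obtain ⟨ε, hε, hball⟩ := Metric.isOpen_iff.1 hO y hy
    refine ⟨fun j => y j + min (ε / 2) ((1 - y j) / 2), hball ?_, ?_⟩
    · rw [Metric.mem_ball, dist_pi_lt_iff hε]
      intro j
      have h1 : 0 < min (ε / 2) ((1 - y j) / 2) := lt_min (by linarith) (by linarith [(hy01 j).2])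
      rw [Real.dist_eq, add_sub_cancel_left, abs_of_pos h1]
      exact (min_le_left _ _).trans_lt (by linarith)
    · intro j _
      have h1 : 0 < min (ε / 2) ((1 - y j) / 2) := lt_min (by linarith) (by linarith [(hy01 j).2])
      have h2 : min (ε / 2) ((1 - y j) / 2) ≤ (1 - y j) / 2 := min_le_right _ _
      exact ⟨by linarith [(hy01 j).1], by linarith [(hy01 j).2]⟩
  have hpos := hopen.measure_pos volume hne
  refine ENNReal.toReal_pos (ne_of_gt (hpos.trans_le (measure_mono ?_))) ?_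
  · exact inter_subset_inter_right _ (pi_mono fun _ _ => Ioo_subset_Ico_self)
  · refine ne_of_lt ((measure_mono inter_subset_right).trans_lt ?_)
    rw [Real.volume_pi_Ico]
    exact ENNReal.prod_lt_top (fun _ _ => ENNReal.ofReal_lt_top)

theorem vol01_lt_one {n : ℕ} (A : Set (Fin n → ℝ)) (hD : IsLowerSet A) (hO : IsOpen A)
    (y : Fin n → ℝ) (hy : y ∉ A) (hy01 : ∀ j, 0 ≤ y j ∧ y j < 1) : vol01 A < 1 := by
  unfold vol01
  set C := Set.pi univ (fun _ : Fin n => Ico (0 : ℝ) 1) with hC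
  set B := Set.pi univ (fun j : Fin n => Ico (y j) 1) with hB
  have hBC : B ⊆ C := pi_mono fun j _ => Ico_subset_Ico_left (hy01 j).1
  have hCm : MeasurableSet C := MeasurableSet.univ_pi fun _ => measurableSet_Ico
  have hBm : MeasurableSet B := MeasurableSet.univ_pi fun _ => measurableSet_Ico
  have hC1 : volume C = 1 := by rw [hC, Real.volume_pi_Ico]; simp
  have hB0 : volume B ≠ 0 := by
    rw [hB, Real.volume_pi_Ico]
    refine Finset.prod_ne_zero_iff.2 fun j _ => ?_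
    rw [ne_eq, ENNReal.ofReal_eq_zero, not_le]
    linarith [(hy01 j).2]
  have hdis : Disjoint (A ∩ C) B := by
    rw [Set.disjoint_left]
    intro z hz hzB
    exact hy (hD (fun j => (hzB j (mem_univ _)).1) hz.1)
  have hsum : volume (A ∩ C) + volume B ≤ 1 := by
    rw [← measure_union hdis hBm, ← hC1]
    exact measure_mono (union_subset inter_subset_right hBC)
  have hBt : volume B ≠ ⊤ := ne_of_lt ((measure_mono hBC).trans_lt (by rw [hC1]; simp))
  have hlt : volume (A ∩ C) < 1 := by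
    have h1 : volume (A ∩ C) ≠ ⊤ :=
      ne_of_lt ((measure_mono inter_subset_right).trans_lt (by rw [hC1]; simp))
    calc volume (A ∩ C) < volume (A ∩ C) + volume B :=
          ENNReal.lt_add_right h1 hB0
      _ ≤ 1 := hsum
  have := ENNReal.toReal_strict_mono ENNReal.one_ne_top hlt
  simpa using this

/-- A slightly larger height still belongs to `D`, and it may be chosen in any set of full measure. -/
theorem exists_above {D : Set (Fin 3 → ℝ)} (hO : IsOpen D) (k : Fin 3) {t b : ℝ} (htb : t < b)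
    {y : Fin 2 → ℝ} (hy : y ∈ sl k t D) {G : Set ℝ} (hG : ∀ᵐ u, u ∈ G) :
    ∃ u ∈ Ioo t b, u ∈ G ∧ y ∈ sl k u D := by
  have hcont : Continuous (fun u : ℝ => (k.insertNth (α := fun _ => ℝ) u y : Fin 3 → ℝ)) := by
    refine continuous_pi fun i => ?_
    refine Fin.succAboveCases k ?_ ?_ i
    · simpa using continuous_id'
    · intro j; simpa using continuous_const
  have hU : IsOpen {u : ℝ | y ∈ sl k u D} := hO.preimage hcont
  have hopen : IsOpen ({u : ℝ | y ∈ sl k u D} ∩ Ioo t b) := hU.inter isOpen_Ioo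
  have hne : ({u : ℝ | y ∈ sl k u D} ∩ Ioo t b).Nonempty := by
    have h1 : {u : ℝ | y ∈ sl k u D} ∈ 𝓝[>] t := mem_nhdsWithin_of_mem_nhds (hU.mem_nhds hy)
    have h2 : ∀ᶠ u in 𝓝[>] t, y ∈ sl k u D := h1
    obtain ⟨u, hu1, hu2⟩ := (h2.and (Ioo_mem_nhdsGT htb)).exists
    exact ⟨u, hu1, hu2⟩
  obtain ⟨u, hu, huG⟩ : ∃ u ∈ ({u : ℝ | y ∈ sl k u D} ∩ Ioo t b), u ∈ G := by
    by_contra hcon
    push Not at hcon
    have hpos := hopen.measure_pos volume hne
    have h0 : volume ({u : ℝ | y ∈ sl k u D} ∩ Ioo t b) = 0 :=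
      measure_mono_null (fun u hu => hcon u hu) (ae_iff.1 hG)
    exact hpos.ne' h0
  exact ⟨u, hu.2, huG, hu.1⟩

theorem exists_good {t b : ℝ} (htb : t < b) {G : Set ℝ} (hG : ∀ᵐ u, u ∈ G) :
    ∃ u ∈ Ioo t b, u ∈ G := by
  by_contra hcon
  push Not at hcon
  have hpos := (isOpen_Ioo (a := t) (b := b)).measure_pos volume (nonempty_Ioo.2 htb)
  have h0 : volume (Ioo t b) = 0 := measure_mono_null (fun u hu => hcon u hu) (ae_iff.1 hG)
  exact hpos.ne' h0

theorem ql_F1_slice (D : Set (Fin 3 → ℝ)) (hD : IsLowerSet D) (hO : IsOpen D) (k : Fin 3)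
    (hthin : ThinDir D k) {t : ℝ} (ht : t ∈ Ioo (0 : ℝ) 1) (hpos : 0 < sv D k t) {g : ℝ}
    (hg : ∀ c, QL (sl k t D) c → c ≤ g) : Real.sqrt (Real.pi * sv D k t) ≤ g := by
  rcases hthin t ht hpos with h | ⟨c, hc, hcQ⟩
  · exact hg _ (two_F1 _ (sl_lower D hD k t) (sl_open D hO k t) 0 h.1 h.2)
  · exact hc.le.trans (hg c hcQ)

/-- If the perimeter of a slice does not exceed the isoperimetric bound it is a quarter disc. -/
theorem slice_disc (D : Set (Fin 3 → ℝ)) (hD : IsLowerSet D) (hO : IsOpen D) (k : Fin 3)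
    (hthin : ThinDir D k) {t : ℝ} (ht : t ∈ Ioo (0 : ℝ) 1) (hpos : 0 < sv D k t)
    (hg : ∀ c, QL (sl k t D) c → c ≤ Real.sqrt (Real.pi * sv D k t)) (y : Fin 2 → ℝ)
    (hy : ∀ j, 0 ≤ y j ∧ y j < 1) :
    y ∈ sl k t D ↔ y 0 ^ 2 + y 1 ^ 2 < 4 * sv D k t / Real.pi := by
  have hNT : NT (sl k t D) := by
    rcases hthin t ht hpos with h | ⟨c, hc, hcQ⟩
    · exact h
    · exact absurd (hg c hcQ) (not_le.2 hc)
  have hP : periodicPerimeter (unf (sl k t D)) ≤
      ENNReal.ofReal (2 * Real.sqrt (Real.pi * vol01 (sl k t D))) := by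
    by_contra hcon
    push Not at hcon
    have h0 : 0 ≤ Real.sqrt (Real.pi * vol01 (sl k t D)) := Real.sqrt_nonneg _
    obtain ⟨e, he1, he2⟩ := ENNReal.lt_iff_exists_nnreal_btwn.1 hcon
    have he3 : 2 * Real.sqrt (Real.pi * vol01 (sl k t D)) < (e : ℝ) := by
      have := (ENNReal.ofReal_lt_iff_lt_toReal (by positivity) ENNReal.coe_ne_top).1 he1
      simpa using this
    have hql : QL (sl k t D) ((e : ℝ) / 2) := by
      unfold QL
      rw [mul_div_cancel₀ _ (two_ne_zero), ENNReal.ofReal_coe_nnreal]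
      exact he2.le
    have := hg _ hql
    have h5 : sv D k t = vol01 (sl k t D) := rfl
    rw [h5] at this
    linarith
  have := two_rigid _ (sl_lower D hD k t) (sl_open D hO k t) 0 hNT.1 hNT.2 hpos hP (y 0) (y 1)
    (hy 0).1 (hy 0).2 (hy 1).1 (hy 1).2
  rw [pt_eta] at this
  exact this

/-- **Tube.** -/
theorem tube_rigid (D : Set (Fin 3 → ℝ)) (hD : IsLowerSet D) (hO : IsOpen D) (k : Fin 3) (V : ℝ)
    (hV : 0 < V) (h0 : sv D k 0 = V) (hEnd : sEnd D k = V)
    (hQ : periodicPerimeter (unf D) ≤ ENNReal.ofReal (2 * Real.sqrt (Real.pi * V)))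
    (hthin : ThinDir D k) :
    ∀ (t : ℝ) (y : Fin 2 → ℝ), 0 ≤ t → t < 1 → (∀ j, 0 ≤ y j ∧ y j < 1) →
      (y ∈ sl k t D ↔ y 0 ^ 2 + y 1 ^ 2 < 4 * V / Real.pi) := by
  have hSV : ∀ t, 0 ≤ t → t < 1 → sv D k t = V := by
    intro t ht0 ht1
    refine le_antisymm ?_ ?_
    · rw [← h0]; exact sv_anti D hD k ht0
    · rw [← hEnd]
      exact csInf_le ⟨0, by rintro _ ⟨v, _, rfl⟩; exact (sv_mem D k v).1⟩ ⟨t, ⟨ht0, ht1⟩, rfl⟩
  obtain ⟨g, hgm, hg0, hgi, hgQ, hC1⟩ := slice_ineq D hD hO k _ (Real.sqrt_nonneg _) hQ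
  have h1 := hC1 (fun _ => 1) (fun _ => 0) continuous_const continuous_const (fun _ => zero_le_one)
    (fun _ => le_rfl) (fun _ => by norm_num)
  simp only [one_mul, intervalIntegral.integral_zero, add_zero] at h1
  have hge : ∀ᵐ u ∂(volume.restrict (Ioo (0 : ℝ) 1)), Real.sqrt (Real.pi * V) ≤ g u := by
    rw [ae_restrict_iff' measurableSet_Ioo]
    filter_upwards [hgQ] with u hu hu01
    have hsv := hSV u hu01.1.le hu01.2
    have := ql_F1_slice D hD hO k hthin hu01 (by rw [hsv]; exact hV) (hu hu01)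
    rwa [hsv] at this
  have heq : ∀ᵐ u ∂(volume.restrict (Ioo (0 : ℝ) 1)), g u = Real.sqrt (Real.pi * V) := by
    have hci : IntegrableOn (fun _ : ℝ => Real.sqrt (Real.pi * V)) (Ioo 0 1) :=
      integrableOn_const (by simp)
    have hz : ∫ u in Ioo (0 : ℝ) 1, (g u - Real.sqrt (Real.pi * V)) = 0 := by
      refine le_antisymm ?_ ?_
      · rw [integral_sub hgi hci]
        have : ∫ _ in Ioo (0 : ℝ) 1, Real.sqrt (Real.pi * V) = Real.sqrt (Real.pi * V) := by simp
        rw [this]; linarith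
      · refine integral_nonneg_of_ae ?_
        filter_upwards [hge] with u hu
        simpa using hu
    rw [setIntegral_eq_zero_iff_of_nonneg_ae] at hz
    · filter_upwards [hz] with u hu
      have : g u - Real.sqrt (Real.pi * V) = 0 := hu
      linarith
    · filter_upwards [hge] with u hu
      simpa using hu
    · exact hgi.sub hci
  have hgood : ∀ᵐ u : ℝ, u ∈ {u : ℝ | u ∈ Ioo (0 : ℝ) 1 → ∀ y : Fin 2 → ℝ, (∀ j, 0 ≤ y j ∧ y j < 1) →
      (y ∈ sl k u D ↔ y 0 ^ 2 + y 1 ^ 2 < 4 * V / Real.pi)} := by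
    filter_upwards [hgQ, (ae_restrict_iff' measurableSet_Ioo).1 heq] with u hu hu2 hu01 y hy
    have hsv := hSV u hu01.1.le hu01.2
    have := slice_disc D hD hO k hthin hu01 (by rw [hsv]; exact hV) (by
      intro c hc
      rw [hsv, ← hu2 hu01]
      exact hu hu01 c hc) y hy
    rwa [hsv] at this
  intro t y ht0 ht1 hy
  constructor
  · intro hyt
    obtain ⟨u, hu, huG, hyu⟩ := exists_above hO k ht1 hyt hgood
    exact (huG ⟨ht0.trans_lt hu.1, hu.2⟩ y hy).1 hyu
  · intro hlt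
    obtain ⟨u, hu, huG⟩ := exists_good ht1 hgood
    exact sl_anti D hD k hu.1.le ((huG ⟨ht0.trans_lt hu.1, hu.2⟩ y hy).2 hlt)

/-- **Slab.** -/
theorem slab_rigid (D : Set (Fin 3 → ℝ)) (hD : IsLowerSet D) (hO : IsOpen D) (k : Fin 3) (V : ℝ)
    (h1 : ∀ t ∈ Ioo (0 : ℝ) 1, t < V → sv D k t = 1)
    (h0 : ∀ t ∈ Ioo (0 : ℝ) 1, V < t → sv D k t = 0) :
    ∀ (t : ℝ) (y : Fin 2 → ℝ), 0 ≤ t → t < 1 → (∀ j, 0 ≤ y j ∧ y j < 1) →
      (y ∈ sl k t D ↔ t < V) := by
  intro t y ht0 ht1 hy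
  constructor
  · intro hyt
    by_contra hV
    push Not at hV
    obtain ⟨u, hu, -, hyu⟩ := exists_above hO k ht1 hyt (G := univ) (by simp)
    have hpos : 0 < sv D k u := vol01_pos _ (sl_open D hO k u) y hyu hy
    rw [h0 u ⟨ht0.trans_lt hu.1, hu.2⟩ (hV.trans_lt hu.1)] at hpos
    exact lt_irrefl _ hpos
  · intro hV
    obtain ⟨u, hu1, hu2⟩ := exists_between (lt_min hV ht1)
    have huV := (lt_min_iff.1 hu2).1
    have hu11 := (lt_min_iff.1 hu2).2
    have h3 := h1 u ⟨ht0.trans_lt hu1, hu11⟩ huV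
    refine sl_anti D hD k hu1.le ?_
    by_contra hnot
    have := vol01_lt_one _ (sl_lower D hD k u) (sl_open D hO k u) y hnot hy
    rw [show vol01 (sl k u D) = sv D k u from rfl, h3] at this
    exact lt_irrefl _ this

end Crest.Agent.T3
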