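import Crest.Agent.T3.Eq3

/-! Row 214, (7b): rigidity of the ball. -/

set_option autoImplicit false
open MeasureTheory Set Filter Topology
open Crest.GeometryTopology.PeriodicPerimeter

namespace Crest.Agent.T3

theorem int_sqrt_lin (s0 : ℝ) (hs0 : 0 < s0) :
    ∫ x in (0 : ℝ)..s0, Real.sqrt (1 - x / s0) = 2 * s0 / 3 := by
  have h := intervalIntegral.integral_eq_sub_of_hasDerivAt_of_le (a := 0) (b := s0) hs0.le
    (f := fun x => -(2 * s0 / 3) * ((1 - x / s0) * Real.sqrt (1 - x / s0)))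
    (f' := fun x => Real.sqrt (1 - x / s0)) (by fun_prop) ?_ ?_
  · rw [h]
    simp [div_self hs0.ne']
  · intro x hx
    have hpos : 0 < 1 - x / s0 := by
      have : x / s0 < 1 := (div_lt_one hs0).2 hx.2
      linarith
    have h1 : HasDerivAt (fun x : ℝ => 1 - x / s0) (-(1 / s0)) x := by
      have := ((hasDerivAt_id x).div_const s0).const_sub 1
      simpa using this
    have h2 := h1.sqrt hpos.ne'
    have h3 := (h1.mul h2).const_mul (-(2 * s0 / 3))
    refine h3.congr_deriv ?_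
    have hs : Real.sqrt (1 - x / s0) ≠ 0 := (Real.sqrt_pos.2 hpos).ne'
    have hsq : Real.sqrt (1 - x / s0) ^ 2 = 1 - x / s0 := Real.sq_sqrt hpos.le
    set w := Real.sqrt (1 - x / s0) with hw
    rw [← hsq]
    field_simp
    ring
  · exact (by fun_prop : Continuous fun x => Real.sqrt (1 - x / s0)).intervalIntegrable _ _

/-- **Ball.** -/
theorem ball_rigid (D : Set (Fin 3 → ℝ)) (hD : IsLowerSet D) (hO : IsOpen D) (k : Fin 3) (R : ℝ)
    (hR0 : 0 < R) (hR1 : R ≤ 1) (h0 : sv D k 0 = Real.pi * R ^ 2 / 4) (hEnd : sEnd D k = 0)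
    (hV : vol01 D = Real.pi * R ^ 3 / 6)
    (hQ : periodicPerimeter (unf D) ≤ ENNReal.ofReal (2 * (Real.pi * R ^ 2 / 2)))
    (hthin : ThinDir D k) :
    ∀ (t : ℝ) (y : Fin 2 → ℝ), 0 ≤ t → t < 1 → (∀ j, 0 ≤ y j ∧ y j < 1) →
      (y ∈ sl k t D ↔ t ^ 2 + y 0 ^ 2 + y 1 ^ 2 < R ^ 2) := by
  have hπ := Real.pi_pos
  set S := sv D k with hSdef
  set s0 := Real.pi * R ^ 2 / 4 with hs0def
  have hs0 : 0 < s0 := by rw [hs0def]; positivity
  have hSmem : ∀ u, S u ∈ Icc (0 : ℝ) 1 := sv_mem D k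
  have hSanti : Antitone S := sv_anti D hD k
  have hSmeas : Measurable S := hSanti.measurable
  have hSr : ∀ u, 0 ≤ u → S u ≤ s0 := fun u hu => by rw [← h0]; exact hSanti hu
  have hint : ∫ u in Ioo (0 : ℝ) 1, S u = Real.pi * R ^ 3 / 6 := by
    have := sv_integral D hO k
    rw [intervalIntegral.integral_of_le zero_le_one, integral_Ioc_eq_integral_Ioo, hV] at this
    exact this
  set Q := Real.pi * R ^ 2 / 2 with hQdef
  obtain ⟨g, hgm, hg0, hgi, hgQ, hC1⟩ := slice_ineq D hD hO k Q (by positivity) hQ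
  rw [hEnd, show sv D k 0 = s0 from h0] at hC1
  have hgF : ∀ᵐ u ∂(volume.restrict (Ioo (0 : ℝ) 1)), 0 < S u → Real.sqrt (Real.pi * S u) ≤ g u := by
    rw [ae_restrict_iff' measurableSet_Ioo]
    filter_upwards [hgQ] with u hu hu01 hSu
    exact ql_F1_slice D hD hO k hthin hu01 hSu (hu hu01)
  set A : ℝ → ℝ := fun x => Real.sqrt (clampd s0 x) with hAdef
  have hAc : Continuous A := (clampd_cont s0).sqrt
  have hA01 : ∀ x, 0 ≤ A x ∧ A x ≤ 1 := fun x =>
    ⟨Real.sqrt_nonneg _, Real.sqrt_le_one.2 (clampd_mem s0 x).2⟩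
  have hAx : ∀ x ∈ Icc 0 s0, A x = Real.sqrt (x / s0) := fun x hx => by
    rw [hAdef]; simp only []; rw [clampd_eq hs0 hx]
  have hle : ∀ a : ℝ → ℝ, Continuous a → (∀ x, 0 ≤ a x ∧ a x ≤ 1) →
      (∫ t in Ioo (0 : ℝ) 1, a (S t) * g t) + ∫ x in (0 : ℝ)..s0, Real.sqrt (1 - a x ^ 2) ≤ Q := by
    intro a hac ha
    refine hC1 a (fun x => Real.sqrt (1 - a x ^ 2)) hac (by fun_prop) (fun x => (ha x).1)
      (fun x => Real.sqrt_nonneg _) (fun x => ?_)
    have h3 : 0 ≤ 1 - a x ^ 2 := by nlinarith [(ha x).1, (ha x).2]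
    rw [Real.sq_sqrt h3]; linarith
  -- `A(S) √(π S) = (2/R) S`
  have hAS : ∀ u ∈ Ioo (0 : ℝ) 1, A (S u) * Real.sqrt (Real.pi * S u) = 2 / R * S u := by
    intro u hu
    have hm := (hSmem u).1
    rw [hAx _ ⟨hm, hSr u hu.1.le⟩, ← Real.sqrt_mul (by positivity)]
    have : S u / s0 * (Real.pi * S u) = (2 / R * S u) ^ 2 := by
      rw [hs0def]; field_simp; ring
    rw [this, Real.sqrt_sq (by positivity)]
  have hAgi : IntegrableOn (fun t => A (S t) * g t) (Ioo 0 1) := by
    refine Integrable.bdd_mul (c := 1) hgi (hAc.measurable.comp hSmeas).aestronglyMeasurable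
      (Eventually.of_forall fun t => ?_)
    rw [Real.norm_eq_abs, abs_of_nonneg (hA01 _).1]; exact (hA01 _).2
  have hSi : IntegrableOn (fun t => 2 / R * S t) (Ioo 0 1) := by
    refine Integrable.const_mul ?_ _
    refine Integrable.mono' (g := fun _ => (1 : ℝ)) (integrableOn_const (by simp))
      hSmeas.aestronglyMeasurable (Eventually.of_forall fun u => ?_)
    rw [Real.norm_eq_abs, abs_of_nonneg (hSmem u).1]; exact (hSmem u).2
  have hge_pt : ∀ᵐ u ∂(volume.restrict (Ioo (0 : ℝ) 1)), 2 / R * S u ≤ A (S u) * g u := by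
    filter_upwards [hgF, ae_restrict_mem measurableSet_Ioo] with u hu hu01
    rw [← hAS u hu01]
    by_cases h : 0 < S u
    · exact mul_le_mul_of_nonneg_left (hu h) (hA01 _).1
    · have h3 : S u = 0 := le_antisymm (not_lt.1 h) (hSmem u).1
      rw [h3, mul_zero, Real.sqrt_zero, mul_zero]
      exact mul_nonneg (hA01 _).1 (hg0 u)
  have hSint : ∫ u in Ioo (0 : ℝ) 1, 2 / R * S u = Real.pi * R ^ 2 / 3 := by
    rw [integral_const_mul, hint]; field_simp; ring
  have hge : Real.pi * R ^ 2 / 3 ≤ ∫ t in Ioo (0 : ℝ) 1, A (S t) * g t := by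
    rw [← hSint]; exact integral_mono_ae hSi hAgi hge_pt
  have hAint : ∫ x in (0 : ℝ)..s0, Real.sqrt (1 - A x ^ 2) = Real.pi * R ^ 2 / 6 := by
    have : ∫ x in (0 : ℝ)..s0, Real.sqrt (1 - A x ^ 2) = ∫ x in (0 : ℝ)..s0, Real.sqrt (1 - x / s0) := by
      refine intervalIntegral.integral_congr fun x hx => ?_
      rw [uIcc_of_le hs0.le] at hx
      have h3 : 0 ≤ x / s0 := div_nonneg hx.1 hs0.le
      simp only [hAx x hx, Real.sq_sqrt h3]
    rw [this, int_sqrt_lin s0 hs0, hs0def]; ring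
  have hup := hle A hAc hA01
  rw [hAint] at hup
  have heqA : ∫ t in Ioo (0 : ℝ) 1, A (S t) * g t = Real.pi * R ^ 2 / 3 := by
    refine le_antisymm ?_ hge
    rw [hQdef] at hup; linarith
  have hApos : ∀ x ∈ Ioc 0 s0, 0 < A x := fun x hx => by
    rw [hAx x ⟨hx.1.le, hx.2⟩]; exact Real.sqrt_pos.2 (div_pos hx.1 hs0)
  have hg1 : ∀ᵐ u ∂(volume.restrict (Ioo (0 : ℝ) 1)), 0 < S u → g u = Real.sqrt (Real.pi * S u) := by
    have hz : ∫ t in Ioo (0 : ℝ) 1, (A (S t) * g t - 2 / R * S t) = 0 := by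
      rw [integral_sub hAgi hSi, heqA, hSint, sub_self]
    rw [setIntegral_eq_zero_iff_of_nonneg_ae] at hz
    · filter_upwards [hz, ae_restrict_mem measurableSet_Ioo] with u hu hu01 hSu
      have h3 : A (S u) * g u - 2 / R * S u = 0 := hu
      rw [← hAS u hu01] at h3
      have h4 : A (S u) * (g u - Real.sqrt (Real.pi * S u)) = 0 := by linarith
      have h5 : A (S u) ≠ 0 := (hApos _ ⟨hSu, hSr u hu01.1.le⟩).ne'
      have := (mul_eq_zero.1 h4).resolve_left h5
      linarith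
    · filter_upwards [hge_pt] with u hu
      simpa using hu
    · exact hAgi.sub hSi
  have hvar := first_variation S hSmeas s0 g hgi A hAc hA01
    (fun x hx => by
      refine ⟨hApos x ⟨hx.1, hx.2.le⟩, ?_⟩
      rw [hAx x ⟨hx.1.le, hx.2.le⟩, Real.sqrt_lt' one_pos, one_pow]
      exact (div_lt_one hs0).2 hx.2) Q hle (by rw [heqA, hAint, hQdef]; linarith)
  have hdist : ∀ β, TestOn s0 β → ∫ t in Ioo (0 : ℝ) 1, β (S t)
      = ∫ t in Ioo 0 R, β (s0 - Real.pi * t ^ 2 / 4) := by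
    intro β hβ
    rw [← int_par s0 R hR0 hs0def β hβ A hAx]
    obtain ⟨hβc, p, q, hp, hpq, hq, hsupp⟩ := hβ
    have hα : TestOn s0 (fun x => β x / Real.sqrt (Real.pi * x)) := by
      refine ⟨?_, p, q, hp, hpq, hq, fun x hx => by simp only [hsupp x hx, zero_div]⟩
      have : (fun x => β x / Real.sqrt (Real.pi * x)) = fun x => β x / Real.sqrt (Real.pi * max x p) := by
        funext x
        by_cases hx : x ∈ Icc p q
        · rw [max_eq_left hx.1]
        · rw [hsupp x hx, zero_div, zero_div]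
      rw [this]
      refine hβc.div (by fun_prop) fun x => ?_
      exact (Real.sqrt_pos.2 (mul_pos hπ (lt_max_of_lt_right hp))).ne'
    rw [← hvar _ hα]
    refine integral_congr_ae ?_
    filter_upwards [hg1, ae_restrict_mem measurableSet_Ioo] with u hu hu01
    by_cases h : 0 < S u
    · rw [hu h]
      have : Real.sqrt (Real.pi * S u) ≠ 0 := (Real.sqrt_pos.2 (by positivity)).ne'
      field_simp
    · have h3 : S u = 0 := le_antisymm (not_lt.1 h) (hSmem u).1
      have : β (S u) = 0 := hsupp _ (fun hh => by rw [h3] at hh; linarith [hh.1])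
      simp only [this, zero_div, zero_mul]
  have hprof := profile_of_dist S hSmeas (hSanti.antitoneOn _) s0 R hs0 hR0 hR1
    (fun t ht => ⟨(hSmem t).1, hSr t ht.1.le⟩) (fun t => s0 - Real.pi * t ^ 2 / 4) (by fun_prop)
    (by
      intro x hx y hy hxy
      have : x ^ 2 < y ^ 2 := by nlinarith [hx.1, hy.1]
      simp only []
      nlinarith)
    (by simp) (by rw [hs0def]; ring) hdist
    (by
      rw [hint, ← integral_Ioc_eq_integral_Ioo, ← intervalIntegral.integral_of_le hR0.le]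
      have hi2 : ∫ t in (0 : ℝ)..R, (s0 - Real.pi * t ^ 2 / 4) = s0 * R - Real.pi / 4 * (R ^ 3 / 3) := by
        have e : (fun t : ℝ => s0 - Real.pi * t ^ 2 / 4) = fun t => s0 - Real.pi / 4 * t ^ 2 := by
          funext t; ring
        rw [e, intervalIntegral.integral_sub (by simp) ((by fun_prop : Continuous fun t : ℝ => Real.pi / 4 * t ^ 2).intervalIntegrable _ _),
          intervalIntegral.integral_const, intervalIntegral.integral_const_mul, integral_pow]
        norm_num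
        ring
      rw [hi2, hs0def]; ring)
  have hSf : ∀ t ∈ Ioo (0 : ℝ) 1, (t < R → 4 * S t / Real.pi = R ^ 2 - t ^ 2) ∧ (R ≤ t → S t = 0) := by
    intro t ht
    refine ⟨fun h => ?_, (hprof t ht).2⟩
    rw [(hprof t ht).1 h, hs0def]; field_simp
  have hgood : ∀ᵐ u : ℝ, u ∈ {u : ℝ | u ∈ Ioo (0 : ℝ) 1 → u < R → ∀ y : Fin 2 → ℝ, (∀ j, 0 ≤ y j ∧ y j < 1) →
      (y ∈ sl k u D ↔ u ^ 2 + y 0 ^ 2 + y 1 ^ 2 < R ^ 2)} := by
    filter_upwards [hgQ, (ae_restrict_iff' measurableSet_Ioo).1 hg1] with u hu hu2 hu01 huR y hy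
    have hf := (hSf u hu01).1 huR
    have hpos : 0 < S u := by
      have h3 : 0 < 4 * S u / Real.pi := by rw [hf]; nlinarith [hu01.1]
      by_contra h
      have h4 : S u = 0 := le_antisymm (not_lt.1 h) (hSmem u).1
      rw [h4] at h3; simp at h3
    have := slice_disc D hD hO k hthin hu01 hpos (by
      intro c hc
      have := hu hu01 c hc
      rw [hu2 hu01 hpos] at this
      exact this) y hy
    rw [this, show sv D k u = S u from rfl, hf]
    constructor <;> intro h <;> linarith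
  intro t y ht0 ht1 hy
  have hy2 : 0 ≤ y 0 ^ 2 + y 1 ^ 2 := by positivity
  rcases lt_or_ge t R with htR | htR
  · constructor
    · intro hyt
      obtain ⟨u, hu, huG, hyu⟩ := exists_above hO k (lt_min ht1 htR) hyt hgood
      have h3 := (huG ⟨ht0.trans_lt hu.1, (lt_min_iff.1 hu.2).1⟩ (lt_min_iff.1 hu.2).2 y hy).1 hyu
      nlinarith [hu.1]
    · intro hlt
      -- choose u slightly above t
      have hcont : ∀ᶠ u in 𝓝[>] t, u ^ 2 + y 0 ^ 2 + y 1 ^ 2 < R ^ 2 := by
        have hc : ContinuousAt (fun u : ℝ => u ^ 2 + y 0 ^ 2 + y 1 ^ 2) t := by fun_prop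
        exact (hc.tendsto.mono_left nhdsWithin_le_nhds).eventually (gt_mem_nhds hlt)
      obtain ⟨b, hb1, hb2⟩ := (hcont.and (Ioo_mem_nhdsGT (lt_min ht1 htR))).exists
      obtain ⟨u, hu, huG⟩ := exists_good hb2.1 hgood
      have hu1 : u < 1 := hu.2.trans (lt_min_iff.1 hb2.2).1
      have huR : u < R := hu.2.trans (lt_min_iff.1 hb2.2).2
      refine sl_anti D hD k hu.1.le ((huG ⟨ht0.trans_lt hu.1, hu1⟩ huR y hy).2 ?_)
      nlinarith [hu.1, hu.2]
  · constructor
    · intro hyt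
      exfalso
      obtain ⟨u, hu, -, hyu⟩ := exists_above hO k ht1 hyt (G := univ) (by simp)
      have hpos : 0 < sv D k u := vol01_pos _ (sl_open D hO k u) y hyu hy
      have := (hSf u ⟨ht0.trans_lt hu.1, hu.2⟩).2 (htR.trans hu.1.le)
      rw [show sv D k u = S u from rfl, this] at hpos
      exact lt_irrefl _ hpos
    · intro hlt
      exfalso
      nlinarith

end Crest.Agent.T3
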