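import Crest.Agent.T3.EqVar

/-! Row 214, (7b): the integrals of the rigidity argument. -/

set_option autoImplicit false
open MeasureTheory Set Filter Topology

namespace Crest.Agent.T3

theorem sub_sin (r : ℝ) (f : ℝ → ℝ) (hf : Continuous f) :
    ∫ t in (0 : ℝ)..r, f t = ∫ θ in (0 : ℝ)..(Real.pi / 2), f (r * Real.sin θ) * (r * Real.cos θ) := by
  have h := intervalIntegral.integral_comp_mul_deriv (a := 0) (b := Real.pi / 2)
    (f := fun θ => r * Real.sin θ) (f' := fun θ => r * Real.cos θ) (g := f)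
    (fun x _ => (Real.hasDerivAt_sin x).const_mul r) (by fun_prop) hf
  simp only [Function.comp, Real.sin_zero, mul_zero, Real.sin_pi_div_two, mul_one] at h
  exact h.symm

theorem sub_cos (r : ℝ) (f : ℝ → ℝ) (hf : Continuous f) :
    ∫ t in (0 : ℝ)..r, f t = ∫ θ in (0 : ℝ)..(Real.pi / 2), f (r * Real.cos θ) * (r * Real.sin θ) := by
  have h := intervalIntegral.integral_comp_mul_deriv (a := 0) (b := Real.pi / 2)
    (f := fun θ => r * Real.cos θ) (f' := fun θ => r * (-Real.sin θ)) (g := f)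
    (fun x _ => (Real.hasDerivAt_cos x).const_mul r) (by fun_prop) hf
  simp only [Function.comp, Real.cos_zero, mul_one, Real.cos_pi_div_two, mul_zero] at h
  rw [intervalIntegral.integral_symm, ← h, ← intervalIntegral.integral_neg]
  congr 1; funext θ; ring

theorem int_sqrt_sub (r : ℝ) (hr : 0 < r) :
    ∫ t in (0 : ℝ)..r, Real.sqrt (r ^ 2 - t ^ 2) = Real.pi * r ^ 2 / 4 := by
  rw [sub_sin r _ (by fun_prop)]
  have : ∫ θ in (0 : ℝ)..(Real.pi / 2), Real.sqrt (r ^ 2 - (r * Real.sin θ) ^ 2) * (r * Real.cos θ)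
      = ∫ θ in (0 : ℝ)..(Real.pi / 2), r ^ 2 * Real.cos θ ^ 2 := by
    refine intervalIntegral.integral_congr fun θ hθ => ?_
    rw [uIcc_of_le (by positivity)] at hθ
    have hc : 0 ≤ Real.cos θ := Real.cos_nonneg_of_mem_Icc ⟨by linarith [hθ.1, Real.pi_pos], hθ.2⟩
    have : r ^ 2 - (r * Real.sin θ) ^ 2 = (r * Real.cos θ) ^ 2 := by
      have := Real.sin_sq_add_cos_sq θ
      nlinarith
    rw [this, Real.sqrt_sq (by positivity)]
    ring
  rw [this, intervalIntegral.integral_const_mul, integral_cos_sq]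
  simp
  ring

theorem int_sqrt_one (r : ℝ) (hr : 0 < r) :
    ∫ t in (0 : ℝ)..r, Real.sqrt (1 - (t / r) ^ 2) = Real.pi * r / 4 := by
  have : ∫ t in (0 : ℝ)..r, Real.sqrt (1 - (t / r) ^ 2)
      = ∫ t in (0 : ℝ)..r, r⁻¹ * Real.sqrt (r ^ 2 - t ^ 2) := by
    congr 1; funext t
    have h : 1 - (t / r) ^ 2 = (r⁻¹) ^ 2 * (r ^ 2 - t ^ 2) := by field_simp
    rw [h, Real.sqrt_mul (by positivity), Real.sqrt_sq (by positivity)]
  rw [this, intervalIntegral.integral_const_mul, int_sqrt_sub r hr]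
  field_simp

/-- Change of variables `x = √(r² - t²)`. -/
theorem int_arc (r : ℝ) (hr : 0 < r) (α : ℝ → ℝ) (hα : TestOn r α) (A : ℝ → ℝ)
    (hA : ∀ x ∈ Icc 0 r, A x = x / r) :
    ∫ x in (0 : ℝ)..r, α x * (A x / Real.sqrt (1 - A x ^ 2))
      = ∫ t in Ioo 0 r, α (Real.sqrt (r ^ 2 - t ^ 2)) := by
  obtain ⟨hαc, p, q, hp, hpq, hq, hsupp⟩ := hα
  set δ := 1 - (q / r) ^ 2 with hδ
  have hqr : q / r < 1 := (div_lt_one hr).2 hq
  have hq0 : 0 < q / r := div_pos (hp.trans hpq) hr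
  have hδ0 : 0 < δ := by rw [hδ]; nlinarith
  have hδx : ∀ x, α x ≠ 0 → 0 < x ∧ δ ≤ 1 - (x / r) ^ 2 := by
    intro x hx
    have hmem : x ∈ Icc p q := by
      by_contra h
      exact hx (hsupp x h)
    have h0 : 0 < x := hp.trans_le hmem.1
    refine ⟨h0, ?_⟩
    have h1 : x / r ≤ q / r := by gcongr; exact hmem.2
    have h2 : 0 ≤ x / r := by positivity
    rw [hδ]; nlinarith
  set h : ℝ → ℝ := fun x => α x * ((x / r) / Real.sqrt (max (1 - (x / r) ^ 2) δ)) with hh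
  have hcont : Continuous h := by
    have hne : ∀ x : ℝ, Real.sqrt (max (1 - (x / r) ^ 2) δ) ≠ 0 := fun x =>
      (Real.sqrt_pos.2 (lt_max_of_lt_right hδ0)).ne'
    exact hαc.mul ((by fun_prop : Continuous fun x : ℝ => x / r).div (by fun_prop) hne)
  have e1 : ∫ x in (0 : ℝ)..r, α x * (A x / Real.sqrt (1 - A x ^ 2)) = ∫ x in (0 : ℝ)..r, h x := by
    refine intervalIntegral.integral_congr fun x hx => ?_
    rw [uIcc_of_le hr.le] at hx
    simp only [hh]
    by_cases hx0 : α x = 0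
    · simp [hx0]
    · rw [hA x hx, max_eq_left (hδx x hx0).2]
  have e2 : ∫ t in Ioo 0 r, α (Real.sqrt (r ^ 2 - t ^ 2)) = ∫ t in (0 : ℝ)..r, α (Real.sqrt (r ^ 2 - t ^ 2)) := by
    rw [intervalIntegral.integral_of_le hr.le, integral_Ioc_eq_integral_Ioo]
  rw [e1, e2, sub_cos r h hcont, sub_sin r (fun t => α (Real.sqrt (r ^ 2 - t ^ 2))) (by fun_prop)]
  refine intervalIntegral.integral_congr fun θ hθ => ?_
  rw [uIcc_of_le (by positivity)] at hθ
  have hc : 0 ≤ Real.cos θ := Real.cos_nonneg_of_mem_Icc ⟨by linarith [hθ.1, Real.pi_pos], hθ.2⟩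
  have hsn : 0 ≤ Real.sin θ := Real.sin_nonneg_of_mem_Icc ⟨hθ.1, by linarith [hθ.2, Real.pi_pos]⟩
  have e3 : r ^ 2 - (r * Real.sin θ) ^ 2 = (r * Real.cos θ) ^ 2 := by
    have := Real.sin_sq_add_cos_sq θ
    nlinarith
  simp only [hh]
  rw [e3, Real.sqrt_sq (by positivity)]
  by_cases hx0 : α (r * Real.cos θ) = 0
  · simp [hx0]
  · have h1 := (hδx _ hx0).2
    rw [max_eq_left h1]
    have h2 : r * Real.cos θ / r = Real.cos θ := by field_simp
    have h3 : 1 - Real.cos θ ^ 2 = Real.sin θ ^ 2 := by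
      have := Real.sin_sq_add_cos_sq θ
      linarith
    rw [h2, h3] at h1 ⊢
    rw [Real.sqrt_sq hsn]
    have h4 : Real.sin θ ≠ 0 := by
      intro h
      rw [h] at h1
      norm_num at h1
      linarith
    field_simp

/-- Change of variables `x = s0 - π t²/4`. -/
theorem int_par (s0 R : ℝ) (hR : 0 < R) (hs0 : s0 = Real.pi * R ^ 2 / 4) (β : ℝ → ℝ) (hβ : TestOn s0 β)
    (A : ℝ → ℝ) (hA : ∀ x ∈ Icc 0 s0, A x = Real.sqrt (x / s0)) :
    ∫ x in (0 : ℝ)..s0, (β x / Real.sqrt (Real.pi * x)) * (A x / Real.sqrt (1 - A x ^ 2))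
      = ∫ t in Ioo 0 R, β (s0 - Real.pi * t ^ 2 / 4) := by
  have hπ := Real.pi_pos
  have hs0p : 0 < s0 := by rw [hs0]; positivity
  obtain ⟨hβc, p, q, hp, hpq, hq, hsupp⟩ := hβ
  set δ := s0 - q with hδ
  have hδ0 : 0 < δ := by rw [hδ]; linarith
  have hδx : ∀ x, β x ≠ 0 → 0 < x ∧ δ ≤ s0 - x := by
    intro x hx
    have hmem : x ∈ Icc p q := by
      by_contra h
      exact hx (hsupp x h)
    exact ⟨hp.trans_le hmem.1, by rw [hδ]; linarith [hmem.2]⟩
  set h : ℝ → ℝ := fun x => β x / (Real.sqrt Real.pi * Real.sqrt (max (s0 - x) δ)) with hh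
  have hcont : Continuous h := by
    have hne : ∀ x : ℝ, Real.sqrt Real.pi * Real.sqrt (max (s0 - x) δ) ≠ 0 := fun x =>
      (mul_pos (Real.sqrt_pos.2 hπ) (Real.sqrt_pos.2 (lt_max_of_lt_right hδ0))).ne'
    exact hβc.div (by fun_prop) hne
  have e1 : ∫ x in (0 : ℝ)..s0, (β x / Real.sqrt (Real.pi * x)) * (A x / Real.sqrt (1 - A x ^ 2))
      = ∫ x in (0 : ℝ)..s0, h x := by
    refine intervalIntegral.integral_congr fun x hx => ?_
    rw [uIcc_of_le hs0p.le] at hx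
    simp only [hh]
    by_cases hx0 : β x = 0
    · simp [hx0]
    · obtain ⟨hxp, hxd⟩ := hδx x hx0
      rw [hA x hx, max_eq_left hxd, Real.sq_sqrt (by positivity)]
      have h1 : 1 - x / s0 = (s0 - x) / s0 := by field_simp
      rw [h1, Real.sqrt_mul hπ.le, Real.sqrt_div hxp.le, Real.sqrt_div (by linarith)]
      have k1 : Real.sqrt x ≠ 0 := (Real.sqrt_pos.2 hxp).ne'
      have k2 : Real.sqrt s0 ≠ 0 := (Real.sqrt_pos.2 hs0p).ne'
      have k3 : Real.sqrt (s0 - x) ≠ 0 := (Real.sqrt_pos.2 (by linarith)).ne'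
      have k4 : Real.sqrt Real.pi ≠ 0 := (Real.sqrt_pos.2 hπ).ne'
      field_simp
  have e2 : ∫ t in Ioo 0 R, β (s0 - Real.pi * t ^ 2 / 4)
      = ∫ t in (0 : ℝ)..R, β (s0 - Real.pi * t ^ 2 / 4) := by
    rw [intervalIntegral.integral_of_le hR.le, integral_Ioc_eq_integral_Ioo]
  have e3 := intervalIntegral.integral_comp_mul_deriv (a := 0) (b := R)
    (f := fun t => s0 - Real.pi * t ^ 2 / 4) (f' := fun t => -(Real.pi * t / 2)) (g := h)
    (fun t _ => by
      have h1 := ((hasDerivAt_pow 2 t).const_mul Real.pi).div_const 4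
      have h2 := h1.const_sub s0
      refine h2.congr_deriv ?_
      norm_num; ring) (by fun_prop) hcont
  have e4 : s0 - Real.pi * R ^ 2 / 4 = 0 := by rw [hs0]; ring
  simp only [Function.comp] at e3
  rw [e4, show s0 - Real.pi * (0 : ℝ) ^ 2 / 4 = s0 by ring] at e3
  rw [e1, e2, intervalIntegral.integral_symm, ← e3, ← intervalIntegral.integral_neg]
  refine intervalIntegral.integral_congr fun t ht => ?_
  rw [uIcc_of_le hR.le] at ht
  simp only [hh]
  by_cases hx0 : β (s0 - Real.pi * t ^ 2 / 4) = 0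
  · simp [hx0]
  · obtain ⟨hxp, hxd⟩ := hδx _ hx0
    rw [max_eq_left hxd]
    have h1 : s0 - (s0 - Real.pi * t ^ 2 / 4) = Real.pi * (t / 2) ^ 2 := by ring
    rw [h1] at hxd ⊢
    have ht0 : 0 < t := by
      rcases eq_or_lt_of_le ht.1 with h | h
      · rw [← h] at hxd; simp at hxd; linarith
      · exact h
    rw [Real.sqrt_mul hπ.le, Real.sqrt_sq (by positivity)]
    have k4 : Real.sqrt Real.pi ≠ 0 := (Real.sqrt_pos.2 hπ).ne'
    have k5 : Real.sqrt Real.pi * Real.sqrt Real.pi = Real.pi := Real.mul_self_sqrt hπ.le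
    have k6 : Real.sqrt Real.pi * (Real.sqrt Real.pi * (t / 2)) = Real.pi * t / 2 := by
      rw [← mul_assoc, k5]; ring
    rw [k6]
    field_simp

end Crest.Agent.T3
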