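import Crest.Agent.T3.Eq3b
import Crest.Agent.IT.StdB

/-! Row 214, (7b): from the slice description to the standard sets. -/

set_option autoImplicit false
open MeasureTheory Set Filter Topology
open Crest.GeometryTopology.PeriodicPerimeter

namespace Crest.Agent.T3

theorem fold_one_null (j : Fin 3) : volume {x : E3 | fold (x j) = 1} = 0 := by
  refine measure_mono_null (t := ⋃ n : ℤ, {x : E3 | x j = (n : ℝ) + 1 / 2}) ?_ ?_
  · intro x hx
    have hx' : 2 * |x j - round (x j)| = 1 := hx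
    have h : |x j - round (x j)| = 1 / 2 := by linarith
    rcases abs_cases (x j - round (x j)) with ⟨h1, _⟩ | ⟨h1, _⟩
    · refine mem_iUnion.2 ⟨round (x j), ?_⟩
      show x j = (round (x j) : ℝ) + 1 / 2
      linarith
    · refine mem_iUnion.2 ⟨round (x j) - 1, ?_⟩
      show x j = ((round (x j) - 1 : ℤ) : ℝ) + 1 / 2
      push_cast
      linarith
  · exact measure_iUnion_null fun n => Crest.Agent.IT.hyperplane_null j _

theorem ae_stdB (D : Set (Fin 3 → ℝ)) (k : Fin 3) (s : Shape) (P : ℝ → (Fin 2 → ℝ) → Prop)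
    (hD : ∀ (t : ℝ) (y : Fin 2 → ℝ), 0 ≤ t → t < 1 → (∀ j, 0 ≤ y j ∧ y j < 1) →
      (y ∈ sl k t D ↔ P t y))
    (hs : ∀ x : E3, (x ∈ stdB s ↔ P (fold (x k)) (fun i => fold (x (k.succAbove i))))) :
    unf D =ᵐ[volume] stdB s := by
  have hae : ∀ᵐ x : E3, ∀ j, fold (x j) ≠ 1 := by
    rw [ae_all_iff]
    intro j
    have := fold_one_null j
    rw [ae_iff]
    simpa using this
  filter_upwards [hae] with x hx
  have h1 : ∀ j, 0 ≤ fold (x j) ∧ fold (x j) < 1 := fun j =>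
    ⟨fold_nonneg _, lt_of_le_of_ne (fold_le_one _) (hx j)⟩
  have h2 : x ∈ unf D ↔ (fun i => fold (x (k.succAbove i))) ∈ sl k (fold (x k)) D := by
    show (fun i => fold (x i)) ∈ D ↔
      k.insertNth (α := fun _ => ℝ) (fold (x k)) (fun i => fold (x (k.succAbove i))) ∈ D
    rw [show k.insertNth (α := fun _ => ℝ) (fold (x k)) (fun i => fold (x (k.succAbove i)))
      = fun i => fold (x i) from Fin.insertNth_self_removeNth k (fun i => fold (x i))]
  have h3 : x ∈ unf D ↔ x ∈ stdB s := by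
    rw [h2, hD _ _ (h1 k).1 (h1 k).2 (fun j => h1 _), hs x]
  exact propext h3

theorem stdB_ball_iff (k : Fin 3) (r : ℝ) (x : E3) : x ∈ stdB (.ball r) ↔
    (fold (x k)) ^ 2 + (fold (x (k.succAbove 0))) ^ 2 + (fold (x (k.succAbove 1))) ^ 2
      < (2 * r) ^ 2 := by
  have h : (fold (x k)) ^ 2 + (fold (x (k.succAbove 0))) ^ 2 + (fold (x (k.succAbove 1))) ^ 2
      = (fold (x 0)) ^ 2 + (fold (x 1)) ^ 2 + (fold (x 2)) ^ 2 := by
    fin_cases k
    · rfl
    · have f0 : (1 : Fin 3).succAbove (0 : Fin 2) = 0 := rfl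
      have f1 : (1 : Fin 3).succAbove (1 : Fin 2) = 2 := rfl
      simp only [Fin.mk_one, f0, f1]
      ring
    · have f0 : (2 : Fin 3).succAbove (0 : Fin 2) = 0 := rfl
      have f1 : (2 : Fin 3).succAbove (1 : Fin 2) = 1 := rfl
      simp only [Fin.reduceFinMk, f0, f1]
      ring
  rw [h]
  show (fold (x 0) / 2) ^ 2 + (fold (x 1) / 2) ^ 2 + (fold (x 2) / 2) ^ 2 < r ^ 2 ↔ _
  constructor <;> intro h' <;> nlinarith

theorem stdB_tube_iff (k : Fin 3) (r : ℝ) (x : E3) : x ∈ stdB (.tube k r) ↔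
    (fold (x (k.succAbove 0))) ^ 2 + (fold (x (k.succAbove 1))) ^ 2 < 4 * r ^ 2 := by
  show (fold (x (k.succAbove 0)) / 2) ^ 2 + (fold (x (k.succAbove 1)) / 2) ^ 2 < r ^ 2 ↔ _
  constructor <;> intro h' <;> nlinarith

/-- The conclusion of the equality case. -/
def StdConcl (V : ℝ) (D : Set (Fin 3 → ℝ)) : Prop :=
  ∃ s : Shape, stdOk s ∧ Crest.Agent.IT.stdV s = V ∧ stdP s = Crest.Agent.IT.prof V ∧
      unf D =ᵐ[volume] stdB s

theorem concl_ball (D : Set (Fin 3 → ℝ)) (hD : IsLowerSet D) (hO : IsOpen D) (k : Fin 3) (R V : ℝ)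
    (hR0 : 0 < R) (hR1 : R < 1) (h0 : sv D k 0 = Real.pi * R ^ 2 / 4) (hEnd : sEnd D k = 0)
    (hV : vol01 D = V) (hVR : V = Real.pi * R ^ 3 / 6) (hp : Crest.Agent.IT.prof V = Real.pi * R ^ 2)
    (hQ : periodicPerimeter (unf D) ≤ ENNReal.ofReal (Crest.Agent.IT.prof V))
    (hthin : ThinDir D k) : StdConcl V D := by
  have h := ball_rigid D hD hO k R hR0 hR1.le h0 hEnd (by rw [hV, hVR])
    (by rw [hp] at hQ; convert hQ using 2; ring) hthin
  refine ⟨.ball (R / 2), ⟨by linarith, by linarith⟩, ?_, ?_,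
    ae_stdB D k _ (fun t y => t ^ 2 + y 0 ^ 2 + y 1 ^ 2 < R ^ 2) h fun x => ?_⟩
  · show 4 / 3 * Real.pi * (R / 2) ^ 3 = V
    rw [hVR]; ring
  · show 4 * Real.pi * (R / 2) ^ 2 = _
    rw [hp]; ring
  · rw [stdB_ball_iff k]
    rw [show (2 * (R / 2)) ^ 2 = R ^ 2 by ring]

theorem concl_tube (D : Set (Fin 3 → ℝ)) (hD : IsLowerSet D) (hO : IsOpen D) (k : Fin 3) (V : ℝ)
    (hV0 : 0 < V) (hV1 : V ≤ 1 / 2) (h0 : sv D k 0 = V) (hEnd : sEnd D k = V)
    (hp : Crest.Agent.IT.prof V = 2 * Real.sqrt (Real.pi * V))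
    (hQ : periodicPerimeter (unf D) ≤ ENNReal.ofReal (Crest.Agent.IT.prof V))
    (hthin : ThinDir D k) : StdConcl V D := by
  have hπ := Real.pi_pos
  have hπ3 := Real.pi_gt_three
  have h := tube_rigid D hD hO k V hV0 h0 hEnd (by rw [hp] at hQ; exact hQ) hthin
  have hr0 : 0 < Real.sqrt (V / Real.pi) := Real.sqrt_pos.2 (by positivity)
  have hr2 : Real.sqrt (V / Real.pi) ^ 2 = V / Real.pi := Real.sq_sqrt (by positivity)
  have hr1 : Real.sqrt (V / Real.pi) < 1 / 2 := by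
    rw [Real.sqrt_lt' (by norm_num), div_lt_iff₀ hπ]
    nlinarith
  refine ⟨.tube k (Real.sqrt (V / Real.pi)), ⟨hr0, hr1⟩, ?_, ?_,
    ae_stdB D k _ (fun t y => y 0 ^ 2 + y 1 ^ 2 < 4 * V / Real.pi) h fun x => ?_⟩
  · show Real.pi * Real.sqrt (V / Real.pi) ^ 2 = V
    rw [hr2]; field_simp
  · show 2 * Real.pi * Real.sqrt (V / Real.pi) = _
    rw [hp]
    have : Real.pi * Real.sqrt (V / Real.pi) = Real.sqrt (Real.pi * V) := by
      rw [show Real.pi * V = (Real.pi * Real.sqrt (V / Real.pi)) ^ 2 by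
        rw [mul_pow, hr2]; field_simp, Real.sqrt_sq (by positivity)]
    linarith
  · rw [stdB_tube_iff k, hr2]
    rw [show 4 * (V / Real.pi) = 4 * V / Real.pi by ring]

theorem concl_slab (D : Set (Fin 3 → ℝ)) (hD : IsLowerSet D) (hO : IsOpen D) (k : Fin 3) (V : ℝ)
    (hV0 : 0 < V) (hV1 : V ≤ 1 / 2) (h1 : ∀ t ∈ Ioo (0 : ℝ) 1, t < V → sv D k t = 1)
    (h0 : ∀ t ∈ Ioo (0 : ℝ) 1, V < t → sv D k t = 0)
    (hp : Crest.Agent.IT.prof V = 2) : StdConcl V D := by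
  have h := slab_rigid D hD hO k V h1 h0
  refine ⟨.slab k V, ⟨hV0, by linarith⟩, rfl, ?_,
    ae_stdB D k _ (fun t y => t < V) h fun x => Iff.rfl⟩
  show (2 : ℝ) = _
  rw [hp]

end Crest.Agent.T3
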