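import Mathlib

/-! Row 214, (7b): first variation in the calibration function and recovery of a monotone profile from its
distribution.  Pure real analysis. -/

set_option autoImplicit false
open MeasureTheory Set Filter Topology

namespace Crest.Agent.T3

/-- Test functions with compact support in `(0, s0)`. -/
def TestOn (s0 : ℝ) (α : ℝ → ℝ) : Prop :=
  Continuous α ∧ ∃ p q : ℝ, 0 < p ∧ p < q ∧ q < s0 ∧ ∀ x, x ∉ Icc p q → α x = 0

theorem first_variation (s : ℝ → ℝ) (hs : Measurable s) (s0 : ℝ)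
    (w : ℝ → ℝ) (hwi : IntegrableOn w (Ioo 0 1))
    (A : ℝ → ℝ) (hA : Continuous A) (hA01 : ∀ x, 0 ≤ A x ∧ A x ≤ 1)
    (hAs : ∀ x ∈ Ioo 0 s0, 0 < A x ∧ A x < 1) (L : ℝ)
    (hle : ∀ a : ℝ → ℝ, Continuous a → (∀ x, 0 ≤ a x ∧ a x ≤ 1) →
      (∫ t in Ioo (0 : ℝ) 1, a (s t) * w t) + ∫ x in (0 : ℝ)..s0, Real.sqrt (1 - a x ^ 2) ≤ L)
    (heq : L ≤ (∫ t in Ioo (0 : ℝ) 1, A (s t) * w t) + ∫ x in (0 : ℝ)..s0, Real.sqrt (1 - A x ^ 2))
    (α : ℝ → ℝ) (hα : TestOn s0 α) :
    ∫ t in Ioo (0 : ℝ) 1, α (s t) * w t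
      = ∫ x in (0 : ℝ)..s0, α x * (A x / Real.sqrt (1 - A x ^ 2)) := by
  obtain ⟨hαc, p, q, hp, hpq, hq, hsupp⟩ := hα
  -- bounds on [p, q]
  have hcompact : IsCompact (Icc p q) := isCompact_Icc
  have hne : (Icc p q).Nonempty := nonempty_Icc.2 hpq.le
  obtain ⟨xm, hxm, hmin⟩ := hcompact.exists_isMinOn hne hA.continuousOn
  obtain ⟨xM, hxM, hmax⟩ := hcompact.exists_isMaxOn hne hA.continuousOn
  have hm0 : 0 < A xm := (hAs xm ⟨hp.trans_le hxm.1, hxm.2.trans_lt hq⟩).1
  have hM1 : A xM < 1 := (hAs xM ⟨hp.trans_le hxM.1, hxM.2.trans_lt hq⟩).2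
  obtain ⟨xB, hxB, hB⟩ := hcompact.exists_isMaxOn hne (hαc.abs.continuousOn)
  set B := |α xB| with hBdef
  have hB0 : 0 ≤ B := abs_nonneg _
  have hαB : ∀ x, |α x| ≤ B := by
    intro x
    by_cases hx : x ∈ Icc p q
    · exact hB hx
    · rw [hsupp x hx, abs_zero]; exact hB0
  set M' := (A xM + 1) / 2 with hM'
  have hM'1 : M' < 1 := by rw [hM']; linarith
  have hM'A : A xM < M' := by rw [hM']; linarith
  have hAxm1 : A xm ≤ A xM := hmin hxM
  have hM'0 : 0 < M' := by linarith
  set e0 := min (A xm) (M' - A xM) / (B + 1) with he0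
  have he0pos : 0 < e0 := by
    rw [he0]; apply div_pos (lt_min hm0 (by linarith)); linarith
  have hrange : ∀ e : ℝ, |e| < e0 → ∀ x ∈ Icc p q, 0 ≤ A x + e * α x ∧ A x + e * α x ≤ M' := by
    intro e he x hx
    have h1 : |e * α x| ≤ min (A xm) (M' - A xM) := by
      rw [abs_mul]
      calc |e| * |α x| ≤ e0 * (B + 1) := by
            apply mul_le_mul he.le ((hαB x).trans (by linarith)) (abs_nonneg _) he0pos.le
        _ = min (A xm) (M' - A xM) := by rw [he0]; field_simp
    have h2 := abs_le.1 (h1.trans (min_le_left _ _))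
    have h3 := abs_le.1 (h1.trans (min_le_right _ _))
    have h4 : A xm ≤ A x := hmin hx
    have h5 : A x ≤ A xM := hmax hx
    constructor <;> linarith [h2.1, h3.2]
  have hrange' : ∀ e : ℝ, |e| < e0 → ∀ x, 0 ≤ A x + e * α x ∧ A x + e * α x ≤ 1 := by
    intro e he x
    by_cases hx : x ∈ Icc p q
    · exact ⟨(hrange e he x hx).1, (hrange e he x hx).2.trans hM'1.le⟩
    · rw [hsupp x hx]; simpa using hA01 x
  set δ := 1 - M' ^ 2 with hδ
  have hδ0 : 0 < δ := by rw [hδ]; nlinarith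
  have hrad : ∀ e : ℝ, |e| < e0 → ∀ x ∈ Icc p q, δ ≤ 1 - (A x + e * α x) ^ 2 := by
    intro e he x hx
    obtain ⟨h1, h2⟩ := hrange e he x hx
    rw [hδ]; nlinarith
  -- the two derivatives
  have hd1 : HasDerivAt (fun e : ℝ => ∫ t in Ioo (0 : ℝ) 1, (A (s t) + e * α (s t)) * w t)
      (∫ t in Ioo (0 : ℝ) 1, α (s t) * w t) 0 := by
    have hi1 : IntegrableOn (fun t => A (s t) * w t) (Ioo 0 1) := by
      refine Integrable.bdd_mul (c := 1) hwi (hA.measurable.comp hs).aestronglyMeasurable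
        (Eventually.of_forall fun t => ?_)
      rw [Real.norm_eq_abs, abs_of_nonneg (hA01 _).1]; exact (hA01 _).2
    have hi2 : IntegrableOn (fun t => α (s t) * w t) (Ioo 0 1) := by
      refine Integrable.bdd_mul (c := B) hwi (hαc.measurable.comp hs).aestronglyMeasurable
        (Eventually.of_forall fun t => ?_)
      exact hαB _
    have hfun : (fun e : ℝ => ∫ t in Ioo (0 : ℝ) 1, (A (s t) + e * α (s t)) * w t)
        = fun e : ℝ => (∫ t in Ioo (0 : ℝ) 1, A (s t) * w t) + e * ∫ t in Ioo (0 : ℝ) 1, α (s t) * w t := by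
      funext e
      rw [← integral_const_mul, ← integral_add hi1 (hi2.const_mul e)]
      congr 1; funext t; ring
    rw [hfun]
    simpa using ((hasDerivAt_id (0 : ℝ)).mul_const (∫ t in Ioo (0 : ℝ) 1, α (s t) * w t)).const_add
      (∫ t in Ioo (0 : ℝ) 1, A (s t) * w t)
  have hd2 : HasDerivAt (fun e : ℝ => ∫ x in (0 : ℝ)..s0, Real.sqrt (1 - (A x + e * α x) ^ 2))
      (∫ x in (0 : ℝ)..s0, -(α x * (A x / Real.sqrt (1 - A x ^ 2)))) 0 := by
    have key := (intervalIntegral.hasDerivAt_integral_of_dominated_loc_of_deriv_le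
      (μ := volume) (a := 0) (b := s0) (x₀ := (0 : ℝ)) (s := Metric.ball 0 e0)
      (F := fun e x => Real.sqrt (1 - (A x + e * α x) ^ 2))
      (F' := fun e x => -(α x * ((A x + e * α x) / Real.sqrt (1 - (A x + e * α x) ^ 2))))
      (bound := fun _ => B * (1 / Real.sqrt δ)) (Metric.ball_mem_nhds 0 he0pos)
      ?_ ?_ ?_ ?_ ?_ ?_).2
    · simpa using key
    · refine Eventually.of_forall fun e => ?_
      exact (by fun_prop : Continuous fun x => Real.sqrt (1 - (A x + e * α x) ^ 2)).aestronglyMeasurable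
    · exact (by fun_prop : Continuous fun x => Real.sqrt (1 - (A x + 0 * α x) ^ 2)).intervalIntegrable _ _
    · refine Measurable.aestronglyMeasurable ?_
      have h1 : Measurable A := hA.measurable
      have h2 : Measurable α := hαc.measurable
      fun_prop
    · refine Eventually.of_forall fun x _ e he => ?_
      rw [Metric.mem_ball, dist_zero_right, Real.norm_eq_abs] at he
      by_cases hx : x ∈ Icc p q
      · rw [norm_neg, norm_mul, norm_div]
        have h1 := hrange e he x hx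
        have h2 := hrad e he x hx
        have h3 : Real.sqrt δ ≤ Real.sqrt (1 - (A x + e * α x) ^ 2) := Real.sqrt_le_sqrt h2
        have h4 : 0 < Real.sqrt δ := Real.sqrt_pos.2 hδ0
        have h5 : ‖A x + e * α x‖ ≤ 1 := by
          rw [Real.norm_eq_abs, abs_of_nonneg h1.1]; linarith [h1.2]
        have h6 : ‖Real.sqrt (1 - (A x + e * α x) ^ 2)‖ = Real.sqrt (1 - (A x + e * α x) ^ 2) := by
          rw [Real.norm_eq_abs, abs_of_nonneg (Real.sqrt_nonneg _)]
        rw [h6]
        apply mul_le_mul (hαB x) _ (by positivity) hB0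
        exact div_le_div₀ (by norm_num) h5 h4 h3
      · rw [hsupp x hx]; simp; positivity
    · exact intervalIntegrable_const
    · refine Eventually.of_forall fun x _ e he => ?_
      rw [Metric.mem_ball, dist_zero_right, Real.norm_eq_abs] at he
      by_cases hx : x ∈ Icc p q
      · have h2 := hrad e he x hx
        have h3 : (1 - (A x + e * α x) ^ 2) ≠ 0 := by linarith
        have h0 : HasDerivAt (fun e : ℝ => A x + e * α x) (α x) e := by
          simpa using ((hasDerivAt_id e).mul_const (α x)).const_add (A x)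
        have hin : HasDerivAt (fun e : ℝ => 1 - (A x + e * α x) ^ 2)
            (-(2 * (A x + e * α x) * α x)) e := by
          have h1 := (h0.fun_pow 2).const_sub 1
          exact h1.congr_deriv (by norm_num)
        have h4 : Real.sqrt (1 - (A x + e * α x) ^ 2) ≠ 0 := (Real.sqrt_pos.2 (by linarith)).ne'
        refine (hin.sqrt h3).congr_deriv ?_
        field_simp
      · simp [hsupp x hx]
        exact hasDerivAt_const _ _
  have hmaxl : IsLocalMax (fun e : ℝ => (∫ t in Ioo (0 : ℝ) 1, (A (s t) + e * α (s t)) * w t)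
      + ∫ x in (0 : ℝ)..s0, Real.sqrt (1 - (A x + e * α x) ^ 2)) 0 := by
    filter_upwards [Metric.ball_mem_nhds (0 : ℝ) he0pos] with e he
    rw [Metric.mem_ball, dist_zero_right, Real.norm_eq_abs] at he
    have := hle (fun x => A x + e * α x) (by fun_prop) (hrange' e he)
    simp only [zero_mul, add_zero]
    exact this.trans heq
  have := hmaxl.hasDerivAt_eq_zero (hd1.add hd2)
  rw [intervalIntegral.integral_neg] at this
  linarith

/-- The trapezoid functions. -/
noncomputable def trap (x0 s0 : ℝ) (n : ℕ) (x : ℝ) : ℝ :=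
  max 0 (min 1 ((n : ℝ) * min (x - x0) (s0 - x) - 1))

theorem trap_cont (x0 s0 : ℝ) (n : ℕ) : Continuous (trap x0 s0 n) := by
  unfold trap; fun_prop

theorem trap_nonneg (x0 s0 : ℝ) (n : ℕ) (x : ℝ) : 0 ≤ trap x0 s0 n x := le_max_left _ _

theorem trap_le_one (x0 s0 : ℝ) (n : ℕ) (x : ℝ) : trap x0 s0 n x ≤ 1 :=
  max_le zero_le_one (min_le_left _ _)

theorem trap_tendsto (x0 s0 x : ℝ) :
    Tendsto (fun n => trap x0 s0 n x) atTop (𝓝 ((Ioo x0 s0).indicator (fun _ => (1 : ℝ)) x)) := by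
  by_cases hx : x ∈ Ioo x0 s0
  · rw [indicator_of_mem hx]
    have hm : 0 < min (x - x0) (s0 - x) := lt_min (by linarith [hx.1]) (by linarith [hx.2])
    refine tendsto_const_nhds.congr' ?_
    have : Tendsto (fun n : ℕ => (n : ℝ) * min (x - x0) (s0 - x)) atTop atTop :=
      tendsto_natCast_atTop_atTop.atTop_mul_const hm
    filter_upwards [this.eventually_ge_atTop 2] with n hn
    unfold trap
    rw [min_eq_left (by linarith), max_eq_right zero_le_one]
  · rw [indicator_of_notMem hx]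
    refine tendsto_const_nhds.congr fun n => ?_
    unfold trap
    have : min (x - x0) (s0 - x) ≤ 0 := by
      by_contra h
      push Not at h
      exact hx ⟨by linarith [(lt_min_iff.1 h).1], by linarith [(lt_min_iff.1 h).2]⟩
    rw [max_eq_left]
    have h2 : (n : ℝ) * min (x - x0) (s0 - x) ≤ 0 :=
      mul_nonpos_of_nonneg_of_nonpos (Nat.cast_nonneg n) this
    exact (min_le_right _ _).trans (by linarith)

theorem trap_test {x0 s0 : ℝ} (hx0 : 0 ≤ x0) (n : ℕ) (hn : 2 < (n : ℝ) * s0) (hn1 : 1 ≤ n)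
    (φ : ℝ → ℝ) (hφ : Continuous φ) : TestOn s0 (fun x => φ x * trap x0 s0 n x) := by
  have hnr : (0 : ℝ) < n := by exact_mod_cast hn1
  refine ⟨hφ.mul (trap_cont _ _ _), 1 / n, s0 - 1 / n, by positivity, ?_, ?_, ?_⟩
  · rw [lt_sub_iff_add_lt, ← add_div, div_lt_iff₀ hnr]; linarith
  · have : (0 : ℝ) < 1 / n := by positivity
    linarith
  · intro x hx
    have : trap x0 s0 n x = 0 := by
      unfold trap
      rw [max_eq_left]
      refine (min_le_right _ _).trans ?_
      have h : min (x - x0) (s0 - x) ≤ 1 / n := by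
        by_contra h
        push Not at h
        have h1 := (lt_min_iff.1 h).1
        have h2 := (lt_min_iff.1 h).2
        exact hx ⟨by linarith, by linarith⟩
      calc (n : ℝ) * min (x - x0) (s0 - x) - 1 ≤ n * (1 / n) - 1 := by gcongr
        _ = 0 := by field_simp; simp
    simp only [this, mul_zero]

theorem dist_indicator (s : ℝ → ℝ) (hs : Measurable s) (s0 R : ℝ) (hs0 : 0 < s0)
    (hsr : ∀ t ∈ Ioo (0 : ℝ) 1, 0 ≤ s t ∧ s t ≤ s0)
    (G : ℝ → ℝ) (hGc : Continuous G) (hGr : ∀ t ∈ Ioo 0 R, 0 ≤ G t ∧ G t ≤ s0)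
    (hdist : ∀ β, TestOn s0 β → ∫ t in Ioo (0 : ℝ) 1, β (s t) = ∫ t in Ioo 0 R, β (G t))
    (φ : ℝ → ℝ) (hφ : Continuous φ) (x0 : ℝ) (hx0 : 0 ≤ x0) :
    ∫ t in Ioo (0 : ℝ) 1, φ (s t) * (Ioo x0 s0).indicator (fun _ => (1 : ℝ)) (s t)
      = ∫ t in Ioo 0 R, φ (G t) * (Ioo x0 s0).indicator (fun _ => (1 : ℝ)) (G t) := by
  obtain ⟨C, hC⟩ := isCompact_Icc.exists_bound_of_continuousOn (s := Icc 0 s0) hφ.continuousOn
  have main : ∀ (f : ℝ → ℝ) (_ : Measurable f) (b : ℝ) (_ : ∀ t ∈ Ioo 0 b, 0 ≤ f t ∧ f t ≤ s0),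
      Tendsto (fun n : ℕ => ∫ t in Ioo 0 b, φ (f t) * trap x0 s0 n (f t)) atTop
        (𝓝 (∫ t in Ioo 0 b, φ (f t) * (Ioo x0 s0).indicator (fun _ => (1 : ℝ)) (f t))) := by
    intro f hf b hfb
    refine tendsto_integral_of_dominated_convergence (fun _ => C) ?_ ?_ ?_ ?_
    · intro n
      exact ((hφ.measurable.comp hf).mul ((trap_cont x0 s0 n).measurable.comp hf)).aestronglyMeasurable
    · exact integrableOn_const (by simp)
    · intro n
      filter_upwards [ae_restrict_mem measurableSet_Ioo] with t ht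
      rw [norm_mul]
      have h1 := hC (f t) (hfb t ht)
      have h2 : ‖trap x0 s0 n (f t)‖ ≤ 1 := by
        rw [Real.norm_eq_abs, abs_of_nonneg (trap_nonneg _ _ _ _)]; exact trap_le_one _ _ _ _
      calc _ ≤ C * 1 := mul_le_mul h1 h2 (norm_nonneg _) ((norm_nonneg _).trans h1)
        _ = C := mul_one C
    · refine Eventually.of_forall fun t => ?_
      exact (trap_tendsto x0 s0 (f t)).const_mul (φ (f t))
  have h1 := main s hs 1 hsr
  have h2 := main G hGc.measurable R hGr
  refine tendsto_nhds_unique h1 (h2.congr' ?_)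
  have : Tendsto (fun n : ℕ => (n : ℝ) * s0) atTop atTop :=
    tendsto_natCast_atTop_atTop.atTop_mul_const hs0
  filter_upwards [this.eventually_gt_atTop 2, eventually_ge_atTop 1] with n hn hn1
  exact (hdist _ (trap_test hx0 n hn hn1 φ hφ)).symm

/-- A monotone profile with the distribution of the strictly decreasing continuous profile `G` on
`(0, s0)` and the same integral is equal to `G`. -/
theorem profile_of_dist (s : ℝ → ℝ) (hs : Measurable s) (hanti : AntitoneOn s (Ioo 0 1)) (s0 R : ℝ)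
    (hs0 : 0 < s0) (hR : 0 < R) (hR1 : R ≤ 1) (hsr : ∀ t ∈ Ioo (0 : ℝ) 1, 0 ≤ s t ∧ s t ≤ s0)
    (G : ℝ → ℝ) (hGc : Continuous G) (hGa : StrictAntiOn G (Icc 0 R)) (hG0 : G 0 = s0)
    (hGR : G R = 0)
    (hdist : ∀ β, TestOn s0 β → ∫ t in Ioo (0 : ℝ) 1, β (s t) = ∫ t in Ioo 0 R, β (G t))
    (hint : ∫ t in Ioo (0 : ℝ) 1, s t = ∫ t in Ioo 0 R, G t) :
    ∀ t ∈ Ioo (0 : ℝ) 1, (t < R → s t = G t) ∧ (R ≤ t → s t = 0) := by
  have hGin : ∀ t ∈ Ioo 0 R, 0 < G t ∧ G t < s0 := by
    intro t ht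
    constructor
    · rw [← hGR]; exact hGa ⟨ht.1.le, ht.2.le⟩ ⟨hR.le, le_rfl⟩ ht.2
    · rw [← hG0]; exact hGa ⟨le_rfl, hR.le⟩ ⟨ht.1.le, ht.2.le⟩ ht.1
  have hGr : ∀ t ∈ Ioo 0 R, 0 ≤ G t ∧ G t ≤ s0 := fun t ht => ⟨(hGin t ht).1.le, (hGin t ht).2.le⟩
  have hsi : IntegrableOn s (Ioo 0 1) := by
    refine Integrable.mono' (g := fun _ => s0) (integrableOn_const (by simp)) hs.aestronglyMeasurable ?_
    filter_upwards [ae_restrict_mem measurableSet_Ioo] with t ht
    rw [Real.norm_eq_abs, abs_of_nonneg (hsr t ht).1]; exact (hsr t ht).2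
  -- no mass at the top
  have htop : ∀ᵐ t ∂(volume.restrict (Ioo (0 : ℝ) 1)), s t < s0 := by
    have h2 := dist_indicator s hs s0 R hs0 hsr G hGc hGr hdist id continuous_id 0 le_rfl
    have h3 : ∫ t in Ioo 0 R, id (G t) * (Ioo 0 s0).indicator (fun _ => (1 : ℝ)) (G t)
        = ∫ t in Ioo 0 R, G t := by
      refine setIntegral_congr_fun measurableSet_Ioo fun t ht => ?_
      have : G t ∈ Ioo 0 s0 := hGin t ht
      simp [indicator_of_mem this]
    rw [h3, ← hint] at h2
    have hmi : IntegrableOn (fun t => id (s t) * (Ioo 0 s0).indicator (fun _ => (1 : ℝ)) (s t)) (Ioo 0 1) := by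
      refine Integrable.mono' hsi ?_ ?_
      · exact (hs.mul ((measurable_const.indicator measurableSet_Ioo).comp hs)).aestronglyMeasurable
      · filter_upwards [ae_restrict_mem measurableSet_Ioo] with t ht
        by_cases h : s t ∈ Ioo 0 s0
        · simp [indicator_of_mem h, abs_of_nonneg (hsr t ht).1]
        · simp [indicator_of_notMem h, (hsr t ht).1]
    have h4 : ∫ t in Ioo (0 : ℝ) 1, (s t - id (s t) * (Ioo 0 s0).indicator (fun _ => (1 : ℝ)) (s t)) = 0 := by
      rw [integral_sub hsi hmi, h2, sub_self]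
    rw [setIntegral_eq_zero_iff_of_nonneg_ae] at h4
    · filter_upwards [h4, ae_restrict_mem measurableSet_Ioo] with t ht ht1
      have ht' : s t = id (s t) * (Ioo 0 s0).indicator (fun _ => (1 : ℝ)) (s t) := by
        simpa [sub_eq_zero] using ht
      by_contra h
      push Not at h
      have h5 : s t ∉ Ioo 0 s0 := fun h6 => absurd h6.2 (not_lt.2 h)
      rw [indicator_of_notMem h5, mul_zero] at ht'
      linarith
    · filter_upwards [ae_restrict_mem measurableSet_Ioo] with t ht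
      by_cases h : s t ∈ Ioo 0 s0
      · simp [indicator_of_mem h]
      · simpa [indicator_of_notMem h] using (hsr t ht).1
    · exact hsi.sub hmi
  -- measures of the superlevel sets
  have hmeas : ∀ x, 0 ≤ x → volume.real (Ioo (0 : ℝ) 1 ∩ {t | x < s t})
      = volume.real (Ioo 0 R ∩ {t | x < G t}) := by
    intro x hx
    have h1 := dist_indicator s hs s0 R hs0 hsr G hGc hGr hdist (fun _ => 1) continuous_const x hx
    simp only [one_mul] at h1
    have e1 : ∫ t in Ioo (0 : ℝ) 1, (Ioo x s0).indicator (fun _ => (1 : ℝ)) (s t)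
        = volume.real (Ioo (0 : ℝ) 1 ∩ {t | x < s t}) := by
      have : ∫ t in Ioo (0 : ℝ) 1, (Ioo x s0).indicator (fun _ => (1 : ℝ)) (s t)
          = ∫ t in Ioo (0 : ℝ) 1, ({t | x < s t}).indicator (fun _ => (1 : ℝ)) t := by
        refine integral_congr_ae ?_
        filter_upwards [htop] with t ht
        by_cases h : x < s t
        · rw [indicator_of_mem (show s t ∈ Ioo x s0 from ⟨h, ht⟩), indicator_of_mem (show t ∈ {t | x < s t} from h)]
        · rw [indicator_of_notMem (fun h' : s t ∈ Ioo x s0 => h h'.1), indicator_of_notMem (fun h' : t ∈ {t | x < s t} => h h')]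
      rw [this, setIntegral_indicator (measurableSet_lt measurable_const hs), setIntegral_const]
      simp
    have e2 : ∫ t in Ioo 0 R, (Ioo x s0).indicator (fun _ => (1 : ℝ)) (G t)
        = volume.real (Ioo 0 R ∩ {t | x < G t}) := by
      have : ∫ t in Ioo 0 R, (Ioo x s0).indicator (fun _ => (1 : ℝ)) (G t)
          = ∫ t in Ioo 0 R, ({t | x < G t}).indicator (fun _ => (1 : ℝ)) t := by
        refine setIntegral_congr_fun measurableSet_Ioo fun t ht => ?_
        by_cases h : x < G t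
        · show (Ioo x s0).indicator (fun _ => (1 : ℝ)) (G t) = _
          rw [indicator_of_mem (show G t ∈ Ioo x s0 from ⟨h, (hGin t ht).2⟩), indicator_of_mem (show t ∈ {t | x < G t} from h)]
        · show (Ioo x s0).indicator (fun _ => (1 : ℝ)) (G t) = _
          rw [indicator_of_notMem (fun h' : G t ∈ Ioo x s0 => h h'.1), indicator_of_notMem (fun h' : t ∈ {t | x < G t} => h h')]
      rw [this, setIntegral_indicator (measurableSet_lt measurable_const hGc.measurable), setIntegral_const]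
      simp
    rw [← e1, ← e2]; exact h1
  have upper : ∀ (a b : ℝ) (S : Set ℝ), 0 ≤ b → S ⊆ Ioo a (a + b) → volume.real S ≤ b := by
    intro a b S hb h
    calc volume.real S ≤ volume.real (Ioo a (a + b)) := measureReal_mono h (by simp)
      _ = b := by simp [Measure.real, hb]
  have lower : ∀ (b : ℝ) (S : Set ℝ), Ioo 0 b ⊆ S → S ⊆ Ioo 0 1 → b ≤ volume.real S := by
    intro b S h h1
    rcases le_or_gt b 0 with hb | hb
    · exact hb.trans measureReal_nonneg
    · calc b = volume.real (Ioo 0 b) := by simp [Measure.real, hb.le]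
        _ ≤ volume.real S := measureReal_mono h (measure_ne_top_of_subset h1 (by simp))
  intro t ht
  -- comparison from above
  have habove : ∀ T, 0 < T → T ≤ R → t < 1 → T ≤ t → s t ≤ G T := by
    intro T hT hTR _ hTt
    by_contra hlt
    push Not at hlt
    obtain ⟨x, hx1, hx2⟩ := exists_between hlt
    have hx0 : 0 < x := by
      rcases eq_or_lt_of_le hTR with h | h
      · rw [h, hGR] at hx1; exact hx1
      · exact (hGin T ⟨hT, h⟩).1.trans hx1
    -- a point below T where G is still < x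
    have hnb : ∀ᶠ u in 𝓝[<] T, G u < x :=
      (hGc.continuousAt.tendsto.mono_left nhdsWithin_le_nhds).eventually (gt_mem_nhds hx1)
    obtain ⟨u, hu1, hu2⟩ := (hnb.and (Ioo_mem_nhdsLT hT)).exists
    have h1 : t ≤ volume.real (Ioo (0 : ℝ) 1 ∩ {t | x < s t}) := by
      refine lower t _ (fun v hv => ⟨⟨hv.1, hv.2.trans ht.2⟩, ?_⟩) inter_subset_left
      exact hx2.trans_le (hanti ⟨hv.1, hv.2.trans ht.2⟩ ht hv.2.le)
    have h2 : volume.real (Ioo 0 R ∩ {t | x < G t}) ≤ u := by
      refine upper 0 u _ hu2.1.le (fun v hv => ⟨hv.1.1, ?_⟩)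
      rw [zero_add]
      by_contra h
      push Not at h
      have := hGa.antitoneOn ⟨hu2.1.le, hu2.2.le.trans hTR⟩ ⟨hv.1.1.le, hv.1.2.le⟩ h
      have h3 : x < G v := hv.2
      linarith
    rw [hmeas x hx0.le] at h1
    linarith [hu2.2]
  constructor
  · intro htR
    refine le_antisymm (habove t ht.1 htR.le ht.2 le_rfl) ?_
    by_contra hlt
    push Not at hlt
    obtain ⟨x, hx1, hx2⟩ := exists_between hlt
    have hx0 : 0 ≤ x := (hsr t ht).1.trans hx1.le
    have hnb : ∀ᶠ u in 𝓝[>] t, x < G u :=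
      (hGc.continuousAt.tendsto.mono_left nhdsWithin_le_nhds).eventually (lt_mem_nhds hx2)
    obtain ⟨u, hu1, hu2⟩ := (hnb.and (Ioo_mem_nhdsGT htR)).exists
    have h1 : volume.real (Ioo (0 : ℝ) 1 ∩ {t | x < s t}) ≤ t := by
      refine upper 0 t _ ht.1.le (fun v hv => ⟨hv.1.1, ?_⟩)
      rw [zero_add]
      by_contra h
      push Not at h
      have := hanti ht hv.1 h
      have h3 : x < s v := hv.2
      linarith
    have h2 : u ≤ volume.real (Ioo 0 R ∩ {t | x < G t}) := by
      refine lower u _ (fun v hv => ⟨⟨hv.1, hv.2.trans hu2.2⟩, ?_⟩)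
        (fun v hv => ⟨hv.1.1, hv.1.2.trans_le hR1⟩)
      exact hu1.trans_le (hGa.antitoneOn ⟨hv.1.le, (hv.2.trans hu2.2).le⟩
        ⟨(ht.1.trans hu2.1).le, hu2.2.le⟩ hv.2.le)
    rw [← hmeas x hx0] at h2
    linarith [hu2.1]
  · intro htR
    refine le_antisymm ?_ (hsr t ht).1
    rw [← hGR]
    exact habove R hR le_rfl ht.2 htR

end Crest.Agent.T3
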