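import Crest.Agent.T3.R1Cor
import Crest.Agent.T3.R1Data

/-! Row 214, region R1: `s(0) ≥ 82/100`. -/

set_option autoImplicit false
open MeasureTheory Set Filter Topology
open Crest.GeometryTopology.PeriodicPerimeter

namespace Crest.Agent.T3
noncomputable section

theorem r1_sEnd_nonneg {n : ℕ} (D : Set (Fin (n + 1) → ℝ)) (k : Fin (n + 1)) : 0 ≤ sEnd D k := by
  unfold sEnd
  refine Real.sInf_nonneg ?_
  rintro x ⟨v, _, rfl⟩
  exact (sv_mem D k v).1

theorem sv_intervalIntegrable (D : Set (Fin 3 → ℝ)) (hD : IsLowerSet D) (k : Fin 3) (a b : ℝ) :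
    IntervalIntegrable (sv D k) volume a b := by
  rw [intervalIntegrable_iff]
  refine MeasureTheory.Measure.integrableOn_of_bounded (M := 1) ?_
    (sv_anti D hD k).measurable.aestronglyMeasurable ?_
  · rw [uIoc, Real.volume_Ioc]; exact ENNReal.ofReal_ne_top
  · exact Eventually.of_forall fun u => by
      rw [Real.norm_eq_abs, abs_of_nonneg (sv_mem D k u).1]
      exact (sv_mem D k u).2

theorem r1_sEnd_le_vol (D : Set (Fin 3 → ℝ)) (hD : IsLowerSet D) (hO : IsOpen D) (k : Fin 3) :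
    sEnd D k ≤ vol01 D := by
  rw [← sv_integral D hO k]
  have h := intervalIntegral.integral_mono_on_of_le_Ioo (μ := volume) (zero_le_one (α := ℝ))
    (intervalIntegrable_const (μ := volume) (c := sEnd D k)) (sv_intervalIntegrable D hD k 0 1)
    (fun u hu => c1_sEnd_le D k u ⟨hu.1.le, hu.2⟩)
  simpa using h

theorem r1_strict (D : Set (Fin 3 → ℝ)) (hD : IsLowerSet D) (hO : IsOpen D) (k : Fin 3)
    (hV0 : 0 < vol01 D) (hV : vol01 D ≤ 1 / 2) (hs : 82 / 100 ≤ sv D k 0)
    (hne : ¬ (sv D k 0 = 1 ∧ sEnd D k = 0)) :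
    ∃ c, Crest.Agent.IT.prof (vol01 D) / 2 < c ∧ QL D c := by
  have hE := r1_sEnd_le_vol D hD hO k
  have hE0 := r1_sEnd_nonneg D k
  have hs1 := (sv_mem D k 0).2
  have hpi := Real.pi_pos
  have hpiu : Real.pi < 3.1416 := Real.pi_lt_d4
  have hpil : 3.1415 < Real.pi := Real.pi_gt_d4
  rcases lt_or_ge (sv D k 0) (9960 / 10000) with h1 | h1
  · refine s_sound D hD hO k hV0 hV (hE.trans hV) r1tab 8200 9960 r1tab_ok ?_ ?_
    · norm_num; linarith
    · norm_num; linarith
  rcases le_or_gt (250 / 10000) (sEnd D k) with h2 | h2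
  · have e1 : r1s9.s0a = 9960 := rfl
    have e2 : r1s9.s0b = 10000 := rfl
    refine bs_sound D hD hO k hV0 hV r1s9.s0a r1s9.m0a r1s9.s0b r1s9.m0b ?_ ?_ r1s9.bs 250 5001
      r1last_ok ?_ ?_
    · rw [e1]; norm_num; linarith
    · rw [e2]; norm_num; linarith
    · norm_num; linarith
    · norm_num; linarith
  -- the corner
  have hsp : ∀ r : ℝ, 0 < r → 1.7724 * r ≤ Real.sqrt (Real.pi * r ^ 2) := by
    intro r hr
    refine Real.le_sqrt_of_sq_le ?_
    nlinarith [sq_nonneg r]
  have hspi : ∀ r : ℝ, 0 < r → r ^ 2 ≤ 1 / 4 → Real.sqrt (Real.pi * r ^ 2) ≤ 1 := by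
    intro r hr hr2
    refine (Real.sqrt_le_sqrt (y := 1) ?_).trans Real.sqrt_one.le
    nlinarith
  have hA : ∀ r : ℝ, 0 < r → r ^ 2 = 1 - sv D k 0 → sEnd D k ≤ 0.17 * r →
      ∃ c, Crest.Agent.IT.prof (vol01 D) / 2 < c ∧ QL D c := by
    intro r hr hre hsr
    have hε : r ^ 2 ≤ 0.004 := by rw [hre]; linarith
    have hr2 : r ≤ 0.063247 := by nlinarith
    have x0 : (0 : ℝ) < 1 / 2 := by norm_num
    have x1 : (1 / 2 : ℝ) ≤ 1 - r ^ 2 := by linarith
    have x2 : 1 - r ^ 2 < 1 := by nlinarith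
    have hr0 : 0 < r ^ 2 := by positivity
    have es : sv D k 0 = 1 - r ^ 2 := by linarith
    have hcal := r1_cal D hD hO k (E := 0) (l := Real.sqrt (Real.pi * r ^ 2)) x0 x1 x2
      (corA_hm hr0 (by linarith)) (Or.inr le_rfl) (Or.inl es.le)
    have hint := corA_int (s1 := sEnd D k) hr0 (by linarith) hE0 (by linarith)
    have hlog := cor_log hr
    rw [es] at hcal
    refine ⟨_, ?_, hcal⟩
    have hl0 := hsp r hr
    have hl1 := hspi r hr (by linarith)
    set l := Real.sqrt (Real.pi * r ^ 2) with hl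
    have hp := prof_half_le (vol01 D) l hV0 (by positivity) (by linarith)
    have hdiv : 0.564171 * r ≤ l / Real.pi := by
      rw [le_div_iff₀ hpi]
      nlinarith
    have k1 : Real.pi * r ^ 2 / 8 ≤ 0.3927 * r ^ 2 := by nlinarith
    have k2 : r ^ 2 ≤ 0.063247 * r := by nlinarith
    nlinarith
  have hB : ∀ r : ℝ, 0 < r → r ^ 2 = sEnd D k → (1 - sv D k 0) ≤ 34.61 * r ^ 4 →
      ∃ c, Crest.Agent.IT.prof (vol01 D) / 2 < c ∧ QL D c := by
    intro r hr hre hsr
    have hε : r ^ 2 ≤ 0.025 := by rw [hre]; linarith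
    have hr2 : r ≤ 0.158115 := by nlinarith
    have hr0 : 0 < r ^ 2 := by positivity
    have hcal := r1_cal D hD hO k (E := Real.sqrt (Real.pi * r ^ 2))
      (l := -Real.sqrt (Real.pi * r ^ 2)) hr0 (by linarith : r ^ 2 ≤ 1 / 2) (by norm_num)
      (corB_hm hr0 (by linarith)) (Or.inl hre.le) (Or.inr (by simp))
    have hint := corB_int (t := r ^ 2) (s0 := sv D k 0) hr0 (by linarith) (by linarith) hs1
    have hlog := cor_log hr
    rw [← hre] at hcal
    refine ⟨_, ?_, hcal⟩
    have hl0 := hsp r hr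
    set l := Real.sqrt (Real.pi * r ^ 2) with hl
    have hp := prof_half_le_one (vol01 D)
    have k1 : Real.pi * r ^ 2 / 8 ≤ 0.3927 * r ^ 2 := by nlinarith
    have k3 : l * vol01 D ≤ l * (1 / 2) := mul_le_mul_of_nonneg_left hV (Real.sqrt_nonneg _)
    have k4 : 0.8862 * r ≤ l + -l * vol01 D := by linarith
    have k5 : (1 - sv D k 0) + 4.2449 * r ^ 2 < 0.7612 * r := by
      rcases le_or_gt 0.1 r with hr3 | hr3
      · have : 4.2449 * r ^ 2 ≤ 0.6713 * r := by nlinarith
        linarith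
      · have q1 : 4.2449 * r ^ 2 ≤ 0.42449 * r := by nlinarith
        have q2 : r ^ 4 ≤ 0.001 * r := by
          have : r ^ 3 ≤ 0.001 := by
            calc r ^ 3 ≤ 0.1 ^ 3 := by gcongr
              _ = 0.001 := by norm_num
          nlinarith
        linarith
    linarith
  rcases eq_or_lt_of_le hE0 with h3 | h3
  · have h4 : sv D k 0 < 1 := lt_of_le_of_ne hs1 fun h => hne ⟨h, h3.symm⟩
    refine hA (Real.sqrt (1 - sv D k 0)) (Real.sqrt_pos.2 (by linarith))
      (Real.sq_sqrt (by linarith)) ?_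
    rw [← h3]
    positivity
  · rcases le_or_gt (sEnd D k) (0.17 * Real.sqrt (1 - sv D k 0)) with h5 | h5
    · have h6 : 0 < Real.sqrt (1 - sv D k 0) := by
        by_contra h
        have : Real.sqrt (1 - sv D k 0) = 0 := le_antisymm (not_lt.1 h) (Real.sqrt_nonneg _)
        rw [this] at h5
        linarith
      exact hA _ h6 (Real.sq_sqrt (by linarith)) h5
    · have h6 : Real.sqrt (sEnd D k) ^ 2 = sEnd D k := Real.sq_sqrt hE0
      refine hB (Real.sqrt (sEnd D k)) (Real.sqrt_pos.2 h3) h6 ?_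
      have h7 : Real.sqrt (sEnd D k) ^ 4 = sEnd D k ^ 2 := by
        calc Real.sqrt (sEnd D k) ^ 4 = (Real.sqrt (sEnd D k) ^ 2) ^ 2 := by ring
          _ = _ := by rw [h6]
      rw [h7]
      have h8 := Real.sq_sqrt (show 0 ≤ 1 - sv D k 0 by linarith)
      have h9 := Real.sqrt_nonneg (1 - sv D k 0)
      nlinarith

/-- the case of full first and empty last slice -/
theorem r1_slab (D : Set (Fin 3 → ℝ)) (hD : IsLowerSet D) (hO : IsOpen D) (k : Fin 3)
    (h1 : sv D k 0 = 1) (h0 : sEnd D k = 0) :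
    QL D 1 ∧ (∀ c : ℝ, (∀ c', QL D c' → c' ≤ c) → c ≤ 1 →
      (∀ t ∈ Ioo 0 (vol01 D), sv D k t = 1) ∧ ∀ t ∈ Ioo (vol01 D) 1, sv D k t = 0) := by
  have hgq : ∀ u ∈ Ioo (0 : ℝ) 1, QL (sl k u D) (mm (sv D k u)) := fun u _ =>
    slice_basic D hD hO k u
  have hSm : Measurable (sv D k) := (sv_anti D hD k).measurable
  have hgm : Measurable (fun u => mm (sv D k u)) := mm_cont.measurable.comp hSm
  have hg : ∀ u, mm (sv D k u) ∈ Icc (0 : ℝ) 1 := fun u => ⟨mm_nonneg _, mm_le_one _⟩
  have hgen : ∀ δ : ℝ, 0 ≤ δ → δ ≤ 1 →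
      QL D (δ * (∫ u in (0 : ℝ)..1, mm (sv D k u) ^ 2) + (1 - δ ^ 2)) := by
    intro δ hδ hδ1
    have hac : Continuous (fun s => δ * mm s) := continuous_const.mul mm_cont
    have hbc : Continuous (fun s => Real.sqrt (1 - (δ * mm s) ^ 2)) := by
      have := mm_cont; fun_prop
    have hbd : ∀ s, (δ * mm s) ^ 2 ≤ δ ^ 2 := fun s => by
      rw [mul_pow]
      have := mm_nonneg s
      have := mm_le_one s
      have : mm s ^ 2 ≤ 1 := by nlinarith
      nlinarith [sq_nonneg δ]
    have hδ2 : δ ^ 2 ≤ 1 := by nlinarith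
    have h := slice_C1 D hD hO k (fun u => mm (sv D k u)) 1 hgm hg hgq (fun s => δ * mm s)
      (fun s => Real.sqrt (1 - (δ * mm s) ^ 2)) hac.continuousOn hbc.continuousOn (fun s _ => by
        refine ⟨mul_nonneg hδ (mm_nonneg _), Real.sqrt_nonneg _, ?_⟩
        rw [Real.sq_sqrt (by linarith [hbd s])]
        linarith)
    refine QLmono ?_ h
    rw [h0, h1]
    have e : ∀ u, δ * mm (sv D k u) * mm (sv D k u) = δ * mm (sv D k u) ^ 2 := fun u => by ring
    simp only [e]
    rw [intervalIntegral.integral_const_mul]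
    have : (1 - δ ^ 2) ≤ ∫ s in (0 : ℝ)..1, Real.sqrt (1 - (δ * mm s) ^ 2) := by
      have h3 := intervalIntegral.integral_mono_on (μ := volume) (zero_le_one (α := ℝ))
        (intervalIntegrable_const (μ := volume) (c := 1 - δ ^ 2)) (hbc.intervalIntegrable 0 1)
        (fun s _ => by
          refine Real.le_sqrt_of_sq_le ?_
          have := hbd s
          nlinarith [sq_nonneg δ])
      simpa using h3
    linarith
  refine ⟨by simpa using hgen 0 le_rfl zero_le_one, fun c hc hc1 => ?_⟩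
  set I := ∫ u in (0 : ℝ)..1, mm (sv D k u) ^ 2 with hI
  have hI0 : 0 ≤ I := intervalIntegral.integral_nonneg zero_le_one fun u _ => sq_nonneg _
  have hIle : ∀ δ : ℝ, 0 < δ → δ ≤ 1 → I ≤ δ := by
    intro δ hδ hδ1
    have := (hc _ (hgen δ hδ.le hδ1)).trans hc1
    nlinarith
  have hIz : I = 0 := by
    by_contra h
    have hp : 0 < I := lt_of_le_of_ne hI0 (Ne.symm h)
    have := hIle (min 1 (I / 2)) (lt_min one_pos (by linarith)) (min_le_left _ _)
    have h2 : min 1 (I / 2) ≤ I / 2 := min_le_right _ _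
    linarith
  have hint : IntervalIntegrable (fun u => mm (sv D k u) ^ 2) volume 0 1 := by
    rw [intervalIntegrable_iff]
    refine MeasureTheory.Measure.integrableOn_of_bounded (M := 1) ?_
      (hgm.pow_const 2).aestronglyMeasurable ?_
    · rw [uIoc, Real.volume_Ioc]; exact ENNReal.ofReal_ne_top
    · exact Eventually.of_forall fun u => by
        have a := mm_nonneg (sv D k u)
        have b := mm_le_one (sv D k u)
        rw [Real.norm_eq_abs, abs_of_nonneg (sq_nonneg _)]
        nlinarith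
  have hae : ∀ᵐ u : ℝ, u ∈ Ioc (0 : ℝ) 1 → mm (sv D k u) ^ 2 = 0 := by
    have h5 := (intervalIntegral.integral_eq_zero_iff_of_le_of_nonneg_ae
      (zero_le_one (α := ℝ)) (Eventually.of_forall fun u => sq_nonneg (mm (sv D k u))) hint).1
      hIz
    rw [← ae_restrict_iff' measurableSet_Ioc]
    filter_upwards [h5] with u hu using hu
  have hae2 : ∀ᵐ u : ℝ, u ∈ Ioo (0 : ℝ) 1 → sv D k u = 0 ∨ sv D k u = 1 := by
    filter_upwards [hae] with u hu h2
    have h3 := hu ⟨h2.1, h2.2.le⟩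
    by_contra hcon
    push Not at hcon
    have hm := sv_mem D k u
    have := mm_pos (lt_of_le_of_ne hm.1 (Ne.symm hcon.1)) (lt_of_le_of_ne hm.2 hcon.2)
    have : 0 < mm (sv D k u) ^ 2 := by positivity
    linarith
  have hVi := sv_integral D hO k
  have hii := fun a b => sv_intervalIntegrable D hD k a b
  constructor
  · intro t ht
    by_contra hcon
    have htt : sv D k t < 1 := lt_of_le_of_ne (sv_mem D k t).2 hcon
    have hV1 : vol01 D ≤ 1 := by
      rw [← hVi]
      have h3 := intervalIntegral.integral_mono_on (μ := volume) (zero_le_one (α := ℝ)) (hii 0 1)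
        (intervalIntegrable_const (μ := volume) (c := (1 : ℝ))) (fun u _ => (sv_mem D k u).2)
      simpa using h3
    have ht1 : t < 1 := ht.2.trans_le hV1
    have e2 : ∫ u in t..1, sv D k u = 0 := by
      rw [intervalIntegral.integral_zero_ae]
      have h1ae : ∀ᵐ u : ℝ, u ≠ 1 := by
        rw [ae_iff]; simp
      filter_upwards [hae2, h1ae] with u hu hu1 h2
      rw [uIoc_of_le ht1.le] at h2
      rcases hu ⟨ht.1.trans h2.1, lt_of_le_of_ne h2.2 hu1⟩ with h | h
      · exact h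
      · have := sv_anti D hD k h2.1.le
        linarith
    have e1 : ∫ u in (0 : ℝ)..t, sv D k u ≤ t := by
      have h3 := intervalIntegral.integral_mono_on (μ := volume) ht.1.le (hii 0 t)
        (intervalIntegrable_const (μ := volume) (c := (1 : ℝ))) (fun u _ => (sv_mem D k u).2)
      simpa using h3
    have := intervalIntegral.integral_add_adjacent_intervals (hii 0 t) (hii t 1)
    have h9 := ht.2
    linarith
  · intro t ht
    by_contra hcon
    have htt : 0 < sv D k t := lt_of_le_of_ne (sv_mem D k t).1 (Ne.symm hcon)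
    have hV0 : 0 ≤ vol01 D := ENNReal.toReal_nonneg
    have ht0 : 0 < t := hV0.trans_lt ht.1
    have e2 : ∫ u in (0 : ℝ)..t, sv D k u = t := by
      have : ∫ u in (0 : ℝ)..t, sv D k u = ∫ u in (0 : ℝ)..t, (1 : ℝ) := by
        refine intervalIntegral.integral_congr_ae ?_
        filter_upwards [hae2] with u hu h2
        rw [uIoc_of_le ht0.le] at h2
        rcases hu ⟨h2.1, h2.2.trans_lt ht.2⟩ with h | h
        · have := sv_anti D hD k h2.2
          linarith
        · exact h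
      rw [this]; simp
    have e1 : 0 ≤ ∫ u in t..1, sv D k u :=
      intervalIntegral.integral_nonneg ht.2.le fun u _ => (sv_mem D k u).1
    have := intervalIntegral.integral_add_adjacent_intervals (hii 0 t) (hii t 1)
    have h9 := ht.1
    linarith

/-- **Region R1.** -/
theorem r1_main (D : Set (Fin 3 → ℝ)) (hD : IsLowerSet D) (hO : IsOpen D) (k : Fin 3)
    (hV0 : 0 < vol01 D) (hV : vol01 D ≤ 1 / 2) (hs : 82 / 100 ≤ sv D k 0) :
    (∃ c, Crest.Agent.IT.prof (vol01 D) / 2 < c ∧ QL D c) ∨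
    (QL D (Crest.Agent.IT.prof (vol01 D) / 2) ∧
      (periodicPerimeter (unf D) ≤ ENNReal.ofReal (Crest.Agent.IT.prof (vol01 D)) →
        1 / Real.pi ≤ vol01 D ∧ (∀ t ∈ Ioo 0 (vol01 D), sv D k t = 1) ∧
          ∀ t ∈ Ioo (vol01 D) 1, sv D k t = 0)) := by
  by_cases hne : sv D k 0 = 1 ∧ sEnd D k = 0
  swap
  · exact Or.inl (r1_strict D hD hO k hV0 hV hs hne)
  right
  obtain ⟨h1, h2⟩ := r1_slab D hD hO k hne.1 hne.2
  refine ⟨QLmono (prof_half_le_one _) h1, fun hP => ?_⟩
  have hprof0 : 0 ≤ Crest.Agent.IT.prof (vol01 D) := by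
    unfold Crest.Agent.IT.prof
    exact le_min (le_min (by positivity) (by positivity)) zero_le_two
  have hc : ∀ c', QL D c' → c' ≤ Crest.Agent.IT.prof (vol01 D) / 2 := by
    intro c' hc'
    unfold QL at hc'
    have := (ENNReal.ofReal_le_ofReal_iff hprof0).1 (hc'.trans hP)
    linarith
  obtain ⟨h3, h4⟩ := h2 _ hc (prof_half_le_one _)
  refine ⟨?_, h3, h4⟩
  have h5 := hc 1 h1
  by_contra hcon
  push Not at hcon
  have h6 : Crest.Agent.IT.prof (vol01 D) ≤ 2 * Real.sqrt (Real.pi * vol01 D) :=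
    (min_le_left _ _).trans (min_le_right _ _)
  have hpi := Real.pi_pos
  have h7 : Real.sqrt (Real.pi * vol01 D) < 1 := by
    rw [Real.sqrt_lt' one_pos]
    rw [lt_div_iff₀ hpi] at hcon
    linarith
  linarith

end

end Crest.Agent.T3
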