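import Crest.Agent.T3.Eq3b

/-! Row 214: the one-dimensional inequality for thin directions (`s0 ≤ 2/5`), with equality information. -/

set_option autoImplicit false
open MeasureTheory Set Filter Topology
open Crest.GeometryTopology.PeriodicPerimeter

namespace Crest.Agent.T3

/-- The calibration `a(s) = (r + c/r)/σ`, `r = √(4s/π)`, clamped to `[s1, s0]`. -/
noncomputable def thinA (r0 r1 x : ℝ) : ℝ :=
  (4 * max (Real.pi * r1 ^ 2 / 4) (min x (Real.pi * r0 ^ 2 / 4)) / Real.pi + r0 * r1) /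
    ((r0 + r1) * Real.sqrt (4 * max (Real.pi * r1 ^ 2 / 4) (min x (Real.pi * r0 ^ 2 / 4)) / Real.pi))

theorem thinA_cont (r0 r1 : ℝ) (h1 : 0 < r1) (h01 : r1 ≤ r0) : Continuous (thinA r0 r1) := by
  have hπ := Real.pi_pos
  unfold thinA
  refine Continuous.div (by fun_prop) (by fun_prop) fun x => ?_
  have h2 : 0 < max (Real.pi * r1 ^ 2 / 4) (min x (Real.pi * r0 ^ 2 / 4)) :=
    lt_max_of_lt_left (by positivity)
  have h3 : 0 < Real.sqrt (4 * max (Real.pi * r1 ^ 2 / 4) (min x (Real.pi * r0 ^ 2 / 4)) / Real.pi) :=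
    Real.sqrt_pos.2 (by positivity)
  have : 0 < r0 + r1 := by linarith
  positivity

/-- Value of the calibration at `s = π ρ²/4`, `ρ ∈ [r1, r0]`. -/
theorem thinA_eq (r0 r1 ρ : ℝ) (h1 : 0 < r1) (hρ1 : r1 ≤ ρ) (hρ0 : ρ ≤ r0) :
    thinA r0 r1 (Real.pi * ρ ^ 2 / 4) = (ρ ^ 2 + r0 * r1) / ((r0 + r1) * ρ) := by
  have hπ := Real.pi_pos
  have hρ : 0 < ρ := h1.trans_le hρ1
  have e1 : min (Real.pi * ρ ^ 2 / 4) (Real.pi * r0 ^ 2 / 4) = Real.pi * ρ ^ 2 / 4 := by
    refine min_eq_left ?_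
    have := pow_le_pow_left₀ hρ.le hρ0 2
    nlinarith
  have e2 : max (Real.pi * r1 ^ 2 / 4) (Real.pi * ρ ^ 2 / 4) = Real.pi * ρ ^ 2 / 4 := by
    refine max_eq_right ?_
    have := pow_le_pow_left₀ h1.le hρ1 2
    nlinarith
  unfold thinA
  rw [e1, e2]
  have e3 : 4 * (Real.pi * ρ ^ 2 / 4) / Real.pi = ρ ^ 2 := by field_simp
  rw [e3, Real.sqrt_sq hρ.le]

theorem thinA_mem (r0 r1 : ℝ) (h1 : 0 < r1) (h01 : r1 ≤ r0) (x : ℝ) :
    0 ≤ thinA r0 r1 x ∧ thinA r0 r1 x ≤ 1 := by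
  have hπ := Real.pi_pos
  -- the clamped point is `π ρ²/4`
  set m := max (Real.pi * r1 ^ 2 / 4) (min x (Real.pi * r0 ^ 2 / 4)) with hm
  have hm1 : Real.pi * r1 ^ 2 / 4 ≤ m := le_max_left _ _
  have hm0 : m ≤ Real.pi * r0 ^ 2 / 4 := by
    refine max_le ?_ (min_le_right _ _)
    have := pow_le_pow_left₀ h1.le h01 2
    nlinarith
  have hmpos : 0 < m := lt_of_lt_of_le (by positivity) hm1
  set ρ := Real.sqrt (4 * m / Real.pi) with hρ
  have hρpos : 0 < ρ := Real.sqrt_pos.2 (by positivity)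
  have hρ2 : ρ ^ 2 = 4 * m / Real.pi := Real.sq_sqrt (by positivity)
  have hρ1 : r1 ≤ ρ := by
    refine Real.le_sqrt_of_sq_le ?_
    rw [le_div_iff₀ hπ]; linarith
  have hρ0 : ρ ≤ r0 := by
    refine Real.sqrt_le_iff.2 ⟨h1.le.trans h01, ?_⟩
    rw [div_le_iff₀ hπ]; linarith
  have hA : thinA r0 r1 x = (ρ ^ 2 + r0 * r1) / ((r0 + r1) * ρ) := by
    unfold thinA
    rw [← hm, hρ2]
  have hr0 : 0 < r0 := h1.trans_le h01
  rw [hA]
  refine ⟨by positivity, ?_⟩
  rw [div_le_one (by positivity)]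
  nlinarith [mul_nonneg (sub_nonneg.2 hρ1) (sub_nonneg.2 hρ0)]

/-- The substitution integral. -/
theorem thin_int (r0 r1 : ℝ) (h1 : 0 < r1) (h01 : r1 < r0) :
    Real.pi * (r0 - r1) ^ 2 / (4 * (r0 + r1) ^ 2) * (2 * (r0 - r1) ^ 2 / 3 + Real.pi * (r0 * r1)) ≤
      ∫ s in (Real.pi * r1 ^ 2 / 4)..(Real.pi * r0 ^ 2 / 4), Real.sqrt (1 - thinA r0 r1 s ^ 2) := by
  have hπ := Real.pi_pos
  have hr0 : 0 < r0 := h1.trans h01
  set D := r0 - r1 with hD
  set σ := r0 + r1 with hσ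
  set c := r0 * r1 with hc
  have hDpos : 0 < D := by rw [hD]; linarith
  have hσpos : 0 < σ := by rw [hσ]; linarith
  have hcpos : 0 < c := by rw [hc]; positivity
  have hσ2 : σ ^ 2 = D ^ 2 + 4 * c := by rw [hσ, hD, hc]; ring
  have hDσ : D < σ := by rw [hσ, hD]; linarith
  set w : ℝ → ℝ := fun φ => Real.sqrt (D ^ 2 * Real.sin φ ^ 2 + 4 * c) with hw
  have hwpos : ∀ φ, 0 < w φ := fun φ => Real.sqrt_pos.2 (by positivity)
  have hw2 : ∀ φ, w φ ^ 2 = D ^ 2 * Real.sin φ ^ 2 + 4 * c := fun φ => Real.sq_sqrt (by positivity)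
  have hwd : ∀ φ, HasDerivAt w (D ^ 2 * Real.sin φ * Real.cos φ / w φ) φ := by
    intro φ
    have h3 : HasDerivAt (fun φ => D ^ 2 * Real.sin φ ^ 2 + 4 * c)
        (D ^ 2 * (2 * Real.sin φ * Real.cos φ)) φ := by
      have := (((Real.hasDerivAt_sin φ).pow 2).const_mul (D ^ 2)).add_const (4 * c)
      refine this.congr_deriv ?_
      simp
    have h4 := h3.sqrt (by positivity)
    refine h4.congr_deriv ?_
    rw [hw]
    simp only []
    field_simp
  set ρ : ℝ → ℝ := fun φ => (D * Real.sin φ + w φ) / 2 with hρ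
  have hρd : ∀ φ, HasDerivAt ρ ((D * Real.cos φ + D ^ 2 * Real.sin φ * Real.cos φ / w φ) / 2) φ :=
    fun φ => (((Real.hasDerivAt_sin φ).const_mul D).add (hwd φ)).div_const 2
  have hρpos : ∀ φ, 0 < ρ φ := by
    intro φ
    have h3 : -(D * Real.sin φ) < w φ := by
      refine lt_of_le_of_lt (neg_le_abs _) ?_
      rw [← Real.sqrt_sq_eq_abs]
      exact Real.sqrt_lt_sqrt (by positivity) (by nlinarith)
    rw [hρ]; simp only []; linarith
  -- `ρ² + c = ρ w`
  have hρw : ∀ φ, ρ φ ^ 2 + c = ρ φ * w φ := by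
    intro φ
    have := hw2 φ
    rw [hρ]; simp only []; nlinarith
  set st : ℝ → ℝ := fun φ => Real.pi * ρ φ ^ 2 / 4 with hst
  set st' : ℝ → ℝ := fun φ => Real.pi * (D * Real.cos φ) * (D * Real.sin φ + w φ) ^ 2 / (8 * w φ) with hst'
  have hstd : ∀ φ, HasDerivAt st (st' φ) φ := by
    intro φ
    have := (((hρd φ).pow 2).const_mul Real.pi).div_const 4
    refine this.congr_deriv ?_
    rw [hst', hρ]
    simp only []
    have h3 := (hwpos φ).ne'
    field_simp
    ring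
  have hwc : Continuous w := continuous_iff_continuousAt.2 fun φ => (hwd φ).continuousAt
  have hst'c : Continuous st' := by
    rw [hst']
    refine Continuous.div (by fun_prop) (by fun_prop) fun φ => ?_
    have := hwpos φ
    positivity
  have hbc : Continuous fun s => Real.sqrt (1 - thinA r0 r1 s ^ 2) := by
    have := thinA_cont r0 r1 h1 h01.le
    fun_prop
  have hend1 : st (-(Real.pi / 2)) = Real.pi * r1 ^ 2 / 4 := by
    rw [hst, hρ, hw]
    simp only [Real.sin_neg, Real.sin_pi_div_two]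
    rw [show D ^ 2 * (-1) ^ 2 + 4 * c = σ ^ 2 by rw [hσ2]; ring, Real.sqrt_sq hσpos.le, hD, hσ]
    ring
  have hend0 : st (Real.pi / 2) = Real.pi * r0 ^ 2 / 4 := by
    rw [hst, hρ, hw]
    simp only [Real.sin_pi_div_two]
    rw [show D ^ 2 * 1 ^ 2 + 4 * c = σ ^ 2 by rw [hσ2]; ring, Real.sqrt_sq hσpos.le, hD, hσ]
    ring
  have hsub := intervalIntegral.integral_comp_mul_deriv (a := -(Real.pi / 2)) (b := Real.pi / 2)
    (f := st) (f' := st') (g := fun s => Real.sqrt (1 - thinA r0 r1 s ^ 2)) (fun φ _ => hstd φ)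
    hst'c.continuousOn hbc
  rw [hend1, hend0] at hsub
  rw [← hsub]
  -- the integrand
  set I : ℝ → ℝ := fun φ => Real.cos φ ^ 2 * ((D * Real.sin φ + w φ) ^ 2 / (2 * w φ)) with hI
  have hint : ∫ φ in (-(Real.pi / 2))..(Real.pi / 2),
      ((fun s => Real.sqrt (1 - thinA r0 r1 s ^ 2)) ∘ st) φ * st' φ =
      ∫ φ in (-(Real.pi / 2))..(Real.pi / 2), Real.pi * D ^ 2 / (4 * σ) * I φ := by
    refine intervalIntegral.integral_congr fun φ hφ => ?_
    rw [uIcc_of_le (by linarith)] at hφ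
    have hcos : 0 ≤ Real.cos φ := Real.cos_nonneg_of_neg_pi_div_two_le_of_le hφ.1 hφ.2
    have hsin1 := Real.sin_le_one φ
    have hsin2 := Real.neg_one_le_sin φ
    have hwσ : w φ ≤ σ := by
      refine Real.sqrt_le_iff.2 ⟨hσpos.le, ?_⟩
      rw [hσ2]; nlinarith [Real.sin_sq_le_one φ, sq_nonneg D]
    have hρ0 : ρ φ ≤ r0 := by
      have h3 : ρ φ ≤ (D * 1 + σ) / 2 := by
        rw [hρ]; simp only []; nlinarith
      rw [hD, hσ] at h3; linarith
    have hρ1 : r1 ≤ ρ φ := by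
      -- `ρ w = ρ² + c`, `ρ ≤ r0`: `(ρ - r1)(ρ - r0) ≤ 0`
      have h3 := hρw φ
      have h4 : ρ φ ^ 2 + c ≤ ρ φ * σ := by rw [h3]; exact mul_le_mul_of_nonneg_left hwσ (hρpos φ).le
      by_contra hlt
      push Not at hlt
      rw [hc, hσ] at h4
      nlinarith [mul_pos (sub_pos.2 hlt) (sub_pos.2 (hlt.trans h01))]
    have ha : thinA r0 r1 (st φ) = w φ / σ := by
      rw [hst]
      simp only []
      rw [thinA_eq r0 r1 (ρ φ) h1 hρ1 hρ0, ← hc, ← hσ, hρw φ]
      have := (hρpos φ).ne'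
      field_simp
    have hb : Real.sqrt (1 - thinA r0 r1 (st φ) ^ 2) = D * Real.cos φ / σ := by
      rw [ha]
      have : 1 - (w φ / σ) ^ 2 = (D * Real.cos φ / σ) ^ 2 := by
        rw [div_pow, hw2, div_pow, mul_pow, Real.cos_sq', hσ2]
        field_simp
        ring
      rw [this, Real.sqrt_sq (by positivity)]
    simp only [Function.comp_apply]
    rw [hb, hst', hI]
    simp only []
    have := (hwpos φ).ne'
    field_simp
    ring
  rw [hint, intervalIntegral.integral_const_mul]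
  -- integration by parts
  set U : ℝ → ℝ := fun φ => -(D / 3) * Real.cos φ ^ 3 + 1 / 2 * (Real.cos φ * Real.sin φ * w φ) with hU
  have hUd : ∀ φ, HasDerivAt U (I φ - 1 / 2 * (Real.sin φ ^ 2 * w φ)) φ := by
    intro φ
    have h3 := ((Real.hasDerivAt_cos φ).pow 3).const_mul (-(D / 3))
    have h4 := ((((Real.hasDerivAt_cos φ).mul (Real.hasDerivAt_sin φ)).mul (hwd φ)).const_mul (1 / 2))
    refine (h3.add h4).congr_deriv ?_
    rw [hI]
    simp only [Pi.mul_apply]
    have h5 := (hwpos φ).ne'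
    have h6 := hw2 φ
    have h7 : Real.cos φ ^ 2 * ((D * Real.sin φ + w φ) ^ 2 / (2 * w φ)) =
        Real.cos φ ^ 2 * (D * Real.sin φ) + Real.cos φ ^ 2 * (w φ / 2) +
          Real.cos φ ^ 2 * (D ^ 2 * Real.sin φ ^ 2 / (2 * w φ)) := by
      field_simp
      ring
    rw [h7]
    field_simp
    ring
  have hIc : Continuous I := by
    rw [hI]
    refine Continuous.mul (by fun_prop) (Continuous.div (by fun_prop) (by fun_prop) fun φ => ?_)
    have := hwpos φ
    positivity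
  have hparts : ∫ φ in (-(Real.pi / 2))..(Real.pi / 2), (I φ - 1 / 2 * (Real.sin φ ^ 2 * w φ)) = 0 := by
    rw [intervalIntegral.integral_eq_sub_of_hasDerivAt (fun φ _ => hUd φ)
      (((by fun_prop : Continuous fun φ => I φ - 1 / 2 * (Real.sin φ ^ 2 * w φ))).intervalIntegrable _ _)]
    rw [hU]
    simp
  have hsw : Continuous fun φ => Real.sin φ ^ 2 * w φ := by fun_prop
  have hI2 : ∫ φ in (-(Real.pi / 2))..(Real.pi / 2), I φ =
      1 / 2 * ∫ φ in (-(Real.pi / 2))..(Real.pi / 2), Real.sin φ ^ 2 * w φ := by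
    rw [intervalIntegral.integral_sub (hIc.intervalIntegrable _ _)
      ((hsw.const_mul (1 / 2)).intervalIntegrable _ _), intervalIntegral.integral_const_mul] at hparts
    linarith
  have hfold : ∫ φ in (-(Real.pi / 2))..(Real.pi / 2), Real.sin φ ^ 2 * w φ =
      2 * ∫ φ in (0 : ℝ)..(Real.pi / 2), Real.sin φ ^ 2 * w φ := by
    rw [← intervalIntegral.integral_add_adjacent_intervals (b := 0) (hsw.intervalIntegrable _ _)
      (hsw.intervalIntegrable _ _)]
    have h3 : ∫ φ in (-(Real.pi / 2))..0, Real.sin φ ^ 2 * w φ =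
        ∫ φ in (0 : ℝ)..(Real.pi / 2), Real.sin φ ^ 2 * w φ := by
      have h4 := intervalIntegral.integral_comp_neg (a := 0) (b := Real.pi / 2)
        (fun φ => Real.sin φ ^ 2 * w φ)
      rw [neg_zero] at h4
      rw [← h4]
      refine intervalIntegral.integral_congr fun φ _ => ?_
      rw [hw]
      simp only [Real.sin_neg, neg_sq]
    rw [h3]; ring
  have hlow : (2 * D ^ 2 / 3 + Real.pi * c) / σ ≤ ∫ φ in (0 : ℝ)..(Real.pi / 2), Real.sin φ ^ 2 * w φ := by
    have h3 : ∫ φ in (0 : ℝ)..(Real.pi / 2), (D ^ 2 / σ * Real.sin φ ^ 3 + 4 * c / σ * Real.sin φ ^ 2)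
        = (2 * D ^ 2 / 3 + Real.pi * c) / σ := by
      rw [intervalIntegral.integral_add ((by fun_prop : Continuous fun φ => D ^ 2 / σ * Real.sin φ ^ 3).intervalIntegrable _ _)
        ((by fun_prop : Continuous fun φ => 4 * c / σ * Real.sin φ ^ 2).intervalIntegrable _ _),
        intervalIntegral.integral_const_mul, intervalIntegral.integral_const_mul, integral_sin_sq]
      have h4 : ∫ φ in (0 : ℝ)..(Real.pi / 2), Real.sin φ ^ 3 = 2 / 3 := by
        have := integral_sin_pow (a := 0) (b := Real.pi / 2) 1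
        rw [show (1 + 2 : ℕ) = 3 from rfl] at this
        rw [this]
        simp
        norm_num
      rw [h4]
      simp only [Real.sin_zero, Real.cos_pi_div_two, Real.sin_pi_div_two]
      field_simp
      ring
    rw [← h3]
    refine intervalIntegral.integral_mono_on (by linarith)
      ((by fun_prop : Continuous fun φ => D ^ 2 / σ * Real.sin φ ^ 3 + 4 * c / σ * Real.sin φ ^ 2).intervalIntegrable _ _)
      (hsw.intervalIntegrable _ _) fun φ hφ => ?_
    have hs0 : 0 ≤ Real.sin φ := Real.sin_nonneg_of_nonneg_of_le_pi hφ.1 (by linarith [hφ.2])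
    have hkey : (D ^ 2 * Real.sin φ + 4 * c) / σ ≤ w φ := by
      refine Real.le_sqrt_of_sq_le ?_
      rw [div_pow, div_le_iff₀ (by positivity), hσ2]
      nlinarith [mul_nonneg (mul_nonneg (sq_nonneg D) hcpos.le) (sq_nonneg (Real.sin φ - 1))]
    calc D ^ 2 / σ * Real.sin φ ^ 3 + 4 * c / σ * Real.sin φ ^ 2
        = Real.sin φ ^ 2 * ((D ^ 2 * Real.sin φ + 4 * c) / σ) := by field_simp
      _ ≤ Real.sin φ ^ 2 * w φ := mul_le_mul_of_nonneg_left hkey (sq_nonneg _)
  have hfin : (2 * D ^ 2 / 3 + Real.pi * c) / σ ≤ ∫ φ in (-(Real.pi / 2))..(Real.pi / 2), I φ := by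
    rw [hI2, hfold]; linarith
  calc Real.pi * D ^ 2 / (4 * σ ^ 2) * (2 * D ^ 2 / 3 + Real.pi * c)
      = Real.pi * D ^ 2 / (4 * σ) * ((2 * D ^ 2 / 3 + Real.pi * c) / σ) := by field_simp
    _ ≤ _ := mul_le_mul_of_nonneg_left hfin (by positivity)

theorem sEnd_le' (D : Set (Fin 3 → ℝ)) (k : Fin 3) {u : ℝ} (h0 : 0 ≤ u) (h1 : u < 1) :
    sEnd D k ≤ sv D k u :=
  csInf_le ⟨0, by rintro _ ⟨v, _, rfl⟩; exact (sv_mem D k v).1⟩ ⟨u, ⟨h0, h1⟩, rfl⟩

theorem sEnd_nonneg_t (D : Set (Fin 3 → ℝ)) (k : Fin 3) : 0 ≤ sEnd D k :=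
  le_csInf ⟨_, 0, ⟨le_rfl, one_pos⟩, rfl⟩ (by rintro _ ⟨v, _, rfl⟩; exact (sv_mem D k v).1)

theorem sv_int_Ioo (D : Set (Fin 3 → ℝ)) (hO : IsOpen D) (k : Fin 3) :
    ∫ u in Ioo (0 : ℝ) 1, sv D k u = vol01 D := by
  have := sv_integral D hO k
  rwa [intervalIntegral.integral_of_le zero_le_one, integral_Ioc_eq_integral_Ioo] at this

theorem sv_integrable (D : Set (Fin 3 → ℝ)) (hD : IsLowerSet D) (k : Fin 3) :
    IntegrableOn (sv D k) (Ioo 0 1) := by
  refine Integrable.mono' (g := fun _ => (1 : ℝ)) (integrableOn_const (by simp))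
    (sv_anti D hD k).measurable.aestronglyMeasurable (Eventually.of_forall fun u => ?_)
  rw [Real.norm_eq_abs, abs_of_nonneg (sv_mem D k u).1]; exact (sv_mem D k u).2

theorem sEnd_le_vol_t (D : Set (Fin 3 → ℝ)) (hD : IsLowerSet D) (hO : IsOpen D) (k : Fin 3) :
    sEnd D k ≤ vol01 D := by
  rw [← sv_int_Ioo D hO k]
  have h1 : ∫ _ in Ioo (0 : ℝ) 1, sEnd D k = sEnd D k := by simp
  rw [← h1]
  exact setIntegral_mono_on (integrableOn_const (by simp)) (sv_integrable D hD k) measurableSet_Ioo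
    fun u hu => sEnd_le' D k hu.1.le hu.2

theorem vol_le_sv0 (D : Set (Fin 3 → ℝ)) (hD : IsLowerSet D) (hO : IsOpen D) (k : Fin 3) :
    vol01 D ≤ sv D k 0 := by
  rw [← sv_int_Ioo D hO k]
  have h1 : ∫ _ in Ioo (0 : ℝ) 1, sv D k 0 = sv D k 0 := by simp
  rw [← h1]
  exact setIntegral_mono_on (sv_integrable D hD k) (integrableOn_const (by simp)) measurableSet_Ioo
    fun u hu => sv_anti D hD k hu.1.le

/-- **The one-dimensional inequality with equality information.** -/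
theorem thin_main (D : Set (Fin 3 → ℝ)) (hD : IsLowerSet D) (hO : IsOpen D) (k : Fin 3)
    (V R w Q : ℝ) (hV : 0 < V) (hR : 0 < R) (hw : 0 < w) (hR3 : Real.pi * R ^ 3 / 6 = V)
    (hw2 : Real.pi * w ^ 2 / 4 = V) (hvol : vol01 D = V) (hQ0 : 0 ≤ Q)
    (hQ : periodicPerimeter (unf D) ≤ ENNReal.ofReal (2 * Q))
    (hQR : Q ≤ Real.pi / 2 * R ^ 2) (hQw : Q ≤ Real.pi / 2 * w)
    (hg : ∀ t ∈ Ioo (0 : ℝ) 1, QL (sl k t D) (Real.sqrt (Real.pi * sv D k t))) :
    (sv D k 0 = V ∧ sEnd D k = V ∧ Q = Real.pi / 2 * w) ∨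
      (sEnd D k = 0 ∧ sv D k 0 = Real.pi * R ^ 2 / 4 ∧ Q = Real.pi / 2 * R ^ 2) := by
  have hπ := Real.pi_pos
  have hSmem : ∀ u, sv D k u ∈ Icc (0 : ℝ) 1 := sv_mem D k
  have hSanti : Antitone (sv D k) := sv_anti D hD k
  have hSmeas : Measurable (sv D k) := hSanti.measurable
  have hs1V : sEnd D k ≤ V := hvol ▸ sEnd_le_vol_t D hD hO k
  have hVs0 : V ≤ sv D k 0 := hvol ▸ vol_le_sv0 D hD hO k
  have hs1 : 0 ≤ sEnd D k := sEnd_nonneg_t D k
  have hint : ∫ u in Ioo (0 : ℝ) 1, sv D k u = V := by rw [sv_int_Ioo D hO k, hvol]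
  obtain ⟨g, hgm, hg0, hgi, hgQ, hC1⟩ := slice_ineq D hD hO k Q hQ0 hQ
  have hgF : ∀ᵐ u ∂(volume.restrict (Ioo (0 : ℝ) 1)), Real.sqrt (Real.pi * sv D k u) ≤ g u := by
    rw [ae_restrict_iff' measurableSet_Ioo]
    filter_upwards [hgQ] with u hu hu01
    exact hu hu01 _ (hg u hu01)
  -- the general bound
  have hgen : ∀ (a : ℝ → ℝ) (p q : ℝ), Continuous a → (∀ x, 0 ≤ a x ∧ a x ≤ 1) →
      (∀ u ∈ Ioo (0 : ℝ) 1, a (sv D k u) * Real.sqrt (Real.pi * sv D k u) = p * sv D k u + q) →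
      p * V + q + ∫ x in (sEnd D k)..(sv D k 0), Real.sqrt (1 - a x ^ 2) ≤ Q := by
    intro a p q hac ha haS
    have h3 := hC1 a (fun x => Real.sqrt (1 - a x ^ 2)) hac (by fun_prop) (fun x => (ha x).1)
      (fun x => Real.sqrt_nonneg _) (fun x => by
        have h4 : 0 ≤ 1 - a x ^ 2 := by nlinarith [(ha x).1, (ha x).2]
        rw [Real.sq_sqrt h4]; linarith)
    have h5 : p * V + q ≤ ∫ u in Ioo (0 : ℝ) 1, a (sv D k u) * g u := by
      have h6 : ∫ u in Ioo (0 : ℝ) 1, (p * sv D k u + q) = p * V + q := by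
        rw [integral_add ((sv_integrable D hD k).const_mul p) (integrableOn_const (by simp)),
          integral_const_mul, hint]
        simp
      rw [← h6]
      refine integral_mono_ae (((sv_integrable D hD k).const_mul p).add (integrableOn_const (by simp))) ?_ ?_
      · refine Integrable.bdd_mul (c := 1) hgi (hac.measurable.comp hSmeas).aestronglyMeasurable
          (Eventually.of_forall fun t => ?_)
        rw [Real.norm_eq_abs, abs_of_nonneg (ha _).1]; exact (ha _).2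
      · filter_upwards [hgF, ae_restrict_mem measurableSet_Ioo] with u hu hu01
        rw [← haS u hu01]
        exact mul_le_mul_of_nonneg_left hu (ha _).1
    linarith
  have hs0pos : 0 < sv D k 0 := hV.trans_le hVs0
  set r0 := Real.sqrt (4 * sv D k 0 / Real.pi) with hr0
  have hr0pos : 0 < r0 := Real.sqrt_pos.2 (by positivity)
  have hr02 : r0 ^ 2 = 4 * sv D k 0 / Real.pi := Real.sq_sqrt (by positivity)
  have hs0r : sv D k 0 = Real.pi * r0 ^ 2 / 4 := by rw [hr02]; field_simp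
  rcases hs1.eq_or_lt with hz | hpos
  · -- ball case
    right
    set A : ℝ → ℝ := fun x => Real.sqrt (clampd (sv D k 0) x) with hAdef
    have hAx : ∀ x ∈ Icc 0 (sv D k 0), A x = Real.sqrt (x / sv D k 0) := fun x hx => by
      rw [hAdef]; simp only []; rw [clampd_eq hs0pos hx]
    have h3 := hgen A (2 / r0) 0 (clampd_cont _).sqrt (fun x =>
      ⟨Real.sqrt_nonneg _, Real.sqrt_le_one.2 (clampd_mem _ x).2⟩) (by
        intro u hu
        have hm := (hSmem u).1
        rw [hAx _ ⟨hm, hSanti hu.1.le⟩, ← Real.sqrt_mul (by positivity)]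
        have : sv D k u / sv D k 0 * (Real.pi * sv D k u) = (2 / r0 * sv D k u) ^ 2 := by
          rw [hs0r]; field_simp; ring
        rw [this, Real.sqrt_sq (by positivity)]; ring)
    have h4 : ∫ x in (sEnd D k)..(sv D k 0), Real.sqrt (1 - A x ^ 2) = 2 * sv D k 0 / 3 := by
      rw [← hz, ← int_sqrt_lin (sv D k 0) hs0pos]
      refine intervalIntegral.integral_congr fun x hx => ?_
      rw [uIcc_of_le hs0pos.le] at hx
      have h3 : 0 ≤ x / sv D k 0 := div_nonneg hx.1 hs0pos.le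
      simp only [hAx x hx, Real.sq_sqrt h3]
    rw [h4, hs0r] at h3
    have h5 : (r0 - R) ^ 2 * (r0 + 2 * R) ≤ 0 := by
      have h6 : 2 / r0 * V + 0 + 2 * (Real.pi * r0 ^ 2 / 4) / 3 ≤ Real.pi / 2 * R ^ 2 := h3.trans hQR
      rw [← hR3] at h6
      have h7 : 2 / r0 * (Real.pi * R ^ 3 / 6) + 0 + 2 * (Real.pi * r0 ^ 2 / 4) / 3
          = Real.pi / (6 * r0) * (2 * R ^ 3 + r0 ^ 3) := by field_simp; ring
      have h8 : Real.pi / 2 * R ^ 2 = Real.pi / (6 * r0) * (3 * R ^ 2 * r0) := by field_simp; ring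
      rw [h7, h8] at h6
      have h9 := le_of_mul_le_mul_left h6 (by positivity)
      nlinarith
    have h6 : r0 = R := by
      by_contra hne
      have : 0 < (r0 - R) ^ 2 := by
        have := sub_ne_zero.2 hne
        positivity
      nlinarith [mul_pos this (by linarith : 0 < r0 + 2 * R)]
    refine ⟨hz.symm, by rw [hs0r, h6], le_antisymm hQR ?_⟩
    rw [h6, ← hR3] at h3
    have h7 : 2 / R * (Real.pi * R ^ 3 / 6) + 0 + 2 * (Real.pi * R ^ 2 / 4) / 3
        = Real.pi / 2 * R ^ 2 := by field_simp; ring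
    rw [h7] at h3
    exact h3
  · set r1 := Real.sqrt (4 * sEnd D k / Real.pi) with hr1
    have hr1pos : 0 < r1 := Real.sqrt_pos.2 (by positivity)
    have hr12 : r1 ^ 2 = 4 * sEnd D k / Real.pi := Real.sq_sqrt (by positivity)
    have hs1r : sEnd D k = Real.pi * r1 ^ 2 / 4 := by rw [hr12]; field_simp
    have hr10 : r1 ≤ r0 := by
      refine Real.sqrt_le_sqrt ?_
      gcongr
      exact hs1V.trans hVs0
    have hσpos : 0 < r0 + r1 := by linarith
    have h3 := hgen (thinA r0 r1) (2 / (r0 + r1)) (Real.pi / 2 * (r0 * r1) / (r0 + r1))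
      (thinA_cont r0 r1 hr1pos hr10) (thinA_mem r0 r1 hr1pos hr10) (by
        intro u hu
        have hS1 := sEnd_le' D k hu.1.le hu.2
        have hS0 : sv D k u ≤ sv D k 0 := hSanti hu.1.le
        have hSpos : 0 < sv D k u := hpos.trans_le hS1
        set ρ := Real.sqrt (4 * sv D k u / Real.pi) with hρ
        have hρpos : 0 < ρ := Real.sqrt_pos.2 (by positivity)
        have hρ2 : ρ ^ 2 = 4 * sv D k u / Real.pi := Real.sq_sqrt (by positivity)
        have hSρ : sv D k u = Real.pi * ρ ^ 2 / 4 := by rw [hρ2]; field_simp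
        have hρ1 : r1 ≤ ρ := Real.sqrt_le_sqrt (by gcongr)
        have hρ0 : ρ ≤ r0 := Real.sqrt_le_sqrt (by gcongr)
        rw [hSρ, thinA_eq r0 r1 ρ hr1pos hρ1 hρ0]
        have h4 : Real.pi * (Real.pi * ρ ^ 2 / 4) = (Real.pi / 2 * ρ) ^ 2 := by ring
        rw [h4, Real.sqrt_sq (by positivity)]
        field_simp
        ring)
    have hW : V = Real.pi * w ^ 2 / 4 := hw2.symm
    rcases hr10.eq_or_lt with heq | hlt
    · left
      have h4 : sEnd D k = sv D k 0 := by rw [hs1r, hs0r, heq]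
      have h5 : sv D k 0 = V := le_antisymm (h4 ▸ hs1V) hVs0
      have h6 : r0 = w := by
        have : r0 ^ 2 = w ^ 2 := by rw [hr02, h5, hW]; field_simp
        exact (pow_left_inj₀ hr0pos.le hw.le (by norm_num)).1 this
      refine ⟨h5, by rw [h4, h5], le_antisymm hQw ?_⟩
      rw [h4, intervalIntegral.integral_same, heq, h6, hW] at h3
      have h7 : 2 / (w + w) * (Real.pi * w ^ 2 / 4) + Real.pi / 2 * (w * w) / (w + w) + 0
          = Real.pi / 2 * w := by field_simp; ring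
      rw [h7] at h3
      exact h3
    · exfalso
      have h4 := thin_int r0 r1 hr1pos hlt
      rw [← hs1r, ← hs0r] at h4
      set σ := r0 + r1 with hσ
      set Δ := r0 - r1 with hΔ
      set c := r0 * r1 with hc
      have hcpos : 0 < c := by rw [hc]; positivity
      have hΔpos : 0 < Δ := by rw [hΔ]; linarith
      have hΔσ : Δ < σ := by rw [hΔ, hσ]; linarith
      have hσ2 : σ ^ 2 = Δ ^ 2 + 4 * c := by rw [hσ, hΔ, hc]; ring
      have h5 : Real.pi * Δ ^ 2 / 6 < Real.pi * Δ ^ 2 / (4 * σ ^ 2) * (2 * Δ ^ 2 / 3 + Real.pi * c) := by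
        have h6 : Real.pi * Δ ^ 2 / 6 = Real.pi * Δ ^ 2 / (4 * σ ^ 2) * (2 * σ ^ 2 / 3) := by
          field_simp; ring
        rw [h6]
        refine mul_lt_mul_of_pos_left ?_ (by positivity)
        rw [hσ2]
        nlinarith [Real.pi_gt_three]
      have h6 : 2 / σ * V + Real.pi / 2 * c / σ + Real.pi * Δ ^ 2 / 6 < Q := by linarith
      rcases le_total (3 / 4) σ with h34 | h34
      · -- tube regime
        have h7 : Real.pi / 2 * w ≤ 2 / σ * V + Real.pi / 2 * c / σ + Real.pi * Δ ^ 2 / 6 := by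
          rw [hW]
          have e : 2 / σ * (Real.pi * w ^ 2 / 4) + Real.pi / 2 * c / σ + Real.pi * Δ ^ 2 / 6
              = Real.pi / (24 * σ) * (12 * w ^ 2 + 12 * c + 4 * σ * Δ ^ 2) := by field_simp; ring
          have e2 : Real.pi / 2 * w = Real.pi / (24 * σ) * (12 * σ * w) := by field_simp; ring
          rw [e, e2]
          refine mul_le_mul_of_nonneg_left ?_ (by positivity)
          nlinarith [sq_nonneg (2 * w - σ), mul_nonneg (sub_nonneg.2 h34) (sq_nonneg Δ)]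
        linarith
      · have h7 : Real.pi / 2 * R ^ 2 ≤ 2 / σ * V + Real.pi / 2 * c / σ + Real.pi * Δ ^ 2 / 6 := by
          rw [← hR3]
          have e : 2 / σ * (Real.pi * R ^ 3 / 6) + Real.pi / 2 * c / σ + Real.pi * Δ ^ 2 / 6
              = Real.pi / (24 * σ) * (8 * R ^ 3 + 12 * c + 4 * σ * Δ ^ 2) := by field_simp; ring
          have e2 : Real.pi / 2 * R ^ 2 = Real.pi / (24 * σ) * (12 * σ * R ^ 2) := by field_simp; ring
          rw [e, e2]
          refine mul_le_mul_of_nonneg_left ?_ (by positivity)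
          -- `12 c = 3σ² - 3Δ²`, so RHS = 8R³ + 3σ² - 3Δ² + 4σΔ² ≥ 8R³ + 4σ³ ≥ 12σR²
          have h8 : 8 * R ^ 3 + 4 * σ ^ 3 ≤ 8 * R ^ 3 + 12 * c + 4 * σ * Δ ^ 2 := by
            have h9 : 0 ≤ (3 - 4 * σ) * (σ ^ 2 - Δ ^ 2) :=
              mul_nonneg (by linarith) (by nlinarith)
            nlinarith
          have h9 : 12 * σ * R ^ 2 ≤ 8 * R ^ 3 + 4 * σ ^ 3 := by
            nlinarith [mul_nonneg (sq_nonneg (σ - R)) (by linarith : 0 ≤ σ + 2 * R)]
          linarith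
        linarith

end Crest.Agent.T3
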