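import Crest.Agent.T3.R3Def
import Crest.Agent.T3.CaseBounds
import Crest.Agent.T3.KTab
import Crest.Agent.T3.FTab
import Crest.Agent.T3.Thin1D
import Crest.Agent.IT.StdFinal

/-! Row 214: region R2 (case II, `2/5 ≤ s0 ≤ 82/100`): soundness of the checker `check2`. -/

set_option autoImplicit false
open MeasureTheory Set Filter Topology

namespace Crest.Agent.T3.Pl

/-- `c` is an admissible lower bound at `s` (case II). -/
def g2 (s c : ℝ) : Prop :=
  ∃ l1 ∈ Icc (0 : ℝ) 1, ∃ l2 ∈ Ioc (0 : ℝ) 1, c ≤ gII (1 / 10) l1 l2 s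

theorem Y_sq_le2 {g x : ℕ} (h : g * g ≤ 314159265 * x) : Y g ^ 2 ≤ Real.pi * X x := by
  have h1 : (g : ℝ) * g ≤ 314159265 * x := by exact_mod_cast h
  have h2 := Real.pi_gt_d20
  have h3 : (0 : ℝ) ≤ x := Nat.cast_nonneg x
  unfold Y X
  have h4 : (314159265 : ℝ) * x ≤ Real.pi * 100000000 * x := by
    refine mul_le_mul_of_nonneg_right ?_ h3
    linarith
  have e : Real.pi * ((x : ℝ) / 10000) = (Real.pi * 100000000 * x) / 1000000000000 := by ring
  rw [e, div_pow, le_div_iff₀ (by norm_num)]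
  have e2 : (g : ℝ) ^ 2 / 1000000 ^ 2 * 1000000000000 = g * g := by ring
  rw [e2]; linarith

theorem cell2_G {d0 d1 : Nd} {m1 m2 : ℕ} (h : cellOK2 d0 d1 m1 m2 = true) (hx0 : d0.x ≤ 10000) :
    CellG g2 d0.x d0.g d1.x d1.g ∧ 0 < d1.g ∧ d1.x ≤ 10000 := by
  unfold cellOK2 at h
  simp only [Bool.and_eq_true] at h
  obtain ⟨⟨⟨⟨⟨⟨⟨⟨⟨⟨h1, h2⟩, h3⟩, hx1⟩, h4⟩, h5⟩, h6⟩, h7⟩, h8⟩, h9⟩, h10⟩ := h
  replace h1 := Nat.le_of_ble_eq_true h1
  replace h2 := Nat.le_of_ble_eq_true h2
  replace h3 := Nat.le_of_ble_eq_true h3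
  replace hx1 := Nat.le_of_ble_eq_true hx1
  replace h4 := Y_sq_le2 (Nat.le_of_ble_eq_true h4)
  replace h5 := Y_sq_le2 (Nat.le_of_ble_eq_true h5)
  replace h6 := Nat.le_of_ble_eq_true h6
  replace h7 := Nat.le_of_ble_eq_true h7
  replace h8 := Nat.le_of_ble_eq_true h8
  replace h9 := Nat.le_of_ble_eq_true h9
  replace h10 := Nat.le_of_ble_eq_true h10
  refine ⟨?_, h10, hx1⟩
  intro t ht
  have hk1 := kt_le m1 h1
  have hk9 := kt9_le m2 h3
  have m1r : (m1 : ℝ) ≤ 20 := by exact_mod_cast h1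
  have m1r0 : (0 : ℝ) ≤ m1 := Nat.cast_nonneg _
  have m2r : (m2 : ℝ) ≤ 20 := by exact_mod_cast h3
  have m2r0 : (1 : ℝ) ≤ m2 := by exact_mod_cast h2
  refine ⟨(m1 : ℝ) / 20, ⟨by positivity, by linarith⟩, (m2 : ℝ) / 20, ⟨by linarith, by linarith⟩, ?_⟩
  have ht1 : 0 ≤ 1 - t := by linarith [ht.2]
  unfold gII
  refine le_min ?_ (le_min ?_ ?_)
  · refine Real.le_sqrt_of_sq_le ?_
    have e : ((1 - t) * Y d0.g + t * Y d1.g) ^ 2 ≤ (1 - t) * Y d0.g ^ 2 + t * Y d1.g ^ 2 := by
      nlinarith [mul_nonneg (mul_nonneg ht1 ht.1) (sq_nonneg (Y d0.g - Y d1.g))]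
    refine e.trans ?_
    have e1 := mul_le_mul_of_nonneg_left h4 ht1
    have e2 := mul_le_mul_of_nonneg_left h5 ht.1
    linarith
  · have a0 : Y d0.g ≤ (m1 : ℝ) / 20 * (X d0.x - 1 / 10) + Kf 1 ((m1 : ℝ) / 20) := by
      have h6' : (d0.g : ℝ) + 5000 * m1 ≤ 5 * m1 * d0.x + kt m1 := by exact_mod_cast h6
      unfold Y X
      have : (d0.g : ℝ) / 1000000 ≤ (5 * m1 * d0.x + kt m1 - 5000 * m1) / 1000000 := by
        refine div_le_div_of_nonneg_right ?_ (by norm_num)
        linarith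
      refine this.trans ?_
      have e : (5 * (m1 : ℝ) * d0.x + kt m1 - 5000 * m1) / 1000000
        = (m1 : ℝ) / 20 * ((d0.x : ℝ) / 10000 - 1 / 10) + (kt m1 : ℝ) / 1000000 := by ring
      rw [e]; linarith
    have a1 : Y d1.g ≤ (m1 : ℝ) / 20 * (X d1.x - 1 / 10) + Kf 1 ((m1 : ℝ) / 20) := by
      have h6' : (d1.g : ℝ) + 5000 * m1 ≤ 5 * m1 * d1.x + kt m1 := by exact_mod_cast h7
      unfold Y X
      have : (d1.g : ℝ) / 1000000 ≤ (5 * m1 * d1.x + kt m1 - 5000 * m1) / 1000000 := by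
        refine div_le_div_of_nonneg_right ?_ (by norm_num)
        linarith
      refine this.trans ?_
      have e : (5 * (m1 : ℝ) * d1.x + kt m1 - 5000 * m1) / 1000000
        = (m1 : ℝ) / 20 * ((d1.x : ℝ) / 10000 - 1 / 10) + (kt m1 : ℝ) / 1000000 := by ring
      rw [e]; linarith
    have e1 := mul_le_mul_of_nonneg_left a0 ht1
    have e2 := mul_le_mul_of_nonneg_left a1 ht.1
    nlinarith
  · have a0 : Y d0.g ≤ (m2 : ℝ) / 20 * (1 - X d0.x) + Kf (9 / 10) ((m2 : ℝ) / 20) := by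
      have h6' : (d0.g : ℝ) ≤ 5 * m2 * (10000 - d0.x) + kt9 m2 := by
        have := h8
        have h' : ((d0.g : ℕ) : ℝ) ≤ ((5 * m2 * (10000 - d0.x) + kt9 m2 : ℕ) : ℝ) := by exact_mod_cast this
        push_cast [Nat.cast_sub hx0] at h'
        exact h'
      unfold Y X
      have : (d0.g : ℝ) / 1000000 ≤ (5 * m2 * (10000 - d0.x) + kt9 m2) / 1000000 :=
        div_le_div_of_nonneg_right h6' (by norm_num)
      refine this.trans ?_
      have e : (5 * (m2 : ℝ) * (10000 - d0.x) + kt9 m2) / 1000000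
        = (m2 : ℝ) / 20 * (1 - (d0.x : ℝ) / 10000) + (kt9 m2 : ℝ) / 1000000 := by ring
      rw [e]; linarith
    have a1 : Y d1.g ≤ (m2 : ℝ) / 20 * (1 - X d1.x) + Kf (9 / 10) ((m2 : ℝ) / 20) := by
      have h6' : (d1.g : ℝ) ≤ 5 * m2 * (10000 - d1.x) + kt9 m2 := by
        have h' : ((d1.g : ℕ) : ℝ) ≤ ((5 * m2 * (10000 - d1.x) + kt9 m2 : ℕ) : ℝ) := by exact_mod_cast h9
        push_cast [Nat.cast_sub hx1] at h'
        exact h'
      unfold Y X
      have : (d1.g : ℝ) / 1000000 ≤ (5 * m2 * (10000 - d1.x) + kt9 m2) / 1000000 :=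
        div_le_div_of_nonneg_right h6' (by norm_num)
      refine this.trans ?_
      have e : (5 * (m2 : ℝ) * (10000 - d1.x) + kt9 m2) / 1000000
        = (m2 : ℝ) / 20 * (1 - (d1.x : ℝ) / 10000) + (kt9 m2 : ℝ) / 1000000 := by ring
      rw [e]; linarith
    have e9 : (1 : ℝ) - 1 / 10 = 9 / 10 := by norm_num
    rw [e9]
    have e1 := mul_le_mul_of_nonneg_left a0 ht1
    have e2 := mul_le_mul_of_nonneg_left a1 ht.1
    nlinarith

/-- Invariant of a node list. -/
def Inv (g : ℝ → ℝ → Prop) : List Nd → Prop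
  | [] => True
  | d0 :: l => ChainG g d0.x d0.g l

theorem Inv_tail {g : ℝ → ℝ → Prop} {d0 : Nd} {l : List Nd} (h : Inv g (d0 :: l)) : Inv g l := by
  cases l with
  | nil => trivial
  | cons d1 l => exact h.2.2

theorem Inv_drop {g : ℝ → ℝ → Prop} {l : List Nd} (h : Inv g l) (n : ℕ) : Inv g (l.drop n) := by
  induction n generalizing l with
  | zero => simpa using h
  | succ n ih =>
    cases l with
    | nil => simpa using h
    | cons d l => simpa using ih (Inv_tail h)

theorem inv_tab2 (d0 : Nd) (l : List (Nd × ℕ × ℕ)) (h : tabOK2 d0 l = true) (hx0 : d0.x ≤ 10000) :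
    ChainG g2 d0.x d0.g (l.map Prod.fst) := by
  induction l generalizing d0 with
  | nil => exact trivial
  | cons p l ih =>
    obtain ⟨d1, m1, m2⟩ := p
    simp only [tabOK2, Bool.and_eq_true] at h
    obtain ⟨h1, h2, h3⟩ := cell2_G h.1 hx0
    exact ⟨h1, h2, ih d1 h.2 h3⟩

/-- position of the `i`-th node -/
def xs (nds : List Nd) (i : ℕ) : ℕ := (nds.getD i ⟨0, 0, 0⟩).x

theorem px_take (L : Ln) (st : St) (d0 : Nd) (l : List Nd) (i : ℕ) (hi : i ≤ l.length)
    (hst : st.px = d0.x) : (run L st (l.take i)).px = xs (d0 :: l) i := by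
  induction l generalizing st d0 i with
  | nil =>
    have : i = 0 := by simpa using hi
    subst this
    exact hst
  | cons d l ih =>
    cases i with
    | zero => exact hst
    | succ i =>
      rw [List.take_succ_cons, run_cons]
      have := ih (step L st d) d i (by simpa using hi) rfl
      rw [this]
      unfold xs
      simp

theorem xs_big (d0 : Nd) (l : List Nd) (i : ℕ) (hi : l.length < i) : xs (d0 :: l) i = 0 := by
  unfold xs
  rw [List.getD_eq_default _ _ (by simp only [List.length_cons]; omega)]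

theorem xs_le_px (L : Ln) (st : St) (d0 : Nd) (l : List Nd) (i : ℕ) (hst : st.px = d0.x) :
    xs (d0 :: l) i ≤ (run L st (l.take i)).px := by
  rcases le_or_gt i l.length with h | h
  · rw [px_take L st d0 l i h hst]
  · rw [xs_big d0 l i h]; exact Nat.zero_le _

/-- The data of a direction used in region R2. -/
structure Dir2 (D : Set (Fin 3 → ℝ)) (k : Fin 3) (V : ℝ) : Prop where
  hD : IsLowerSet D
  hO : IsOpen D
  hII : CaseII D (1 / 10) k
  hV : vol01 D = V
  hV0 : 0 < V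
  hV1 : V ≤ 1 / 2

/-- From a pair `(a, b)` to the bound. -/
theorem use2 {D : Set (Fin 3 → ℝ)} {k : Fin 3} {V : ℝ} (h : Dir2 D k V)
    (q : Par) (a b : ℝ → ℝ) (ca : Continuous a) (cb : Continuous b) (ha : ∀ s, 0 ≤ a s)
    (hb : ∀ s, 0 ≤ b s) (hab : ∀ s, a s ^ 2 + b s ^ 2 ≤ 1)
    (hl : ∀ s ∈ Icc (sEnd D k) (sv D k 0), ∃ c, g2 s c ∧ (⟨q.Ep, q.En, q.lam, 0⟩ : Ln).rv s ≤ a s * c)
    (J : ℝ) (hJ : J ≤ ∫ s in (sEnd D k)..(sv D k 0), b s)
    (hfin : (F10 q.lam : ℝ) + 100 * q.En + 1 ≤ 100 * q.Ep + 10000000000 * J) :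
    ∃ c, Crest.Agent.IT.prof V / 2 < c ∧ QL D c := by
  refine ⟨_, ?_, caseII_bound D h.hD h.hO (1 / 10) k h.hII a b
    (((q.Ep : ℝ) - q.En) / 100000000) ((q.lam : ℝ) / 10000) ca.continuousOn cb.continuousOn
    (fun σ _ => ⟨ha σ, hb σ, hab σ⟩) (fun s hs => ?_)⟩
  · rw [h.hV]
    have h1 := F10_le q.lam V h.hV0 h.hV1
    have h2 : (F10 q.lam : ℝ) / 10000000000 < ((q.Ep : ℝ) - q.En) / 100000000 + J := by
      rw [div_lt_iff₀ (by norm_num)]
      linarith
    linarith
  · obtain ⟨c, ⟨l1, hl1, l2, hl2, hc⟩, hle⟩ := hl s hs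
    refine ⟨l1, hl1, l2, hl2, ?_⟩
    refine le_trans (le_of_eq ?_) (hle.trans (mul_le_mul_of_nonneg_left hc (ha s)))
    unfold Ln.rv
    simp

theorem box2_le {c1 j : ℕ} (d0 d1 : Nd) (l : List Nd) (q : Par) (h : c1 ≤ j)
    (hb : box2 c1 j (d0 :: d1 :: l) q = true) :
    let L : Ln := ⟨q.Ep, q.En, q.lam, 0⟩
    let st1 := run L (start L d0 d1) ((d1 :: l).take c1)
    let st2 := run L st1 (((d1 :: l).drop c1).take (j - c1))
    let r := runM L st2 st2.pb (((d1 :: l).drop j).take q.c3)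
    r.1.ok = true ∧ F10 q.lam + 100 * q.En + 1 ≤ 100 * q.Ep + (st2.T - st1.T) / 2 := by
  have hble : Nat.ble c1 j = true := Nat.ble_eq_true_of_le h
  simp only [box2, hble, if_true, Bool.and_eq_true] at hb
  exact ⟨hb.1, Nat.le_of_ble_eq_true hb.2⟩

theorem box2_gt {c1 j : ℕ} (d0 d1 : Nd) (l : List Nd) (q : Par) (h : ¬ c1 ≤ j)
    (hb : box2 c1 j (d0 :: d1 :: l) q = true) :
    let L : Ln := ⟨q.Ep, q.En, q.lam, 0⟩
    let st2 := run L (start L d0 d1) ((d1 :: l).take j)
    let st3 := run L st2 (((d1 :: l).drop j).take q.c3)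
    st3.ok = true ∧ F10 q.lam + 100 * q.En + 1 ≤ 100 * q.Ep := by
  have hble : Nat.ble c1 j = false := by
    rw [Bool.eq_false_iff]
    intro hh
    exact h (Nat.le_of_ble_eq_true hh)
  simp only [box2, hble, Bool.false_eq_true, if_false, Bool.and_eq_true] at hb
  exact ⟨hb.1, Nat.le_of_ble_eq_true hb.2⟩

theorem X_zero : X 0 = 0 := by unfold X; simp

theorem box2_sound {D : Set (Fin 3 → ℝ)} {k : Fin 3} {V : ℝ} (h : Dir2 D k V)
    (c1 j : ℕ) (nds : List Nd) (q : Par) (hinv : Inv g2 nds) (hbox : box2 c1 j nds q = true)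
    (h1 : X (xs nds 0) ≤ sEnd D k) (h1' : sEnd D k ≤ X (xs nds c1))
    (h0 : X (xs nds j) ≤ sv D k 0) (h0' : sv D k 0 ≤ X (xs nds (j + q.c3)))
    (h10 : sEnd D k ≤ sv D k 0) (hpos : 0 < sv D k 0) :
    ∃ c, Crest.Agent.IT.prof V / 2 < c ∧ QL D c := by
  match nds, hinv, hbox, h1, h1', h0, h0' with
  | [], _, hbox, _, _, _, _ => simp [box2] at hbox
  | [d0], _, hbox, _, _, _, _ => simp [box2] at hbox
  | d0 :: d1 :: l, hch, hbox, h1, h1', h0, h0' =>
    have hx0 : xs (d0 :: d1 :: l) 0 = d0.x := rfl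
    rw [hx0] at h1
    have hlen : j + q.c3 ≤ (d1 :: l).length := by
      by_contra hcon
      push Not at hcon
      rw [xs_big d0 (d1 :: l) _ hcon, X_zero] at h0'
      linarith
    by_cases hcj : c1 ≤ j
    · obtain ⟨hok3, hfin⟩ := box2_le d0 d1 l q hcj hbox
      clear hbox
      obtain ⟨a, b, ca, cb, ha, hb, hab, hl, hint, -, -, hp12, -⟩ :=
        box_core (L := ⟨q.Ep, q.En, q.lam, 0⟩) (g := g2) (c3 := q.c3) hcj hch _ _ _ _ _ rfl rfl rfl rfl rfl hok3
      rw [runM_eq] at hl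
      set L : Ln := ⟨q.Ep, q.En, q.lam, 0⟩ with hL
      set rest := d1 :: l with hrest
      set st0 := start L d0 d1 with hst0
      have hok0 : st0.ok = true := by
        rw [runM_eq] at hok3
        exact run_ok (run_ok (run_ok hok3))
      have e0x : st0.px = d0.x := (start_good (g := g2) hok0 hch.1).1
      set st1 := run L st0 (rest.take c1) with hst1
      set st2 := run L st1 ((rest.drop c1).take (j - c1)) with hst2
      have hp1 : xs (d0 :: rest) c1 ≤ st1.px := xs_le_px L st0 d0 rest c1 e0x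
      have hst2' : st2 = run L st0 (rest.take j) := by
        rw [hst2, hst1, ← run_append]
        congr 1
        have : rest.take j = (rest.take c1) ++ ((rest.drop c1).take (j - c1)) := by
          have e : j = c1 + (j - c1) := by omega
          conv_lhs => rw [e, List.take_add]
        exact this.symm
      have hp2 : st2.px = xs (d0 :: rest) j := by
        rw [hst2']; exact px_take L st0 d0 rest j (by omega) e0x
      have hst3' : run L st2 ((rest.drop j).take q.c3) = run L st0 (rest.take (j + q.c3)) := by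
        rw [hst2', ← run_append]
        congr 1
        rw [List.take_add]
      have hp3 : (run L st2 ((rest.drop j).take q.c3)).px = xs (d0 :: rest) (j + q.c3) := by
        rw [hst3']; exact px_take L st0 d0 rest (j + q.c3) hlen e0x
      have hT : (st1.T : ℝ) ≤ st2.T := by
        have : 0 ≤ ∫ s in (X st1.px)..(X st2.px), b s :=
          intervalIntegral.integral_nonneg (X_le hp12) fun s _ => hb s
        rw [hint] at this
        have h3 := (le_div_iff₀ (by norm_num : (0 : ℝ) < 20000000000)).1 this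
        linarith
      refine use2 h q a b ca cb ha hb hab (fun s hs => ?_)
        (((st2.T : ℝ) - st1.T) / 20000000000) ?_ ?_
      · refine hl s ⟨h1.trans hs.1, hs.2.trans ?_⟩
        rw [hp3]; exact h0'
      · rw [← hint]
        refine intervalIntegral.integral_mono_interval ?_ (X_le hp12) ?_ ?_
          (cb.intervalIntegrable _ _)
        · exact h1'.trans (X_le hp1)
        · rw [hp2]; exact h0
        · exact Eventually.of_forall fun s => hb s
      · have hT' : st1.T ≤ st2.T := by exact_mod_cast hT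
        have h3 : ((F10 q.lam + 100 * q.En + 1 : ℕ) : ℝ) ≤ ((100 * q.Ep + (st2.T - st1.T) / 2 : ℕ) : ℝ) := by
          exact_mod_cast hfin
        have h4 : (((st2.T - st1.T) / 2 : ℕ) : ℝ) ≤ ((st2.T : ℝ) - st1.T) / 2 := by
          have := Nat.cast_div_le (α := ℝ) (m := st2.T - st1.T) (n := 2)
          rw [Nat.cast_sub hT'] at this
          simpa using this
        push_cast at h3
        linarith
    · obtain ⟨hok3, hfin⟩ := box2_gt d0 d1 l q hcj hbox
      clear hbox
      have hok3' : (runM (⟨q.Ep, q.En, q.lam, 0⟩ : Ln)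
          (run ⟨q.Ep, q.En, q.lam, 0⟩ (run ⟨q.Ep, q.En, q.lam, 0⟩
            (start ⟨q.Ep, q.En, q.lam, 0⟩ d0 d1) ((d1 :: l).take j))
            (((d1 :: l).drop j).take (j - j)))
          (run (⟨q.Ep, q.En, q.lam, 0⟩ : Ln) (run ⟨q.Ep, q.En, q.lam, 0⟩
            (start ⟨q.Ep, q.En, q.lam, 0⟩ d0 d1) ((d1 :: l).take j))
            (((d1 :: l).drop j).take (j - j))).pb
          (((d1 :: l).drop j).take q.c3)).1.ok = true := by
        rw [runM_eq, Nat.sub_self, List.take_zero]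
        exact hok3
      obtain ⟨a, b, ca, cb, ha, hb, hab, hl, -, -, -, -, -⟩ :=
        box_core (L := ⟨q.Ep, q.En, q.lam, 0⟩) (g := g2) (c3 := q.c3) le_rfl hch _ _ _ _ _ rfl rfl rfl rfl rfl hok3'
      rw [runM_eq, Nat.sub_self, List.take_zero] at hl
      set L : Ln := ⟨q.Ep, q.En, q.lam, 0⟩ with hL
      set rest := d1 :: l with hrest
      set st0 := start L d0 d1 with hst0
      have hok0 : st0.ok = true := run_ok (run_ok hok3)
      have e0x : st0.px = d0.x := (start_good (g := g2) hok0 hch.1).1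
      have hst3' : run L (run L (run L st0 (rest.take j)) []) ((rest.drop j).take q.c3)
          = run L st0 (rest.take (j + q.c3)) := by
        rw [← run_append, ← run_append]
        congr 1
        rw [List.take_add, List.nil_append]
      have hp3 : (run L (run L (run L st0 (rest.take j)) []) ((rest.drop j).take q.c3)).px
          = xs (d0 :: rest) (j + q.c3) := by
        rw [hst3']; exact px_take L st0 d0 rest (j + q.c3) hlen e0x
      refine use2 h q a b ca cb ha hb hab (fun s hs => ?_) 0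
        (intervalIntegral.integral_nonneg h10 fun s _ => hb s) ?_
      · refine hl s ⟨h1.trans hs.1, hs.2.trans ?_⟩
        rw [hp3]; exact h0'
      · have h3 : ((F10 q.lam + 100 * q.En + 1 : ℕ) : ℝ) ≤ ((100 * q.Ep : ℕ) : ℝ) := by
          exact_mod_cast hfin
        push_cast at h3
        linarith

theorem lenPs_nil2 : lenPs [] = 0 := rfl

theorem lenPs_cons2 (q : Par) (qs : List Par) : lenPs (q :: qs) = q.c3 + lenPs qs := rfl

theorem skip_and2 {j : ℕ} {nds : List Nd} (h : skip j nds = true) :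
    Nat.ble 4000 (nds.getD 0 ⟨0, 0, 0⟩).x = true ∧ Nat.ble 7000 (nds.getD j ⟨0, 0, 0⟩).x = true := by
  have h' : (Nat.ble 4000 (nds.getD 0 ⟨0, 0, 0⟩).x && Nat.ble 7000 (nds.getD j ⟨0, 0, 0⟩).x) = true := h
  simpa only [Bool.and_eq_true] using h'

theorem skip_false {D : Set (Fin 3 → ℝ)} {k : Fin 3} {j : ℕ} {nds : List Nd}
    (hsk : sEnd D k < 2 / 5 ∨ sv D k 0 < 7 / 10)
    (h1 : X (xs nds 0) ≤ sEnd D k) (h0 : X (xs nds j) ≤ sv D k 0) : skip j nds ≠ true := by
  intro hs
  replace hs := skip_and2 hs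
  have h4 : 4000 ≤ xs nds 0 := Nat.le_of_ble_eq_true hs.1
  have h7 : 7000 ≤ xs nds j := Nat.le_of_ble_eq_true hs.2
  have h4' : (4000 : ℝ) ≤ xs nds 0 := by exact_mod_cast h4
  have h7' : (7000 : ℝ) ≤ xs nds j := by exact_mod_cast h7
  unfold X at h1 h0
  rcases hsk with h | h <;> linarith

theorem row2_sound {D : Set (Fin 3 → ℝ)} {k : Fin 3} {V : ℝ} (h : Dir2 D k V)
    (hsk : sEnd D k < 2 / 5 ∨ sv D k 0 < 7 / 10)
    (c1 : ℕ) (nds : List Nd) (hinv : Inv g2 nds)
    (h1 : X (xs nds 0) ≤ sEnd D k) (h1' : sEnd D k ≤ X (xs nds c1))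
    (h10 : sEnd D k ≤ sv D k 0) (hpos : 0 < sv D k 0)
    (ps : List Par) (j : ℕ) (hrow : row2 c1 nds j ps = true)
    (h0 : X (xs nds j) ≤ sv D k 0) (h0' : sv D k 0 ≤ X (xs nds (j + lenPs ps)))
    (hne : ps ≠ [] ∨ X (xs nds j) < sv D k 0) :
    ∃ c, Crest.Agent.IT.prof V / 2 < c ∧ QL D c := by
  induction ps generalizing j with
  | nil =>
    exfalso
    rcases hne with hne | hne
    · exact hne rfl
    · simp only [lenPs_nil2, add_zero] at h0'
      linarith
  | cons q qs ih =>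
    simp only [row2, Bool.and_eq_true, Bool.or_eq_true] at hrow
    have hbox : box2 c1 j nds q = true := hrow.1.resolve_left (skip_false hsk h1 h0)
    by_cases hs : sv D k 0 ≤ X (xs nds (j + q.c3))
    · exact box2_sound h c1 j nds q hinv hbox h1 h1' h0 hs h10 hpos
    · push Not at hs
      refine ih (j + q.c3) hrow.2 hs.le ?_ (Or.inr hs)
      rw [show j + q.c3 + lenPs qs = j + lenPs (q :: qs) by simp only [lenPs_cons2]; omega]
      exact h0'

theorem rows2_sound {D : Set (Fin 3 → ℝ)} {k : Fin 3} {V : ℝ} (h : Dir2 D k V)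
    (hsk : sEnd D k < 2 / 5 ∨ sv D k 0 < 7 / 10)
    (hs0 : 2 / 5 ≤ sv D k 0) (hs0' : sv D k 0 ≤ 82 / 100) (hs1 : sEnd D k ≤ 1 / 2)
    (h10 : sEnd D k ≤ sv D k 0)
    (rs : List Row) (nds : List Nd) (hinv : Inv g2 nds) (hrows : rows2 nds rs = true)
    (h1 : X (xs nds 0) ≤ sEnd D k) (hne : xs nds 0 = 0 ∨ X (xs nds 0) < sEnd D k) :
    ∃ c, Crest.Agent.IT.prof V / 2 < c ∧ QL D c := by
  have hpos : 0 < sv D k 0 := by linarith
  induction rs generalizing nds with
  | nil =>
    exfalso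
    have h5 : 5000 ≤ (nds.headD ⟨0, 0, 0⟩).x := Nat.le_of_ble_eq_true hrows
    have he : xs nds 0 = (nds.headD ⟨0, 0, 0⟩).x := by
      cases nds <;> rfl
    rw [← he] at h5
    rcases hne with hne | hne
    · omega
    · have h6 : (5000 : ℝ) ≤ xs nds 0 := by exact_mod_cast h5
      unfold X at hne
      have : (1 : ℝ) / 2 ≤ (xs nds 0 : ℝ) / 10000 := by linarith
      linarith
  | cons r rs ih =>
    simp only [rows2, Bool.and_eq_true] at hrows
    obtain ⟨⟨⟨hr1, hr2⟩, hr3⟩, hr4⟩ := hrows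
    by_cases hs : sEnd D k ≤ X (xs nds r.c1)
    · have h3 : 8200 ≤ xs nds (r.j0 + lenPs r.ps) := Nat.le_of_ble_eq_true hr3
      have h3' : sv D k 0 ≤ X (xs nds (r.j0 + lenPs r.ps)) := by
        have h6 : (8200 : ℝ) ≤ xs nds (r.j0 + lenPs r.ps) := by exact_mod_cast h3
        refine hs0'.trans ?_
        unfold X
        linarith
      have h4 : X (xs nds r.j0) ≤ sv D k 0 ∧ xs nds r.j0 < 8200 := by
        simp only [Bool.or_eq_true] at hr2
        rcases hr2 with h5 | h5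
        · have h6 : r.j0 = 0 := by simpa using h5
          rw [h6]
          refine ⟨h1.trans h10, ?_⟩
          have h7 : X (xs nds 0) ≤ 1 / 2 := h1.trans hs1
          unfold X at h7
          have h8 : (xs nds 0 : ℝ) ≤ 5000 := by linarith
          have h9 : xs nds 0 ≤ 5000 := by exact_mod_cast h8
          omega
        · have h6 := Nat.le_of_ble_eq_true h5
          have h7 : xs nds r.j0 ≤ 4000 := by
            unfold xs
            by_cases hlen : r.j0 < nds.length
            · rw [List.getD_eq_getElem _ _ hlen] at h6 ⊢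
              exact h6
            · rw [List.getD_eq_default _ _ (by omega)]
              simp
          refine ⟨?_, by omega⟩
          have h8 : (xs nds r.j0 : ℝ) ≤ 4000 := by exact_mod_cast h7
          refine le_trans ?_ hs0
          unfold X
          linarith
      refine row2_sound h hsk r.c1 nds hinv h1 hs h10 hpos r.ps r.j0 hr1 h4.1 h3' (Or.inl ?_)
      intro hnil
      rw [hnil] at h3
      simp only [lenPs_nil2, add_zero] at h3
      omega
    · push Not at hs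
      have e : xs (nds.drop r.c1) 0 = xs nds r.c1 := by
        unfold xs
        simp [List.getD_eq_getElem?_getD]
      refine ih (nds.drop r.c1) (Inv_drop hinv r.c1) hr4 ?_ (Or.inr ?_)
      · rw [e]; exact hs.le
      · rw [e]; exact hs

/-- **Soundness of the R2 data.** -/
theorem r2_of (c : Cell2) (hc : check2 c = true)
    (D : Set (Fin 3 → ℝ)) (hD : IsLowerSet D) (hO : IsOpen D) (k : Fin 3)
    (hII : CaseII D (1 / 10) k) (V : ℝ) (hV0 : 0 < V) (hV1 : V ≤ 1 / 2) (hV : vol01 D = V)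
    (hs0 : 2 / 5 ≤ sv D k 0) (hs0' : sv D k 0 ≤ 82 / 100)
    (hsk : sEnd D k < 2 / 5 ∨ sv D k 0 < 7 / 10) :
    ∃ c, Crest.Agent.IT.prof V / 2 < c ∧ QL D c := by
  simp only [check2, Bool.and_eq_true] at hc
  obtain ⟨⟨⟨h1, h2⟩, h3⟩, h4⟩ := hc
  have h1' : c.d0.x = 0 := by simpa using h1
  have h5 := inv_tab2 c.d0 c.tab h3 (by omega)
  have hxs : xs (c.d0 :: c.tab.map Prod.fst) 0 = 0 := h1'
  have hs1 : sEnd D k ≤ V := by rw [← hV]; exact sEnd_le_vol_t D hD hO k
  refine rows2_sound ⟨hD, hO, hII, hV, hV0, hV1⟩ hsk hs0 hs0' (hs1.trans hV1)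
    (sEnd_le D hD k one_pos) c.rows (c.d0 :: c.tab.map Prod.fst) h5 h4 ?_ (Or.inl hxs)
  rw [hxs, X_zero]
  exact sEnd_nonneg_t D k

end Crest.Agent.T3.Pl
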