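import Crest.Agent.T3.Cell

/-! Row 214, chunk T3-FOLD: the folding map and the volume of unfolded sets. -/

set_option autoImplicit false
open MeasureTheory Set Filter Topology
open Crest.GeometryTopology.PeriodicPerimeter

namespace Crest.Agent.T3

theorem fold_nonneg (x : ℝ) : 0 ≤ fold x := by unfold fold; positivity

theorem fold_le_one (x : ℝ) : fold x ≤ 1 := by
  unfold fold
  have := abs_sub_round x
  linarith

theorem fold_add_int (x : ℝ) (m : ℤ) : fold (x + m) = fold x := by
  unfold fold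
  rw [round_add_intCast]
  push_cast
  congr 2
  ring

private theorem fold_eq_norm (x : ℝ) : fold x = 2 * ‖(x : UnitAddCircle)‖ := by
  unfold fold
  rw [UnitAddCircle.norm_eq]

private theorem fold_eq_min (x : ℝ) : fold x = 2 * min (Int.fract x) (1 - Int.fract x) := by
  unfold fold
  rw [abs_sub_round_eq_min]

private theorem fold_of_lt_half {x : ℝ} (h0 : 0 ≤ x) (h1 : x ≤ 1 / 2) : fold x = 2 * x := by
  rw [fold_eq_min, Int.fract_eq_self.2 ⟨h0, by linarith⟩, min_eq_left (by linarith)]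

private theorem fold_of_half_le {x : ℝ} (h0 : 1 / 2 ≤ x) (h1 : x < 1) : fold x = 2 - 2 * x := by
  rw [fold_eq_min, Int.fract_eq_self.2 ⟨by linarith, h1⟩, min_eq_right (by linarith)]
  ring

/-- `fold (u/2) = u` on `[0,1]`; `fold` is even and continuous; folding preserves the measure of
`[0,1)`: `fold x = 2x` on `[0,1/2]` and `2 - 2x` on `[1/2,1)`. -/
theorem fold_half (u : ℝ) (h0 : 0 ≤ u) (h1 : u ≤ 1) : fold (u / 2) = u := by
  rw [fold_of_lt_half (by linarith) (by linarith)]
  ring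

theorem fold_neg (x : ℝ) : fold (-x) = fold x := by
  rw [fold_eq_norm, fold_eq_norm, AddCircle.coe_neg, norm_neg]

theorem fold_one_sub_half (u : ℝ) (h0 : 0 ≤ u) (h1 : u ≤ 1) : fold (1 - u / 2) = u := by
  have h : (1 : ℝ) - u / 2 = -(u / 2) + ((1 : ℤ) : ℝ) := by
    push_cast
    ring
  rw [h, fold_add_int, fold_neg, fold_half u h0 h1]

theorem fold_continuous : Continuous fold := by
  have h : fold = fun x : ℝ => 2 * ‖(x : UnitAddCircle)‖ := funext fold_eq_norm
  rw [h]
  exact continuous_const.mul (continuous_norm.comp (AddCircle.continuous_mk' 1))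

/-- Folding preserves Lebesgue measure on `[0,1)`. -/
theorem fold_map : Measure.map fold (volume.restrict (Ico (0 : ℝ) 1)) =
    volume.restrict (Ico (0 : ℝ) 1) := by
  refine Measure.ext fun s hs => ?_
  rw [Measure.map_apply fold_continuous.measurable hs,
    Measure.restrict_apply (fold_continuous.measurable hs), Measure.restrict_apply hs]
  have hsplit : fold ⁻¹' s ∩ Ico (0 : ℝ) 1 =
      (fold ⁻¹' s ∩ Ico (0 : ℝ) (1 / 2)) ∪ (fold ⁻¹' s ∩ Ico (1 / 2 : ℝ) 1) := by
    rw [← inter_union_distrib_left, Ico_union_Ico_eq_Ico (by norm_num) (by norm_num)]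
  have hdis : Disjoint (fold ⁻¹' s ∩ Ico (0 : ℝ) (1 / 2)) (fold ⁻¹' s ∩ Ico (1 / 2 : ℝ) 1) := by
    rw [Set.disjoint_left]
    rintro x ⟨_, _, hx⟩ ⟨_, hx', _⟩
    exact absurd hx (not_lt.2 hx')
  have e1 : fold ⁻¹' s ∩ Ico (0 : ℝ) (1 / 2) = (fun x => 2 * x) ⁻¹' (s ∩ Ico (0 : ℝ) 1) := by
    ext x
    constructor
    · rintro ⟨hx, h0, h1⟩
      refine ⟨?_, ?_, ?_⟩
      · have := fold_of_lt_half h0 h1.le
        change 2 * x ∈ s
        rw [← this]
        exact hx
      · change 0 ≤ 2 * x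
        linarith
      · change 2 * x < 1
        linarith
    · rintro ⟨hx, h0, h1⟩
      have h0' : 0 ≤ 2 * x := h0
      have h1' : 2 * x < 1 := h1
      refine ⟨?_, by linarith, by linarith⟩
      have := fold_of_lt_half (x := x) (by linarith) (by linarith)
      change fold x ∈ s
      rw [this]
      exact hx
  have e2 : fold ⁻¹' s ∩ Ico (1 / 2 : ℝ) 1 =
      (fun x => (-2) * x) ⁻¹' ((fun y => 2 + y) ⁻¹' (s ∩ Ioc (0 : ℝ) 1)) := by
    ext x
    constructor
    · rintro ⟨hx, h0, h1⟩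
      have h2 := fold_of_half_le h0 h1
      have h3 : 2 + (-2) * x = 2 - 2 * x := by ring
      change 2 + (-2) * x ∈ s ∧ 0 < 2 + (-2) * x ∧ 2 + (-2) * x ≤ 1
      rw [h3]
      refine ⟨?_, by linarith, by linarith⟩
      rw [← h2]
      exact hx
    · intro hx
      have hx' : 2 + (-2) * x ∈ s ∧ 0 < 2 + (-2) * x ∧ 2 + (-2) * x ≤ 1 := hx
      have h3 : 2 + (-2) * x = 2 - 2 * x := by ring
      rw [h3] at hx'
      obtain ⟨h1, h2, h4⟩ := hx'
      have h5 := fold_of_half_le (x := x) (by linarith) (by linarith)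
      refine ⟨?_, by linarith, by linarith⟩
      change fold x ∈ s
      rw [h5]
      exact h1
  have hmeas : MeasurableSet (fold ⁻¹' s ∩ Ico (1 / 2 : ℝ) 1) :=
    (fold_continuous.measurable hs).inter measurableSet_Ico
  rw [hsplit, measure_union hdis hmeas, e1, e2, Real.volume_preimage_mul_left (by norm_num),
    Real.volume_preimage_mul_left (by norm_num), measure_preimage_add]
  have h6 : volume (s ∩ Ioc (0 : ℝ) 1) = volume (s ∩ Ico (0 : ℝ) 1) :=
    measure_congr ((ae_eq_refl s).inter Ico_ae_eq_Ioc.symm)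
  rw [h6, ← add_mul, ← ENNReal.ofReal_add (abs_nonneg _) (abs_nonneg _)]
  have h7 : |(2 : ℝ)⁻¹| + |(-2 : ℝ)⁻¹| = 1 := by
    rw [abs_of_pos (by norm_num), abs_of_neg (by norm_num)]
    norm_num
  rw [h7, ENNReal.ofReal_one, one_mul]

end Crest.Agent.T3
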