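import Crest.Agent.T3.Unf
import Crest.Agent.T3.RigDefs
/-! Row 214, chunk DN2: coordinatewise decreasing sets are unfolded down-sets. -/
set_option autoImplicit false
open MeasureTheory Set Filter Topology
open Crest.GeometryTopology.PeriodicPerimeter
namespace Crest.Agent.T3
noncomputable section

/-- The folding map is quasi measure preserving. -/
theorem dn2_unf_null {n : ℕ} (N : Set (Fin n → ℝ)) (hN : volume N = 0) :
    volume (unf N) = 0 := by
  set N' := toMeasurable volume N with hN'
  have hN'm : MeasurableSet N' := measurableSet_toMeasurable _ _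
  have hN'0 : volume N' = 0 := by rw [hN', measure_toMeasurable, hN]
  set F : (Fin n → ℝ) → (Fin n → ℝ) := fun x i => fold (x i) with hF
  have hFm : Measurable F := by
    refine measurable_pi_iff.2 fun i => ?_
    exact fold_continuous.measurable.comp (measurable_pi_apply i)
  set I : Set (Fin n → ℝ) := Set.pi univ (fun _ => Ico (0 : ℝ) 1) with hI
  have hIm : MeasurableSet I := MeasurableSet.univ_pi fun _ => measurableSet_Ico
  have hfold : MeasurePreserving fold ((volume : Measure ℝ).restrict (Ico 0 1))
      ((volume : Measure ℝ).restrict (Ico 0 1)) := ⟨fold_continuous.measurable, fold_map⟩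
  have hpi : MeasurePreserving F
      ((volume : Measure (Fin n → ℝ)).restrict I) ((volume : Measure (Fin n → ℝ)).restrict I) := by
    have h := measurePreserving_pi (fun _ : Fin n => (volume : Measure ℝ).restrict (Ico 0 1))
      (fun _ : Fin n => (volume : Measure ℝ).restrict (Ico 0 1)) (f := fun _ => fold)
      (fun _ => hfold)
    rw [volume_pi, hI, Measure.restrict_pi_pi]
    exact h
  have hpre := hpi.measure_preimage hN'm.nullMeasurableSet
  rw [Measure.restrict_apply hN'm, Measure.restrict_apply (hpi.measurable hN'm)] at hpre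
  have h0 : volume (F ⁻¹' N' ∩ I) = 0 := by
    rw [hpre]
    exact measure_mono_null inter_subset_left hN'0
  -- all translates
  have hcov : F ⁻¹' N' ⊆ ⋃ m : Fin n → ℤ,
      (fun x : Fin n → ℝ => x + (fun i => -(m i : ℝ))) ⁻¹' (F ⁻¹' N' ∩ I) := by
    intro x hx
    refine mem_iUnion.2 ⟨fun i => ⌊x i⌋, ?_⟩
    refine ⟨?_, ?_⟩
    · have : F (x + fun i => -((⌊x i⌋ : ℤ) : ℝ)) = F x := by
        funext i
        have h1 : (x + fun i => -((⌊x i⌋ : ℤ) : ℝ)) i = x i + ((-⌊x i⌋ : ℤ) : ℝ) := by
          simp
        change fold ((x + fun i => -((⌊x i⌋ : ℤ) : ℝ)) i) = fold (x i)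
        rw [h1, fold_add_int]
      change F (x + fun i => -((⌊x i⌋ : ℤ) : ℝ)) ∈ N'
      rw [this]
      exact hx
    · intro i _
      change x i + -((⌊x i⌋ : ℤ) : ℝ) ∈ Ico (0 : ℝ) 1
      constructor
      · have := Int.floor_le (x i)
        linarith
      · have := Int.lt_floor_add_one (x i)
        linarith
  have hFN : volume (F ⁻¹' N') = 0 := by
    refine measure_mono_null hcov ?_
    refine measure_iUnion_null fun m => ?_
    rw [measure_preimage_add_right]
    exact h0
  have hE := (PiLp.volume_preserving_ofLp (Fin n)).measure_preimage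
    (s := F ⁻¹' N') (hFm hN'm).nullMeasurableSet
  refine measure_mono_null ?_ (hE.trans hFN)
  intro x hx
  exact subset_toMeasurable volume N hx

theorem dn2_main (E : Set E3)
    (h : ∀ j, ∀ x x' : E3, (∀ i, i ≠ j → x i = x' i) → fold (x j) ≤ fold (x' j) → x' ∈ E → x ∈ E) :
    ∃ D : Set (Fin 3 → ℝ), IsOpen D ∧ IsLowerSet D ∧ E =ᵐ[volume] unf D := by
  set D0 : Set (Fin 3 → ℝ) := {u | ∃ x ∈ E, ∀ i, u i ≤ fold (x i)} with hD0
  have hlow : IsLowerSet D0 := by
    rintro u v huv ⟨x, hx, hux⟩
    exact ⟨x, hx, fun i => (huv i).trans (hux i)⟩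
  have hE : E = unf D0 := by
    ext y
    constructor
    · intro hy
      exact ⟨y, hy, fun i => le_rfl⟩
    · rintro ⟨x, hx, hxy⟩
      have hxy' : ∀ i, fold (y i) ≤ fold (x i) := hxy
      set x1 : E3 := WithLp.toLp 2 (fun i => if i = 0 then y 0 else x i) with hx1
      set x2 : E3 := WithLp.toLp 2 (fun i => if i = 0 then y 0 else if i = 1 then y 1 else x i)
        with hx2
      have e1 : x1 ∈ E := by
        refine h 0 x1 x (fun i hi => ?_) ?_ hx
        · simp [hx1, hi]
        · simpa [hx1] using hxy' 0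
      have e2 : x2 ∈ E := by
        refine h 1 x2 x1 (fun i hi => ?_) ?_ e1
        · simp [hx1, hx2, hi]
        · simpa [hx1, hx2] using hxy' 1
      refine h 2 y x2 (fun i hi => ?_) ?_ e2
      · fin_cases i
        · simp [hx2]
        · simp [hx2]
        · exact absurd rfl hi
      · simpa [hx2] using hxy' 2
  refine ⟨interior D0, isOpen_interior, hlow.interior, ?_⟩
  have hnull : volume (unf (frontier D0)) = 0 := dn2_unf_null _ hlow.null_frontier
  rw [hE]
  refine (ae_eq_set).2 ⟨?_, ?_⟩
  · refine measure_mono_null ?_ hnull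
    rintro x ⟨hx, hx'⟩
    exact ⟨subset_closure hx, hx'⟩
  · refine measure_mono_null (t := ∅) ?_ measure_empty
    rintro x ⟨hx, hx'⟩
    exact hx' (interior_subset (s := D0) hx)

end
end Crest.Agent.T3
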