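import Crest.Agent.T3.Fold

/-! Row 214, chunk T3-UNF: elementary facts on `unf D` and slices. -/

set_option autoImplicit false
open MeasureTheory Set Filter Topology
open Crest.GeometryTopology.PeriodicPerimeter

namespace Crest.Agent.T3

theorem unf_periodic {n : ℕ} (D : Set (Fin n → ℝ)) : IsLatticePeriodic (unf D) := by
  intro v hv x
  have h : (fun i => fold ((x + v) i)) = fun i => fold (x i) := by
    funext i
    obtain ⟨m, hm⟩ := hv i
    rw [PiLp.add_apply, hm, fold_add_int]
  simp only [unf, mem_ofPred_eq, h]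

theorem unf_open {n : ℕ} (D : Set (Fin n → ℝ)) (hO : IsOpen D) : IsOpen (unf D) := by
  have h : Continuous (fun x : EuclideanSpace ℝ (Fin n) => (fun i => fold (x i))) :=
    continuous_pi fun i => fold_continuous.comp (by fun_prop)
  exact hO.preimage h

theorem slE_unf {n : ℕ} (D : Set (Fin (n + 1) → ℝ)) (k : Fin (n + 1)) (t : ℝ) :
    slE k t (unf D) = unf (sl k (fold t) D) := by
  ext x
  simp only [slE, unf, sl, mem_ofPred_eq]
  have : (fun i => fold (ins k t x i)) =
      k.insertNth (α := fun _ => ℝ) (fold t) (fun i => fold (x i)) := by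
    funext i
    refine Fin.succAboveCases k ?_ ?_ i
    · simp [ins_apply_self]
    · intro j; simp [ins_apply_succAbove]
  rw [this]

theorem sl_lower {n : ℕ} (D : Set (Fin (n + 1) → ℝ)) (hD : IsLowerSet D) (k : Fin (n + 1)) (u : ℝ) :
    IsLowerSet (sl k u D) := by
  intro x y hxy hx
  refine hD ?_ hx
  intro i
  refine Fin.succAboveCases k ?_ ?_ i
  · simp
  · intro j; simpa using hxy j

theorem sl_open {n : ℕ} (D : Set (Fin (n + 1) → ℝ)) (hO : IsOpen D) (k : Fin (n + 1)) (u : ℝ) :
    IsOpen (sl k u D) := by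
  have h : Continuous (fun y : Fin n → ℝ => (k.insertNth (α := fun _ => ℝ) u y : Fin (n+1) → ℝ)) := by
    refine continuous_pi fun i => ?_
    refine Fin.succAboveCases k ?_ ?_ i
    · simpa using continuous_const
    · intro j; simpa using continuous_apply j
  exact hO.preimage h

theorem sl_anti {n : ℕ} (D : Set (Fin (n + 1) → ℝ)) (hD : IsLowerSet D) (k : Fin (n + 1))
    {u v : ℝ} (huv : u ≤ v) : sl k v D ⊆ sl k u D := by
  intro y hy
  refine hD ?_ hy
  intro i
  refine Fin.succAboveCases k ?_ ?_ i
  · simpa using huv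
  · intro j; simp

end Crest.Agent.T3
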