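import Crest.Agent.T3.UnfBasic

/-! Row 214, chunk T3-UNFVOL. -/

set_option autoImplicit false
open MeasureTheory Set Filter Topology
open Crest.GeometryTopology.PeriodicPerimeter

namespace Crest.Agent.T3

/-- The folding map preserves the volume: `|unf D ∩ [0,1)ⁿ| = |D ∩ [0,1)ⁿ|`
(product of `fold_map`, with `PiLp.volume_preserving_ofLp`). -/
theorem periodicVolume_unf {n : ℕ} (D : Set (Fin n → ℝ)) (hO : IsOpen D) :
    periodicVolume (unf D) = vol01 D := by
  set I : Set (Fin n → ℝ) := Set.pi univ (fun _ => Ico (0 : ℝ) 1) with hI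
  have hIm : MeasurableSet I := MeasurableSet.univ_pi fun _ => measurableSet_Ico
  have hfold : MeasurePreserving fold ((volume : Measure ℝ).restrict (Ico 0 1))
      ((volume : Measure ℝ).restrict (Ico 0 1)) := ⟨fold_continuous.measurable, fold_map⟩
  have hpi : MeasurePreserving (fun (x : Fin n → ℝ) i => fold (x i))
      ((volume : Measure (Fin n → ℝ)).restrict I) ((volume : Measure (Fin n → ℝ)).restrict I) := by
    have h := measurePreserving_pi (fun _ : Fin n => (volume : Measure ℝ).restrict (Ico 0 1))
      (fun _ : Fin n => (volume : Measure ℝ).restrict (Ico 0 1)) (f := fun _ => fold)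
      (fun _ => hfold)
    rw [volume_pi, hI, Measure.restrict_pi_pi]
    exact h
  have hpre := hpi.measure_preimage hO.measurableSet.nullMeasurableSet
  rw [Measure.restrict_apply hO.measurableSet,
    Measure.restrict_apply (hpi.measurable hO.measurableSet)] at hpre
  have hE := (PiLp.volume_preserving_ofLp (Fin n)).measure_preimage
    (s := ((fun (x : Fin n → ℝ) i => fold (x i)) ⁻¹' D) ∩ I)
    (((hpi.measurable hO.measurableSet).inter hIm).nullMeasurableSet)
  unfold periodicVolume vol01
  rw [← hpre, ← hE]
  congr 2
  ext x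
  simp only [unf, unitCell, hI, mem_inter_iff, mem_ofPred_eq, mem_preimage, Set.mem_pi, mem_univ,
    true_implies, mem_Ico]

end Crest.Agent.T3
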