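import Crest.Agent.T3.RigDown1
import Crest.Agent.T3.RigStn
import Crest.Agent.T3.Fold
import Crest.Agent.T3.UnfBasic
import Crest.Agent.T3.UnfVol
import Crest.Agent.T3.RigDown2
/-! Row 214: the triple Steiner symmetrisation is a down-set. -/
set_option autoImplicit false
open MeasureTheory Set Filter Topology
open Crest.GeometryTopology.PeriodicPerimeter
namespace Crest.Agent.T3
noncomputable section

/-- CHUNK DN2. PROOF. `D0 = {u | ∃ x ∈ E, ∀ i, u i ≤ fold (x i)}` is a lower set with `unf D0 = E` (change one coordinate at a time);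
`D = interior D0` is an open lower set (`IsLowerSet.interior`), `D0 \ D` is null (`IsLowerSet.null_frontier`), and the folding
map pulls null sets back to null sets (see `Fold.lean`, `UnfVol.lean`; `fold` is locally `±2x + c`). -/
theorem Dec_unf (E : Set E3) (h : ∀ j, Dec j E) :
    ∃ D : Set (Fin 3 → ℝ), IsOpen D ∧ IsLowerSet D ∧ E =ᵐ[volume] unf D := by
  exact dn2_main E h

theorem down_of_St (E : Set E3) (hE : MeasurableSet E) :
    ∃ D : Set (Fin 3 → ℝ), IsOpen D ∧ IsLowerSet D ∧ St 2 (St 1 (St 0 E)) =ᵐ[volume] unf D := by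
  have m1 := St_meas 0 E hE
  have m2 := St_meas 1 _ m1
  refine Dec_unf _ (fun j => ?_)
  fin_cases j
  · exact Dec_St 0 2 (by decide) _ m2 (Dec_St 0 1 (by decide) _ m1 (Dec_St_self 0 E))
  · exact Dec_St 1 2 (by decide) _ m2 (Dec_St_self 1 _)
  · exact Dec_St_self 2 _

end
end Crest.Agent.T3
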