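import Crest.Agent.T3.RigChain
import Crest.Agent.T3.RigDown
import Crest.Agent.IT.StdFinal
import Crest.Agent.IT.StdB
/-! Row 214: S0332 and S0333 from the lower bound and the equality case for down-sets. -/
set_option autoImplicit false
open MeasureTheory Set Filter Topology
open Crest.GeometryTopology.PeriodicPerimeter
namespace Crest.Agent.T3
noncomputable section

/-- lower bound for down-sets (helper63) -/
def LowerDown : Prop := ∀ V : ℝ, 0 < V → V ≤ 1 / 2 → ∀ D : Set (Fin 3 → ℝ), IsOpen D → IsLowerSet D →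
  vol01 D = V → ENNReal.ofReal (Crest.Agent.IT.prof V) ≤ periodicPerimeter (unf D)

/-- equality case for down-sets (helper5) -/
def EqDown : Prop := ∀ V : ℝ, 0 < V → V ≤ 1 / 2 → ∀ D : Set (Fin 3 → ℝ), IsOpen D → IsLowerSet D →
  vol01 D = V → periodicPerimeter (unf D) = ENNReal.ofReal (Crest.Agent.IT.prof V) →
    ∃ s : Shape, stdOk s ∧ Crest.Agent.IT.stdV s = V ∧ stdP s = Crest.Agent.IT.prof V ∧
      unf D =ᵐ[volume] stdB s

theorem rigfin_perimeter {E F : Set E3} (h : E =ᵐ[volume] F) : periodicPerimeter E = periodicPerimeter F :=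
  Crest.Agent.IT.perimeter_congr (measure_symmDiff_eq_zero_iff.2 h)

theorem rigfin_vol {E F : Set E3} (h : E =ᵐ[volume] F) : periodicVolume E = periodicVolume F :=
  Crest.Agent.IT.pvol_congr (measure_symmDiff_eq_zero_iff.2 h)

theorem rigfin_E3 (E : Set E3) (hE : MeasurableSet E) (hEp : IsLatticePeriodic E) :
    ∃ D : Set (Fin 3 → ℝ), IsOpen D ∧ IsLowerSet D ∧ St 2 (St 1 (St 0 E)) =ᵐ[volume] unf D ∧
      vol01 D = periodicVolume E ∧ periodicPerimeter (unf D) ≤ periodicPerimeter E := by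
  have m1 := St_meas 0 E hE
  have p1 := St_per 0 E hEp
  have m2 := St_meas 1 _ m1
  have p2 := St_per 1 _ p1
  obtain ⟨D, hO, hD, hDE⟩ := down_of_St E hE
  refine ⟨D, hO, hD, hDE, ?_, ?_⟩
  · rw [← periodicVolume_unf D hO, ← rigfin_vol hDE, St_vol 2 _ m2, St_vol 1 _ m1, St_vol 0 E hE]
  · rw [← rigfin_perimeter hDE]
    exact ((steiner_le 2 _ m2 p2).trans (steiner_le 1 _ m1 p1)).trans (steiner_le 0 E hE hEp)

theorem lower_of (h : LowerDown) : ∀ V : ℝ, 0 < V → V ≤ 1 / 2 → ∀ E : Set E3, MeasurableSet E →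
    IsLatticePeriodic E → periodicVolume E = V →
      ENNReal.ofReal (Crest.Agent.IT.prof V) ≤ periodicPerimeter E := by
  intro V hV hV2 E hE hEp hvol
  obtain ⟨D, hO, hD, -, hv, hP⟩ := rigfin_E3 E hE hEp
  exact (h V hV hV2 D hO hD (hv.trans hvol)).trans hP

theorem rigfin_comp {g g' : E3 → E3} (hg : IsCubicIsometry g) (hg' : IsCubicIsometry g') :
    IsCubicIsometry (fun x => g (g' x)) := by
  obtain ⟨σ, ε, c, hε, h⟩ := hg
  obtain ⟨σ', ε', c', hε', h'⟩ := hg'
  refine ⟨σ.trans σ', fun i => ε i * ε' (σ i), WithLp.toLp 2 (fun i => ε i * c' (σ i) + c i),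
    fun i => ?_, fun x i => ?_⟩
  · rcases hε i with a | a <;> rcases hε' (σ i) with b | b <;> simp [a, b]
  · rw [h, h']
    simp only [Equiv.trans_apply]
    ring

theorem rigfin_null {g : E3 → E3} (hg : IsCubicIsometry g) {S : Set E3} (hS : volume S = 0) :
    volume (g '' S) = 0 := by
  obtain ⟨A, c, -, -, hgA⟩ := Crest.Agent.IT.cubic_form hg
  have e : g '' S = (fun y => A.symm (y - c)) ⁻¹' S := by
    ext y
    constructor
    · rintro ⟨x, hx, rfl⟩
      show A.symm (g x - c) ∈ S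
      rw [hgA, add_sub_cancel_right, A.symm_apply_apply]
      exact hx
    · intro hy
      refine ⟨A.symm (y - c), hy, ?_⟩
      rw [hgA, A.apply_symm_apply, sub_add_cancel]
  rw [e]
  exact ((A.symm.measurePreserving).comp
    (measurePreserving_sub_right volume c)).quasiMeasurePreserving.preimage_null hS

theorem rigfin_inj {g : E3 → E3} (hg : IsCubicIsometry g) : Function.Injective g := by
  obtain ⟨A, c, -, -, hgA⟩ := Crest.Agent.IT.cubic_form hg
  intro x y h
  rw [hgA, hgA] at h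
  exact A.injective (add_right_cancel h)

theorem rigfin_congr {E F G : Set E3} (h : CongruentModNull E F) (h' : CongruentModNull F G) :
    CongruentModNull E G := by
  obtain ⟨g, hg, h0⟩ := h
  obtain ⟨g', hg', h0'⟩ := h'
  refine ⟨_, rigfin_comp hg hg', ?_⟩
  have e : (fun x => g (g' x)) '' G = g '' (g' '' G) := (image_image g g' G).symm
  rw [e]
  have h1 : volume (symmDiff (g '' F) (g '' (g' '' G))) = 0 := by
    rw [← image_symmDiff (rigfin_inj hg)]
    exact rigfin_null hg h0'
  exact measure_mono_null (symmDiff_triangle E (g '' F) (g '' (g' '' G)))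
    (measure_union_null h0 h1)

theorem forward_of (h : LowerDown) (he : EqDown) : ∀ V : ℝ, 0 < V → V ≤ 1 / 2 → ∀ E : Set E3,
    MeasurableSet E → IsLatticePeriodic E → periodicVolume E = V →
      periodicPerimeter E = ENNReal.ofReal (Crest.Agent.IT.prof V) → IsStandardRegion V E := by
  intro V hV hV2 E hE hEp hvol hP
  obtain ⟨D, hO, hD, hDE, hv, hPD⟩ := rigfin_E3 E hE hEp
  have hPD' : periodicPerimeter (unf D) = ENNReal.ofReal (Crest.Agent.IT.prof V) :=
    le_antisymm (hPD.trans hP.le) (h V hV hV2 D hO hD (hv.trans hvol))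
  obtain ⟨s, hs, hsV, hsP, hsD⟩ := he V hV hV2 D hO hD (hv.trans hvol) hPD'
  have hc : CongruentModNull E (stdB s) :=
    rigid_final s hs E hE hEp (by rw [hP, hsP]) (hDE.trans hsD)
  have hc2 := rigfin_congr hc (Crest.Agent.IT.stdB_congruent s hs)
  have hpi := Real.pi_pos
  cases s with
  | ball r =>
    left
    have hr := hs.1
    have e1 : 4 / 3 * Real.pi * r ^ 3 = V := hsV
    have e2 : 4 * Real.pi * r ^ 2 = Crest.Agent.IT.prof V := hsP
    have e3 : Crest.Agent.IT.prof V ≤ 2 * Real.sqrt (Real.pi * V) :=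
      (min_le_left _ _).trans (min_le_right _ _)
    have e4 : (4 * Real.pi * r ^ 2) ^ 2 ≤ 4 * Real.pi * V := by
      rw [← Crest.Agent.IT.gamma_sq V hV.le]
      exact pow_le_pow_left₀ (by positivity) (e2.le.trans e3) 2
    have e5 : r ≤ 1 / 3 := by
      rw [← e1] at e4
      by_contra hcon
      push Not at hcon
      have h1 : 0 < Real.pi ^ 2 * r ^ 3 := by positivity
      nlinarith
    refine ⟨?_, ?_⟩
    · rw [← e1]
      have h1 : r ^ 3 ≤ (1 / 3) ^ 3 := pow_le_pow_left₀ hr.le e5 3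
      nlinarith
    · have e6 : 3 * V / (4 * Real.pi) = r ^ 3 := by
        rw [← e1]; field_simp
      rw [e6, ← Real.rpow_natCast, ← Real.rpow_mul hr.le]
      norm_num
      exact hc2
  | tube j r =>
    right; left
    have hr := hs.1
    have e1 : Real.pi * r ^ 2 = V := hsV
    have e2 : 2 * Real.pi * r = Crest.Agent.IT.prof V := hsP
    have e3 : Crest.Agent.IT.prof V ≤ (36 * Real.pi) ^ ((1 : ℝ) / 3) * V ^ ((2 : ℝ) / 3) :=
      (min_le_left _ _).trans (min_le_left _ _)
    have e3' : Crest.Agent.IT.prof V ≤ 2 := min_le_right _ _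
    have e4 : (2 * Real.pi * r) ^ 3 ≤ 36 * Real.pi * V ^ 2 := by
      rw [← Crest.Agent.IT.beta_pow V hV.le]
      exact pow_le_pow_left₀ (by positivity) (e2.le.trans e3) 3
    have e5 : 2 / 9 ≤ r := by
      rw [← e1] at e4
      by_contra hcon
      push Not at hcon
      have h1 : 0 < Real.pi ^ 3 * r ^ 3 := by positivity
      nlinarith
    have e6 : Real.pi * r ≤ 1 := by nlinarith
    refine ⟨?_, ?_, ?_⟩
    · rw [← e1]
      have h1 : (2 / 9) ^ 2 ≤ r ^ 2 := pow_le_pow_left₀ (by norm_num) e5 2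
      nlinarith
    · rw [← e1, le_div_iff₀ hpi]
      nlinarith
    · have e7 : V / Real.pi = r ^ 2 := by
        rw [← e1]; field_simp
      rw [e7, Real.sqrt_sq hr.le]
      exact hc2
  | slab j w =>
    right; right
    have e1 : w = V := hsV
    subst e1
    have e2 : (2 : ℝ) = Crest.Agent.IT.prof w := hsP
    have e3 : Crest.Agent.IT.prof w ≤ 2 * Real.sqrt (Real.pi * w) :=
      (min_le_left _ _).trans (min_le_right _ _)
    have e4 : (2 : ℝ) ^ 2 ≤ 4 * Real.pi * w := by
      rw [← Crest.Agent.IT.gamma_sq w hV.le]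
      exact pow_le_pow_left₀ (by norm_num) (e2.le.trans e3) 2
    refine ⟨?_, hc2⟩
    rw [div_le_iff₀ hpi]
    nlinarith

end
end Crest.Agent.T3
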