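import Crest.Agent.T3.ThinCase
import Crest.Agent.T3.R2
import Crest.Agent.T3.R1
import Crest.Agent.T3.Dat2
import Crest.Agent.T3.CasesR
import Crest.Agent.T3.EqStd
import Crest.Agent.T3.RigFin

/-! Row 214: final assembly of the lower bound and of the equality case for down-sets. -/

set_option autoImplicit false
open MeasureTheory Set Filter Topology
open Crest.GeometryTopology.PeriodicPerimeter

namespace Crest.Agent.T3

/-- lower bound and equality case -/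
def Goal (D : Set (Fin 3 → ℝ)) (V : ℝ) : Prop :=
  ENNReal.ofReal (Crest.Agent.IT.prof V) ≤ periodicPerimeter (unf D) ∧
    (periodicPerimeter (unf D) ≤ ENNReal.ofReal (Crest.Agent.IT.prof V) → StdConcl V D)

theorem goal_strict {D : Set (Fin 3 → ℝ)} {V : ℝ}
    (hp : 0 ≤ Crest.Agent.IT.prof V)
    (h : ∃ c, Crest.Agent.IT.prof V / 2 < c ∧ QL D c) : Goal D V := by
  obtain ⟨c, hc, hq⟩ := h
  have hlt : ENNReal.ofReal (Crest.Agent.IT.prof V) < ENNReal.ofReal (2 * c) :=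
    (ENNReal.ofReal_lt_ofReal_iff (by linarith)).2 (by linarith)
  exact ⟨hlt.le.trans hq, fun hle => absurd (hlt.trans_le (hq.trans hle)) (lt_irrefl _)⟩

theorem goal_r1 (D : Set (Fin 3 → ℝ)) (hD : IsLowerSet D) (hO : IsOpen D) (k : Fin 3) (V : ℝ)
    (hp : 0 ≤ Crest.Agent.IT.prof V)
    (hV0 : 0 < V) (hV1 : V ≤ 1 / 2) (hvol : vol01 D = V) (h : 82 / 100 ≤ sv D k 0) : Goal D V := by
  subst hvol
  rcases r1_main D hD hO k hV0 hV1 h with h1 | ⟨h1, h2⟩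
  · exact goal_strict hp h1
  · refine ⟨?_, fun hle => ?_⟩
    · unfold QL at h1
      rwa [show 2 * (Crest.Agent.IT.prof (vol01 D) / 2) = Crest.Agent.IT.prof (vol01 D) by ring] at h1
    · obtain ⟨h3, h4, h5⟩ := h2 hle
      exact concl_slab D hD hO k (vol01 D) hV0 hV1 (fun t ht htV => h4 t ⟨ht.1, htV⟩)
        (fun t ht htV => h5 t ⟨htV, ht.2⟩) (Crest.Agent.IT.prof_slab _ hV0.le h3)

theorem goal_caseII (D : Set (Fin 3 → ℝ)) (hD : IsLowerSet D) (hO : IsOpen D) (k : Fin 3) (V : ℝ)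
    (hp : 0 ≤ Crest.Agent.IT.prof V)
    (hV0 : 0 < V) (hV1 : V ≤ 1 / 2) (hvol : vol01 D = V) (hII : CaseII D (1 / 10) k)
    (hIIs : CaseIIs D (1 / 10) k)
    (hx : 2 / 5 ≤ sEnd D k → 7 / 10 ≤ sv D k 0 → ∃ c, Crest.Agent.IT.prof V / 2 < c ∧ QL D c) :
    Goal D V := by
  rcases le_total (sv D k 0) (2 / 5) with h | h
  · exact thin_region D hD hO k V hV0 hV1 hvol hIIs h
  rcases le_total (sv D k 0) (82 / 100) with h2 | h2
  · by_cases hsk : sEnd D k < 2 / 5 ∨ sv D k 0 < 7 / 10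
    · exact goal_strict hp (Pl.r2_of Pl.c2 Pl.c2_ok D hD hO k hII V hV0 hV1 hvol h h2 hsk)
    · push Not at hsk
      exact goal_strict hp (hx hsk.1 hsk.2)
  · exact goal_r1 D hD hO k V hp hV0 hV1 hvol h2

theorem goal_of (D : Set (Fin 3 → ℝ)) (hD : IsLowerSet D) (hO : IsOpen D) (V : ℝ)
    (hp : 0 ≤ Crest.Agent.IT.prof V)
    (hV0 : 0 < V) (hV1 : V ≤ 1 / 2) (hvol : vol01 D = V)
    (hx : ∀ k : Fin 3, 2 / 5 ≤ sEnd D k → 7 / 10 ≤ sv D k 0 →
      ∃ c, Crest.Agent.IT.prof V / 2 < c ∧ QL D c)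
    (h3 : ∀ k : Fin 3, sv D k 0 ≤ 82 / 100 → (sEnd D k < 2 / 5 ∨ sv D k 0 < 7 / 10) →
      ∀ h : ℝ, 0 ≤ h → h ≤ sv D k (1 / 10) →
        (∀ hA : ℝ, 0 ≤ hA → hA ≤ h → hA < 1 → CaseA D k hA) →
        (∀ hB : ℝ, h ≤ hB → hB < 1 → CaseB D k hB) →
        ∃ c, Crest.Agent.IT.prof V / 2 < c ∧ QL D c) : Goal D V := by
  rcases case_split_s D hD hO (1 / 10) (by norm_num) (by norm_num) with
    ⟨k, a, b, hka, hkb, hab, ha, hb⟩ | ⟨k, hII, hIIs⟩
  · obtain ⟨h, h0, h1, h2, hA, hB⟩ := caseR_both D hD hO k a b hka hkb hab ha hb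
    rcases le_total (sv D k 0) (82 / 100) with hs | hs
    · by_cases hsk : sEnd D k < 2 / 5 ∨ sv D k 0 < 7 / 10
      · exact goal_strict hp (h3 k hs hsk h h0 h2 hA hB)
      · push Not at hsk
        exact goal_strict hp (hx k hsk.1 hsk.2)
    · exact goal_r1 D hD hO k V hp hV0 hV1 hvol hs
  · exact goal_caseII D hD hO k V hp hV0 hV1 hvol hII hIIs (hx k)

end Crest.Agent.T3
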