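import Crest.Agent.T3.Ibp

/-! Row 214, chunk T3-FTCB. -/

set_option autoImplicit false
open MeasureTheory Set Filter Topology
open Crest.GeometryTopology.PeriodicPerimeter

namespace Crest.Agent.T3

theorem FtcB_fst (B : ℝ → ℝ → ℝ) (hB : ContDiff ℝ 1 (fun p : ℝ × ℝ => B p.1 p.2)) (t v : ℝ) :
    deriv (fun τ => B τ v) t = fderiv ℝ (fun p : ℝ × ℝ => B p.1 p.2) (t, v) (1, 0) := by
  have h1 : HasFDerivAt (fun p : ℝ × ℝ => B p.1 p.2)
      (fderiv ℝ (fun p : ℝ × ℝ => B p.1 p.2) (t, v)) (t, v) :=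
    (hB.differentiable (by norm_num)).differentiableAt.hasFDerivAt
  have h2 : HasDerivAt (fun τ : ℝ => (τ, v)) ((1 : ℝ), (0 : ℝ)) t :=
    (hasDerivAt_id t).prodMk (hasDerivAt_const t v)
  exact (h1.comp_hasDerivAt t h2).deriv

theorem FtcB_snd (B : ℝ → ℝ → ℝ) (hB : ContDiff ℝ 1 (fun p : ℝ × ℝ => B p.1 p.2)) (t v : ℝ) :
    deriv (fun w => B t w) v = fderiv ℝ (fun p : ℝ × ℝ => B p.1 p.2) (t, v) (0, 1) := by
  have h1 : HasFDerivAt (fun p : ℝ × ℝ => B p.1 p.2)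
      (fderiv ℝ (fun p : ℝ × ℝ => B p.1 p.2) (t, v)) (t, v) :=
    (hB.differentiable (by norm_num)).differentiableAt.hasFDerivAt
  have h2 : HasDerivAt (fun w : ℝ => (t, w)) ((0 : ℝ), (1 : ℝ)) v :=
    (hasDerivAt_const v t).prodMk (hasDerivAt_id v)
  exact (h1.comp_hasDerivAt v h2).deriv

/-- The fundamental theorem along `t ↦ B(t, σ(t))`. -/
theorem ftc_B (B : ℝ → ℝ → ℝ) (hB : ContDiff ℝ 1 (fun p : ℝ × ℝ => B p.1 p.2))
    (σ σ' : ℝ → ℝ) (hσ : ∀ t, HasDerivAt σ (σ' t) t) (hσ' : Continuous σ') (t0 t1 : ℝ) :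
    ∫ t in t0..t1, (deriv (fun v => B t v) (σ t) * σ' t + deriv (fun τ => B τ (σ t)) t) =
      B t1 (σ t1) - B t0 (σ t0) := by
  have hσc : Continuous σ := continuous_iff_continuousAt.2 fun t => (hσ t).continuousAt
  have hfc : Continuous (fderiv ℝ (fun p : ℝ × ℝ => B p.1 p.2)) :=
    hB.continuous_fderiv (by norm_num)
  have hc0 : Continuous (fun t => fderiv ℝ (fun p : ℝ × ℝ => B p.1 p.2) (t, σ t)) :=
    hfc.comp (continuous_id.prodMk hσc)
  have heq : (fun t => deriv (fun v => B t v) (σ t) * σ' t + deriv (fun τ => B τ (σ t)) t) =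
      fun t => fderiv ℝ (fun p : ℝ × ℝ => B p.1 p.2) (t, σ t) (0, 1) * σ' t +
        fderiv ℝ (fun p : ℝ × ℝ => B p.1 p.2) (t, σ t) (1, 0) := by
    funext t
    rw [FtcB_fst B hB, FtcB_snd B hB]
  have hcont : Continuous (fun t => deriv (fun v => B t v) (σ t) * σ' t +
      deriv (fun τ => B τ (σ t)) t) := by
    rw [heq]
    exact ((hc0.clm_apply continuous_const).mul hσ').add (hc0.clm_apply continuous_const)
  have hderiv : ∀ t, HasDerivAt (fun t => B t (σ t))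
      (deriv (fun v => B t v) (σ t) * σ' t + deriv (fun τ => B τ (σ t)) t) t := by
    intro t
    rw [FtcB_fst B hB, FtcB_snd B hB]
    have h1 : HasFDerivAt (fun p : ℝ × ℝ => B p.1 p.2)
        (fderiv ℝ (fun p : ℝ × ℝ => B p.1 p.2) (t, σ t)) (t, σ t) :=
      (hB.differentiable (by norm_num)).differentiableAt.hasFDerivAt
    have h2 : HasDerivAt (fun τ : ℝ => (τ, σ τ)) ((1 : ℝ), σ' t) t :=
      (hasDerivAt_id t).prodMk (hσ t)
    have h3 := h1.comp_hasDerivAt t h2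
    have h4 : fderiv ℝ (fun p : ℝ × ℝ => B p.1 p.2) (t, σ t) ((1 : ℝ), σ' t) =
        fderiv ℝ (fun p : ℝ × ℝ => B p.1 p.2) (t, σ t) (0, 1) * σ' t +
        fderiv ℝ (fun p : ℝ × ℝ => B p.1 p.2) (t, σ t) (1, 0) := by
      have h5 : ((1 : ℝ), σ' t) = σ' t • ((0 : ℝ), (1 : ℝ)) + ((1 : ℝ), (0 : ℝ)) := by
        ext <;> simp
      rw [h5, map_add, map_smul, smul_eq_mul]
      ring
    rw [h4] at h3
    exact h3
  exact intervalIntegral.integral_eq_sub_of_hasDerivAt (fun t _ => hderiv t)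
    (hcont.intervalIntegrable _ _)

end Crest.Agent.T3
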