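import Crest.Agent.T3.Cell

/-! Row 214, chunk T3-IBP: periodic integration by parts on the cell. -/

set_option autoImplicit false
open MeasureTheory Set Filter Topology
open Crest.GeometryTopology.PeriodicPerimeter

namespace Crest.Agent.T3

/-- A continuous function is integrable on the cell. -/
theorem cont_integrableOn_cell {n : ℕ} (F : EuclideanSpace ℝ (Fin n) → ℝ) (hF : Continuous F) :
    IntegrableOn F (unitCell n) := by
  have hb : Bornology.IsBounded (unitCell n) := by
    rw [Metric.isBounded_iff_subset_closedBall 0]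
    refine ⟨Real.sqrt n, fun x hx => ?_⟩
    rw [mem_closedBall_zero_iff, EuclideanSpace.norm_eq]
    apply Real.sqrt_le_sqrt
    calc ∑ i, ‖x i‖ ^ 2 ≤ ∑ _i : Fin n, (1 : ℝ) := by
          refine Finset.sum_le_sum fun i _ => ?_
          have := hx i
          rw [Real.norm_eq_abs, sq_abs]
          nlinarith
      _ = n := by simp
  have hc : IsCompact (closure (unitCell n)) := hb.isCompact_closure
  exact (hF.continuousOn.integrableOn_compact hc).mono_set subset_closure

theorem integral_deriv_cell {n : ℕ} (g : EuclideanSpace ℝ (Fin n) → ℝ) (hg : ContDiff ℝ 1 g)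
    (hp : ∀ v, HasIntegerCoords v → ∀ x, g (x + v) = g x) (i : Fin n) :
    ∫ x in unitCell n, fderiv ℝ g x (EuclideanSpace.single i 1) = 0 := by
  cases n with
  | zero => exact i.elim0
  | succ n =>
    have hcont : Continuous (fun x => fderiv ℝ g x (EuclideanSpace.single i 1)) :=
      (hg.continuous_fderiv (by norm_num)).clm_apply continuous_const
    rw [integral_cell_succ _ (cont_integrableOn_cell _ hcont) i]
    have hcont2 : Continuous (fun p : ℝ × EuclideanSpace ℝ (Fin n) =>
        fderiv ℝ g (ins i p.1 p.2) (EuclideanSpace.single i 1)) :=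
      hcont.comp (ins_continuous i)
    rw [intervalIntegral.integral_of_le zero_le_one]
    rw [integral_integral_swap]
    · have : ∀ y : EuclideanSpace ℝ (Fin n),
          ∫ t in Ioc (0:ℝ) 1, fderiv ℝ g (ins i t y) (EuclideanSpace.single i 1) = 0 := by
        intro y
        rw [← intervalIntegral.integral_of_le zero_le_one]
        rw [intervalIntegral.integral_eq_sub_of_hasDerivAt
          (fun t _ => hasDerivAt_ins g hg i t y)
          ((hcont2.comp (continuous_id.prodMk continuous_const)).intervalIntegrable _ _)]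
        have h1 : ins i 1 y = ins i 0 y + EuclideanSpace.single i (1 : ℝ) := by
          ext j
          refine Fin.succAboveCases i ?_ ?_ j
          · simp [ins_apply_self]
          · intro j; simp [ins_apply_succAbove, Fin.succAbove_ne]
        rw [h1, hp, sub_self]
        intro j
        by_cases hj : j = i
        · subst hj; exact ⟨1, by simp⟩
        · exact ⟨0, by simp [hj]⟩
      simp [this]
    · have h3 := (insE_mp i).integrableOn_comp_preimage (insE i).measurableEmbedding
        (f := fun x => fderiv ℝ g x (EuclideanSpace.single i 1)) (s := unitCell (n + 1))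
      rw [insE_preimage_cell] at h3
      have h4 := h3.2 (cont_integrableOn_cell _ hcont)
      rw [Measure.volume_eq_prod, IntegrableOn, ← Measure.prod_restrict] at h4
      rw [restrict_Ico_eq_restrict_Ioc] at h4
      exact h4

/-- Integration by parts. -/
theorem ibp {n : ℕ} (f : EuclideanSpace ℝ (Fin n) → ℝ) (hf : ContDiff ℝ 1 f)
    (hfp : ∀ v, HasIntegerCoords v → ∀ x, f (x + v) = f x)
    (φ : EuclideanSpace ℝ (Fin n) → EuclideanSpace ℝ (Fin n)) (hφ : ContDiff ℝ 1 φ)
    (hφp : ∀ v, HasIntegerCoords v → ∀ x, φ (x + v) = φ x) :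
    ∫ x in unitCell n, f x * divergence φ x =
      - ∫ x in unitCell n, ∑ i, fderiv ℝ f x (EuclideanSpace.single i 1) * φ x i := by
  have hφi : ∀ i, ContDiff ℝ 1 (fun x => φ x i) := fun i => (contDiff_euclidean.1 hφ) i
  have hkey : ∀ x, f x * divergence φ x + ∑ i, fderiv ℝ f x (EuclideanSpace.single i 1) * φ x i =
      ∑ i, fderiv ℝ (fun z => f z * φ z i) x (EuclideanSpace.single i 1) := by
    intro x
    unfold divergence
    rw [Finset.mul_sum, ← Finset.sum_add_distrib]
    refine Finset.sum_congr rfl fun i _ => ?_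
    have h1 : HasFDerivAt (fun z => f z * φ z i)
        (f x • fderiv ℝ (fun z => φ z i) x + φ x i • fderiv ℝ f x) x :=
      ((hf.differentiable (by norm_num)).differentiableAt.hasFDerivAt).mul
        (((hφi i).differentiable (by norm_num)).differentiableAt.hasFDerivAt)
    rw [h1.fderiv]
    have h2 : fderiv ℝ (fun z => φ z i) x (EuclideanSpace.single i 1) =
        fderiv ℝ φ x (EuclideanSpace.single i 1) i := by
      have h3 : HasFDerivAt (fun z => φ z i)
          ((EuclideanSpace.proj i : EuclideanSpace ℝ (Fin n) →L[ℝ] ℝ).comp (fderiv ℝ φ x)) x :=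
        (EuclideanSpace.proj i : EuclideanSpace ℝ (Fin n) →L[ℝ] ℝ).hasFDerivAt.comp x
          ((hφ.differentiable (by norm_num)).differentiableAt.hasFDerivAt)
      rw [h3.fderiv]
      rfl
    simp only [add_apply, smul_apply, smul_eq_mul, h2]
    ring
  have hc1 : Continuous (fun x => f x * divergence φ x) := by
    refine hf.continuous.mul ?_
    unfold divergence
    refine continuous_finsetSum _ fun i _ => ?_
    have : Continuous (fun x => fderiv ℝ φ x (EuclideanSpace.single i 1)) :=
      (hφ.continuous_fderiv (by norm_num)).clm_apply continuous_const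
    exact (EuclideanSpace.proj i : EuclideanSpace ℝ (Fin n) →L[ℝ] ℝ).continuous.comp this
  have hc2 : Continuous (fun x => ∑ i, fderiv ℝ f x (EuclideanSpace.single i 1) * φ x i) := by
    refine continuous_finsetSum _ fun i _ => ?_
    exact ((hf.continuous_fderiv (by norm_num)).clm_apply continuous_const).mul
      (hφi i).continuous
  rw [← sub_eq_zero, sub_neg_eq_add, ← integral_add (cont_integrableOn_cell _ hc1)
    (cont_integrableOn_cell _ hc2)]
  simp only [hkey]
  rw [integral_finsetSum]
  · refine Finset.sum_eq_zero fun i _ => ?_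
    refine integral_deriv_cell _ (hf.mul (hφi i)) ?_ i
    intro v hv x
    rw [hfp v hv, hφp v hv]
  · intro i _
    refine cont_integrableOn_cell _ ?_
    exact ((hf.mul (hφi i)).continuous_fderiv (by norm_num)).clm_apply continuous_const

/-- `|∇f · v| ≤ gr f` for `|v| ≤ 1`. -/
theorem inner_le_gr {n : ℕ} (f : EuclideanSpace ℝ (Fin n) → ℝ) (x v : EuclideanSpace ℝ (Fin n))
    (hv : ‖v‖ ≤ 1) :
    |∑ i, fderiv ℝ f x (EuclideanSpace.single i 1) * v i| ≤ gr f x := by
  unfold gr
  apply Real.abs_le_sqrt
  have h1 := Finset.sum_mul_sq_le_sq_mul_sq Finset.univ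
    (fun i => fderiv ℝ f x (EuclideanSpace.single i 1)) (fun i => v i)
  have h2 : ∑ i, (v i) ^ 2 ≤ 1 := by
    have := EuclideanSpace.norm_eq v
    have h3 : ‖v‖ ^ 2 = ∑ i, ‖v i‖ ^ 2 := EuclideanSpace.norm_sq_eq v
    simp only [Real.norm_eq_abs, sq_abs] at h3
    rw [← h3]
    nlinarith [norm_nonneg v]
  calc _ ≤ _ := h1
    _ ≤ (∑ i, (fderiv ℝ f x (EuclideanSpace.single i 1)) ^ 2) * 1 := by
        gcongr
    _ = _ := mul_one _

theorem gr_continuous {n : ℕ} (f : EuclideanSpace ℝ (Fin n) → ℝ) (hf : ContDiff ℝ 1 f) :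
    Continuous (gr f) := by
  unfold gr
  refine Real.continuous_sqrt.comp (continuous_finsetSum _ fun i _ => ?_)
  exact ((hf.continuous_fderiv (by norm_num)).clm_apply continuous_const).pow 2

/-- Test fields bound the total variation of a smooth function from below. -/
theorem test_le_gr {n : ℕ} (f : EuclideanSpace ℝ (Fin n) → ℝ) (hf : ContDiff ℝ 1 f)
    (hfp : ∀ v, HasIntegerCoords v → ∀ x, f (x + v) = f x)
    (φ : EuclideanSpace ℝ (Fin n) → EuclideanSpace ℝ (Fin n)) (hφ : IsAdmissibleField φ) :
    ∫ x in unitCell n, f x * divergence φ x ≤ ∫ x in unitCell n, gr f x := by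
  rw [ibp f hf hfp φ hφ.1 hφ.2.1]
  have hφi : ∀ i, ContDiff ℝ 1 (fun x => φ x i) := fun i => (contDiff_euclidean.1 hφ.1) i
  have hc2 : Continuous (fun x => ∑ i, fderiv ℝ f x (EuclideanSpace.single i 1) * φ x i) := by
    refine continuous_finsetSum _ fun i _ => ?_
    exact ((hf.continuous_fderiv (by norm_num)).clm_apply continuous_const).mul
      (hφi i).continuous
  rw [← integral_neg]
  refine setIntegral_mono (cont_integrableOn_cell _ hc2.neg)
    (cont_integrableOn_cell _ (gr_continuous f hf)) ?_
  intro x
  have := inner_le_gr f x (φ x) (hφ.2.2 x)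
  exact (neg_le_abs _).trans this

end Crest.Agent.T3
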