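import Crest.Agent.T3.Defs

/-! Row 214, chunk T3-INS: the coordinate insertion map and its calculus. -/

set_option autoImplicit false
open MeasureTheory Set Filter Topology
open Crest.GeometryTopology.PeriodicPerimeter

namespace Crest.Agent.T3

theorem ins_apply_self {n : ℕ} (k : Fin (n + 1)) (t : ℝ) (x : EuclideanSpace ℝ (Fin n)) :
    ins k t x k = t := by
  simp [ins]

theorem ins_apply_succAbove {n : ℕ} (k : Fin (n + 1)) (t : ℝ) (x : EuclideanSpace ℝ (Fin n))
    (i : Fin n) : ins k t x (k.succAbove i) = x i := by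
  simp [ins]

/-- `ins k` is smooth in both arguments (it is linear on `ℝ × ℝⁿ`). -/
theorem ins_contDiff {n : ℕ} (k : Fin (n + 1)) {m : WithTop ℕ∞} :
    ContDiff ℝ m (fun p : ℝ × EuclideanSpace ℝ (Fin n) => ins k p.1 p.2) := by
  rw [contDiff_euclidean]
  intro i
  refine Fin.succAboveCases k ?_ ?_ i
  · simp only [ins_apply_self]
    exact contDiff_fst
  · intro j
    simp only [ins_apply_succAbove]
    exact (contDiff_euclidean.1 contDiff_id j).comp contDiff_snd

theorem ins_continuous {n : ℕ} (k : Fin (n + 1)) :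
    Continuous (fun p : ℝ × EuclideanSpace ℝ (Fin n) => ins k p.1 p.2) :=
  (ins_contDiff k (m := 0)).continuous

/-- derivative of a slice in the slice directions -/
theorem fderiv_ins_slice {n : ℕ} (f : EuclideanSpace ℝ (Fin (n + 1)) → ℝ) (hf : ContDiff ℝ 1 f)
    (k : Fin (n + 1)) (t : ℝ) (x : EuclideanSpace ℝ (Fin n)) (i : Fin n) :
    fderiv ℝ (fun y => f (ins k t y)) x (EuclideanSpace.single i 1) =
      fderiv ℝ f (ins k t x) (EuclideanSpace.single (k.succAbove i) 1) := by
  have hd : DifferentiableAt ℝ f (ins k t x) := (hf.differentiable (by norm_num)).differentiableAt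
  have h1 : HasDerivAt (fun τ : ℝ => ins k t (x + τ • EuclideanSpace.single i (1 : ℝ)))
      (EuclideanSpace.single (k.succAbove i) (1 : ℝ)) 0 := by
    have h2 : (fun τ : ℝ => ins k t (x + τ • EuclideanSpace.single i (1 : ℝ))) =
        fun τ : ℝ => ins k t x + τ • EuclideanSpace.single (k.succAbove i) (1 : ℝ) := by
      funext τ
      ext j
      refine Fin.succAboveCases k ?_ ?_ j
      · rw [ins_apply_self]
        simp [ins_apply_self, Fin.ne_succAbove]
      · intro j
        rw [ins_apply_succAbove]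
        simp only [PiLp.add_apply, PiLp.smul_apply, ins_apply_succAbove, smul_eq_mul]
        by_cases hij : j = i
        · subst hij; simp
        · have : k.succAbove j ≠ k.succAbove i := fun h => hij (Fin.succAbove_right_injective h)
          simp [hij, this]
    rw [h2]
    simpa using ((hasDerivAt_id (0 : ℝ)).smul_const
      (EuclideanSpace.single (k.succAbove i) (1 : ℝ))).const_add (ins k t x)
  have h3 : HasDerivAt (fun τ : ℝ => f (ins k t (x + τ • EuclideanSpace.single i (1 : ℝ))))
      (fderiv ℝ f (ins k t x) (EuclideanSpace.single (k.succAbove i) 1)) 0 := by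
    have h4 : HasFDerivAt f (fderiv ℝ f (ins k t x))
        (ins k t (x + (0 : ℝ) • EuclideanSpace.single i (1 : ℝ))) := by
      simpa using hd.hasFDerivAt
    exact h4.comp_hasDerivAt (0 : ℝ) h1
  have hd2 : DifferentiableAt ℝ (fun y => f (ins k t y)) x := by
    have h5 : ContDiff ℝ 1 (fun y => f (ins k t y)) :=
      hf.comp ((ins_contDiff k).comp (contDiff_const.prodMk contDiff_id))
    exact (h5.differentiable (by norm_num)).differentiableAt
  have h6 : HasDerivAt (fun τ : ℝ => x + τ • EuclideanSpace.single i (1 : ℝ))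
      (EuclideanSpace.single i (1 : ℝ)) 0 := by
    simpa using ((hasDerivAt_id (0 : ℝ)).smul_const
      (EuclideanSpace.single i (1 : ℝ))).const_add x
  have h7 : HasDerivAt (fun τ : ℝ => f (ins k t (x + τ • EuclideanSpace.single i (1 : ℝ))))
      (fderiv ℝ (fun y => f (ins k t y)) x (EuclideanSpace.single i 1)) 0 := by
    have h8 : HasFDerivAt (fun y => f (ins k t y)) (fderiv ℝ (fun y => f (ins k t y)) x)
        (x + (0 : ℝ) • EuclideanSpace.single i (1 : ℝ)) := by
      simpa using hd2.hasFDerivAt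
    exact h8.comp_hasDerivAt (0 : ℝ) h6
  exact h7.unique h3

/-- derivative in the inserted direction -/
theorem hasDerivAt_ins {n : ℕ} (f : EuclideanSpace ℝ (Fin (n + 1)) → ℝ) (hf : ContDiff ℝ 1 f)
    (k : Fin (n + 1)) (t : ℝ) (x : EuclideanSpace ℝ (Fin n)) :
    HasDerivAt (fun τ => f (ins k τ x))
      (fderiv ℝ f (ins k t x) (EuclideanSpace.single k 1)) t := by
  have hd : DifferentiableAt ℝ f (ins k t x) := (hf.differentiable (by norm_num)).differentiableAt
  have h1 : HasDerivAt (fun τ : ℝ => ins k τ x) (EuclideanSpace.single k (1 : ℝ)) t := by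
    have h2 : (fun τ : ℝ => ins k τ x) =
        fun τ : ℝ => ins k 0 x + τ • EuclideanSpace.single k (1 : ℝ) := by
      funext τ
      ext j
      refine Fin.succAboveCases k ?_ ?_ j
      · simp [ins_apply_self]
      · intro j
        simp [ins_apply_succAbove, Fin.succAbove_ne]
    rw [h2]
    simpa using ((hasDerivAt_id t).smul_const (EuclideanSpace.single k (1 : ℝ))).const_add (ins k 0 x)
  exact hd.hasFDerivAt.comp_hasDerivAt t h1

/-- Decomposition of the gradient. -/
theorem gr_ins_sq {n : ℕ} (f : EuclideanSpace ℝ (Fin (n + 1)) → ℝ) (hf : ContDiff ℝ 1 f)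
    (k : Fin (n + 1)) (t : ℝ) (x : EuclideanSpace ℝ (Fin n)) :
    gr f (ins k t x) = Real.sqrt ((fderiv ℝ f (ins k t x) (EuclideanSpace.single k 1)) ^ 2 +
      (gr (fun y => f (ins k t y)) x) ^ 2) := by
  unfold gr
  rw [Real.sq_sqrt (by positivity)]
  rw [Fin.sum_univ_succAbove _ k]
  simp only [fderiv_ins_slice f hf]

/-- Cauchy-Schwarz: `|∇f| ≥ a |∇' f| - b ∂_k f` if `a ≥ 0`, `a² + b² ≤ 1`. -/
theorem gr_ins_ge {n : ℕ} (f : EuclideanSpace ℝ (Fin (n + 1)) → ℝ) (hf : ContDiff ℝ 1 f)
    (k : Fin (n + 1)) (t : ℝ) (x : EuclideanSpace ℝ (Fin n)) (a b : ℝ)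
    (hab : a ^ 2 + b ^ 2 ≤ 1) :
    a * gr (fun y => f (ins k t y)) x - b * fderiv ℝ f (ins k t x) (EuclideanSpace.single k 1)
      ≤ gr f (ins k t x) := by
  rw [gr_ins_sq f hf]
  set p := fderiv ℝ f (ins k t x) (EuclideanSpace.single k 1)
  set r := gr (fun y => f (ins k t y)) x
  apply Real.le_sqrt_of_sq_le
  nlinarith [sq_nonneg (a * p + b * r), sq_nonneg p, sq_nonneg r,
    mul_nonneg (sub_nonneg.2 hab) (add_nonneg (sq_nonneg p) (sq_nonneg r))]

end Crest.Agent.T3
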