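import Crest.Agent.T3.Ibp
import Crest.Agent.IT.Moll

/-! Row 214, chunk T3-MOLL: mollification (helper25: IT/Moll.lean). -/

set_option autoImplicit false
open MeasureTheory Set Filter Topology
open Crest.GeometryTopology.PeriodicPerimeter

namespace Crest.Agent.T3

/-- Mollification of a periodic set of finite perimeter: smooth periodic functions with values in
`[0,1]`, converging almost everywhere to the indicator, with total variation at most `P(E)`. -/
theorem exists_approx {n : ℕ} (E : Set (EuclideanSpace ℝ (Fin n))) (hE : MeasurableSet E)
    (hper : IsLatticePeriodic E) (hfin : periodicPerimeter E ≠ ⊤) :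
    ∃ f : ℕ → EuclideanSpace ℝ (Fin n) → ℝ, Approx E (periodicPerimeter E).toReal f :=
  Crest.Agent.IT.approx_exists hE hper hfin

end Crest.Agent.T3
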