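import Mathlib

/-! Row 214: kernel-evaluated checker for calibrations: core (piecewise linear pairs `(a, b)`). -/

set_option autoImplicit false
open MeasureTheory Set Filter Topology

namespace Crest.Agent.T3.Pl

/-! ### the functions evaluated by the kernel -/

def nst (n x : ℕ) : ℕ := (x + n / x) / 2

def isq (n x0 : ℕ) : ℕ :=
  let y := nst n (nst n (nst n x0))
  if Nat.ble (y * y) n then y else
    let z := n / y
    if Nat.ble (z * z) n then z else 0

structure Ln where
  (Ep En lp ln : ℕ)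

def Ln.val (L : Ln) (x : ℕ) : ℕ := (L.Ep + L.lp * x) - (L.En + L.ln * x)

structure Nd where
  (x g k : ℕ)

def aval (L : Ln) (d : Nd) : ℕ := (L.val d.x + d.k) * 10000 / d.g + 1

structure St where
  (ok : Bool) (px pa pb pg pk T : ℕ)

def step (L : Ln) (st : St) (d : Nd) : St :=
  let a := aval L d
  let b := isq (1000000000000 - a * a) (st.pb + 50000)
  let pr := (a - st.pa) * (d.g - st.pg) + (st.pa - a) * (st.pg - d.g)
  ⟨st.ok && Nat.ble a 1000000 && Nat.ble (st.px + 1) d.x && Nat.ble pr (40000 * st.pk) &&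
    Nat.ble pr (40000 * d.k), d.x, a, b, d.g, d.k, st.T + (d.x - st.px) * (st.pb + b)⟩

/-- initial state at node `d0`, next node `d1` -/
def start (L : Ln) (d0 d1 : Nd) : St :=
  match d0.g with
  | 0 =>
    let a := aval L d1
    let b := isq (1000000000000 - a * a) 500000
    ⟨Nat.ble (L.val d0.x) 0 && Nat.ble a 1000000, d0.x, a, b, 0, 0, 0⟩
  | g + 1 =>
    let a := aval L d0
    let b := isq (1000000000000 - a * a) 500000
    ⟨Nat.ble a 1000000 && Nat.ble 1 d0.g, d0.x, a, b, g + 1, d0.k, 0⟩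

def run (L : Ln) (st : St) (l : List Nd) : St := l.foldl (step L) st

/-- run with the minimum of `b` -/
def runM (L : Ln) : St → ℕ → List Nd → St × ℕ
  | st, m, [] => (st, m)
  | st, m, d :: l =>
    let st' := step L st d
    runM L st' (if Nat.ble m st'.pb then m else st'.pb) l

/-! ### soundness -/

theorem isq_sq (n x0 : ℕ) : isq n x0 * isq n x0 ≤ n := by
  unfold isq
  simp only
  split_ifs with h h2
  · exact Nat.le_of_ble_eq_true h
  · exact Nat.le_of_ble_eq_true h2
  · simp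

/-- real value of a position -/
noncomputable def X (x : ℕ) : ℝ := (x : ℝ) / 10000
noncomputable def Y (a : ℕ) : ℝ := (a : ℝ) / 1000000

/-- the real line -/
noncomputable def Ln.rv (L : Ln) (s : ℝ) : ℝ :=
  ((L.Ep : ℝ) - L.En) / 100000000 + ((L.lp : ℝ) - L.ln) / 10000 * s

theorem rv_le (L : Ln) (x : ℕ) : L.rv (X x) ≤ (L.val x : ℝ) / 100000000 := by
  unfold Ln.rv Ln.val X
  have h : ((L.Ep + L.lp * x : ℕ) : ℝ) - ((L.En + L.ln * x : ℕ) : ℝ) ≤
      (((L.Ep + L.lp * x) - (L.En + L.ln * x) : ℕ) : ℝ) := by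
    rcases le_total (L.En + L.ln * x) (L.Ep + L.lp * x) with h | h
    · rw [Nat.cast_sub h]
    · rw [Nat.sub_eq_zero_of_le h]
      have : ((L.Ep + L.lp * x : ℕ) : ℝ) ≤ ((L.En + L.ln * x : ℕ) : ℝ) := by exact_mod_cast h
      push_cast at this ⊢
      linarith
  push_cast at h ⊢
  rw [le_div_iff₀ (by norm_num)]
  have e : (((L.Ep : ℝ) - L.En) / 100000000 + ((L.lp : ℝ) - L.ln) / 10000 * (x / 10000)) * 100000000
      = L.Ep + L.lp * x - (L.En + L.ln * x) := by ring
  rw [e]
  exact h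

/-- the values of the chord of two nodes are admissible (`g s c` = "`c` is an admissible lower bound at `s`") -/
def CellG (g : ℝ → ℝ → Prop) (x0 g0 x1 g1 : ℕ) : Prop :=
  ∀ t ∈ Icc (0 : ℝ) 1, g ((1 - t) * X x0 + t * X x1) ((1 - t) * Y g0 + t * Y g1)

def ChainG (g : ℝ → ℝ → Prop) : ℕ → ℕ → List Nd → Prop
  | _, _, [] => True
  | x0, g0, d :: l => CellG g x0 g0 d.x d.g ∧ 0 < d.g ∧ ChainG g d.x d.g l

structure Good (L : Ln) (g : ℝ → ℝ → Prop) (y0 : ℝ) (st : St) (a b : ℝ → ℝ) : Prop where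
  ca : Continuous a
  cb : Continuous b
  ha : ∀ s, 0 ≤ a s
  hb : ∀ s, 0 ≤ b s
  hab : ∀ s, a s ^ 2 + b s ^ 2 ≤ 1
  hl : ∀ s ∈ Icc y0 (X st.px), ∃ c, g s c ∧ L.rv s ≤ a s * c
  ea : ∀ s, X st.px ≤ s → a s = Y st.pa
  eb : ∀ s, X st.px ≤ s → b s = Y st.pb
  sl : (L.val st.px + st.pk) * 10000 ≤ st.pa * st.pg
  y0 : y0 ≤ X st.px

/-- ramp -/
noncomputable def ramp (u v s : ℝ) : ℝ := (max u (min v s) - u) / (v - u)

theorem ramp_cont (u v : ℝ) : Continuous (ramp u v) := by
  unfold ramp; fun_prop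

theorem ramp_left {u v s : ℝ} (huv : u < v) (h : s ≤ u) : ramp u v s = 0 := by
  unfold ramp
  rw [min_eq_right (h.trans huv.le), max_eq_left h]; simp

theorem ramp_right {u v s : ℝ} (huv : u < v) (h : v ≤ s) : ramp u v s = 1 := by
  unfold ramp
  rw [min_eq_left h, max_eq_right huv.le]; exact div_self (by linarith)

theorem ramp_mid {u v s : ℝ} (h1 : u ≤ s) (h2 : s ≤ v) : ramp u v s = (s - u) / (v - u) := by
  unfold ramp
  rw [min_eq_right h2, max_eq_right h1]

theorem ramp_mem {u v s : ℝ} (huv : u < v) : ramp u v s ∈ Icc (0 : ℝ) 1 := by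
  have hd : 0 < v - u := by linarith
  constructor
  · unfold ramp
    apply div_nonneg _ hd.le
    have := le_max_left u (min v s); linarith
  · unfold ramp
    rw [div_le_one hd]
    have : max u (min v s) ≤ v := max_le huv.le (min_le_left _ _)
    linarith

/-- real product inequality in a cell -/
theorem cell_ineq {t a0 a1 g0 g1 l0 l1 k0 k1 G : ℝ} (ht0 : 0 ≤ t) (ht1 : t ≤ 1)
    (ha0 : 0 ≤ a0) (ha1 : 0 ≤ a1)
    (h0 : l0 + k0 ≤ a0 * g0) (h1 : l1 + k1 ≤ a1 * g1) (hk0 : 0 ≤ k0) (hk1 : 0 ≤ k1)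
    (hp0 : (a1 - a0) * (g1 - g0) ≤ 4 * k0) (hp1 : (a1 - a0) * (g1 - g0) ≤ 4 * k1)
    (hG : (1 - t) * g0 + t * g1 ≤ G) :
    (1 - t) * l0 + t * l1 ≤ ((1 - t) * a0 + t * a1) * G := by
  have hA : 0 ≤ (1 - t) * a0 + t * a1 := by
    have := mul_nonneg (sub_nonneg.2 ht1) ha0
    have := mul_nonneg ht0 ha1
    linarith
  have h2 : ((1 - t) * a0 + t * a1) * ((1 - t) * g0 + t * g1) ≤ ((1 - t) * a0 + t * a1) * G :=
    mul_le_mul_of_nonneg_left hG hA
  refine le_trans ?_ h2
  have e : ((1 - t) * a0 + t * a1) * ((1 - t) * g0 + t * g1) =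
      (1 - t) * (a0 * g0) + t * (a1 * g1) - t * (1 - t) * ((a1 - a0) * (g1 - g0)) := by ring
  rw [e]
  have h3 : (1 - t) * (l0 + k0) ≤ (1 - t) * (a0 * g0) :=
    mul_le_mul_of_nonneg_left h0 (sub_nonneg.2 ht1)
  have h4 : t * (l1 + k1) ≤ t * (a1 * g1) := mul_le_mul_of_nonneg_left h1 ht0
  have hq : 0 ≤ t * (1 - t) := mul_nonneg ht0 (sub_nonneg.2 ht1)
  have hq4 : t * (1 - t) ≤ 1 / 4 := by nlinarith [sq_nonneg (t - 1 / 2)]
  -- min slack
  have h5 : t * (1 - t) * ((a1 - a0) * (g1 - g0)) ≤ (1 - t) * k0 + t * k1 := by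
    rcases le_total k0 k1 with hk | hk
    · have : t * (1 - t) * ((a1 - a0) * (g1 - g0)) ≤ t * (1 - t) * (4 * k0) :=
        mul_le_mul_of_nonneg_left hp0 hq
      nlinarith
    · have : t * (1 - t) * ((a1 - a0) * (g1 - g0)) ≤ t * (1 - t) * (4 * k1) :=
        mul_le_mul_of_nonneg_left hp1 hq
      nlinarith
  nlinarith

theorem disc_ineq {t a0 a1 b0 b1 : ℝ} (ht0 : 0 ≤ t) (ht1 : t ≤ 1)
    (h0 : a0 ^ 2 + b0 ^ 2 ≤ 1) (h1 : a1 ^ 2 + b1 ^ 2 ≤ 1) :
    ((1 - t) * a0 + t * a1) ^ 2 + ((1 - t) * b0 + t * b1) ^ 2 ≤ 1 := by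
  have hq : 0 ≤ t * (1 - t) := mul_nonneg ht0 (sub_nonneg.2 ht1)
  have e : ((1 - t) * a0 + t * a1) ^ 2 + ((1 - t) * b0 + t * b1) ^ 2 =
    (1 - t) * (a0 ^ 2 + b0 ^ 2) + t * (a1 ^ 2 + b1 ^ 2)
      - t * (1 - t) * ((a1 - a0) ^ 2 + (b1 - b0) ^ 2) := by ring
  rw [e]
  have h2 : (1 - t) * (a0 ^ 2 + b0 ^ 2) ≤ (1 - t) * 1 := mul_le_mul_of_nonneg_left h0 (by linarith)
  have h3 : t * (a1 ^ 2 + b1 ^ 2) ≤ t * 1 := mul_le_mul_of_nonneg_left h1 ht0
  have h4 : 0 ≤ t * (1 - t) * ((a1 - a0) ^ 2 + (b1 - b0) ^ 2) :=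
    mul_nonneg hq (add_nonneg (sq_nonneg _) (sq_nonneg _))
  linarith

theorem aval_ge (L : Ln) (d : Nd) (hg : 0 < d.g) : (L.val d.x + d.k) * 10000 ≤ aval L d * d.g := by
  unfold aval
  have := Nat.div_add_mod ((L.val d.x + d.k) * 10000) d.g
  have h2 := Nat.mod_lt ((L.val d.x + d.k) * 10000) hg
  nlinarith

theorem X_lt {x y : ℕ} (h : x < y) : X x < X y := by
  unfold X
  have : (x : ℝ) < y := by exact_mod_cast h
  exact div_lt_div_of_pos_right this (by norm_num)

theorem Y_nonneg (a : ℕ) : 0 ≤ Y a := by unfold Y; positivity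

theorem Y_sq {a b : ℕ} (ha : a ≤ 1000000) (h : b * b ≤ 1000000000000 - a * a) :
    Y a ^ 2 + Y b ^ 2 ≤ 1 := by
  have h1 : a * a ≤ 1000000000000 := by nlinarith
  have h2 : a * a + b * b ≤ 1000000000000 := by omega
  have h3 : (a : ℝ) * a + b * b ≤ 1000000000000 := by exact_mod_cast h2
  unfold Y
  nlinarith

theorem prod_cast {a0 a1 g0 g1 K : ℕ} (h : (a1 - a0) * (g1 - g0) + (a0 - a1) * (g0 - g1) ≤ K) :
    ((a1 : ℝ) - a0) * ((g1 : ℝ) - g0) ≤ K := by
  have hc : (((a1 - a0) * (g1 - g0) + (a0 - a1) * (g0 - g1) : ℕ) : ℝ) ≤ K := by exact_mod_cast h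
  refine le_trans ?_ hc
  rcases le_total a0 a1 with ha | ha <;> rcases le_total g0 g1 with hg | hg
  · rw [Nat.sub_eq_zero_of_le ha]; push_cast [Nat.cast_sub ha, Nat.cast_sub hg]; simp
  · rw [Nat.sub_eq_zero_of_le ha, Nat.sub_eq_zero_of_le hg]
    have h1 : (a0 : ℝ) ≤ a1 := by exact_mod_cast ha
    have h2 : (g1 : ℝ) ≤ g0 := by exact_mod_cast hg
    simp; nlinarith
  · rw [Nat.sub_eq_zero_of_le ha, Nat.sub_eq_zero_of_le hg]
    have h1 : (a1 : ℝ) ≤ a0 := by exact_mod_cast ha
    have h2 : (g0 : ℝ) ≤ g1 := by exact_mod_cast hg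
    simp; nlinarith
  · rw [Nat.sub_eq_zero_of_le ha]; push_cast [Nat.cast_sub ha, Nat.cast_sub hg]; simp
    nlinarith

theorem step_ok {L : Ln} {st : St} {d : Nd} (h : (step L st d).ok = true) :
    st.ok = true ∧ aval L d ≤ 1000000 ∧ st.px + 1 ≤ d.x ∧
    (aval L d - st.pa) * (d.g - st.pg) + (st.pa - aval L d) * (st.pg - d.g) ≤ 40000 * st.pk ∧
    (aval L d - st.pa) * (d.g - st.pg) + (st.pa - aval L d) * (st.pg - d.g) ≤ 40000 * d.k := by
  unfold step at h
  simp only [Bool.and_eq_true] at h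
  obtain ⟨⟨⟨⟨h1, h2⟩, h3⟩, h4⟩, h5⟩ := h
  exact ⟨h1, Nat.le_of_ble_eq_true h2, Nat.le_of_ble_eq_true h3, Nat.le_of_ble_eq_true h4,
    Nat.le_of_ble_eq_true h5⟩

theorem step_good {L : Ln} {g : ℝ → ℝ → Prop} {y0 : ℝ} {st : St} {a b : ℝ → ℝ} {d : Nd}
    (hG : Good L g y0 st a b) (hok : (step L st d).ok = true) (hgd : 0 < d.g)
    (hc : CellG g st.px st.pg d.x d.g) :
    ∃ a' b' : ℝ → ℝ, Good L g y0 (step L st d) a' b' ∧
      (∀ s, s ≤ X st.px → a' s = a s ∧ b' s = b s) ∧
      (∀ s ∈ Icc (X st.px) (X d.x), min (Y st.pb) (Y (step L st d).pb) ≤ b' s) ∧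
      ∫ s in (X st.px)..(X d.x), b' s = ((step L st d).T - st.T : ℝ) / 20000000000 := by
  obtain ⟨h1, h2, h3, h4, h5⟩ := step_ok hok
  set A1 := aval L d with hA1
  set B1 := isq (1000000000000 - A1 * A1) (st.pb + 50000) with hB1
  have eT : (step L st d).T = st.T + (d.x - st.px) * (st.pb + B1) := rfl
  have ea : (step L st d).pa = A1 := rfl
  have eb : (step L st d).pb = B1 := rfl
  have ex : (step L st d).px = d.x := rfl
  have eg : (step L st d).pg = d.g := rfl
  have ek : (step L st d).pk = d.k := rfl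
  have hx : X st.px < X d.x := X_lt (by omega)
  have hx' : 0 < X d.x - X st.px := by linarith
  set r := ramp (X st.px) (X d.x) with hr
  have hrc : Continuous r := ramp_cont _ _
  have hr01 : ∀ s, r s ∈ Icc (0 : ℝ) 1 := fun s => ramp_mem hx
  refine ⟨fun s => a s + (Y A1 - Y st.pa) * r s, fun s => b s + (Y B1 - Y st.pb) * r s, ?_, ?_, ?_, ?_⟩
  · have hd0 : Y st.pa ^ 2 + Y st.pb ^ 2 ≤ 1 := by
      have := hG.hab (X st.px)
      rw [hG.ea _ le_rfl, hG.eb _ le_rfl] at this
      exact this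
    have hd1 : Y A1 ^ 2 + Y B1 ^ 2 ≤ 1 := Y_sq h2 (isq_sq _ _)
    -- values for s ≤ px and s ≥ px
    have hL : ∀ s, s ≤ X st.px → r s = 0 := fun s hs => ramp_left hx hs
    have hRa : ∀ s, X st.px ≤ s → a s + (Y A1 - Y st.pa) * r s = (1 - r s) * Y st.pa + r s * Y A1 := by
      intro s hs; rw [hG.ea s hs]; ring
    have hRb : ∀ s, X st.px ≤ s → b s + (Y B1 - Y st.pb) * r s = (1 - r s) * Y st.pb + r s * Y B1 := by
      intro s hs; rw [hG.eb s hs]; ring
    refine ⟨?_, ?_, ?_, ?_, ?_, ?_, ?_, ?_, ?_, ?_⟩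
    · exact hG.ca.add (continuous_const.mul hrc)
    · exact hG.cb.add (continuous_const.mul hrc)
    · intro s
      rcases le_total s (X st.px) with hs | hs
      · simp only [hL s hs]; simpa using hG.ha s
      · simp only [hRa s hs]
        have := hr01 s
        exact add_nonneg (mul_nonneg (by linarith [this.2]) (Y_nonneg _)) (mul_nonneg this.1 (Y_nonneg _))
    · intro s
      rcases le_total s (X st.px) with hs | hs
      · simp only [hL s hs]; simpa using hG.hb s
      · simp only [hRb s hs]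
        have := hr01 s
        exact add_nonneg (mul_nonneg (by linarith [this.2]) (Y_nonneg _)) (mul_nonneg this.1 (Y_nonneg _))
    · intro s
      rcases le_total s (X st.px) with hs | hs
      · simp only [hL s hs]; simpa using hG.hab s
      · simp only [hRa s hs, hRb s hs]
        exact disc_ineq (hr01 s).1 (hr01 s).2 hd0 hd1
    · intro s hs
      rw [ex] at hs
      rcases le_total s (X st.px) with hs2 | hs2
      · simp only [hL s hs2]; simpa using hG.hl s ⟨hs.1, hs2⟩
      · rw [hRa s hs2]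
        set t := r s with ht
        have htm : t = (s - X st.px) / (X d.x - X st.px) := ramp_mid hs2 hs.2
        have hst : s = (1 - t) * X st.px + t * X d.x := by
          rw [htm]; field_simp; ring
        have hgs := hc t (hr01 s)
        rw [← hst] at hgs
        have hsl := hG.sl
        have hav := aval_ge L d hgd
        rw [← hA1] at hav
        have hslr : ((L.val st.px : ℝ) + st.pk) * 10000 ≤ st.pa * st.pg := by exact_mod_cast hsl
        have havr : ((L.val d.x : ℝ) + d.k) * 10000 ≤ A1 * d.g := by exact_mod_cast hav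
        have hp0 := prod_cast h4
        have hp1 := prod_cast h5
        push_cast at hp0 hp1
        have key := cell_ineq (t := t) (a0 := Y st.pa) (a1 := Y A1) (g0 := Y st.pg) (g1 := Y d.g)
          (l0 := (L.val st.px : ℝ) / 100000000) (l1 := (L.val d.x : ℝ) / 100000000)
          (k0 := (st.pk : ℝ) / 100000000) (k1 := (d.k : ℝ) / 100000000)
          (G := (1 - t) * Y st.pg + t * Y d.g)
          (hr01 s).1 (hr01 s).2 (Y_nonneg _) (Y_nonneg _)
          (by unfold Y; rw [div_mul_div_comm, ← add_div, div_le_div_iff₀ (by norm_num) (by norm_num)]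
              nlinarith)
          (by unfold Y; rw [div_mul_div_comm, ← add_div, div_le_div_iff₀ (by norm_num) (by norm_num)]
              nlinarith)
          (by positivity) (by positivity)
          (by unfold Y
              have : ((A1 : ℝ) / 1000000 - st.pa / 1000000) * ((d.g : ℝ) / 1000000 - st.pg / 1000000)
                = ((A1 : ℝ) - st.pa) * ((d.g : ℝ) - st.pg) / 1000000000000 := by ring
              rw [this, div_le_iff₀ (by norm_num)]
              linarith)
          (by unfold Y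
              have : ((A1 : ℝ) / 1000000 - st.pa / 1000000) * ((d.g : ℝ) / 1000000 - st.pg / 1000000)
                = ((A1 : ℝ) - st.pa) * ((d.g : ℝ) - st.pg) / 1000000000000 := by ring
              rw [this, div_le_iff₀ (by norm_num)]
              linarith)
          le_rfl
        refine ⟨_, hgs, le_trans ?_ key⟩
        have hlin : L.rv s = (1 - t) * L.rv (X st.px) + t * L.rv (X d.x) := by
          rw [hst]; unfold Ln.rv; ring
        rw [hlin]
        have e1 := rv_le L st.px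
        have e2 := rv_le L d.x
        exact add_le_add (mul_le_mul_of_nonneg_left e1 (by linarith [(hr01 s).2]))
          (mul_le_mul_of_nonneg_left e2 (hr01 s).1)
    · intro s hs
      rw [ex] at hs
      have h : r s = 1 := ramp_right hx hs
      simp only [h, hG.ea s (hx.le.trans hs), ea]; ring
    · intro s hs
      rw [ex] at hs
      have h : r s = 1 := ramp_right hx hs
      simp only [h, hG.eb s (hx.le.trans hs), eb]; ring
    · rw [ex, ek, ea, eg]; exact aval_ge L d hgd
    · rw [ex]; exact hG.y0.trans hx.le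
  · intro s hs
    have : r s = 0 := ramp_left hx hs
    simp only [this]; simp
  · intro s hs
    rw [eb]
    have hb := hG.eb s hs.1
    simp only [hb]
    have := hr01 s
    rcases le_total (Y st.pb) (Y B1) with h | h
    · rw [min_eq_left h]; nlinarith [this.1]
    · rw [min_eq_right h]; nlinarith [this.2]
  · have hcongr : ∫ s in (X st.px)..(X d.x), (b s + (Y B1 - Y st.pb) * r s) =
        ∫ s in (X st.px)..(X d.x), (Y st.pb + (Y B1 - Y st.pb) * ((s - X st.px) / (X d.x - X st.px))) := by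
      apply intervalIntegral.integral_congr
      intro s hs
      rw [uIcc_of_le hx.le] at hs
      simp only
      rw [hG.eb s hs.1, hr, ramp_mid hs.1 hs.2]
    rw [hcongr, eT]
    have hI : ∫ s in (X st.px)..(X d.x), (Y st.pb + (Y B1 - Y st.pb) * ((s - X st.px) / (X d.x - X st.px)))
        = (X d.x - X st.px) * (Y st.pb + Y B1) / 2 := by
      have hderiv : ∀ s ∈ uIcc (X st.px) (X d.x), HasDerivAt
          (fun s : ℝ => Y st.pb * s + (Y B1 - Y st.pb) * ((s - X st.px) * (s - X st.px) / (2 * (X d.x - X st.px))))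
          (Y st.pb + (Y B1 - Y st.pb) * ((s - X st.px) / (X d.x - X st.px))) s := by
        intro s _
        have h0 : HasDerivAt (fun s : ℝ => s - X st.px) 1 s := (hasDerivAt_id s).sub_const (X st.px)
        have h1 : HasDerivAt (fun s : ℝ => (s - X st.px) * (s - X st.px))
            (1 * (s - X st.px) + (s - X st.px) * 1) s := h0.mul h0
        have h2 : HasDerivAt (fun s : ℝ => Y st.pb * s) (Y st.pb * 1) s := (hasDerivAt_id s).const_mul _
        have h3 := h2.add ((h1.div_const (2 * (X d.x - X st.px))).const_mul (Y B1 - Y st.pb))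
        have e : Y st.pb + (Y B1 - Y st.pb) * ((s - X st.px) / (X d.x - X st.px)) =
            Y st.pb * 1 + (Y B1 - Y st.pb) *
              ((1 * (s - X st.px) + (s - X st.px) * 1) / (2 * (X d.x - X st.px))) := by
          field_simp; ring
        rw [e]
        exact h3
      rw [intervalIntegral.integral_eq_sub_of_hasDerivAt hderiv
        (Continuous.intervalIntegrable (by fun_prop) _ _)]
      field_simp
      ring
    rw [hI]
    have hxx : st.px ≤ d.x := by omega
    unfold X Y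
    push_cast [Nat.cast_sub hxx]
    ring

theorem run_cons (L : Ln) (st : St) (d : Nd) (l : List Nd) :
    run L st (d :: l) = run L (step L st d) l := rfl

theorem run_append (L : Ln) (st : St) (l l' : List Nd) :
    run L st (l ++ l') = run L (run L st l) l' := by
  unfold run; rw [List.foldl_append]

theorem run_ok {L : Ln} : ∀ {l : List Nd} {st : St}, (run L st l).ok = true → st.ok = true
  | [], _, h => h
  | d :: l, st, h => by
    rw [run_cons] at h
    exact (step_ok (run_ok h)).1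

theorem run_px_le {L : Ln} : ∀ {l : List Nd} {st : St}, (run L st l).ok = true → st.px ≤ (run L st l).px
  | [], _, _ => le_rfl
  | d :: l, st, h => by
    rw [run_cons] at h ⊢
    have h1 := (step_ok (run_ok h)).2.2.1
    have h2 := run_px_le h
    have e : (step L st d).px = d.x := rfl
    omega

theorem X_le {x y : ℕ} (h : x ≤ y) : X x ≤ X y := by
  unfold X
  have : (x : ℝ) ≤ y := by exact_mod_cast h
  exact div_le_div_of_nonneg_right this (by norm_num)

theorem run_good {L : Ln} {g : ℝ → ℝ → Prop} {y0 : ℝ} : ∀ {l : List Nd} {st : St} {a b : ℝ → ℝ},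
    Good L g y0 st a b → (run L st l).ok = true → ChainG g st.px st.pg l →
    ∃ a' b' : ℝ → ℝ, Good L g y0 (run L st l) a' b' ∧
      (∀ s, s ≤ X st.px → a' s = a s ∧ b' s = b s) ∧
      ∫ s in (X st.px)..(X (run L st l).px), b' s = ((run L st l).T - st.T : ℝ) / 20000000000
  | [], st, a, b, hG, _, _ => by
    refine ⟨a, b, hG, fun s _ => ⟨rfl, rfl⟩, ?_⟩
    simp [run]
  | d :: l, st, a, b, hG, hok, hch => by
    rw [run_cons] at hok ⊢
    obtain ⟨a1, b1, hG1, hag1, -, hI1⟩ := step_good hG (run_ok hok) hch.2.1 hch.1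
    obtain ⟨a2, b2, hG2, hag2, hI2⟩ := run_good hG1 hok hch.2.2
    have e : (step L st d).px = d.x := rfl
    have hx : X st.px ≤ X d.x := by
      have := (step_ok (run_ok hok)).2.2.1
      exact X_le (by omega)
    refine ⟨a2, b2, hG2, ?_, ?_⟩
    · intro s hs
      have h1 := hag1 s hs
      have h2 := hag2 s (by rw [e]; exact hs.trans hx)
      exact ⟨h2.1.trans h1.1, h2.2.trans h1.2⟩
    · rw [← intervalIntegral.integral_add_adjacent_intervals
        (hG2.cb.intervalIntegrable (X st.px) (X (step L st d).px)) (hG2.cb.intervalIntegrable _ _), hI2]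
      have : ∫ s in (X st.px)..(X (step L st d).px), b2 s = ∫ s in (X st.px)..(X d.x), b1 s := by
        rw [e]
        apply intervalIntegral.integral_congr
        intro s hs
        rw [uIcc_of_le hx] at hs
        exact (hag2 s (by rw [e]; exact hs.2)).2
      rw [this, hI1]
      ring

theorem chain_append {L : Ln} {g : ℝ → ℝ → Prop} : ∀ {l l' : List Nd} {st : St},
    ChainG g st.px st.pg (l ++ l') →
      ChainG g st.px st.pg l ∧ ChainG g (run L st l).px (run L st l).pg l'
  | [], l', st, h => ⟨trivial, h⟩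
  | d :: l, l', st, h => by
    have h2 := chain_append (L := L) (l := l) (l' := l') (st := step L st d) h.2.2
    exact ⟨⟨h.1, h.2.1, h2.1⟩, by rw [run_cons]; exact h2.2⟩

theorem start_good {L : Ln} {g : ℝ → ℝ → Prop} {d0 d1 : Nd} (hok : (start L d0 d1).ok = true)
    (hc : CellG g d0.x d0.g d1.x d1.g) :
    (start L d0 d1).px = d0.x ∧ (start L d0 d1).pg = d0.g ∧
    Good L g (X d0.x) (start L d0 d1) (fun _ => Y (start L d0 d1).pa)
      (fun _ => Y (start L d0 d1).pb) := by
  have hbase : ∀ st : St, st.px = d0.x → st.pg = d0.g → st.pa ≤ 1000000 →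
      st.pb * st.pb ≤ 1000000000000 - st.pa * st.pa →
      (L.val st.px + st.pk) * 10000 ≤ st.pa * st.pg →
      Good L g (X d0.x) st (fun _ => Y st.pa) (fun _ => Y st.pb) := by
    intro st hpx hpg hpa hpb hsl
    refine ⟨continuous_const, continuous_const, fun _ => Y_nonneg _, fun _ => Y_nonneg _,
      fun _ => Y_sq hpa hpb, ?_, fun _ _ => rfl, fun _ _ => rfl, hsl, by rw [hpx]⟩
    intro s hs
    rw [hpx] at hs
    have es : s = X d0.x := le_antisymm hs.2 hs.1
    have h0 := hc 0 (by simp)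
    simp only [sub_zero, one_mul, zero_mul, add_zero] at h0
    refine ⟨Y d0.g, by rw [es]; exact h0, ?_⟩
    rw [es]
    refine (rv_le L d0.x).trans ?_
    rw [← hpg, ← hpx]
    have h1 : ((L.val st.px : ℝ) + st.pk) * 10000 ≤ st.pa * st.pg := by exact_mod_cast hsl
    unfold Y
    rw [div_mul_div_comm, div_le_div_iff₀ (by norm_num) (by norm_num)]
    have : (0 : ℝ) ≤ st.pk := by positivity
    nlinarith
  unfold start at hok ⊢
  split
  · rename_i hg
    simp only [hg] at hok
    simp only [Bool.and_eq_true] at hok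
    have h1 := Nat.le_of_ble_eq_true hok.1
    have h2 := Nat.le_of_ble_eq_true hok.2
    refine ⟨rfl, hg.symm, ?_⟩
    refine hbase _ rfl (by simp [hg]) h2 (isq_sq _ _) ?_
    simp only
    omega
  · rename_i g' hg
    simp only [hg] at hok
    simp only [Bool.and_eq_true] at hok
    have h1 := Nat.le_of_ble_eq_true hok.1
    refine ⟨rfl, hg.symm, ?_⟩
    refine hbase _ rfl (by simp [hg]) h1 (isq_sq _ _) ?_
    simp only
    have := aval_ge L d0 (by omega)
    rw [hg] at this
    exact this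

theorem runM_eq {L : Ln} : ∀ {l : List Nd} {st : St} {m : ℕ}, (runM L st m l).1 = run L st l
  | [], _, _ => rfl
  | d :: l, st, m => by
    rw [run_cons]
    exact runM_eq (l := l)

theorem Y_mono {a b : ℕ} (h : a ≤ b) : Y a ≤ Y b := by
  unfold Y
  have : (a : ℝ) ≤ b := by exact_mod_cast h
  exact div_le_div_of_nonneg_right this (by norm_num)

theorem runM_good {L : Ln} {g : ℝ → ℝ → Prop} {y0 : ℝ} : ∀ {l : List Nd} {st : St} {a b : ℝ → ℝ} {m : ℕ},
    Good L g y0 st a b → (run L st l).ok = true → ChainG g st.px st.pg l → m ≤ st.pb →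
    ∃ a' b' : ℝ → ℝ, Good L g y0 (run L st l) a' b' ∧
      (∀ s, s ≤ X st.px → a' s = a s ∧ b' s = b s) ∧
      (runM L st m l).2 ≤ m ∧
      ∀ s ∈ Icc (X st.px) (X (run L st l).px), Y (runM L st m l).2 ≤ b' s
  | [], st, a, b, m, hG, _, _, hm => by
    refine ⟨a, b, hG, fun s _ => ⟨rfl, rfl⟩, le_rfl, ?_⟩
    intro s hs
    rw [hG.eb s hs.1]
    exact Y_mono hm
  | d :: l, st, a, b, m, hG, hok, hch, hm => by
    rw [run_cons] at hok ⊢
    obtain ⟨a1, b1, hG1, hag1, hmin1, -⟩ := step_good hG (run_ok hok) hch.2.1 hch.1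
    set m' := if Nat.ble m (step L st d).pb then m else (step L st d).pb with hm'
    have hm1 : m' ≤ (step L st d).pb := by
      rw [hm']; split_ifs with h
      · exact Nat.le_of_ble_eq_true h
      · exact le_rfl
    have hm2 : m' ≤ m := by
      rw [hm']; split_ifs with h
      · exact le_rfl
      · have : ¬ (m ≤ (step L st d).pb) := fun h2 => h (Nat.ble_eq_true_of_le h2)
        omega
    obtain ⟨a2, b2, hG2, hag2, hle, hI2⟩ := runM_good (m := m') hG1 hok hch.2.2 hm1
    have e : (step L st d).px = d.x := rfl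
    have hx : X st.px ≤ X d.x := by
      have := (step_ok (run_ok hok)).2.2.1
      exact X_le (by omega)
    have eM : (runM L st m (d :: l)).2 = (runM L (step L st d) m' l).2 := rfl
    refine ⟨a2, b2, hG2, ?_, ?_, ?_⟩
    · intro s hs
      have h1 := hag1 s hs
      have h2 := hag2 s (by rw [e]; exact hs.trans hx)
      exact ⟨h2.1.trans h1.1, h2.2.trans h1.2⟩
    · rw [eM]; exact hle.trans hm2
    · intro s hs
      rw [eM]
      rcases le_total s (X d.x) with h | h
      · have h2 := hag2 s (by rw [e]; exact h)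
        rw [h2.2]
        refine le_trans ?_ (hmin1 s ⟨hs.1, h⟩)
        refine le_min ?_ ?_
        · exact Y_mono (hle.trans (hm2.trans hm))
        · exact Y_mono (hle.trans hm1)
      · exact hI2 s ⟨by rw [e]; exact h, hs.2⟩

/-- core statement for a box: nodes `d0 :: rest`, `c1` cells to `s1+`, `j` cells to `sigma-`, `c3` cells to `sigma+` -/
theorem box_core {L : Ln} {g : ℝ → ℝ → Prop} {d0 d1 : Nd} {l : List Nd} {c1 j c3 : ℕ} (hcj : c1 ≤ j)
    (hch : ChainG g d0.x d0.g (d1 :: l))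
    (st0 st1 st2 st3 : St) (m : ℕ) (e0 : st0 = start L d0 d1)
    (e1 : st1 = run L st0 ((d1 :: l).take c1))
    (e2 : st2 = run L st1 (((d1 :: l).drop c1).take (j - c1)))
    (e3 : st3 = (runM L st2 st2.pb (((d1 :: l).drop j).take c3)).1)
    (em : m = (runM L st2 st2.pb (((d1 :: l).drop j).take c3)).2)
    (hok : st3.ok = true) :
    ∃ a b : ℝ → ℝ, Continuous a ∧ Continuous b ∧ (∀ s, 0 ≤ a s) ∧ (∀ s, 0 ≤ b s) ∧
      (∀ s, a s ^ 2 + b s ^ 2 ≤ 1) ∧
      (∀ s ∈ Icc (X d0.x) (X st3.px), ∃ c, g s c ∧ L.rv s ≤ a s * c) ∧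
      (∫ s in (X st1.px)..(X st2.px), b s = (st2.T - st1.T : ℝ) / 20000000000) ∧
      (∀ s ∈ Icc (X st2.px) (X st3.px), Y m ≤ b s) ∧
      d0.x ≤ st1.px ∧ st1.px ≤ st2.px ∧ st2.px ≤ st3.px := by
  have hdd : ((d1 :: l).drop c1).drop (j - c1) = (d1 :: l).drop j := by
    rw [List.drop_drop]; congr 1; omega
  rw [runM_eq] at e3
  have hok2 : st2.ok = true := by rw [e3] at hok; exact run_ok hok
  have hok1 : st1.ok = true := by rw [e2] at hok2; exact run_ok hok2
  have hok0 : st0.ok = true := by rw [e1] at hok1; exact run_ok hok1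
  obtain ⟨hpx, hpg, hG0⟩ := start_good (g := g) (by rw [← e0]; exact hok0) hch.1
  rw [← e0] at hpx hpg hG0
  have hch0 : ChainG g st0.px st0.pg (d1 :: l) := by rw [hpx, hpg]; exact hch
  have hch0' : ChainG g st0.px st0.pg ((d1 :: l).take c1 ++ (d1 :: l).drop c1) := by
    rw [List.take_append_drop]; exact hch0
  obtain ⟨hc1, hc1'⟩ := chain_append (L := L) hch0'
  rw [← e1] at hc1'
  have hc2' : ChainG g st1.px st1.pg (((d1 :: l).drop c1).take (j - c1) ++
      ((d1 :: l).drop c1).drop (j - c1)) := by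
    rw [List.take_append_drop]; exact hc1'
  obtain ⟨hc2, hc3⟩ := chain_append (L := L) hc2'
  rw [← e2, hdd] at hc3
  have hc3' : ChainG g st2.px st2.pg (((d1 :: l).drop j).take c3 ++ ((d1 :: l).drop j).drop c3) := by
    rw [List.take_append_drop]; exact hc3
  obtain ⟨hc4, -⟩ := chain_append (L := L) hc3'
  obtain ⟨a1, b1, hG1, hag1, -⟩ := run_good hG0 (by rw [← e1]; exact hok1) hc1
  rw [← e1] at hG1
  obtain ⟨a2, b2, hG2, hag2, hI2⟩ := run_good hG1 (by rw [← e2]; exact hok2) hc2
  rw [← e2] at hG2 hI2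
  obtain ⟨a3, b3, hG3, hag3, -, hmin⟩ := runM_good (m := st2.pb) hG2 (by rw [← e3]; exact hok) hc4 le_rfl
  rw [← e3] at hG3 hmin
  rw [← em] at hmin
  have hpx1 : d0.x ≤ st1.px := by
    rw [← hpx, e1]; exact run_px_le (by rw [← e1]; exact hok1)
  have hpx2 : st1.px ≤ st2.px := by
    have := run_px_le (L := L) (st := st1) (l := ((d1 :: l).drop c1).take (j - c1))
      (by rw [← e2]; exact hok2)
    rw [← e2] at this; exact this
  have hpx3 : st2.px ≤ st3.px := by
    have := run_px_le (L := L) (st := st2) (l := ((d1 :: l).drop j).take c3)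
      (by rw [← e3]; exact hok)
    rw [← e3] at this; exact this
  refine ⟨a3, b3, hG3.ca, hG3.cb, hG3.ha, hG3.hb, hG3.hab, hG3.hl, ?_, hmin, hpx1, hpx2, hpx3⟩
  rw [← hI2]
  apply intervalIntegral.integral_congr
  intro s hs
  rw [uIcc_of_le (X_le hpx2)] at hs
  exact (hag3 s hs.2).2

end Crest.Agent.T3.Pl
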