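import Crest.Agent.T3.Cases
import Crest.Agent.T3.SliceC1
import Crest.Agent.IT.StdFinal

/-! Row 214, region R1: the plain slice bound `m(s) = min (sqrt (pi s)) 1 (sqrt (pi (1-s)))`. -/

set_option autoImplicit false
open MeasureTheory Set Filter Topology
open Crest.GeometryTopology.PeriodicPerimeter

namespace Crest.Agent.T3
noncomputable section

/-- the plain lower bound for slices -/
def mm (s : ℝ) : ℝ := min (Real.sqrt (Real.pi * s)) (min 1 (Real.sqrt (Real.pi * (1 - s))))

theorem mm_cont : Continuous mm := by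
  unfold mm
  fun_prop

theorem mm_nonneg (s : ℝ) : 0 ≤ mm s :=
  le_min (Real.sqrt_nonneg _) (le_min zero_le_one (Real.sqrt_nonneg _))

theorem mm_le_one (s : ℝ) : mm s ≤ 1 := (min_le_right _ _).trans (min_le_left _ _)

theorem mm_pos {s : ℝ} (h0 : 0 < s) (h1 : s < 1) : 0 < mm s := by
  refine lt_min (Real.sqrt_pos.2 (mul_pos Real.pi_pos h0)) (lt_min one_pos ?_)
  exact Real.sqrt_pos.2 (mul_pos Real.pi_pos (by linarith))

theorem sqrt_chord {u v t : ℝ} (hu : 0 ≤ u) (hv : 0 ≤ v) (h0 : 0 ≤ t) (h1 : t ≤ 1) :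
    (1 - t) * Real.sqrt u + t * Real.sqrt v ≤ Real.sqrt ((1 - t) * u + t * v) := by
  have h2 := Real.strictConcaveOn_sqrt.concaveOn.2 (mem_Ici.2 hu) (mem_Ici.2 hv)
    (show (0 : ℝ) ≤ 1 - t by linarith) h0 (by ring)
  simpa [smul_eq_mul] using h2

/-- `mm` is concave on `[0,1]`. -/
theorem mm_chord {x y t : ℝ} (hx : x ∈ Icc (0 : ℝ) 1) (hy : y ∈ Icc (0 : ℝ) 1) (h0 : 0 ≤ t)
    (h1 : t ≤ 1) : (1 - t) * mm x + t * mm y ≤ mm ((1 - t) * x + t * y) := by
  have hpi := Real.pi_pos
  have ht : 0 ≤ 1 - t := by linarith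
  have hxm : mm x ≤ Real.sqrt (Real.pi * x) := min_le_left _ _
  have hym : mm y ≤ Real.sqrt (Real.pi * y) := min_le_left _ _
  have hx1 := mm_le_one x
  have hy1 := mm_le_one y
  have hx2 : mm x ≤ Real.sqrt (Real.pi * (1 - x)) := (min_le_right _ _).trans (min_le_right _ _)
  have hy2 : mm y ≤ Real.sqrt (Real.pi * (1 - y)) := (min_le_right _ _).trans (min_le_right _ _)
  refine le_min ?_ (le_min ?_ ?_)
  · have h := sqrt_chord (u := Real.pi * x) (v := Real.pi * y) (mul_nonneg hpi.le hx.1)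
      (mul_nonneg hpi.le hy.1) h0 h1
    have e : (1 - t) * (Real.pi * x) + t * (Real.pi * y) = Real.pi * ((1 - t) * x + t * y) := by ring
    rw [e] at h
    refine le_trans ?_ h
    gcongr
  · nlinarith
  · have h := sqrt_chord (u := Real.pi * (1 - x)) (v := Real.pi * (1 - y))
      (mul_nonneg hpi.le (by linarith [hx.2])) (mul_nonneg hpi.le (by linarith [hy.2])) h0 h1
    have e : (1 - t) * (Real.pi * (1 - x)) + t * (Real.pi * (1 - y)) =
      Real.pi * (1 - ((1 - t) * x + t * y)) := by ring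
    rw [e] at h
    refine le_trans ?_ h
    gcongr

/-- an affine function below `c * mm` at the end points is below `c * mm` in between -/
theorem mm_cell {x y c p q s : ℝ} (hx : 0 ≤ x) (hy : y ≤ 1) (hc : 0 ≤ c) (h1 : p + q * x ≤ c * mm x)
    (h2 : p + q * y ≤ c * mm y) (hs : s ∈ Icc x y) : p + q * s ≤ c * mm s := by
  rcases eq_or_lt_of_le (hs.1.trans hs.2) with h | h
  · have : s = x := le_antisymm (h ▸ hs.2) hs.1
    rw [this]; exact h1
  · set t := (s - x) / (y - x) with ht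
    have hyx : 0 < y - x := by linarith
    have ht0 : 0 ≤ t := div_nonneg (by linarith [hs.1]) hyx.le
    have ht1 : t ≤ 1 := by rw [ht, div_le_one hyx]; linarith [hs.2]
    have e : (1 - t) * x + t * y = s := by rw [ht]; field_simp; ring
    have hch := mm_chord (x := x) (y := y) (t := t) ⟨hx, h.le.trans hy⟩ ⟨hx.trans h.le, hy⟩ ht0 ht1
    rw [e] at hch
    have e2 : p + q * s = (1 - t) * (p + q * x) + t * (p + q * y) := by rw [← e]; ring
    rw [e2]
    have k1 : (1 - t) * (p + q * x) ≤ (1 - t) * (c * mm x) := mul_le_mul_of_nonneg_left h1 (by linarith)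
    have k2 : t * (p + q * y) ≤ t * (c * mm y) := mul_le_mul_of_nonneg_left h2 ht0
    have k3 := mul_le_mul_of_nonneg_left hch hc
    nlinarith

/-- clamp -/
def cl (xlo xhi s : ℝ) : ℝ := max xlo (min xhi s)

theorem cl_mem {xlo xhi : ℝ} (h : xlo ≤ xhi) (s : ℝ) : cl xlo xhi s ∈ Icc xlo xhi :=
  ⟨le_max_left _ _, max_le h (min_le_left _ _)⟩

def aa (E l xlo xhi s : ℝ) : ℝ := max 0 ((E + l * cl xlo xhi s) / mm (cl xlo xhi s))

def bb (E l xlo xhi s : ℝ) : ℝ := Real.sqrt (1 - (aa E l xlo xhi s) ^ 2)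

theorem aa_cont {E l xlo xhi : ℝ} (h0 : 0 < xlo) (h1 : xlo ≤ xhi) (h2 : xhi < 1) :
    Continuous (aa E l xlo xhi) := by
  unfold aa
  have hc : Continuous (cl xlo xhi) := by unfold cl; fun_prop
  refine continuous_const.max (Continuous.div (by fun_prop) (mm_cont.comp hc) fun s => ?_)
  have := cl_mem h1 s
  exact (mm_pos (h0.trans_le this.1) (this.2.trans_lt h2)).ne'

theorem aa_nonneg (E l xlo xhi s : ℝ) : 0 ≤ aa E l xlo xhi s := le_max_left _ _

theorem aa_le_one {E l xlo xhi : ℝ} (h0 : 0 < xlo) (h1 : xlo ≤ xhi) (h2 : xhi < 1)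
    (hm : ∀ s ∈ Icc xlo xhi, E + l * s ≤ mm s) (s : ℝ) : aa E l xlo xhi s ≤ 1 := by
  have := cl_mem h1 s
  refine max_le zero_le_one ?_
  rw [div_le_one (mm_pos (h0.trans_le this.1) (this.2.trans_lt h2))]
  exact hm _ this

theorem bb_cont {E l xlo xhi : ℝ} (h0 : 0 < xlo) (h1 : xlo ≤ xhi) (h2 : xhi < 1) :
    Continuous (bb E l xlo xhi) := by
  unfold bb
  have := aa_cont (E := E) (l := l) h0 h1 h2
  fun_prop

theorem aa_bb {E l xlo xhi : ℝ} (h0 : 0 < xlo) (h1 : xlo ≤ xhi) (h2 : xhi < 1)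
    (hm : ∀ s ∈ Icc xlo xhi, E + l * s ≤ mm s) (s : ℝ) :
    0 ≤ aa E l xlo xhi s ∧ 0 ≤ bb E l xlo xhi s ∧
      (aa E l xlo xhi s) ^ 2 + (bb E l xlo xhi s) ^ 2 ≤ 1 := by
  have ha := aa_nonneg E l xlo xhi s
  have ha1 := aa_le_one h0 h1 h2 hm s
  refine ⟨ha, Real.sqrt_nonneg _, ?_⟩
  unfold bb
  rw [Real.sq_sqrt (by nlinarith)]
  linarith

/-- the key pointwise inequality -/
theorem aa_mul {E l xlo xhi : ℝ} (h0 : 0 < xlo) (h1 : xlo ≤ xhi) (h2 : xhi < 1) {s : ℝ}
    (hs : s ∈ Icc (0 : ℝ) 1) (hlo : xlo ≤ s ∨ E ≤ 0) (hhi : s ≤ xhi ∨ E + l ≤ 0) :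
    E + l * s ≤ aa E l xlo xhi s * mm s := by
  have hms := mm_nonneg s
  rcases le_or_gt xlo s with ha | ha
  · rcases le_or_gt s xhi with hb | hb
    · have e : cl xlo xhi s = s := by unfold cl; rw [min_eq_right hb, max_eq_right ha]
      have hp := mm_pos (h0.trans_le ha) (hb.trans_lt h2)
      have : (E + l * s) / mm s ≤ aa E l xlo xhi s := by unfold aa; rw [e]; exact le_max_right _ _
      calc E + l * s = (E + l * s) / mm s * mm s := by field_simp
        _ ≤ _ := mul_le_mul_of_nonneg_right this hms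
  -- above
    · have hE : E + l ≤ 0 := hhi.resolve_left (not_le.2 hb)
      have e : cl xlo xhi s = xhi := by unfold cl; rw [min_eq_left hb.le, max_eq_right h1]
      have hp := mm_pos (h0.trans_le h1) h2
      set t := (s - xhi) / (1 - xhi) with ht
      have h1x : 0 < 1 - xhi := by linarith
      have ht0 : 0 ≤ t := div_nonneg (by linarith) h1x.le
      have ht1 : t ≤ 1 := by rw [ht, div_le_one h1x]; linarith [hs.2]
      have es : (1 - t) * xhi + t * 1 = s := by rw [ht]; field_simp; ring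
      have hch := mm_chord (x := xhi) (y := 1) (t := t) ⟨(h0.trans_le h1).le, h2.le⟩
        ⟨zero_le_one, le_rfl⟩ ht0 ht1
      rw [es] at hch
      have hm1 := mm_nonneg 1
      have ha' : (E + l * xhi) / mm xhi ≤ aa E l xlo xhi s := by unfold aa; rw [e]; exact le_max_right _ _
      have ha0 := aa_nonneg E l xlo xhi s
      have k1 : (1 - t) * (E + l * xhi) ≤ aa E l xlo xhi s * ((1 - t) * mm xhi) := by
        have : (E + l * xhi) = (E + l * xhi) / mm xhi * mm xhi := by field_simp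
        calc (1 - t) * (E + l * xhi) = ((E + l * xhi) / mm xhi) * ((1 - t) * mm xhi) := by
              rw [this]; field_simp
          _ ≤ _ := mul_le_mul_of_nonneg_right ha' (mul_nonneg (by linarith) hp.le)
      have k2 : aa E l xlo xhi s * ((1 - t) * mm xhi) ≤ aa E l xlo xhi s * mm s := by
        apply mul_le_mul_of_nonneg_left _ ha0
        nlinarith
      have k3 : E + l * s = (1 - t) * (E + l * xhi) + t * (E + l) := by rw [← es]; ring
      nlinarith
  · have hE : E ≤ 0 := hlo.resolve_left (not_le.2 ha)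
    have e : cl xlo xhi s = xlo := by
      unfold cl; rw [min_eq_right (ha.le.trans h1), max_eq_left ha.le]
    have hp := mm_pos h0 (h1.trans_lt h2)
    set t := s / xlo with ht
    have ht0 : 0 ≤ t := div_nonneg hs.1 h0.le
    have ht1 : t ≤ 1 := by rw [ht, div_le_one h0]; exact ha.le
    have es : (1 - t) * 0 + t * xlo = s := by rw [ht]; field_simp; ring
    have hch := mm_chord (x := 0) (y := xlo) (t := t) ⟨le_rfl, zero_le_one⟩
      ⟨h0.le, (h1.trans_lt h2).le⟩ ht0 ht1
    rw [es] at hch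
    have hm0 := mm_nonneg 0
    have ha' : (E + l * xlo) / mm xlo ≤ aa E l xlo xhi s := by unfold aa; rw [e]; exact le_max_right _ _
    have ha0 := aa_nonneg E l xlo xhi s
    have k1 : t * (E + l * xlo) ≤ aa E l xlo xhi s * (t * mm xlo) := by
      have : (E + l * xlo) = (E + l * xlo) / mm xlo * mm xlo := by field_simp
      calc t * (E + l * xlo) = ((E + l * xlo) / mm xlo) * (t * mm xlo) := by
            rw [this]; field_simp
        _ ≤ _ := mul_le_mul_of_nonneg_right ha' (mul_nonneg ht0 hp.le)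
    have k2 : aa E l xlo xhi s * (t * mm xlo) ≤ aa E l xlo xhi s * mm s := by
      apply mul_le_mul_of_nonneg_left _ ha0
      nlinarith
    have k3 : E + l * s = t * (E + l * xlo) + (1 - t) * E := by rw [← es]; ring
    nlinarith

/-- The calibration inequality for the plain slice bound. -/
theorem r1_cal (D : Set (Fin 3 → ℝ)) (hD : IsLowerSet D) (hO : IsOpen D) (k : Fin 3)
    {E l xlo xhi : ℝ} (h0 : 0 < xlo) (h1 : xlo ≤ xhi) (h2 : xhi < 1)
    (hm : ∀ s ∈ Icc xlo xhi, E + l * s ≤ mm s)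
    (hlo : xlo ≤ sEnd D k ∨ E ≤ 0) (hhi : sv D k 0 ≤ xhi ∨ E + l ≤ 0) :
    QL D (E + l * vol01 D + ∫ s in (sEnd D k)..(sv D k 0), bb E l xlo xhi s) := by
  have hgq : ∀ u ∈ Ioo (0 : ℝ) 1, QL (sl k u D) (mm (sv D k u)) := fun u _ =>
    slice_basic D hD hO k u
  have hSm : Measurable (sv D k) := (sv_anti D hD k).measurable
  have hgm : Measurable (fun u => mm (sv D k u)) := mm_cont.measurable.comp hSm
  have hg : ∀ u, mm (sv D k u) ∈ Icc (0 : ℝ) 1 := fun u => ⟨mm_nonneg _, mm_le_one _⟩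
  have hac := aa_cont (E := E) (l := l) h0 h1 h2
  have hbc := bb_cont (E := E) (l := l) h0 h1 h2
  have h := slice_C1 D hD hO k (fun u => mm (sv D k u)) 1 hgm hg hgq (aa E l xlo xhi)
    (bb E l xlo xhi) hac.continuousOn hbc.continuousOn (fun s _ => aa_bb h0 h1 h2 hm s)
  refine QLmono ?_ h
  have hS : ∀ u ∈ Ico (0 : ℝ) 1, sv D k u ∈ Icc (sEnd D k) (sv D k 0) := fun u hu =>
    ⟨c1_sEnd_le D k u hu, sv_anti D hD k hu.1⟩
  have hbd : ∀ f : ℝ → ℝ, Measurable f → (∀ u, |f u| ≤ |E| + |l| + 1) →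
      IntervalIntegrable f volume 0 1 := by
    intro f hf hfb
    rw [intervalIntegrable_iff]
    refine MeasureTheory.Measure.integrableOn_of_bounded (M := |E| + |l| + 1) ?_
      hf.aestronglyMeasurable ?_
    · simp [uIoc]
    · exact Eventually.of_forall hfb
  have i1 : IntervalIntegrable (fun u => E + l * sv D k u) volume 0 1 := by
    refine hbd _ (measurable_const.add (hSm.const_mul l)) fun u => ?_
    have hs := sv_mem D k u
    calc |E + l * sv D k u| ≤ |E| + |l * sv D k u| := abs_add_le _ _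
      _ = |E| + |l| * sv D k u := by rw [abs_mul, abs_of_nonneg hs.1]
      _ ≤ _ := by nlinarith [abs_nonneg l, hs.2]
  have i2 : IntervalIntegrable (fun u => aa E l xlo xhi (sv D k u) * mm (sv D k u)) volume 0 1 := by
    refine hbd _ ((hac.measurable.comp hSm).mul hgm) fun u => ?_
    have ha := aa_nonneg E l xlo xhi (sv D k u)
    have ha1 := aa_le_one h0 h1 h2 hm (sv D k u)
    have hb := mm_nonneg (sv D k u)
    have hb1 := mm_le_one (sv D k u)
    rw [abs_of_nonneg (mul_nonneg ha hb)]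
    have := abs_nonneg E
    have := abs_nonneg l
    nlinarith
  have hle : ∫ u in (0 : ℝ)..1, (E + l * sv D k u) ≤
      ∫ u in (0 : ℝ)..1, aa E l xlo xhi (sv D k u) * mm (sv D k u) := by
    refine intervalIntegral.integral_mono_on_of_le_Ioo zero_le_one i1 i2 fun u hu => ?_
    have hs := hS u ⟨hu.1.le, hu.2⟩
    refine aa_mul h0 h1 h2 (sv_mem D k u) ?_ ?_
    · exact hlo.imp (fun h => h.trans hs.1) id
    · exact hhi.imp (fun h => hs.2.trans h) id
  have he : ∫ u in (0 : ℝ)..1, (E + l * sv D k u) = E + l * vol01 D := by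
    rw [intervalIntegral.integral_add (by simp) ((hbd _ hSm fun u => by
      have hs := sv_mem D k u
      rw [abs_of_nonneg hs.1]
      have := abs_nonneg E
      have := abs_nonneg l
      linarith [hs.2]).const_mul l), intervalIntegral.integral_const_mul, sv_integral D hO k]
    simp
  linarith [hle, he]

theorem bb_nonneg (E l xlo xhi s : ℝ) : 0 ≤ bb E l xlo xhi s := Real.sqrt_nonneg _

/-- shrinking the interval of integration -/
theorem bb_int_mono {E l xlo xhi : ℝ} (h0 : 0 < xlo) (h1 : xlo ≤ xhi) (h2 : xhi < 1)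
    {s1 p q s0 : ℝ} (hp : s1 ≤ p) (hq : q ≤ s0) :
    ∫ s in p..q, bb E l xlo xhi s ≤ ∫ s in s1..s0, bb E l xlo xhi s := by
  have hc := bb_cont (E := E) (l := l) h0 h1 h2
  have hi : ∀ a b : ℝ, IntervalIntegrable (bb E l xlo xhi) volume a b := fun a b =>
    hc.intervalIntegrable a b
  rw [← intervalIntegral.integral_add_adjacent_intervals (hi s1 p) (hi p s0),
    ← intervalIntegral.integral_add_adjacent_intervals (hi p q) (hi q s0)]
  have k1 : 0 ≤ ∫ s in s1..p, bb E l xlo xhi s :=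
    intervalIntegral.integral_nonneg hp fun s _ => bb_nonneg _ _ _ _ _
  have k2 : 0 ≤ ∫ s in q..s0, bb E l xlo xhi s :=
    intervalIntegral.integral_nonneg hq fun s _ => bb_nonneg _ _ _ _ _
  linarith

end

end Crest.Agent.T3
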