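import Crest.Agent.T3.R1Base

/-! Row 214, region R1: the checker and its soundness. Unit of all integers: `1/10000`. -/

set_option autoImplicit false
open MeasureTheory Set Filter Topology
open Crest.GeometryTopology.PeriodicPerimeter

namespace Crest.Agent.T3

def okM (x M : ℕ) : Bool :=
  decide (0 < x) && (decide (x < 10000) && (decide (M ≤ 10000) &&
    (decide (M * M ≤ 31415 * x) && decide (M * M ≤ 31415 * (10000 - x)))))

def okN (E l : ℤ) (x M b : ℕ) : Bool :=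
  decide (E * 10000 + l * x ≤ 0) ||
    decide ((E * 10000 + l * x) * (E * 10000 + l * x) ≤ (100000000 - (b : ℤ) * b) * (M * M))

def okC (E l : ℤ) : ℕ → ℕ → List (ℕ × ℕ × ℕ) → Bool
  | _, _, [] => true
  | x, M, (b, x', M') :: t =>
    decide (x ≤ x') && (okM x' M' && (decide (b ≤ 10000) && (okN E l x M b && (okN E l x' M' b &&
      okC E l x' M' t))))

def sumC : ℕ → List (ℕ × ℕ × ℕ) → ℕ
  | _, [] => 0
  | x, (b, x', _) :: t => b * (x' - x) + sumC x' t

def endC : ℕ → List (ℕ × ℕ × ℕ) → ℕ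
  | x, [] => x
  | _, (_, x', _) :: t => endC x' t

structure Bx where
  s1a : ℕ
  m1a : ℕ
  s1b : ℕ
  m1b : ℕ
  E : ℤ
  l : ℤ
  cells : List (ℕ × ℕ × ℕ)

def Bx.ok (B : Bx) (s0a m0a s0b m0b : ℕ) : Bool :=
  okM B.s1b B.m1b && (okN B.E B.l B.s1b B.m1b 0 && (okM s0a m0a && (okN B.E B.l s0a m0a 0 &&
  ((decide (B.E ≤ 0) || (okM B.s1a B.m1a && okN B.E B.l B.s1a B.m1a 0)) &&
  ((decide (B.E + B.l ≤ 0) || (okM s0b m0b && okN B.E B.l s0b m0b 0)) &&
  (decide (B.s1a ≤ B.s1b) && (decide (s0a ≤ s0b) && (okC B.E B.l B.s1b B.m1b B.cells &&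
  (decide (endC B.s1b B.cells = s0a) &&
  ((decide (0 ≤ B.l) && (decide (B.l ≤ 15000) &&
    decide (3141600000000 < (B.E * 10000 + sumC B.s1b B.cells) * 31416 + B.l * 100000000))) ||
   (decide (B.l ≤ 0) &&
    decide (200000000 < 2 * (B.E * 10000 + sumC B.s1b B.cells) + B.l * 10000))))))))))))

def okBs (s0a m0a s0b m0b : ℕ) : ℕ → List Bx → ℕ → Bool
  | p, [], q => decide (q ≤ p)
  | p, B :: t, q => decide (B.s1a = p) && (B.ok s0a m0a s0b m0b && okBs s0a m0a s0b m0b B.s1b t q)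

structure Strip where
  s0a : ℕ
  m0a : ℕ
  s0b : ℕ
  m0b : ℕ
  bs : List Bx

def okS : ℕ → List Strip → ℕ → Bool
  | p, [], q => decide (q ≤ p)
  | p, S :: t, q => decide (S.s0a = p) && (okBs S.s0a S.m0a S.s0b S.m0b 0 S.bs 5001 && okS S.s0b t q)

noncomputable section

theorem okM_sound {x M : ℕ} (h : okM x M = true) : 0 < (x : ℝ) / 10000 ∧ (x : ℝ) / 10000 < 1 ∧
    (M : ℝ) / 10000 ≤ mm ((x : ℝ) / 10000) := by
  simp only [okM, Bool.and_eq_true, decide_eq_true_eq] at h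
  obtain ⟨h0, h1, h2, h3, h4⟩ := h
  have r0 : (0 : ℝ) < x := by exact_mod_cast h0
  have r1 : (x : ℝ) < 10000 := by exact_mod_cast h1
  have r2 : (M : ℝ) ≤ 10000 := by exact_mod_cast h2
  have r3 : (M : ℝ) * M ≤ 31415 * x := by exact_mod_cast h3
  have r4 : (M : ℝ) * M ≤ 31415 * (10000 - x) := by
    have e : ((31415 * (10000 - x) : ℕ) : ℝ) = 31415 * (10000 - x) := by
      push_cast [Nat.cast_sub h1.le]; ring
    rw [← e]; exact_mod_cast h4
  have hpi : (3.1415 : ℝ) < Real.pi := Real.pi_gt_d4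
  refine ⟨by positivity, by linarith, ?_⟩
  refine le_min (Real.le_sqrt_of_sq_le ?_) (le_min (by linarith) (Real.le_sqrt_of_sq_le ?_))
  · have : ((M : ℝ) / 10000) ^ 2 = (M * M) / 100000000 := by ring
    rw [this]
    nlinarith
  · have : ((M : ℝ) / 10000) ^ 2 = (M * M) / 100000000 := by ring
    rw [this]
    nlinarith

/-- the real parameters -/
def rr1 (z : ℤ) : ℝ := (z : ℝ) / 10000

theorem okN_sound {E l : ℤ} {x M b : ℕ} (hM : okM x M = true) (hb : b ≤ 10000)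
    (h : okN E l x M b = true) :
    rr1 E + rr1 l * ((x : ℝ) / 10000) ≤ Real.sqrt (1 - ((b : ℝ) / 10000) ^ 2) * mm ((x : ℝ) / 10000) := by
  obtain ⟨h0, h1, h2⟩ := okM_sound hM
  have hb' : (b : ℝ) ≤ 10000 := by exact_mod_cast hb
  have hb0 : (0 : ℝ) ≤ b := by positivity
  have hs : 0 ≤ 1 - ((b : ℝ) / 10000) ^ 2 := by
    have : (b : ℝ) / 10000 ≤ 1 := by linarith
    have h3 : 0 ≤ (b : ℝ) / 10000 := by positivity
    nlinarith
  simp only [okN, Bool.or_eq_true, decide_eq_true_eq] at h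
  obtain ⟨e, he⟩ : ∃ e : ℝ, e = (E : ℝ) * 10000 + l * x := ⟨_, rfl⟩
  have e1 : rr1 E + rr1 l * ((x : ℝ) / 10000) = e / 10 ^ 8 := by
    rw [he]; unfold rr1; ring
  rw [e1]
  rcases h with h | h
  · have : e ≤ 0 := by rw [he]; exact_mod_cast h
    refine le_trans ?_ (mul_nonneg (Real.sqrt_nonneg _) (mm_nonneg _))
    linarith
  · have h' : e * e ≤ (10 ^ 8 - (b : ℝ) * b) * (M * M) := by
      rw [he]
      have h2 : (((E * 10000 + l * x) * (E * 10000 + l * x) : ℤ) : ℝ) ≤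
        (((100000000 - (b : ℤ) * b) * (M * M) : ℤ) : ℝ) := Int.cast_le.2 h
      push_cast at h2
      norm_num
      exact h2
    have hM0 : (0 : ℝ) ≤ (M : ℝ) / 10000 := by positivity
    refine le_trans ?_ (mul_le_mul_of_nonneg_left h2 (Real.sqrt_nonneg _))
    have e2 : Real.sqrt (1 - ((b : ℝ) / 10000) ^ 2) * ((M : ℝ) / 10000) =
        Real.sqrt ((1 - ((b : ℝ) / 10000) ^ 2) * ((M : ℝ) / 10000) ^ 2) := by
      rw [Real.sqrt_mul hs, Real.sqrt_sq hM0]
    rw [e2]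
    refine Real.le_sqrt_of_sq_le ?_
    have e3 : (e / 10 ^ 8) ^ 2 = (e * e) / 10 ^ 16 := by ring
    have e4 : (1 - ((b : ℝ) / 10000) ^ 2) * ((M : ℝ) / 10000) ^ 2 =
        ((10 ^ 8 - (b : ℝ) * b) * (M * M)) / 10 ^ 16 := by ring
    rw [e3, e4]
    exact div_le_div_of_nonneg_right h' (by positivity)

/-- one cell -/
theorem cell_sound {E l xlo xhi : ℝ} (h0 : 0 < xlo) (h1 : xlo ≤ xhi) (h2 : xhi < 1)
    {x y b : ℝ} (hx : xlo ≤ x) (hy : y ≤ xhi) (hxy : x ≤ y) (hb : 0 ≤ b) (hb1 : b ≤ 1)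
    (k1 : E + l * x ≤ Real.sqrt (1 - b ^ 2) * mm x) (k2 : E + l * y ≤ Real.sqrt (1 - b ^ 2) * mm y) :
    b * (y - x) ≤ ∫ s in x..y, bb E l xlo xhi s := by
  have hc := bb_cont (E := E) (l := l) h0 h1 h2
  have hbb : ∀ s ∈ Icc x y, b ≤ bb E l xlo xhi s := by
    intro s hs
    have hcl : cl xlo xhi s = s := by
      unfold cl; rw [min_eq_right (hs.2.trans hy), max_eq_right (hx.trans hs.1)]
    have hp := mm_pos (h0.trans_le (hx.trans hs.1)) ((hs.2.trans hy).trans_lt h2)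
    have hk := mm_cell (h0.le.trans hx) (hy.trans h2.le) (Real.sqrt_nonneg (1 - b ^ 2)) k1 k2 hs
    have ha : aa E l xlo xhi s ≤ Real.sqrt (1 - b ^ 2) := by
      unfold aa
      rw [hcl]
      exact max_le (Real.sqrt_nonneg _) ((div_le_iff₀ hp).2 hk)
    have ha0 := aa_nonneg E l xlo xhi s
    have hsq : (aa E l xlo xhi s) ^ 2 ≤ 1 - b ^ 2 := by
      have h3 := Real.sq_sqrt (show 0 ≤ 1 - b ^ 2 by nlinarith)
      nlinarith [Real.sqrt_nonneg (1 - b ^ 2)]
    unfold bb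
    refine Real.le_sqrt_of_sq_le ?_
    linarith
  have h3 := intervalIntegral.integral_mono_on hxy
    (intervalIntegrable_const (μ := volume) (c := b)) (hc.intervalIntegrable x y) hbb
  rw [intervalIntegral.integral_const, smul_eq_mul, mul_comm] at h3
  exact h3

theorem endC_ge {E l : ℤ} : ∀ (L : List (ℕ × ℕ × ℕ)) (x M : ℕ), okC E l x M L = true → x ≤ endC x L
  | [], x, M, _ => le_rfl
  | (b, x', M') :: t, x, M, h => by
    simp only [okC, Bool.and_eq_true, decide_eq_true_eq] at h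
    exact h.1.trans (endC_ge t x' M' h.2.2.2.2.2)

theorem chain_sound {E l : ℤ} {xlo xhi : ℝ} (h0 : 0 < xlo) (h1 : xlo ≤ xhi) (h2 : xhi < 1) :
    ∀ (L : List (ℕ × ℕ × ℕ)) (x M : ℕ), okM x M = true → okC E l x M L = true →
      xlo ≤ (x : ℝ) / 10000 → ((endC x L : ℕ) : ℝ) / 10000 ≤ xhi →
      ((sumC x L : ℕ) : ℝ) / 100000000 ≤
        ∫ s in ((x : ℝ) / 10000)..(((endC x L : ℕ) : ℝ) / 10000), bb (rr1 E) (rr1 l) xlo xhi s
  | [], x, M, _, _, _, _ => by simp [sumC, endC]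
  | (b, x', M') :: t, x, M, hM, h, hx, he => by
    simp only [okC, Bool.and_eq_true, decide_eq_true_eq] at h
    obtain ⟨g1, g2, g3, g4, g5, g6⟩ := h
    have hx' : (x : ℝ) / 10000 ≤ (x' : ℝ) / 10000 := by
      have : (x : ℝ) ≤ x' := by exact_mod_cast g1
      linarith
    have hend := endC_ge t x' M' g6
    have hend' : (x' : ℝ) / 10000 ≤ ((endC x' t : ℕ) : ℝ) / 10000 := by
      have : (x' : ℝ) ≤ (endC x' t : ℕ) := by exact_mod_cast hend
      linarith
    have he' : ((endC x' t : ℕ) : ℝ) / 10000 ≤ xhi := he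
    have ih := chain_sound h0 h1 h2 t x' M' g2 g6 (hx.trans hx') he'
    have hc := bb_cont (E := rr1 E) (l := rr1 l) h0 h1 h2
    have hb0 : (0 : ℝ) ≤ (b : ℝ) / 10000 := by positivity
    have hb1 : (b : ℝ) / 10000 ≤ 1 := by
      have : (b : ℝ) ≤ 10000 := by exact_mod_cast g3
      linarith
    have hcell := cell_sound h0 h1 h2 hx (hend'.trans he') hx' hb0 hb1 (okN_sound hM g3 g4)
      (okN_sound g2 g3 g5)
    have es : (sumC x ((b, x', M') :: t) : ℕ) = b * (x' - x) + sumC x' t := rfl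
    have ee : endC x ((b, x', M') :: t) = endC x' t := rfl
    rw [es, ee, ← intervalIntegral.integral_add_adjacent_intervals
      (hc.intervalIntegrable ((x : ℝ) / 10000) ((x' : ℝ) / 10000))
      (hc.intervalIntegrable ((x' : ℝ) / 10000) _)]
    have ec : ((b * (x' - x) + sumC x' t : ℕ) : ℝ) = b * ((x' : ℝ) - x) + (sumC x' t : ℕ) := by
      push_cast [Nat.cast_sub g1]; ring
    rw [ec]
    have e3 : (b : ℝ) / 10000 * ((x' : ℝ) / 10000 - (x : ℝ) / 10000) =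
      (b * ((x' : ℝ) - x)) / 100000000 := by ring
    rw [e3] at hcell
    linarith

theorem prof_half_le_one (V : ℝ) : Crest.Agent.IT.prof V / 2 ≤ 1 := by
  have : Crest.Agent.IT.prof V ≤ 2 := min_le_right _ _
  linarith

/-- the tangent from above -/
theorem prof_half_le (V l : ℝ) (hV : 0 < V) (hl : 0 ≤ l) (hl1 : l ≤ 3 / 2) :
    Crest.Agent.IT.prof V / 2 ≤ 1 - l / Real.pi + l * V := by
  have hpi := Real.pi_pos
  rcases le_or_gt (1 / Real.pi) V with h | h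
  · have h1 := prof_half_le_one V
    have : l * (1 / Real.pi) ≤ l * V := mul_le_mul_of_nonneg_left h hl
    have e : l * (1 / Real.pi) = l / Real.pi := by ring
    linarith
  · have h1 : Crest.Agent.IT.prof V ≤ 2 * Real.sqrt (Real.pi * V) :=
      (min_le_left _ _).trans (min_le_right _ _)
    set y := Real.sqrt (Real.pi * V) with hy
    have hy0 : 0 ≤ y := Real.sqrt_nonneg _
    have hy2 : y ^ 2 = Real.pi * V := Real.sq_sqrt (by positivity)
    have hy1 : y < 1 := by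
      rw [lt_div_iff₀ hpi] at h
      nlinarith
    have hVy : V = y ^ 2 / Real.pi := by rw [hy2]; field_simp
    have h3 : (3 : ℝ) < Real.pi := Real.pi_gt_three
    have key : (l / Real.pi) * (1 - y ^ 2) ≤ 1 - y := by
      have hlp : l / Real.pi ≤ 1 / 2 := by
        rw [div_le_div_iff₀ hpi two_pos]; linarith
      have : (l / Real.pi) * (1 - y ^ 2) ≤ 1 / 2 * (1 - y ^ 2) :=
        mul_le_mul_of_nonneg_right hlp (by nlinarith)
      nlinarith
    have e : l * V = (l / Real.pi) * y ^ 2 := by rw [hVy]; ring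
    rw [e]
    nlinarith

/-- soundness of one box -/
theorem box_sound (D : Set (Fin 3 → ℝ)) (hD : IsLowerSet D) (hO : IsOpen D) (k : Fin 3)
    (hV0 : 0 < vol01 D) (hV : vol01 D ≤ 1 / 2) (B : Bx) (s0a m0a s0b m0b : ℕ)
    (hB : B.ok s0a m0a s0b m0b = true)
    (q1 : (B.s1a : ℝ) / 10000 ≤ sEnd D k) (q2 : sEnd D k ≤ (B.s1b : ℝ) / 10000)
    (q3 : (s0a : ℝ) / 10000 ≤ sv D k 0) (q4 : sv D k 0 ≤ (s0b : ℝ) / 10000) :
    ∃ c, Crest.Agent.IT.prof (vol01 D) / 2 < c ∧ QL D c := by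
  simp only [Bx.ok, Bool.and_eq_true, Bool.or_eq_true, decide_eq_true_eq] at hB
  obtain ⟨a1, a2, a3, a4, a5, a6, a7, a8, a9, a10, a11⟩ := hB
  obtain ⟨p1, p2, p3'⟩ := okM_sound a1
  obtain ⟨r1, r2, r3⟩ := okM_sound a3
  have hsq : Real.sqrt (1 - (((0 : ℕ) : ℝ) / 10000) ^ 2) = 1 := by simp
  have n1 := okN_sound a1 (Nat.zero_le _) a2
  have n2 := okN_sound a3 (Nat.zero_le _) a4
  rw [hsq, one_mul] at n1 n2
  have hend := endC_ge _ _ _ a9
  rw [a10] at hend
  have hend' : (B.s1b : ℝ) / 10000 ≤ (s0a : ℝ) / 10000 := by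
    have : (B.s1b : ℝ) ≤ s0a := by exact_mod_cast hend
    linarith
  have a7' : (B.s1a : ℝ) / 10000 ≤ (B.s1b : ℝ) / 10000 := by
    have : (B.s1a : ℝ) ≤ B.s1b := by exact_mod_cast a7
    linarith
  have a8' : (s0a : ℝ) / 10000 ≤ (s0b : ℝ) / 10000 := by
    have : (s0a : ℝ) ≤ s0b := by exact_mod_cast a8
    linarith
  -- choose xlo, xhi
  obtain ⟨xlo, hx0, hxb, hxE, hxl⟩ : ∃ xlo : ℝ, 0 < xlo ∧ xlo ≤ (B.s1b : ℝ) / 10000 ∧
      (rr1 B.E + rr1 B.l * xlo ≤ mm xlo) ∧ (xlo ≤ sEnd D k ∨ rr1 B.E ≤ 0) := by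
    rcases a5 with h | h
    · refine ⟨(B.s1b : ℝ) / 10000, p1, le_rfl, n1, Or.inr ?_⟩
      have : (B.E : ℝ) ≤ 0 := by exact_mod_cast h
      unfold rr1; linarith
    · have h' := okN_sound h.1 (Nat.zero_le _) h.2
      rw [hsq, one_mul] at h'
      exact ⟨(B.s1a : ℝ) / 10000, (okM_sound h.1).1, a7', h', Or.inl q1⟩
  obtain ⟨xhi, hy0, hyb, hyE, hyl⟩ : ∃ xhi : ℝ, xhi < 1 ∧ (s0a : ℝ) / 10000 ≤ xhi ∧
      (rr1 B.E + rr1 B.l * xhi ≤ mm xhi) ∧ (sv D k 0 ≤ xhi ∨ rr1 B.E + rr1 B.l ≤ 0) := by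
    rcases a6 with h | h
    · refine ⟨(s0a : ℝ) / 10000, r2, le_rfl, n2, Or.inr ?_⟩
      have : (B.E : ℝ) + B.l ≤ 0 := by exact_mod_cast h
      unfold rr1; linarith
    · have h' := okN_sound h.1 (Nat.zero_le _) h.2
      rw [hsq, one_mul] at h'
      exact ⟨(s0b : ℝ) / 10000, (okM_sound h.1).2.1, a8', h', Or.inl q4⟩
  have hlohi : xlo ≤ xhi := (hxb.trans hend').trans hyb
  have hm : ∀ s ∈ Icc xlo xhi, rr1 B.E + rr1 B.l * s ≤ mm s := by
    intro s hs
    have := mm_cell (p := rr1 B.E) (q := rr1 B.l) (c := 1) hx0.le hy0.le zero_le_one (by rw [one_mul]; exact hxE)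
      (by rw [one_mul]; exact hyE) hs
    rwa [one_mul] at this
  have hcal := r1_cal D hD hO k hx0 hlohi hy0 hm hxl hyl
  have hmono := bb_int_mono (E := rr1 B.E) (l := rr1 B.l) hx0 hlohi hy0 q2 q3
  have hch := chain_sound hx0 hlohi hy0 B.cells B.s1b B.m1b a1 a9 hxb (by rw [a10]; exact hyb)
  rw [a10] at hch
  refine ⟨_, ?_, hcal⟩
  set V := vol01 D with hVd
  set S := (sumC B.s1b B.cells : ℕ) with hS
  have hfin : Crest.Agent.IT.prof V / 2 < rr1 B.E + rr1 B.l * V + (S : ℝ) / 100000000 := by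
    rcases a11 with ⟨b1, b2, b3⟩ | ⟨b1, b2⟩
    · have c1 : (0 : ℝ) ≤ rr1 B.l := by
        have : (0 : ℝ) ≤ B.l := by exact_mod_cast b1
        unfold rr1; positivity
      have c2 : rr1 B.l ≤ 3 / 2 := by
        have : (B.l : ℝ) ≤ 15000 := by exact_mod_cast b2
        unfold rr1; linarith
      have c3 : (3141600000000 : ℝ) < (B.E * 10000 + (S : ℝ)) * 31416 + B.l * 100000000 := by
        exact_mod_cast b3
      have h4 := prof_half_le V (rr1 B.l) hV0 c1 c2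
      have hpi : Real.pi < 3.1416 := Real.pi_lt_d4
      have h5 : rr1 B.l / 3.1416 ≤ rr1 B.l / Real.pi :=
        div_le_div_of_nonneg_left c1 Real.pi_pos hpi.le
      have e5 : rr1 B.l / 3.1416 = (B.l : ℝ) / 31416 := by
        unfold rr1
        rw [div_div]
        norm_num
      have h6 : 1 < rr1 B.E + (S : ℝ) / 100000000 + rr1 B.l / 3.1416 := by
        rw [e5]
        unfold rr1
        linarith
      linarith
    · have c1 : rr1 B.l ≤ 0 := by
        have : (B.l : ℝ) ≤ 0 := by exact_mod_cast b1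
        unfold rr1; linarith
      have c3 : (200000000 : ℝ) < 2 * (B.E * 10000 + (S : ℝ)) + B.l * 10000 := by
        exact_mod_cast b2
      have h4 := prof_half_le_one V
      have h5 : rr1 B.l * (1 / 2) ≤ rr1 B.l * V := mul_le_mul_of_nonpos_left hV c1
      have h6 : 1 < rr1 B.E + (S : ℝ) / 100000000 + rr1 B.l * (1 / 2) := by
        unfold rr1
        linarith
      linarith
  linarith

theorem bs_sound (D : Set (Fin 3 → ℝ)) (hD : IsLowerSet D) (hO : IsOpen D) (k : Fin 3)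
    (hV0 : 0 < vol01 D) (hV : vol01 D ≤ 1 / 2) (s0a m0a s0b m0b : ℕ)
    (q3 : (s0a : ℝ) / 10000 ≤ sv D k 0) (q4 : sv D k 0 ≤ (s0b : ℝ) / 10000) :
    ∀ (L : List Bx) (p q : ℕ), okBs s0a m0a s0b m0b p L q = true →
      (p : ℝ) / 10000 ≤ sEnd D k → sEnd D k < (q : ℝ) / 10000 →
      ∃ c, Crest.Agent.IT.prof (vol01 D) / 2 < c ∧ QL D c
  | [], p, q, h, h1, h2 => by
    simp only [okBs, decide_eq_true_eq] at h
    have : (q : ℝ) ≤ p := by exact_mod_cast h
    linarith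
  | B :: t, p, q, h, h1, h2 => by
    simp only [okBs, Bool.and_eq_true, decide_eq_true_eq] at h
    obtain ⟨g1, g2, g3⟩ := h
    rcases le_or_gt (sEnd D k) ((B.s1b : ℝ) / 10000) with hc | hc
    · exact box_sound D hD hO k hV0 hV B s0a m0a s0b m0b g2 (by rw [g1]; exact h1) hc q3 q4
    · exact bs_sound D hD hO k hV0 hV s0a m0a s0b m0b q3 q4 t B.s1b q g3 hc.le h2

theorem s_sound (D : Set (Fin 3 → ℝ)) (hD : IsLowerSet D) (hO : IsOpen D) (k : Fin 3)
    (hV0 : 0 < vol01 D) (hV : vol01 D ≤ 1 / 2) (hs : sEnd D k ≤ 1 / 2) :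
    ∀ (L : List Strip) (p q : ℕ), okS p L q = true →
      (p : ℝ) / 10000 ≤ sv D k 0 → sv D k 0 < (q : ℝ) / 10000 →
      ∃ c, Crest.Agent.IT.prof (vol01 D) / 2 < c ∧ QL D c
  | [], p, q, h, h1, h2 => by
    simp only [okS, decide_eq_true_eq] at h
    have : (q : ℝ) ≤ p := by exact_mod_cast h
    linarith
  | S :: t, p, q, h, h1, h2 => by
    simp only [okS, Bool.and_eq_true, decide_eq_true_eq] at h
    obtain ⟨g1, g2, g3⟩ := h
    rcases le_or_gt (sv D k 0) ((S.s0b : ℝ) / 10000) with hc | hc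
    · have hS0 : (0 : ℝ) ≤ sEnd D k := by
        unfold sEnd
        refine Real.sInf_nonneg ?_
        rintro x ⟨v, _, rfl⟩
        exact (sv_mem D k v).1
      refine bs_sound D hD hO k hV0 hV S.s0a S.m0a S.s0b S.m0b (by rw [g1]; exact h1) hc S.bs 0 5001
        g2 ?_ ?_
      · simpa using hS0
      · norm_num; linarith
    · exact s_sound D hD hO k hV0 hV hs t S.s0b q g3 hc.le h2

end

end Crest.Agent.T3
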