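import Crest.Agent.T3.R1Base

/-! Row 214, region R1: the corner `s(0) → 1`, `s(1-) → 0`. -/

set_option autoImplicit false
open MeasureTheory Set Filter Topology
open Crest.GeometryTopology.PeriodicPerimeter

namespace Crest.Agent.T3
noncomputable section

theorem bb_ge {E l xlo xhi : ℝ} (h0 : 0 < xlo) (h1 : xlo ≤ xhi) (h2 : xhi < 1)
    (hm : ∀ s ∈ Icc xlo xhi, E + l * s ≤ mm s) (s y : ℝ) (hy : (aa E l xlo xhi s) ^ 2 ≤ y) :
    1 - y ≤ bb E l xlo xhi s := by
  have ha := aa_nonneg E l xlo xhi s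
  have ha1 := aa_le_one h0 h1 h2 hm s
  unfold bb
  refine le_trans (sub_le_sub_left hy 1) (Real.le_sqrt_of_sq_le ?_)
  have : (aa E l xlo xhi s) ^ 2 ≤ 1 := by nlinarith
  nlinarith [sq_nonneg (aa E l xlo xhi s)]

theorem sqrt_pi_half : 1 ≤ Real.sqrt (Real.pi * (1 / 2)) := by
  refine Real.le_sqrt_of_sq_le ?_
  have := Real.pi_gt_three
  linarith

theorem mm_half : mm (1 / 2) = 1 := by
  unfold mm
  have h := sqrt_pi_half
  have e : Real.pi * (1 - 1 / 2) = Real.pi * (1 / 2) := by ring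
  rw [e, min_eq_left h, min_eq_right h]

theorem mm_sq_ge {s : ℝ} (h0 : 0 ≤ s) (h1 : s ≤ 1) : Real.pi * (s ^ 2 * (1 - s)) ≤ (mm s) ^ 2 ∧
    Real.pi * (s * (1 - s) ^ 2) ≤ (mm s) ^ 2 := by
  have hpi := Real.pi_pos
  have hpi4 := Real.pi_lt_four
  have k1 : s ^ 2 * (1 - s) ≤ 1 / 4 := by nlinarith [sq_nonneg (s - 1 / 2), sq_nonneg s]
  have k2 : s * (1 - s) ^ 2 ≤ 1 / 4 := by nlinarith [sq_nonneg (s - 1 / 2), sq_nonneg (1 - s)]
  have key : ∀ w : ℝ, 0 ≤ w → w ≤ s → w ≤ 1 - s → w ≤ 1 / 4 → Real.pi * w ≤ (mm s) ^ 2 := by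
    intro w w0 w1 w2 w3
    have : Real.sqrt (Real.pi * w) ≤ mm s := by
      refine le_min (Real.sqrt_le_sqrt (by gcongr)) (le_min ?_ (Real.sqrt_le_sqrt (by gcongr)))
      refine (Real.sqrt_le_sqrt (y := 1) ?_).trans Real.sqrt_one.le
      nlinarith
    calc Real.pi * w = (Real.sqrt (Real.pi * w)) ^ 2 := (Real.sq_sqrt (by positivity)).symm
      _ ≤ _ := by gcongr
  constructor
  · refine key _ (by have := sub_nonneg.2 h1; positivity) ?_ ?_ k1
    · nlinarith [mul_nonneg h0 (sub_nonneg.2 h1)]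
    · nlinarith [mul_nonneg h0 (sub_nonneg.2 h1)]
  · refine key _ (by have := sub_nonneg.2 h1; positivity) ?_ ?_ k2
    · nlinarith [mul_nonneg h0 (sub_nonneg.2 h1)]
    · nlinarith [mul_nonneg h0 (sub_nonneg.2 h1)]

theorem corA_hm {ε : ℝ} (h0 : 0 < ε) (h1 : ε ≤ 1 / 4) :
    ∀ s ∈ Icc (1 / 2 : ℝ) (1 - ε), 0 + Real.sqrt (Real.pi * ε) * s ≤ mm s := by
  intro s hs
  have hpi := Real.pi_pos
  have hpi4 := Real.pi_lt_four
  have hl : Real.sqrt (Real.pi * ε) ≤ 1 := by
    exact (Real.sqrt_le_sqrt (by nlinarith)).trans Real.sqrt_one.le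
  have hl0 := Real.sqrt_nonneg (Real.pi * ε)
  have hs0 : 0 ≤ s := by linarith [hs.1]
  have hs1 : s ≤ 1 := by linarith [hs.2]
  have k : 0 + Real.sqrt (Real.pi * ε) * s ≤ Real.sqrt (Real.pi * ε) := by nlinarith
  refine le_min ?_ (le_min (k.trans hl) ?_)
  · refine (k.trans hl).trans (sqrt_pi_half.trans (Real.sqrt_le_sqrt ?_))
    have := hs.1
    gcongr
  · refine k.trans (Real.sqrt_le_sqrt ?_)
    have : ε ≤ 1 - s := by linarith [hs.2]
    gcongr

theorem corA_int {ε s1 : ℝ} (h0 : 0 < ε) (h1 : ε ≤ 1 / 4) (hs0 : 0 ≤ s1) (hs1 : s1 ≤ 1 / 2) :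
    1 - ε - s1 - Real.pi * ε / 8 - ε * Real.log (1 / 2 / ε) ≤
      ∫ s in s1..(1 - ε), bb 0 (Real.sqrt (Real.pi * ε)) (1 / 2) (1 - ε) s := by
  have hpi := Real.pi_pos
  have hpi4 := Real.pi_lt_four
  have x0 : (0 : ℝ) < 1 / 2 := by norm_num
  have x1 : (1 / 2 : ℝ) ≤ 1 - ε := by linarith
  have x2 : 1 - ε < 1 := by linarith
  have hm := corA_hm h0 h1
  have hc := bb_cont (E := 0) (l := Real.sqrt (Real.pi * ε)) x0 x1 x2
  have hl2 : Real.sqrt (Real.pi * ε) ^ 2 = Real.pi * ε := Real.sq_sqrt (by positivity)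
  rw [← intervalIntegral.integral_add_adjacent_intervals (hc.intervalIntegrable s1 (1 / 2))
    (hc.intervalIntegrable (1 / 2) (1 - ε))]
  have p1 : (1 / 2 - s1) * (1 - Real.pi * ε / 4) ≤
      ∫ s in s1..(1 / 2), bb 0 (Real.sqrt (Real.pi * ε)) (1 / 2) (1 - ε) s := by
    have h := intervalIntegral.integral_mono_on hs1
      (intervalIntegrable_const (μ := volume) (c := 1 - Real.pi * ε / 4))
      (hc.intervalIntegrable s1 (1 / 2)) (fun s hs => by
        refine bb_ge x0 x1 x2 hm s _ ?_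
        have e : cl (1 / 2) (1 - ε) s = 1 / 2 := by
          unfold cl; rw [min_eq_right (hs.2.trans x1), max_eq_left hs.2]
        unfold aa
        rw [e, mm_half, zero_add, div_one, max_eq_right (by positivity), mul_pow, hl2]
        ring_nf
        exact le_rfl)
    rw [intervalIntegral.integral_const, smul_eq_mul] at h
    exact h
  have p2 : (1 / 2 - ε) - ε * Real.log (1 / 2 / ε) ≤
      ∫ s in (1 / 2)..(1 - ε), bb 0 (Real.sqrt (Real.pi * ε)) (1 / 2) (1 - ε) s := by
    have hci : ContinuousOn (fun s : ℝ => 1 - ε * (1 - s)⁻¹) (Icc (1 / 2) (1 - ε)) := by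
      refine continuousOn_const.sub (continuousOn_const.mul (ContinuousOn.inv₀ (by fun_prop) ?_))
      intro s hs
      have := hs.2
      have : 0 < 1 - s := by linarith
      exact this.ne'
    have h := intervalIntegral.integral_mono_on (μ := volume) x1
      (hci.intervalIntegrable_of_Icc x1) (hc.intervalIntegrable (1 / 2) (1 - ε)) (fun s hs => by
        have hs0' : 0 < s := by linarith [hs.1]
        have hs1' : 0 < 1 - s := by linarith [hs.2]
        refine bb_ge x0 x1 x2 hm s _ ?_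
        have e : cl (1 / 2) (1 - ε) s = s := by
          unfold cl; rw [min_eq_right hs.2, max_eq_right hs.1]
        have hp := mm_pos hs0' (by linarith)
        unfold aa
        rw [e, zero_add, max_eq_right (by positivity), div_pow, mul_pow, hl2, div_le_iff₀ (by positivity)]
        have := (mm_sq_ge hs0'.le (by linarith)).1
        have e2 : Real.pi * ε * s ^ 2 = ε * (1 - s)⁻¹ * (Real.pi * (s ^ 2 * (1 - s))) := by
          field_simp
        rw [e2]
        exact mul_le_mul_of_nonneg_left this (by positivity))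
    refine le_trans (le_of_eq ?_) h
    have i1 : IntervalIntegrable (fun s : ℝ => (1 - s)⁻¹) volume (1 / 2) (1 - ε) := by
      refine ContinuousOn.intervalIntegrable_of_Icc x1 (ContinuousOn.inv₀ (by fun_prop) ?_)
      intro s hs
      have : 0 < 1 - s := by linarith [hs.2]
      exact this.ne'
    rw [intervalIntegral.integral_sub (by simp) (i1.const_mul ε), intervalIntegral.integral_const_mul,
      intervalIntegral.integral_comp_sub_left (fun x => x⁻¹) 1, sub_sub_cancel]
    have e3 : (1 : ℝ) - 1 / 2 = 1 / 2 := by norm_num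
    rw [e3, integral_inv_of_pos h0 x0]
    simp
    ring
  nlinarith [mul_nonneg hs0 (mul_pos hpi h0).le]

theorem corB_hm {t : ℝ} (h0 : 0 < t) (h1 : t ≤ 1 / 4) :
    ∀ s ∈ Icc t (1 / 2 : ℝ), Real.sqrt (Real.pi * t) + -Real.sqrt (Real.pi * t) * s ≤ mm s := by
  intro s hs
  have hpi := Real.pi_pos
  have hpi4 := Real.pi_lt_four
  have hl : Real.sqrt (Real.pi * t) ≤ 1 := by
    exact (Real.sqrt_le_sqrt (by nlinarith)).trans Real.sqrt_one.le
  have hl0 := Real.sqrt_nonneg (Real.pi * t)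
  have hs0 : 0 ≤ s := by linarith [hs.1]
  have hs1 : s ≤ 1 := by linarith [hs.2]
  have k : Real.sqrt (Real.pi * t) + -Real.sqrt (Real.pi * t) * s ≤ Real.sqrt (Real.pi * t) := by
    nlinarith
  refine le_min ?_ (le_min (k.trans hl) ?_)
  · refine k.trans (Real.sqrt_le_sqrt ?_)
    have := hs.1
    gcongr
  · refine (k.trans hl).trans (sqrt_pi_half.trans (Real.sqrt_le_sqrt ?_))
    have : (1 / 2 : ℝ) ≤ 1 - s := by linarith [hs.2]
    gcongr

theorem corB_int {t s0 : ℝ} (h0 : 0 < t) (h1 : t ≤ 1 / 4) (hs0 : 1 / 2 ≤ s0) (hs1 : s0 ≤ 1) :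
    s0 - t - Real.pi * t / 8 - t * Real.log (1 / 2 / t) ≤
      ∫ s in t..s0, bb (Real.sqrt (Real.pi * t)) (-Real.sqrt (Real.pi * t)) t (1 / 2) s := by
  have hpi := Real.pi_pos
  have hpi4 := Real.pi_lt_four
  have x1 : t ≤ 1 / 2 := by linarith
  have x2 : (1 / 2 : ℝ) < 1 := by norm_num
  have hm := corB_hm h0 h1
  have hc := bb_cont (E := Real.sqrt (Real.pi * t)) (l := -Real.sqrt (Real.pi * t)) h0 x1 x2
  have hl2 : Real.sqrt (Real.pi * t) ^ 2 = Real.pi * t := Real.sq_sqrt (by positivity)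
  rw [← intervalIntegral.integral_add_adjacent_intervals (hc.intervalIntegrable t (1 / 2))
    (hc.intervalIntegrable (1 / 2) s0)]
  have p1 : (s0 - 1 / 2) * (1 - Real.pi * t / 4) ≤ ∫ s in (1 / 2)..s0,
      bb (Real.sqrt (Real.pi * t)) (-Real.sqrt (Real.pi * t)) t (1 / 2) s := by
    have h := intervalIntegral.integral_mono_on hs0
      (intervalIntegrable_const (μ := volume) (c := 1 - Real.pi * t / 4))
      (hc.intervalIntegrable (1 / 2) s0) (fun s hs => by
        refine bb_ge h0 x1 x2 hm s _ ?_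
        have e : cl t (1 / 2) s = 1 / 2 := by
          unfold cl; rw [min_eq_left hs.1, max_eq_right x1]
        unfold aa
        rw [e, mm_half, div_one]
        have e4 : Real.sqrt (Real.pi * t) + -Real.sqrt (Real.pi * t) * (1 / 2) =
          Real.sqrt (Real.pi * t) / 2 := by ring
        rw [e4, max_eq_right (by positivity), div_pow, hl2]
        ring_nf
        exact le_rfl)
    rw [intervalIntegral.integral_const, smul_eq_mul] at h
    exact h
  have p2 : (1 / 2 - t) - t * Real.log (1 / 2 / t) ≤ ∫ s in t..(1 / 2),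
      bb (Real.sqrt (Real.pi * t)) (-Real.sqrt (Real.pi * t)) t (1 / 2) s := by
    have hci : ContinuousOn (fun s : ℝ => 1 - t * s⁻¹) (Icc t (1 / 2)) := by
      refine continuousOn_const.sub (continuousOn_const.mul (ContinuousOn.inv₀ (by fun_prop) ?_))
      intro s hs
      exact (h0.trans_le hs.1).ne'
    have h := intervalIntegral.integral_mono_on (μ := volume) x1
      (hci.intervalIntegrable_of_Icc x1) (hc.intervalIntegrable t (1 / 2)) (fun s hs => by
        have hs0' : 0 < s := h0.trans_le hs.1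
        have hs1' : 0 < 1 - s := by linarith [hs.2]
        refine bb_ge h0 x1 x2 hm s _ ?_
        have e : cl t (1 / 2) s = s := by
          unfold cl; rw [min_eq_right hs.2, max_eq_right hs.1]
        have hp := mm_pos hs0' (by linarith)
        unfold aa
        have e4 : Real.sqrt (Real.pi * t) + -Real.sqrt (Real.pi * t) * s =
          Real.sqrt (Real.pi * t) * (1 - s) := by ring
        rw [e, e4, max_eq_right (by positivity), div_pow, mul_pow, hl2, div_le_iff₀ (by positivity)]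
        have := (mm_sq_ge hs0'.le (by linarith)).2
        have e2 : Real.pi * t * (1 - s) ^ 2 = t * s⁻¹ * (Real.pi * (s * (1 - s) ^ 2)) := by
          field_simp
        rw [e2]
        exact mul_le_mul_of_nonneg_left this (by positivity))
    refine le_trans (le_of_eq ?_) h
    have i1 : IntervalIntegrable (fun s : ℝ => s⁻¹) volume t (1 / 2) := by
      refine ContinuousOn.intervalIntegrable_of_Icc x1 (ContinuousOn.inv₀ (by fun_prop) ?_)
      intro s hs
      exact (h0.trans_le hs.1).ne'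
    rw [intervalIntegral.integral_sub (by simp) (i1.const_mul t), intervalIntegral.integral_const_mul,
      integral_inv_of_pos h0 (by norm_num)]
    simp
  nlinarith [mul_nonneg (sub_nonneg.2 hs1) (mul_pos hpi h0).le]

/-- the logarithm -/
theorem cor_log {r : ℝ} (hr : 0 < r) :
    r ^ 2 * Real.log (1 / 2 / r ^ 2) ≤ r ^ 2 * 2.8521 + r / 8 := by
  have h1 := Real.log_le_sub_one_of_pos (show 0 < 1 / (16 * r) by positivity)
  have e : (1 : ℝ) / 2 / r ^ 2 = 2 ^ 7 * (1 / (16 * r)) ^ 2 := by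
    field_simp
    norm_num
  have h2 : Real.log 2 < 0.6931471808 := Real.log_two_lt_d9
  rw [e, Real.log_mul (by norm_num) (by positivity), Real.log_pow, Real.log_pow]
  push_cast
  have h3 : 7 * Real.log 2 + 2 * Real.log (1 / (16 * r)) ≤ 2.8521 + 1 / (8 * r) := by
    have : 2 * (1 / (16 * r)) = 1 / (8 * r) := by field_simp; norm_num
    linarith
  calc r ^ 2 * (7 * Real.log 2 + 2 * Real.log (1 / (16 * r))) ≤ r ^ 2 * (2.8521 + 1 / (8 * r)) :=
        mul_le_mul_of_nonneg_left h3 (by positivity)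
    _ = _ := by field_simp

end

end Crest.Agent.T3
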