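import Crest.Agent.T3.RigDefs
import Crest.Agent.T3.Fold
/-! Row 214, rigidity (7a), chunk RIG-ARC (1D, easy): arcs.
(`fold_neg`, `fold_continuous` are in `Crest.Agent.T3.Fold`, same names and statements.) -/
set_option autoImplicit false
open MeasureTheory Set Filter Topology
namespace Crest.Agent.T3
noncomputable section

theorem fold_add_one (t : ℝ) : fold (t + 1) = fold t := by
  have h := fold_add_int t 1
  simpa using h

theorem fold_mem (t : ℝ) : fold t ∈ Icc (0 : ℝ) 1 := ⟨fold_nonneg t, fold_le_one t⟩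

theorem rigarc_fold_abs (x : ℝ) (hx : |x| ≤ 1 / 2) : fold x = 2 * |x| := by
  unfold fold
  congr 1
  by_cases h : round x = 0
  · rw [h]; simp
  · refine le_antisymm ?_ ?_
    · have := round_le x 0
      simpa using this
    · have h1 : (1 : ℝ) ≤ |(round x : ℝ)| := by exact_mod_cast Int.one_le_abs h
      have h2 : |(round x : ℝ)| ≤ |x| + |x - round x| := by
        have : (round x : ℝ) = x - (x - round x) := by ring
        calc |(round x : ℝ)| = |x - (x - round x)| := by rw [← this]
          _ ≤ |x| + |x - round x| := abs_sub _ _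
      linarith

theorem arc_isOpen (m l : ℝ) : IsOpen (arc m l) :=
  isOpen_lt (fold_continuous.comp (continuous_id.sub continuous_const)) continuous_const

theorem arc_per (m l t : ℝ) : t + 1 ∈ arc m l ↔ t ∈ arc m l := by
  show fold (t + 1 - m) < l ↔ fold (t - m) < l
  rw [show t + 1 - m = (t - m) + 1 by ring, fold_add_one]

theorem rigarc_inter (m l : ℝ) (h1 : l ≤ 1) :
    arc m l ∩ Ioc (m - 1 / 2) (m - 1 / 2 + 1) = Ioo (m - l / 2) (m + l / 2) := by
  ext t
  simp only [mem_inter_iff, mem_Ioc, mem_Ioo]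
  constructor
  · rintro ⟨h, h2, h3⟩
    have h4 : fold (t - m) < l := h
    rw [rigarc_fold_abs (t - m) (by rw [abs_le]; constructor <;> linarith)] at h4
    have h5 : |t - m| < l / 2 := by linarith
    rw [abs_lt] at h5
    constructor <;> linarith [h5.1, h5.2]
  · rintro ⟨h2, h3⟩
    have h5 : |t - m| < l / 2 := by rw [abs_lt]; constructor <;> linarith
    refine ⟨?_, by linarith, by linarith⟩
    show fold (t - m) < l
    rw [rigarc_fold_abs (t - m) (by linarith)]
    linarith

/-- integral of a periodic function over an arc -/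
theorem rigarc_integral {E : Type} [NormedAddCommGroup E] [NormedSpace ℝ E] (g : ℝ → E)
    (hg : ∀ t, g (t + 1) = g t) (m l : ℝ) (h0 : 0 ≤ l) (h1 : l ≤ 1) :
    ∫ t in arc m l ∩ Ico 0 1, g t = ∫ t in (m - l / 2)..(m + l / 2), g t := by
  have hm := (arc_isOpen m l).measurableSet
  have hp : Function.Periodic ((arc m l).indicator g) 1 := by
    intro t
    by_cases ht : t ∈ arc m l
    · rw [indicator_of_mem ht, indicator_of_mem ((arc_per m l t).2 ht), hg]
    · rw [indicator_of_notMem ht, indicator_of_notMem (fun h => ht ((arc_per m l t).1 h))]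
  have h2 := hp.intervalIntegral_add_eq 0 (m - 1 / 2)
  rw [intervalIntegral.integral_of_le (by linarith), intervalIntegral.integral_of_le (by linarith),
    ← integral_Ico_eq_integral_Ioc, setIntegral_indicator hm, setIntegral_indicator hm,
    zero_add, inter_comm, inter_comm (Ioc (m - 1 / 2) _), rigarc_inter m l h1,
    ← integral_Ioc_eq_integral_Ioo, ← intervalIntegral.integral_of_le (by linarith)] at h2
  exact h2

/-- CHUNK RIG-ARC -/
theorem volume_arc (m l : ℝ) (h0 : 0 ≤ l) (h1 : l ≤ 1) :
    (volume (arc m l ∩ Ico 0 1)).toReal = l := by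
  have h := rigarc_integral (fun _ => (1 : ℝ)) (fun _ => rfl) m l h0 h1
  rw [intervalIntegral.integral_const, setIntegral_const] at h
  simp only [smul_eq_mul, mul_one, Measure.real] at h
  rw [h]
  ring

/-- `∫_arc e^{2πit} dt = (sin πl / π) e^{2πim}` -/
theorem integral_arc (m l : ℝ) (h0 : 0 < l) (h1 : l < 1) :
    ∫ t in arc m l ∩ Ico 0 1, Complex.exp (2 * Real.pi * t * Complex.I) =
      (Real.sin (Real.pi * l) / Real.pi : ℝ) * Complex.exp (2 * Real.pi * m * Complex.I) := by
  have hper : ∀ t : ℝ, Complex.exp (2 * Real.pi * ((t + 1 : ℝ) : ℂ) * Complex.I) =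
      Complex.exp (2 * Real.pi * t * Complex.I) := by
    intro t
    rw [show (2 * Real.pi * ((t + 1 : ℝ) : ℂ) * Complex.I) =
      2 * Real.pi * t * Complex.I + 2 * Real.pi * Complex.I by push_cast; ring,
      Complex.exp_add, Complex.exp_two_pi_mul_I, mul_one]
  rw [rigarc_integral (fun t : ℝ => Complex.exp (2 * Real.pi * t * Complex.I)) hper m l h0.le h1.le]
  have hpi : (Real.pi : ℂ) ≠ 0 := by exact_mod_cast Real.pi_ne_zero
  have hc : (2 * Real.pi * Complex.I : ℂ) ≠ 0 :=
    mul_ne_zero (mul_ne_zero two_ne_zero hpi) Complex.I_ne_zero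
  have h2 : ∀ t : ℝ, Complex.exp (2 * Real.pi * t * Complex.I) =
      Complex.exp ((2 * Real.pi * Complex.I) * t) := by
    intro t
    congr 1
    ring
  simp only [h2]
  rw [integral_exp_mul_complex hc]
  have e1 : (2 * Real.pi * Complex.I : ℂ) * ((m + l / 2 : ℝ) : ℂ) =
      2 * Real.pi * Complex.I * m + (Real.pi * l : ℝ) * Complex.I := by
    push_cast; ring
  have e2 : (2 * Real.pi * Complex.I : ℂ) * ((m - l / 2 : ℝ) : ℂ) =
      2 * Real.pi * Complex.I * m + (-(Real.pi * l : ℝ)) * Complex.I := by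
    push_cast; ring
  rw [e1, e2, Complex.exp_add, Complex.exp_add, ← mul_sub]
  have e3 : Complex.exp ((Real.pi * l : ℝ) * Complex.I) -
      Complex.exp ((-(Real.pi * l : ℝ)) * Complex.I) = 2 * Complex.I * (Real.sin (Real.pi * l) : ℝ) := by
    rw [Complex.exp_mul_I, Complex.exp_mul_I, Complex.cos_neg, Complex.sin_neg, Complex.ofReal_sin]
    ring
  rw [e3]
  rw [Complex.ofReal_div]
  field_simp

/-- the arc depends only on the midpoint mod 1 -/
theorem arc_congr {m m' l : ℝ} (h : Complex.exp (2 * Real.pi * m * Complex.I) =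
    Complex.exp (2 * Real.pi * m' * Complex.I)) : arc m l = arc m' l := by
  rw [Complex.exp_eq_exp_iff_exists_int] at h
  obtain ⟨n, hn⟩ := h
  have hpi : (Real.pi : ℂ) ≠ 0 := by exact_mod_cast Real.pi_ne_zero
  have hc : (2 * Real.pi * Complex.I : ℂ) ≠ 0 :=
    mul_ne_zero (mul_ne_zero two_ne_zero hpi) Complex.I_ne_zero
  have h2 : (m : ℂ) = m' + n := by
    apply mul_left_cancel₀ hc
    linear_combination hn
  have h3 : m = m' + n := by exact_mod_cast h2
  ext t
  show fold (t - m) < l ↔ fold (t - m') < l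
  have h4 := fold_add_int (t - m) n
  rw [← h4, h3, show t - (m' + n) + (n : ℝ) = t - m' by ring]

end
end Crest.Agent.T3
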