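import Crest.Agent.T3.RigDefs
/-! Row 214, rigidity (7a), chunk RIG-L2 (1D, easy). -/
set_option autoImplicit false
open MeasureTheory Set Filter Topology
namespace Crest.Agent.T3
noncomputable section

/-- variation of a periodic `C¹` function over one period -/
private theorem l2_var {f : ℝ → ℝ} (hf : ContDiff ℝ 1 f) (hp : f 1 = f 0) {a b : ℝ} (h0 : 0 ≤ a)
    (hab : a ≤ b) (hb : b ≤ 1) : 2 * |f a - f b| ≤ ∫ t in Ico (0 : ℝ) 1, |deriv f t| := by
  have hcd : Continuous (deriv f) := hf.continuous_deriv le_rfl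
  have hint : ∀ c d : ℝ, IntervalIntegrable (fun t => |deriv f t|) volume c d := fun c d =>
    hcd.abs.intervalIntegrable c d
  have key : ∀ c d : ℝ, c ≤ d → |f d - f c| ≤ ∫ t in c..d, |deriv f t| := by
    intro c d hcd'
    rw [← intervalIntegral.integral_deriv_eq_sub (f := f) (a := c) (b := d)
      (fun x _ => (hf.differentiable one_ne_zero) x) (hcd.intervalIntegrable c d)]
    exact intervalIntegral.abs_integral_le_integral_abs hcd'
  have h1 := key 0 a h0
  have h2 := key a b hab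
  have h3 := key b 1 hb
  rw [hp] at h3
  have hsum : (∫ t in (0:ℝ)..a, |deriv f t|) + (∫ t in a..b, |deriv f t|) +
      (∫ t in b..1, |deriv f t|) = ∫ t in Ico (0 : ℝ) 1, |deriv f t| := by
    rw [intervalIntegral.integral_add_adjacent_intervals (hint 0 a) (hint a b),
      intervalIntegral.integral_add_adjacent_intervals (hint 0 b) (hint b 1),
      intervalIntegral.integral_of_le zero_le_one, integral_Ico_eq_integral_Ioo,
      integral_Ioc_eq_integral_Ioo]
  rw [← hsum]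
  have h4 : |f a - f b| ≤ |f a - f 0| + |f 0 - f b| := abs_sub_le _ _ _
  have h5 : |f a - f b| = |f b - f a| := abs_sub_comm _ _
  linarith

/-- CHUNK RIG-L2. PROOF. Choose points `t₁ ∈ A`, `t₂ ∉ A` (mod 1) of the convergence set (both classes have positive measure
in `[0,1)`), `t₁ < t₂ < t₁ + 1`; by periodicity `∫_0^1 |g'| = ∫_{t₁}^{t₁+1} |g'| ≥ |g t₂ - g t₁| + |g (t₁+1) - g t₂| → 2`. -/
theorem lsc2 (g : ℕ → ℝ → ℝ) (hg : ∀ n, ContDiff ℝ 1 (g n)) (hp : ∀ n t, g n (t + 1) = g n t)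
    (A : Set ℝ) (hA : MeasurableSet A) (hAp : ∀ t, t + 1 ∈ A ↔ t ∈ A)
    (hlim : ∀ᵐ t, Tendsto (fun n => g n t) atTop (𝓝 (A.indicator (fun _ => (1 : ℝ)) t)))
    (h0 : 0 < (volume (A ∩ Ico 0 1)).toReal) (h1 : (volume (A ∩ Ico 0 1)).toReal < 1)
    (δ : ℝ) (hδ : 0 < δ) :
    ∀ᶠ n in atTop, 2 - δ ≤ ∫ t in Ico (0 : ℝ) 1, |deriv (g n) t| := by
  have hnull : volume {t | ¬ Tendsto (fun n => g n t) atTop
      (𝓝 (A.indicator (fun _ => (1 : ℝ)) t))} = 0 := hlim
  obtain ⟨s, ⟨hsA, hs⟩, hsl⟩ : ∃ s ∈ A ∩ Ico (0 : ℝ) 1, Tendsto (fun n => g n s) atTop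
      (𝓝 (A.indicator (fun _ => (1 : ℝ)) s)) := by
    by_contra hcon
    push Not at hcon
    have : volume (A ∩ Ico (0 : ℝ) 1) = 0 := measure_mono_null (fun t ht => hcon t ht) hnull
    rw [this] at h0
    simp at h0
  obtain ⟨r, ⟨hr, hrA⟩, hrl⟩ : ∃ r ∈ Ico (0 : ℝ) 1 \ A, Tendsto (fun n => g n r) atTop
      (𝓝 (A.indicator (fun _ => (1 : ℝ)) r)) := by
    by_contra hcon
    push Not at hcon
    have h2 : volume (Ico (0 : ℝ) 1 \ A) = 0 := measure_mono_null (fun t ht => hcon t ht) hnull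
    have h3 := measure_inter_add_diff (μ := volume) (Ico (0 : ℝ) 1) hA
    rw [h2, add_zero, inter_comm, Real.volume_Ico] at h3
    rw [h3] at h1
    simp at h1
  rw [indicator_of_mem hsA] at hsl
  rw [indicator_of_notMem hrA] at hrl
  have hlim2 : Tendsto (fun n => 2 * |g n s - g n r|) atTop (𝓝 2) := by
    have := ((hsl.sub hrl).abs).const_mul 2
    simpa using this
  have hev : ∀ᶠ n in atTop, 2 - δ < 2 * |g n s - g n r| :=
    hlim2.eventually (lt_mem_nhds (by linarith))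
  filter_upwards [hev] with n hn
  refine hn.le.trans ?_
  have hp1 : g n 1 = g n 0 := by
    have := hp n 0
    rwa [zero_add] at this
  rcases le_total s r with h | h
  · exact l2_var (hg n) hp1 hs.1 h hr.2.le
  · rw [abs_sub_comm]
    exact l2_var (hg n) hp1 hr.1 h hs.2.le

end
end Crest.Agent.T3
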