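import Crest.Agent.T3.RigDefs
/-! Row 214, rigidity (7a), chunk RIG-L4 (1D). -/
set_option autoImplicit false
open MeasureTheory Set Filter Topology
namespace Crest.Agent.T3
noncomputable section

theorem rigL4_per_int {S : Set ℝ} (h : ∀ t, t + 1 ∈ S ↔ t ∈ S) (t : ℝ) (k : ℤ) :
    t + k ∈ S ↔ t ∈ S := by
  have hp : Function.Periodic (fun t => t ∈ S) (1 : ℝ) := fun t => propext (h t)
  have := (hp.int_mul k) t
  simp only [mul_one] at this
  exact iff_of_eq this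

theorem rigL4_vol {A : Set ℝ} (hA : MeasurableSet A) (hAp : ∀ t, t + 1 ∈ A ↔ t ∈ A) (a : ℝ) :
    (volume (A ∩ Ico 0 1)).toReal = (volume (A ∩ Ioc a (a + 1))).toReal := by
  have hper : Function.Periodic (A.indicator (fun _ => (1 : ℝ))) 1 := by
    intro t
    by_cases h : t ∈ A
    · rw [indicator_of_mem h, indicator_of_mem ((hAp t).2 h)]
    · rw [indicator_of_notMem h, indicator_of_notMem (fun h' => h ((hAp t).1 h'))]
  have h := hper.intervalIntegral_add_eq 0 a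
  rw [intervalIntegral.integral_of_le (by linarith), intervalIntegral.integral_of_le (by linarith),
    zero_add] at h
  have e : ∀ s : Set ℝ, ∫ x in s, A.indicator (fun _ => (1 : ℝ)) x = (volume (A ∩ s)).toReal := by
    intro s
    rw [integral_indicator hA, Measure.restrict_restrict hA]
    simp [Measure.real]
  rw [e, e] at h
  rw [← h]
  congr 1
  apply measure_congr
  exact (ae_eq_refl A).inter Ico_ae_eq_Ioc

theorem rigL4_arc (m l t : ℝ) : t ∈ arc m l ↔ ∃ j : ℤ, |t - m - j| < l / 2 := by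
  unfold arc fold
  simp only [mem_ofPred_eq]
  constructor
  · intro h
    exact ⟨round (t - m), by linarith⟩
  · rintro ⟨j, hj⟩
    have := round_le (t - m) j
    linarith

theorem rigL4_claim (A C : Set ℝ) (hA : MeasurableSet A) (hAp : ∀ t, t + 1 ∈ A ↔ t ∈ A)
    (hC : ∀ᵐ t : ℝ, t ∈ C) (hCp : ∀ t, t + 1 ∈ C ↔ t ∈ C)
    (h0 : 0 < (volume (A ∩ Ico 0 1)).toReal) (h1 : (volume (A ∩ Ico 0 1)).toReal < 1)
    (hna : ¬ ∃ m : ℝ, A =ᵐ[volume] arc m (volume (A ∩ Ico 0 1)).toReal) :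
    ∃ t₁ t₂ t₃ t₄ : ℝ, t₁ < t₂ ∧ t₂ < t₃ ∧ t₃ < t₄ ∧ t₄ < t₁ + 1 ∧ (t₁ ∈ C ∧ t₁ ∈ A) ∧
      (t₂ ∈ C ∧ t₂ ∉ A) ∧ (t₃ ∈ C ∧ t₃ ∈ A) ∧ (t₄ ∈ C ∧ t₄ ∉ A) := by
  by_contra H
  have hex0 : ∃ t₀, t₀ ∈ C ∧ t₀ ∉ A := by
    by_contra hno
    push Not at hno
    have h2 : (A ∩ Ico (0 : ℝ) 1 : Set ℝ) =ᵐ[volume] Ico (0 : ℝ) 1 := by
      filter_upwards [hC] with t ht
      apply propext
      constructor
      · intro h; exact h.2
      · intro h; exact ⟨hno t ht, h⟩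
    rw [measure_congr h2] at h1
    simp at h1
  obtain ⟨t₀, ht₀C, ht₀A⟩ := hex0
  have ht1C : t₀ + 1 ∈ C := (hCp _).2 ht₀C
  have ht1A : t₀ + 1 ∉ A := fun h => ht₀A ((hAp _).1 h)
  have hnull : ∀ x : ℝ, ∀ᵐ t : ℝ, t ≠ x := fun x => by
    have : volume ({x} : Set ℝ) = 0 := measure_singleton x
    exact compl_mem_ae_iff.2 this
  set S : Set ℝ := {t | t ∈ A ∧ t ∈ C ∧ t₀ < t ∧ t < t₀ + 1} with hS
  have hv := rigL4_vol hA hAp t₀
  have hSne : S.Nonempty := by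
    by_contra hno
    rw [not_nonempty_iff_eq_empty] at hno
    have h2 : (A ∩ Ioc t₀ (t₀ + 1) : Set ℝ) =ᵐ[volume] (∅ : Set ℝ) := by
      filter_upwards [hC, hnull (t₀ + 1)] with t ht hne
      apply propext
      constructor
      · rintro ⟨ha, hb, hc⟩
        have : t ∈ S := ⟨ha, ht, hb, lt_of_le_of_ne hc hne⟩
        rw [hno] at this
        exact this
      · intro h; exact h.elim
    rw [hv, measure_congr h2] at h0
    simp at h0
  have hbb : BddBelow S := ⟨t₀, fun t ht => ht.2.2.1.le⟩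
  have hba : BddAbove S := ⟨t₀ + 1, fun t ht => ht.2.2.2.le⟩
  set α := sInf S with hα
  set β := sSup S with hβ
  have hα0 : t₀ ≤ α := le_csInf hSne fun t ht => ht.2.2.1.le
  have hβ1 : β ≤ t₀ + 1 := csSup_le hSne fun t ht => ht.2.2.2.le
  have hαβ : α ≤ β := by
    obtain ⟨t, ht⟩ := hSne
    exact (csInf_le hbb ht).trans (le_csSup hba ht)
  have hmid : ∀ t ∈ C, α < t → t < β → t ∈ A := by
    intro t ht h2 h3
    obtain ⟨t₁, ht₁, h4⟩ := exists_lt_of_csInf_lt hSne h2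
    obtain ⟨t₃, ht₃, h5⟩ := exists_lt_of_lt_csSup hSne h3
    by_contra hta
    exact H ⟨t₁, t, t₃, t₀ + 1, h4, h5, ht₃.2.2.2, by linarith [ht₁.2.2.1], ⟨ht₁.2.1, ht₁.1⟩,
      ⟨ht, hta⟩, ⟨ht₃.2.1, ht₃.1⟩, ⟨ht1C, ht1A⟩⟩
  have hout : ∀ t ∈ C, t₀ < t → t < t₀ + 1 → t ∈ A → α ≤ t ∧ t ≤ β := by
    intro t ht h2 h3 h4
    have : t ∈ S := ⟨h4, ht, h2, h3⟩
    exact ⟨csInf_le hbb this, le_csSup hba this⟩
  have hae : (A ∩ Ioc t₀ (t₀ + 1) : Set ℝ) =ᵐ[volume] Ioo α β := by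
    filter_upwards [hC, hnull α, hnull β, hnull (t₀ + 1)] with t ht n1 n2 n3
    apply propext
    constructor
    · rintro ⟨ha, hb, hc⟩
      obtain ⟨h4, h5⟩ := hout t ht hb (lt_of_le_of_ne hc n3) ha
      exact ⟨lt_of_le_of_ne h4 (Ne.symm n1), lt_of_le_of_ne h5 n2⟩
    · rintro ⟨ha, hb⟩
      exact ⟨hmid t ht ha hb, lt_of_le_of_lt hα0 ha, (hb.trans_le hβ1).le⟩
  have hl : (volume (A ∩ Ico 0 1)).toReal = β - α := by
    rw [hv, measure_congr hae, Real.volume_Ioo, ENNReal.toReal_ofReal (by linarith)]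
  apply hna
  refine ⟨(α + β) / 2, ?_⟩
  rw [hl]
  set Z : Set ℝ := (range fun k : ℤ => t₀ + (k : ℝ)) ∪ (range fun k : ℤ => α + (k : ℝ)) ∪
    (range fun k : ℤ => β + (k : ℝ)) with hZ
  have hZc : Z.Countable := ((countable_range _).union (countable_range _)).union (countable_range _)
  filter_upwards [hC, hZc.ae_notMem volume] with t ht htZ
  apply propext
  set k : ℤ := ⌊t - t₀⌋ with hk
  have hk1 : (k : ℝ) ≤ t - t₀ := Int.floor_le _
  have hk2 : t - t₀ < k + 1 := Int.lt_floor_add_one _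
  have hs0 : t₀ < t - k := by
    refine lt_of_le_of_ne (by linarith) ?_
    intro h
    exact htZ (Or.inl (Or.inl ⟨k, by simp only; linarith⟩))
  have hs1 : t - k < t₀ + 1 := by linarith
  have hsC : t - k ∈ C := by
    have := (rigL4_per_int hCp (t - k) k)
    rw [sub_add_cancel] at this
    exact this.1 ht
  have hsA : t - k ∈ A ↔ t ∈ A := by
    have := (rigL4_per_int hAp (t - k) k)
    rw [sub_add_cancel] at this
    exact this.symm
  have hmain : t ∈ A ↔ (α < t - k ∧ t - k < β) := by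
    rw [← hsA]
    constructor
    · intro h
      obtain ⟨h4, h5⟩ := hout _ hsC hs0 hs1 h
      refine ⟨lt_of_le_of_ne h4 ?_, lt_of_le_of_ne h5 ?_⟩
      · intro h6
        exact htZ (Or.inl (Or.inr ⟨k, by simp only; linarith⟩))
      · intro h6
        exact htZ (Or.inr ⟨k, by simp only; linarith⟩)
    · rintro ⟨h4, h5⟩
      exact hmid _ hsC h4 h5
  show t ∈ A ↔ t ∈ arc ((α + β) / 2) (β - α)
  rw [hmain, rigL4_arc]
  constructor
  · rintro ⟨h4, h5⟩
    refine ⟨k, ?_⟩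
    rw [abs_lt]
    constructor <;> linarith
  · rintro ⟨j, hj⟩
    rw [abs_lt] at hj
    have h6 : α < t - j := by linarith [hj.1]
    have h7 : t - j < β := by linarith [hj.2]
    have h8 : (j : ℝ) - k < 1 := by linarith
    have h9 : (k : ℝ) - j < 1 := by linarith
    have h10 : j = k := by
      have a1 : j - k < 1 := by exact_mod_cast h8
      have a2 : k - j < 1 := by exact_mod_cast h9
      omega
    rw [h10] at h6 h7
    exact ⟨h6, h7⟩

theorem rigL4_int {g : ℝ → ℝ} (hg : ContDiff ℝ 1 g) (hp : ∀ t, g (t + 1) = g t) (a : ℝ) :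
    ∫ t in Ico (0 : ℝ) 1, |deriv g t| = ∫ t in a..(a + 1), |deriv g t| := by
  have hper : Function.Periodic (fun t => |deriv g t|) 1 := by
    intro t
    have h1 : deriv (fun x => g (x + 1)) t = deriv g (t + 1) := deriv_comp_add_const g 1 t
    have h2 : (fun x => g (x + 1)) = g := funext hp
    rw [h2] at h1
    simp only
    rw [← h1]
  have h := hper.intervalIntegral_add_eq 0 a
  rw [← h, zero_add, intervalIntegral.integral_of_le zero_le_one, integral_Ico_eq_integral_Ioc]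

theorem rigL4_step {g : ℝ → ℝ} (hg : ContDiff ℝ 1 g) {a b : ℝ} (hab : a ≤ b) :
    |g b - g a| ≤ ∫ t in a..b, |deriv g t| := by
  have hc : Continuous (deriv g) := hg.continuous_deriv le_rfl
  have h := intervalIntegral.integral_deriv_eq_sub (f := g) (a := a) (b := b)
    (fun x _ => hg.differentiable one_ne_zero x) (hc.intervalIntegrable a b)
  rw [← h]
  exact intervalIntegral.abs_integral_le_integral_abs hab

/-- CHUNK RIG-L4. PROOF. Let `C` be the (1-periodic, conull) set of `t` such that the convergence holds at all `t + n`, `n : ℤ`.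
Claim: there are `t₁ < t₂ < t₃ < t₄ < t₁ + 1` in `C`, `t₁, t₃ ∈ A`, `t₂, t₄ ∉ A`.  Otherwise take `t₀ ∈ C \ A`; for `t₁ < t₃` in
`A ∩ C ∩ (t₀, t₀+1)` all points of `C` between are in `A` (else `t₁, t₂, t₃, t₀+1`); so with `α = inf`, `β = sup` of
`A ∩ C ∩ (t₀, t₀+1)`, `A = (α, β)` a.e. on `(t₀, t₀+1)`, i.e. `A =ᵐ arc ((α+β)/2) (β-α)` and `β - α = |A|`.
Then `∫_0^1 |g'| ≥ |g t₂ - g t₁| + |g t₃ - g t₂| + |g t₄ - g t₃| + |g (t₁+1) - g t₄| → 4`. -/
theorem lsc4 (g : ℕ → ℝ → ℝ) (hg : ∀ n, ContDiff ℝ 1 (g n)) (hp : ∀ n t, g n (t + 1) = g n t)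
    (A : Set ℝ) (hA : MeasurableSet A) (hAp : ∀ t, t + 1 ∈ A ↔ t ∈ A)
    (hlim : ∀ᵐ t, Tendsto (fun n => g n t) atTop (𝓝 (A.indicator (fun _ => (1 : ℝ)) t)))
    (h0 : 0 < (volume (A ∩ Ico 0 1)).toReal) (h1 : (volume (A ∩ Ico 0 1)).toReal < 1)
    (hna : ¬ ∃ m : ℝ, A =ᵐ[volume] arc m (volume (A ∩ Ico 0 1)).toReal)
    (δ : ℝ) (hδ : 0 < δ) :
    ∀ᶠ n in atTop, 4 - δ ≤ ∫ t in Ico (0 : ℝ) 1, |deriv (g n) t| := by
  have hCp : ∀ t, t + 1 ∈ {t : ℝ | Tendsto (fun n => g n t) atTop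
      (𝓝 (A.indicator (fun _ => (1 : ℝ)) t))} ↔ t ∈ {t : ℝ | Tendsto (fun n => g n t) atTop
      (𝓝 (A.indicator (fun _ => (1 : ℝ)) t))} := by
    intro t
    have e1 : (fun n => g n (t + 1)) = fun n => g n t := funext fun n => hp n t
    have e2 : A.indicator (fun _ => (1 : ℝ)) (t + 1) = A.indicator (fun _ => (1 : ℝ)) t := by
      by_cases h : t ∈ A
      · rw [indicator_of_mem h, indicator_of_mem ((hAp t).2 h)]
      · rw [indicator_of_notMem h, indicator_of_notMem (fun h' => h ((hAp t).1 h'))]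
    simp only [mem_ofPred_eq, e1, e2]
  obtain ⟨t₁, t₂, t₃, t₄, h12, h23, h34, h41, ⟨c1, a1⟩, ⟨c2, a2⟩, ⟨c3, a3⟩, ⟨c4, a4⟩⟩ :=
    rigL4_claim A _ hA hAp hlim hCp h0 h1 hna
  change Tendsto (fun n => g n t₁) atTop (𝓝 (A.indicator (fun _ => (1 : ℝ)) t₁)) at c1
  change Tendsto (fun n => g n t₂) atTop (𝓝 (A.indicator (fun _ => (1 : ℝ)) t₂)) at c2
  change Tendsto (fun n => g n t₃) atTop (𝓝 (A.indicator (fun _ => (1 : ℝ)) t₃)) at c3
  change Tendsto (fun n => g n t₄) atTop (𝓝 (A.indicator (fun _ => (1 : ℝ)) t₄)) at c4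
  rw [indicator_of_mem a1] at c1
  rw [indicator_of_notMem a2] at c2
  rw [indicator_of_mem a3] at c3
  rw [indicator_of_notMem a4] at c4
  have hd : (0 : ℝ) < δ / 8 := by positivity
  filter_upwards [Metric.tendsto_nhds.1 c1 _ hd, Metric.tendsto_nhds.1 c2 _ hd,
    Metric.tendsto_nhds.1 c3 _ hd, Metric.tendsto_nhds.1 c4 _ hd] with n e1 e2 e3 e4
  rw [Real.dist_eq, abs_lt] at e1 e2 e3 e4
  rw [rigL4_int (hg n) (hp n) t₁]
  have hc : Continuous fun t => |deriv (g n) t| := ((hg n).continuous_deriv le_rfl).abs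
  have hi : ∀ a b, IntervalIntegrable (fun t => |deriv (g n) t|) volume a b :=
    fun a b => hc.intervalIntegrable a b
  have s1 := rigL4_step (hg n) h12.le
  have s2 := rigL4_step (hg n) h23.le
  have s3 := rigL4_step (hg n) h34.le
  have s4 := rigL4_step (hg n) h41.le
  rw [hp n t₁] at s4
  have i1 := intervalIntegral.integral_add_adjacent_intervals (hi t₁ t₂) (hi t₂ t₃)
  have i2 := intervalIntegral.integral_add_adjacent_intervals (hi t₁ t₃) (hi t₃ t₄)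
  have i3 := intervalIntegral.integral_add_adjacent_intervals (hi t₁ t₄) (hi t₄ (t₁ + 1))
  have b1 := neg_le_abs (g n t₂ - g n t₁)
  have b2 := le_abs_self (g n t₃ - g n t₂)
  have b3 := neg_le_abs (g n t₄ - g n t₃)
  have b4 := le_abs_self (g n t₁ - g n t₄)
  linarith [e1.1, e1.2, e2.1, e2.2, e3.1, e3.2, e4.1, e4.2]

end
end Crest.Agent.T3
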