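import Crest.Agent.T3.RigFub
import Crest.Agent.T3.RigArc
/-! Row 214, rigidity (7a), chunk RIG-U: the function `U = e^{2πim}`. -/
set_option autoImplicit false
open MeasureTheory Set Filter Topology
open Crest.GeometryTopology.PeriodicPerimeter
namespace Crest.Agent.T3
noncomputable section

/-- `U y = e^{2πi m}` where `m` is the midpoint of the line of `F` over `y` -/
def UU (k : Fin 3) (F : Set E3) (L : E2 → ℝ) (y : E2) : ℂ :=
  ((Real.pi / Real.sin (Real.pi * L y) : ℝ) : ℂ) *
    ∫ t in lineE k F y ∩ Ico (0 : ℝ) 1, Complex.exp (2 * Real.pi * t * Complex.I)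

theorem rigU_cont : Continuous (fun t : ℝ => Complex.exp (2 * Real.pi * t * Complex.I)) := by
  fun_prop

/-- CHUNK RIG-U -/
theorem UU_meas (k : Fin 3) (F : Set E3) (hF : MeasurableSet F) (L : E2 → ℝ) (hL : Continuous L) :
    Measurable (UU k F L) := by
  unfold UU
  refine Measurable.mul ?_ ?_
  · have h1 : Measurable (fun y : E2 => Real.pi / Real.sin (Real.pi * L y)) := by
      have h2 : Measurable L := hL.measurable
      fun_prop
    exact Complex.measurable_ofReal.comp h1
  · set f : E2 × ℝ → ℂ := {p : E2 × ℝ | ins k p.2 p.1 ∈ F}.indicator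
      (fun p => Complex.exp (2 * Real.pi * p.2 * Complex.I)) with hf
    have hm : MeasurableSet {p : E2 × ℝ | ins k p.2 p.1 ∈ F} := by
      have h1 : Measurable (fun p : E2 × ℝ => ins k p.2 p.1) :=
        ((ins_continuous k).comp (continuous_snd.prodMk continuous_fst)).measurable
      exact h1 hF
    have hfm : StronglyMeasurable f :=
      ((rigU_cont.comp continuous_snd).stronglyMeasurable).indicator hm
    have h2 : StronglyMeasurable (fun y : E2 => ∫ t, f (y, t) ∂(volume.restrict (Ico (0 : ℝ) 1))) :=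
      hfm.integral_prod_right'
    have h3 : (fun y : E2 => ∫ t in lineE k F y ∩ Ico (0 : ℝ) 1,
        Complex.exp (2 * Real.pi * t * Complex.I)) =
        fun y : E2 => ∫ t, f (y, t) ∂(volume.restrict (Ico (0 : ℝ) 1)) := by
      funext y
      have hml : MeasurableSet (lineE k F y) := rigFub_meas_ins k y hF
      have h4 : (fun t => f (y, t)) = (lineE k F y).indicator
          (fun t : ℝ => Complex.exp (2 * Real.pi * t * Complex.I)) := by
        funext t
        by_cases ht : ins k t y ∈ F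
        · rw [hf, indicator_of_mem (show (y, t) ∈ {p : E2 × ℝ | ins k p.2 p.1 ∈ F} from ht),
            indicator_of_mem (show t ∈ lineE k F y from ht)]
        · rw [hf, indicator_of_notMem (show (y, t) ∉ {p : E2 × ℝ | ins k p.2 p.1 ∈ F} from ht),
            indicator_of_notMem (show t ∉ lineE k F y from ht)]
      rw [h4, setIntegral_indicator hml, inter_comm]
    rw [h3]
    exact h2.measurable

theorem rigU_ins_add (k : Fin 3) (t : ℝ) (y v : E2) : ins k t (y + v) = ins k t y + ins k 0 v := by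
  ext i
  refine Fin.succAboveCases k ?_ ?_ i
  · simp [ins_apply_self]
  · intro j
    simp [ins_apply_succAbove]

theorem rigU_line_per (k : Fin 3) (F : Set E3) (hFp : IsLatticePeriodic F) (y v : E2)
    (hv : HasIntegerCoords v) : lineE k F (y + v) = lineE k F y := by
  ext t
  show ins k t (y + v) ∈ F ↔ ins k t y ∈ F
  rw [rigU_ins_add]
  refine hFp _ ?_ _
  intro i
  refine Fin.succAboveCases k ?_ ?_ i
  · exact ⟨0, by simp [ins_apply_self]⟩
  · intro j
    obtain ⟨m, hm⟩ := hv j
    exact ⟨m, by rw [ins_apply_succAbove, hm]⟩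

theorem UU_per (k : Fin 3) (F : Set E3) (hFp : IsLatticePeriodic F) (L : E2 → ℝ) (hL : Per L) :
    Per (UU k F L) := by
  intro v hv y
  unfold UU
  rw [hL v hv y, rigU_line_per k F hFp y v hv]

theorem rigU_sin_ne {l : ℝ} (h0 : 0 < l) (h1 : l < 1) : Real.sin (Real.pi * l) ≠ 0 := by
  have hpi := Real.pi_pos
  have h : 0 < Real.sin (Real.pi * l) :=
    Real.sin_pos_of_pos_of_lt_pi (by positivity) (by nlinarith)
  exact h.ne'

theorem rigU_int (k : Fin 3) (F : Set E3) (L : E2 → ℝ) (y : E2) (hy : y ∈ GG L) (m : ℝ)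
    (h : lineE k F y =ᵐ[volume] arc m (L y)) :
    ∫ t in lineE k F y ∩ Ico (0 : ℝ) 1, Complex.exp (2 * Real.pi * t * Complex.I) =
      (Real.sin (Real.pi * L y) / Real.pi : ℝ) * Complex.exp (2 * Real.pi * m * Complex.I) := by
  have h1 : (lineE k F y ∩ Ico (0 : ℝ) 1 : Set ℝ) =ᵐ[volume] (arc m (L y) ∩ Ico (0 : ℝ) 1 : Set ℝ) :=
    h.inter (ae_eq_refl _)
  rw [setIntegral_congr_set h1, integral_arc m (L y) hy.1 hy.2]

/-- from `integral_arc` -/
theorem UU_eq (k : Fin 3) (F : Set E3) (L : E2 → ℝ) (y : E2) (hy : y ∈ GG L) (m : ℝ)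
    (h : lineE k F y =ᵐ[volume] arc m (L y)) :
    UU k F L y = Complex.exp (2 * Real.pi * m * Complex.I) := by
  unfold UU
  rw [rigU_int k F L y hy m h, ← mul_assoc, ← Complex.ofReal_mul]
  have h2 : Real.pi / Real.sin (Real.pi * L y) * (Real.sin (Real.pi * L y) / Real.pi) = 1 := by
    have h3 := rigU_sin_ne hy.1 hy.2
    have h4 := Real.pi_ne_zero
    field_simp
  rw [h2, Complex.ofReal_one, one_mul]

theorem UU_line (k : Fin 3) (F : Set E3) (L : E2 → ℝ) (y : E2) (hy : y ∈ GG L)
    (h : ∃ m : ℝ, lineE k F y =ᵐ[volume] arc m (L y)) (m : ℝ)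
    (hm : UU k F L y = Complex.exp (2 * Real.pi * m * Complex.I)) :
    lineE k F y =ᵐ[volume] arc m (L y) := by
  obtain ⟨m0, h0⟩ := h
  have h1 := UU_eq k F L y hy m0 h0
  rw [hm] at h1
  rw [arc_congr h1]
  exact h0

/-- integral of a trigonometric function over a line -/
theorem UU_int (k : Fin 3) (F : Set E3) (L : E2 → ℝ) (y : E2) (hy : y ∈ GG L)
    (h : ∃ m : ℝ, lineE k F y =ᵐ[volume] arc m (L y)) (κ : ℂ) :
    ∫ t in lineE k F y ∩ Ico (0 : ℝ) 1, (κ * Complex.exp (2 * Real.pi * t * Complex.I)).re =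
      (κ * (((Real.sin (Real.pi * L y) / Real.pi : ℝ) : ℂ) * UU k F L y)).re := by
  obtain ⟨m, h0⟩ := h
  rw [UU_eq k F L y hy m h0, ← rigU_int k F L y hy m h0]
  have hc : Continuous (fun t : ℝ => κ * Complex.exp (2 * Real.pi * t * Complex.I)) :=
    continuous_const.mul rigU_cont
  have hi : IntegrableOn (fun t : ℝ => κ * Complex.exp (2 * Real.pi * t * Complex.I))
      (lineE k F y ∩ Ico (0 : ℝ) 1) :=
    (hc.integrableOn_Icc (a := 0) (b := 1)).mono_set
      (fun t ht => Ico_subset_Icc_self ht.2)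
  have h1 := Complex.reCLM.integral_comp_comm hi
  have h2 : ∫ t in lineE k F y ∩ Ico (0 : ℝ) 1, κ * Complex.exp (2 * Real.pi * t * Complex.I) =
      κ * ∫ t in lineE k F y ∩ Ico (0 : ℝ) 1, Complex.exp (2 * Real.pi * t * Complex.I) :=
    integral_const_mul κ _
  rw [← h2]
  exact h1

end
end Crest.Agent.T3
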