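import Crest.Agent.T3.RigLim
import Crest.Agent.T3.RigL2
import Crest.Agent.T3.RigL4
import Crest.Agent.T3.RigArc
import Crest.Agent.T3.RigU
/-! Row 214, rigidity (7a), chunk RIG-ALL: equality forces a.e. line to be an arc. -/
set_option autoImplicit false
open MeasureTheory Set Filter Topology
open Crest.GeometryTopology.PeriodicPerimeter
namespace Crest.Agent.T3
noncomputable section

/-- for a.e. `y` the functions `t ↦ f n (ins k t y)` converge a.e. to the indicator of the line -/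
theorem ae_line_conv (k : Fin 3) (F : Set E3) (c : ℝ) (f : ℕ → E3 → ℝ) (hf : Approx F c f) :
    ∀ᵐ y : E2, ∀ᵐ t : ℝ, Tendsto (fun n => f n (ins k t y)) atTop
      (𝓝 ((lineE k F y).indicator (fun _ => (1 : ℝ)) t)) :=
  ae_line k hf.ae

/-- the removal map as a continuous linear map -/
def raRem (k : Fin 3) : E3 →L[ℝ] E2 :=
  (EuclideanSpace.equiv (Fin 2) ℝ).symm.toContinuousLinearMap.comp
    (ContinuousLinearMap.pi fun i => EuclideanSpace.proj (k.succAbove i))

theorem raRem_apply (k : Fin 3) (x : E3) : raRem k x = rem k x := by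
  ext i
  simp [raRem, rem]

theorem ra_rem_cont (k : Fin 3) : Continuous (fun x : E3 => rem k x) := by
  have : (fun x : E3 => rem k x) = raRem k := by
    funext x; exact (raRem_apply k x).symm
  rw [this]
  exact (raRem k).continuous

theorem ra_rem_contDiff (k : Fin 3) {m : WithTop ℕ∞} : ContDiff ℝ m (fun x : E3 => rem k x) := by
  have : (fun x : E3 => rem k x) = raRem k := by
    funext x; exact (raRem_apply k x).symm
  rw [this]
  exact (raRem k).contDiff

theorem ra_rem_single (k : Fin 3) (i : Fin 2) :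
    rem k (EuclideanSpace.single (k.succAbove i) (1 : ℝ)) = EuclideanSpace.single i (1 : ℝ) := by
  ext j
  by_cases hij : j = i
  · subst hij; simp [rem]
  · simp [rem, hij]

/-- integral of a field depending on `y` only -/
theorem integral_cyl (k : Fin 3) (F : Set E3) (hF : MeasurableSet F) (L : E2 → ℝ)
    (hll : ∀ᵐ y : E2, ll k F y = L y) (g : E2 → ℝ) (hg : Continuous g) (hgp : Per g) :
    ∫ x in F ∩ unitCell 3, g (rem k x) = ∫ y in unitCell 2, L y * g y := by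
  rw [integral_cell_set k F hF (fun x => g (rem k x))
    (cont_integrableOn_cell _ (hg.comp (ra_rem_cont k)))]
  refine integral_congr_ae (ae_restrict_of_ae ?_)
  filter_upwards [hll] with y hy
  simp only [rem_ins]
  rw [setIntegral_const, ← hy]
  rfl

/-- `dd` of a function of `rem k x` -/
theorem dd_cyl (k : Fin 3) (i : Fin 2) (φ : E2 → ℝ) (hφ : ContDiff ℝ 1 φ) (x : E3) :
    dd (k.succAbove i) (fun z => φ (rem k z)) x = dd i φ (rem k x) := by
  unfold dd
  have h1 : (fun z : E3 => φ (rem k z)) = φ ∘ (raRem k) := by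
    funext z; simp [raRem_apply]
  have h2 : HasFDerivAt φ (fderiv ℝ φ (raRem k x)) (raRem k x) :=
    ((hφ.differentiable (by norm_num)).differentiableAt).hasFDerivAt
  rw [h1, (h2.comp x (raRem k).hasFDerivAt).fderiv]
  simp [raRem_apply, ra_rem_single]


/-! ### Variations of the lines -/

/-- variation of the `n`-th function on the line over `y` -/
def raA (k : Fin 3) (f : ℕ → E3 → ℝ) (n : ℕ) (y : E2) : ℝ :=
  ∫ t in Ico (0 : ℝ) 1, |deriv (fun s => f n (ins k s y)) t|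

/-- lower limit of the (truncated) variations -/
def raT (k : Fin 3) (f : ℕ → E3 → ℝ) (y : E2) : ℝ := liminf (fun n => min 4 (raA k f n y)) atTop

theorem raA_nonneg (k : Fin 3) (f : ℕ → E3 → ℝ) (n : ℕ) (y : E2) : 0 ≤ raA k f n y :=
  integral_nonneg fun _ => abs_nonneg _

theorem raA_meas (k : Fin 3) (f : ℕ → E3 → ℝ) (n : ℕ) (hf : ContDiff ℝ 1 (f n)) :
    Measurable (raA k f n) := by
  have h1 : raA k f n = fun y => ∫ t in Ico (0 : ℝ) 1, |dd k (f n) (ins k t y)| := by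
    funext y
    unfold raA
    simp only [deriv_ins k (f n) hf]
  rw [h1]
  have h2 : Continuous (fun p : E2 × ℝ => |dd k (f n) (ins k p.2 p.1)|) :=
    ((rl_dd_cont k (f n) hf).comp
      ((ins_continuous k).comp (continuous_snd.prodMk continuous_fst))).abs
  have h3 : StronglyMeasurable (fun y : E2 => ∫ t, (fun p : E2 × ℝ => |dd k (f n) (ins k p.2 p.1)|)
      (y, t) ∂(volume.restrict (Ico (0 : ℝ) 1))) := h2.stronglyMeasurable.integral_prod_right'
  exact h3.measurable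

theorem raT_meas (k : Fin 3) (f : ℕ → E3 → ℝ) (hf : ∀ n, ContDiff ℝ 1 (f n)) :
    Measurable (raT k f) :=
  Measurable.liminf fun n => measurable_const.min (raA_meas k f n (hf n))

theorem ra_bdd (k : Fin 3) (f : ℕ → E3 → ℝ) (y : E2) :
    atTop.IsBoundedUnder (· ≥ ·) (fun n => min 4 (raA k f n y)) :=
  isBoundedUnder_of ⟨0, fun n => le_min (by norm_num) (raA_nonneg k f n y)⟩

theorem ra_cobdd (k : Fin 3) (f : ℕ → E3 → ℝ) (y : E2) :
    atTop.IsCoboundedUnder (· ≥ ·) (fun n => min 4 (raA k f n y)) :=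
  IsBoundedUnder.isCoboundedUnder_ge (isBoundedUnder_of ⟨4, fun _ => min_le_left _ _⟩)

theorem raT_nonneg (k : Fin 3) (f : ℕ → E3 → ℝ) (y : E2) : 0 ≤ raT k f y :=
  le_liminf_of_le (ra_cobdd k f y)
    (Eventually.of_forall fun n => le_min (by norm_num) (raA_nonneg k f n y))

theorem raT_le (k : Fin 3) (f : ℕ → E3 → ℝ) (y : E2) : raT k f y ≤ 4 := by
  refine liminf_le_of_le (ra_bdd k f y) fun b hb => ?_
  obtain ⟨n, hn⟩ := hb.exists
  exact hn.trans (min_le_left _ _)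

theorem raT_ev (k : Fin 3) (f : ℕ → E3 → ℝ) (y : E2) (δ : ℝ) (hδ : 0 < δ) :
    ∀ᶠ n in atTop, raT k f y - δ ≤ raA k f n y := by
  have h1 : raT k f y - δ < raT k f y := by linarith
  filter_upwards [eventually_lt_of_lt_liminf h1 (ra_bdd k f y)] with n hn
  exact hn.le.trans (min_le_right _ _)

theorem raT_ge (k : Fin 3) (f : ℕ → E3 → ℝ) (y : E2) (r : ℝ) (hr : r ≤ 4)
    (h : ∀ δ : ℝ, 0 < δ → ∀ᶠ n in atTop, r - δ ≤ raA k f n y) : r ≤ raT k f y := by
  refine le_of_forall_pos_sub_le fun δ hδ => ?_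
  refine le_liminf_of_le (ra_cobdd k f y) ?_
  filter_upwards [h δ hδ] with n hn
  exact le_min (by linarith) hn

theorem ra_line_meas (k : Fin 3) (F : Set E3) (hF : MeasurableSet F) (y : E2) :
    MeasurableSet (lineE k F y) := rigFub_meas_ins k y hF

theorem ra_line_add_one (k : Fin 3) (F : Set E3) (hFp : IsLatticePeriodic F) (y : E2) (t : ℝ) :
    t + 1 ∈ lineE k F y ↔ t ∈ lineE k F y := by
  have h1 : ins k (t + 1) y = ins k t y + EuclideanSpace.single k (1 : ℝ) := by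
    ext j
    refine Fin.succAboveCases k ?_ ?_ j
    · simp [ins_apply_self]
    · intro j; simp [ins_apply_succAbove, Fin.succAbove_ne]
  show ins k (t + 1) y ∈ F ↔ ins k t y ∈ F
  rw [h1]
  refine hFp _ ?_ _
  intro i
  by_cases hi : i = k
  · subst hi; exact ⟨1, by simp⟩
  · exact ⟨0, by simp [hi]⟩

theorem ra_f_add_one (k : Fin 3) (F : Set E3) (c : ℝ) (f : ℕ → E3 → ℝ) (hf : Approx F c f)
    (n : ℕ) (y : E2) (t : ℝ) : f n (ins k (t + 1) y) = f n (ins k t y) := by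
  have h1 : ins k (t + 1) y = ins k t y + EuclideanSpace.single k (1 : ℝ) := by
    ext j
    refine Fin.succAboveCases k ?_ ?_ j
    · simp [ins_apply_self]
    · intro j; simp [ins_apply_succAbove, Fin.succAbove_ne]
  rw [h1]
  refine hf.per n _ ?_ _
  intro i
  by_cases hi : i = k
  · subst hi; exact ⟨1, by simp⟩
  · exact ⟨0, by simp [hi]⟩

theorem ra_f_contDiff (k : Fin 3) (f : E3 → ℝ) (hf : ContDiff ℝ 1 f) (y : E2) :
    ContDiff ℝ 1 (fun t : ℝ => f (ins k t y)) :=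
  hf.comp ((ins_contDiff k).comp (contDiff_id.prodMk contDiff_const))

theorem ra_two_le (k : Fin 3) {L : E2 → ℝ} (F : Set E3) (hF : MeasurableSet F)
    (hFp : IsLatticePeriodic F) (hll : ∀ᵐ y : E2, ll k F y = L y) {c : ℝ} (f : ℕ → E3 → ℝ)
    (hf : Approx F c f) : ∀ᵐ y : E2, y ∈ GG L → 2 ≤ raT k f y := by
  filter_upwards [ae_line_conv k F c f hf, hll] with y hy hl hG
  refine raT_ge k f y 2 (by norm_num) fun δ hδ => ?_
  refine lsc2 (fun n t => f n (ins k t y))
    (fun n => ra_f_contDiff k (f n) ((hf.smooth n).of_le (by norm_num)) y)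
    (fun n t => ra_f_add_one k F c f hf n y t) (lineE k F y) (ra_line_meas k F hF y)
    (ra_line_add_one k F hFp y) hy ?_ ?_ δ hδ
  · show 0 < ll k F y
    rw [hl]; exact hG.1
  · show ll k F y < 1
    rw [hl]; exact hG.2

theorem ra_four_le (k : Fin 3) {L : E2 → ℝ} (F : Set E3) (hF : MeasurableSet F)
    (hFp : IsLatticePeriodic F) (hll : ∀ᵐ y : E2, ll k F y = L y) {c : ℝ} (f : ℕ → E3 → ℝ)
    (hf : Approx F c f) : ∀ᵐ y : E2, y ∈ GG L →
      (¬ ∃ m : ℝ, lineE k F y =ᵐ[volume] arc m (L y)) → 4 ≤ raT k f y := by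
  filter_upwards [ae_line_conv k F c f hf, hll] with y hy hl hG hna
  refine raT_ge k f y 4 le_rfl fun δ hδ => ?_
  refine lsc4 (fun n t => f n (ins k t y))
    (fun n => ra_f_contDiff k (f n) ((hf.smooth n).of_le (by norm_num)) y)
    (fun n t => ra_f_add_one k F c f hf n y t) (lineE k F y) (ra_line_meas k F hF y)
    (ra_line_add_one k F hFp y) hy ?_ ?_ ?_ δ hδ
  · show 0 < ll k F y
    rw [hl]; exact hG.1
  · show ll k F y < 1
    rw [hl]; exact hG.2
  · show ¬ ∃ m : ℝ, lineE k F y =ᵐ[volume] arc m (ll k F y)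
    rw [hl]; exact hna

theorem ra_rem_add (k : Fin 3) (x v : E3) : rem k (x + v) = rem k x + rem k v := by
  ext i; simp [rem]

theorem ra_rem_int (k : Fin 3) (v : E3) (hv : HasIntegerCoords v) : HasIntegerCoords (rem k v) :=
  fun i => hv (k.succAbove i)

theorem ra_dd_per (i : Fin 2) (φ : E2 → ℝ) (hp : Per φ) : Per (dd i φ) := by
  intro v hv x
  have h1 : fderiv ℝ φ (x + v) = fderiv ℝ φ x := by
    have h2 : (fun y => φ (y + v)) = φ := funext (hp v hv)
    have h3 := fderiv_comp_add_right (𝕜 := ℝ) (f := φ) (x := x) v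
    rw [h2] at h3
    exact h3.symm
  unfold dd
  rw [h1]

theorem ra_dd_cont (i : Fin 2) (φ : E2 → ℝ) (hφ : ContDiff ℝ 1 φ) : Continuous (dd i φ) := by
  unfold dd
  exact (hφ.continuous_fderiv (by norm_num)).clm_apply continuous_const

/-- the limit inequality for fields depending on `y` only -/
theorem ra_limit (k : Fin 3) {L : E2 → ℝ} (F : Set E3) (hF : MeasurableSet F)
    (hll : ∀ᵐ y : E2, ll k F y = L y) {c : ℝ} (f : ℕ → E3 → ℝ) (hf : Approx F c f)
    (φ : Fin 2 → E2 → ℝ) (hφ : ∀ i, ContDiff ℝ 1 (φ i)) (hφp : ∀ i, Per (φ i))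
    (hφ1 : ∀ y, φ 0 y ^ 2 + φ 1 y ^ 2 ≤ 1) :
    (∫ y in unitCell 2, L y * (dd 0 (φ 0) y + dd 1 (φ 1) y)) +
      ∫ y in unitCell 2, Real.sqrt (1 - φ 0 y ^ 2 - φ 1 y ^ 2) * raT k f y ≤ c := by
  have hf1 : ∀ n, ContDiff ℝ 1 (f n) := fun n => (hf.smooth n).of_le (by norm_num)
  have hs1 : ∀ y, Real.sqrt (1 - φ 0 y ^ 2 - φ 1 y ^ 2) ≤ 1 := by
    intro y
    rw [Real.sqrt_le_one]
    nlinarith [sq_nonneg (φ 0 y), sq_nonneg (φ 1 y)]
  have hsc : Continuous (fun y => Real.sqrt (1 - φ 0 y ^ 2 - φ 1 y ^ 2)) := by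
    have h1 : Continuous (φ 0) := (hφ 0).continuous
    have h2 : Continuous (φ 1) := (hφ 1).continuous
    exact Real.continuous_sqrt.comp ((continuous_const.sub (h1.pow 2)).sub (h2.pow 2))
  have key := limit_ineq k F hF c f hf (fun i x => φ i (rem k x))
    (fun i => (hφ i).comp (ra_rem_contDiff k))
    (fun i v hv x => by
      show φ i (rem k (x + v)) = φ i (rem k x)
      rw [ra_rem_add]; exact hφp i _ (ra_rem_int k v hv) _)
    (fun x => hφ1 (rem k x))
    (fun y => Real.sqrt (1 - φ 0 y ^ 2 - φ 1 y ^ 2) * raT k f y)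
    ((hsc.measurable.mul (raT_meas k f hf1)).aestronglyMeasurable)
    (fun y => mul_nonneg (Real.sqrt_nonneg _) (raT_nonneg k f y))
    ⟨4, fun y => by
      have h1 := raT_le k f y
      have h2 := raT_nonneg k f y
      calc Real.sqrt (1 - φ 0 y ^ 2 - φ 1 y ^ 2) * raT k f y ≤ 1 * raT k f y :=
            mul_le_mul_of_nonneg_right (hs1 y) h2
        _ ≤ 4 := by linarith⟩
    (Eventually.of_forall fun y δ hδ => by
      filter_upwards [raT_ev k f y δ hδ] with n hn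
      simp only [rem_ins]
      rw [integral_const_mul]
      have h3 : 0 ≤ Real.sqrt (1 - φ 0 y ^ 2 - φ 1 y ^ 2) := Real.sqrt_nonneg _
      have h4 := hs1 y
      have h5 : Real.sqrt (1 - φ 0 y ^ 2 - φ 1 y ^ 2) * (raT k f y - δ) ≤
          Real.sqrt (1 - φ 0 y ^ 2 - φ 1 y ^ 2) * raA k f n y := mul_le_mul_of_nonneg_left hn h3
      unfold raA at h5
      nlinarith)
  have h6 : (∫ x in F ∩ unitCell 3, (dd (k.succAbove 0) (fun x => φ 0 (rem k x)) x +
      dd (k.succAbove 1) (fun x => φ 1 (rem k x)) x)) =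
      ∫ y in unitCell 2, L y * (dd 0 (φ 0) y + dd 1 (φ 1) y) := by
    rw [← integral_cyl k F hF L hll (fun y => dd 0 (φ 0) y + dd 1 (φ 1) y)
      ((ra_dd_cont 0 _ (hφ 0)).add (ra_dd_cont 1 _ (hφ 1)))
      (fun v hv x => by
        show dd 0 (φ 0) (x + v) + dd 1 (φ 1) (x + v) = _
        rw [ra_dd_per 0 _ (hφp 0) v hv, ra_dd_per 1 _ (hφp 1) v hv])]
    refine integral_congr_ae (Eventually.of_forall fun x => ?_)
    show dd (k.succAbove 0) (fun x => φ 0 (rem k x)) x +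
      dd (k.succAbove 1) (fun x => φ 1 (rem k x)) x = dd 0 (φ 0) (rem k x) + dd 1 (φ 1) (rem k x)
    rw [dd_cyl k 0 _ (hφ 0), dd_cyl k 1 _ (hφ 1)]
  rw [← h6]
  exact key

theorem ra_GG_open {L : E2 → ℝ} (hL : Continuous L) : IsOpen (GG L) :=
  (isOpen_lt continuous_const hL).inter (isOpen_lt hL continuous_const)

theorem ra_bdd_int (g : E2 → ℝ) (hg : Measurable g) (M : ℝ) (hM : ∀ y, |g y| ≤ M) (s : Set E2)
    (hs : s ⊆ unitCell 2) : IntegrableOn g s := by
  have h1 : IntegrableOn g (unitCell 2) := by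
    have hfin : volume (unitCell 2) ≠ ⊤ := by rw [volume_unitCell]; simp
    exact Measure.integrableOn_of_bounded (M := M) hfin hg.aestronglyMeasurable
      (Eventually.of_forall fun y => by rw [Real.norm_eq_abs]; exact hM y)
  exact h1.mono_set hs

theorem ra_K_le (k : Fin 3) {L : E2 → ℝ} {c : ℝ} (hL : Prof L c) (F : Set E3) (hF : MeasurableSet F)
    (hFp : IsLatticePeriodic F) (hll : ∀ᵐ y : E2, ll k F y = L y) (f : ℕ → E3 → ℝ)
    (hf : Approx F c f) (K : Set E2) (hK : IsClosed K)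
    (hKp : ∀ v, HasIntegerCoords v → ∀ x, x + v ∈ K ↔ x ∈ K) (hKG : K ⊆ GG L)
    (δ : ℝ) (hδ : 0 < δ) :
    ∫ y in K ∩ unitCell 2, Real.sqrt (1 - ph0 L 0 y ^ 2 - ph0 L 1 y ^ 2) * (raT k f y - 2) ≤ δ := by
  obtain ⟨φ, hφ, hφp, hφ1, hφK, hcal⟩ := hL.cal K hK hKp hKG δ hδ
  have hf1 : ∀ n, ContDiff ℝ 1 (f n) := fun n => (hf.smooth n).of_le (by norm_num)
  have hlim := ra_limit k F hF hll f hf φ hφ hφp hφ1
  set S : E2 → ℝ := fun y => Real.sqrt (1 - φ 0 y ^ 2 - φ 1 y ^ 2) with hS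
  have hS1 : ∀ y, S y ≤ 1 := by
    intro y
    rw [hS]
    simp only
    rw [Real.sqrt_le_one]
    nlinarith [sq_nonneg (φ 0 y), sq_nonneg (φ 1 y)]
  have hS0 : ∀ y, 0 ≤ S y := fun y => Real.sqrt_nonneg _
  have hSc : Continuous S := by
    have h1 : Continuous (φ 0) := (hφ 0).continuous
    have h2 : Continuous (φ 1) := (hφ 1).continuous
    exact Real.continuous_sqrt.comp ((continuous_const.sub (h1.pow 2)).sub (h2.pow 2))
  have hTm : Measurable (raT k f) := raT_meas k f hf1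
  have hT0 := raT_nonneg k f
  have hT4 := raT_le k f
  have hG : MeasurableSet (GG L) := (ra_GG_open hL.cont).measurableSet
  have hC : MeasurableSet (unitCell 2) := measurableSet_unitCell 2
  have hGC : GG L ∩ unitCell 2 ⊆ unitCell 2 := inter_subset_right
  have iST : ∀ s : Set E2, s ⊆ unitCell 2 → IntegrableOn (fun y => S y * raT k f y) s :=
    ra_bdd_int _ (hSc.measurable.mul hTm) 4 (fun y => by
      rw [abs_of_nonneg (mul_nonneg (hS0 y) (hT0 y))]
      calc S y * raT k f y ≤ 1 * raT k f y := mul_le_mul_of_nonneg_right (hS1 y) (hT0 y)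
        _ ≤ 4 := by linarith [hT4 y])
  have iS : ∀ s : Set E2, s ⊆ unitCell 2 → IntegrableOn (fun y => 2 * S y) s :=
    ra_bdd_int _ (measurable_const.mul hSc.measurable) 2 (fun y => by
      rw [abs_of_nonneg (mul_nonneg (by norm_num) (hS0 y))]
      linarith [hS1 y])
  have iD : ∀ s : Set E2, s ⊆ unitCell 2 → IntegrableOn (fun y => S y * (raT k f y - 2)) s := by
    intro s hs
    have h1 : (fun y => S y * (raT k f y - 2)) = fun y => S y * raT k f y - 2 * S y := by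
      funext y; ring
    rw [h1]
    exact (iST s hs).sub (iS s hs)
  have e1 : ∫ y in GG L ∩ unitCell 2, S y * raT k f y ≤ ∫ y in unitCell 2, S y * raT k f y :=
    setIntegral_mono_set (iST _ subset_rfl)
      (Eventually.of_forall fun y => mul_nonneg (hS0 y) (hT0 y)) hGC.eventuallyLE
  have e2 : ∫ y in GG L ∩ unitCell 2, S y * (raT k f y - 2) =
      (∫ y in GG L ∩ unitCell 2, S y * raT k f y) - ∫ y in GG L ∩ unitCell 2, 2 * S y := by
    rw [← integral_sub (iST _ hGC) (iS _ hGC)]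
    refine integral_congr_ae (Eventually.of_forall fun y => ?_)
    show S y * (raT k f y - 2) = S y * raT k f y - 2 * S y
    ring
  have hKC : K ∩ unitCell 2 ⊆ GG L ∩ unitCell 2 := inter_subset_inter_left _ hKG
  have e3 : ∫ y in K ∩ unitCell 2, S y * (raT k f y - 2) ≤
      ∫ y in GG L ∩ unitCell 2, S y * (raT k f y - 2) := by
    refine setIntegral_mono_set (iD _ hGC) ?_ hKC.eventuallyLE
    rw [EventuallyLE, ae_restrict_iff' (hG.inter hC)]
    filter_upwards [ra_two_le k F hF hFp hll f hf] with y hy hyG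
    exact mul_nonneg (hS0 y) (by linarith [hy hyG.1])
  have e4 : ∫ y in K ∩ unitCell 2, Real.sqrt (1 - ph0 L 0 y ^ 2 - ph0 L 1 y ^ 2) *
      (raT k f y - 2) = ∫ y in K ∩ unitCell 2, S y * (raT k f y - 2) := by
    refine setIntegral_congr_fun (hK.measurableSet.inter hC) fun y hy => ?_
    show Real.sqrt (1 - ph0 L 0 y ^ 2 - ph0 L 1 y ^ 2) * (raT k f y - 2) =
      Real.sqrt (1 - φ 0 y ^ 2 - φ 1 y ^ 2) * (raT k f y - 2)
    rw [hφK y hy.1 0, hφK y hy.1 1]
  rw [e4]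
  have hcal' : c - δ ≤ (∫ y in unitCell 2, L y * (dd 0 (φ 0) y + dd 1 (φ 1) y)) +
        ∫ y in GG L ∩ unitCell 2, 2 * S y := hcal
  linarith

/-- `√(1-|ph0|²) > 0` -/
theorem ra_ph0_pos (L : E2 → ℝ) (y : E2) : 0 < Real.sqrt (1 - ph0 L 0 y ^ 2 - ph0 L 1 y ^ 2) := by
  apply Real.sqrt_pos.2
  unfold ph0
  rw [div_pow, div_pow, Real.sq_sqrt (by positivity)]
  have h : 0 < 4 + dd 0 L y ^ 2 + dd 1 L y ^ 2 := by positivity
  have h2 : 1 - (-dd 0 L y) ^ 2 / (4 + dd 0 L y ^ 2 + dd 1 L y ^ 2) -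
      (-dd 1 L y) ^ 2 / (4 + dd 0 L y ^ 2 + dd 1 L y ^ 2) = 4 / (4 + dd 0 L y ^ 2 + dd 1 L y ^ 2) := by
    field_simp
    ring
  rw [h2]
  positivity

theorem ra_K_two (k : Fin 3) {L : E2 → ℝ} {c : ℝ} (hL : Prof L c) (F : Set E3) (hF : MeasurableSet F)
    (hFp : IsLatticePeriodic F) (hll : ∀ᵐ y : E2, ll k F y = L y) (f : ℕ → E3 → ℝ)
    (hf : Approx F c f) (K : Set E2) (hK : IsClosed K)
    (hKp : ∀ v, HasIntegerCoords v → ∀ x, x + v ∈ K ↔ x ∈ K) (hKG : K ⊆ GG L) :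
    ∀ᵐ y : E2, y ∈ K ∩ unitCell 2 → raT k f y = 2 := by
  have hf1 : ∀ n, ContDiff ℝ 1 (f n) := fun n => (hf.smooth n).of_le (by norm_num)
  have hTm : Measurable (raT k f) := raT_meas k f hf1
  have hT0 := raT_nonneg k f
  have hT4 := raT_le k f
  have hG : MeasurableSet (GG L) := (ra_GG_open hL.cont).measurableSet
  have hC : MeasurableSet (unitCell 2) := measurableSet_unitCell 2
  have hdd : ∀ i : Fin 2, Measurable (dd i L) := fun i => measurable_fderiv_apply_const ℝ L _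
  have hph : ∀ i : Fin 2, Measurable (ph0 L i) := by
    intro i
    unfold ph0
    exact (hdd i).neg.div
      (((measurable_const.add ((hdd 0).pow_const 2)).add ((hdd 1).pow_const 2)).sqrt)
  set g : E2 → ℝ := fun y => Real.sqrt (1 - ph0 L 0 y ^ 2 - ph0 L 1 y ^ 2) * (raT k f y - 2) with hg
  have hgm : Measurable g :=
    (((measurable_const.sub ((hph 0).pow_const 2)).sub ((hph 1).pow_const 2)).sqrt).mul
      (hTm.sub measurable_const)
  have hgi : IntegrableOn g (K ∩ unitCell 2) := by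
    refine ra_bdd_int g hgm 2 (fun y => ?_) _ inter_subset_right
    have h1 : Real.sqrt (1 - ph0 L 0 y ^ 2 - ph0 L 1 y ^ 2) ≤ 1 := by
      rw [Real.sqrt_le_one]
      nlinarith [sq_nonneg (ph0 L 0 y), sq_nonneg (ph0 L 1 y)]
    have h2 : |raT k f y - 2| ≤ 2 := by
      rw [abs_le]
      constructor <;> linarith [hT0 y, hT4 y]
    rw [hg]
    simp only
    rw [abs_mul, abs_of_nonneg (Real.sqrt_nonneg _)]
    calc Real.sqrt (1 - ph0 L 0 y ^ 2 - ph0 L 1 y ^ 2) * |raT k f y - 2| ≤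
        1 * |raT k f y - 2| := mul_le_mul_of_nonneg_right h1 (abs_nonneg _)
      _ ≤ 2 := by linarith
  have hg0 : 0 ≤ᵐ[volume.restrict (K ∩ unitCell 2)] g := by
    rw [EventuallyLE, ae_restrict_iff' (hK.measurableSet.inter hC)]
    filter_upwards [ra_two_le k F hF hFp hll f hf] with y hy hyK
    exact mul_nonneg (Real.sqrt_nonneg _) (by linarith [hy (hKG hyK.1)])
  have hle : ∫ y in K ∩ unitCell 2, g y ≤ 0 :=
    le_of_forall_pos_le_add fun δ hδ => by
      rw [zero_add]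
      exact ra_K_le k hL F hF hFp hll f hf K hK hKp hKG δ hδ
  have hge : 0 ≤ ∫ y in K ∩ unitCell 2, g y := integral_nonneg_of_ae hg0
  have hz := (setIntegral_eq_zero_iff_of_nonneg_ae hg0 hgi).1 (le_antisymm hle hge)
  rw [EventuallyEq, ae_restrict_iff' (hK.measurableSet.inter hC)] at hz
  filter_upwards [hz] with y hy hyK
  have h1 := hy hyK
  have h2 : Real.sqrt (1 - ph0 L 0 y ^ 2 - ph0 L 1 y ^ 2) * (raT k f y - 2) = 0 := h1
  rcases mul_eq_zero.1 h2 with h3 | h3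
  · exact absurd h3 (ra_ph0_pos L y).ne'
  · linarith

/-- `raT = 2` a.e. on `GG L` (in the cell) -/
theorem ra_two (k : Fin 3) {L : E2 → ℝ} {c : ℝ} (hL : Prof L c) (F : Set E3) (hF : MeasurableSet F)
    (hFp : IsLatticePeriodic F) (hll : ∀ᵐ y : E2, ll k F y = L y) (f : ℕ → E3 → ℝ)
    (hf : Approx F c f) :
    ∀ᵐ y : E2, y ∈ GG L ∩ unitCell 2 → raT k f y = 2 := by
  have h1 : ∀ j : ℕ, ∀ᵐ y : E2, y ∈ {y | 1 / ((j : ℝ) + 1) ≤ L y ∧ L y ≤ 1 - 1 / ((j : ℝ) + 1)} ∩
      unitCell 2 → raT k f y = 2 := by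
    intro j
    have hj : (0 : ℝ) < 1 / ((j : ℝ) + 1) := by positivity
    refine ra_K_two k hL F hF hFp hll f hf _ ?_ ?_ ?_
    · exact (isClosed_le continuous_const hL.cont).inter (isClosed_le hL.cont continuous_const)
    · intro v hv x
      show (1 / ((j : ℝ) + 1) ≤ L (x + v) ∧ L (x + v) ≤ 1 - 1 / ((j : ℝ) + 1)) ↔ _
      rw [hL.per v hv x]
      rfl
    · rintro y ⟨h1, h2⟩
      exact ⟨lt_of_lt_of_le hj h1, by linarith⟩
  filter_upwards [ae_all_iff.2 h1] with y hy hyG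
  obtain ⟨⟨hy0, hy1⟩, hyC⟩ := hyG
  obtain ⟨j, hj⟩ := exists_nat_one_div_lt (lt_min hy0 (sub_pos.2 hy1))
  refine hy j ⟨⟨?_, ?_⟩, hyC⟩
  · exact (hj.trans_le (min_le_left _ _)).le
  · have := hj.trans_le (min_le_right _ _)
    linarith

/-- integer vectors -/
def raV (w : Fin 2 → ℤ) : E2 := WithLp.toLp 2 (fun i => (w i : ℝ))

theorem raV_int (w : Fin 2 → ℤ) : HasIntegerCoords (raV w) := fun i => ⟨w i, rfl⟩

/-- a periodic property that holds a.e. in the cell holds a.e. -/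
theorem ra_ae_of_cell (p : E2 → Prop) (hp : ∀ v, HasIntegerCoords v → ∀ x, p (x + v) ↔ p x)
    (h : ∀ᵐ y : E2, y ∈ unitCell 2 → p y) : ∀ᵐ y : E2, p y := by
  have h1 : ∀ w : Fin 2 → ℤ, ∀ᵐ y : E2, y + raV w ∈ unitCell 2 → p (y + raV w) := by
    intro w
    have hq := (measurePreserving_add_right (volume : Measure E2) (raV w)).quasiMeasurePreserving
    exact hq.ae h
  filter_upwards [ae_all_iff.2 h1] with y hy
  have h2 : y + raV (fun i => -⌊y i⌋) ∈ unitCell 2 := by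
    intro i
    have h3 : (y + raV (fun i => -⌊y i⌋)) i = Int.fract (y i) := by
      simp [raV, Int.fract, sub_eq_add_neg]
    rw [h3]
    exact ⟨Int.fract_nonneg _, Int.fract_lt_one _⟩
  exact (hp _ (raV_int _) y).1 (hy _ h2)

/-- CHUNK RIG-ALL. PROOF. Put `T y := liminf_n min 4 (∫_{[0,1)} |deriv (f n (ins k · y))|)` (measurable, `0 ≤ T ≤ 4`).  By `lsc2`
`2 ≤ T` a.e. on `GG L`; by `lsc4` `4 ≤ T` a.e. where the line is not an arc.  Let `K_j = {1/(j+1) ≤ L ≤ 1 - 1/(j+1)}` (closed,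
periodic, `⊆ GG L`), `δ > 0`, `φ` from `hL.cal`.  `limit_ineq` for the fields `φ i (rem k x)` and
`h = 1_{GG L} √(1-|φ|²) T` gives (with `integral_cyl`, `dd_cyl`) `∫ L div φ + ∫_{GG L} √(1-|φ|²) T ≤ c`, hence with `cal`
`∫_{GG L} √(1-|φ|²) (T - 2) ≤ δ`, so `∫_{K_j} √(1-|ph0|²) (T - 2) ≤ δ` for all `δ`, `√(1-|ph0|²) = 2/√(4+|∇L|²) > 0`:
`T = 2` a.e. on `K_j`, for all `j`, so a.e. on `GG L`. -/
theorem all_arc (k : Fin 3) {L : E2 → ℝ} {c : ℝ} (hL : Prof L c) (F : Set E3) (hF : MeasurableSet F)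
    (hFp : IsLatticePeriodic F) (hll : ∀ᵐ y : E2, ll k F y = L y) (f : ℕ → E3 → ℝ)
    (hf : Approx F c f) :
    ∀ᵐ y : E2, y ∈ GG L → ∃ m : ℝ, lineE k F y =ᵐ[volume] arc m (L y) := by
  refine ra_ae_of_cell (fun y => y ∈ GG L → ∃ m : ℝ, lineE k F y =ᵐ[volume] arc m (L y)) ?_ ?_
  · intro v hv x
    have h1 : L (x + v) = L x := hL.per v hv x
    have h2 : x + v ∈ GG L ↔ x ∈ GG L := by
      show (0 < L (x + v) ∧ L (x + v) < 1) ↔ (0 < L x ∧ L x < 1)
      rw [h1]
    rw [h1, h2, rigU_line_per k F hFp x v hv]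
  · filter_upwards [ra_two k hL F hF hFp hll f hf, ra_four_le k F hF hFp hll f hf] with y h2 h4 hyC hG
    by_contra hna
    have h5 := h4 hG hna
    have h6 := h2 ⟨hG, hyC⟩
    linarith

end
end Crest.Agent.T3
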