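import Crest.Agent.T3.RigBallB
/-! Row 214, rigidity (7a), chunk RIG-BALL. -/
set_option autoImplicit false
open MeasureTheory Set Filter Topology
open Crest.GeometryTopology.PeriodicPerimeter
namespace Crest.Agent.T3
noncomputable section

theorem pb_fold_sq (x : ℝ) : (fold x / 2) ^ 2 = sd x ^ 2 := by
  unfold fold sd
  rw [mul_div_cancel_left₀ _ (by norm_num : (2:ℝ) ≠ 0), sq_abs]

theorem pb_rr (y : E2) : rrB y = (fold (y 0) / 2) ^ 2 + (fold (y 1) / 2) ^ 2 := by
  rw [pb_fold_sq, pb_fold_sq]; rfl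

theorem pb_LB (r : ℝ) (y : E2) : LB r y = 2 * Real.sqrt (r ^ 2 - rrB y) := by
  unfold LB
  rw [pb_rr, sub_sub]

theorem pb_rr_nonneg (y : E2) : 0 ≤ rrB y := by unfold rrB; positivity

theorem pb_rr_cont : Continuous rrB := by
  have h : rrB = fun y : E2 => (fold (y 0) / 2) ^ 2 + (fold (y 1) / 2) ^ 2 := funext pb_rr
  rw [h]
  have h0 : Continuous (fun y : E2 => fold (y 0)) := fold_continuous.comp (by fun_prop)
  have h1 : Continuous (fun y : E2 => fold (y 1)) := fold_continuous.comp (by fun_prop)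
  exact ((h0.div_const 2).pow 2).add ((h1.div_const 2).pow 2)

theorem pb_sd_add_int (x : ℝ) (m : ℤ) : sd (x + m) = sd x := by
  unfold sd
  rw [round_add_intCast]
  push_cast
  ring

theorem pb_rr_per : Per rrB := by
  intro v hv x
  obtain ⟨m0, h0⟩ := hv 0
  obtain ⟨m1, h1⟩ := hv 1
  unfold rrB
  rw [PiLp.add_apply, PiLp.add_apply, h0, h1, pb_sd_add_int, pb_sd_add_int]

theorem pb_mem_GG (r : ℝ) (h0 : 0 < r) (h1 : r < 1 / 2) (y : E2) :
    y ∈ GG (LB r) ↔ rrB y < r ^ 2 := by
  constructor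
  · intro hy
    exact (LB_dd r h0 h1 y hy).1
  · intro hy
    refine ⟨?_, ?_⟩
    · rw [pb_LB]
      have : 0 < Real.sqrt (r ^ 2 - rrB y) := Real.sqrt_pos.2 (by linarith)
      linarith
    · rw [pb_LB]
      have : Real.sqrt (r ^ 2 - rrB y) ≤ r := by
        rw [Real.sqrt_le_left h0.le]
        linarith [pb_rr_nonneg y]
      linarith

theorem pb_sd_smooth (x : ℝ) (hx : |sd x| < 1 / 2) : ContDiffAt ℝ 1 sd x := by
  have h1 : sd =ᶠ[𝓝 x] fun z => z - (round x : ℝ) := by
    have h2 : ∀ᶠ z in 𝓝 x, |z - (round x : ℝ)| < 1 / 2 := by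
      have h3 : Continuous (fun z : ℝ => |z - (round x : ℝ)|) := by fun_prop
      exact (isOpen_lt h3 continuous_const).mem_nhds hx
    filter_upwards [h2] with z hz
    unfold sd
    have h4 : round z = round x := by
      rw [round_eq, Int.floor_eq_iff]
      rw [abs_lt] at hz
      constructor <;> linarith [hz.1, hz.2]
    rw [h4]
  exact ContDiffAt.congr_of_eventuallyEq (contDiff_id.sub contDiff_const).contDiffAt h1

theorem pb_rr_half (y : E2) (hy : rrB y < 1 / 4) (i : Fin 2) : |sd (y i)| < 1 / 2 := by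
  have h : sd (y i) ^ 2 < (1 / 2) ^ 2 := by
    unfold rrB at hy
    fin_cases i
    · simp only [Fin.zero_eta]; nlinarith [sq_nonneg (sd (y 1))]
    · simp only [Fin.mk_one]; nlinarith [sq_nonneg (sd (y 0))]
  rw [← Real.sqrt_lt_sqrt_iff (sq_nonneg _), Real.sqrt_sq_eq_abs, Real.sqrt_sq (by norm_num)] at h
  exact h

theorem pb_sdi_smooth (y : E2) (hy : rrB y < 1 / 4) (i : Fin 2) :
    ContDiffAt ℝ 1 (fun z : E2 => sd (z i)) y := by
  have h1 : ContDiffAt ℝ 1 (fun z : E2 => z i) y := (contDiff_euclidean.1 contDiff_id i).contDiffAt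
  exact (pb_sd_smooth (y i) (pb_rr_half y hy i)).comp y h1

theorem pb_rr_smooth (y : E2) (hy : rrB y < 1 / 4) : ContDiffAt ℝ 1 rrB y :=
  ((pb_sdi_smooth y hy 0).pow 2).add ((pb_sdi_smooth y hy 1).pow 2)

theorem pb_bound (K : Set E2) (hK : IsClosed K)
    (hp : ∀ v, HasIntegerCoords v → ∀ x, x + v ∈ K ↔ x ∈ K) (r : ℝ) (h0 : 0 < r)
    (h : ∀ y ∈ K, rrB y < r ^ 2) : ∃ q : ℝ, q < r ^ 2 ∧ 0 ≤ q ∧ ∀ y ∈ K, rrB y ≤ q := by
  set C : Set E2 := {y | ∀ i, y i ∈ Icc (0:ℝ) 1} with hC
  have hCc : IsClosed C := by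
    have : C = ⋂ i, {y : E2 | y i ∈ Icc (0:ℝ) 1} := by ext; simp [hC]
    rw [this]
    refine isClosed_iInter fun i => ?_
    have hc : Continuous (fun y : E2 => y i) := by fun_prop
    exact isClosed_Icc.preimage hc
  have hCb : Bornology.IsBounded C := by
    rw [Metric.isBounded_iff_subset_closedBall 0]
    refine ⟨Real.sqrt 2, fun x hx => ?_⟩
    rw [mem_closedBall_zero_iff, EuclideanSpace.norm_eq]
    apply Real.sqrt_le_sqrt
    calc ∑ i, ‖x i‖ ^ 2 ≤ ∑ _i : Fin 2, (1 : ℝ) := by
          refine Finset.sum_le_sum fun i _ => ?_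
          have := hx i
          rw [Real.norm_eq_abs, sq_abs]
          nlinarith [this.1, this.2]
      _ = 2 := by simp
  have hcomp : IsCompact (K ∩ C) :=
    Metric.isCompact_of_isClosed_isBounded (hK.inter hCc) (hCb.subset inter_subset_right)
  -- reduction
  have hred : ∀ y ∈ K, ∃ z ∈ K ∩ C, rrB z = rrB y := by
    intro y hy
    set v : E2 := WithLp.toLp 2 (fun i => -(⌊y i⌋ : ℝ)) with hv
    have hvi : HasIntegerCoords v := by
      intro i
      exact ⟨-⌊y i⌋, by simp [hv]⟩
    refine ⟨y + v, ⟨(hp v hvi y).2 hy, ?_⟩, pb_rr_per v hvi y⟩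
    intro i
    have : (y + v) i = y i - ⌊y i⌋ := by simp [hv, sub_eq_add_neg]
    rw [this]
    exact ⟨by linarith [Int.floor_le (y i)], by linarith [Int.lt_floor_add_one (y i)]⟩
  by_cases hne : (K ∩ C).Nonempty
  · obtain ⟨z, hz, hmax⟩ := hcomp.exists_isMaxOn hne pb_rr_cont.continuousOn
    refine ⟨rrB z, h z hz.1, pb_rr_nonneg z, fun y hy => ?_⟩
    obtain ⟨w, hw, hwy⟩ := hred y hy
    rw [← hwy]
    exact hmax hw
  · refine ⟨0, by positivity, le_rfl, fun y hy => ?_⟩
    obtain ⟨w, hw, _⟩ := hred y hy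
    exact absurd ⟨w, hw⟩ hne

/-- CHUNK RIG-BALL. `prof_of`: `GG L = {ρ < r}`, `G0 = {‖y‖ < r}`, `χ = smooth cut-off in ρ²` (smooth where `ρ < 1/2`),
`K1 = {ρ ≤ r₁}`, `K2 = {ρ ≤ r₂}`, compactness of `K` mod the lattice. -/
theorem prof_ball (r : ℝ) (h0 : 0 < r) (h1 : r < 1 / 2) : Prof (LB r) (4 * Real.pi * r ^ 2) := by
  have hGG := pb_mem_GG r h0 h1
  have hr4 : r ^ 2 < 1 / 4 := by nlinarith
  have hGo : IsOpen (GG (LB r)) := by
    have : GG (LB r) = {y | rrB y < r ^ 2} := by ext y; exact hGG y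
    rw [this]
    exact isOpen_lt pb_rr_cont continuous_const
  have hLB : LB r = fun y => 2 * Real.sqrt (r ^ 2 - rrB y) := funext (pb_LB r)
  refine prof_of (LB r) (4 * Real.pi * r ^ 2) ?_ ?_ (LB_mem r h0 h1) ?_ ?_ ?_ ?_
  · intro v hv x
    rw [pb_LB, pb_LB, pb_rr_per v hv]
  · rw [hLB]
    exact continuous_const.mul (Real.continuous_sqrt.comp (continuous_const.sub pb_rr_cont))
  · intro y hy
    have hy' := (hGG y).1 hy
    refine ContDiffAt.contDiffWithinAt ?_
    rw [hLB]
    have h2 : ContDiffAt ℝ 1 (fun y => r ^ 2 - rrB y) y :=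
      contDiffAt_const.sub (pb_rr_smooth y (by linarith))
    exact contDiffAt_const.mul (h2.sqrt (ne_of_gt (by linarith)))
  · intro i y hy
    have hy' := (hGG y).1 hy
    have he : ph0 (LB r) i =ᶠ[𝓝 y] fun z => sd (z i) / r := by
      filter_upwards [hGo.mem_nhds hy] with z hz
      obtain ⟨g1, g2, g3⟩ := LB_dd r h0 h1 z hz
      unfold ph0
      rw [g3, g2 i]
      have hS : 0 < Real.sqrt (r ^ 2 - rrB z) := Real.sqrt_pos.2 (by linarith)
      field_simp
    refine ContDiffAt.contDiffWithinAt ?_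
    refine ContDiffAt.congr_of_eventuallyEq ?_ he
    exact (pb_sdi_smooth y (by linarith) i).div_const r
  · have hnorm : ∀ y : E2, ‖y‖ ^ 2 = y 0 ^ 2 + y 1 ^ 2 := by
      intro y
      rw [EuclideanSpace.norm_sq_eq, Fin.sum_univ_two]
      simp
    refine ⟨Metric.ball 0 r, Metric.isOpen_ball, (convex_ball 0 r).isPreconnected, ?_, ?_⟩
    · intro y hy
      rw [mem_ball_zero_iff] at hy
      rw [hGG]
      have h2 : y 0 ^ 2 + y 1 ^ 2 < r ^ 2 := by
        rw [← hnorm]
        exact pow_lt_pow_left₀ hy (norm_nonneg _) (by norm_num)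
      have h3 : ∀ x : ℝ, x ^ 2 < r ^ 2 → sd x = x := by
        intro x hx
        have hx' : |x| < 1 / 2 := by
          have := abs_lt_of_sq_lt_sq hx h0.le
          linarith
        have : round x = 0 := by
          rw [round_eq, Int.floor_eq_iff]
          rw [abs_lt] at hx'
          constructor
          · push_cast; linarith [hx'.1]
          · push_cast; linarith [hx'.2]
        unfold sd
        rw [this]
        simp
      unfold rrB
      rw [h3 (y 0) (by nlinarith [sq_nonneg (y 1)]), h3 (y 1) (by nlinarith [sq_nonneg (y 0)])]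
      exact h2
    · intro y hy
      rw [hGG] at hy
      set v : E2 := WithLp.toLp 2 (fun i => -(round (y i) : ℝ)) with hv
      have hvi : HasIntegerCoords v := by
        intro i
        exact ⟨-round (y i), by simp [hv]⟩
      refine ⟨v, hvi, ?_⟩
      rw [mem_ball_zero_iff]
      have h2 : ‖y + v‖ ^ 2 < r ^ 2 := by
        rw [hnorm]
        have h3 : ∀ i, (y + v) i = sd (y i) := by
          intro i
          simp [hv, sd, sub_eq_add_neg]
        rw [h3, h3]
        exact hy
      exact lt_of_pow_lt_pow_left₀ 2 h0.le h2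
  · intro K hK hKp hKG δ hδ
    have hpi := Real.pi_pos
    obtain ⟨q0, hq0, hq0', hq0K⟩ := pb_bound K hK hKp r h0 (fun y hy => (hGG y).1 (hKG hy))
    set η : ℝ := δ / (4 * Real.pi * r) with hη
    have hηpos : 0 < η := by positivity
    set q1 : ℝ := max (max q0 (r ^ 2 - η ^ 2)) (r ^ 2 / 2) with hq1
    have hr2 : 0 < r ^ 2 := by positivity
    have hq1lt : q1 < r ^ 2 := by
      refine max_lt (max_lt hq0 ?_) (by linarith)
      nlinarith
    have hq1pos : 0 < q1 := lt_of_lt_of_le (by linarith) (le_max_right _ _)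
    set r1 : ℝ := Real.sqrt q1 with hr1
    have hr1sq : r1 ^ 2 = q1 := Real.sq_sqrt hq1pos.le
    have hr1pos : 0 < r1 := Real.sqrt_pos.2 hq1pos
    have hr1lt : r1 < r := by
      rw [hr1, Real.sqrt_lt' h0]; exact hq1lt
    set q2 : ℝ := (q1 + r ^ 2) / 2 with hq2
    have hq12 : 0 < q2 - q1 := by rw [hq2]; linarith
    have hq2lt : q2 < r ^ 2 := by rw [hq2]; linarith
    set χ : E2 → ℝ := fun y => 1 - Real.smoothTransition ((rrB y - q1) / (q2 - q1)) with hχ
    have hχ0 : ∀ y, q2 ≤ rrB y → χ y = 0 := by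
      intro y hy
      simp only [hχ]
      rw [Real.smoothTransition.one_of_one_le, sub_self]
      rw [one_le_div hq12]; linarith
    have hχ1 : ∀ y, rrB y ≤ q1 → χ y = 1 := by
      intro y hy
      simp only [hχ]
      rw [Real.smoothTransition.zero_of_nonpos, sub_zero]
      exact div_nonpos_of_nonpos_of_nonneg (by linarith) hq12.le
    refine ⟨χ, {y | rrB y ≤ r1 ^ 2}, {y | rrB y ≤ q2}, ?_, ?_, ?_, ?_, ?_, ?_, ?_, ?_, ?_, ?_⟩
    · rw [contDiff_iff_contDiffAt]
      intro y
      by_cases hy : rrB y < 1 / 4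
      · have h3 : ContDiffAt ℝ 1 (fun y => (rrB y - q1) / (q2 - q1)) y :=
          ((pb_rr_smooth y hy).sub contDiffAt_const).div_const _
        exact contDiffAt_const.sub
          ((Real.smoothTransition.contDiff.contDiffAt (n := 1)).comp y h3)
      · have h4 : χ =ᶠ[𝓝 y] fun _ => 0 := by
          have h5 : ∀ᶠ z in 𝓝 y, q2 < rrB z :=
            (isOpen_lt continuous_const pb_rr_cont).mem_nhds (by
              show q2 < rrB y
              push Not at hy
              linarith)
          filter_upwards [h5] with z hz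
          exact hχ0 z hz.le
        exact contDiffAt_const.congr_of_eventuallyEq h4
    · intro v hv x
      simp only [hχ]
      rw [pb_rr_per v hv]
    · intro y
      simp only [hχ]
      exact ⟨by linarith [Real.smoothTransition.le_one ((rrB y - q1) / (q2 - q1))],
        by linarith [Real.smoothTransition.nonneg ((rrB y - q1) / (q2 - q1))]⟩
    · exact isClosed_le pb_rr_cont continuous_const
    · intro y hy
      rw [hGG]
      exact lt_of_le_of_lt hy hq2lt
    · intro y hy
      refine hχ0 y ?_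
      by_contra hcon
      exact hy (le_of_lt (not_le.1 hcon))
    · exact (isClosed_le pb_rr_cont continuous_const).measurableSet
    · intro y hy
      show rrB y ≤ r1 ^ 2
      rw [hr1sq]
      exact (hq0K y hy).trans ((le_max_left _ _).trans (le_max_left _ _))
    · intro y hy
      refine hχ1 y ?_
      have : rrB y ≤ r1 ^ 2 := hy
      rwa [hr1sq] at this
    · have e1 : ∫ y in {y : E2 | rrB y ≤ r1 ^ 2} ∩ unitCell 2,
          Real.sqrt (4 + (dd 0 (LB r) y) ^ 2 + (dd 1 (LB r) y) ^ 2) =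
          ∫ y in {y : E2 | rrB y ≤ r1 ^ 2} ∩ unitCell 2, 2 * r / Real.sqrt (r ^ 2 - rrB y) := by
        refine setIntegral_congr_fun
          ((isClosed_le pb_rr_cont continuous_const).measurableSet.inter
            (measurableSet_unitCell 2)) ?_
        intro y hy
        have hy1 : rrB y ≤ r1 ^ 2 := hy.1
        exact (LB_dd r h0 h1 y ((hGG y).2 (by rw [hr1sq] at hy1; linarith))).2.2
      rw [e1, LB_int r r1 hr1pos hr1lt h1, hr1sq]
      have h6 : Real.sqrt (r ^ 2 - q1) ≤ η := by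
        rw [Real.sqrt_le_left hηpos.le]
        have : r ^ 2 - η ^ 2 ≤ q1 := (le_max_right _ _).trans (le_max_left _ _)
        linarith
      have h7 : 4 * Real.pi * r * Real.sqrt (r ^ 2 - q1) ≤ δ := by
        calc 4 * Real.pi * r * Real.sqrt (r ^ 2 - q1) ≤ 4 * Real.pi * r * η := by gcongr
          _ = δ := by rw [hη]; field_simp
      nlinarith

end
end Crest.Agent.T3
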