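import Crest.Agent.T3.RigShape
/-! Row 214, rigidity (7a), chunk RIG-BALLA: derivative of the ball profile. -/
set_option autoImplicit false
open MeasureTheory Set Filter Topology
open Crest.GeometryTopology.PeriodicPerimeter
namespace Crest.Agent.T3
noncomputable section

/-- signed distance to the nearest integer -/
def sd (t : ℝ) : ℝ := t - round t

/-- squared distance to the lattice -/
def rrB (y : E2) : ℝ := sd (y 0) ^ 2 + sd (y 1) ^ 2

theorem ba_fold (t : ℝ) : (fold t / 2) ^ 2 = sd t ^ 2 := by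
  unfold fold sd
  rw [mul_div_cancel_left₀ _ (two_ne_zero), sq_abs]

theorem ba_LB (r : ℝ) (y : E2) : LB r y = 2 * Real.sqrt (r ^ 2 - rrB y) := by
  unfold LB rrB
  rw [ba_fold, ba_fold]
  congr 2
  ring

theorem ba_round (t : ℝ) (h : sd t ^ 2 < (1 / 2) ^ 2) :
    ∀ᶠ s : ℝ in 𝓝 t, sd s = s - (round t : ℝ) := by
  have h1 : |t - round t| < 1 / 2 := by
    have := sq_lt_sq.1 h
    rwa [abs_of_pos (by norm_num : (0 : ℝ) < 1 / 2)] at this
  have h2 : ∀ᶠ s : ℝ in 𝓝 t, |s - (round t : ℝ)| < 1 / 2 := by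
    have hc : Continuous fun s : ℝ => |s - round t| := by fun_prop
    exact (hc.tendsto t).eventually (gt_mem_nhds h1)
  filter_upwards [h2] with s hs
  unfold sd
  have h3 : round s = round t := by
    rw [round_eq, Int.floor_eq_iff]
    rw [abs_lt] at hs
    constructor <;> linarith [hs.1, hs.2]
  rw [h3]

theorem ba_rr_lt {r : ℝ} {y : E2} (hy : y ∈ GG (LB r)) : rrB y < r ^ 2 := by
  have h := hy.1
  rw [ba_LB] at h
  have h1 : 0 < Real.sqrt (r ^ 2 - rrB y) := by linarith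
  have h2 := Real.sqrt_pos.1 h1
  linarith

theorem ba_sd_sq_lt {r : ℝ} (h0 : 0 < r) (h1 : r < 1 / 2) {y : E2} (hy : rrB y < r ^ 2) (j : Fin 2) :
    sd (y j) ^ 2 < (1 / 2) ^ 2 := by
  have h2 : r ^ 2 < (1 / 2) ^ 2 := by nlinarith
  have h3 : sd (y j) ^ 2 ≤ rrB y := by
    unfold rrB
    fin_cases j
    · exact le_add_of_nonneg_right (sq_nonneg _)
    · exact le_add_of_nonneg_left (sq_nonneg _)
  linarith

theorem ba_has {r : ℝ} (h0 : 0 < r) (h1 : r < 1 / 2) {y : E2} (hy : rrB y < r ^ 2) :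
    ∃ L : E2 →L[ℝ] ℝ, HasFDerivAt (LB r) L y ∧
      ∀ j : Fin 2, L (EuclideanSpace.single j 1) = -2 * sd (y j) / Real.sqrt (r ^ 2 - rrB y) := by
  have hp : 0 < r ^ 2 - rrB y := by linarith
  have hs : 0 < Real.sqrt (r ^ 2 - rrB y) := Real.sqrt_pos.2 hp
  have d : ∀ j : Fin 2, HasFDerivAt (fun z : E2 => z j - (round (y j) : ℝ))
      (EuclideanSpace.proj j : E2 →L[ℝ] ℝ) y := fun j =>
    ((EuclideanSpace.proj j : E2 →L[ℝ] ℝ).hasFDerivAt (x := y)).sub_const _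
  have d2 : ∀ j : Fin 2, HasFDerivAt (fun z : E2 => (z j - (round (y j) : ℝ)) ^ 2)
      ((2 * sd (y j)) • (EuclideanSpace.proj j : E2 →L[ℝ] ℝ)) y := fun j => by
    have h := (d j).pow 2
    simpa [sd, pow_one] using h
  have d3 := ((((d2 0).add (d2 1)).const_sub (r ^ 2)).sqrt hp.ne').const_mul 2
  refine ⟨_, d3.congr_of_eventuallyEq ?_, ?_⟩
  · have c : ∀ j : Fin 2, Continuous fun z : E2 => z j := fun j =>
      (EuclideanSpace.proj j : E2 →L[ℝ] ℝ).continuous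
    have e0 := ((c 0).tendsto y).eventually (ba_round (y 0) (ba_sd_sq_lt h0 h1 hy 0))
    have e1 := ((c 1).tendsto y).eventually (ba_round (y 1) (ba_sd_sq_lt h0 h1 hy 1))
    filter_upwards [e0, e1] with z hz0 hz1
    rw [ba_LB]
    unfold rrB
    rw [hz0, hz1]
    rfl
  · intro j
    have e : r ^ 2 - ((y 0 - (round (y 0) : ℝ)) ^ 2 + (y 1 - (round (y 1) : ℝ)) ^ 2) =
      r ^ 2 - rrB y := rfl
    fin_cases j
    · simp [e]
      field_simp
    · simp [e]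
      field_simp

/-- `∂_j L = -2 s_j/√(r²-ρ²)`, `√(4+|∇L|²) = 2r/√(r²-ρ²)`, `ph0 L j = s_j/r` on `GG L = {ρ < r}`. -/
theorem LB_dd (r : ℝ) (h0 : 0 < r) (h1 : r < 1 / 2) (y : E2) (hy : y ∈ GG (LB r)) :
    rrB y < r ^ 2 ∧
    (∀ j : Fin 2, dd j (LB r) y = -2 * sd (y j) / Real.sqrt (r ^ 2 - rrB y)) ∧
    Real.sqrt (4 + (dd 0 (LB r) y) ^ 2 + (dd 1 (LB r) y) ^ 2) = 2 * r / Real.sqrt (r ^ 2 - rrB y) := by
  have h2 := ba_rr_lt hy
  obtain ⟨L, hL, hLj⟩ := ba_has h0 h1 h2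
  have h3 : ∀ j : Fin 2, dd j (LB r) y = -2 * sd (y j) / Real.sqrt (r ^ 2 - rrB y) := by
    intro j
    unfold dd
    rw [hL.fderiv]
    exact hLj j
  refine ⟨h2, h3, ?_⟩
  have hp : 0 < r ^ 2 - rrB y := by linarith
  have hs : 0 < Real.sqrt (r ^ 2 - rrB y) := Real.sqrt_pos.2 hp
  rw [h3, h3]
  have e : 4 + (-2 * sd (y 0) / Real.sqrt (r ^ 2 - rrB y)) ^ 2 +
      (-2 * sd (y 1) / Real.sqrt (r ^ 2 - rrB y)) ^ 2 = (2 * r / Real.sqrt (r ^ 2 - rrB y)) ^ 2 := by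
    rw [div_pow, div_pow, div_pow, Real.sq_sqrt hp.le]
    field_simp
    unfold rrB
    ring
  rw [e, Real.sqrt_sq (by positivity)]

end
end Crest.Agent.T3
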