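import Crest.Agent.T3.RigBallA
import Crest.Agent.IT.Moll
/-! Row 214, rigidity (7a), chunk RIG-BALLB (helper13): the integral of `2r/√(r²-ρ²)`. -/
set_option autoImplicit false
open MeasureTheory Set Filter Topology
open Crest.GeometryTopology.PeriodicPerimeter
namespace Crest.Agent.T3
noncomputable section

theorem lbi_sd_add (t : ℝ) (m : ℤ) : sd (t + m) = sd t := by
  unfold sd
  rw [round_add_intCast]
  push_cast
  ring

theorem lbi_sd_id (t : ℝ) (h1 : -(1 / 2) ≤ t) (h2 : t < 1 / 2) : sd t = t := by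
  unfold sd
  have : round t = 0 := by
    rw [round_eq, Int.floor_eq_iff]
    constructor
    · push_cast; linarith
    · push_cast; linarith
  rw [this]; simp

theorem lbi_sd_meas : Measurable sd := by
  unfold sd
  have : Measurable (fun t : ℝ => ((round t : ℤ) : ℝ)) := by
    simp only [round_eq]
    exact (measurable_from_top (f := fun z : ℤ => (z : ℝ))).comp
      ((measurable_id.add_const _).floor)
  exact measurable_id.sub this

theorem lbi_rr_meas : Measurable rrB := by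
  unfold rrB
  have h0 : Measurable (fun y : E2 => y 0) := by fun_prop
  have h1 : Measurable (fun y : E2 => y 1) := by fun_prop
  exact ((lbi_sd_meas.comp h0).pow_const 2).add ((lbi_sd_meas.comp h1).pow_const 2)

/-- `∫_0^{r₁} y · 2r/√(r²-y²) dy = 2r (r - √(r²-r₁²))`. -/
theorem lbi_radial (r r1 : ℝ) (h0 : 0 < r1) (h1 : r1 < r) :
    ∫ y in (0 : ℝ)..r1, y * (2 * r / Real.sqrt (r ^ 2 - y ^ 2)) =
      2 * r * (r - Real.sqrt (r ^ 2 - r1 ^ 2)) := by
  have hr : 0 < r := h0.trans h1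
  have hpos : ∀ y ∈ uIcc (0 : ℝ) r1, 0 < r ^ 2 - y ^ 2 := by
    intro y hy
    rw [uIcc_of_le h0.le] at hy
    nlinarith [hy.1, hy.2]
  have hd : ∀ y ∈ uIcc (0 : ℝ) r1,
      HasDerivAt (fun y => -(2 * r) * Real.sqrt (r ^ 2 - y ^ 2))
        (y * (2 * r / Real.sqrt (r ^ 2 - y ^ 2))) y := by
    intro y hy
    have hp := hpos y hy
    have h2 : HasDerivAt (fun y : ℝ => r ^ 2 - y ^ 2) (-(2 * y)) y := by
      simpa using ((hasDerivAt_pow 2 y).const_sub (r ^ 2))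
    have h3 := (h2.sqrt hp.ne').const_mul (-(2 * r))
    have hs : Real.sqrt (r ^ 2 - y ^ 2) ≠ 0 := (Real.sqrt_pos.mpr hp).ne'
    have he : y * (2 * r / Real.sqrt (r ^ 2 - y ^ 2)) =
        -(2 * r) * (-(2 * y) / (2 * Real.sqrt (r ^ 2 - y ^ 2))) := by
      field_simp
    rw [he]
    exact h3
  have hc : ContinuousOn (fun y : ℝ => y * (2 * r / Real.sqrt (r ^ 2 - y ^ 2))) (uIcc 0 r1) := by
    apply continuousOn_id.mul
    apply continuousOn_const.div
    · fun_prop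
    · intro y hy
      exact (Real.sqrt_pos.mpr (hpos y hy)).ne'
  rw [intervalIntegral.integral_eq_sub_of_hasDerivAt hd (hc.intervalIntegrable)]
  have : Real.sqrt (r ^ 2 - 0 ^ 2) = r := by
    rw [show r ^ 2 - 0 ^ 2 = r ^ 2 by ring, Real.sqrt_sq hr.le]
  rw [this]
  ring

theorem lbi_norm (y : E2) : ‖y‖ ^ 2 = y 0 ^ 2 + y 1 ^ 2 := by
  rw [EuclideanSpace.norm_sq_eq]
  simp [Fin.sum_univ_two]

/-- radial integral over the plane -/
theorem lbi_plane (r r1 : ℝ) (h0 : 0 < r1) (h1 : r1 < r) :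
    ∫ y : E2, (if ‖y‖ ^ 2 ≤ r1 ^ 2 then 2 * r / Real.sqrt (r ^ 2 - ‖y‖ ^ 2) else 0) =
      4 * Real.pi * r * (r - Real.sqrt (r ^ 2 - r1 ^ 2)) := by
  have hA := integral_fun_norm_addHaar (volume : Measure E2)
    (fun s : ℝ => if s ^ 2 ≤ r1 ^ 2 then 2 * r / Real.sqrt (r ^ 2 - s ^ 2) else 0)
  rw [hA]
  have hdim : Module.finrank ℝ E2 = 2 := by simp [E2]
  have hball : (volume : Measure E2).real (Metric.ball 0 1) = Real.pi := by
    rw [measureReal_def, EuclideanSpace.volume_ball_fin_two]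
    simp [Real.pi_pos.le]
  rw [hdim, hball]
  have hint : ∫ y in Ioi (0 : ℝ), y ^ (2 - 1) • (if y ^ 2 ≤ r1 ^ 2 then 2 * r / Real.sqrt (r ^ 2 - y ^ 2) else 0)
      = 2 * r * (r - Real.sqrt (r ^ 2 - r1 ^ 2)) := by
    rw [← lbi_radial r r1 h0 h1, intervalIntegral.integral_of_le h0.le]
    have hcongr : ∀ y ∈ Ioi (0 : ℝ), y ^ (2 - 1) • (if y ^ 2 ≤ r1 ^ 2 then 2 * r / Real.sqrt (r ^ 2 - y ^ 2) else 0)
        = (Ioc (0 : ℝ) r1).indicator (fun y => y * (2 * r / Real.sqrt (r ^ 2 - y ^ 2))) y := by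
      intro y hy
      have hy0 : (0 : ℝ) < y := hy
      by_cases hyr : y ≤ r1
      · have h3 : y ^ 2 ≤ r1 ^ 2 := by nlinarith
        rw [indicator_of_mem (show y ∈ Ioc (0 : ℝ) r1 from ⟨hy0, hyr⟩), if_pos h3]
        simp
      · have h3 : ¬ y ^ 2 ≤ r1 ^ 2 := by
          push Not at hyr ⊢
          nlinarith
        rw [indicator_of_notMem (fun h : y ∈ Ioc (0 : ℝ) r1 => hyr h.2), if_neg h3]
        simp
    rw [setIntegral_congr_fun measurableSet_Ioi hcongr, setIntegral_indicator measurableSet_Ioc]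
    congr 2
    ext y
    simp only [mem_inter_iff, mem_Ioi, mem_Ioc]
    tauto
  rw [hint]
  simp only [nsmul_eq_mul, smul_eq_mul]
  push_cast
  ring

/-- the periodic integrand -/
def lbiF (r r1 : ℝ) (y : E2) : ℝ :=
  {y : E2 | rrB y ≤ r1 ^ 2}.indicator (fun y => 2 * r / Real.sqrt (r ^ 2 - rrB y)) y

theorem lbiF_per (r r1 : ℝ) (v : E2) (hv : HasIntegerCoords v) (x : E2) :
    lbiF r r1 (x + v) = lbiF r r1 x := by
  have h : rrB (x + v) = rrB x := by
    obtain ⟨m0, hm0⟩ := hv 0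
    obtain ⟨m1, hm1⟩ := hv 1
    unfold rrB
    rw [PiLp.add_apply, PiLp.add_apply, hm0, hm1, lbi_sd_add, lbi_sd_add]
  unfold lbiF indicator
  simp only [mem_ofPred_eq, h]

/-- `∫` over `{ρ ≤ r₁}` in the cell of `2r/√(r²-ρ²)` is `4πr (r - √(r²-r₁²))`. -/
theorem LB_int (r r1 : ℝ) (h0 : 0 < r1) (h1 : r1 < r) (h2 : r < 1 / 2) :
    ∫ y in {y : E2 | rrB y ≤ r1 ^ 2} ∩ unitCell 2, 2 * r / Real.sqrt (r ^ 2 - rrB y) =
      4 * Real.pi * r * (r - Real.sqrt (r ^ 2 - r1 ^ 2)) := by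
  have hmeas : MeasurableSet {y : E2 | rrB y ≤ r1 ^ 2} := lbi_rr_meas measurableSet_Iic
  have hA : ∫ y in {y : E2 | rrB y ≤ r1 ^ 2} ∩ unitCell 2, 2 * r / Real.sqrt (r ^ 2 - rrB y) =
      ∫ y in unitCell 2, lbiF r r1 y := by
    rw [inter_comm]
    exact (setIntegral_indicator hmeas).symm
  set c : E2 := WithLp.toLp 2 (fun _ => -(1 / 2 : ℝ)) with hc
  have hc0 : c 0 = -(1 / 2) := rfl
  have hc1 : c 1 = -(1 / 2) := rfl
  rw [hA, IT.setIntegral_cell_add (lbiF r r1) (lbiF_per r r1) c, ← lbi_plane r r1 h0 h1]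
  set g : E2 → ℝ := fun y => (if ‖y‖ ^ 2 ≤ r1 ^ 2 then 2 * r / Real.sqrt (r ^ 2 - ‖y‖ ^ 2) else 0) with hg
  have hcellm : MeasurableSet (unitCell 2) := IT.measurableSet_unitCell 2
  have hB : ∫ x in unitCell 2, lbiF r r1 (x + c) = ∫ x in unitCell 2, g (x + c) := by
    apply setIntegral_congr_fun hcellm
    intro x hx
    have hx0 := hx 0
    have hx1 := hx 1
    have e0 : (x + c) 0 = x 0 - 1 / 2 := by rw [PiLp.add_apply, hc0]; ring
    have e1 : (x + c) 1 = x 1 - 1 / 2 := by rw [PiLp.add_apply, hc1]; ring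
    have hrr : rrB (x + c) = ‖x + c‖ ^ 2 := by
      rw [lbi_norm]
      unfold rrB
      rw [lbi_sd_id _ (by rw [e0]; linarith [hx0.1]) (by rw [e0]; linarith [hx0.2]),
        lbi_sd_id _ (by rw [e1]; linarith [hx1.1]) (by rw [e1]; linarith [hx1.2])]
    simp only [lbiF, hg, indicator, mem_ofPred_eq, hrr]
  rw [hB]
  have hC : ∫ x in unitCell 2, g (x + c) = ∫ x, g (x + c) := by
    apply setIntegral_eq_integral_of_forall_compl_eq_zero
    intro x hx
    simp only [hg]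
    rw [if_neg]
    intro hle
    apply hx
    have e0 : (x + c) 0 = x 0 - 1 / 2 := by rw [PiLp.add_apply, hc0]; ring
    have e1 : (x + c) 1 = x 1 - 1 / 2 := by rw [PiLp.add_apply, hc1]; ring
    rw [lbi_norm, e0, e1] at hle
    have hr1 : r1 < 1 / 2 := h1.trans h2
    have hq : r1 ^ 2 < (1 / 2) ^ 2 := by nlinarith
    have a0 : (x 0 - 1 / 2) ^ 2 < (1 / 2) ^ 2 := by nlinarith [sq_nonneg (x 1 - 1 / 2)]
    have a1 : (x 1 - 1 / 2) ^ 2 < (1 / 2) ^ 2 := by nlinarith [sq_nonneg (x 0 - 1 / 2)]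
    have b0 := abs_lt_of_sq_lt_sq' a0 (by norm_num)
    have b1 := abs_lt_of_sq_lt_sq' a1 (by norm_num)
    intro i
    fin_cases i
    · exact ⟨by show 0 ≤ x 0; linarith [b0.1], by show x 0 < 1; linarith [b0.2]⟩
    · exact ⟨by show 0 ≤ x 1; linarith [b1.1], by show x 1 < 1; linarith [b1.2]⟩
  rw [hC, integral_add_right_eq_self g c]

end
end Crest.Agent.T3
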