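import Crest.Agent.T3.RigDefs
import Crest.Agent.T3.Ibp
/-! Row 214, rigidity (7a), chunk RIG-BAS: basic inequality for smooth functions. -/
set_option autoImplicit false
open MeasureTheory Set Filter Topology
open Crest.GeometryTopology.PeriodicPerimeter
namespace Crest.Agent.T3
noncomputable section

/-- integral over the cell of a partial derivative of a periodic `C¹` function.  PROOF: `integral_cell` in direction `i`
and the fundamental theorem of calculus, `F (ins i 1 y) = F (ins i 0 y)`. -/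
theorem integral_dd_eq_zero {n : ℕ} (i : Fin n) (F : EuclideanSpace ℝ (Fin n) → ℝ) (hF : ContDiff ℝ 1 F)
    (hp : Per F) : ∫ x in unitCell n, dd i F x = 0 :=
  integral_deriv_cell F hF hp i

private theorem bas_dd_cont {n : ℕ} (i : Fin n) {F : EuclideanSpace ℝ (Fin n) → ℝ}
    (hF : ContDiff ℝ 1 F) : Continuous (dd i F) :=
  (hF.continuous_fderiv (by norm_num)).clm_apply continuous_const

private theorem bas_dd_mul {n : ℕ} (i : Fin n) {F G : EuclideanSpace ℝ (Fin n) → ℝ}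
    (hF : ContDiff ℝ 1 F) (hG : ContDiff ℝ 1 G) (x : EuclideanSpace ℝ (Fin n)) :
    dd i (fun z => F z * G z) x = F x * dd i G x + G x * dd i F x := by
  have h1 : HasFDerivAt (fun z => F z * G z) (F x • fderiv ℝ G x + G x • fderiv ℝ F x) x :=
    ((hF.differentiable (by norm_num)).differentiableAt.hasFDerivAt).mul
      ((hG.differentiable (by norm_num)).differentiableAt.hasFDerivAt)
  unfold dd
  rw [h1.fderiv]
  simp only [add_apply, smul_apply, smul_eq_mul]

private theorem bas_ibp {n : ℕ} (i : Fin n) {F G : EuclideanSpace ℝ (Fin n) → ℝ}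
    (hF : ContDiff ℝ 1 F) (hG : ContDiff ℝ 1 G) (hFp : Per F) (hGp : Per G) :
    ∫ x in unitCell n, F x * dd i G x = ∫ x in unitCell n, -(G x * dd i F x) := by
  have h1 := integral_dd_eq_zero i (fun z => F z * G z) (hF.mul hG) (fun v hv x => by
    show F (x + v) * G (x + v) = F x * G x
    rw [hFp v hv, hGp v hv])
  simp only [bas_dd_mul i hF hG] at h1
  have c1 : Continuous (fun x => F x * dd i G x) := hF.continuous.mul (bas_dd_cont i hG)
  have c2 : Continuous (fun x => G x * dd i F x) := hG.continuous.mul (bas_dd_cont i hF)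
  rw [integral_add (cont_integrableOn_cell _ c1) (cont_integrableOn_cell _ c2)] at h1
  rw [integral_neg]
  linarith

private theorem bas_alg (a b P Q R : ℝ) (h : a ^ 2 + b ^ 2 ≤ 1) :
    -(a * P) - b * Q + Real.sqrt (1 - a ^ 2 - b ^ 2) * |R| ≤ Real.sqrt (R ^ 2 + (P ^ 2 + Q ^ 2)) := by
  have hc : Real.sqrt (1 - a ^ 2 - b ^ 2) ^ 2 = 1 - a ^ 2 - b ^ 2 :=
    Real.sq_sqrt (by linarith)
  set c := Real.sqrt (1 - a ^ 2 - b ^ 2) with hcdef
  have hR : |R| ^ 2 = R ^ 2 := sq_abs R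
  set S := |R| with hS
  apply Real.le_sqrt_of_sq_le
  rw [← hR]
  have key : (S ^ 2 + (P ^ 2 + Q ^ 2)) * (a ^ 2 + b ^ 2 + c ^ 2) - (-(a * P) - b * Q + c * S) ^ 2 =
      (a * Q - b * P) ^ 2 + (a * S + c * P) ^ 2 + (b * S + c * Q) ^ 2 := by ring
  have h1 : a ^ 2 + b ^ 2 + c ^ 2 = 1 := by rw [hc]; ring
  rw [h1, mul_one] at key
  nlinarith [sq_nonneg (a * Q - b * P), sq_nonneg (a * S + c * P), sq_nonneg (b * S + c * Q)]

/-- CHUNK RIG-BAS. PROOF. `∫ f ∂_j φ = -∫ φ ∂_j f` (`integral_dd_eq_zero` for `f * φ`), and pointwise (Cauchy-Schwarz)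
`-φ₀ ∂f - φ₁ ∂f + √(1-|φ|²) |∂_k f| ≤ √(Σ (∂f)²)`. -/
theorem basic_ineq (k : Fin 3) (f : E3 → ℝ) (hf : ContDiff ℝ 2 f) (hfp : Per f)
    (φ : Fin 2 → E3 → ℝ) (hφ : ∀ i, ContDiff ℝ 1 (φ i)) (hφp : ∀ i, Per (φ i))
    (hφ1 : ∀ x, φ 0 x ^ 2 + φ 1 x ^ 2 ≤ 1) :
    (∫ x in unitCell 3, f x * (dd (k.succAbove 0) (φ 0) x + dd (k.succAbove 1) (φ 1) x)) +
      (∫ x in unitCell 3, Real.sqrt (1 - φ 0 x ^ 2 - φ 1 x ^ 2) * |dd k f x|) ≤
    ∫ x in unitCell 3, gr f x := by
  have hf1 : ContDiff ℝ 1 f := hf.of_le (by norm_num)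
  have c0 : Continuous (fun x => f x * dd (k.succAbove 0) (φ 0) x) :=
    hf1.continuous.mul (bas_dd_cont _ (hφ 0))
  have c1 : Continuous (fun x => f x * dd (k.succAbove 1) (φ 1) x) :=
    hf1.continuous.mul (bas_dd_cont _ (hφ 1))
  have d0 : Continuous (fun x => -(φ 0 x * dd (k.succAbove 0) f x)) :=
    ((hφ 0).continuous.mul (bas_dd_cont _ hf1)).neg
  have d1 : Continuous (fun x => -(φ 1 x * dd (k.succAbove 1) f x)) :=
    ((hφ 1).continuous.mul (bas_dd_cont _ hf1)).neg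
  have e0 : Continuous (fun x => Real.sqrt (1 - φ 0 x ^ 2 - φ 1 x ^ 2) * |dd k f x|) :=
    (Real.continuous_sqrt.comp ((continuous_const.sub ((hφ 0).continuous.pow 2)).sub
      ((hφ 1).continuous.pow 2))).mul (bas_dd_cont _ hf1).abs
  have d01 : Continuous (fun x => -(φ 0 x * dd (k.succAbove 0) f x) +
      -(φ 1 x * dd (k.succAbove 1) f x)) := d0.add d1
  simp only [mul_add]
  rw [integral_add (cont_integrableOn_cell _ c0) (cont_integrableOn_cell _ c1),
    bas_ibp _ hf1 (hφ 0) hfp (hφp 0), bas_ibp _ hf1 (hφ 1) hfp (hφp 1),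
    ← integral_add (cont_integrableOn_cell _ d0) (cont_integrableOn_cell _ d1),
    ← integral_add (cont_integrableOn_cell _ d01) (cont_integrableOn_cell _ e0)]
  refine setIntegral_mono (cont_integrableOn_cell _ (d01.add e0))
    (cont_integrableOn_cell _ (gr_continuous f hf1)) ?_
  intro x
  have h1 := bas_alg (φ 0 x) (φ 1 x) (dd (k.succAbove 0) f x) (dd (k.succAbove 1) f x)
    (dd k f x) (hφ1 x)
  have h2 : gr f x = Real.sqrt (dd k f x ^ 2 +
      (dd (k.succAbove 0) f x ^ 2 + dd (k.succAbove 1) f x ^ 2)) := by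
    unfold gr
    rw [Fin.sum_univ_succAbove _ k, Fin.sum_univ_two]
    rfl
  rw [h2]
  refine le_trans (le_of_eq ?_) h1
  show -(φ 0 x * dd (k.succAbove 0) f x) + -(φ 1 x * dd (k.succAbove 1) f x) +
    Real.sqrt (1 - φ 0 x ^ 2 - φ 1 x ^ 2) * |dd k f x| = _
  ring

end
end Crest.Agent.T3
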