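import Crest.Agent.T3.RigDefs
import Crest.Agent.T3.Cell
/-! Row 214, rigidity (7a), chunk RIG-FUB: the measure preserving map `(t, y) ↦ ins k t y` and Fubini in the cell. -/
set_option autoImplicit false
open MeasureTheory Set Filter Topology
open Crest.GeometryTopology.PeriodicPerimeter
namespace Crest.Agent.T3
noncomputable section

variable {n : ℕ}

theorem ins_rem (k : Fin (n + 1)) (x : EuclideanSpace ℝ (Fin (n + 1))) : ins k (x k) (rem k x) = x := by
  ext i
  refine Fin.succAboveCases k ?_ ?_ i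
  · rw [ins_apply_self]
  · intro j
    rw [ins_apply_succAbove]
    rfl

theorem rem_ins (k : Fin (n + 1)) (t : ℝ) (y : EuclideanSpace ℝ (Fin n)) : rem k (ins k t y) = y := by
  ext i
  show ins k t y (k.succAbove i) = y i
  rw [ins_apply_succAbove]

theorem ins_self (k : Fin (n + 1)) (t : ℝ) (y : EuclideanSpace ℝ (Fin n)) : (ins k t y) k = t :=
  ins_apply_self k t y

theorem ins_succAbove (k : Fin (n + 1)) (t : ℝ) (y : EuclideanSpace ℝ (Fin n)) (i : Fin n) :
    (ins k t y) (k.succAbove i) = y i :=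
  ins_apply_succAbove k t y i

/-- CHUNK RIG-FUB. PROOF: `MeasurableEquiv.piFinSuccAbove`, `volume_preserving_piFinSuccAbove`,
`EuclideanSpace.volume_preserving_symm_measurableEquiv_toLp` (or the current names). -/
theorem mp_ins (k : Fin (n + 1)) :
    MeasurePreserving (fun p : ℝ × EuclideanSpace ℝ (Fin n) => ins k p.1 p.2)
      ((volume : Measure ℝ).prod (volume : Measure (EuclideanSpace ℝ (Fin n)))) volume :=
  insE_mp k

/-- `(y, t) ↦ ins k t y` as a measurable equivalence -/
def rigFubE (k : Fin (n + 1)) :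
    (EuclideanSpace ℝ (Fin n) × ℝ) ≃ᵐ EuclideanSpace ℝ (Fin (n + 1)) :=
  MeasurableEquiv.prodComm.trans (insE k)

theorem rigFubE_apply (k : Fin (n + 1)) (p : EuclideanSpace ℝ (Fin n) × ℝ) :
    rigFubE k p = ins k p.2 p.1 := rfl

theorem rigFubE_mp (k : Fin (n + 1)) :
    MeasurePreserving (rigFubE k)
      ((volume : Measure (EuclideanSpace ℝ (Fin n))).prod (volume : Measure ℝ)) volume :=
  (insE_mp k).comp Measure.measurePreserving_swap

theorem ae_line (k : Fin (n + 1)) {p : EuclideanSpace ℝ (Fin (n + 1)) → Prop} (h : ∀ᵐ x, p x) :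
    ∀ᵐ y : EuclideanSpace ℝ (Fin n), ∀ᵐ t : ℝ, p (ins k t y) := by
  have h1 : ∀ᵐ q ∂((volume : Measure (EuclideanSpace ℝ (Fin n))).prod (volume : Measure ℝ)),
      p (rigFubE k q) := (rigFubE_mp k).quasiMeasurePreserving.ae h
  exact Measure.ae_ae_of_ae_prod h1

/-- converse for measurable predicates -/
theorem ae_of_line (k : Fin (n + 1)) {s : Set (EuclideanSpace ℝ (Fin (n + 1)))} (hs : MeasurableSet s)
    (h : ∀ᵐ y : EuclideanSpace ℝ (Fin n), ∀ᵐ t : ℝ, ins k t y ∈ s) : ∀ᵐ x, x ∈ s := by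
  have hm : MeasurableSet {q : EuclideanSpace ℝ (Fin n) × ℝ | rigFubE k q ∈ s} :=
    (rigFubE k).measurable hs
  have h1 : ∀ᵐ q ∂((volume : Measure (EuclideanSpace ℝ (Fin n))).prod (volume : Measure ℝ)),
      rigFubE k q ∈ s := (Measure.ae_prod_iff_ae_ae hm).2 h
  rw [ae_iff] at h1 ⊢
  have h2 := (rigFubE_mp k).measure_preimage (s := sᶜ) hs.compl.nullMeasurableSet
  have h3 : {x : EuclideanSpace ℝ (Fin (n + 1)) | ¬ x ∈ s} = sᶜ := rfl
  rw [h3, ← h2]
  exact h1

theorem rigFubE_preimage_cell (k : Fin (n + 1)) :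
    rigFubE k ⁻¹' (unitCell (n + 1)) = unitCell n ×ˢ Ico (0 : ℝ) 1 := by
  ext p
  rw [mem_preimage, rigFubE_apply, mem_unitCell_ins]
  exact and_comm

theorem integral_cell (k : Fin (n + 1)) (F : EuclideanSpace ℝ (Fin (n + 1)) → ℝ)
    (hF : IntegrableOn F (unitCell (n + 1))) :
    ∫ x in unitCell (n + 1), F x = ∫ y in unitCell n, ∫ t in Ico (0 : ℝ) 1, F (ins k t y) := by
  have h1 := (rigFubE_mp k).setIntegral_preimage_emb (rigFubE k).measurableEmbedding F
    (unitCell (n + 1))
  rw [← h1, rigFubE_preimage_cell]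
  have h2 : IntegrableOn (fun p => F (rigFubE k p)) (unitCell n ×ˢ Ico (0 : ℝ) 1)
      ((volume : Measure (EuclideanSpace ℝ (Fin n))).prod (volume : Measure ℝ)) := by
    have := (rigFubE_mp k).integrableOn_comp_preimage (rigFubE k).measurableEmbedding
      (f := F) (s := unitCell (n + 1))
    rw [rigFubE_preimage_cell] at this
    exact this.2 hF
  rw [setIntegral_prod _ h2]
  rfl

theorem rigFub_meas_ins (k : Fin (n + 1)) (y : EuclideanSpace ℝ (Fin n)) :
    Measurable (fun t : ℝ => ins k t y) :=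
  ((ins_continuous k).comp (continuous_id.prodMk continuous_const)).measurable

theorem integral_cell_set (k : Fin (n + 1)) (E : Set (EuclideanSpace ℝ (Fin (n + 1)))) (hE : MeasurableSet E)
    (F : EuclideanSpace ℝ (Fin (n + 1)) → ℝ) (hF : IntegrableOn F (unitCell (n + 1))) :
    ∫ x in E ∩ unitCell (n + 1), F x =
      ∫ y in unitCell n, ∫ t in lineE k E y ∩ Ico (0 : ℝ) 1, F (ins k t y) := by
  have h1 : ∫ x in E ∩ unitCell (n + 1), F x = ∫ x in unitCell (n + 1), E.indicator F x := by
    rw [setIntegral_indicator hE, inter_comm]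
  rw [h1, integral_cell k _ (hF.indicator hE)]
  refine setIntegral_congr_fun (measurableSet_unitCell n) fun y _ => ?_
  have hm : MeasurableSet (lineE k E y) := rigFub_meas_ins k y hE
  show ∫ t in Ico (0 : ℝ) 1, E.indicator F (ins k t y) = _
  have h2 : (fun t => E.indicator F (ins k t y)) =
      (lineE k E y).indicator (fun t => F (ins k t y)) := by
    funext t
    by_cases ht : ins k t y ∈ E
    · rw [indicator_of_mem ht, indicator_of_mem (show t ∈ lineE k E y from ht)]
    · rw [indicator_of_notMem ht, indicator_of_notMem (show t ∉ lineE k E y from ht)]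
  rw [h2, setIntegral_indicator hm, inter_comm]

end
end Crest.Agent.T3
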