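import Crest.Agent.T3.StnDefs
import Crest.Agent.T3.Ins
import Crest.Agent.T3.Ibp
import Crest.Agent.T3.RigFub

/-! Row 214, Steiner step, chunk STN-B: pointwise inequalities and continuity. -/

set_option autoImplicit false
open MeasureTheory Set Filter Topology
open Crest.GeometryTopology.PeriodicPerimeter

namespace Crest.Agent.T3.Stn

/-- PROOF. Cauchy-Schwarz for the vectors `(∂_{σ i} f)_i, ∂_k f` and `(-m_i), ±max κ 0`;
`gr f x = sqrt((∂_k f)² + ∑ (∂_{σ i} f)²)` (`Fin.sum_univ_succAbove`), cf. `gr_ins_ge`. -/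
theorem stnB_point {n : ℕ} (k : Fin (n + 1)) (f : EuclideanSpace ℝ (Fin (n + 1)) → ℝ)
    (x : EuclideanSpace ℝ (Fin (n + 1))) (m : Fin n → ℝ) (κ : ℝ) (h : (∑ i, m i ^ 2) + κ ^ 2 ≤ 1) :
    -(∑ i, m i * dd (k.succAbove i) f x) + max κ 0 * |dd k f x| ≤ gr f x := by
  have hg : gr f x = Real.sqrt (dd k f x ^ 2 + ∑ i, dd (k.succAbove i) f x ^ 2) := by
    unfold gr dd
    rw [Fin.sum_univ_succAbove _ k]
  rw [hg]
  apply Real.le_sqrt_of_sq_le
  have hκ : max κ 0 ^ 2 ≤ κ ^ 2 := by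
    rcases max_cases κ 0 with ⟨h1, h2⟩ | ⟨h1, h2⟩ <;> rw [h1] <;> nlinarith
  have hcs := Finset.sum_mul_sq_le_sq_mul_sq Finset.univ
    (Fin.cons (max κ 0) (fun i => -m i) : Fin (n + 1) → ℝ)
    (Fin.cons |dd k f x| (fun i => dd (k.succAbove i) f x) : Fin (n + 1) → ℝ)
  simp only [Fin.sum_univ_succ, Fin.cons_zero, Fin.cons_succ, neg_sq, sq_abs] at hcs
  have h1 : ∑ i, -m i * dd (k.succAbove i) f x = -∑ i, m i * dd (k.succAbove i) f x := by
    rw [← Finset.sum_neg_distrib]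
    exact Finset.sum_congr rfl fun i _ => by ring
  rw [h1, add_comm] at hcs
  have h2 : 0 ≤ dd k f x ^ 2 + ∑ i, dd (k.succAbove i) f x ^ 2 := by positivity
  refine hcs.trans ?_
  have h3 : max κ 0 ^ 2 + ∑ i, m i ^ 2 ≤ 1 := by linarith
  exact mul_le_of_le_one_left h2 h3

/-- PROOF. `(mm, kap)` is the average of `(φ'(+), φ_k(+))` and `(φ'(-), -φ_k(-))`, both of length `≤ 1`;
`((a + b)/2)² ≤ (a² + b²)/2`. -/
theorem stnB_conv {n : ℕ} (k : Fin (n + 1))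
    (φ : EuclideanSpace ℝ (Fin (n + 1)) → EuclideanSpace ℝ (Fin (n + 1))) (hφ : ∀ x, ‖φ x‖ ≤ 1)
    (y : EuclideanSpace ℝ (Fin n)) (h : ℝ) :
    (∑ i, mm k φ y h i ^ 2) + kap k φ y h ^ 2 ≤ 1 := by
  have key : ∀ x, φ x k ^ 2 + ∑ i, φ x (k.succAbove i) ^ 2 ≤ 1 := by
    intro x
    have h3 : ‖φ x‖ ^ 2 = ∑ i, ‖φ x i‖ ^ 2 := EuclideanSpace.norm_sq_eq (φ x)
    simp only [Real.norm_eq_abs, sq_abs] at h3
    rw [Fin.sum_univ_succAbove _ k] at h3
    rw [← h3]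
    nlinarith [norm_nonneg (φ x), hφ x]
  have h1 := key (ins k (h / 2) y)
  have h2 := key (ins k (-(h / 2)) y)
  have h3 : ∑ i, mm k φ y h i ^ 2 ≤ ∑ i, (φ (ins k (h / 2) y) (k.succAbove i) ^ 2 / 2 +
      φ (ins k (-(h / 2)) y) (k.succAbove i) ^ 2 / 2) := by
    refine Finset.sum_le_sum fun i _ => ?_
    unfold mm
    nlinarith [sq_nonneg (φ (ins k (h / 2) y) (k.succAbove i) -
      φ (ins k (-(h / 2)) y) (k.succAbove i))]
  rw [Finset.sum_add_distrib, ← Finset.sum_div, ← Finset.sum_div] at h3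
  have h4 : kap k φ y h ^ 2 ≤ φ (ins k (h / 2) y) k ^ 2 / 2 + φ (ins k (-(h / 2)) y) k ^ 2 / 2 := by
    unfold kap
    nlinarith [sq_nonneg (φ (ins k (h / 2) y) k + φ (ins k (-(h / 2)) y) k)]
  linarith

/-- `kap` vanishes for `h = 0` and (periodicity) `h = 1`. -/
theorem kap_zero {n : ℕ} (k : Fin (n + 1))
    (φ : EuclideanSpace ℝ (Fin (n + 1)) → EuclideanSpace ℝ (Fin (n + 1)))
    (y : EuclideanSpace ℝ (Fin n)) : kap k φ y 0 = 0 := by
  unfold kap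
  simp

theorem kap_one {n : ℕ} (k : Fin (n + 1))
    (φ : EuclideanSpace ℝ (Fin (n + 1)) → EuclideanSpace ℝ (Fin (n + 1))) (hφ : Per φ)
    (y : EuclideanSpace ℝ (Fin n)) : kap k φ y 1 = 0 := by
  have h1 : ins k ((1 : ℝ) / 2) y = ins k (-(1 / 2)) y + EuclideanSpace.single k (1 : ℝ) := by
    ext j
    refine Fin.succAboveCases k ?_ ?_ j
    · simp [ins_apply_self]; norm_num
    · intro j; simp [ins_apply_succAbove, Fin.succAbove_ne]
  have h2 : HasIntegerCoords (EuclideanSpace.single k (1 : ℝ)) := by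
    intro i
    by_cases hi : i = k
    · subst hi; exact ⟨1, by simp⟩
    · exact ⟨0, by simp [hi]⟩
  unfold kap
  rw [h1, hφ _ h2]
  simp

end Crest.Agent.T3.Stn
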