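import Crest.Agent.T3.StnDefs
import Crest.Agent.T3.Ins
import Crest.Agent.T3.Ibp
import Crest.Agent.T3.RigFub

/-! Row 214, Steiner step, chunk STN-C: continuity. -/

set_option autoImplicit false
open MeasureTheory Set Filter Topology
open Crest.GeometryTopology.PeriodicPerimeter

namespace Crest.Agent.T3.Stn

private theorem stc_ins {n : ℕ} (k : Fin (n + 1)) {g : EuclideanSpace ℝ (Fin n) × ℝ → ℝ}
    (hg : Continuous g) : Continuous (fun p : EuclideanSpace ℝ (Fin n) × ℝ => ins k (g p) p.1) :=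
  (ins_continuous k).comp (hg.prodMk continuous_fst)

private theorem stc_phi {n : ℕ} {φ : EuclideanSpace ℝ (Fin (n + 1)) → EuclideanSpace ℝ (Fin (n + 1))}
    (hφ : ContDiff ℝ 1 φ) (j : Fin (n + 1)) : Continuous (fun x => φ x j) :=
  (contDiff_euclidean.1 hφ j).continuous

/-- Joint continuity of `kap`, `mm`, `Hh`. For `Hh`:
`intervalIntegral.continuous_parametric_intervalIntegral_of_continuous` twice, splitting at `0`. -/
theorem kap_cont {n : ℕ} (k : Fin (n + 1))
    (φ : EuclideanSpace ℝ (Fin (n + 1)) → EuclideanSpace ℝ (Fin (n + 1))) (hφ : ContDiff ℝ 1 φ) :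
    Continuous (fun p : EuclideanSpace ℝ (Fin n) × ℝ => kap k φ p.1 p.2) := by
  unfold kap
  exact (((stc_phi hφ k).comp (stc_ins k (continuous_snd.div_const 2))).sub
    ((stc_phi hφ k).comp (stc_ins k (continuous_snd.div_const 2).neg))).div_const 2

theorem mm_cont {n : ℕ} (k : Fin (n + 1))
    (φ : EuclideanSpace ℝ (Fin (n + 1)) → EuclideanSpace ℝ (Fin (n + 1))) (hφ : ContDiff ℝ 1 φ)
    (i : Fin n) : Continuous (fun p : EuclideanSpace ℝ (Fin n) × ℝ => mm k φ p.1 p.2 i) := by
  unfold mm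
  exact (((stc_phi hφ _).comp (stc_ins k (continuous_snd.div_const 2))).add
    ((stc_phi hφ _).comp (stc_ins k (continuous_snd.div_const 2).neg))).div_const 2

theorem hdv_cont {n : ℕ} (k : Fin (n + 1))
    (φ : EuclideanSpace ℝ (Fin (n + 1)) → EuclideanSpace ℝ (Fin (n + 1))) (hφ : ContDiff ℝ 1 φ) :
    Continuous (hdv k φ) := by
  unfold hdv dd
  exact continuous_finsetSum _ fun i _ =>
    ((contDiff_euclidean.1 hφ (k.succAbove i)).continuous_fderiv (by norm_num)).clm_apply
      continuous_const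

theorem Hh_cont {n : ℕ} (k : Fin (n + 1))
    (φ : EuclideanSpace ℝ (Fin (n + 1)) → EuclideanSpace ℝ (Fin (n + 1))) (hφ : ContDiff ℝ 1 φ) :
    Continuous (fun p : EuclideanSpace ℝ (Fin n) × ℝ => Hh k φ p.1 p.2) := by
  have hc := hdv_cont k φ hφ
  have h1 : Continuous (Function.uncurry
      (fun (p : EuclideanSpace ℝ (Fin n) × ℝ) (t : ℝ) => hdv k φ (ins k t p.1))) := by
    have h0 : Continuous (fun q : (EuclideanSpace ℝ (Fin n) × ℝ) × ℝ => (q.2, q.1.1)) :=
      continuous_snd.prodMk (continuous_fst.comp continuous_fst)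
    exact hc.comp ((ins_continuous k).comp h0)
  have h2 := intervalIntegral.continuous_parametric_intervalIntegral_of_continuous
    (μ := volume) (a₀ := 0) h1 (s := fun p => p.2 / 2) (continuous_snd.div_const 2)
  have h3 := intervalIntegral.continuous_parametric_intervalIntegral_of_continuous
    (μ := volume) (a₀ := 0) h1 (s := fun p => -(p.2 / 2)) (continuous_snd.div_const 2).neg
  refine (h2.sub h3).congr fun p => ?_
  have hi : ∀ a b : ℝ, IntervalIntegrable (fun t => hdv k φ (ins k t p.1)) volume a b := by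
    intro a b
    refine Continuous.intervalIntegrable ?_ a b
    have h0 : Continuous (fun t : ℝ => (t, p.1)) := continuous_id.prodMk continuous_const
    exact hc.comp ((ins_continuous k).comp h0)
  unfold Hh
  exact intervalIntegral.integral_interval_sub_left (hi _ _) (hi _ _)

/-- `Hh` is bounded on `cell × [0,1]` (compactness of the closure of the cell). -/
theorem Hh_bdd {n : ℕ} (k : Fin (n + 1))
    (φ : EuclideanSpace ℝ (Fin (n + 1)) → EuclideanSpace ℝ (Fin (n + 1))) (hφ : ContDiff ℝ 1 φ) :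
    ∃ C : ℝ, ∀ y ∈ unitCell n, ∀ h ∈ Icc (0 : ℝ) 1, |Hh k φ y h| ≤ C := by
  have hK : IsCompact ((fun x : Fin n → ℝ => (WithLp.toLp 2 x : EuclideanSpace ℝ (Fin n))) ''
      (Set.pi univ fun _ => Icc (0 : ℝ) 1)) := by
    refine IsCompact.image (isCompact_univ_pi fun _ => isCompact_Icc) ?_
    exact PiLp.continuous_toLp 2 _
  obtain ⟨C, hC⟩ := (hK.prod (isCompact_Icc (a := (0 : ℝ)) (b := 1))).exists_bound_of_continuousOn
    (Hh_cont k φ hφ).continuousOn
  refine ⟨C, fun y hy h hh => ?_⟩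
  refine hC (y, h) ⟨⟨fun i => y i, fun i _ => ⟨(hy i).1, (hy i).2.le⟩, rfl⟩, hh⟩

end Crest.Agent.T3.Stn
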