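import Crest.Agent.T3.StnP

/-! Row 214, Steiner step, chunk STN-D: `lf k f`. -/

set_option autoImplicit false
open MeasureTheory Set Filter Topology
open Crest.GeometryTopology.PeriodicPerimeter

namespace Crest.Agent.T3.Stn

private theorem stnD_ins_add {n : ℕ} (k : Fin (n + 1)) (t : ℝ) (y v : EuclideanSpace ℝ (Fin n)) :
    ins k t (y + v) = ins k t y + ins k 0 v := by
  ext j
  refine Fin.succAboveCases k ?_ ?_ j
  · simp [ins_apply_self]
  · intro j
    simp [ins_apply_succAbove]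

private theorem stnD_ins_int {n : ℕ} (k : Fin (n + 1)) {v : EuclideanSpace ℝ (Fin n)}
    (hv : HasIntegerCoords v) : HasIntegerCoords (ins k 0 v) := by
  intro j
  refine Fin.succAboveCases k ?_ ?_ j
  · exact ⟨0, by simp [ins_apply_self]⟩
  · intro j
    obtain ⟨m, hm⟩ := hv j
    exact ⟨m, by rw [ins_apply_succAbove, hm]⟩

private theorem stnD_F {n : ℕ} (k : Fin (n + 1)) (f : EuclideanSpace ℝ (Fin (n + 1)) → ℝ)
    (hf : ContDiff ℝ 1 f) :
    ContDiff ℝ 1 (fun p : EuclideanSpace ℝ (Fin n) × ℝ => f (ins k p.2 p.1)) :=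
  hf.comp ((ins_contDiff k).comp (contDiff_snd.prodMk contDiff_fst))

/-- CHUNK STN-D: `lf k f` is `C¹` and periodic, differentiation under the integral.
PROOF. `lf k f y = Ψ(y, 1)`, `prim_param` with `F y t = f (ins k t y)`, direction `(v, 0)`;
`fderiv_ins_slice`. -/
theorem lf_contDiff {n : ℕ} (k : Fin (n + 1)) (f : EuclideanSpace ℝ (Fin (n + 1)) → ℝ)
    (hf : ContDiff ℝ 1 f) : ContDiff ℝ 1 (lf k f) := by
  have h1 := (prim_param (fun (y : EuclideanSpace ℝ (Fin n)) (t : ℝ) => f (ins k t y))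
    (stnD_F k f hf)).1
  have h2 : ContDiff ℝ 1 (fun y : EuclideanSpace ℝ (Fin n) => (y, (1 : ℝ))) :=
    contDiff_id.prodMk contDiff_const
  exact h1.comp h2

theorem lf_dd {n : ℕ} (k : Fin (n + 1)) (f : EuclideanSpace ℝ (Fin (n + 1)) → ℝ)
    (hf : ContDiff ℝ 1 f) (i : Fin n) (y : EuclideanSpace ℝ (Fin n)) :
    dd i (lf k f) y = ∫ t in (0 : ℝ)..1, dd (k.succAbove i) f (ins k t y) := by
  obtain ⟨h1, h2⟩ := prim_param (fun (y : EuclideanSpace ℝ (Fin n)) (t : ℝ) => f (ins k t y))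
    (stnD_F k f hf)
  set Ψ : EuclideanSpace ℝ (Fin n) × ℝ → ℝ := fun p => ∫ t in (0 : ℝ)..p.2, f (ins k t p.1) with hΨ
  have h3 : HasFDerivAt Ψ (fderiv ℝ Ψ (y, 1)) (y, (1 : ℝ)) :=
    (h1.differentiable (by norm_num) _).hasFDerivAt
  have h4 : HasFDerivAt (fun z : EuclideanSpace ℝ (Fin n) => (z, (1 : ℝ)))
      (ContinuousLinearMap.inl ℝ (EuclideanSpace ℝ (Fin n)) ℝ) y := hasFDerivAt_prodMk_left y 1
  have h5 : HasFDerivAt (Ψ ∘ fun z : EuclideanSpace ℝ (Fin n) => (z, (1 : ℝ)))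
      ((fderiv ℝ Ψ (y, 1)).comp (ContinuousLinearMap.inl ℝ (EuclideanSpace ℝ (Fin n)) ℝ)) y :=
    HasFDerivAt.comp (g := Ψ) y h3 h4
  have h7 : lf k f = Ψ ∘ fun z : EuclideanSpace ℝ (Fin n) => (z, (1 : ℝ)) := rfl
  unfold dd
  rw [h7, h5.fderiv, ContinuousLinearMap.comp_apply, ContinuousLinearMap.inl_apply]
  have h6 := h2 y (EuclideanSpace.single i 1) 1 0
  rw [mul_zero, add_zero] at h6
  refine h6.trans ?_
  refine intervalIntegral.integral_congr fun t _ => ?_
  exact fderiv_ins_slice f hf k t y i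

theorem lf_per {n : ℕ} (k : Fin (n + 1)) (f : EuclideanSpace ℝ (Fin (n + 1)) → ℝ)
    (hf : Per f) : Per (lf k f) := by
  intro v hv y
  unfold lf
  refine intervalIntegral.integral_congr fun t _ => ?_
  show f (ins k t (y + v)) = f (ins k t y)
  rw [stnD_ins_add]
  exact hf _ (stnD_ins_int k hv) _

theorem lf_mem {n : ℕ} (k : Fin (n + 1)) (f : EuclideanSpace ℝ (Fin (n + 1)) → ℝ)
    (hf : ContDiff ℝ 1 f) (h01 : ∀ x, f x ∈ Icc (0 : ℝ) 1) (y : EuclideanSpace ℝ (Fin n)) :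
    lf k f y ∈ Icc (0 : ℝ) 1 := by
  unfold lf
  have hc : Continuous (fun t : ℝ => f (ins k t y)) := by
    have h0 : Continuous (fun t : ℝ => (t, y)) := continuous_id.prodMk continuous_const
    exact hf.continuous.comp ((ins_continuous k).comp h0)
  constructor
  · exact intervalIntegral.integral_nonneg zero_le_one fun t _ => (h01 _).1
  · have h1 : ∫ t in (0 : ℝ)..1, f (ins k t y) ≤ ∫ _t in (0 : ℝ)..1, (1 : ℝ) :=
      intervalIntegral.integral_mono_on zero_le_one (hc.intervalIntegrable _ _)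
        (continuous_const.intervalIntegrable _ _) fun t _ => (h01 _).2
    simpa using h1

end Crest.Agent.T3.Stn
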