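import Crest.Agent.T3.StnA
import Crest.Agent.T3.StnB
import Crest.Agent.T3.StnC
import Crest.Agent.T3.StnD

/-! Row 214, Steiner step, chunk STN-E: the inequality for one smooth function. -/

set_option autoImplicit false
open MeasureTheory Set Filter Topology
open Crest.GeometryTopology.PeriodicPerimeter

namespace Crest.Agent.T3.Stn

private theorem stnE_dd_cont {n : ℕ} (i : Fin n) {F : EuclideanSpace ℝ (Fin n) → ℝ}
    (hF : ContDiff ℝ 1 F) : Continuous (dd i F) :=
  (hF.continuous_fderiv (by norm_num)).clm_apply continuous_const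

private theorem stnE_Ico (g : ℝ → ℝ) : ∫ t in Ico (0 : ℝ) 1, g t = ∫ t in (0 : ℝ)..1, g t := by
  rw [intervalIntegral.integral_of_le zero_le_one, integral_Ico_eq_integral_Ioc]

private theorem stnE_ins_cont {n : ℕ} (k : Fin (n + 1)) (y : EuclideanSpace ℝ (Fin n)) :
    Continuous (fun t : ℝ => ins k t y) :=
  (ins_continuous k).comp (continuous_id.prodMk continuous_const)

private theorem stnE_par_cont {n : ℕ} (k : Fin (n + 1)) (g : EuclideanSpace ℝ (Fin (n + 1)) → ℝ)
    (hg : Continuous g) :
    Continuous (fun y : EuclideanSpace ℝ (Fin n) => ∫ t in Ico (0 : ℝ) 1, g (ins k t y)) := by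
  simp only [stnE_Ico]
  refine intervalIntegral.continuous_parametric_intervalIntegral_of_continuous' (μ := volume)
    (f := fun y t => g (ins k t y)) ?_ 0 1
  exact hg.comp ((ins_continuous k).comp continuous_swap)

private theorem stnE_lint {n : ℕ} (k : Fin (n + 1)) (g : EuclideanSpace ℝ (Fin (n + 1)) → ℝ)
    (hg : Continuous g) (y : EuclideanSpace ℝ (Fin n)) :
    IntegrableOn (fun t => g (ins k t y)) (Ico (0 : ℝ) 1) :=
  ((hg.comp (stnE_ins_cont k y)).integrableOn_Icc (a := 0) (b := 1)).mono_set Ico_subset_Icc_self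

/-- PROOF. `∫_cell gr f = ∫_y ∫_t gr f (ins k t y)` (`integral_cell`); `stnB_point` at `ins k t y` with
`m = mm k φ y (lf k f y)`, `κ = kap k φ y (lf k f y)` (`stnB_conv`); integrate in `t`: the first term is
`-∑ mm_i * dd i (lf k f) y` (`lf_dd`); `stnA` for `G = fun z => φ z (k.succAbove i)`, summed over `i`, gives
`∫_y -∑ mm_i dd i (lf) = ∫_y Hh k φ y (lf y)`. -/
theorem stnE {n : ℕ} (k : Fin (n + 1)) (f : EuclideanSpace ℝ (Fin (n + 1)) → ℝ)
    (hf : ContDiff ℝ 1 f) (hfp : Per f)
    (φ : EuclideanSpace ℝ (Fin (n + 1)) → EuclideanSpace ℝ (Fin (n + 1))) (hφ : IsAdmissibleField φ) :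
    ∫ y in unitCell n, (Hh k φ y (lf k f y) +
      max (kap k φ y (lf k f y)) 0 * ∫ t in Ico (0 : ℝ) 1, |dd k f (ins k t y)|) ≤
      ∫ x in unitCell (n + 1), gr f x := by
  obtain ⟨hφ1, hφp, hφn⟩ := hφ
  have hlc : ContDiff ℝ 1 (lf k f) := lf_contDiff k f hf
  have hcomp : ∀ i : Fin (n + 1), ContDiff ℝ 1 (fun z => φ z i) := fun i =>
    (contDiff_euclidean.1 hφ1) i
  have hcompp : ∀ i : Fin (n + 1), Per (fun z => φ z i) := fun i v hv x => by
    show φ (x + v) i = φ x i
    rw [hφp v hv x]
  -- continuity facts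
  have hpair : Continuous (fun y : EuclideanSpace ℝ (Fin n) => (y, lf k f y)) :=
    continuous_id.prodMk hlc.continuous
  have cH : Continuous (fun y => Hh k φ y (lf k f y)) := (Hh_cont k φ hφ1).comp hpair
  have cK : Continuous (fun y => kap k φ y (lf k f y)) := (kap_cont k φ hφ1).comp hpair
  have cM : ∀ i, Continuous (fun y => mm k φ y (lf k f y) i) := fun i => (mm_cont k φ hφ1 i).comp hpair
  have cG : Continuous (fun y : EuclideanSpace ℝ (Fin n) => ∫ t in Ico (0 : ℝ) 1, |dd k f (ins k t y)|) :=
    stnE_par_cont k (fun x => |dd k f x|) (stnE_dd_cont k hf).abs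
  have cKG : Continuous (fun y => max (kap k φ y (lf k f y)) 0 *
      ∫ t in Ico (0 : ℝ) 1, |dd k f (ins k t y)|) := (cK.max continuous_const).mul cG
  have cS : Continuous (fun y => ∑ i, mm k φ y (lf k f y) i * dd i (lf k f) y) :=
    continuous_finsetSum _ fun i _ => (cM i).mul (stnE_dd_cont i hlc)
  have cSn : Continuous (fun y => -(∑ i, mm k φ y (lf k f y) i * dd i (lf k f) y)) := cS.neg
  have cR : Continuous (fun y : EuclideanSpace ℝ (Fin n) => ∫ t in Ico (0 : ℝ) 1, gr f (ins k t y)) :=
    stnE_par_cont k (gr f) (gr_continuous f hf)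
  -- integration by parts
  have hA : ∫ y in unitCell n, Hh k φ y (lf k f y) =
      ∫ y in unitCell n, -(∑ i, mm k φ y (lf k f y) i * dd i (lf k f) y) := by
    have h1 : ∀ i : Fin n, ∫ y in unitCell n,
        ((∫ t in (-(lf k f y / 2))..(lf k f y / 2), dd (k.succAbove i) (fun z => φ z (k.succAbove i)) (ins k t y)) +
          mm k φ y (lf k f y) i * dd i (lf k f) y) = 0 := fun i =>
      stnA k (fun z => φ z (k.succAbove i)) (hcomp _) (hcompp _) (lf k f) hlc (lf_per k f hfp) i
    have cI : ∀ i : Fin n, Continuous (fun y : EuclideanSpace ℝ (Fin n) =>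
        (∫ t in (-(lf k f y / 2))..(lf k f y / 2), dd (k.succAbove i) (fun z => φ z (k.succAbove i)) (ins k t y))) := by
      intro i
      have cc : Continuous (fun p : EuclideanSpace ℝ (Fin n) × ℝ =>
          dd (k.succAbove i) (fun z => φ z (k.succAbove i)) (ins k p.2 p.1)) :=
        (stnE_dd_cont _ (hcomp _)).comp ((ins_continuous k).comp continuous_swap)
      have hint : ∀ (y : EuclideanSpace ℝ (Fin n)) (a b : ℝ), IntervalIntegrable
          (fun t => dd (k.succAbove i) (fun z => φ z (k.succAbove i)) (ins k t y)) volume a b := fun y a b =>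
        ((stnE_dd_cont _ (hcomp _)).comp (stnE_ins_cont k y)).intervalIntegrable a b
      have e1 : (fun y : EuclideanSpace ℝ (Fin n) =>
        (∫ t in (-(lf k f y / 2))..(lf k f y / 2), dd (k.succAbove i) (fun z => φ z (k.succAbove i)) (ins k t y))) =
        fun y => (∫ t in (0:ℝ)..(lf k f y / 2), dd (k.succAbove i) (fun z => φ z (k.succAbove i)) (ins k t y)) -
          (∫ t in (0:ℝ)..(-(lf k f y / 2)), dd (k.succAbove i) (fun z => φ z (k.succAbove i)) (ins k t y)) := by
        funext y
        rw [intervalIntegral.integral_interval_sub_left (hint y _ _) (hint y _ _)]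
      rw [e1]
      refine Continuous.sub ?_ ?_
      · exact intervalIntegral.continuous_parametric_intervalIntegral_of_continuous (μ := volume)
          (f := fun y t => dd (k.succAbove i) (fun z => φ z (k.succAbove i)) (ins k t y)) cc
          (hlc.continuous.div_const 2)
      · exact intervalIntegral.continuous_parametric_intervalIntegral_of_continuous (μ := volume)
          (f := fun y t => dd (k.succAbove i) (fun z => φ z (k.succAbove i)) (ins k t y)) cc
          (hlc.continuous.div_const 2).neg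
    have h2 : ∫ y in unitCell n, ∑ i, ((∫ t in (-(lf k f y / 2))..(lf k f y / 2),
        dd (k.succAbove i) (fun z => φ z (k.succAbove i)) (ins k t y)) +
          mm k φ y (lf k f y) i * dd i (lf k f) y) = 0 := by
      rw [integral_finsetSum]
      · exact Finset.sum_eq_zero fun i _ => h1 i
      · intro i _
        exact cont_integrableOn_cell _ ((cI i).add ((cM i).mul (stnE_dd_cont i hlc)))
    have h3 : ∀ y, ∑ i, ((∫ t in (-(lf k f y / 2))..(lf k f y / 2),
        dd (k.succAbove i) (fun z => φ z (k.succAbove i)) (ins k t y)) +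
          mm k φ y (lf k f y) i * dd i (lf k f) y) =
        Hh k φ y (lf k f y) + ∑ i, mm k φ y (lf k f y) i * dd i (lf k f) y := by
      intro y
      rw [Finset.sum_add_distrib]
      congr 1
      unfold Hh hdv
      rw [intervalIntegral.integral_finsetSum]
      intro i _
      exact ((stnE_dd_cont _ (hcomp _)).comp (stnE_ins_cont k y)).intervalIntegrable _ _
    simp only [h3] at h2
    rw [integral_add (cont_integrableOn_cell _ cH) (cont_integrableOn_cell _ cS)] at h2
    rw [integral_neg]
    linarith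
  rw [integral_add (cont_integrableOn_cell _ cH) (cont_integrableOn_cell _ cKG), hA,
    ← integral_add (cont_integrableOn_cell _ cSn) (cont_integrableOn_cell _ cKG),
    integral_cell k _ (cont_integrableOn_cell _ (gr_continuous f hf))]
  refine setIntegral_mono (cont_integrableOn_cell _ (cSn.add cKG)) (cont_integrableOn_cell _ cR) ?_
  intro y
  show -(∑ i, mm k φ y (lf k f y) i * dd i (lf k f) y) + max (kap k φ y (lf k f y)) 0 *
      ∫ t in Ico (0 : ℝ) 1, |dd k f (ins k t y)| ≤ ∫ t in Ico (0 : ℝ) 1, gr f (ins k t y)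
  have hpt : ∀ t : ℝ, -(∑ i, mm k φ y (lf k f y) i * dd (k.succAbove i) f (ins k t y)) +
      max (kap k φ y (lf k f y)) 0 * |dd k f (ins k t y)| ≤ gr f (ins k t y) := fun t =>
    stnB_point k f (ins k t y) (mm k φ y (lf k f y)) (kap k φ y (lf k f y))
      (stnB_conv k φ hφn y (lf k f y))
  have i1 : ∀ i : Fin n, IntegrableOn (fun t => dd (k.succAbove i) f (ins k t y)) (Ico (0 : ℝ) 1) := fun i =>
    stnE_lint k _ (stnE_dd_cont _ hf) y
  have i2 : IntegrableOn (fun t => |dd k f (ins k t y)|) (Ico (0 : ℝ) 1) :=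
    stnE_lint k (fun x => |dd k f x|) (stnE_dd_cont _ hf).abs y
  have i3 : IntegrableOn (fun t => gr f (ins k t y)) (Ico (0 : ℝ) 1) :=
    stnE_lint k _ (gr_continuous f hf) y
  have i4 : IntegrableOn (fun t => -(∑ i, mm k φ y (lf k f y) i * dd (k.succAbove i) f (ins k t y)))
      (Ico (0 : ℝ) 1) :=
    (integrable_finsetSum _ fun i _ => (i1 i).const_mul _).neg
  have e2 : -(∑ i, mm k φ y (lf k f y) i * dd i (lf k f) y) + max (kap k φ y (lf k f y)) 0 *
      ∫ t in Ico (0 : ℝ) 1, |dd k f (ins k t y)| =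
      ∫ t in Ico (0 : ℝ) 1, (-(∑ i, mm k φ y (lf k f y) i * dd (k.succAbove i) f (ins k t y)) +
        max (kap k φ y (lf k f y)) 0 * |dd k f (ins k t y)|) := by
    rw [integral_add i4 (i2.const_mul _), integral_neg, integral_finsetSum _ (fun i _ => (i1 i).const_mul _),
      integral_const_mul]
    congr 2
    refine Finset.sum_congr rfl fun i _ => ?_
    rw [integral_const_mul, lf_dd k f hf i y, stnE_Ico]
  rw [e2]
  exact setIntegral_mono (i4.add (i2.const_mul _)) i3 hpt

end Crest.Agent.T3.Stn
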