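import Crest.Agent.T3.StnM
import Crest.Agent.T3.StnC

/-! Row 214, Steiner step, chunk STN-G: Fubini for the symmetrised set. -/

set_option autoImplicit false
open MeasureTheory Set Filter Topology
open Crest.GeometryTopology.PeriodicPerimeter

namespace Crest.Agent.T3.Stn

theorem stnG_comp {n : ℕ} {m : ℕ} (φ : EuclideanSpace ℝ (Fin n) → EuclideanSpace ℝ (Fin m))
    (hφ : ContDiff ℝ 1 φ) (i : Fin m) : ContDiff ℝ 1 (fun z => φ z i) :=
  (contDiff_euclidean.1 hφ) i

theorem stnG_fderiv {n m : ℕ} (φ : EuclideanSpace ℝ (Fin n) → EuclideanSpace ℝ (Fin m))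
    (hφ : ContDiff ℝ 1 φ) (i : Fin m) (x v : EuclideanSpace ℝ (Fin n)) :
    fderiv ℝ (fun z => φ z i) x v = (fderiv ℝ φ x v) i := by
  have h1 : HasFDerivAt φ (fderiv ℝ φ x) x :=
    (hφ.differentiable (by norm_num)).differentiableAt.hasFDerivAt
  have h2 : HasFDerivAt (fun z => φ z i)
      ((EuclideanSpace.proj i : EuclideanSpace ℝ (Fin m) →L[ℝ] ℝ).comp (fderiv ℝ φ x)) x :=
    ((EuclideanSpace.proj i : EuclideanSpace ℝ (Fin m) →L[ℝ] ℝ).hasFDerivAt).comp x h1
  rw [h2.fderiv]
  rfl

theorem stnG_div {n : ℕ} (k : Fin (n + 1))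
    (φ : EuclideanSpace ℝ (Fin (n + 1)) → EuclideanSpace ℝ (Fin (n + 1))) (hφ : ContDiff ℝ 1 φ)
    (x : EuclideanSpace ℝ (Fin (n + 1))) :
    divergence φ x = hdv k φ x + dd k (fun z => φ z k) x := by
  unfold divergence hdv dd
  rw [Fin.sum_univ_succAbove _ k, add_comm]
  simp only [stnG_fderiv φ hφ]

theorem stnG_dd_cont {n : ℕ} (k : Fin n) (f : EuclideanSpace ℝ (Fin n) → ℝ)
    (hf : ContDiff ℝ 1 f) : Continuous (dd k f) :=
  (hf.continuous_fderiv (by norm_num)).clm_apply continuous_const

theorem stnG_St_meas {n : ℕ} (k : Fin (n + 1)) (E : Set (EuclideanSpace ℝ (Fin (n + 1))))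
    (hE : MeasurableSet E) : MeasurableSet (St k E) := by
  have h1 : Measurable (fun x : EuclideanSpace ℝ (Fin (n + 1)) => fold (x k)) :=
    (fold_continuous.comp (EuclideanSpace.proj k : EuclideanSpace ℝ (Fin (n + 1)) →L[ℝ] ℝ).continuous).measurable
  have h2 : Measurable (fun x : EuclideanSpace ℝ (Fin (n + 1)) => rem k x) := by
    have : Continuous (fun x : EuclideanSpace ℝ (Fin (n + 1)) => rem k x) := by
      unfold rem
      refine (PiLp.continuous_toLp 2 _).comp ?_
      exact continuous_pi fun i =>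
        (EuclideanSpace.proj (k.succAbove i) : EuclideanSpace ℝ (Fin (n + 1)) →L[ℝ] ℝ).continuous
    exact this.measurable
  exact measurableSet_lt h1 ((ll_meas k E hE).comp h2)

theorem stnG_ins_add_one {n : ℕ} (k : Fin (n + 1)) (t : ℝ) (y : EuclideanSpace ℝ (Fin n)) :
    ins k (t + 1) y = ins k t y + ins k 1 0 := by
  ext i
  refine Fin.succAboveCases k ?_ ?_ i
  · rw [PiLp.add_apply, ins_apply_self, ins_apply_self, ins_apply_self]
  · intro j
    rw [PiLp.add_apply, ins_apply_succAbove, ins_apply_succAbove, ins_apply_succAbove]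
    simp

theorem stnG_int {n : ℕ} (k : Fin (n + 1)) : HasIntegerCoords (ins k 1 (0 : EuclideanSpace ℝ (Fin n))) := by
  intro i
  refine Fin.succAboveCases k ?_ ?_ i
  · exact ⟨1, by rw [ins_apply_self]; simp⟩
  · intro j
    exact ⟨0, by rw [ins_apply_succAbove]; simp⟩

/-- CHUNK STN-G: Fubini. PROOF: `integral_cell_set`, `lineE_St`, `rigarc_integral` with `m = 0`;
`divergence φ x = hdv k φ x + dd k (fun z => φ z k) x` (`Fin.sum_univ_succAbove`, the derivative of a
component is the component of the derivative), and the fundamental theorem of calculus for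
`t ↦ φ (ins k t y) k` (`hasDerivAt_ins`). -/
theorem stnG {n : ℕ} (k : Fin (n + 1)) (E : Set (EuclideanSpace ℝ (Fin (n + 1))))
    (hE : MeasurableSet E)
    (φ : EuclideanSpace ℝ (Fin (n + 1)) → EuclideanSpace ℝ (Fin (n + 1))) (hφ : IsAdmissibleField φ) :
    ∫ x in St k E ∩ unitCell (n + 1), divergence φ x =
      ∫ y in unitCell n, (Hh k φ y (ll k E y) + 2 * kap k φ y (ll k E y)) := by
  obtain ⟨hc, hp, -⟩ := hφ
  have hck := stnG_comp φ hc k
  have hdd := stnG_dd_cont k _ hck
  have hhd := hdv_cont k φ hc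
  have hdiv : divergence φ = fun x => hdv k φ x + dd k (fun z => φ z k) x :=
    funext (stnG_div k φ hc)
  have hdc : Continuous (divergence φ) := by
    rw [hdiv]
    exact hhd.add hdd
  have hper : ∀ y : EuclideanSpace ℝ (Fin n), ∀ t : ℝ,
      divergence φ (ins k (t + 1) y) = divergence φ (ins k t y) := by
    intro y t
    have h1 : ∀ x, fderiv ℝ φ (x + ins k 1 0) = fderiv ℝ φ x := by
      intro x
      rw [← fderiv_comp_add_right]
      congr 1
      funext z
      exact hp _ (stnG_int k) z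
    unfold divergence
    rw [stnG_ins_add_one, h1]
  rw [integral_cell_set k _ (stnG_St_meas k E hE) _ (cont_integrableOn_cell _ hdc)]
  refine setIntegral_congr_fun (measurableSet_unitCell n) fun y _ => ?_
  obtain ⟨l0, l1⟩ := ll_mem k E y
  have hins : Continuous (fun t : ℝ => ins k t y) :=
    (ins_continuous k).comp (continuous_id.prodMk continuous_const)
  show ∫ t in lineE k (St k E) y ∩ Ico (0 : ℝ) 1, divergence φ (ins k t y) =
    Hh k φ y (ll k E y) + 2 * kap k φ y (ll k E y)
  rw [lineE_St, rigarc_integral (fun t => divergence φ (ins k t y)) (hper y) 0 _ l0 l1, zero_sub,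
    zero_add]
  have h2 : ∫ t in (-(ll k E y / 2))..(ll k E y / 2), divergence φ (ins k t y) =
      (∫ t in (-(ll k E y / 2))..(ll k E y / 2), hdv k φ (ins k t y)) +
        ∫ t in (-(ll k E y / 2))..(ll k E y / 2), dd k (fun z => φ z k) (ins k t y) := by
    have h4 : Continuous (fun t => hdv k φ (ins k t y)) := hhd.comp hins
    have h5 : Continuous (fun t => dd k (fun z => φ z k) (ins k t y)) := hdd.comp hins
    rw [← intervalIntegral.integral_add (h4.intervalIntegrable _ _) (h5.intervalIntegrable _ _),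
      hdiv]
  have h3 : ∫ t in (-(ll k E y / 2))..(ll k E y / 2), dd k (fun z => φ z k) (ins k t y) =
      φ (ins k (ll k E y / 2) y) k - φ (ins k (-(ll k E y / 2)) y) k :=
    intervalIntegral.integral_eq_sub_of_hasDerivAt
      (fun t _ => hasDerivAt_ins (fun z => φ z k) hck k t y)
      ((hdd.comp hins).intervalIntegrable _ _)
  rw [h2, h3]
  unfold Hh kap
  ring

end Crest.Agent.T3.Stn
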