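import Crest.Agent.T3.RigStn
import Crest.Agent.T3.StnE
import Crest.Agent.T3.StnG
import Crest.Agent.T3.RigL2
import Crest.Agent.T3.Moll
/-! Row 214: Steiner symmetrisation does not increase the perimeter. -/
set_option autoImplicit false
open MeasureTheory Set Filter Topology
open Crest.GeometryTopology.PeriodicPerimeter
namespace Crest.Agent.T3
noncomputable section

/-- The total variation in direction `k` over `y`. -/
def pk (k : Fin 3) (f : E3 → ℝ) (y : E2) : ℝ := ∫ t in Ico (0 : ℝ) 1, |dd k f (ins k t y)|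

theorem pk_nonneg (k : Fin 3) (f : E3 → ℝ) (y : E2) : 0 ≤ pk k f y :=
  integral_nonneg fun _ => abs_nonneg _

theorem pk_cont (k : Fin 3) (f : E3 → ℝ) (hf : ContDiff ℝ 1 f) : Continuous (pk k f) := by
  have h1 : Continuous (fun x => |dd k f x|) := (rl_dd_cont k f hf).abs
  have h2 : Continuous (Function.uncurry fun (y : E2) (t : ℝ) => |dd k f (ins k t y)|) :=
    h1.comp ((ins_continuous k).comp (continuous_snd.prodMk continuous_fst))
  have h3 := intervalIntegral.continuous_parametric_intervalIntegral_of_continuous'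
    (μ := volume) h2 0 1
  have h4 : pk k f = fun y => ∫ t in (0 : ℝ)..1, |dd k f (ins k t y)| := by
    funext y
    unfold pk
    rw [intervalIntegral.integral_of_le zero_le_one, integral_Ico_eq_integral_Ioc]
  rw [h4]; exact h3

theorem ste_int_cell {F : E2 → ℝ} (hF : AEStronglyMeasurable F (volume.restrict (unitCell 2)))
    {C : ℝ} (hC : ∀ y ∈ unitCell 2, |F y| ≤ C) : IntegrableOn F (unitCell 2) := by
  have hfin : volume (unitCell 2) < ⊤ := by rw [volume_unitCell]; exact ENNReal.one_lt_top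
  have : IsFiniteMeasure (volume.restrict (unitCell 2)) := ⟨by rwa [Measure.restrict_apply_univ]⟩
  refine Integrable.of_bound hF C ?_
  filter_upwards [ae_restrict_mem (measurableSet_unitCell 2)] with y hy
  exact hC y hy

theorem ste_ins_one (k : Fin 3) (t : ℝ) (y : E2) :
    ins k (t + 1) y = ins k t y + EuclideanSpace.single k 1 := by
  ext i
  refine Fin.succAboveCases k ?_ ?_ i
  · simp [ins_apply_self]
  · intro i'; simp [ins_apply_succAbove]

theorem ste_single (k : Fin 3) : HasIntegerCoords (EuclideanSpace.single k (1 : ℝ)) := by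
  intro i
  by_cases hi : i = k
  · subst hi; exact ⟨1, by simp⟩
  · exact ⟨0, by simp [hi]⟩

/-- convergence of the line integrals -/
theorem ste_l (k : Fin 3) (E : Set E3) (hE : MeasurableSet E) (c : ℝ) (f : ℕ → E3 → ℝ)
    (hf : Approx E c f) (y : E2)
    (hy' : ∀ᵐ t : ℝ, Tendsto (fun j => f j (ins k t y)) atTop
        (𝓝 ((lineE k E y).indicator (fun _ => (1 : ℝ)) t))) :
    Tendsto (fun j => Stn.lf k (f j) y) atTop (𝓝 (ll k E y)) := by
  have hlineM : MeasurableSet (lineE k E y) := rigFub_meas_ins k y hE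
  have e : ll k E y = ∫ t in (0 : ℝ)..1, (lineE k E y).indicator (fun _ => (1 : ℝ)) t := by
    rw [intervalIntegral.integral_of_le zero_le_one, ← integral_Ico_eq_integral_Ioc,
      setIntegral_indicator hlineM, inter_comm, setIntegral_const, smul_eq_mul, mul_one]
    rfl
  rw [e]
  unfold Stn.lf
  refine intervalIntegral.tendsto_integral_filter_of_dominated_convergence (fun _ => 1) ?_ ?_ ?_ ?_
  · refine Eventually.of_forall fun j => ?_
    exact ((hf.smooth j).continuous.comp ((ins_continuous k).comp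
      (continuous_id.prodMk continuous_const))).aestronglyMeasurable
  · refine Eventually.of_forall fun j => Eventually.of_forall fun t _ => ?_
    have := hf.mem j (ins k t y)
    rw [Real.norm_eq_abs, abs_of_nonneg this.1]; exact this.2
  · exact intervalIntegrable_const
  · filter_upwards [hy'] with t ht _
    exact ht

/-- convergence of the truncated variations -/
theorem ste_p (k : Fin 3) (E : Set E3) (hE : MeasurableSet E) (hEp : IsLatticePeriodic E) (c : ℝ)
    (f : ℕ → E3 → ℝ) (hf : Approx E c f) (y : E2)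
    (hy' : ∀ᵐ t : ℝ, Tendsto (fun j => f j (ins k t y)) atTop
        (𝓝 ((lineE k E y).indicator (fun _ => (1 : ℝ)) t)))
    (h0 : 0 < ll k E y) (h1 : ll k E y < 1) :
    Tendsto (fun j => min (pk k (f j) y) 2) atTop (𝓝 2) := by
  have hlineM : MeasurableSet (lineE k E y) := rigFub_meas_ins k y hE
  have hfs : ∀ j, ContDiff ℝ 1 (f j) := fun j => (hf.smooth j).of_le (by norm_num)
  have hg : ∀ j, ContDiff ℝ 1 (fun t => f j (ins k t y)) := fun j =>
    (hfs j).comp ((ins_contDiff k (m := 1)).comp (contDiff_id.prodMk contDiff_const))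
  have hp : ∀ j t, f j (ins k (t + 1) y) = f j (ins k t y) := fun j t => by
    rw [ste_ins_one]; exact hf.per j _ (ste_single k) _
  have hA : ∀ t, t + 1 ∈ lineE k E y ↔ t ∈ lineE k E y := fun t => by
    show ins k (t + 1) y ∈ E ↔ ins k t y ∈ E
    rw [ste_ins_one]; exact hEp _ (ste_single k) _
  rw [Metric.tendsto_atTop]
  intro ε hε
  obtain ⟨N, hN⟩ := eventually_atTop.1
    (lsc2 (fun j t => f j (ins k t y)) hg hp (lineE k E y) hlineM hA hy' h0 h1 (ε / 2) (by positivity))
  refine ⟨N, fun j hjN => ?_⟩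
  have h3 := hN j hjN
  have h2 : (∫ t in Ico (0 : ℝ) 1, |deriv (fun t => f j (ins k t y)) t|) = pk k (f j) y := by
    unfold pk
    simp only [deriv_ins k (f j) (hfs j) y]
  rw [h2] at h3
  rw [Real.dist_eq, abs_lt]
  have h4 : 2 - ε / 2 ≤ min (pk k (f j) y) 2 := le_min h3 (by linarith)
  have h5 := min_le_right (pk k (f j) y) 2
  constructor <;> linarith

theorem ste_kap_bdd (k : Fin 3) (φ : E3 → E3) (hφ : IsAdmissibleField φ) (y : E2) (h : ℝ) :
    |Stn.kap k φ y h| ≤ 1 := by
  rw [← sq_le_one_iff_abs_le_one]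
  have := Stn.stnB_conv k φ hφ.2.2 y h
  have h2 : 0 ≤ ∑ i, Stn.mm k φ y h i ^ 2 := Finset.sum_nonneg fun i _ => sq_nonneg _
  linarith

theorem ste_kap_bdd' (k : Fin 3) (φ : E3 → E3) (hφ : IsAdmissibleField φ) (y : E2) (h : ℝ) :
    |max (Stn.kap k φ y h) 0| ≤ 1 := by
  rw [abs_of_nonneg (le_max_right _ _)]
  exact max_le ((le_abs_self _).trans (ste_kap_bdd k φ hφ y h)) zero_le_one

theorem ste_min (k : Fin 3) (f : E3 → ℝ) (y : E2) : |min (pk k f y) 2| ≤ 2 := by
  rw [abs_of_nonneg (le_min (pk_nonneg _ _ _) zero_le_two)]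
  exact min_le_right _ _

/-- the integrand for the function `f` -/
def steF (k : Fin 3) (φ : E3 → E3) (f : E3 → ℝ) (y : E2) : ℝ :=
  Stn.Hh k φ y (Stn.lf k f y) + max (Stn.kap k φ y (Stn.lf k f y)) 0 * min (pk k f y) 2

/-- the limit integrand -/
def steL (k : Fin 3) (φ : E3 → E3) (E : Set E3) (y : E2) : ℝ :=
  Stn.Hh k φ y (ll k E y) + 2 * max (Stn.kap k φ y (ll k E y)) 0

theorem ste_lim (k : Fin 3) (E : Set E3) (hE : MeasurableSet E) (hEp : IsLatticePeriodic E) (c : ℝ)
    (f : ℕ → E3 → ℝ) (hf : Approx E c f) (φ : E3 → E3) (hφ : IsAdmissibleField φ) :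
    ∀ᵐ y : E2, Tendsto (fun j => steF k φ (f j) y) atTop (𝓝 (steL k φ E y)) := by
  have hHc := Stn.Hh_cont k φ hφ.1
  have hKc := Stn.kap_cont k φ hφ.1
  filter_upwards [ae_line k hf.ae] with y hy
  have hy' : ∀ᵐ t : ℝ, Tendsto (fun j => f j (ins k t y)) atTop
      (𝓝 ((lineE k E y).indicator (fun _ => (1 : ℝ)) t)) := by
    filter_upwards [hy] with t ht
    have : E.indicator (fun _ => (1 : ℝ)) (ins k t y) =
        (lineE k E y).indicator (fun _ => (1 : ℝ)) t := rfl
    rwa [this] at ht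
  have hl := ste_l k E hE c f hf y hy'
  have hHt : Tendsto (fun j => Stn.Hh k φ y (Stn.lf k (f j) y)) atTop
      (𝓝 (Stn.Hh k φ y (ll k E y))) :=
    ((hHc.comp (continuous_const.prodMk continuous_id)).tendsto (ll k E y)).comp hl
  have hKt : Tendsto (fun j => max (Stn.kap k φ y (Stn.lf k (f j) y)) 0) atTop
      (𝓝 (max (Stn.kap k φ y (ll k E y)) 0)) :=
    (((hKc.comp (continuous_const.prodMk continuous_id)).max continuous_const).tendsto
      (ll k E y)).comp hl
  unfold steF steL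
  refine hHt.add ?_
  have hmem := Stn.ll_mem k E y
  by_cases h01 : 0 < ll k E y ∧ ll k E y < 1
  · have := hKt.mul (ste_p k E hE hEp c f hf y hy' h01.1 h01.2)
    rwa [mul_comm (max (Stn.kap k φ y (ll k E y)) 0) 2] at this
  · have hk0 : Stn.kap k φ y (ll k E y) = 0 := by
      rcases eq_or_lt_of_le hmem.1 with h | h
      · rw [← h]; exact Stn.kap_zero k φ y
      · have h1 : ll k E y = 1 := by
          by_contra hne
          exact h01 ⟨h, lt_of_le_of_ne hmem.2 hne⟩
        rw [h1]; exact Stn.kap_one k φ (fun v hv x => hφ.2.1 v hv x) y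
    rw [hk0] at hKt ⊢
    rw [max_self] at hKt ⊢
    rw [mul_zero]
    refine squeeze_zero_norm (a := fun j => max (Stn.kap k φ y (Stn.lf k (f j) y)) 0 * 2) ?_ ?_
    · intro j
      rw [norm_mul, Real.norm_eq_abs, Real.norm_eq_abs]
      rw [abs_of_nonneg (le_max_right _ _)]
      exact mul_le_mul_of_nonneg_left (ste_min k (f j) y) (le_max_right _ _)
    · simpa using hKt.mul_const 2

theorem ste_Fc (k : Fin 3) (f : E3 → ℝ) (hf : ContDiff ℝ 1 f) (φ : E3 → E3)
    (hφ : IsAdmissibleField φ) :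
    Continuous (fun y => Stn.Hh k φ y (Stn.lf k f y)) ∧
    Continuous (fun y => max (Stn.kap k φ y (Stn.lf k f y)) 0) := by
  have hHc := Stn.Hh_cont k φ hφ.1
  have hKc := Stn.kap_cont k φ hφ.1
  have hlc : Continuous (Stn.lf k f) := (Stn.lf_contDiff k f hf).continuous
  exact ⟨hHc.comp (continuous_id.prodMk hlc), (hKc.comp (continuous_id.prodMk hlc)).max continuous_const⟩

theorem ste_Fc' (k : Fin 3) (f : E3 → ℝ) (hf : ContDiff ℝ 1 f) (φ : E3 → E3)
    (hφ : IsAdmissibleField φ) : Continuous (steF k φ f) :=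
  (ste_Fc k f hf φ hφ).1.add ((ste_Fc k f hf φ hφ).2.mul ((pk_cont k f hf).min continuous_const))

/-- the inequality for each `j` -/
theorem ste_j (k : Fin 3) (f : E3 → ℝ) (hf : ContDiff ℝ 1 f) (hfp : Per f) (φ : E3 → E3)
    (hφ : IsAdmissibleField φ) :
    ∫ y in unitCell 2, steF k φ f y ≤ ∫ x in unitCell 3, gr f x := by
  refine le_trans ?_ (Stn.stnE k f hf hfp φ hφ)
  refine setIntegral_mono ?_ ?_ fun y => ?_
  · exact cont_integrableOn_cell _ (ste_Fc' k f hf φ hφ)
  · exact cont_integrableOn_cell _ ((ste_Fc k f hf φ hφ).1.add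
      ((ste_Fc k f hf φ hφ).2.mul (pk_cont k f hf)))
  · show Stn.Hh k φ y (Stn.lf k f y) +
      max (Stn.kap k φ y (Stn.lf k f y)) 0 * min (pk k f y) 2 ≤
      Stn.Hh k φ y (Stn.lf k f y) + max (Stn.kap k φ y (Stn.lf k f y)) 0 * pk k f y
    have := mul_le_mul_of_nonneg_left (min_le_left (pk k f y) 2)
      (le_max_right (Stn.kap k φ y (Stn.lf k f y)) 0)
    linarith

theorem ste_dom (k : Fin 3) (E : Set E3) (hE : MeasurableSet E) (hEp : IsLatticePeriodic E) (c : ℝ)
    (f : ℕ → E3 → ℝ) (hf : Approx E c f) (φ : E3 → E3) (hφ : IsAdmissibleField φ) :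
    Tendsto (fun j => ∫ y in unitCell 2, steF k φ (f j) y) atTop
      (𝓝 (∫ y in unitCell 2, steL k φ E y)) := by
  have hfs : ∀ j, ContDiff ℝ 1 (f j) := fun j => (hf.smooth j).of_le (by norm_num)
  obtain ⟨C, hC⟩ := Stn.Hh_bdd k φ hφ.1
  have hlm : ∀ j y, Stn.lf k (f j) y ∈ Icc (0 : ℝ) 1 := fun j y =>
    Stn.lf_mem k (f j) (hfs j) (hf.mem j) y
  have hfinv : volume (unitCell 2) < ⊤ := by rw [volume_unitCell]; exact ENNReal.one_lt_top
  refine tendsto_integral_of_dominated_convergence (fun _ => C + 2) ?_ ?_ ?_ ?_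
  · intro j
    exact (ste_Fc' k (f j) (hfs j) φ hφ).aestronglyMeasurable
  · exact integrableOn_const (hs := hfinv.ne)
  · intro j
    filter_upwards [ae_restrict_mem (measurableSet_unitCell 2)] with y hy
    rw [Real.norm_eq_abs]
    refine (abs_add_le _ _).trans (add_le_add (hC y hy _ (hlm j y)) ?_)
    rw [abs_mul]
    calc |max (Stn.kap k φ y (Stn.lf k (f j) y)) 0| * |min (pk k (f j) y) 2| ≤ 1 * 2 :=
          mul_le_mul (ste_kap_bdd' k φ hφ _ _) (ste_min k (f j) y) (abs_nonneg _) zero_le_one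
      _ = 2 := one_mul _
  · exact ae_restrict_of_ae (ste_lim k E hE hEp _ f hf φ hφ)

theorem ste_meas (F : E2 → ℝ → ℝ) (hF : Continuous (fun p : E2 × ℝ => F p.1 p.2))
    (l : E2 → ℝ) (hl : Measurable l) : Measurable (fun y => F y (l y)) := by
  have h1 := hF.measurable
  have h2 : Measurable (fun y : E2 => (y, l y)) := measurable_id.prodMk hl
  exact h1.comp h2

theorem ste_mono (A B : E2 → ℝ) (hA : Measurable A) (hB : Measurable B) (C : ℝ)
    (hbA : ∀ y ∈ unitCell 2, |A y| ≤ C) (hbB : ∀ y, |B y| ≤ 1) :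
    ∫ y in unitCell 2, (A y + 2 * B y) ≤ ∫ y in unitCell 2, (A y + 2 * max (B y) 0) := by
  have hb2 : ∀ y, |max (B y) 0| ≤ 1 := fun y => by
    rw [abs_of_nonneg (le_max_right _ _)]
    exact max_le ((le_abs_self _).trans (hbB y)) zero_le_one
  refine setIntegral_mono ?_ ?_ fun y => ?_
  · refine ste_int_cell (C := C + 2) (hA.add (hB.const_mul 2)).aestronglyMeasurable fun y hy => ?_
    refine (abs_add_le _ _).trans (add_le_add (hbA y hy) ?_)
    rw [abs_mul, abs_two]
    linarith [hbB y]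
  · refine ste_int_cell (C := C + 2)
      (hA.add ((hB.max measurable_const).const_mul 2)).aestronglyMeasurable fun y hy => ?_
    refine (abs_add_le _ _).trans (add_le_add (hbA y hy) ?_)
    rw [abs_mul, abs_two]
    linarith [hb2 y]
  · show A y + 2 * B y ≤ A y + 2 * max (B y) 0
    have := le_max_left (B y) 0
    linarith

theorem ste_fin (k : Fin 3) (E : Set E3) (hE : MeasurableSet E) (φ : E3 → E3)
    (hφ : IsAdmissibleField φ) :
    ∫ y in unitCell 2, (Stn.Hh k φ y (ll k E y) + 2 * Stn.kap k φ y (ll k E y)) ≤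
      ∫ y in unitCell 2, steL k φ E y := by
  obtain ⟨C, hC⟩ := Stn.Hh_bdd k φ hφ.1
  exact ste_mono (fun y => Stn.Hh k φ y (ll k E y)) (fun y => Stn.kap k φ y (ll k E y))
    (ste_meas (Stn.Hh k φ) (Stn.Hh_cont k φ hφ.1) (ll k E) (Stn.ll_meas k E hE))
    (ste_meas (Stn.kap k φ) (Stn.kap_cont k φ hφ.1) (ll k E) (Stn.ll_meas k E hE)) C
    (fun y hy => hC y hy _ (Stn.ll_mem k E y)) (fun y => ste_kap_bdd k φ hφ y _)

theorem steiner_le (k : Fin 3) (E : Set E3) (hE : MeasurableSet E) (hEp : IsLatticePeriodic E) :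
    periodicPerimeter (St k E) ≤ periodicPerimeter E := by
  by_cases hfin : periodicPerimeter E = ⊤
  · rw [hfin]; exact le_top
  obtain ⟨f, hf⟩ := exists_approx E hE hEp hfin
  have main : ∀ φ : E3 → E3, IsAdmissibleField φ →
      ∫ x in St k E ∩ unitCell 3, divergence φ x ≤ (periodicPerimeter E).toReal := by
    intro φ hφ
    rw [Stn.stnG k E hE φ hφ]
    refine (ste_fin k E hE φ hφ).trans ?_
    refine le_of_tendsto' (ste_dom k E hE hEp _ f hf φ hφ) fun j => ?_
    exact (ste_j k (f j) ((hf.smooth j).of_le (by norm_num)) (fun v hv x => hf.per j v hv x) φ hφ).trans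
      (hf.le j)
  refine iSup_le fun φ => ?_
  rw [← ENNReal.ofReal_toReal hfin]
  exact ENNReal.ofReal_le_ofReal (main φ.1 φ.2)

end
end Crest.Agent.T3
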