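import Crest.Agent.T3.RigStep
import Crest.Agent.T3.RigSte
/-! Row 214, rigidity (7a): the chain of symmetrisations is undone. -/
set_option autoImplicit false
open MeasureTheory Set Filter Topology
open Crest.GeometryTopology.PeriodicPerimeter
namespace Crest.Agent.T3
noncomputable section

theorem tr_meas (v : E3) {E : Set E3} (hE : MeasurableSet E) : MeasurableSet (tr v E) :=
  (measurable_id.sub_const v) hE

theorem tr_per (v : E3) {E : Set E3} (hE : IsLatticePeriodic E) : IsLatticePeriodic (tr v E) := by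
  intro w hw x
  show x + w - v ∈ E ↔ x - v ∈ E
  rw [add_sub_right_comm]
  exact hE w hw (x - v)

theorem tr_congr (v : E3) {E F : Set E3} (h : E =ᵐ[volume] F) : tr v E =ᵐ[volume] tr v F := by
  have hq : Measure.QuasiMeasurePreserving (fun x : E3 => x - v) volume volume :=
    (measurePreserving_sub_right volume v).quasiMeasurePreserving
  exact hq.preimage_ae_eq h

theorem image_add_eq_tr (v : E3) (E : Set E3) : (fun x => x + v) '' E = tr v E := by
  ext x
  constructor
  · rintro ⟨y, hy, rfl⟩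
    show y + v - v ∈ E
    rwa [add_sub_cancel_right]
  · intro hx
    exact ⟨x - v, hx, sub_add_cancel x v⟩

theorem cubic_add (v : E3) : IsCubicIsometry (fun x : E3 => x + v) :=
  ⟨1, fun _ => 1, v, fun _ => Or.inl rfl, fun x i => by simp⟩

theorem per_tr_le (v : E3) {E : Set E3} (hE : MeasurableSet E) (hEp : IsLatticePeriodic E) :
    periodicPerimeter (tr v E) ≤ periodicPerimeter E := by
  refine Crest.Agent.IT.perimeter_congruent_le hE hEp ⟨_, cubic_add v, ?_⟩
  rw [image_add_eq_tr, symmDiff_self]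
  exact measure_empty

theorem chain_step (k : Fin 3) (s : Shape) (hs : stdOk s) (E : Set E3) (hE : MeasurableSet E)
    (hEp : IsLatticePeriodic E) (hP : periodicPerimeter E ≤ ENNReal.ofReal (stdP s)) (v : E3)
    (h : St k E =ᵐ[volume] tr v (stdB s)) : ∃ v' : E3, E =ᵐ[volume] tr v' (stdB s) := by
  have hBm := Crest.Agent.IT.stdB_meas s
  have hBp := Crest.Agent.IT.stdB_periodic s
  have h1 : ∀ᵐ y : E2, ll k (tr (-v) E) y = ll k (stdB s) y := by
    have h2 := ll_congr k _ _ h
    have h3 : ∀ᵐ y : E2, ll k (St k E) (y - rem k (-v)) = ll k (tr v (stdB s)) (y - rem k (-v)) :=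
      (measurePreserving_sub_right volume (rem k (-v))).quasiMeasurePreserving.ae h2
    filter_upwards [h3] with y hy
    have e1 : ll k (tr (-v) E) y = ll k E (y - rem k (-v)) := ll_translate k E hE hEp (-v) y
    have e2 : ll k (tr v (stdB s)) (y - rem k (-v)) = ll k (stdB s) (y - rem k (-v) - rem k v) :=
      ll_translate k _ hBm hBp v _
    have e3 : y - rem k (-v) - rem k v = y := by
      ext i
      simp [rem]
    rw [e1, ← ll_St, hy, e2, e3]
  obtain ⟨m, hm⟩ := step_rigid k s hs (tr (-v) E) (tr_meas _ hE) (tr_per _ hEp) h1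
    ((per_tr_le _ hE hEp).trans hP)
  refine ⟨v + EuclideanSpace.single k m, ?_⟩
  have h4 := tr_congr v hm
  rw [tr_tr, tr_tr, add_neg_cancel, tr_zero] at h4
  exact h4

/-- the three symmetrisations are undone -/
theorem chain_rigid (s : Shape) (hs : stdOk s) (E : Set E3) (hE : MeasurableSet E)
    (hEp : IsLatticePeriodic E) (hP : periodicPerimeter E ≤ ENNReal.ofReal (stdP s))
    (h : St 2 (St 1 (St 0 E)) =ᵐ[volume] stdB s) : ∃ v : E3, E =ᵐ[volume] tr v (stdB s) := by
  have m1 := St_meas 0 E hE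
  have p1 := St_per 0 E hEp
  have q1 := (steiner_le 0 E hE hEp).trans hP
  have m2 := St_meas 1 _ m1
  have p2 := St_per 1 _ p1
  have q2 := (steiner_le 1 _ m1 p1).trans q1
  obtain ⟨v2, h2⟩ := chain_step 2 s hs _ m2 p2 q2 0 (by rw [tr_zero]; exact h)
  obtain ⟨v1, h1⟩ := chain_step 1 s hs _ m1 p1 q1 v2 h2
  exact chain_step 0 s hs _ hE hEp hP v1 h1

/-- final form of (7a) -/
theorem rigid_final (s : Shape) (hs : stdOk s) (E : Set E3) (hE : MeasurableSet E)
    (hEp : IsLatticePeriodic E) (hP : periodicPerimeter E ≤ ENNReal.ofReal (stdP s))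
    (h : St 2 (St 1 (St 0 E)) =ᵐ[volume] stdB s) : CongruentModNull E (stdB s) := by
  obtain ⟨v, hv⟩ := chain_rigid s hs E hE hEp hP h
  refine ⟨_, cubic_add v, ?_⟩
  rw [image_add_eq_tr]
  exact measure_symmDiff_eq_zero_iff.2 hv

end
end Crest.Agent.T3
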