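import Crest.Agent.T3.RigDefs
/-! Row 214, rigidity (7a), chunk RIG-DB1: a function with vanishing weak gradient on a ball is constant there. -/
set_option autoImplicit false
open MeasureTheory Set Filter Topology
open Crest.GeometryTopology.PeriodicPerimeter
namespace Crest.Agent.T3
noncomputable section

open scoped Convolution

private def db1Bump (ρ : ℝ) (hρ : 0 < ρ) (n : ℕ) : ContDiffBump (0 : E2) where
  rIn := ρ / (2 * (n + 2))
  rOut := ρ / (n + 2)
  rIn_pos := by positivity
  rIn_lt_rOut := by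
    apply div_lt_div_of_pos_left hρ (by positivity)
    have : (0:ℝ) ≤ n := by positivity
    linarith

private lemma db1_fderiv (V : E2 → ℝ) (hVl : LocallyIntegrable V volume)
    (y₀ : E2) (ρ : ℝ)
    (h : ∀ (i : Fin 2) (ζ : E2 → ℝ), ContDiff ℝ 1 ζ → HasCompactSupport ζ →
      tsupport ζ ⊆ Metric.ball y₀ (2 * ρ) → ∫ y, dd i ζ y * V y = 0)
    (φ : ContDiffBump (0 : E2)) (hφ : φ.rOut < ρ) (x : E2) (hx : x ∈ Metric.ball y₀ ρ) :
    HasFDerivAt ((φ.normed volume) ⋆[ContinuousLinearMap.lsmul ℝ ℝ, volume] V) (0 : E2 →L[ℝ] ℝ) x := by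
  have hc : HasCompactSupport (φ.normed volume) := φ.hasCompactSupport_normed
  have hd : ContDiff ℝ 1 (φ.normed volume) := by exact_mod_cast φ.contDiff_normed (n := 1)
  have hF := hc.hasFDerivAt_convolution_left (ContinuousLinearMap.lsmul ℝ ℝ) hd hVl x
  have h0 : (fderiv ℝ (φ.normed volume) ⋆[(ContinuousLinearMap.lsmul ℝ ℝ : ℝ →L[ℝ] ℝ →L[ℝ] ℝ).precompL E2, volume] V) x = 0 := by
    have hce : ConvolutionExistsAt (fderiv ℝ (φ.normed volume)) V x
        ((ContinuousLinearMap.lsmul ℝ ℝ : ℝ →L[ℝ] ℝ →L[ℝ] ℝ).precompL E2) volume :=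
      (hc.fderiv ℝ).convolutionExists_left _ (hd.continuous_fderiv one_ne_zero) hVl x
    have hev : ∀ i : Fin 2, ((fderiv ℝ (φ.normed volume) ⋆[(ContinuousLinearMap.lsmul ℝ ℝ : ℝ →L[ℝ] ℝ →L[ℝ] ℝ).precompL E2, volume] V) x)
        (EuclideanSpace.single i 1) = 0 := by
      intro i
      have hstep : ((fderiv ℝ (φ.normed volume) ⋆[(ContinuousLinearMap.lsmul ℝ ℝ : ℝ →L[ℝ] ℝ →L[ℝ] ℝ).precompL E2, volume] V) x)
        (EuclideanSpace.single i 1) = ∫ t, dd i (φ.normed volume) t * V (x - t) := by
        rw [convolution_def, ContinuousLinearMap.integral_apply hce.integrable]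
        rfl
      rw [hstep, ← integral_sub_left_eq_self (fun t => dd i (φ.normed volume) t * V (x - t)) volume x]
      have hz := h i (fun y => φ.normed volume (x - y)) (by fun_prop) (by
          have := hc.comp_homeomorph (Homeomorph.subLeft x)
          exact this) (by
          intro y hy
          have hy2 : x - y ∈ tsupport (φ.normed volume) := by
            have := (tsupport_comp_subset_preimage (φ.normed volume) (f := fun y => x - y) (by fun_prop)) hy
            exact this
          rw [φ.tsupport_normed_eq, Metric.mem_closedBall, dist_zero_right] at hy2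
          rw [Metric.mem_ball] at hx ⊢
          calc dist y y₀ ≤ dist y x + dist x y₀ := dist_triangle _ _ _
            _ = ‖x - y‖ + dist x y₀ := by rw [dist_comm y x, dist_eq_norm]
            _ < 2 * ρ := by linarith)
      have hdd : ∀ y, dd i (fun y => φ.normed volume (x - y)) y = - dd i (φ.normed volume) (x - y) := by
        intro y
        have h1 : HasFDerivAt (φ.normed volume) (fderiv ℝ (φ.normed volume) (x - y)) (x - y) :=
          (hd.differentiable one_ne_zero).differentiableAt.hasFDerivAt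
        have h2 : HasFDerivAt (fun y : E2 => x - y) (-(ContinuousLinearMap.id ℝ E2)) y := by
          simpa using (hasFDerivAt_id y).const_sub x
        have h3 := h1.comp y h2
        have h4 : fderiv ℝ (fun y => φ.normed volume (x - y)) y =
            (fderiv ℝ (φ.normed volume) (x - y)).comp (-(ContinuousLinearMap.id ℝ E2)) := h3.fderiv
        unfold dd
        rw [h4]
        simp
      simp only [hdd, neg_mul, integral_neg, neg_eq_zero] at hz
      simpa using hz
    have hb := (EuclideanSpace.basisFun (Fin 2) ℝ).toBasis.ext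
      (f₁ := ((fderiv ℝ (φ.normed volume) ⋆[(ContinuousLinearMap.lsmul ℝ ℝ).precompL E2, volume] V) x : E2 →ₗ[ℝ] ℝ))
      (f₂ := 0) (by
        intro i
        have := hev i
        simpa using this)
    ext v
    have := LinearMap.congr_fun hb v
    simpa using this
  rw [h0] at hF
  exact hF

/-- CHUNK RIG-DB1. PROOF: mollify `V` with a smooth bump supported in `ball 0 ρ`: on
`ball y₀ ρ` the mollification is smooth with zero derivative (test functions `z ↦ bump (x - z)`, supported in
`ball y₀ (2ρ)`), hence constant on the ball; the constants converge a.e. to `V`. -/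
theorem db_local (V : E2 → ℝ) (hV : AEStronglyMeasurable V volume) (M : ℝ) (hM : ∀ᵐ y, |V y| ≤ M)
    (y₀ : E2) (ρ : ℝ) (hρ : 0 < ρ)
    (h : ∀ (i : Fin 2) (ζ : E2 → ℝ), ContDiff ℝ 1 ζ → HasCompactSupport ζ →
      tsupport ζ ⊆ Metric.ball y₀ (2 * ρ) → ∫ y, dd i ζ y * V y = 0) :
    ∃ c : ℝ, ∀ᵐ y, y ∈ Metric.ball y₀ ρ → V y = c := by
  have hVl : LocallyIntegrable V volume := by
    rw [locallyIntegrable_iff]
    intro K hK
    refine Measure.integrableOn_of_bounded hK.measure_lt_top.ne hV (M := M) ?_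
    exact ae_restrict_of_ae (by simpa [Real.norm_eq_abs] using hM)
  set φ : ℕ → ContDiffBump (0 : E2) := db1Bump ρ hρ with hφdef
  have hr : ∀ n, (φ n).rOut = ρ / (n + 2) := fun n => rfl
  have hr2 : ∀ n, (φ n).rIn = ρ / (2 * (n + 2)) := fun n => rfl
  have hlt : ∀ n, (φ n).rOut < ρ := by
    intro n
    rw [hr]
    have : (0:ℝ) ≤ n := by positivity
    rw [div_lt_iff₀ (by positivity)]
    nlinarith
  have htend : Tendsto (fun n => (φ n).rOut) atTop (𝓝 0) := by
    simp only [hr]
    have h1 : Tendsto (fun n : ℕ => (n:ℝ) + 2) atTop atTop :=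
      tendsto_atTop_add_const_right _ _ tendsto_natCast_atTop_atTop
    exact h1.const_div_atTop ρ
  have hK : ∀ᶠ n in atTop, (φ n).rOut ≤ 2 * (φ n).rIn := by
    refine Eventually.of_forall (fun n => ?_)
    rw [hr, hr2]
    apply le_of_eq
    field_simp
  have hae := ContDiffBump.ae_convolution_tendsto_right_of_locallyIntegrable (μ := (volume : Measure E2))
    htend hK hVl
  have hconst : ∀ n, ∀ x ∈ Metric.ball y₀ ρ, ∀ y ∈ Metric.ball y₀ ρ,
      ((φ n).normed volume ⋆[ContinuousLinearMap.lsmul ℝ ℝ, volume] V) x =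
      ((φ n).normed volume ⋆[ContinuousLinearMap.lsmul ℝ ℝ, volume] V) y := by
    intro n x hx y hy
    have hD := fun z hz => db1_fderiv V hVl y₀ ρ h (φ n) (hlt n) z hz
    refine (Metric.isOpen_ball).is_const_of_fderiv_eq_zero (𝕜 := ℝ) (convex_ball y₀ ρ).isPreconnected
      (fun z hz => (hD z hz).differentiableAt.differentiableWithinAt) (fun z hz => (hD z hz).fderiv) hx hy
  -- a point of convergence in the ball
  have hex : ∃ x₁ ∈ Metric.ball y₀ ρ, Tendsto (fun n => ((φ n).normed volume ⋆[ContinuousLinearMap.lsmul ℝ ℝ, volume] V) x₁)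
      atTop (𝓝 (V x₁)) := by
    by_contra hcon
    push Not at hcon
    have hz : volume (Metric.ball y₀ ρ) = 0 := by
      refine measure_mono_null ?_ hae
      intro x hx
      exact hcon x hx
    exact (Metric.measure_ball_pos volume y₀ hρ).ne' hz
  obtain ⟨x₁, hx₁, hlim⟩ := hex
  refine ⟨V x₁, ?_⟩
  filter_upwards [hae] with y hy hyb
  have heq : (fun n => ((φ n).normed volume ⋆[ContinuousLinearMap.lsmul ℝ ℝ, volume] V) y) =
      (fun n => ((φ n).normed volume ⋆[ContinuousLinearMap.lsmul ℝ ℝ, volume] V) x₁) := by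
    funext n
    exact hconst n y hyb x₁ hx₁
  rw [heq] at hy
  exact tendsto_nhds_unique hy hlim

end
end Crest.Agent.T3
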