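import Crest.Agent.T3.RigDefs
import Crest.Agent.T3.Fold
import Crest.Agent.IT.StdBasic
/-! Row 214, rigidity (7a), chunk RIG-DB2: periodisation of a test function with small support. -/
set_option autoImplicit false
open MeasureTheory Set Filter Topology
open Crest.GeometryTopology.PeriodicPerimeter
open scoped Pointwise
namespace Crest.Agent.T3
noncomputable section

/-- nearest lattice vector to `y - y₀`. -/
def dbp_r (y₀ y : E2) : E2 := WithLp.toLp 2 (fun i => (round (y i - y₀ i) : ℝ))

theorem dbp_r_int (y₀ y : E2) : HasIntegerCoords (dbp_r y₀ y) := fun i => ⟨round (y i - y₀ i), rfl⟩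

theorem dbp_r_add (y₀ y v : E2) (hv : HasIntegerCoords v) : dbp_r y₀ (y + v) = dbp_r y₀ y + v := by
  ext i
  obtain ⟨m, hm⟩ := hv i
  simp only [dbp_r, PiLp.add_apply, hm]
  have : y i + (m : ℝ) - y₀ i = (y i - y₀ i) + m := by ring
  rw [this, round_add_intCast]
  push_cast
  rfl

theorem dbp_zero {ζ : E2 → ℝ} {y₀ : E2} {ρ : ℝ} (hs : tsupport ζ ⊆ Metric.ball y₀ ρ) (x : E2)
    (i : Fin 2) (hx : ρ ≤ |x i - y₀ i|) : ζ x = 0 := by
  apply image_eq_zero_of_notMem_tsupport
  intro h
  have h1 := hs h
  rw [Metric.mem_ball, dist_eq_norm] at h1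
  have h2 := PiLp.norm_apply_le (x - y₀) i
  rw [Real.norm_eq_abs, PiLp.sub_apply] at h2
  linarith

/-- near every point the periodisation is a translate of `ζ` -/
theorem dbp_local {ζ : E2 → ℝ} {y₀ : E2} {ρ : ℝ} (hρ : ρ < 1 / 2)
    (hs : tsupport ζ ⊆ Metric.ball y₀ ρ) (y : E2) :
    (fun y' => ζ (y' - dbp_r y₀ y')) =ᶠ[𝓝 y] fun y' => ζ (y' - dbp_r y₀ y) := by
  have hco : ∀ i : Fin 2, Continuous (fun y' : E2 => y' i) := fun i => by fun_prop
  by_cases hc : ∀ i, |y i - y₀ i - round (y i - y₀ i)| < 1 / 2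
  · have hopen : ∀ᶠ y' in 𝓝 y, ∀ i : Fin 2, |y' i - y₀ i - round (y i - y₀ i)| < 1 / 2 := by
      rw [eventually_all]
      intro i
      have h1 : Continuous (fun y' : E2 => |y' i - y₀ i - round (y i - y₀ i)|) :=
        (((hco i).sub continuous_const).sub continuous_const).abs
      exact (isOpen_lt h1 continuous_const).mem_nhds (hc i)
    filter_upwards [hopen] with y' hy'
    have : dbp_r y₀ y' = dbp_r y₀ y := by
      ext i
      simp only [dbp_r]
      have h2 := abs_lt.1 (hy' i)
      have h3 : round (y' i - y₀ i) = round (y i - y₀ i) := by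
        rw [round_eq_iff]
        constructor <;> linarith [h2.1, h2.2]
      rw [h3]
    rw [this]
  · push Not at hc
    obtain ⟨i, hi⟩ := hc
    have h1 : ∀ᶠ y' in 𝓝 y, 2 * ρ < fold (y' i - y₀ i) := by
      have hcont : Continuous (fun y' : E2 => fold (y' i - y₀ i)) :=
        fold_continuous.comp ((hco i).sub continuous_const)
      have : 2 * ρ < fold (y i - y₀ i) := by
        unfold fold; linarith
      exact (isOpen_lt continuous_const hcont).mem_nhds this
    have h2 : ∀ᶠ y' in 𝓝 y, ρ < |y' i - y₀ i - round (y i - y₀ i)| := by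
      have hcont : Continuous (fun y' : E2 => |y' i - y₀ i - round (y i - y₀ i)|) :=
        (((hco i).sub continuous_const).sub continuous_const).abs
      have : ρ < |y i - y₀ i - round (y i - y₀ i)| := by linarith
      exact (isOpen_lt continuous_const hcont).mem_nhds this
    filter_upwards [h1, h2] with y' hy1 hy2
    rw [dbp_zero hs (y' - dbp_r y₀ y') i, dbp_zero hs (y' - dbp_r y₀ y) i]
    · have : (y' - dbp_r y₀ y) i - y₀ i = y' i - y₀ i - round (y i - y₀ i) := by
        simp only [dbp_r, PiLp.sub_apply]; ring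
      rw [this]; exact hy2.le
    · have : (y' - dbp_r y₀ y') i - y₀ i = y' i - y₀ i - round (y' i - y₀ i) := by
        simp only [dbp_r, PiLp.sub_apply]; ring
      rw [this]
      unfold fold at hy1
      linarith

/-- CHUNK RIG-DB2 (periodisation): a `C¹` function with compact support in a ball of radius `< 1/2` around `y₀` is the restriction
of a periodic `C¹` function vanishing off the translates of its support, and integrals against periodic functions agree. -/
theorem db_periodise (ζ : E2 → ℝ) (hζ : ContDiff ℝ 1 ζ) (y₀ : E2) (ρ : ℝ) (hρ : ρ < 1 / 2)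
    (hs : tsupport ζ ⊆ Metric.ball y₀ ρ) :
    ∃ Z : E2 → ℝ, ContDiff ℝ 1 Z ∧ Per Z ∧
      (∀ y, Z y ≠ 0 → ∃ v, HasIntegerCoords v ∧ y + v ∈ tsupport ζ) ∧
      ∀ (i : Fin 2) (V : E2 → ℝ), Per V → AEStronglyMeasurable V volume → (∃ M : ℝ, ∀ᵐ y, |V y| ≤ M) →
        ∫ y in unitCell 2, dd i Z y * V y = ∫ y, dd i ζ y * V y := by
  refine ⟨fun y => ζ (y - dbp_r y₀ y), ?_, ?_, ?_, ?_⟩
  · rw [contDiff_iff_contDiffAt]
    intro y
    refine ContDiffAt.congr_of_eventuallyEq ?_ (dbp_local hρ hs y)
    exact (hζ.comp (contDiff_id.sub contDiff_const)).contDiffAt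
  · intro v hv x
    change ζ (x + v - dbp_r y₀ (x + v)) = ζ (x - dbp_r y₀ x)
    rw [dbp_r_add y₀ x v hv]
    congr 1
    abel
  · intro y hy
    refine ⟨-dbp_r y₀ y, ?_, ?_⟩
    · intro i
      obtain ⟨m, hm⟩ := dbp_r_int y₀ y i
      exact ⟨-m, by rw [PiLp.neg_apply, hm]; push_cast; rfl⟩
    · rw [← sub_eq_add_neg]
      exact subset_tsupport _ hy
  · intro i V hV _ _
    have hdd : ∀ y, dd i (fun y => ζ (y - dbp_r y₀ y)) y = dd i ζ (y - dbp_r y₀ y) := by
      intro y
      unfold dd
      rw [(dbp_local hρ hs y).fderiv_eq, fderiv_comp_sub]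
    have hper : Per (fun y => dd i (fun y => ζ (y - dbp_r y₀ y)) y * V y) := by
      intro v hv x
      simp only [hdd]
      rw [dbp_r_add y₀ x v hv, hV v hv x]
      congr 2
      abel
    set a : E2 := y₀ - WithLp.toLp 2 (fun _ => (1 / 2 : ℝ)) with ha
    set B0 : Set E2 := a +ᵥ unitCell 2 with hB0
    have hmem : ∀ y : E2, y ∈ B0 ↔ ∀ i, y i - y₀ i ∈ Ico (-(1 / 2) : ℝ) (1 / 2) := by
      intro y
      rw [hB0, mem_vadd_set_iff_neg_vadd_mem]
      simp only [unitCell, mem_setOf_eq, vadd_eq_add, PiLp.add_apply, PiLp.neg_apply, ha,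
        PiLp.sub_apply, mem_Ico]
      constructor
      · intro h j
        have := h j
        constructor <;> linarith [this.1, this.2]
      · intro h j
        have := h j
        constructor <;> linarith [this.1, this.2]
    have hfund : IsAddFundamentalDomain (IT.Lat 2) B0 (volume : Measure E2) :=
      (IT.fund 2).vadd_of_comm a
    have h1 : ∫ y in unitCell 2, dd i (fun y => ζ (y - dbp_r y₀ y)) y * V y =
        ∫ y in B0, dd i (fun y => ζ (y - dbp_r y₀ y)) y * V y := by
      haveI : Countable (IT.Lat 2) :=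
        inferInstanceAs (Countable (Submodule.span ℤ (Set.range (IT.bs 2))))
      refine (IT.fund 2).setIntegral_eq hfund ?_
      rintro ⟨v, hv⟩ x
      have hv' := (IT.mem_Lat v).1 hv
      have h2 := hper v hv' x
      have h3 : (⟨v, hv⟩ : IT.Lat 2) +ᵥ x = x + v := by
        change v + x = x + v
        abel
      rw [h3]
      exact h2
    rw [h1]
    have hB0m : MeasurableSet B0 := (measurableSet_unitCell 2).const_vadd a
    have h2 : ∫ y in B0, dd i (fun y => ζ (y - dbp_r y₀ y)) y * V y =
        ∫ y in B0, dd i ζ y * V y := by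
      refine setIntegral_congr_fun hB0m ?_
      intro y hy
      have h4 : dbp_r y₀ y = 0 := by
        ext j
        have h5 := (hmem y).1 hy j
        simp only [dbp_r, PiLp.zero_apply]
        rw [round_eq_zero_iff.2 h5]
        simp
      simp only [hdd, h4, sub_zero]
    rw [h2]
    refine setIntegral_eq_integral_of_forall_compl_eq_zero ?_
    intro y hy
    have h6 : y ∉ tsupport ζ := by
      intro h7
      apply hy
      rw [hmem]
      intro j
      have h8 := hs h7
      rw [Metric.mem_ball, dist_eq_norm] at h8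
      have h9 := PiLp.norm_apply_le (y - y₀) j
      rw [Real.norm_eq_abs, PiLp.sub_apply] at h9
      have h10 := abs_lt.1 (lt_of_le_of_lt h9 (h8.trans hρ))
      exact ⟨h10.1.le, h10.2⟩
    have h11 : fderiv ℝ ζ y = 0 := by
      have := fderiv_of_notMem_tsupport (𝕜 := ℝ) h6
      exact this
    unfold dd
    rw [h11]
    simp

end
end Crest.Agent.T3
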