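import Crest.Agent.T3.RigDefs
import Crest.Agent.T3.RigDb1
import Crest.Agent.T3.RigDb2
/-! Row 214, rigidity (7a), chunks RIG-DB1, RIG-DB2, RIG-DB3: a function with vanishing weak gradient is constant. -/
set_option autoImplicit false
open MeasureTheory Set Filter Topology
open Crest.GeometryTopology.PeriodicPerimeter
namespace Crest.Agent.T3
noncomputable section

-- CHUNK RIG-DB1 (`db_local`): proved in RigDb1.lean.

/-- `V` is a.e. equal to `c` near `y`. -/
def rigDbP (V : E2 → ℝ) (y : E2) (c : ℝ) : Prop :=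
  ∃ r : ℝ, 0 < r ∧ ∀ᵐ z, z ∈ Metric.ball y r → V z = c

theorem rigDbP_unique {V : E2 → ℝ} {y : E2} {c c' : ℝ} (h : rigDbP V y c) (h' : rigDbP V y c') :
    c = c' := by
  obtain ⟨r, hr, h⟩ := h
  obtain ⟨r', hr', h'⟩ := h'
  by_contra hne
  have h0 : 0 < min r r' := lt_min hr hr'
  have h1 : ∀ᵐ z : E2, z ∉ Metric.ball y (min r r') := by
    filter_upwards [h, h'] with z h2 h3 hz
    exact hne ((h2 (Metric.ball_subset_ball (min_le_left _ _) hz)).symm.trans
      (h3 (Metric.ball_subset_ball (min_le_right _ _) hz)))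
  have h2 : volume (Metric.ball y (min r r')) = 0 := by
    rw [ae_iff] at h1
    have h3 : {a : E2 | ¬ a ∉ Metric.ball y (min r r')} = Metric.ball y (min r r') := by
      ext a
      exact not_not
    rwa [h3] at h1
  exact (Metric.measure_ball_pos volume y h0).ne' h2

theorem rigDbP_open {V : E2 → ℝ} {y : E2} {c : ℝ} (h : rigDbP V y c) :
    ∀ᶠ y' in 𝓝 y, rigDbP V y' c := by
  obtain ⟨r, hr, h⟩ := h
  filter_upwards [Metric.ball_mem_nhds y hr] with y' hy'
  refine ⟨r - dist y' y, by linarith [Metric.mem_ball.1 hy'], ?_⟩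
  filter_upwards [h] with z hz hz'
  apply hz
  rw [Metric.mem_ball] at hz' ⊢
  linarith [dist_triangle z y' y]

theorem rigDbP_shift {V : E2 → ℝ} (hVp : Per V) {y v : E2} (hv : HasIntegerCoords v) {c : ℝ}
    (h : rigDbP V (y + v) c) : rigDbP V y c := by
  obtain ⟨r, hr, h⟩ := h
  refine ⟨r, hr, ?_⟩
  have h1 := (measurePreserving_add_right (volume : Measure E2) v).quasiMeasurePreserving.tendsto_ae.eventually h
  filter_upwards [h1] with z hz hz'
  rw [← hVp v hv z]
  apply hz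
  rw [Metric.mem_ball] at hz' ⊢
  rwa [dist_add_right]

theorem rigDb_latClosed : IsClosed {v : E2 | HasIntegerCoords v} := by
  have : {v : E2 | HasIntegerCoords v} = ⋂ i : Fin 2, {v : E2 | v i ∈ range ((↑) : ℤ → ℝ)} := by
    ext v
    simp only [mem_iInter, mem_ofPred_eq, HasIntegerCoords, mem_range]
    constructor
    · intro h i
      obtain ⟨m, hm⟩ := h i
      exact ⟨m, hm.symm⟩
    · intro h i
      obtain ⟨m, hm⟩ := h i
      exact ⟨m, hm.symm⟩
  rw [this]
  refine isClosed_iInter fun i => ?_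
  have h1 : IsClosed (range ((↑) : ℤ → ℝ)) := Int.isClosedEmbedding_coe_real.isClosed_range
  exact h1.preimage (by fun_prop)

theorem rigDb_latNeg {v : E2} (hv : HasIntegerCoords v) : HasIntegerCoords (-v) := by
  intro i
  obtain ⟨m, hm⟩ := hv i
  exact ⟨-m, by rw [PiLp.neg_apply, hm]; push_cast; ring⟩

theorem rigDb_latAdd {v w : E2} (hv : HasIntegerCoords v) (hw : HasIntegerCoords w) :
    HasIntegerCoords (v + w) := by
  intro i
  obtain ⟨m, hm⟩ := hv i
  obtain ⟨m', hm'⟩ := hw i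
  exact ⟨m + m', by rw [PiLp.add_apply, hm, hm']; push_cast; ring⟩

open Pointwise in
theorem rigDb_Kclosed {T : Set E2} (hT : IsCompact T) :
    IsClosed {y : E2 | ∃ v, HasIntegerCoords v ∧ y + v ∈ T} := by
  have : {y : E2 | ∃ v, HasIntegerCoords v ∧ y + v ∈ T} = {v : E2 | HasIntegerCoords v} + T := by
    ext y
    simp only [mem_ofPred_eq, Set.mem_add]
    constructor
    · rintro ⟨v, hv, h⟩
      exact ⟨-v, rigDb_latNeg hv, y + v, h, by abel⟩
    · rintro ⟨v, hv, s, hs, rfl⟩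
      exact ⟨-v, rigDb_latNeg hv, by rwa [add_neg_cancel_comm]⟩
  rw [this]
  exact rigDb_latClosed.add_right_of_isCompact hT

/-- CHUNK RIG-DB3. PROOF. For `y₀ ∈ G` take `ρ` with `ball y₀ (2ρ) ⊆ closure ⊆ G`, `2ρ < 1/2`; `db_periodise` + hypothesis (with
`K` = all translates of `tsupport ζ`, closed since it is the preimage of a compact set of the torus / locally finite union) +
`db_local`: `V` is a.e. constant near every point of `G`.  On the preconnected open `G0` the local constants agree (the set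
of points with local constant `c` is open and closed in `G0`), Lindelöf gives a.e. on `G0`; periodicity gives a.e. on `G`. -/
theorem db_global (V : E2 → ℝ) (hV : AEStronglyMeasurable V volume) (M : ℝ) (hM : ∀ᵐ y, |V y| ≤ M)
    (hVp : Per V) (G G0 : Set E2) (hG : IsOpen G) (hGp : ∀ v, HasIntegerCoords v → ∀ x, x + v ∈ G ↔ x ∈ G)
    (hG0 : IsOpen G0) (hc : IsPreconnected G0) (hsub : G0 ⊆ G)
    (hcov : ∀ y ∈ G, ∃ v, HasIntegerCoords v ∧ y + v ∈ G0)
    (h : ∀ K : Set E2, IsClosed K → (∀ v, HasIntegerCoords v → ∀ x, x + v ∈ K ↔ x ∈ K) → K ⊆ G →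
      ∀ (i : Fin 2) (ζ : E2 → ℝ), ContDiff ℝ 1 ζ → Per ζ → (∀ y, y ∉ K → ζ y = 0) →
        ∫ y in unitCell 2, dd i ζ y * V y = 0) :
    ∃ c : ℝ, ∀ᵐ y, y ∈ G → V y = c := by
  have hloc : ∀ y₀ ∈ G, ∃ c, rigDbP V y₀ c := by
    intro y₀ hy₀
    obtain ⟨ε, hε, hb⟩ := Metric.isOpen_iff.1 hG y₀ hy₀
    set ρ : ℝ := min (ε / 2) (1 / 8) with hρ
    have hρ0 : 0 < ρ := lt_min (by linarith) (by norm_num)
    have hρ1 : 2 * ρ ≤ ε := by linarith [min_le_left (ε / 2) (1 / 8 : ℝ)]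
    have hρ2 : 2 * ρ < 1 / 2 := by linarith [min_le_right (ε / 2) (1 / 8 : ℝ)]
    obtain ⟨c, hc⟩ := db_local V hV M hM y₀ ρ hρ0 (by
      intro i ζ hζ hζc hζs
      obtain ⟨Z, hZ1, hZp, hZs, hZi⟩ := db_periodise ζ hζ y₀ (2 * ρ) hρ2 hζs
      rw [← hZi i V hVp hV ⟨M, hM⟩]
      refine h {y : E2 | ∃ v, HasIntegerCoords v ∧ y + v ∈ tsupport ζ} (rigDb_Kclosed hζc) ?_ ?_
        i Z hZ1 hZp ?_
      · intro v hv x
        constructor
        · rintro ⟨w, hw, hx⟩
          exact ⟨v + w, rigDb_latAdd hv hw, by rwa [← add_assoc]⟩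
        · rintro ⟨w, hw, hx⟩
          refine ⟨w + -v, rigDb_latAdd hw (rigDb_latNeg hv), ?_⟩
          have : x + v + (w + -v) = x + w := by abel
          rwa [this]
      · rintro y ⟨v, hv, hy⟩
        exact (hGp v hv y).1 (hb (Metric.ball_subset_ball hρ1 (hζs hy)))
      · intro y hy
        by_contra hne
        exact hy (hZs y hne))
    exact ⟨c, ρ, hρ0, hc⟩
  rcases G0.eq_empty_or_nonempty with he | ⟨y₁, hy₁⟩
  · refine ⟨0, Eventually.of_forall fun y hy => ?_⟩
    obtain ⟨v, -, hv⟩ := hcov y hy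
    rw [he] at hv
    exact hv.elim
  obtain ⟨c, hc1⟩ := hloc y₁ (hsub hy₁)
  have hall0 : ∀ y ∈ G0, rigDbP V y c := by
    by_contra hno
    push Not at hno
    obtain ⟨y₂, hy₂, hn⟩ := hno
    obtain ⟨c2, hc2⟩ := hloc y₂ (hsub hy₂)
    have hne : c2 ≠ c := fun he => hn (he ▸ hc2)
    have hU : IsOpen {y | rigDbP V y c} := isOpen_iff_mem_nhds.2 fun y hy => rigDbP_open hy
    have hU' : IsOpen {y | ∃ c', c' ≠ c ∧ rigDbP V y c'} := by
      refine isOpen_iff_mem_nhds.2 fun y hy => ?_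
      obtain ⟨c', hc', hy⟩ := hy
      filter_upwards [rigDbP_open hy] with z hz
      exact ⟨c', hc', hz⟩
    obtain ⟨z, hz0, hz1, c', hc', hz2⟩ := hc _ _ hU hU' (by
      intro y hy
      obtain ⟨c', hy'⟩ := hloc y (hsub hy)
      by_cases he : c' = c
      · exact Or.inl (he ▸ hy')
      · exact Or.inr ⟨c', he, hy'⟩) ⟨y₁, hy₁, hc1⟩ ⟨y₂, hy₂, c2, hne, hc2⟩
    exact hc' (rigDbP_unique hz2 hz1)
  have hall : ∀ y ∈ G, rigDbP V y c := by
    intro y hy
    obtain ⟨v, hv, hyv⟩ := hcov y hy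
    exact rigDbP_shift hVp hv (hall0 _ hyv)
  refine ⟨c, ?_⟩
  have h0 : volume {y : E2 | y ∈ G ∧ V y ≠ c} = 0 := by
    apply measure_null_of_locally_null
    rintro y ⟨hy, -⟩
    obtain ⟨r, hr, h1⟩ := hall y hy
    refine ⟨{y : E2 | y ∈ G ∧ V y ≠ c} ∩ Metric.ball y r,
      inter_mem_nhdsWithin _ (Metric.ball_mem_nhds y hr), ?_⟩
    rw [ae_iff] at h1
    refine measure_mono_null ?_ h1
    rintro z ⟨⟨-, hz⟩, hz'⟩
    exact fun h => hz (h hz')
  rw [ae_iff]
  refine measure_mono_null ?_ h0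
  intro y hy
  simp only [mem_ofPred_eq, Classical.not_imp] at hy
  exact hy

end
end Crest.Agent.T3
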