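import Crest.Agent.T3.RigFub
import Crest.Agent.T3.RigArc
/-! Row 214, rigidity (7a), chunk RIG-SH2: lines which are empty or everything. -/
set_option autoImplicit false
open MeasureTheory Set Filter Topology
open Crest.GeometryTopology.PeriodicPerimeter
namespace Crest.Agent.T3
noncomputable section

theorem rigDeg_single_int {n : ℕ} (k : Fin n) (m : ℤ) :
    HasIntegerCoords (EuclideanSpace.single k (m : ℝ)) := by
  intro i
  by_cases hi : i = k
  · subst hi; exact ⟨m, by simp⟩
  · exact ⟨0, by simp [hi]⟩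

theorem rigDeg_ins_add {n : ℕ} (k : Fin (n + 1)) (t s : ℝ) (y : EuclideanSpace ℝ (Fin n)) :
    ins k (t + s) y = ins k t y + EuclideanSpace.single k s := by
  ext j
  refine Fin.succAboveCases k ?_ ?_ j
  · simp [ins_apply_self]
  · intro j; simp [ins_apply_succAbove, Fin.succAbove_ne]

/-- a null set mod 1 is null -/
theorem rigDeg_null (T : Set ℝ) (hp : ∀ (m : ℤ) (t : ℝ), t + m ∈ T ↔ t ∈ T)
    (h0 : volume (T ∩ Ico (0 : ℝ) 1) = 0) : volume T = 0 := by
  have h1 : T ⊆ ⋃ m : ℤ, (fun t : ℝ => t + (m : ℝ)) ⁻¹' (T ∩ Ico (0 : ℝ) 1) := by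
    intro t ht
    refine mem_iUnion.2 ⟨-⌊t⌋, ?_, ?_⟩
    · exact (hp _ t).2 ht
    · push_cast
      constructor
      · linarith [Int.floor_le t]
      · linarith [Int.lt_floor_add_one t]
  refine measure_mono_null h1 ?_
  refine measure_iUnion_null fun m => ?_
  have h2 := (measurePreserving_add_right (volume : Measure ℝ) (m : ℝ)).measure_preimage_equiv
    (f := MeasurableEquiv.addRight (m : ℝ)) (T ∩ Ico (0 : ℝ) 1)
  exact h2.trans h0

/-- CHUNK RIG-SH2 (easy): lines are empty or everything. -/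
theorem degenerate (k : Fin 3) (F B : Set E3) (hF : MeasurableSet F) (hFp : IsLatticePeriodic F)
    (hB : MeasurableSet B) (S : Set E2) (hBS : ∀ x, x ∈ B ↔ rem k x ∈ S)
    (hll : ∀ᵐ y : E2, ll k F y = ll k B y) : F =ᵐ[volume] B := by
  have hper : ∀ (y : E2) (m : ℤ) (t : ℝ), ins k (t + m) y ∈ F ↔ ins k t y ∈ F := by
    intro y m t
    rw [rigDeg_ins_add]
    exact (hFp _ (rigDeg_single_int k m) _)
  have hlineB : ∀ (y : E2) (t : ℝ), ins k t y ∈ B ↔ y ∈ S := by
    intro y t
    rw [hBS, rem_ins]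
  have hset : MeasurableSet {x : E3 | x ∈ F ↔ x ∈ B} := by
    have : {x : E3 | x ∈ F ↔ x ∈ B} = (F ∩ B) ∪ (Fᶜ ∩ Bᶜ) := by
      ext x
      show (x ∈ F ↔ x ∈ B) ↔ (x ∈ F ∧ x ∈ B) ∨ (x ∉ F ∧ x ∉ B)
      tauto
    rw [this]
    exact (hF.inter hB).union (hF.compl.inter hB.compl)
  have key : ∀ᵐ y : E2, ∀ᵐ t : ℝ, ins k t y ∈ {x : E3 | x ∈ F ↔ x ∈ B} := by
    filter_upwards [hll] with y hy
    have hmF : MeasurableSet (lineE k F y) := rigFub_meas_ins k y hF
    have hfin : volume (lineE k F y ∩ Ico (0 : ℝ) 1) ≠ ⊤ := by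
      refine ne_top_of_le_ne_top ?_ (measure_mono (inter_subset_right))
      rw [Real.volume_Ico]
      exact ENNReal.ofReal_ne_top
    by_cases hS : y ∈ S
    · have h1 : lineE k B y = univ := by
        ext t
        exact ⟨fun _ => mem_univ _, fun _ => (hlineB y t).2 hS⟩
      have h2 : (volume (lineE k F y ∩ Ico (0 : ℝ) 1)).toReal = 1 := by
        have h3 : ll k F y = ll k B y := hy
        unfold ll at h3
        rw [h3, h1, univ_inter, Real.volume_Ico]
        simp
      have h3 : volume (lineE k F y ∩ Ico (0 : ℝ) 1) = 1 := by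
        rw [← ENNReal.ofReal_toReal hfin, h2, ENNReal.ofReal_one]
      have h4 : volume ((lineE k F y)ᶜ ∩ Ico (0 : ℝ) 1) = 0 := by
        have h5 : (lineE k F y)ᶜ ∩ Ico (0 : ℝ) 1 = Ico (0 : ℝ) 1 \ (lineE k F y ∩ Ico (0 : ℝ) 1) := by
          ext t
          simp only [mem_inter_iff, mem_compl_iff, mem_diff]
          tauto
        rw [h5, measure_diff inter_subset_right (hmF.inter measurableSet_Ico).nullMeasurableSet hfin,
          h3, Real.volume_Ico]
        simp
      have h6 : volume ((lineE k F y)ᶜ) = 0 := by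
        refine rigDeg_null _ ?_ h4
        intro m t
        exact not_congr (hper y m t)
      rw [ae_iff]
      refine measure_mono_null ?_ h6
      intro t ht
      intro ht2
      exact ht ⟨fun _ => (hlineB y t).2 hS, fun _ => ht2⟩
    · have h1 : lineE k B y = ∅ := by
        ext t
        exact ⟨fun h => (hS ((hlineB y t).1 h)).elim, fun h => h.elim⟩
      have h2 : (volume (lineE k F y ∩ Ico (0 : ℝ) 1)).toReal = 0 := by
        have h3 : ll k F y = ll k B y := hy
        unfold ll at h3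
        rw [h3, h1, empty_inter]
        simp
      have h3 : volume (lineE k F y ∩ Ico (0 : ℝ) 1) = 0 := by
        rw [← ENNReal.ofReal_toReal hfin, h2, ENNReal.ofReal_zero]
      have h6 : volume (lineE k F y) = 0 := rigDeg_null _ (hper y) h3
      rw [ae_iff]
      refine measure_mono_null ?_ h6
      intro t ht
      by_contra ht2
      exact ht ⟨fun h => (ht2 h).elim, fun h => (hS ((hlineB y t).1 h)).elim⟩
  have h7 := ae_of_line k hset key
  filter_upwards [h7] with x hx
  exact propext hx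

end
end Crest.Agent.T3
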