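import Crest.Agent.T3.RigDefs
import Crest.Agent.T3.Fold
import Crest.Agent.T3.Ins
/-! Row 214: sets decreasing in the distance of a coordinate to the integers; Steiner symmetrisation keeps
this property. -/
set_option autoImplicit false
open MeasureTheory Set Filter Topology
open Crest.GeometryTopology.PeriodicPerimeter
namespace Crest.Agent.T3
noncomputable section

/-- `E` decreases in the distance of the coordinate `j` to the integers. -/
def Dec (j : Fin 3) (E : Set E3) : Prop :=
  ∀ x x' : E3, (∀ i, i ≠ j → x i = x' i) → fold (x j) ≤ fold (x' j) → x' ∈ E → x ∈ E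

theorem Dec_St_self (k : Fin 3) (E : Set E3) : Dec k (St k E) := by
  intro x x' h hf hx'
  have hr : rem k x = rem k x' := by
    ext i
    exact h _ (Fin.succAbove_ne k i)
  show fold (x k) < ll k E (rem k x)
  rw [hr]
  exact lt_of_le_of_lt hf hx'

/-- CHUNK DN1. (lines over the smaller point contain those over the larger point) -/
theorem Dec_St (j k : Fin 3) (hjk : j ≠ k) (E : Set E3) (_hE : MeasurableSet E) (h : Dec j E) :
    Dec j (St k E) := by
  intro x x' hx hf hx'
  have hk : x k = x' k := hx k (Ne.symm hjk)
  have hsub : lineE k E (rem k x') ⊆ lineE k E (rem k x) := by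
    intro t ht
    refine h (ins k t (rem k x)) (ins k t (rem k x')) ?_ ?_ ht
    · intro i hi
      by_cases hik : i = k
      · rw [hik, ins_apply_self, ins_apply_self]
      · obtain ⟨i', rfl⟩ := Fin.exists_succAbove_eq hik
        rw [ins_apply_succAbove, ins_apply_succAbove]
        exact hx _ hi
    · obtain ⟨i', hi'⟩ := Fin.exists_succAbove_eq hjk
      rw [← hi', ins_apply_succAbove, ins_apply_succAbove]
      show fold (x (k.succAbove i')) ≤ fold (x' (k.succAbove i'))
      rw [hi']
      exact hf
  have hle : ll k E (rem k x') ≤ ll k E (rem k x) := by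
    unfold ll
    refine ENNReal.toReal_mono ?_ (measure_mono (inter_subset_inter_left _ hsub))
    refine ne_top_of_le_ne_top ?_ (measure_mono inter_subset_right)
    rw [Real.volume_Ico]
    exact ENNReal.ofReal_ne_top
  show fold (x k) < ll k E (rem k x)
  rw [hk]
  exact lt_of_lt_of_le hx' hle

end
end Crest.Agent.T3
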