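import Crest.Agent.T3.RigBas
/-! Row 214, rigidity (7a), chunk RIG-GEN: construction of profiles. -/
set_option autoImplicit false
open MeasureTheory Set Filter Topology
open Crest.GeometryTopology.PeriodicPerimeter
namespace Crest.Agent.T3
noncomputable section

theorem RigGen_GG_open {L : E2 → ℝ} (cont : Continuous L) : IsOpen (GG L) :=
  (isOpen_lt continuous_const cont).inter (isOpen_lt cont continuous_const)

theorem RigGen_dd_per {n : ℕ} {F : EuclideanSpace ℝ (Fin n) → ℝ} (hF : Per F) (i : Fin n) :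
    Per (dd i F) := by
  intro v hv x
  unfold dd
  have h1 : (fun y => F (y + v)) = F := funext fun y => hF v hv y
  have h2 : fderiv ℝ (fun y => F (y + v)) x = fderiv ℝ F (x + v) := fderiv_comp_add_right v
  rw [h1] at h2
  rw [← h2]

theorem RigGen_ph0_per {L : E2 → ℝ} (per : Per L) (i : Fin 2) : Per (ph0 L i) := by
  intro v hv x
  unfold ph0
  rw [RigGen_dd_per per i v hv x, RigGen_dd_per per 0 v hv x, RigGen_dd_per per 1 v hv x]

theorem RigGen_c1 {L : E2 → ℝ} (cont : Continuous L) {χ : E2 → ℝ} (hχ : ContDiff ℝ 1 χ) {K2 : Set E2}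
    (hK2 : IsClosed K2) (hK2G : K2 ⊆ GG L) (h0 : ∀ y, y ∉ K2 → χ y = 0) {h : E2 → ℝ}
    (hh : ContDiffOn ℝ 1 h (GG L)) : ContDiff ℝ 1 (fun y => χ y * h y) := by
  rw [contDiff_iff_contDiffAt]
  intro y
  by_cases hy : y ∈ K2
  · have h1 : ContDiffAt ℝ 1 h y :=
      (hh y (hK2G hy)).contDiffAt ((RigGen_GG_open cont).mem_nhds (hK2G hy))
    exact hχ.contDiffAt.mul h1
  · have h1 : (fun y => χ y * h y) =ᶠ[𝓝 y] fun _ => (0 : ℝ) := by
      filter_upwards [hK2.isOpen_compl.mem_nhds hy] with z hz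
      rw [h0 z hz, zero_mul]
    exact contDiffAt_const.congr_of_eventuallyEq h1

theorem RigGen_dd_mul {L : E2 → ℝ} (cont : Continuous L) (c1 : ContDiffOn ℝ 1 L (GG L))
    {φ : E2 → ℝ} (hφ : ContDiff ℝ 1 φ) {K2 : Set E2}
    (hK2 : IsClosed K2) (hK2G : K2 ⊆ GG L) (h0 : ∀ y, y ∉ K2 → φ y = 0) (i : Fin 2) (y : E2) :
    dd i (fun z => L z * φ z) y = L y * dd i φ y + φ y * dd i L y := by
  by_cases hy : y ∈ K2
  · have h1 : ContDiffAt ℝ 1 L y :=
      (c1 y (hK2G hy)).contDiffAt ((RigGen_GG_open cont).mem_nhds (hK2G hy))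
    have h2 : HasFDerivAt (fun z => L z * φ z) (L y • fderiv ℝ φ y + φ y • fderiv ℝ L y) y :=
      ((h1.differentiableAt (by norm_num)).hasFDerivAt).mul
        ((hφ.differentiable (by norm_num)).differentiableAt.hasFDerivAt)
    unfold dd
    rw [h2.fderiv]
    simp only [add_apply, smul_apply, smul_eq_mul]
  · have h1 : (fun z => L z * φ z) =ᶠ[𝓝 y] fun _ => (0 : ℝ) := by
      filter_upwards [hK2.isOpen_compl.mem_nhds hy] with z hz
      rw [h0 z hz, mul_zero]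
    have h2 : φ =ᶠ[𝓝 y] fun _ => (0 : ℝ) := by
      filter_upwards [hK2.isOpen_compl.mem_nhds hy] with z hz
      exact h0 z hz
    unfold dd
    rw [h1.fderiv_eq, h2.fderiv_eq, h0 y hy]
    simp

/-- CHUNK RIG-GEN. PROOF of `cal`: `φ i = χ * ph0 L i` (`C¹`: on the open set `GG L` a product, on the open set `K2ᶜ` zero),
`|φ|² = χ² |ph0|² ≤ 1`.  `∫ L div φ = -∫ ∇L·φ` (`integral_dd_eq_zero` for the `C¹` function `L * φ i`, equal to `0` off `K2`)
`= ∫ χ |∇L|²/√(4+|∇L|²)`; this and `2√(1-|φ|²)` are `≥ 0`, and on `K1` the sum is `√(4+|∇L|²)`.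
(`-∇L·φ` vanishes off `K2` and is continuous, so everything is integrable on the cell.) -/
theorem prof_of (L : E2 → ℝ) (c : ℝ) (per : Per L) (cont : Continuous L) (mem : ∀ y, L y ∈ Icc (0 : ℝ) 1)
    (c1 : ContDiffOn ℝ 1 L (GG L)) (hph : ∀ i, ContDiffOn ℝ 1 (ph0 L i) (GG L))
    (conn : ∃ G0 : Set E2, IsOpen G0 ∧ IsPreconnected G0 ∧ G0 ⊆ GG L ∧
      ∀ y ∈ GG L, ∃ v, HasIntegerCoords v ∧ y + v ∈ G0)
    (hex : ∀ K : Set E2, IsClosed K → (∀ v, HasIntegerCoords v → ∀ x, x + v ∈ K ↔ x ∈ K) → K ⊆ GG L →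
      ∀ δ : ℝ, 0 < δ → ∃ (χ : E2 → ℝ) (K1 K2 : Set E2), ContDiff ℝ 1 χ ∧ Per χ ∧
        (∀ y, χ y ∈ Icc (0 : ℝ) 1) ∧ IsClosed K2 ∧ K2 ⊆ GG L ∧ (∀ y, y ∉ K2 → χ y = 0) ∧
        MeasurableSet K1 ∧ K ⊆ K1 ∧ (∀ y ∈ K1, χ y = 1) ∧
        c - δ ≤ ∫ y in K1 ∩ unitCell 2, Real.sqrt (4 + (dd 0 L y) ^ 2 + (dd 1 L y) ^ 2)) :
    Prof L c := by
  refine ⟨per, cont, mem, c1, ?_, conn⟩
  intro K hK hKp hKG δ hδ
  obtain ⟨χ, K1, K2, hχ, hχp, hχm, hK2, hK2G, hχ0, hK1, hKK1, hχ1, hint⟩ := hex K hK hKp hKG δ hδ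
  have hS : ∀ y, 0 < Real.sqrt (4 + (dd 0 L y) ^ 2 + (dd 1 L y) ^ 2) := fun y =>
    Real.sqrt_pos.2 (by positivity)
  have hS2 : ∀ y, Real.sqrt (4 + (dd 0 L y) ^ 2 + (dd 1 L y) ^ 2) ^ 2 =
      4 + (dd 0 L y) ^ 2 + (dd 1 L y) ^ 2 := fun y => Real.sq_sqrt (by positivity)
  set φ : Fin 2 → E2 → ℝ := fun i y => χ y * ph0 L i y with hφdef
  have hφc : ∀ i, ContDiff ℝ 1 (φ i) := fun i => RigGen_c1 cont hχ hK2 hK2G hχ0 (hph i)
  have hφ0 : ∀ i y, y ∉ K2 → φ i y = 0 := by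
    intro i y hy
    simp only [hφdef]
    rw [hχ0 y hy, zero_mul]
  have hφp : ∀ i, Per (φ i) := by
    intro i v hv x
    simp only [hφdef]
    rw [hχp v hv x, RigGen_ph0_per per i v hv x]
  have hsum : ∀ y, φ 0 y ^ 2 + φ 1 y ^ 2 = χ y ^ 2 * ((dd 0 L y) ^ 2 + (dd 1 L y) ^ 2) /
      (4 + (dd 0 L y) ^ 2 + (dd 1 L y) ^ 2) := by
    intro y
    simp only [hφdef, ph0]
    rw [mul_pow, mul_pow, div_pow, div_pow, hS2]
    ring
  have hle1 : ∀ y, φ 0 y ^ 2 + φ 1 y ^ 2 ≤ 1 := by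
    intro y
    rw [hsum, div_le_one (by positivity)]
    have h1 := hχm y
    have h2 : χ y ^ 2 ≤ 1 := by nlinarith [h1.1, h1.2]
    nlinarith [sq_nonneg (dd 0 L y), sq_nonneg (dd 1 L y), sq_nonneg (χ y)]
  -- the products
  have hFc : ∀ i, ContDiff ℝ 1 (fun y => L y * φ i y) := by
    intro i
    have h1 : ContDiff ℝ 1 (fun y => χ y * (L y * ph0 L i y)) :=
      RigGen_c1 cont hχ hK2 hK2G hχ0 (c1.mul (hph i))
    have h2 : (fun y => L y * φ i y) = fun y => χ y * (L y * ph0 L i y) := by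
      funext y
      simp only [hφdef]
      ring
    rw [h2]
    exact h1
  have hFp : ∀ i, Per (fun y => L y * φ i y) := by
    intro i v hv x
    show L (x + v) * φ i (x + v) = L x * φ i x
    rw [per v hv x, hφp i v hv x]
  have hdd : ∀ i y, dd i (fun z => L z * φ i z) y = L y * dd i (φ i) y + φ i y * dd i L y :=
    fun i y => RigGen_dd_mul cont c1 (hφc i) hK2 hK2G (hφ0 i) i y
  have hddc : ∀ (i : Fin 2) {F : E2 → ℝ}, ContDiff ℝ 1 F → Continuous (dd i F) := fun i F hF =>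
    (hF.continuous_fderiv (by norm_num)).clm_apply continuous_const
  set A : E2 → ℝ := fun y => -(φ 0 y * dd 0 L y) - φ 1 y * dd 1 L y with hA
  set B : E2 → ℝ := fun y => 2 * Real.sqrt (1 - φ 0 y ^ 2 - φ 1 y ^ 2) with hB
  have hpt : ∀ y, L y * (dd 0 (φ 0) y + dd 1 (φ 1) y) =
      (dd 0 (fun z => L z * φ 0 z) y + dd 1 (fun z => L z * φ 1 z) y) + A y := by
    intro y
    rw [hdd, hdd]
    simp only [hA]
    ring
  have hc1 : Continuous (fun y => L y * (dd 0 (φ 0) y + dd 1 (φ 1) y)) :=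
    cont.mul ((hddc 0 (hφc 0)).add (hddc 1 (hφc 1)))
  have hc2 : Continuous (fun y => dd 0 (fun z => L z * φ 0 z) y) := hddc 0 (hFc 0)
  have hc3 : Continuous (fun y => dd 1 (fun z => L z * φ 1 z) y) := hddc 1 (hFc 1)
  have hAc : Continuous A := by
    have h1 : A = fun y => L y * (dd 0 (φ 0) y + dd 1 (φ 1) y) -
        (dd 0 (fun z => L z * φ 0 z) y + dd 1 (fun z => L z * φ 1 z) y) := by
      funext y
      rw [hpt y]
      ring
    rw [h1]
    exact hc1.sub (hc2.add hc3)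
  have hBc : Continuous B :=
    continuous_const.mul (Real.continuous_sqrt.comp ((continuous_const.sub
      ((hφc 0).continuous.pow 2)).sub ((hφc 1).continuous.pow 2)))
  have hAeq : ∀ y, A y = χ y * ((dd 0 L y) ^ 2 + (dd 1 L y) ^ 2) /
      Real.sqrt (4 + (dd 0 L y) ^ 2 + (dd 1 L y) ^ 2) := by
    intro y
    simp only [hA, hφdef, ph0]
    ring
  have hA0 : ∀ y, 0 ≤ A y := by
    intro y
    rw [hAeq]
    have := (hχm y).1
    have := hS y
    positivity
  have hB0 : ∀ y, 0 ≤ B y := fun y => by simp only [hB]; positivity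
  have hI : ∫ y in unitCell 2, L y * (dd 0 (φ 0) y + dd 1 (φ 1) y) = ∫ y in unitCell 2, A y := by
    have hc23 : Continuous (fun y => dd 0 (fun z => L z * φ 0 z) y +
        dd 1 (fun z => L z * φ 1 z) y) := hc2.add hc3
    simp only [hpt]
    rw [integral_add (cont_integrableOn_cell _ hc23) (cont_integrableOn_cell _ hAc),
      integral_add (cont_integrableOn_cell _ hc2) (cont_integrableOn_cell _ hc3),
      integral_dd_eq_zero 0 _ (hFc 0) (hFp 0), integral_dd_eq_zero 1 _ (hFc 1) (hFp 1)]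
    ring
  refine ⟨φ, hφc, hφp, hle1, ?_, ?_⟩
  · intro y hy i
    simp only [hφdef]
    rw [hχ1 y (hKK1 hy), one_mul]
  · rw [hI]
    have hK1G : K1 ⊆ GG L := by
      intro y hy
      apply hK2G
      by_contra hcon
      have h1 := hχ1 y hy
      rw [hχ0 y hcon] at h1
      exact zero_ne_one h1
    have hm : MeasurableSet (K1 ∩ unitCell 2) := hK1.inter (measurableSet_unitCell 2)
    have hAi : IntegrableOn A (unitCell 2) := cont_integrableOn_cell _ hAc
    have hBi : IntegrableOn B (unitCell 2) := cont_integrableOn_cell _ hBc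
    have h1 : ∫ y in K1 ∩ unitCell 2, Real.sqrt (4 + (dd 0 L y) ^ 2 + (dd 1 L y) ^ 2) =
        ∫ y in K1 ∩ unitCell 2, (A y + B y) := by
      apply setIntegral_congr_fun hm
      intro y hy
      have hχy := hχ1 y hy.1
      show Real.sqrt (4 + (dd 0 L y) ^ 2 + (dd 1 L y) ^ 2) = A y + B y
      have h2 : B y = 4 / Real.sqrt (4 + (dd 0 L y) ^ 2 + (dd 1 L y) ^ 2) := by
        simp only [hB]
        have h3 : 1 - φ 0 y ^ 2 - φ 1 y ^ 2 =
            (2 / Real.sqrt (4 + (dd 0 L y) ^ 2 + (dd 1 L y) ^ 2)) ^ 2 := by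
          rw [sub_sub, hsum, hχy, div_pow, hS2]
          have h4 : (4 + (dd 0 L y) ^ 2 + (dd 1 L y) ^ 2) ≠ 0 := by positivity
          field_simp
          ring
        rw [h3, Real.sqrt_sq (by have := hS y; positivity)]
        ring
      rw [h2, hAeq, hχy, one_mul, ← add_div, eq_div_iff (hS y).ne']
      have h5 := hS2 y
      rw [sq] at h5
      rw [h5]
      ring
    rw [h1, integral_add (hAi.mono_set inter_subset_right) (hBi.mono_set inter_subset_right)] at hint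
    have h2 : ∫ y in K1 ∩ unitCell 2, A y ≤ ∫ y in unitCell 2, A y :=
      setIntegral_mono_set hAi (Eventually.of_forall hA0)
        (Eventually.of_forall fun y hy => hy.2)
    have h3 : ∫ y in K1 ∩ unitCell 2, B y ≤ ∫ y in GG L ∩ unitCell 2, B y :=
      setIntegral_mono_set (hBi.mono_set inter_subset_right) (Eventually.of_forall hB0)
        (Eventually.of_forall fun y hy => ⟨hK1G hy.1, hy.2⟩)
    have h4 : ∫ y in GG L ∩ unitCell 2, 2 * Real.sqrt (1 - φ 0 y ^ 2 - φ 1 y ^ 2) =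
        ∫ y in GG L ∩ unitCell 2, B y := rfl
    rw [h4]
    linarith

end
end Crest.Agent.T3
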