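import Crest.Agent.T3.RigBas
import Crest.Agent.T3.RigFub
import Crest.Agent.T3.Cell
import Crest.Agent.T3.Ibp
/-! Row 214, rigidity (7a), chunk RIG-LIM: limit of the basic inequality. -/
set_option autoImplicit false
open MeasureTheory Set Filter Topology
open Crest.GeometryTopology.PeriodicPerimeter
namespace Crest.Agent.T3
noncomputable section

theorem deriv_ins (k : Fin 3) (f : E3 → ℝ) (hf : ContDiff ℝ 1 f) (y : E2) (t : ℝ) :
    deriv (fun s => f (ins k s y)) t = dd k f (ins k t y) :=
  (hasDerivAt_ins f hf k t y).deriv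

theorem rl_dd_cont (k : Fin 3) (f : E3 → ℝ) (hf : ContDiff ℝ 1 f) : Continuous (dd k f) := by
  unfold dd
  exact (hf.continuous_fderiv (by norm_num)).clm_apply continuous_const

/-- inner integrals of an integrable function are integrable -/
theorem rl_inner_integrable (k : Fin 3) (F : E3 → ℝ) (hF : IntegrableOn F (unitCell 3)) :
    IntegrableOn (fun y : E2 => ∫ t in Ico (0 : ℝ) 1, F (ins k t y)) (unitCell 2) := by
  have h2 : IntegrableOn (fun p => F (insE k p)) (Ico (0 : ℝ) 1 ×ˢ unitCell 2)
      (volume : Measure (ℝ × E2)) := by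
    have := (insE_mp k).integrableOn_comp_preimage (insE k).measurableEmbedding
      (f := F) (s := unitCell 3)
    rw [insE_preimage_cell] at this
    exact this.2 hF
  rw [IntegrableOn, Measure.volume_eq_prod, ← Measure.prod_restrict] at h2
  exact h2.integral_prod_right

/-- CHUNK RIG-LIM. PROOF. `basic_ineq` for `f n`, `hf.le`; first term converges by dominated convergence (`hf.ae`, `hf.mem`),
second term by `integral_cell` and Fatou (`lintegral_liminf_le` for `ENNReal.ofReal` of the inner integrals). -/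
theorem limit_ineq (k : Fin 3) (F : Set E3) (hF : MeasurableSet F) (c : ℝ) (f : ℕ → E3 → ℝ)
    (hf : Approx F c f) (φ : Fin 2 → E3 → ℝ) (hφ : ∀ i, ContDiff ℝ 1 (φ i)) (hφp : ∀ i, Per (φ i))
    (hφ1 : ∀ x, φ 0 x ^ 2 + φ 1 x ^ 2 ≤ 1) (h : E2 → ℝ) (hm : AEStronglyMeasurable h volume)
    (h0 : ∀ y, 0 ≤ h y) (hb : ∃ M : ℝ, ∀ y, h y ≤ M)
    (hlim : ∀ᵐ y, ∀ δ : ℝ, 0 < δ → ∀ᶠ n in atTop, h y - δ ≤ ∫ t in Ico (0 : ℝ) 1,
      Real.sqrt (1 - φ 0 (ins k t y) ^ 2 - φ 1 (ins k t y) ^ 2) *
        |deriv (fun s => f n (ins k s y)) t|) :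
    (∫ x in F ∩ unitCell 3, (dd (k.succAbove 0) (φ 0) x + dd (k.succAbove 1) (φ 1) x)) +
      ∫ y in unitCell 2, h y ≤ c := by
  obtain ⟨M, hM⟩ := hb
  set D : E3 → ℝ := fun x => dd (k.succAbove 0) (φ 0) x + dd (k.succAbove 1) (φ 1) x with hD
  have hDc : Continuous D := (rl_dd_cont _ _ (hφ 0)).add (rl_dd_cont _ _ (hφ 1))
  have hDi : IntegrableOn D (unitCell 3) := cont_integrableOn_cell D hDc
  have hf1 : ∀ n, ContDiff ℝ 1 (f n) := fun n => (hf.smooth n).of_le (by norm_num)
  -- the second integrand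
  set W : ℕ → E3 → ℝ := fun n x => Real.sqrt (1 - φ 0 x ^ 2 - φ 1 x ^ 2) * |dd k (f n) x| with hW
  have hWc : ∀ n, Continuous (W n) := by
    intro n
    have h1 : Continuous (φ 0) := (hφ 0).continuous
    have h2 : Continuous (φ 1) := (hφ 1).continuous
    exact (Real.continuous_sqrt.comp ((continuous_const.sub (h1.pow 2)).sub (h2.pow 2))).mul
      (rl_dd_cont _ _ (hf1 n)).abs
  have hWi : ∀ n, IntegrableOn (W n) (unitCell 3) := fun n => cont_integrableOn_cell _ (hWc n)
  have hW0 : ∀ n x, 0 ≤ W n x := fun n x => mul_nonneg (Real.sqrt_nonneg _) (abs_nonneg _)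
  set g : ℕ → E2 → ℝ := fun n y => ∫ t in Ico (0 : ℝ) 1, W n (ins k t y) with hg
  have hgi : ∀ n, IntegrableOn (g n) (unitCell 2) := fun n => rl_inner_integrable k (W n) (hWi n)
  have hg0 : ∀ n y, 0 ≤ g n y := fun n y => integral_nonneg (fun t => hW0 n _)
  have hgW : ∀ n, ∫ x in unitCell 3, W n x = ∫ y in unitCell 2, g n y := fun n =>
    integral_cell k (W n) (hWi n)
  -- basic inequality
  have hbas : ∀ n, (∫ x in unitCell 3, f n x * D x) + ∫ y in unitCell 2, g n y ≤ c := by
    intro n
    have := basic_ineq k (f n) (hf.smooth n) (fun v hv x => hf.per n v hv x) φ hφ hφp hφ1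
    rw [← hgW n]
    exact this.trans (hf.le n)
  -- first term
  have hA : Tendsto (fun n => ∫ x in unitCell 3, f n x * D x) atTop
      (𝓝 (∫ x in unitCell 3, F.indicator (fun _ => (1 : ℝ)) x * D x)) := by
    refine tendsto_integral_of_dominated_convergence (fun x => |D x|) ?_ ?_ ?_ ?_
    · intro n
      exact ((hf.smooth n).continuous.mul hDc).aestronglyMeasurable
    · exact hDi.abs
    · intro n
      refine Eventually.of_forall fun x => ?_
      have h1 := hf.mem n x
      rw [Real.norm_eq_abs, abs_mul, abs_of_nonneg h1.1]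
      exact mul_le_of_le_one_left (abs_nonneg _) h1.2
    · refine ae_restrict_of_ae ?_
      filter_upwards [hf.ae] with x hx
      exact hx.mul_const _
  have hA' : ∫ x in unitCell 3, F.indicator (fun _ => (1 : ℝ)) x * D x = ∫ x in F ∩ unitCell 3, D x := by
    have : (fun x => F.indicator (fun _ => (1 : ℝ)) x * D x) = F.indicator D := by
      funext x
      by_cases hx : x ∈ F <;> simp [hx]
    rw [this, setIntegral_indicator hF, inter_comm]
  rw [hA'] at hA
  -- second term
  have hhi : IntegrableOn h (unitCell 2) := by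
    have hfin : volume (unitCell 2) ≠ ⊤ := by rw [volume_unitCell]; simp
    refine Measure.integrableOn_of_bounded (M := M) hfin hm ?_
    refine Eventually.of_forall fun y => ?_
    rw [Real.norm_eq_abs, abs_of_nonneg (h0 y)]
    exact hM y
  have hB : Tendsto (fun n => ∫ y in unitCell 2, min (g n y) (h y)) atTop
      (𝓝 (∫ y in unitCell 2, h y)) := by
    refine tendsto_integral_of_dominated_convergence h ?_ hhi ?_ ?_
    · intro n
      exact (hgi n).aestronglyMeasurable.inf hm.restrict
    · intro n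
      refine Eventually.of_forall fun y => ?_
      rw [Real.norm_eq_abs, abs_of_nonneg (le_min (hg0 n y) (h0 y))]
      exact min_le_right _ _
    · refine ae_restrict_of_ae ?_
      filter_upwards [hlim] with y hy
      rw [Metric.tendsto_atTop]
      intro ε hε
      obtain ⟨N, hN⟩ := eventually_atTop.1 (hy (ε / 2) (by positivity))
      refine ⟨N, fun n hn => ?_⟩
      have h1 := hN n hn
      have h2 : (∫ t in Ico (0 : ℝ) 1, Real.sqrt (1 - φ 0 (ins k t y) ^ 2 - φ 1 (ins k t y) ^ 2) *
          |deriv (fun s => f n (ins k s y)) t|) = g n y := by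
        simp only [hg, hW, deriv_ins k (f n) (hf1 n)]
      rw [h2] at h1
      rw [Real.dist_eq, abs_lt]
      constructor
      · rcases min_choice (g n y) (h y) with h3 | h3 <;> rw [h3] <;> linarith
      · have := min_le_right (g n y) (h y)
        linarith
  have hle : ∀ n, (∫ x in unitCell 3, f n x * D x) + ∫ y in unitCell 2, min (g n y) (h y) ≤ c := by
    intro n
    have hi : IntegrableOn (fun y => min (g n y) (h y)) (unitCell 2) := (hgi n).inf hhi
    have h5 : ∫ y in unitCell 2, min (g n y) (h y) ≤ ∫ y in unitCell 2, g n y :=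
      setIntegral_mono hi (hgi n) (fun y => min_le_left _ _)
    have h6 := hbas n
    linarith
  exact le_of_tendsto (hA.add hB) (Eventually.of_forall hle)

end
end Crest.Agent.T3
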