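import Crest.Agent.T3.RigDefs
/-! Row 214, rigidity (7a), chunk RIG-LW (1D). -/
set_option autoImplicit false
open MeasureTheory Set Filter Topology
namespace Crest.Agent.T3
noncomputable section

theorem riglw_mem {m l t : ℝ} (h : |t - m| < l / 2) : t ∈ arc m l := by
  show 2 * |t - m - round (t - m)| < l
  have h1 : |t - m - round (t - m)| ≤ |t - m - ((0 : ℤ) : ℝ)| := round_le (t - m) 0
  simp only [Int.cast_zero, sub_zero] at h1
  linarith

theorem riglw_not_mem {m l t : ℝ} (h : l / 2 ≤ |t - m|) (h' : |t - m| ≤ 1 - l / 2) :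
    t ∉ arc m l := by
  intro h0
  have h0' : 2 * |t - m - round (t - m)| < l := h0
  generalize round (t - m) = k at h0'
  rcases eq_or_ne k 0 with hk | hk
  · subst hk
    simp only [Int.cast_zero, sub_zero] at h0'
    linarith
  · have h1 : (1 : ℝ) ≤ |(k : ℝ)| := by
      have : (1 : ℤ) ≤ |k| := Int.one_le_abs hk
      exact_mod_cast this
    have h2 : |(k : ℝ)| ≤ |t - m| + |t - m - k| := by
      have := abs_sub (t - m) (t - m - k)
      have h3 : t - m - (t - m - k) = (k : ℝ) := by ring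
      rwa [h3] at this
    linarith

theorem riglw_step (f : ℝ → ℝ) (hf : ContDiff ℝ 1 f) (w : ℝ → ℝ) (hw : Continuous w)
    (A s t : ℝ) (hst : s ≤ t) (hA : 0 ≤ A) (h : ∀ x ∈ Icc s t, A ≤ w x) :
    A * |f t - f s| ≤ ∫ x in s..t, w x * |deriv f x| := by
  have hd : Continuous (deriv f) := hf.continuous_deriv le_rfl
  have h1 : ∫ x in s..t, deriv f x = f t - f s :=
    intervalIntegral.integral_deriv_eq_sub (fun x _ => (hf.differentiable (by norm_num)) x)
      (hd.intervalIntegrable _ _)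
  have h2 : |f t - f s| ≤ ∫ x in s..t, |deriv f x| := by
    rw [← h1]
    exact intervalIntegral.abs_integral_le_integral_abs hst
  calc A * |f t - f s| ≤ A * ∫ x in s..t, |deriv f x| := mul_le_mul_of_nonneg_left h2 hA
    _ = ∫ x in s..t, A * |deriv f x| := (intervalIntegral.integral_const_mul _ _).symm
    _ ≤ _ := by
      apply intervalIntegral.integral_mono_on hst
      · exact (continuous_const.mul hd.abs).intervalIntegrable _ _
      · exact (hw.mul hd.abs).intervalIntegrable _ _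
      · intro x hx
        exact mul_le_mul_of_nonneg_right (h x hx) (abs_nonneg _)

/-- CHUNK RIG-LW. PROOF. `a = m - l/2`, `b = m + l/2`. For small `ρ > 0` (with `2ρ < l`, `2ρ < 1 - l`, `w ≥ w a - δ/4` on
`[a-ρ, a+ρ]`, same at `b`) choose convergence points `t₁ ∈ (a-ρ, a)`, `t₂ ∈ (a, a+ρ)`, `t₃ ∈ (b-ρ, b)`, `t₄ ∈ (b, b+ρ)`:
`g t₁, g t₄ → 0`, `g t₂, g t₃ → 1`, all in one period `[a-ρ, a-ρ+1)`; `∫_{t₁}^{t₂} w |g'| ≥ (w a - δ/4)|g t₂ - g t₁|` (if that
constant is `≥ 0`), etc.  (`w` bounded; periodicity moves the period.) -/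
theorem lscw (g : ℕ → ℝ → ℝ) (hg : ∀ n, ContDiff ℝ 1 (g n)) (hp : ∀ n t, g n (t + 1) = g n t)
    (w : ℝ → ℝ) (hw : Continuous w) (hwp : ∀ t, w (t + 1) = w t) (hw0 : ∀ t, 0 ≤ w t)
    (m l : ℝ) (hl0 : 0 < l) (hl1 : l < 1)
    (hlim : ∀ᵐ t, Tendsto (fun n => g n t) atTop (𝓝 ((arc m l).indicator (fun _ => (1 : ℝ)) t)))
    (δ : ℝ) (hδ : 0 < δ) :
    ∀ᶠ n in atTop, w (m - l / 2) + w (m + l / 2) - δ ≤
      ∫ t in Ico (0 : ℝ) 1, w t * |deriv (g n) t| := by
  obtain ⟨ρ₁, hρ₁, h₁⟩ := Metric.eventually_nhds_iff_ball.1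
    (hw.continuousAt.eventually (lt_mem_nhds (show w (m - l / 2) - δ / 4 < w (m - l / 2) by linarith)))
  obtain ⟨ρ₂, hρ₂, h₂⟩ := Metric.eventually_nhds_iff_ball.1
    (hw.continuousAt.eventually (lt_mem_nhds (show w (m + l / 2) - δ / 4 < w (m + l / 2) by linarith)))
  obtain ⟨ρ, hρ, hρ1, hρ2, hρl, hρl'⟩ :
      ∃ ρ : ℝ, 0 < ρ ∧ ρ < ρ₁ ∧ ρ < ρ₂ ∧ 2 * ρ < l ∧ 2 * ρ < 1 - l := by
    have h0 : 0 < min (min ρ₁ ρ₂) (min l (1 - l)) :=
      lt_min (lt_min hρ₁ hρ₂) (lt_min hl0 (by linarith))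
    refine ⟨min (min ρ₁ ρ₂) (min l (1 - l)) / 3, by linarith, ?_, ?_, ?_, ?_⟩
    · have := (min_le_left (min ρ₁ ρ₂) (min l (1 - l))).trans (min_le_left _ _)
      linarith
    · have := (min_le_left (min ρ₁ ρ₂) (min l (1 - l))).trans (min_le_right _ _)
      linarith
    · have := (min_le_right (min ρ₁ ρ₂) (min l (1 - l))).trans (min_le_left _ _)
      linarith
    · have := (min_le_right (min ρ₁ ρ₂) (min l (1 - l))).trans (min_le_right _ _)
      linarith
  have hdense := Measure.dense_of_ae hlim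
  obtain ⟨t₁, c₁, ht₁⟩ := hdense.exists_between (show m - l / 2 - ρ < m - l / 2 by linarith)
  obtain ⟨t₂, c₂, ht₂⟩ := hdense.exists_between (show m - l / 2 < m - l / 2 + ρ by linarith)
  obtain ⟨t₃, c₃, ht₃⟩ := hdense.exists_between (show m + l / 2 - ρ < m + l / 2 by linarith)
  obtain ⟨t₄, c₄, ht₄⟩ := hdense.exists_between (show m + l / 2 < m + l / 2 + ρ by linarith)
  have n₁ : t₁ ∉ arc m l := by
    apply riglw_not_mem
    · rw [abs_of_neg (by linarith [ht₁.1, ht₁.2])]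
      linarith [ht₁.1, ht₁.2]
    · rw [abs_of_neg (by linarith [ht₁.1, ht₁.2])]
      linarith [ht₁.1, ht₁.2]
  have n₂ : t₂ ∈ arc m l := by
    apply riglw_mem
    rw [abs_lt]
    constructor <;> linarith [ht₂.1, ht₂.2]
  have n₃ : t₃ ∈ arc m l := by
    apply riglw_mem
    rw [abs_lt]
    constructor <;> linarith [ht₃.1, ht₃.2]
  have n₄ : t₄ ∉ arc m l := by
    apply riglw_not_mem
    · rw [abs_of_pos (by linarith [ht₄.1, ht₄.2])]
      linarith [ht₄.1, ht₄.2]
    · rw [abs_of_pos (by linarith [ht₄.1, ht₄.2])]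
      linarith [ht₄.1, ht₄.2]
  simp only [mem_ofPred_eq, indicator_of_notMem n₁] at c₁
  simp only [mem_ofPred_eq, indicator_of_mem n₂] at c₂
  simp only [mem_ofPred_eq, indicator_of_mem n₃] at c₃
  simp only [mem_ofPred_eq, indicator_of_notMem n₄] at c₄
  -- the constants
  set A := max (w (m - l / 2) - δ / 4) 0 with hA
  set B := max (w (m + l / 2) - δ / 4) 0 with hB
  have hA0 : 0 ≤ A := le_max_right _ _
  have hB0 : 0 ≤ B := le_max_right _ _
  have hAw : ∀ x ∈ Icc t₁ t₂, A ≤ w x := by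
    intro x hx
    refine max_le (h₁ x ?_).le (hw0 x)
    rw [Metric.mem_ball, Real.dist_eq, abs_lt]
    constructor <;> linarith [hx.1, hx.2, ht₁.1, ht₁.2, ht₂.1, ht₂.2]
  have hBw : ∀ x ∈ Icc t₃ t₄, B ≤ w x := by
    intro x hx
    refine max_le (h₂ x ?_).le (hw0 x)
    rw [Metric.mem_ball, Real.dist_eq, abs_lt]
    constructor <;> linarith [hx.1, hx.2, ht₃.1, ht₃.2, ht₄.1, ht₄.2]
  have h12 : t₁ ≤ t₂ := by linarith [ht₁.2, ht₂.1]
  have h23 : t₂ ≤ t₃ := by linarith [ht₂.2, ht₃.1]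
  have h34 : t₃ ≤ t₄ := by linarith [ht₃.2, ht₄.1]
  have h41 : t₄ ≤ t₁ + 1 := by linarith [ht₄.2, ht₁.1]
  have key : ∀ n, A * |g n t₂ - g n t₁| + B * |g n t₄ - g n t₃| ≤
      ∫ t in Ico (0 : ℝ) 1, w t * |deriv (g n) t| := by
    intro n
    have hd : Continuous (deriv (g n)) := (hg n).continuous_deriv le_rfl
    have hc : Continuous (fun t => w t * |deriv (g n) t|) := hw.mul hd.abs
    have hdp : ∀ t, deriv (g n) (t + 1) = deriv (g n) t := by
      intro t
      have : (fun x => g n (x + 1)) = g n := funext (hp n)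
      rw [← deriv_comp_add_const, this]
    have hper : Function.Periodic (fun t => w t * |deriv (g n) t|) 1 := by
      intro t
      show w (t + 1) * |deriv (g n) (t + 1)| = w t * |deriv (g n) t|
      rw [hwp, hdp]
    have e1 : ∫ t in Ico (0 : ℝ) 1, w t * |deriv (g n) t| =
        ∫ t in t₁..(t₁ + 1), w t * |deriv (g n) t| := by
      rw [integral_Ico_eq_integral_Ioc, ← intervalIntegral.integral_of_le zero_le_one]
      have := hper.intervalIntegral_add_eq 0 t₁
      rw [zero_add] at this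
      exact this
    have hi : ∀ u v, IntervalIntegrable (fun t => w t * |deriv (g n) t|) volume u v :=
      fun u v => hc.intervalIntegrable u v
    have e2 := intervalIntegral.integral_add_adjacent_intervals (hi t₁ t₂) (hi t₂ t₃)
    have e3 := intervalIntegral.integral_add_adjacent_intervals (hi t₁ t₃) (hi t₃ t₄)
    have e4 := intervalIntegral.integral_add_adjacent_intervals (hi t₁ t₄) (hi t₄ (t₁ + 1))
    have p2 : 0 ≤ ∫ t in t₂..t₃, w t * |deriv (g n) t| :=
      intervalIntegral.integral_nonneg h23 (fun x _ => mul_nonneg (hw0 x) (abs_nonneg _))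
    have p4 : 0 ≤ ∫ t in t₄..(t₁ + 1), w t * |deriv (g n) t| :=
      intervalIntegral.integral_nonneg h41 (fun x _ => mul_nonneg (hw0 x) (abs_nonneg _))
    have s1 := riglw_step (g n) (hg n) w hw A t₁ t₂ h12 hA0 hAw
    have s3 := riglw_step (g n) (hg n) w hw B t₃ t₄ h34 hB0 hBw
    rw [e1]
    linarith
  have hT : Tendsto (fun n => A * |g n t₂ - g n t₁| + B * |g n t₄ - g n t₃|) atTop
      (𝓝 (A * |1 - 0| + B * |0 - 1|)) :=
    ((c₂.sub c₁).abs.const_mul A).add ((c₄.sub c₃).abs.const_mul B)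
  have hlt : w (m - l / 2) + w (m + l / 2) - δ < A * |1 - 0| + B * |0 - 1| := by
    have e1 : |(1 : ℝ) - 0| = 1 := by norm_num
    have e2 : |(0 : ℝ) - 1| = 1 := by norm_num
    rw [e1, e2]
    have := le_max_left (w (m - l / 2) - δ / 4) 0
    have := le_max_left (w (m + l / 2) - δ / 4) 0
    linarith
  filter_upwards [hT.eventually (lt_mem_nhds hlt)] with n hn
  exact hn.le.trans (key n)

end
end Crest.Agent.T3
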