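import Crest.Agent.T3.RigGen
import Crest.Agent.T3.RigArc
import Crest.Agent.T3.RigFub
import Crest.Agent.T3.RigDeg
/-! Row 214, rigidity (7a): profiles of the standard sets. -/
set_option autoImplicit false
open MeasureTheory Set Filter Topology
open Crest.GeometryTopology.PeriodicPerimeter
namespace Crest.Agent.T3
noncomputable section

/-- profile of the ball -/
def LB (r : ℝ) (y : E2) : ℝ := 2 * Real.sqrt (r ^ 2 - (fold (y 0) / 2) ^ 2 - (fold (y 1) / 2) ^ 2)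

/-- profile of a tube transversal to the direction -/
def LT (i : Fin 2) (r : ℝ) (y : E2) : ℝ := 2 * Real.sqrt (r ^ 2 - (fold (y i) / 2) ^ 2)

theorem rigSh_lt_sqrt {a b : ℝ} (ha : 0 ≤ a) : a < 2 * Real.sqrt b ↔ (a / 2) ^ 2 < b := by
  rw [← Real.lt_sqrt (by positivity)]
  constructor
  · intro h; linarith
  · intro h; linarith

/-- CHUNK RIG-SH1 (easy) -/
theorem ball_reg (k : Fin 3) (r : ℝ) (hr : 0 < r) : stdB (.ball r) = reg k (LB r) 0 := by
  ext x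
  show (fold (x 0) / 2) ^ 2 + (fold (x 1) / 2) ^ 2 + (fold (x 2) / 2) ^ 2 < r ^ 2 ↔
    fold (x k - 0) < 2 * Real.sqrt (r ^ 2 - (fold (x (k.succAbove 0)) / 2) ^ 2 -
      (fold (x (k.succAbove 1)) / 2) ^ 2)
  rw [sub_zero, rigSh_lt_sqrt (fold_nonneg _)]
  fin_cases k
  · show _ ↔ (fold (x 0) / 2) ^ 2 < r ^ 2 - (fold (x 1) / 2) ^ 2 - (fold (x 2) / 2) ^ 2
    constructor
    · intro h; linarith
    · intro h; linarith
  · show _ ↔ (fold (x 1) / 2) ^ 2 < r ^ 2 - (fold (x 0) / 2) ^ 2 - (fold (x 2) / 2) ^ 2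
    constructor
    · intro h; linarith
    · intro h; linarith
  · show _ ↔ (fold (x 2) / 2) ^ 2 < r ^ 2 - (fold (x 0) / 2) ^ 2 - (fold (x 1) / 2) ^ 2
    constructor
    · intro h; linarith
    · intro h; linarith

theorem rigSh_tube (j k : Fin 3) (i : Fin 2) (r : ℝ)
    (h : ∀ x : E3, (fold (x (j.succAbove 0)) / 2) ^ 2 + (fold (x (j.succAbove 1)) / 2) ^ 2 =
      (fold (x k) / 2) ^ 2 + (fold (x (k.succAbove i)) / 2) ^ 2) :
    stdB (.tube j r) = reg k (LT i r) 0 := by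
  ext x
  show (fold (x (j.succAbove 0)) / 2) ^ 2 + (fold (x (j.succAbove 1)) / 2) ^ 2 < r ^ 2 ↔
    fold (x k - 0) < 2 * Real.sqrt (r ^ 2 - (fold (x (k.succAbove i)) / 2) ^ 2)
  rw [sub_zero, rigSh_lt_sqrt (fold_nonneg _), h]
  constructor
  · intro h; linarith
  · intro h; linarith

theorem tube_reg (j k : Fin 3) (hjk : k ≠ j) (r : ℝ) (hr : 0 < r) :
    ∃ i : Fin 2, stdB (.tube j r) = reg k (LT i r) 0 := by
  fin_cases j <;> fin_cases k
  · exact absurd rfl hjk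
  · refine ⟨1, rigSh_tube _ _ _ r fun x => ?_⟩
    show (fold (x 1) / 2) ^ 2 + (fold (x 2) / 2) ^ 2 = (fold (x 1) / 2) ^ 2 + (fold (x 2) / 2) ^ 2
    ring
  · refine ⟨1, rigSh_tube _ _ _ r fun x => ?_⟩
    show (fold (x 1) / 2) ^ 2 + (fold (x 2) / 2) ^ 2 = (fold (x 2) / 2) ^ 2 + (fold (x 1) / 2) ^ 2
    ring
  · refine ⟨1, rigSh_tube _ _ _ r fun x => ?_⟩
    show (fold (x 0) / 2) ^ 2 + (fold (x 2) / 2) ^ 2 = (fold (x 0) / 2) ^ 2 + (fold (x 2) / 2) ^ 2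
    ring
  · exact absurd rfl hjk
  · refine ⟨0, rigSh_tube _ _ _ r fun x => ?_⟩
    show (fold (x 0) / 2) ^ 2 + (fold (x 2) / 2) ^ 2 = (fold (x 2) / 2) ^ 2 + (fold (x 0) / 2) ^ 2
    ring
  · refine ⟨0, rigSh_tube _ _ _ r fun x => ?_⟩
    show (fold (x 0) / 2) ^ 2 + (fold (x 1) / 2) ^ 2 = (fold (x 0) / 2) ^ 2 + (fold (x 1) / 2) ^ 2
    ring
  · refine ⟨0, rigSh_tube _ _ _ r fun x => ?_⟩
    show (fold (x 0) / 2) ^ 2 + (fold (x 1) / 2) ^ 2 = (fold (x 1) / 2) ^ 2 + (fold (x 0) / 2) ^ 2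
    ring
  · exact absurd rfl hjk

theorem slab_reg (j : Fin 3) (w : ℝ) : stdB (.slab j w) = reg j (fun _ => w) 0 := by
  ext x
  show fold (x j) < w ↔ fold (x j - 0) < w
  rw [sub_zero]

theorem rigSh_sqrt_mem (r b : ℝ) (h0 : 0 < r) (h1 : r < 1 / 2) (hb : b ≤ r ^ 2) :
    2 * Real.sqrt b ∈ Icc (0 : ℝ) 1 := by
  have h2 : Real.sqrt b ≤ r := by
    rw [Real.sqrt_le_left h0.le]
    exact hb
  have h3 := Real.sqrt_nonneg b
  constructor
  · linarith
  · linarith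

theorem LB_mem (r : ℝ) (h0 : 0 < r) (h1 : r < 1 / 2) (y : E2) : LB r y ∈ Icc (0 : ℝ) 1 := by
  refine rigSh_sqrt_mem r _ h0 h1 ?_
  have h2 := sq_nonneg (fold (y 0) / 2)
  have h3 := sq_nonneg (fold (y 1) / 2)
  linarith

theorem LT_mem (i : Fin 2) (r : ℝ) (h0 : 0 < r) (h1 : r < 1 / 2) (y : E2) :
    LT i r y ∈ Icc (0 : ℝ) 1 := by
  refine rigSh_sqrt_mem r _ h0 h1 ?_
  have h2 := sq_nonneg (fold (y i) / 2)
  linarith

/-- from `volume_arc` -/
theorem ll_reg (k : Fin 3) (L : E2 → ℝ) (m : ℝ) (hL : ∀ y, L y ∈ Icc (0 : ℝ) 1) (y : E2) :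
    ll k (reg k L m) y = L y := by
  have h1 : lineE k (reg k L m) y = arc m (L y) := by
    ext t
    show fold (ins k t y k - m) < L (rem k (ins k t y)) ↔ fold (t - m) < L y
    rw [ins_self, rem_ins]
  unfold ll
  rw [h1, volume_arc m (L y) (hL y).1 (hL y).2]

/-- translating a region in direction `k` -/
theorem reg_shift (k : Fin 3) (L : E2 → ℝ) (m : ℝ) :
    reg k L m = {x | x - EuclideanSpace.single k m ∈ reg k L 0} := by
  ext x
  have h1 : rem k (x - EuclideanSpace.single k m) = rem k x := by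
    ext i
    show (x - EuclideanSpace.single k m) (k.succAbove i) = x (k.succAbove i)
    simp [Fin.succAbove_ne]
  have h2 : (x - EuclideanSpace.single k m) k = x k - m := by simp
  show fold (x k - m) < L (rem k x) ↔
    fold ((x - EuclideanSpace.single k m) k - 0) < L (rem k (x - EuclideanSpace.single k m))
  rw [h1, h2, sub_zero]

end
end Crest.Agent.T3
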