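import Crest.Agent.T3.RigShape
/-! Row 214, rigidity (7a), chunk RIG-SLAB. -/
set_option autoImplicit false
open MeasureTheory Set Filter Topology
open Crest.GeometryTopology.PeriodicPerimeter
namespace Crest.Agent.T3
noncomputable section

/-- CHUNK RIG-SLAB. `prof_of` (or directly): `χ = 1`, `K1 = K2 = univ`, `∫_cell √4 = 2`, `G0 = univ`. -/
theorem prof_slab (w : ℝ) (h0 : 0 < w) (h1 : w < 1) : Prof (fun _ => w) 2 := by
  have hG : GG (fun _ : E2 => w) = univ := by
    ext y
    simp [GG, h0, h1]
  have hd : ∀ (i : Fin 2) (c : ℝ) (y : E2), dd i (fun _ => c) y = 0 := by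
    intro i c y
    unfold dd
    rw [show (fun _ : EuclideanSpace ℝ (Fin 2) => c) = Function.const _ c from rfl]
    simp
  refine ⟨fun _ _ _ => rfl, continuous_const, fun _ => ⟨h0.le, h1.le⟩, contDiffOn_const, ?_, ?_⟩
  · intro K _ _ _ δ hδ
    refine ⟨fun _ _ => 0, fun _ => contDiff_const, fun _ _ _ _ => rfl, fun _ => by norm_num, ?_, ?_⟩
    · intro y _ i
      unfold ph0
      rw [hd]
      simp
    · simp only [hd, hG, univ_inter]
      norm_num
      have : volume.real (unitCell 2) = 1 := by
        rw [Measure.real, volume_unitCell]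
        simp
      rw [this]
      linarith
  · exact ⟨univ, isOpen_univ, isPreconnected_univ, by rw [hG],
      fun y _ => ⟨0, fun i => ⟨0, by simp⟩, mem_univ _⟩⟩

end
end Crest.Agent.T3
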