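import Crest.Agent.T3.RigShape
/-! Row 214, rigidity (7a), chunk RIG-TUBE. -/
set_option autoImplicit false
open MeasureTheory Set Filter Topology
open Crest.GeometryTopology.PeriodicPerimeter
namespace Crest.Agent.T3
noncomputable section

theorem rigT_round {t : ℝ} {n : ℤ} (h : |t - n| < 1 / 2) : round t = n := by
  have h1 : |(round t : ℝ) - n| < 1 := by
    have h2 := abs_sub_round t
    have h3 : (round t : ℝ) - n = (t - n) - (t - round t) := by ring
    rw [h3]
    calc |(t - n) - (t - round t)| ≤ |t - n| + |t - round t| := abs_sub _ _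
      _ < 1 := by linarith
  have h4 : |round t - n| < 1 := by exact_mod_cast h1
  rw [Int.abs_lt_one_iff] at h4
  omega

theorem rigT_abs (t : ℝ) : |t - round t| = fold t / 2 := by
  unfold fold; ring

theorem rigT_sq (t : ℝ) : (t - round t) ^ 2 = (fold t / 2) ^ 2 := by
  rw [← rigT_abs, sq_abs]

theorem rigT_LT (i : Fin 2) (r : ℝ) (y : E2) :
    LT i r y = 2 * Real.sqrt (r ^ 2 - (y i - round (y i)) ^ 2) := by
  unfold LT
  rw [rigT_sq]

theorem rigT_GG (i : Fin 2) (r : ℝ) (h0 : 0 < r) (h1 : r < 1 / 2) (y : E2) :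
    y ∈ GG (LT i r) ↔ |y i - round (y i)| < r := by
  unfold GG
  rw [mem_ofPred_eq, rigT_LT]
  constructor
  · rintro ⟨h, -⟩
    have h2 : 0 < r ^ 2 - (y i - round (y i)) ^ 2 := by
      by_contra hc
      push Not at hc
      rw [Real.sqrt_eq_zero_of_nonpos hc] at h
      simp at h
    exact abs_lt_of_sq_lt_sq (by linarith) h0.le
  · intro h
    have h2 : (y i - round (y i)) ^ 2 < r ^ 2 := by
      rw [← sq_abs]
      exact pow_lt_pow_left₀ h (abs_nonneg _) two_ne_zero
    have h3 : 0 < Real.sqrt (r ^ 2 - (y i - round (y i)) ^ 2) := Real.sqrt_pos.2 (by linarith)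
    have h4 : Real.sqrt (r ^ 2 - (y i - round (y i)) ^ 2) ≤ r := by
      rw [Real.sqrt_le_left h0.le]
      nlinarith [sq_nonneg (y i - round (y i))]
    constructor <;> linarith

theorem rigT_proj_cont (i : Fin 2) : Continuous (fun y : E2 => y i) := by fun_prop

theorem rigT_loc (i : Fin 2) (y : E2) (h : |y i - round (y i)| < 1 / 2) :
    ∀ᶠ z in 𝓝 y, round (z i) = round (y i) := by
  have h1 : ∀ᶠ z : E2 in 𝓝 y, |z i - round (y i)| < 1 / 2 := by
    have hc : Continuous (fun z : E2 => |z i - round (y i)|) := by fun_prop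
    exact hc.continuousAt.eventually_lt_const h
  exact h1.mono fun z hz => rigT_round hz

theorem rigT_hasF (i : Fin 2) (r : ℝ) (n : ℤ) (y : E2) (h : (y i - n) ^ 2 < r ^ 2) :
    HasFDerivAt (fun y : E2 => 2 * Real.sqrt (r ^ 2 - (y i - n) ^ 2))
      ((-2 * (y i - n) / Real.sqrt (r ^ 2 - (y i - n) ^ 2)) •
        (EuclideanSpace.proj i : E2 →L[ℝ] ℝ)) y := by
  have h1 : HasDerivAt (fun t : ℝ => 2 * Real.sqrt (r ^ 2 - (t - n) ^ 2))
      (-2 * (y i - n) / Real.sqrt (r ^ 2 - (y i - n) ^ 2)) (y i) := by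
    have h2 : HasDerivAt (fun t : ℝ => r ^ 2 - (t - n) ^ 2) (-(2 * (y i - n))) (y i) := by
      have := (((hasDerivAt_id (y i)).sub_const (n : ℝ)).pow 2).const_sub (r ^ 2)
      simpa using this
    have hpos : 0 < r ^ 2 - (y i - n) ^ 2 := by linarith
    have h3 := (h2.sqrt hpos.ne').const_mul 2
    refine h3.congr_deriv ?_
    have h4 := (Real.sqrt_pos.2 hpos).ne'
    have h5 : ∀ a b : ℝ, b ≠ 0 → 2 * (-(2 * a) / (2 * b)) = -2 * a / b := by
      intro a b hb
      field_simp
    exact h5 _ _ h4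
  have h6 : HasFDerivAt (fun y : E2 => y i) (EuclideanSpace.proj i : E2 →L[ℝ] ℝ) y :=
    (EuclideanSpace.proj i : E2 →L[ℝ] ℝ).hasFDerivAt
  exact HasDerivAt.comp_hasFDerivAt (f := fun y : E2 => y i)
    (h₂ := fun t : ℝ => 2 * Real.sqrt (r ^ 2 - (t - n) ^ 2)) y h1 h6

theorem rigT_evEq (i : Fin 2) (r : ℝ) (y : E2) (h : |y i - round (y i)| < 1 / 2) :
    LT i r =ᶠ[𝓝 y] fun z : E2 => 2 * Real.sqrt (r ^ 2 - (z i - round (y i)) ^ 2) := by
  filter_upwards [rigT_loc i y h] with z hz
  rw [rigT_LT, hz]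

/-- derivatives of the profile: with `s = y i - round (y i)`, `|s| < r`: `∂_i L = -2 s/√(r²-s²)`, the other one is `0`,
`√(4+|∇L|²) = 2r/√(r²-s²)`, `ph0 L i = s/r`. -/
theorem LT_dd (i : Fin 2) (r : ℝ) (h0 : 0 < r) (h1 : r < 1 / 2) (y : E2) (hy : y ∈ GG (LT i r)) :
    |y i - round (y i)| < r ∧
    (∀ j : Fin 2, dd j (LT i r) y = if j = i then
      -2 * (y i - round (y i)) / Real.sqrt (r ^ 2 - (y i - round (y i)) ^ 2) else 0) ∧
    Real.sqrt (4 + (dd 0 (LT i r) y) ^ 2 + (dd 1 (LT i r) y) ^ 2) =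
      2 * r / Real.sqrt (r ^ 2 - (y i - round (y i)) ^ 2) := by
  have hlt := (rigT_GG i r h0 h1 y).1 hy
  have h2 : (y i - round (y i)) ^ 2 < r ^ 2 := by
    rw [← sq_abs]
    exact pow_lt_pow_left₀ hlt (abs_nonneg _) two_ne_zero
  have hdd : ∀ j : Fin 2, dd j (LT i r) y = if j = i then
      -2 * (y i - round (y i)) / Real.sqrt (r ^ 2 - (y i - round (y i)) ^ 2) else 0 := by
    intro j
    unfold dd
    rw [(rigT_evEq i r y (by linarith)).fderiv_eq, (rigT_hasF i r (round (y i)) y h2).fderiv]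
    by_cases hj : j = i
    · subst hj
      simp
    · simp [hj, Ne.symm hj]
  refine ⟨hlt, hdd, ?_⟩
  have hpos : 0 < r ^ 2 - (y i - round (y i)) ^ 2 := by linarith
  have hs := Real.sqrt_pos.2 hpos
  have hsum : (dd 0 (LT i r) y) ^ 2 + (dd 1 (LT i r) y) ^ 2 =
      (-2 * (y i - round (y i)) / Real.sqrt (r ^ 2 - (y i - round (y i)) ^ 2)) ^ 2 := by
    rw [hdd, hdd]
    fin_cases i
    · simp
    · simp
  rw [add_assoc, hsum]
  rw [show (4 : ℝ) + (-2 * (y i - round (y i)) / Real.sqrt (r ^ 2 - (y i - round (y i)) ^ 2)) ^ 2 =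
    (2 * r / Real.sqrt (r ^ 2 - (y i - round (y i)) ^ 2)) ^ 2 by
      rw [div_pow, div_pow, Real.sq_sqrt hpos.le]
      field_simp
      ring]
  rw [Real.sqrt_sq (by positivity)]

theorem rigT_ftc (r r1 : ℝ) (h0 : 0 < r1) (h1 : r1 < r) :
    ∫ t in (-r1)..r1, 2 * r / Real.sqrt (r ^ 2 - t ^ 2) = 4 * r * Real.arcsin (r1 / r) := by
  have hr : 0 < r := h0.trans h1
  have hpos : ∀ t ∈ uIcc (-r1) r1, 0 < r ^ 2 - t ^ 2 := by
    intro t ht
    rw [uIcc_of_le (by linarith)] at ht
    have : |t| < r := by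
      rw [abs_lt]; constructor <;> linarith [ht.1, ht.2]
    have h2 : t ^ 2 < r ^ 2 := by
      rw [← sq_abs t]
      exact pow_lt_pow_left₀ this (abs_nonneg _) two_ne_zero
    linarith
  have hd : ∀ t ∈ uIcc (-r1) r1, HasDerivAt (fun t => 2 * r * Real.arcsin (t / r))
      (2 * r / Real.sqrt (r ^ 2 - t ^ 2)) t := by
    intro t ht
    have h2 := hpos t ht
    have h3 : (t / r) ^ 2 < 1 := by
      rw [div_pow, div_lt_one (by positivity)]
      linarith
    have h4 : t / r ≠ -1 := by
      intro h; rw [h] at h3; norm_num at h3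
    have h5 : t / r ≠ 1 := by
      intro h; rw [h] at h3; norm_num at h3
    have h6 := ((Real.hasDerivAt_arcsin h4 h5).comp t ((hasDerivAt_id t).div_const r)).const_mul (2 * r)
    refine h6.congr_deriv ?_
    have h7 : Real.sqrt (r ^ 2 - t ^ 2) = r * Real.sqrt (1 - (t / r) ^ 2) := by
      rw [show r ^ 2 - t ^ 2 = r ^ 2 * (1 - (t / r) ^ 2) by field_simp,
        Real.sqrt_mul (sq_nonneg r), Real.sqrt_sq hr.le]
    have h8 : 0 < Real.sqrt (1 - (t / r) ^ 2) := Real.sqrt_pos.2 (by linarith)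
    rw [h7]
    have h9 : ∀ b : ℝ, 0 < b → 2 * r * (1 / b * (1 / r)) = 2 * r / (r * b) := by
      intro b hb
      field_simp
    exact h9 _ h8
  have hc : ContinuousOn (fun t => 2 * r / Real.sqrt (r ^ 2 - t ^ 2)) (uIcc (-r1) r1) := by
    refine ContinuousOn.div continuousOn_const ?_ ?_
    · exact (Continuous.sqrt (by fun_prop)).continuousOn
    · intro t ht
      exact (Real.sqrt_pos.2 (hpos t ht)).ne'
  rw [intervalIntegral.integral_eq_sub_of_hasDerivAt hd hc.intervalIntegrable]
  rw [neg_div, Real.arcsin_neg]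
  ring

/-- `∫` over the strip `|s| ≤ r₁` in the cell of `2r/√(r²-s²)` is `4 r arcsin (r₁/r)`. -/
theorem LT_int (i : Fin 2) (r r1 : ℝ) (h0 : 0 < r1) (h1 : r1 < r) (h2 : r < 1 / 2) :
    ∫ y in {y : E2 | |y i - round (y i)| ≤ r1} ∩ unitCell 2,
      2 * r / Real.sqrt (r ^ 2 - (y i - round (y i)) ^ 2) = 4 * r * Real.arcsin (r1 / r) := by
  have hr : 0 < r := h0.trans h1
  set g : ℝ → ℝ := fun t => 2 * r / Real.sqrt (r ^ 2 - (t - round t) ^ 2) with hg
  set A : Set ℝ := {t | |t - round t| ≤ r1} with hA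
  have hgm : Measurable g := by
    have h3 : g = fun t => 2 * r / Real.sqrt (r ^ 2 - (fold t / 2) ^ 2) := by
      funext t
      rw [hg]
      simp only [rigT_sq]
    rw [h3]
    have := fold_continuous.measurable
    fun_prop
  have hAc : IsClosed A := by
    have h3 : A = {t | fold t / 2 ≤ r1} := by
      ext t
      rw [hA, mem_ofPred_eq, mem_ofPred_eq, rigT_abs]
    rw [h3]
    exact isClosed_le (fold_continuous.div_const 2) continuous_const
  have hAm : MeasurableSet A := hAc.measurableSet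
  have hbd : ∀ t, ‖A.indicator g t‖ ≤ 2 * r / Real.sqrt (r ^ 2 - r1 ^ 2) := by
    intro t
    have h3 : 0 < r ^ 2 - r1 ^ 2 := by nlinarith
    have h4 := Real.sqrt_pos.2 h3
    by_cases ht : t ∈ A
    · rw [indicator_of_mem ht]
      have h5 : (t - round t) ^ 2 ≤ r1 ^ 2 := by
        rw [← sq_abs]
        exact pow_le_pow_left₀ (abs_nonneg _) ht 2
      have h6 : Real.sqrt (r ^ 2 - r1 ^ 2) ≤ Real.sqrt (r ^ 2 - (t - round t) ^ 2) :=
        Real.sqrt_le_sqrt (by linarith)
      rw [Real.norm_of_nonneg (by positivity)]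
      exact div_le_div_of_nonneg_left (by positivity) h4 h6
    · rw [indicator_of_notMem ht, norm_zero]
      positivity
  have hs : MeasurableSet {y : E2 | |y i - round (y i)| ≤ r1} :=
    (rigT_proj_cont i).measurable hAm
  have e1 : ∫ y in {y : E2 | |y i - round (y i)| ≤ r1} ∩ unitCell 2,
      2 * r / Real.sqrt (r ^ 2 - (y i - round (y i)) ^ 2) =
      ∫ y in unitCell 2, A.indicator g (y i) := by
    have e2 : (fun y : E2 => A.indicator g (y i)) =
        {y : E2 | |y i - round (y i)| ≤ r1}.indicator (fun y => g (y i)) := by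
      funext y
      by_cases hy : y i ∈ A
      · rw [indicator_of_mem hy, indicator_of_mem (show y ∈ {y : E2 | |y i - round (y i)| ≤ r1} from hy)]
      · rw [indicator_of_notMem hy,
          indicator_of_notMem (show y ∉ {y : E2 | |y i - round (y i)| ≤ r1} from hy)]
    rw [e2, setIntegral_indicator hs, inter_comm]
  have hF : IntegrableOn (fun y : E2 => A.indicator g (y i)) (unitCell 2) := by
    refine Measure.integrableOn_of_bounded (M := 2 * r / Real.sqrt (r ^ 2 - r1 ^ 2)) ?_ ?_ ?_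
    · rw [volume_unitCell]; exact ENNReal.one_ne_top
    · exact ((hgm.indicator hAm).comp (rigT_proj_cont i).measurable).aestronglyMeasurable
    · exact Eventually.of_forall fun y => hbd _
  rw [e1, integral_cell i _ hF]
  have e3 : ∀ y : EuclideanSpace ℝ (Fin 1), ∫ t in Ico (0 : ℝ) 1, A.indicator g ((ins i t y) i) =
      4 * r * Real.arcsin (r1 / r) := by
    intro y
    simp only [ins_apply_self]
    have hp : Function.Periodic (A.indicator g) 1 := by
      intro t
      have hrd : (t + 1) - (round (t + 1) : ℝ) = t - round t := by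
        rw [round_add_one]; push_cast; ring
      have hm : t + 1 ∈ A ↔ t ∈ A := by
        rw [hA, mem_ofPred_eq, mem_ofPred_eq, hrd]
      by_cases ht : t ∈ A
      · rw [indicator_of_mem ht, indicator_of_mem (hm.2 ht), hg]
        simp only [hrd]
      · rw [indicator_of_notMem ht, indicator_of_notMem (fun h => ht (hm.1 h))]
    have h3 := hp.intervalIntegral_add_eq 0 (-(1 / 2))
    rw [intervalIntegral.integral_of_le (by linarith), intervalIntegral.integral_of_le (by linarith),
      ← integral_Ico_eq_integral_Ioc, zero_add] at h3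
    rw [h3, setIntegral_indicator hAm]
    have h4 : Ioc (-(1 / 2) : ℝ) (-(1 / 2) + 1) ∩ A = Icc (-r1) r1 := by
      ext t
      simp only [mem_inter_iff, mem_Ioc, mem_Icc]
      constructor
      · rintro ⟨⟨h5, h6⟩, h7⟩
        have h8 : |t| ≤ 1 / 2 := by rw [abs_le]; constructor <;> linarith
        have h9 : fold t / 2 ≤ r1 := by rw [← rigT_abs]; exact h7
        rw [rigarc_fold_abs t h8] at h9
        have h10 : |t| ≤ r1 := by linarith
        exact abs_le.1 h10
      · rintro ⟨h5, h6⟩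
        have h8 : |t| ≤ r1 := abs_le.2 ⟨h5, h6⟩
        refine ⟨⟨by linarith, by linarith⟩, ?_⟩
        show |t - round t| ≤ r1
        rw [rigT_abs, rigarc_fold_abs t (by linarith)]
        linarith
    rw [h4, integral_Icc_eq_integral_Ioc, ← intervalIntegral.integral_of_le (by linarith),
      ← rigT_ftc r r1 h0 h1]
    refine intervalIntegral.integral_congr fun t ht => ?_
    rw [uIcc_of_le (by linarith)] at ht
    have h5 : round t = 0 := rigT_round (by
      rw [Int.cast_zero, sub_zero, abs_lt]; constructor <;> linarith [ht.1, ht.2])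
    rw [hg]
    simp only [h5, Int.cast_zero, sub_zero]
  rw [setIntegral_congr_fun (measurableSet_unitCell 1) (fun y _ => e3 y)]
  rw [setIntegral_const, Measure.real, volume_unitCell]
  simp

theorem rigT_smooth (i : Fin 2) (r : ℝ) (n : ℤ) (y : E2) (h : (y i - n) ^ 2 < r ^ 2) :
    ContDiffAt ℝ 1 (fun y : E2 => 2 * Real.sqrt (r ^ 2 - (y i - n) ^ 2)) y := by
  refine contDiffAt_const.mul (ContDiffAt.sqrt ?_ ?_)
  · have : ContDiff ℝ 1 (fun y : E2 => r ^ 2 - (y i - n) ^ 2) := by fun_prop
    exact this.contDiffAt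
  · have : 0 < r ^ 2 - (y i - n) ^ 2 := by linarith
    exact this.ne'

theorem rigT_sq_lt {a r : ℝ} (h : |a| < r) : a ^ 2 < r ^ 2 := by
  rw [← sq_abs]
  exact pow_lt_pow_left₀ h (abs_nonneg _) two_ne_zero

theorem rigT_ph0 (i : Fin 2) (r : ℝ) (h0 : 0 < r) (h1 : r < 1 / 2) (y : E2) (hy : y ∈ GG (LT i r))
    (j : Fin 2) : ph0 (LT i r) j y = if j = i then (y i - round (y i)) / r else 0 := by
  obtain ⟨hlt, hdd, hs⟩ := LT_dd i r h0 h1 y hy
  have hpos : 0 < r ^ 2 - (y i - round (y i)) ^ 2 := by linarith [rigT_sq_lt hlt]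
  have hsq := Real.sqrt_pos.2 hpos
  unfold ph0
  rw [hs, hdd]
  by_cases hj : j = i
  · rw [if_pos hj, if_pos hj]
    have h5 : ∀ a b : ℝ, 0 < b → -(-2 * a / b) / (2 * r / b) = a / r := by
      intro a b hb
      field_simp
    exact h5 _ _ hsq
  · rw [if_neg hj, if_neg hj]
    simp

theorem rigT_isOpen (i : Fin 2) (c : ℝ) : IsOpen {y : E2 | |y i - round (y i)| < c} := by
  have h : {y : E2 | |y i - round (y i)| < c} = {y : E2 | fold (y i) / 2 < c} := by
    ext y
    rw [mem_ofPred_eq, mem_ofPred_eq, rigT_abs]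
  rw [h]
  exact isOpen_lt ((fold_continuous.comp (rigT_proj_cont i)).div_const 2) continuous_const

theorem rigT_isClosed (i : Fin 2) (c : ℝ) : IsClosed {y : E2 | |y i - round (y i)| ≤ c} := by
  have h : {y : E2 | |y i - round (y i)| ≤ c} = {y : E2 | fold (y i) / 2 ≤ c} := by
    ext y
    rw [mem_ofPred_eq, mem_ofPred_eq, rigT_abs]
  rw [h]
  exact isClosed_le ((fold_continuous.comp (rigT_proj_cont i)).div_const 2) continuous_const

theorem rigT_per (v : E2) (hv : HasIntegerCoords v) (y : E2) (i : Fin 2) :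
    (y + v) i - round ((y + v) i) = y i - round (y i) := by
  obtain ⟨m, hm⟩ := hv i
  have h1 : (y + v) i = y i + m := by rw [← hm]; rfl
  rw [h1, round_add_intCast]
  push_cast
  ring

/-- compactness mod the lattice -/
theorem rigT_bound (i : Fin 2) (r : ℝ) (h0 : 0 < r) (K : Set E2) (hK : IsClosed K)
    (hKp : ∀ v, HasIntegerCoords v → ∀ x, x + v ∈ K ↔ x ∈ K)
    (hKr : ∀ y ∈ K, |y i - round (y i)| < r) :
    ∃ r0, 0 < r0 ∧ r0 < r ∧ ∀ y ∈ K, |y i - round (y i)| ≤ r0 := by
  have hcube : IsCompact {y : E2 | ∀ j, y j ∈ Icc (0 : ℝ) 1} := by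
    refine Metric.isCompact_of_isClosed_isBounded ?_ ?_
    · have : {y : E2 | ∀ j, y j ∈ Icc (0 : ℝ) 1} = ⋂ j, {y : E2 | y j ∈ Icc (0 : ℝ) 1} := by
        ext y; simp
      rw [this]
      exact isClosed_iInter fun j => isClosed_Icc.preimage (rigT_proj_cont j)
    · refine (Metric.isBounded_closedBall (x := (0 : E2)) (r := 2)).subset ?_
      intro y hy
      rw [Metric.mem_closedBall, dist_zero_right, EuclideanSpace.norm_eq]
      rw [Real.sqrt_le_left (by norm_num)]
      rw [Fin.sum_univ_two]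
      have h1 := hy 0
      have h2 := hy 1
      rw [Real.norm_eq_abs, Real.norm_eq_abs, sq_abs, sq_abs]
      nlinarith [h1.1, h1.2, h2.1, h2.2]
  have hKc : IsCompact (K ∩ {y : E2 | ∀ j, y j ∈ Icc (0 : ℝ) 1}) := hcube.inter_left hK
  have hred : ∀ y ∈ K, ∃ z ∈ K ∩ {y : E2 | ∀ j, y j ∈ Icc (0 : ℝ) 1},
      z i - round (z i) = y i - round (y i) := by
    intro y hy
    set v : E2 := WithLp.toLp 2 (fun j => -(⌊y j⌋ : ℝ)) with hv
    have hvi : HasIntegerCoords v := fun j => ⟨-⌊y j⌋, by rw [hv]; push_cast; rfl⟩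
    refine ⟨y + v, ⟨(hKp v hvi y).2 hy, fun j => ?_⟩, rigT_per v hvi y i⟩
    have h1 : (y + v) j = Int.fract (y j) := by
      show y j + -(⌊y j⌋ : ℝ) = _
      rw [← sub_eq_add_neg]; rfl
    rw [h1]
    exact ⟨Int.fract_nonneg _, (Int.fract_lt_one _).le⟩
  by_cases hne : (K ∩ {y : E2 | ∀ j, y j ∈ Icc (0 : ℝ) 1}).Nonempty
  · have hcont : Continuous (fun y : E2 => |y i - round (y i)|) := by
      have h : (fun y : E2 => |y i - round (y i)|) = fun y : E2 => fold (y i) / 2 := by
        funext y; exact rigT_abs _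
      rw [h]
      exact (fold_continuous.comp (rigT_proj_cont i)).div_const 2
    obtain ⟨z, hz, hmax⟩ := hKc.exists_isMaxOn hne hcont.continuousOn
    have hzr := hKr z hz.1
    refine ⟨max |z i - round (z i)| (r / 2), lt_max_of_lt_right (by linarith),
      max_lt hzr (by linarith), fun y hy => ?_⟩
    obtain ⟨w, hw, hwe⟩ := hred y hy
    rw [← hwe]
    exact (hmax hw).trans (le_max_left _ _)
  · refine ⟨r / 2, by linarith, by linarith, fun y hy => ?_⟩
    obtain ⟨w, hw, -⟩ := hred y hy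
    exact absurd ⟨w, hw⟩ hne

/-- CHUNK RIG-TUBE. `prof_of`: `GG L = {|s| < r}`, `G0 = {|y i| < r}` (convex), `χ = smooth cut-off in s²` (`s²` is smooth where
`|s| < 1/2`), `K1 = {|s| ≤ r₁}`, `K2 = {|s| ≤ r₂}`, `K ⊆ K1` for `r₁` close to `r` by compactness of `K` mod the lattice;
`4 r arcsin (r₁/r) → 2πr`. -/
theorem prof_tube (i : Fin 2) (r : ℝ) (h0 : 0 < r) (h1 : r < 1 / 2) :
    Prof (LT i r) (2 * Real.pi * r) := by
  have hGG := rigT_GG i r h0 h1
  refine prof_of (LT i r) (2 * Real.pi * r) ?_ ?_ (LT_mem i r h0 h1) ?_ ?_ ?_ ?_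
  · intro v hv x
    rw [rigT_LT, rigT_LT, rigT_per v hv x i]
  · unfold LT
    have := fold_continuous.comp (rigT_proj_cont i)
    exact continuous_const.mul (Continuous.sqrt (continuous_const.sub ((this.div_const 2).pow 2)))
  · intro y hy
    have hlt := (hGG y).1 hy
    exact ((rigT_smooth i r (round (y i)) y (rigT_sq_lt hlt)).congr_of_eventuallyEq
      (rigT_evEq i r y (by linarith))).contDiffWithinAt
  · intro j y hy
    have hlt := (hGG y).1 hy
    have hev : ph0 (LT i r) j =ᶠ[𝓝 y] fun z : E2 => if j = i then (z i - round (y i)) / r else 0 := by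
      have h3 : ∀ᶠ z : E2 in 𝓝 y, z ∈ {z : E2 | |z i - round (z i)| < r} :=
        (rigT_isOpen i r).mem_nhds hlt
      filter_upwards [rigT_loc i y (by linarith), h3] with z hz hz'
      rw [rigT_ph0 i r h0 h1 z ((hGG z).2 hz') j, hz]
    refine (ContDiffAt.congr_of_eventuallyEq ?_ hev).contDiffWithinAt
    by_cases hj : j = i
    · simp only [if_pos hj]
      have : ContDiff ℝ 1 (fun z : E2 => (z i - round (y i)) / r) := by fun_prop
      exact this.contDiffAt
    · simp only [if_neg hj]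
      exact contDiffAt_const
  · refine ⟨{y : E2 | |y i| < r}, ?_, ?_, ?_, ?_⟩
    · exact isOpen_lt (rigT_proj_cont i).abs continuous_const
    · have hconv : Convex ℝ {y : E2 | |y i| < r} := by
        have h3 : {y : E2 | |y i| < r} =
            (EuclideanSpace.proj i : E2 →L[ℝ] ℝ) ⁻¹' (Ioo (-r) r) := by
          ext y
          rw [mem_ofPred_eq, abs_lt]
          rfl
        rw [h3]
        exact (convex_Ioo (-r) r).is_linear_preimage
          (EuclideanSpace.proj i : E2 →L[ℝ] ℝ).toLinearMap.isLinear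
      exact hconv.isPreconnected
    · intro y hy
      have hy' : |y i| < r := hy
      have h3 : round (y i) = 0 := rigT_round (by rw [Int.cast_zero, sub_zero]; linarith)
      rw [hGG, h3, Int.cast_zero, sub_zero]
      exact hy'
    · intro y hy
      have hlt := (hGG y).1 hy
      refine ⟨EuclideanSpace.single i (-(round (y i) : ℝ)), ?_, ?_⟩
      · intro j
        by_cases hj : j = i
        · subst hj
          exact ⟨-round (y j), by simp⟩
        · exact ⟨0, by simp [hj]⟩
      · show |(y + EuclideanSpace.single i (-(round (y i) : ℝ))) i| < r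
        have h3 : (y + EuclideanSpace.single i (-(round (y i) : ℝ))) i = y i - round (y i) := by
          simp [sub_eq_add_neg]
        rw [h3]
        exact hlt
  · intro K hK hKp hKG δ hδ
    obtain ⟨r0, hr0, hr0r, hKr0⟩ := rigT_bound i r h0 K hK hKp (fun y hy => (hGG y).1 (hKG hy))
    -- choose r1
    have hlim : Tendsto (fun a : ℝ => 4 * r * Real.arcsin (a / r)) (𝓝[<] r) (𝓝 (2 * Real.pi * r)) := by
      have hc : Continuous (fun a : ℝ => 4 * r * Real.arcsin (a / r)) := by
        have := Real.continuous_arcsin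
        fun_prop
      have h3 := hc.tendsto r
      rw [div_self h0.ne', Real.arcsin_one, show 4 * r * (Real.pi / 2) = 2 * Real.pi * r by ring] at h3
      exact h3.mono_left nhdsWithin_le_nhds
    have hev1 : ∀ᶠ a in 𝓝[<] r, 2 * Real.pi * r - δ < 4 * r * Real.arcsin (a / r) :=
      hlim.eventually_const_lt (by linarith)
    have hev2 : ∀ᶠ a in 𝓝[<] r, r0 < a := by
      have : Ioi r0 ∈ 𝓝[<] r := mem_nhdsWithin_of_mem_nhds (Ioi_mem_nhds hr0r)
      exact this
    have hev3 : ∀ᶠ a in 𝓝[<] r, a < r := self_mem_nhdsWithin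
    obtain ⟨r1, ha1, ha2, ha3⟩ := (hev1.and (hev2.and hev3)).exists
    have hr1 : 0 < r1 := hr0.trans ha2
    set r2 : ℝ := (r1 + r) / 2 with hr2
    have hr12 : r1 < r2 := by rw [hr2]; linarith
    have hr2r : r2 < r := by rw [hr2]; linarith
    have hden : 0 < r2 ^ 2 - r1 ^ 2 := by nlinarith
    set ψ : ℝ → ℝ := fun u => Real.smoothTransition ((r2 ^ 2 - u) / (r2 ^ 2 - r1 ^ 2)) with hψ
    have hψs : ContDiff ℝ 1 ψ := by
      have h3 : ContDiff ℝ 1 Real.smoothTransition := Real.smoothTransition.contDiff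
      exact h3.comp (by fun_prop)
    have hψ1 : ∀ u, u ≤ r1 ^ 2 → ψ u = 1 := by
      intro u hu
      refine Real.smoothTransition.one_of_one_le ?_
      rw [le_div_iff₀ hden]
      linarith
    have hψ0 : ∀ u, r2 ^ 2 ≤ u → ψ u = 0 := by
      intro u hu
      refine Real.smoothTransition.zero_of_nonpos ?_
      exact div_nonpos_of_nonpos_of_nonneg (by linarith) hden.le
    refine ⟨fun y => ψ ((y i - round (y i)) ^ 2), {y | |y i - round (y i)| ≤ r1},
      {y | |y i - round (y i)| ≤ r2}, ?_, ?_, ?_, rigT_isClosed i r2, ?_, ?_,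
      (rigT_isClosed i r1).measurableSet, ?_, ?_, ?_⟩
    · rw [contDiff_iff_contDiffAt]
      intro y
      by_cases hy : |y i - round (y i)| < 1 / 2
      · have hev : (fun z : E2 => ψ ((z i - round (z i)) ^ 2)) =ᶠ[𝓝 y]
            fun z : E2 => ψ ((z i - round (y i)) ^ 2) := by
          filter_upwards [rigT_loc i y hy] with z hz
          rw [hz]
        refine ContDiffAt.congr_of_eventuallyEq ?_ hev
        have : ContDiff ℝ 1 (fun z : E2 => ψ ((z i - round (y i)) ^ 2)) :=
          hψs.comp (by fun_prop)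
        exact this.contDiffAt
      · have hev : (fun z : E2 => ψ ((z i - round (z i)) ^ 2)) =ᶠ[𝓝 y] fun _ => 0 := by
          have h3 : ∀ᶠ z : E2 in 𝓝 y, z ∈ {z : E2 | |z i - round (z i)| ≤ r2}ᶜ := by
            refine (rigT_isClosed i r2).isOpen_compl.mem_nhds ?_
            intro h
            have h' : |y i - round (y i)| ≤ r2 := h
            exact hy (by linarith)
          filter_upwards [h3] with z hz
          refine hψ0 _ ?_
          have hz' : r2 < |z i - round (z i)| := not_le.1 hz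
          rw [← sq_abs (z i - round (z i))]
          exact pow_le_pow_left₀ (hr1.trans hr12).le hz'.le 2
        exact contDiffAt_const.congr_of_eventuallyEq hev
    · intro v hv x
      show ψ (((x + v) i - round ((x + v) i)) ^ 2) = ψ ((x i - round (x i)) ^ 2)
      rw [rigT_per v hv x i]
    · intro y
      exact ⟨Real.smoothTransition.nonneg _, Real.smoothTransition.le_one _⟩
    · intro y hy
      have hy' : |y i - round (y i)| ≤ r2 := hy
      rw [hGG]
      linarith
    · intro y hy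
      have hy' : r2 < |y i - round (y i)| := not_le.1 hy
      refine hψ0 _ ?_
      rw [← sq_abs (y i - round (y i))]
      exact pow_le_pow_left₀ (hr1.trans hr12).le hy'.le 2
    · intro y hy
      exact (hKr0 y hy).trans ha2.le
    · intro y hy
      have hy' : |y i - round (y i)| ≤ r1 := hy
      refine hψ1 _ ?_
      rw [← sq_abs (y i - round (y i))]
      exact pow_le_pow_left₀ (abs_nonneg _) hy' 2
    · have h3 : ∫ y in {y : E2 | |y i - round (y i)| ≤ r1} ∩ unitCell 2,
          Real.sqrt (4 + (dd 0 (LT i r) y) ^ 2 + (dd 1 (LT i r) y) ^ 2) =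
          ∫ y in {y : E2 | |y i - round (y i)| ≤ r1} ∩ unitCell 2,
          2 * r / Real.sqrt (r ^ 2 - (y i - round (y i)) ^ 2) := by
        refine setIntegral_congr_fun ((rigT_isClosed i r1).measurableSet.inter
          (measurableSet_unitCell 2)) fun y hy => ?_
        have hy' : |y i - round (y i)| ≤ r1 := hy.1
        exact (LT_dd i r h0 h1 y ((hGG y).2 (by linarith))).2.2
      rw [h3, LT_int i r r1 hr1 ha3 h1]
      exact ha1.le

end
end Crest.Agent.T3
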