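import Crest.Agent.T3.RigThm
import Crest.Agent.T3.RigSlab
import Crest.Agent.T3.RigTube
import Crest.Agent.T3.RigBall
import Crest.Agent.IT.StdFinal
import Crest.Agent.IT.StdB
import Crest.Agent.IT.Moll
/-! Row 214, rigidity (7a): one Steiner symmetrisation is undone. -/
set_option autoImplicit false
open MeasureTheory Set Filter Topology
open Crest.GeometryTopology.PeriodicPerimeter
namespace Crest.Agent.T3
noncomputable section

/-- translate -/
def tr (v : E3) (E : Set E3) : Set E3 := {x | x - v ∈ E}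

theorem tr_zero (E : Set E3) : tr 0 E = E := by
  unfold tr; simp

theorem tr_tr (v w : E3) (E : Set E3) : tr v (tr w E) = tr (v + w) E := by
  ext x
  show x - v - w ∈ E ↔ x - (v + w) ∈ E
  rw [sub_sub]

theorem stdP_nonneg (s : Shape) (hs : stdOk s) : 0 ≤ stdP s := by
  cases s with
  | ball r => unfold stdP; positivity
  | tube j r => unfold stdP; have := hs.1; positivity
  | slab j w => unfold stdP; norm_num

theorem rigstep_approx {F : Set E3} (hF : MeasurableSet F) (hFp : IsLatticePeriodic F) {c : ℝ}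
    (hc : 0 ≤ c) (hP : periodicPerimeter F ≤ ENNReal.ofReal c) : ∃ f, Approx F c f := by
  have hfin : periodicPerimeter F ≠ ⊤ := ne_top_of_le_ne_top ENNReal.ofReal_ne_top hP
  obtain ⟨f, hf⟩ := Crest.Agent.IT.approx_exists hF hFp hfin
  refine ⟨f, hf.smooth, hf.per, hf.mem, hf.ae, fun j => (hf.le j).trans ?_⟩
  exact ENNReal.toReal_le_of_le_ofReal hc hP

theorem step_rigid (k : Fin 3) (s : Shape) (hs : stdOk s) (F : Set E3) (hF : MeasurableSet F)
    (hFp : IsLatticePeriodic F) (hll : ∀ᵐ y : E2, ll k F y = ll k (stdB s) y)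
    (hP : periodicPerimeter F ≤ ENNReal.ofReal (stdP s)) :
    ∃ m : ℝ, F =ᵐ[volume] tr (EuclideanSpace.single k m) (stdB s) := by
  obtain ⟨f, hf⟩ := rigstep_approx hF hFp (stdP_nonneg s hs) hP
  have hz : tr (EuclideanSpace.single k (0 : ℝ)) (stdB s) = stdB s := by
    have e : (EuclideanSpace.single k (0 : ℝ) : E3) = 0 := by
      ext i; simp
    rw [e, tr_zero]
  cases s with
  | ball r =>
    have hB := ball_reg k r hs.1
    rw [hB] at hll ⊢
    have hll' : ∀ᵐ y : E2, ll k F y = LB r y := by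
      filter_upwards [hll] with y hy
      rw [hy, ll_reg k (LB r) 0 (LB_mem r hs.1 hs.2)]
    obtain ⟨m, hm⟩ := rig_prof k (prof_ball r hs.1 hs.2) F hF hFp hll' f hf
    refine ⟨m, ?_⟩
    rw [reg_shift] at hm
    exact hm
  | tube j r =>
    by_cases hkj : k = j
    · subst hkj
      refine ⟨0, ?_⟩
      rw [hz]
      exact degenerate k F _ hF hFp (Crest.Agent.IT.stdB_meas _)
        {y | (fold (y 0) / 2) ^ 2 + (fold (y 1) / 2) ^ 2 < r ^ 2} (fun x => Iff.rfl) hll
    · obtain ⟨i, hB⟩ := tube_reg j k hkj r hs.1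
      rw [hB] at hll ⊢
      have hll' : ∀ᵐ y : E2, ll k F y = LT i r y := by
        filter_upwards [hll] with y hy
        rw [hy, ll_reg k (LT i r) 0 (LT_mem i r hs.1 hs.2)]
      obtain ⟨m, hm⟩ := rig_prof k (prof_tube i r hs.1 hs.2) F hF hFp hll' f hf
      refine ⟨m, ?_⟩
      rw [reg_shift] at hm
      exact hm
  | slab j w =>
    by_cases hkj : k = j
    · subst hkj
      have hB := slab_reg k w
      rw [hB] at hll ⊢
      have hll' : ∀ᵐ y : E2, ll k F y = (fun _ => w) y := by
        filter_upwards [hll] with y hy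
        rw [hy, ll_reg k (fun _ => w) 0 (fun _ => ⟨hs.1.le, hs.2.le⟩)]
      obtain ⟨m, hm⟩ := rig_prof k (prof_slab w hs.1 hs.2) F hF hFp hll' f hf
      refine ⟨m, ?_⟩
      rw [reg_shift] at hm
      exact hm
    · obtain ⟨i, hi⟩ := Fin.exists_succAbove_eq (Ne.symm hkj)
      refine ⟨0, ?_⟩
      rw [hz]
      refine degenerate k F _ hF hFp (Crest.Agent.IT.stdB_meas _) {y | fold (y i) < w} (fun x => ?_) hll
      show fold (x j) < w ↔ fold (rem k x i) < w
      rw [← hi]
      rfl

end
end Crest.Agent.T3
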