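import Crest.Agent.T3.RigStn2
import Crest.Agent.T3.RigU
/-! Row 214: elementary facts on the Steiner symmetrisation `St k E` (chunk STN1). -/
set_option autoImplicit false
open MeasureTheory Set Filter Topology
open Crest.GeometryTopology.PeriodicPerimeter
namespace Crest.Agent.T3
noncomputable section

theorem ll_mem (k : Fin 3) (E : Set E3) (y : E2) : ll k E y ∈ Icc (0 : ℝ) 1 :=
  rigstn2_ll_mem k E y

theorem ll_meas (k : Fin 3) (E : Set E3) (hE : MeasurableSet E) : Measurable (ll k E) :=
  rigstn2_ll_meas k E hE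

theorem ll_per (k : Fin 3) (E : Set E3) (hE : IsLatticePeriodic E) : Per (ll k E) := by
  intro v hv x
  unfold ll
  rw [rigU_line_per k E hE x v hv]

theorem St_meas (k : Fin 3) (E : Set E3) (hE : MeasurableSet E) : MeasurableSet (St k E) :=
  rigstn2_St_meas k E hE

theorem St_per (k : Fin 3) (E : Set E3) (hE : IsLatticePeriodic E) : IsLatticePeriodic (St k E) := by
  intro v hv x
  show fold ((x + v) k) < ll k E (rem k (x + v)) ↔ fold (x k) < ll k E (rem k x)
  obtain ⟨m, hm⟩ := hv k
  have h1 : rem k (x + v) = rem k x + rem k v := by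
    ext i
    rfl
  have h2 : HasIntegerCoords (rem k v) := fun i => hv (k.succAbove i)
  rw [PiLp.add_apply, hm, fold_add_int, h1, ll_per k E hE _ h2]

end
end Crest.Agent.T3
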