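import Crest.Agent.T3.RigFub
import Crest.Agent.T3.RigArc
/-! Row 214: elementary facts on the Steiner symmetrisation `St k E` (chunk STN2: `ll_St`, `St_vol`). -/
set_option autoImplicit false
open MeasureTheory Set Filter Topology
open Crest.GeometryTopology.PeriodicPerimeter
namespace Crest.Agent.T3
noncomputable section

theorem rigstn2_ll_mem (k : Fin 3) (E : Set E3) (y : E2) : ll k E y ∈ Icc (0 : ℝ) 1 := by
  refine ⟨ENNReal.toReal_nonneg, ?_⟩
  unfold ll
  have h1 : volume (lineE k E y ∩ Ico 0 1) ≤ volume (Ico (0 : ℝ) 1) :=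
    measure_mono inter_subset_right
  rw [Real.volume_Ico, sub_zero, ENNReal.ofReal_one] at h1
  have h2 := ENNReal.toReal_mono ENNReal.one_ne_top h1
  simpa using h2

theorem rigstn2_line (k : Fin 3) (E : Set E3) (y : E2) :
    lineE k (St k E) y = arc 0 (ll k E y) := by
  ext t
  show fold (ins k t y k) < ll k E (rem k (ins k t y)) ↔ fold (t - 0) < ll k E y
  rw [ins_self, rem_ins, sub_zero]

/-- CHUNK STN1. `volume_arc` -/
theorem ll_St (k : Fin 3) (E : Set E3) (y : E2) : ll k (St k E) y = ll k E y := by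
  have h := rigstn2_ll_mem k E y
  have h1 : ll k (St k E) y = (volume (lineE k (St k E) y ∩ Ico 0 1)).toReal := rfl
  rw [h1, rigstn2_line]
  exact volume_arc 0 _ h.1 h.2

theorem rigstn2_vol (k : Fin 3) (A : Set E3) (hA : MeasurableSet A) :
    periodicVolume A = ∫ y in unitCell 2, ll k A y := by
  have hfin : IntegrableOn (fun _ : E3 => (1 : ℝ)) (unitCell 3) := by
    rw [integrableOn_const_iff]
    right
    rw [volume_unitCell]
    exact ENNReal.one_lt_top
  have h1 := integral_cell_set k A hA (fun _ => (1 : ℝ)) hfin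
  have h2 : periodicVolume A = ∫ _x in A ∩ unitCell 3, (1 : ℝ) := by
    rw [setIntegral_const, smul_eq_mul, mul_one]
    rfl
  rw [h2, h1]
  refine setIntegral_congr_fun (measurableSet_unitCell 2) fun y _ => ?_
  show ∫ _t in lineE k A y ∩ Ico (0 : ℝ) 1, (1 : ℝ) = ll k A y
  rw [setIntegral_const, smul_eq_mul, mul_one]
  rfl

theorem rigstn2_ll_meas (k : Fin 3) (E : Set E3) (hE : MeasurableSet E) : Measurable (ll k E) := by
  have h1 : MeasurableSet ((rigFubE k) ⁻¹' E) := (rigFubE k).measurable hE
  have h2 : MeasurableSet ((rigFubE k) ⁻¹' E ∩ (univ ×ˢ Ico (0 : ℝ) 1)) :=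
    h1.inter (MeasurableSet.univ.prod measurableSet_Ico)
  have h3 := (measurable_measure_prodMk_left (ν := (volume : Measure ℝ)) h2).ennreal_toReal
  have h4 : ll k E = fun y => (volume (Prod.mk y ⁻¹' ((rigFubE k) ⁻¹' E ∩
      (univ ×ˢ Ico (0 : ℝ) 1)))).toReal := by
    funext y
    unfold ll
    congr 2
    ext t
    simp [lineE, rigFubE_apply]
  rw [h4]
  exact h3

theorem rigstn2_rem_meas (k : Fin 3) : Measurable (rem k : E3 → E2) := by
  have h1 : Continuous (rem k : E3 → E2) := by
    unfold rem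
    fun_prop
  exact h1.measurable

theorem rigstn2_St_meas (k : Fin 3) (E : Set E3) (hE : MeasurableSet E) :
    MeasurableSet (St k E) := by
  have h1 : Measurable (fun x : E3 => fold (x k)) :=
    fold_continuous.measurable.comp (by fun_prop)
  have h2 : Measurable (fun x : E3 => ll k E (rem k x)) :=
    (rigstn2_ll_meas k E hE).comp (rigstn2_rem_meas k)
  exact measurableSet_lt h1 h2

theorem St_vol (k : Fin 3) (E : Set E3) (hE : MeasurableSet E) :
    periodicVolume (St k E) = periodicVolume E := by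
  rw [rigstn2_vol k E hE, rigstn2_vol k (St k E) (rigstn2_St_meas k E hE)]
  simp only [ll_St]

end
end Crest.Agent.T3
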