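import Crest.Agent.T3.RigFub
import Crest.Agent.T3.RigL4
/-! Row 214, rigidity (7a), chunk STN3: line measures of ae-equal sets and of translates. -/
set_option autoImplicit false
open MeasureTheory Set Filter Topology
open Crest.GeometryTopology.PeriodicPerimeter
namespace Crest.Agent.T3
noncomputable section

theorem ll_congr (k : Fin 3) (E F : Set E3) (h : E =ᵐ[volume] F) :
    ∀ᵐ y : E2, ll k E y = ll k F y := by
  filter_upwards [ae_line k (Filter.eventuallyEq_set.1 h)] with y hy
  unfold ll
  congr 1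
  apply measure_congr
  exact EventuallyEq.inter (Filter.eventuallyEq_set.2 hy) (ae_eq_refl _)

theorem stn3_ins_sub (k : Fin 3) (t : ℝ) (y : E2) (v : E3) :
    ins k t y - v = ins k (t - v k) (y - rem k v) := by
  ext i
  refine Fin.succAboveCases k ?_ ?_ i
  · rw [PiLp.sub_apply, ins_self, ins_self]
  · intro j
    rw [PiLp.sub_apply, ins_succAbove, ins_succAbove, PiLp.sub_apply]
    rfl

theorem stn3_ins_add_one (k : Fin 3) (t : ℝ) (y : E2) :
    ins k (t + 1) y = ins k t y + ins k 1 0 := by
  ext i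
  refine Fin.succAboveCases k ?_ ?_ i
  · rw [PiLp.add_apply, ins_self, ins_self, ins_self]
  · intro j
    rw [PiLp.add_apply, ins_succAbove, ins_succAbove, ins_succAbove]
    simp

theorem stn3_int (k : Fin 3) : HasIntegerCoords (ins k 1 (0 : E2)) := by
  intro i
  refine Fin.succAboveCases k ?_ ?_ i
  · exact ⟨1, by rw [ins_self]; simp⟩
  · intro j
    exact ⟨0, by rw [ins_succAbove]; simp⟩

theorem stn3_line_per (k : Fin 3) (E : Set E3) (hEp : IsLatticePeriodic E) (y : E2) (t : ℝ) :
    t + 1 ∈ lineE k E y ↔ t ∈ lineE k E y := by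
  show ins k (t + 1) y ∈ E ↔ ins k t y ∈ E
  rw [stn3_ins_add_one]
  exact hEp _ (stn3_int k) _

theorem stn3_line_meas (k : Fin 3) (E : Set E3) (hE : MeasurableSet E) (y : E2) :
    MeasurableSet (lineE k E y) := rigFub_meas_ins k y hE

/-- line measures of a translate (`E` periodic) -/
theorem ll_translate (k : Fin 3) (E : Set E3) (hE : MeasurableSet E) (hEp : IsLatticePeriodic E) (v : E3)
    (y : E2) : ll k {x | x - v ∈ E} y = ll k E (y - rem k v) := by
  have hA : lineE k {x | x - v ∈ E} y = (fun t => t + (-v k)) ⁻¹' (lineE k E (y - rem k v)) := by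
    ext t
    show ins k t y - v ∈ E ↔ ins k (t + (-v k)) (y - rem k v) ∈ E
    rw [stn3_ins_sub, sub_eq_add_neg]
  have hm := stn3_line_meas k E hE (y - rem k v)
  have hp := stn3_line_per k E hEp (y - rem k v)
  have hm' : MeasurableSet (lineE k {x | x - v ∈ E} y) := by
    rw [hA]
    exact (measurable_add_const _) hm
  have hp' : ∀ t, t + 1 ∈ lineE k {x | x - v ∈ E} y ↔ t ∈ lineE k {x | x - v ∈ E} y := by
    intro t
    rw [hA]
    show t + 1 + (-v k) ∈ lineE k E (y - rem k v) ↔ t + (-v k) ∈ lineE k E (y - rem k v)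
    rw [show t + 1 + (-v k) = t + (-v k) + 1 by ring]
    exact hp _
  unfold ll
  rw [rigL4_vol hm' hp' (v k), rigL4_vol hm hp 0]
  congr 1
  have : lineE k {x | x - v ∈ E} y ∩ Ioc (v k) (v k + 1) =
      (fun t => t + (-v k)) ⁻¹' (lineE k E (y - rem k v) ∩ Ioc 0 (0 + 1)) := by
    rw [hA, preimage_inter]
    congr 1
    ext t
    simp only [mem_Ioc, mem_preimage]
    constructor
    · rintro ⟨h1, h2⟩
      constructor <;> linarith
    · rintro ⟨h1, h2⟩
      constructor <;> linarith
  rw [this]
  exact measure_preimage_add_right volume (-v k) _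

end
end Crest.Agent.T3
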