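import Crest.Agent.T3.RigWk
import Crest.Agent.T3.RigDb
/-! Row 214, rigidity (7a), chunk RIG-THM: the rigidity theorem for profiles. -/
set_option autoImplicit false
open MeasureTheory Set Filter Topology
open Crest.GeometryTopology.PeriodicPerimeter
namespace Crest.Agent.T3
noncomputable section

theorem rigthm_dd_zero (K : Set E2) (hK : IsClosed K) (i : Fin 2) (ζ : E2 → ℝ)
    (hζK : ∀ y, y ∉ K → ζ y = 0) (y : E2) (hy : y ∉ K) : dd i ζ y = 0 := by
  have h : ζ =ᶠ[𝓝 y] fun _ => (0 : ℝ) := by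
    filter_upwards [hK.isOpen_compl.mem_nhds hy] with z hz
    exact hζK z hz
  unfold dd
  rw [h.fderiv_eq]
  simp

theorem rigthm_GG_per {L : E2 → ℝ} (hp : Per L) (v : E2) (hv : HasIntegerCoords v) (x : E2) :
    x + v ∈ GG L ↔ x ∈ GG L := by
  unfold GG
  simp only [mem_setOf_eq, hp v hv x]

theorem rigthm_GG_open {L : E2 → ℝ} (hc : Continuous L) : IsOpen (GG L) :=
  (isOpen_lt continuous_const hc).inter (isOpen_lt hc continuous_const)

/-- the real part of `κ U` is a.e. constant on `GG L` -/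
theorem rigthm_re (k : Fin 3) {L : E2 → ℝ} {c : ℝ} (hL : Prof L c) (F : Set E3)
    (hF : MeasurableSet F) (hFp : IsLatticePeriodic F) (hll : ∀ᵐ y : E2, ll k F y = L y)
    (f : ℕ → E3 → ℝ) (hf : Approx F c f) (κ : ℂ) (hκ : ‖κ‖ ≤ 1) :
    ∃ C : ℝ, ∀ᵐ y : E2, y ∈ GG L → (κ * UU k F L y).re = C := by
  obtain ⟨G0, hG0, hG0c, hG0s, hG0cov⟩ := hL.conn
  have hGo := rigthm_GG_open hL.cont
  have hUm := UU_meas k F hF L hL.cont
  have harc := all_arc k hL F hF hFp hll f hf
  set V : E2 → ℝ := (GG L).indicator (fun y => (κ * UU k F L y).re) with hV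
  have hVm : AEStronglyMeasurable V volume :=
    ((Complex.measurable_re.comp (measurable_const.mul hUm)).indicator
      hGo.measurableSet).aestronglyMeasurable
  have hVb : ∀ᵐ y, |V y| ≤ 1 := by
    filter_upwards [harc] with y hy
    by_cases hyG : y ∈ GG L
    · obtain ⟨m, hm⟩ := hy hyG
      rw [hV, indicator_of_mem hyG, UU_eq k F L y hyG m hm]
      refine (Complex.abs_re_le_norm _).trans ?_
      rw [norm_mul]
      have h1 : ‖Complex.exp (2 * Real.pi * m * Complex.I)‖ = 1 := by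
        have h2 : (2 * Real.pi * m * Complex.I : ℂ) = ((2 * Real.pi * m : ℝ) : ℂ) * Complex.I := by
          push_cast; ring
        rw [h2, Complex.norm_exp_ofReal_mul_I]
      rw [h1, mul_one]
      exact hκ
    · rw [hV, indicator_of_notMem hyG, abs_zero]
      exact zero_le_one
  have hVp : Per V := by
    intro v hv x
    by_cases hx : x ∈ GG L
    · rw [hV, indicator_of_mem hx, indicator_of_mem ((rigthm_GG_per hL.per v hv x).2 hx),
        UU_per k F hFp L hL.per v hv x]
    · rw [hV, indicator_of_notMem hx,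
        indicator_of_notMem (fun h => hx ((rigthm_GG_per hL.per v hv x).1 h))]
  obtain ⟨C, hC⟩ := db_global V hVm 1 hVb hVp (GG L) G0 hGo (rigthm_GG_per hL.per) hG0 hG0c hG0s
    hG0cov (fun K hK hKp hKG i ζ hζ hζp hζK => by
      have h1 := weak_const k hL F hF hFp hll f hf K hK hKp hKG i ζ hζ hζp hζK κ hκ
      rw [← h1]
      congr 1
      funext y
      by_cases hy : y ∈ GG L
      · rw [hV, indicator_of_mem hy]
      · rw [rigthm_dd_zero K hK i ζ hζK y (fun h => hy (hKG h)), zero_mul, zero_mul])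
  refine ⟨C, ?_⟩
  filter_upwards [hC] with y hy hyG
  have := hy hyG
  rwa [hV, indicator_of_mem hyG] at this

/-- `U` is constant. PROOF: `db_global` for `Re (κ U)`, `κ = 1, -i`, with `weak_const`; `‖U‖ ≤ 1` a.e. by `all_arc`, `UU_eq` on `GG L`
(off `GG L` use `V := indicator (GG L) (Re (κ U))`, or `U = 0` there because `sin (πL) = 0`). -/
theorem U_const (k : Fin 3) {L : E2 → ℝ} {c : ℝ} (hL : Prof L c) (F : Set E3)
    (hF : MeasurableSet F) (hFp : IsLatticePeriodic F) (hll : ∀ᵐ y : E2, ll k F y = L y)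
    (f : ℕ → E3 → ℝ) (hf : Approx F c f) :
    ∃ m : ℝ, ∀ᵐ y : E2, y ∈ GG L → UU k F L y = Complex.exp (2 * Real.pi * m * Complex.I) := by
  obtain ⟨C1, h1⟩ := rigthm_re k hL F hF hFp hll f hf 1 (by simp)
  obtain ⟨C2, h2⟩ := rigthm_re k hL F hF hFp hll f hf (-Complex.I) (by simp)
  have harc := all_arc k hL F hF hFp hll f hf
  by_cases hn : ∀ᵐ y : E2, y ∉ GG L
  · refine ⟨0, ?_⟩
    filter_upwards [hn] with y hy hyG
    exact absurd hyG hy
  · obtain ⟨y₀, hy₀, k1, k2, k3⟩ :=
      ((not_eventually.1 hn).and_eventually (h1.and (h2.and harc))).exists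
    rw [not_not] at hy₀
    obtain ⟨m, hm⟩ := k3 hy₀
    have hU0 := UU_eq k F L y₀ hy₀ m hm
    refine ⟨m, ?_⟩
    rw [← hU0]
    filter_upwards [h1, h2] with y l1 l2 hyG
    have e1 := (l1 hyG).trans (k1 hy₀).symm
    have e2 := (l2 hyG).trans (k2 hy₀).symm
    refine Complex.ext ?_ ?_
    · simpa using e1
    · simpa using e2

theorem rigthm_lineE_per (k : Fin 3) (F : Set E3) (hFp : IsLatticePeriodic F) (y : E2) (t : ℝ) :
    t + 1 ∈ lineE k F y ↔ t ∈ lineE k F y := by
  have hv : HasIntegerCoords (EuclideanSpace.single k (1 : ℝ) : E3) := by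
    intro i
    by_cases h : i = k
    · exact ⟨1, by subst h; simp⟩
    · exact ⟨0, by simp [h]⟩
  have h : ins k (t + 1) y = ins k t y + EuclideanSpace.single k (1 : ℝ) := by
    ext i
    refine Fin.succAboveCases k ?_ ?_ i
    · rw [PiLp.add_apply, ins_apply_self, ins_apply_self]
      simp
    · intro j
      rw [PiLp.add_apply, ins_apply_succAbove, ins_apply_succAbove]
      simp
  change ins k (t + 1) y ∈ F ↔ ins k t y ∈ F
  rw [h]
  exact hFp _ hv _

theorem rigthm_null {A : Set ℝ} (hp : ∀ t, t + 1 ∈ A ↔ t ∈ A) (h : volume (A ∩ Ico 0 1) = 0) :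
    volume A = 0 := by
  have hU : A = ⋃ n : ℤ, (A ∩ Ico (n : ℝ) (n + 1)) := by
    ext t
    rw [mem_iUnion]
    constructor
    · intro ht
      exact ⟨⌊t⌋, ht, Int.floor_le t, Int.lt_floor_add_one t⟩
    · rintro ⟨n, hn, -⟩
      exact hn
  rw [hU, measure_iUnion_null_iff]
  intro n
  rw [← measure_preimage_add_right volume (n : ℝ)]
  have : (fun t : ℝ => t + (n : ℝ)) ⁻¹' (A ∩ Ico (n : ℝ) (n + 1)) = A ∩ Ico 0 1 := by
    ext t
    simp only [mem_preimage, mem_inter_iff, mem_Ico, rigL4_per_int hp t n]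
    constructor
    · rintro ⟨a, b, c⟩
      exact ⟨a, by linarith, by linarith⟩
    · rintro ⟨a, b, c⟩
      exact ⟨a, by linarith, by linarith⟩
  rw [this]
  exact h

theorem rigthm_fin (A : Set ℝ) : volume (A ∩ Ico 0 1) ≠ ⊤ := by
  refine (lt_of_le_of_lt (measure_mono inter_subset_right) ?_).ne
  simp

theorem rigthm_zero {A : Set ℝ} (hp : ∀ t, t + 1 ∈ A ↔ t ∈ A)
    (h : (volume (A ∩ Ico 0 1)).toReal = 0) : A =ᵐ[volume] (∅ : Set ℝ) := by
  rw [ae_eq_empty]
  refine rigthm_null hp ?_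
  rcases (ENNReal.toReal_eq_zero_iff _).1 h with h1 | h1
  · exact h1
  · exact absurd h1 (rigthm_fin A)

theorem rigthm_one {A : Set ℝ} (hA : MeasurableSet A) (hp : ∀ t, t + 1 ∈ A ↔ t ∈ A)
    (h : (volume (A ∩ Ico 0 1)).toReal = 1) : A =ᵐ[volume] (univ : Set ℝ) := by
  rw [ae_eq_univ]
  refine rigthm_null (fun t => not_congr (hp t)) ?_
  have h1 : volume (A ∩ Ico 0 1) = 1 := by
    rw [← ENNReal.ofReal_toReal (rigthm_fin A), h, ENNReal.ofReal_one]
  have h2 := measure_inter_add_diff (μ := volume) (Ico (0 : ℝ) 1) hA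
  rw [inter_comm, h1, Real.volume_Ico] at h2
  have h3 : volume (Ico (0 : ℝ) 1 \ A) = 0 := by
    have h4 : (1 : ENNReal) + volume (Ico (0 : ℝ) 1 \ A) = 1 + 0 := by
      rw [h2]
      simp
    exact (ENNReal.add_right_inj ENNReal.one_ne_top).1 h4
  have h5 : Aᶜ ∩ Ico 0 1 = Ico (0 : ℝ) 1 \ A := by
    ext t
    simp only [mem_inter_iff, mem_compl_iff, mem_diff]
    tauto
  rw [h5]
  exact h3

theorem rigthm_line_reg (k : Fin 3) (L : E2 → ℝ) (m : ℝ) (y : E2) :
    lineE k (reg k L m) y = arc m (L y) := by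
  ext t
  change fold ((ins k t y) k - m) < L (rem k (ins k t y)) ↔ fold (t - m) < L y
  rw [rem_ins, ins_self]

/-- CHUNK RIG-THM. PROOF: lines over `GG L` by `UU_line`; lines with `L = 0` are null, with `L = 1` conull (`ll k F y = L y`, periodicity);
`ae_of_line` for the measurable set where `F` and `reg k L m` agree. -/
theorem rig_prof (k : Fin 3) {L : E2 → ℝ} {c : ℝ} (hL : Prof L c) (F : Set E3)
    (hF : MeasurableSet F) (hFp : IsLatticePeriodic F) (hll : ∀ᵐ y : E2, ll k F y = L y)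
    (f : ℕ → E3 → ℝ) (hf : Approx F c f) : ∃ m : ℝ, F =ᵐ[volume] reg k L m := by
  obtain ⟨m, hm⟩ := U_const k hL F hF hFp hll f hf
  refine ⟨m, ?_⟩
  have harc := all_arc k hL F hF hFp hll f hf
  have hlineM : ∀ y, MeasurableSet (lineE k F y) := fun y => (rigFub_meas_ins k y) hF
  have hremc : Continuous (rem (n := 2) k) := by
    unfold rem
    fun_prop
  have hregM : MeasurableSet (reg k L m) := by
    have : IsOpen (reg k L m) :=
      isOpen_lt (fold_continuous.comp (by fun_prop)) (hL.cont.comp hremc)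
    exact this.measurableSet
  have hsM : MeasurableSet {x : E3 | x ∈ F ↔ x ∈ reg k L m} := by
    have : {x : E3 | x ∈ F ↔ x ∈ reg k L m} = (F ∩ reg k L m) ∪ (Fᶜ ∩ (reg k L m)ᶜ) := by
      ext x
      simp only [mem_setOf_eq, mem_union, mem_inter_iff, mem_compl_iff]
      tauto
    rw [this]
    exact (hF.inter hregM).union (hF.compl.inter hregM.compl)
  have hline : ∀ᵐ y : E2, ∀ᵐ t : ℝ, ins k t y ∈ {x : E3 | x ∈ F ↔ x ∈ reg k L m} := by
    filter_upwards [hm, harc, hll] with y h1 h2 h3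
    have key : lineE k F y =ᵐ[volume] arc m (L y) := by
      have hmem := hL.mem y
      rcases eq_or_lt_of_le hmem.1 with h0 | h0
      · have e1 : lineE k F y =ᵐ[volume] (∅ : Set ℝ) :=
          rigthm_zero (rigthm_lineE_per k F hFp y) (by
            have : ll k F y = 0 := h3.trans h0.symm
            exact this)
        have e2 : arc m (L y) =ᵐ[volume] (∅ : Set ℝ) :=
          rigthm_zero (arc_per m (L y)) (by
            rw [volume_arc m (L y) hmem.1 hmem.2]; exact h0.symm)
        exact e1.trans e2.symm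
      · rcases eq_or_lt_of_le hmem.2 with h4 | h4
        · have e1 : lineE k F y =ᵐ[volume] (univ : Set ℝ) :=
            rigthm_one (hlineM y) (rigthm_lineE_per k F hFp y) (by
              have : ll k F y = 1 := h3.trans h4
              exact this)
          have e2 : arc m (L y) =ᵐ[volume] (univ : Set ℝ) :=
            rigthm_one (arc_isOpen m (L y)).measurableSet (arc_per m (L y)) (by
              rw [volume_arc m (L y) hmem.1 hmem.2]; exact h4)
          exact e1.trans e2.symm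
        · exact UU_line k F L y ⟨h0, h4⟩ (h2 ⟨h0, h4⟩) m (h1 ⟨h0, h4⟩)
    rw [← rigthm_line_reg k L m y] at key
    filter_upwards [Filter.eventuallyEq_set.1 key] with t ht
    exact ht
  exact Filter.eventuallyEq_set.2 (ae_of_line k hsM hline)

end
end Crest.Agent.T3
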