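import Crest.Agent.T3.RigVar0
import Crest.Agent.T3.Ibp
/-! Row 214, rigidity (7a), chunk RIG-VAR1: the first variation (inequality). -/
set_option autoImplicit false
set_option linter.unusedSectionVars false
open MeasureTheory Set Filter Topology
open Crest.GeometryTopology.PeriodicPerimeter
namespace Crest.Agent.T3
noncomputable section

/-! ### the trigonometric function -/

def v1psi (κ : ℂ) (t : ℝ) : ℝ := (κ * Complex.exp (2 * Real.pi * t * Complex.I)).re

theorem v1psi_smooth (κ : ℂ) : ContDiff ℝ 1 (v1psi κ) := by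
  unfold v1psi
  have h1 : ContDiff ℝ 1 (fun t : ℝ => κ * Complex.exp (2 * Real.pi * t * Complex.I)) := by
    refine contDiff_const.mul (ContDiff.cexp ?_)
    exact (contDiff_const.mul Complex.ofRealCLM.contDiff).mul contDiff_const
  exact Complex.reCLM.contDiff.comp h1

theorem v1psi_le (κ : ℂ) (hκ : ‖κ‖ ≤ 1) (t : ℝ) : |v1psi κ t| ≤ 1 := by
  unfold v1psi
  refine (Complex.abs_re_le_norm _).trans ?_
  have h : ‖Complex.exp (2 * Real.pi * t * Complex.I)‖ = 1 := by
    have := Complex.norm_exp_ofReal_mul_I (2 * Real.pi * t)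
    push_cast at this
    exact this
  rw [norm_mul, h, mul_one]
  exact hκ

theorem v1psi_int (κ : ℂ) (t : ℝ) (n : ℤ) : v1psi κ (t + n) = v1psi κ t := by
  unfold v1psi
  have h : Complex.exp (2 * Real.pi * ((t + n : ℝ) : ℂ) * Complex.I) =
      Complex.exp (2 * Real.pi * t * Complex.I) := by
    have e : 2 * Real.pi * ((t + n : ℝ) : ℂ) * Complex.I =
        2 * Real.pi * t * Complex.I + n * (2 * Real.pi * Complex.I) := by
      push_cast; ring
    rw [e, Complex.exp_add, Complex.exp_int_mul_two_pi_mul_I, mul_one]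
  rw [h]

theorem v1psi_m (κ : ℂ) (m l : ℝ) :
    v1psi κ (m - l / 2) = psm κ (Complex.exp (2 * Real.pi * m * Complex.I)) l := by
  unfold v1psi psm
  rw [mul_assoc κ, ← Complex.exp_add]
  congr 3
  push_cast; ring

theorem v1psi_p (κ : ℂ) (m l : ℝ) :
    v1psi κ (m + l / 2) = psp κ (Complex.exp (2 * Real.pi * m * Complex.I)) l := by
  unfold v1psi psp
  rw [mul_assoc κ, ← Complex.exp_add]
  congr 3
  push_cast; ring

/-! ### the field -/

theorem v1rem_smooth (k : Fin 3) {m : WithTop ℕ∞} : ContDiff ℝ m (rem k : E3 → E2) := by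
  rw [contDiff_euclidean]
  intro i
  show ContDiff ℝ m (fun x : E3 => x (k.succAbove i))
  exact (EuclideanSpace.proj (𝕜 := ℝ) (k.succAbove i)).contDiff

theorem v1coord_smooth (k : Fin 3) {m : WithTop ℕ∞} : ContDiff ℝ m (fun x : E3 => x k) :=
  (EuclideanSpace.proj (𝕜 := ℝ) k).contDiff

theorem v1rem_add (k : Fin 3) (x v : E3) : rem k (x + v) = rem k x + rem k v := rfl

theorem v1rem_int (k : Fin 3) (v : E3) (hv : HasIntegerCoords v) : HasIntegerCoords (rem k v) :=
  fun i => hv (k.succAbove i)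

/-- the field -/
def v1f (k : Fin 3) (φ : Fin 2 → E2 → ℝ) (ζ : E2 → ℝ) (ε : ℝ) (κ : ℂ) (i j : Fin 2) (x : E3) : ℝ :=
  φ j (rem k x) + if j = i then ε * ζ (rem k x) * v1psi κ (x k) else 0

theorem v1f_smooth (k : Fin 3) (φ : Fin 2 → E2 → ℝ) (hφ : ∀ i, ContDiff ℝ 1 (φ i)) (ζ : E2 → ℝ)
    (hζ : ContDiff ℝ 1 ζ) (ε : ℝ) (κ : ℂ) (i j : Fin 2) : ContDiff ℝ 1 (v1f k φ ζ ε κ i j) := by
  unfold v1f
  refine ((hφ j).comp (v1rem_smooth k)).add ?_
  split_ifs
  · exact (contDiff_const.mul (hζ.comp (v1rem_smooth k))).mul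
      ((v1psi_smooth κ).comp (v1coord_smooth k))
  · exact contDiff_const

theorem v1f_per (k : Fin 3) (φ : Fin 2 → E2 → ℝ) (hφ : ∀ i, Per (φ i)) (ζ : E2 → ℝ)
    (hζ : Per ζ) (ε : ℝ) (κ : ℂ) (i j : Fin 2) : Per (v1f k φ ζ ε κ i j) := by
  intro v hv x
  unfold v1f
  obtain ⟨n, hn⟩ := hv k
  have h1 : (x + v) k = x k + n := by rw [← hn]; rfl
  rw [v1rem_add, hφ j _ (v1rem_int k v hv), hζ _ (v1rem_int k v hv), h1, v1psi_int]

theorem v1f_ins (k : Fin 3) (φ : Fin 2 → E2 → ℝ) (ζ : E2 → ℝ) (ε : ℝ) (κ : ℂ) (i j : Fin 2)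
    (t : ℝ) (y : E2) : v1f k φ ζ ε κ i j (ins k t y) =
      φ j y + if j = i then ε * ζ y * v1psi κ t else 0 := by
  unfold v1f
  rw [rem_ins, ins_apply_self]

theorem v1f_dd (k : Fin 3) (φ : Fin 2 → E2 → ℝ) (hφ : ∀ i, ContDiff ℝ 1 (φ i)) (ζ : E2 → ℝ)
    (hζ : ContDiff ℝ 1 ζ) (ε : ℝ) (κ : ℂ) (i j : Fin 2) (x : E3) :
    dd (k.succAbove j) (v1f k φ ζ ε κ i j) x =
      dd j (φ j) (rem k x) + if j = i then ε * dd j ζ (rem k x) * v1psi κ (x k) else 0 := by
  have h := fderiv_ins_slice (v1f k φ ζ ε κ i j) (v1f_smooth k φ hφ ζ hζ ε κ i j) k (x k) (rem k x) j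
  rw [ins_rem] at h
  unfold dd
  rw [← h]
  simp only [v1f_ins]
  by_cases hj : j = i
  · simp only [if_pos hj]
    have h1 : DifferentiableAt ℝ (φ j) (rem k x) := (hφ j).differentiable one_ne_zero _
    have h2 : DifferentiableAt ℝ ζ (rem k x) := hζ.differentiable one_ne_zero _
    rw [fderiv_fun_add h1 ((h2.const_mul ε).mul_const _)]
    rw [fderiv_mul_const (h2.const_mul ε), fderiv_const_mul h2]
    simp only [add_apply, smul_apply, smul_eq_mul]
    ring
  · simp only [if_neg hj, add_zero]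

/-! ### bounds -/

theorem v1_floor (n : ℕ) (y : EuclideanSpace ℝ (Fin n)) :
    ∃ v, HasIntegerCoords v ∧ y + v ∈ unitCell n := by
  refine ⟨WithLp.toLp 2 (fun i => -(⌊y i⌋ : ℝ)), fun i => ⟨-⌊y i⌋, by push_cast; rfl⟩, fun i => ?_⟩
  have h1 : (y + WithLp.toLp 2 (fun i => -(⌊y i⌋ : ℝ))) i = y i - ⌊y i⌋ := by
    show y i + -(⌊y i⌋ : ℝ) = _
    ring
  rw [h1]
  exact ⟨by linarith [Int.floor_le (y i)], by linarith [Int.lt_floor_add_one (y i)]⟩

theorem v1_compact (n : ℕ) : IsCompact (closure (unitCell n)) := by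
  have hb : Bornology.IsBounded (unitCell n) := by
    apply (Metric.isBounded_iff_subset_closedBall (0 : EuclideanSpace ℝ (Fin n))).2
    refine ⟨Real.sqrt n, fun x hx => ?_⟩
    rw [mem_closedBall_zero_iff, EuclideanSpace.norm_eq]
    apply Real.sqrt_le_sqrt
    calc ∑ i, ‖x i‖ ^ 2 ≤ ∑ _i : Fin n, (1 : ℝ) := by
          apply Finset.sum_le_sum
          intro i _
          have := hx i
          rw [Real.norm_eq_abs, sq_abs]
          nlinarith [this.1, this.2]
      _ = n := by simp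
  exact hb.isCompact_closure

theorem v1_bdd {ζ : E2 → ℝ} (hζ : Continuous ζ) (hp : Per ζ) : ∃ Z : ℝ, 0 ≤ Z ∧ ∀ y, |ζ y| ≤ Z := by
  obtain ⟨C, hC⟩ := (v1_compact 2).exists_bound_of_continuousOn hζ.continuousOn
  refine ⟨max C 0, le_max_right _ _, fun y => ?_⟩
  obtain ⟨v, hv, hy⟩ := v1_floor 2 y
  rw [← hp v hv y]
  exact (hC _ (subset_closure hy)).trans (le_max_left _ _)

theorem v1_dd_per {n : ℕ} {L : EuclideanSpace ℝ (Fin n) → ℝ} (hL : Per L) (i : Fin n) :
    Per (dd i L) := by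
  intro v hv x
  unfold dd
  have h : (fun y => L (y + v)) = L := funext fun y => hL v hv y
  rw [← fderiv_comp_add_right, h]

theorem v1_GG_open {L : E2 → ℝ} (hL : Continuous L) : IsOpen (GG L) :=
  (isOpen_lt continuous_const hL).inter (isOpen_lt hL continuous_const)

theorem v1_dd_cont {L : E2 → ℝ} (hL : Continuous L) (h1 : ContDiffOn ℝ 1 L (GG L)) (i : Fin 2) :
    ContinuousOn (dd i L) (GG L) :=
  (h1.continuousOn_fderiv_of_isOpen (v1_GG_open hL) le_rfl).clm_apply continuousOn_const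

theorem v1_ph0_sq (L : E2 → ℝ) (y : E2) : ph0 L 0 y ^ 2 + ph0 L 1 y ^ 2 =
    (dd 0 L y ^ 2 + dd 1 L y ^ 2) / (4 + dd 0 L y ^ 2 + dd 1 L y ^ 2) := by
  unfold ph0
  rw [div_pow, div_pow, Real.sq_sqrt (by positivity)]
  rw [← add_div]
  congr 1
  ring

/-- `|ph0|²` is bounded away from 1 on `K` -/
theorem v1_q {L : E2 → ℝ} {c : ℝ} (hL : Prof L c) (K : Set E2) (hK : IsClosed K)
    (hKp : ∀ v, HasIntegerCoords v → ∀ x, x + v ∈ K ↔ x ∈ K) (hKG : K ⊆ GG L) :
    ∃ q : ℝ, 0 ≤ q ∧ q < 1 ∧ ∀ y ∈ K, ph0 L 0 y ^ 2 + ph0 L 1 y ^ 2 ≤ q := by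
  have hc : IsCompact (K ∩ closure (unitCell 2)) := (v1_compact 2).inter_left hK
  have hper : ∀ v, HasIntegerCoords v → ∀ y, ph0 L 0 (y + v) ^ 2 + ph0 L 1 (y + v) ^ 2 =
      ph0 L 0 y ^ 2 + ph0 L 1 y ^ 2 := by
    intro v hv y
    rw [v1_ph0_sq, v1_ph0_sq, v1_dd_per hL.per 0 v hv, v1_dd_per hL.per 1 v hv]
  have hcont : ContinuousOn (fun y => ph0 L 0 y ^ 2 + ph0 L 1 y ^ 2) (K ∩ closure (unitCell 2)) := by
    have h0 := (v1_dd_cont hL.cont hL.c1 0).mono (inter_subset_left.trans hKG : K ∩ closure (unitCell 2) ⊆ GG L)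
    have h1 := (v1_dd_cont hL.cont hL.c1 1).mono (inter_subset_left.trans hKG : K ∩ closure (unitCell 2) ⊆ GG L)
    simp only [v1_ph0_sq]
    refine ((h0.pow 2).add (h1.pow 2)).div (((continuousOn_const).add (h0.pow 2)).add (h1.pow 2)) ?_
    intro y _
    positivity
  have hlt : ∀ y, ph0 L 0 y ^ 2 + ph0 L 1 y ^ 2 < 1 := by
    intro y
    rw [v1_ph0_sq, div_lt_one (by positivity)]
    linarith
  have hred : ∀ y ∈ K, ∃ z ∈ K ∩ closure (unitCell 2), ph0 L 0 z ^ 2 + ph0 L 1 z ^ 2 =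
      ph0 L 0 y ^ 2 + ph0 L 1 y ^ 2 := by
    intro y hy
    obtain ⟨v, hv, hyv⟩ := v1_floor 2 y
    exact ⟨y + v, ⟨(hKp v hv y).2 hy, subset_closure hyv⟩, hper v hv y⟩
  rcases (K ∩ closure (unitCell 2)).eq_empty_or_nonempty with he | hne
  · refine ⟨0, le_rfl, one_pos, fun y hy => ?_⟩
    obtain ⟨z, hz, -⟩ := hred y hy
    rw [he] at hz
    exact absurd hz (notMem_empty z)
  · obtain ⟨z0, -, hz0⟩ := hc.exists_isMaxOn hne hcont
    refine ⟨_, by positivity, hlt z0, fun y hy => ?_⟩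
    obtain ⟨z, hz, h⟩ := hred y hy
    rw [← h]
    exact hz0 hz

/-- admissibility of the perturbed field on `K` -/
theorem v1_adm (i : Fin 2) {p0 p1 q s : ℝ} (h0 : 0 ≤ q) (h1 : q < 1) (hp : p0 ^ 2 + p1 ^ 2 ≤ q)
    (hs : |s| ≤ (1 - q) / 3) :
    (p0 + if i = 0 then s else 0) ^ 2 + (p1 + if i = 1 then s else 0) ^ 2 ≤ 1 := by
  have hp0 : |p0| ≤ 1 := by
    rw [← sq_le_one_iff_abs_le_one]; nlinarith [sq_nonneg p1]
  have hp1 : |p1| ≤ 1 := by
    rw [← sq_le_one_iff_abs_le_one]; nlinarith [sq_nonneg p0]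
  have hs1 : |s| ≤ 1 := by linarith
  have hss : s ^ 2 ≤ |s| := by
    rw [← sq_abs]; nlinarith [abs_nonneg s]
  have a0 : p0 * s ≤ |s| := by
    calc p0 * s ≤ |p0 * s| := le_abs_self _
      _ = |p0| * |s| := abs_mul _ _
      _ ≤ |s| := by nlinarith [abs_nonneg s]
  have a1 : p1 * s ≤ |s| := by
    calc p1 * s ≤ |p1 * s| := le_abs_self _
      _ = |p1| * |s| := abs_mul _ _
      _ ≤ |s| := by nlinarith [abs_nonneg s]
  fin_cases i
  · simp only [Fin.zero_eta, if_true]
    norm_num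
    nlinarith
  · simp only [Fin.mk_one, if_true]
    norm_num
    nlinarith

/-! ### the weight -/

def v1w (i : Fin 2) (p0 p1 s : ℝ) : ℝ :=
  Real.sqrt (1 - (p0 + if (0 : Fin 2) = i then s else 0) ^ 2 -
    (p1 + if (1 : Fin 2) = i then s else 0) ^ 2)

theorem v1w_eq (L : E2 → ℝ) (i : Fin 2) (s : ℝ) (y : E2) :
    wv L i s y = v1w i (ph0 L 0 y) (ph0 L 1 y) s := by
  unfold wv v1w
  simp only [eq_comm]

theorem v1w_nonneg (i : Fin 2) (p0 p1 s : ℝ) : 0 ≤ v1w i p0 p1 s := Real.sqrt_nonneg _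

theorem v1w_le (i : Fin 2) (p0 p1 s : ℝ) : v1w i p0 p1 s ≤ 1 := by
  unfold v1w
  rw [Real.sqrt_le_left zero_le_one]
  nlinarith [sq_nonneg (p0 + if (0 : Fin 2) = i then s else 0),
    sq_nonneg (p1 + if (1 : Fin 2) = i then s else 0)]

theorem v1w_cont (i : Fin 2) : Continuous (fun p : ℝ × ℝ × ℝ => v1w i p.1 p.2.1 p.2.2) := by
  unfold v1w
  split_ifs <;> fun_prop

theorem v1w_zero (i : Fin 2) (p0 p1 : ℝ) : v1w i p0 p1 0 = Real.sqrt (1 - p0 ^ 2 - p1 ^ 2) := by
  unfold v1w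
  simp

theorem v1w_meas {α : Type} [MeasurableSpace α] (i : Fin 2) {p0 p1 s : α → ℝ} (h0 : Measurable p0)
    (h1 : Measurable p1) (hs : Measurable s) : Measurable (fun y => v1w i (p0 y) (p1 y) (s y)) :=
  (v1w_cont i).measurable.comp (h0.prodMk (h1.prodMk hs))

theorem v1_ins_add (k : Fin 3) (t : ℝ) (y : E2) : ins k (t + 1) y = ins k t y + ins k 1 0 := by
  ext j
  refine Fin.succAboveCases k ?_ (fun j => ?_) j
  · show ins k (t + 1) y k = ins k t y k + ins k 1 0 k
    rw [ins_apply_self, ins_apply_self, ins_apply_self]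
  · show ins k (t + 1) y (k.succAbove j) = ins k t y (k.succAbove j) + ins k 1 0 (k.succAbove j)
    rw [ins_apply_succAbove, ins_apply_succAbove, ins_apply_succAbove]
    show y j = y j + 0
    rw [add_zero]

theorem v1_ins_int (k : Fin 3) : HasIntegerCoords (ins k 1 (0 : E2)) := by
  intro j
  refine Fin.succAboveCases k ?_ (fun j => ?_) j
  · exact ⟨1, by rw [ins_apply_self]; simp⟩
  · exact ⟨0, by rw [ins_apply_succAbove]; simp⟩

theorem v1_dd_zero {K : Set E2} (hK : IsClosed K) {ζ : E2 → ℝ} (hζK : ∀ y, y ∉ K → ζ y = 0)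
    (i : Fin 2) (y : E2) (hy : y ∉ K) : dd i ζ y = 0 := by
  unfold dd
  have h : ζ =ᶠ[𝓝 y] fun _ => (0 : ℝ) := by
    filter_upwards [hK.isOpen_compl.mem_nhds hy] with z hz
    exact hζK z hz
  rw [h.fderiv_eq]
  simp

theorem v1_bdd_int {s : Set E2} (hs : MeasurableSet s) {g : E2 → ℝ} (hg : Measurable g) {C : ℝ}
    (hC : ∀ y, |g y| ≤ C) : IntegrableOn g (s ∩ unitCell 2) := by
  have hfin : volume (s ∩ unitCell 2) < ⊤ :=
    (measure_mono inter_subset_right).trans_lt (by rw [volume_unitCell]; exact ENNReal.one_lt_top)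
  exact Measure.integrableOn_of_bounded hfin.ne hg.aestronglyMeasurable
    (Filter.Eventually.of_forall fun y => (hC y))

/-- CHUNK RIG-VAR1 (inequality).  `K` closed periodic in `GG L`, `ζ` vanishes off `K`, `ψ t = Re (κ e^{2πit})`.
PROOF. `|ph0| ≤ 1 - κ₀` on `K` (compactness mod the lattice, `ph0` continuous with norm `< 1` on `GG L`), so for `|ε| ≤ ε₀` the
fields `φ' j x = φ j (rem k x) + ε ζ (rem k x) ψ (x k) [j = i]` (`φ` from `hL.cal K δ`) are admissible.  `limit_ineq` with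
`h y = 1_{GG L}(y) (w(a) + w(b))` (a.e. line is an arc by `all_arc`, `lscw`; `a, b = m ∓ L/2`, `e^{2πi a} = U e^{-πiL}`), equal to
`2 √(1-|φ|²)` off `K`, and `≥` ... on `K`; subtract `cal` and let `δ → 0`. -/
theorem first_var_ineq (k : Fin 3) {L : E2 → ℝ} {c : ℝ} (hL : Prof L c) (F : Set E3)
    (hF : MeasurableSet F) (hFp : IsLatticePeriodic F) (hll : ∀ᵐ y : E2, ll k F y = L y)
    (f : ℕ → E3 → ℝ) (hf : Approx F c f) (K : Set E2) (hK : IsClosed K)
    (hKp : ∀ v, HasIntegerCoords v → ∀ x, x + v ∈ K ↔ x ∈ K) (hKG : K ⊆ GG L)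
    (i : Fin 2) (ζ : E2 → ℝ) (hζ : ContDiff ℝ 1 ζ) (hζp : Per ζ) (hζK : ∀ y, y ∉ K → ζ y = 0)
    (κ : ℂ) (hκ : ‖κ‖ ≤ 1) :
    ∃ ε₀ : ℝ, 0 < ε₀ ∧ ∀ ε : ℝ, |ε| ≤ ε₀ →
      ε * (∫ y in unitCell 2, dd i ζ y *
          (κ * (((Real.sin (Real.pi * L y) / Real.pi : ℝ) : ℂ) * UU k F L y)).re) +
        ∫ y in K ∩ unitCell 2, (wv L i (ε * ζ y * psm κ (UU k F L y) (L y)) y +
          wv L i (ε * ζ y * psp κ (UU k F L y) (L y)) y - 2 * wv L i 0 y) ≤ 0 := by
  obtain ⟨q, hq0, hq1, hq⟩ := v1_q hL K hK hKp hKG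
  obtain ⟨Z, hZ0, hZ⟩ := v1_bdd hζ.continuous hζp
  have hq1' : 0 < (1 - q) / 3 := by linarith
  refine ⟨(1 - q) / 3 / (Z + 1), by positivity, fun ε hε => ?_⟩
  have hs : ∀ y : E2, ∀ r : ℝ, |r| ≤ 1 → |ε * ζ y * r| ≤ (1 - q) / 3 := by
    intro y r hr
    rw [abs_mul, abs_mul]
    have h1 : |ε| * |ζ y| ≤ (1 - q) / 3 / (Z + 1) * (Z + 1) :=
      mul_le_mul hε ((hZ y).trans (by linarith)) (abs_nonneg _) (by positivity)
    rw [div_mul_cancel₀ _ (by positivity : Z + 1 ≠ 0)] at h1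
    calc |ε| * |ζ y| * |r| ≤ |ε| * |ζ y| * 1 := by
          exact mul_le_mul_of_nonneg_left hr (by positivity)
      _ ≤ (1 - q) / 3 := by rw [mul_one]; exact h1
  have arcs := all_arc k hL F hF hFp hll f hf
  have conv := ae_line_conv k F c f hf
  have hGG := v1_GG_open hL.cont
  have hUm := UU_meas k F hF L hL.cont
  refine le_of_forall_pos_le_add (fun δ hδ => ?_)
  rw [zero_add]
  obtain ⟨φ, hφ, hφp, hφ1, hφK, hcal⟩ := hL.cal K hK hKp hKG δ hδ
  -- admissibility
  have hadm : ∀ x, v1f k φ ζ ε κ i 0 x ^ 2 + v1f k φ ζ ε κ i 1 x ^ 2 ≤ 1 := by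
    intro x
    rw [← ins_rem k x, v1f_ins, v1f_ins]
    by_cases hy : rem k x ∈ K
    · rw [hφK _ hy 0, hφK _ hy 1]
      have := v1_adm i hq0 hq1 (hq _ hy) (hs (rem k x) (v1psi κ (x k)) (v1psi_le κ hκ _))
      simpa only [eq_comm] using this
    · rw [hζK _ hy]
      simp only [mul_zero, zero_mul, ite_self, add_zero]
      exact hφ1 _
  -- the function h
  set W : E2 → ℝ := fun y => v1w i (φ 0 y) (φ 1 y) (ε * ζ y * psm κ (UU k F L y) (L y)) +
    v1w i (φ 0 y) (φ 1 y) (ε * ζ y * psp κ (UU k F L y) (L y)) with hW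
  have hψm : Measurable (fun y => psm κ (UU k F L y) (L y)) := by
    unfold psm
    refine Complex.measurable_re.comp ((measurable_const.mul hUm).mul ?_)
    refine Complex.measurable_exp.comp ?_
    exact ((measurable_const.mul (Complex.measurable_ofReal.comp hL.cont.measurable)).mul
      measurable_const).neg
  have hψp : Measurable (fun y => psp κ (UU k F L y) (L y)) := by
    unfold psp
    refine Complex.measurable_re.comp ((measurable_const.mul hUm).mul ?_)
    refine Complex.measurable_exp.comp ?_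
    exact (measurable_const.mul (Complex.measurable_ofReal.comp hL.cont.measurable)).mul
      measurable_const
  have hWm : Measurable W :=
    (v1w_meas i (hφ 0).continuous.measurable (hφ 1).continuous.measurable
      ((measurable_const.mul hζ.continuous.measurable).mul hψm)).add
    (v1w_meas i (hφ 0).continuous.measurable (hφ 1).continuous.measurable
      ((measurable_const.mul hζ.continuous.measurable).mul hψp))
  have hW0 : ∀ y, 0 ≤ W y := fun y => add_nonneg (v1w_nonneg _ _ _ _) (v1w_nonneg _ _ _ _)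
  have hW2 : ∀ y, W y ≤ 2 := fun y => by
    have h1 := v1w_le i (φ 0 y) (φ 1 y) (ε * ζ y * psm κ (UU k F L y) (L y))
    have h2 := v1w_le i (φ 0 y) (φ 1 y) (ε * ζ y * psp κ (UU k F L y) (L y))
    show v1w _ _ _ _ + v1w _ _ _ _ ≤ 2
    linarith
  have hlimit := limit_ineq k F hF c f hf (v1f k φ ζ ε κ i) (v1f_smooth k φ hφ ζ hζ ε κ i)
    (v1f_per k φ hφp ζ hζp ε κ i) hadm ((GG L).indicator W)
    (hWm.indicator hGG.measurableSet).aestronglyMeasurable
    (fun y => indicator_nonneg (fun y _ => hW0 y) y)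
    ⟨2, fun y => by
      by_cases hy : y ∈ GG L
      · rw [indicator_of_mem hy]; exact hW2 y
      · rw [indicator_of_notMem hy]; norm_num⟩ (by
    filter_upwards [arcs, conv] with y hy hcv δ' hδ'
    by_cases hyG : y ∈ GG L
    · obtain ⟨m, hm⟩ := hy hyG
      have hU := UU_eq k F L y hyG m hm
      rw [indicator_of_mem hyG]
      have h1 := lscw (fun n t => f n (ins k t y))
        (fun n => ((hf.smooth n).of_le (by norm_num)).comp
          ((ins_contDiff k).comp (contDiff_id.prodMk contDiff_const)))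
        (fun n t => by rw [v1_ins_add]; exact hf.per n _ (v1_ins_int k) _)
        (fun t => v1w i (φ 0 y) (φ 1 y) (ε * ζ y * v1psi κ t))
        ((v1w_cont i).comp (continuous_const.prodMk (continuous_const.prodMk
          (continuous_const.mul (v1psi_smooth κ).continuous))))
        (fun t => by
          have := v1psi_int κ t 1
          push_cast at this
          rw [this])
        (fun t => v1w_nonneg _ _ _ _) m (L y) hyG.1 hyG.2 (by
          filter_upwards [hcv, hm.mem_iff] with t ht ht2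
          have e : (lineE k F y).indicator (fun _ => (1 : ℝ)) t =
              (arc m (L y)).indicator (fun _ => (1 : ℝ)) t := by
            by_cases h : t ∈ lineE k F y
            · rw [indicator_of_mem h, indicator_of_mem (ht2.1 h)]
            · rw [indicator_of_notMem h, indicator_of_notMem (fun h' => h (ht2.2 h'))]
          rw [← e]
          exact ht) δ' hδ'
      filter_upwards [h1] with n hn
      have e1 : W y = v1w i (φ 0 y) (φ 1 y) (ε * ζ y * v1psi κ (m - L y / 2)) +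
          v1w i (φ 0 y) (φ 1 y) (ε * ζ y * v1psi κ (m + L y / 2)) := by
        rw [v1psi_m, v1psi_p, ← hU]
      rw [e1]
      refine hn.trans (le_of_eq ?_)
      refine integral_congr_ae (Filter.Eventually.of_forall fun t => ?_)
      simp only [v1f_ins]
      rfl
    · rw [indicator_of_notMem hyG]
      refine Filter.Eventually.of_forall fun n => ?_
      have : 0 ≤ ∫ t in Ico (0 : ℝ) 1, Real.sqrt (1 - v1f k φ ζ ε κ i 0 (ins k t y) ^ 2 -
          v1f k φ ζ ε κ i 1 (ins k t y) ^ 2) * |deriv (fun s => f n (ins k s y)) t| :=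
        integral_nonneg fun t => by positivity
      linarith)
  -- the first term
  have hddc : ∀ j, Continuous (dd j (φ j)) := fun j =>
    ((hφ j).continuous_fderiv one_ne_zero).clm_apply continuous_const
  have hζc : Continuous (dd i ζ) := (hζ.continuous_fderiv one_ne_zero).clm_apply continuous_const
  have hremc : Continuous (rem k : E3 → E2) := (v1rem_smooth k (m := 0)).continuous
  have hcoc : Continuous (fun x : E3 => x k) := (v1coord_smooth k (m := 0)).continuous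
  have c1 : Continuous (fun x : E3 => dd 0 (φ 0) (rem k x) + dd 1 (φ 1) (rem k x)) :=
    ((hddc 0).comp hremc).add ((hddc 1).comp hremc)
  have c2 : Continuous (fun x : E3 => ε * dd i ζ (rem k x) * v1psi κ (x k)) :=
    (continuous_const.mul (hζc.comp hremc)).mul ((v1psi_smooth κ).continuous.comp hcoc)
  have T1 : ∫ x in F ∩ unitCell 3, (dd (k.succAbove 0) (v1f k φ ζ ε κ i 0) x +
      dd (k.succAbove 1) (v1f k φ ζ ε κ i 1) x) =
      (∫ y in unitCell 2, L y * (dd 0 (φ 0) y + dd 1 (φ 1) y)) +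
      ε * ∫ y in unitCell 2, dd i ζ y *
          (κ * (((Real.sin (Real.pi * L y) / Real.pi : ℝ) : ℂ) * UU k F L y)).re := by
    have e1 : ∀ x, dd (k.succAbove 0) (v1f k φ ζ ε κ i 0) x +
        dd (k.succAbove 1) (v1f k φ ζ ε κ i 1) x =
        (dd 0 (φ 0) (rem k x) + dd 1 (φ 1) (rem k x)) + ε * dd i ζ (rem k x) * v1psi κ (x k) := by
      intro x
      rw [v1f_dd k φ hφ ζ hζ, v1f_dd k φ hφ ζ hζ]
      fin_cases i
      · simp only [Fin.zero_eta, if_true]
        norm_num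
        ring
      · simp only [Fin.mk_one, if_true]
        norm_num
        ring
    simp only [e1]
    rw [integral_add ((cont_integrableOn_cell _ c1).mono_set inter_subset_right)
      ((cont_integrableOn_cell _ c2).mono_set inter_subset_right)]
    congr 1
    · exact integral_cyl k F hF L hll (fun y => dd 0 (φ 0) y + dd 1 (φ 1) y) ((hddc 0).add (hddc 1))
        (fun v hv x => by
          show dd 0 (φ 0) (x + v) + dd 1 (φ 1) (x + v) = dd 0 (φ 0) x + dd 1 (φ 1) x
          rw [v1_dd_per (hφp 0) 0 v hv, v1_dd_per (hφp 1) 1 v hv])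
    · rw [integral_cell_set k F hF _ (cont_integrableOn_cell _ c2), ← integral_const_mul]
      refine setIntegral_congr_ae (measurableSet_unitCell 2) ?_
      filter_upwards [arcs] with y hy _
      simp only [rem_ins, ins_self]
      rw [integral_const_mul]
      by_cases hyG : y ∈ GG L
      · have h1 := UU_int k F L y hyG (hy hyG) κ
        show ε * dd i ζ y * ∫ t in lineE k F y ∩ Ico 0 1,
          (κ * Complex.exp (2 * Real.pi * t * Complex.I)).re = _
        rw [h1, mul_assoc]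
      · rw [v1_dd_zero hK hζK i y (fun h => hyG (hKG h))]
        simp
  rw [T1] at hlimit
  have T2 : ∫ y in unitCell 2, (GG L).indicator W y = ∫ y in GG L ∩ unitCell 2, W y := by
    rw [setIntegral_indicator hGG.measurableSet, inter_comm]
  rw [T2] at hlimit
  -- comparison with the calibration
  have hV : Measurable (fun y => 2 * Real.sqrt (1 - φ 0 y ^ 2 - φ 1 y ^ 2)) := by
    have h0 := (hφ 0).continuous
    have h1 := (hφ 1).continuous
    exact (continuous_const.mul (((continuous_const.sub (h0.pow 2)).sub (h1.pow 2)).sqrt)).measurable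
  have hVb : ∀ y, |2 * Real.sqrt (1 - φ 0 y ^ 2 - φ 1 y ^ 2)| ≤ 2 := by
    intro y
    rw [abs_of_nonneg (by positivity), ← v1w_zero i]
    linarith [v1w_le i (φ 0 y) (φ 1 y) 0]
  have iW : IntegrableOn W (GG L ∩ unitCell 2) := v1_bdd_int hGG.measurableSet hWm (C := 2)
    (fun y => by rw [abs_of_nonneg (hW0 y)]; exact hW2 y)
  have iV : IntegrableOn (fun y => 2 * Real.sqrt (1 - φ 0 y ^ 2 - φ 1 y ^ 2)) (GG L ∩ unitCell 2) :=
    v1_bdd_int hGG.measurableSet hV hVb
  have T3 : (∫ y in GG L ∩ unitCell 2, W y) -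
      ∫ y in GG L ∩ unitCell 2, 2 * Real.sqrt (1 - φ 0 y ^ 2 - φ 1 y ^ 2) =
      ∫ y in K ∩ unitCell 2, (wv L i (ε * ζ y * psm κ (UU k F L y) (L y)) y +
          wv L i (ε * ζ y * psp κ (UU k F L y) (L y)) y - 2 * wv L i 0 y) := by
    rw [← integral_sub iW iV]
    have hsub : K ∩ unitCell 2 ⊆ GG L ∩ unitCell 2 := inter_subset_inter_left _ hKG
    have e3 : ∫ y in GG L ∩ unitCell 2, (W y - 2 * Real.sqrt (1 - φ 0 y ^ 2 - φ 1 y ^ 2)) =
        ∫ y in K ∩ unitCell 2, (W y - 2 * Real.sqrt (1 - φ 0 y ^ 2 - φ 1 y ^ 2)) := by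
      refine setIntegral_eq_of_subset_of_forall_sdiff_eq_zero
        (hGG.measurableSet.inter (measurableSet_unitCell 2)) hsub ?_
      intro y hy
      have hyK : y ∉ K := fun h => hy.2 ⟨h, hy.1.2⟩
      simp only [hW, hζK y hyK, mul_zero, zero_mul, v1w_zero]
      ring
    rw [e3]
    refine setIntegral_congr_fun (hK.measurableSet.inter (measurableSet_unitCell 2)) ?_
    intro y hy
    simp only [hW, v1w_eq, hφK y hy.1, v1w_zero]
  rw [← T3]
  linarith

end
end Crest.Agent.T3
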