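import Crest.Agent.T3.RigVar0
/-! Row 214, rigidity (7a), chunk RIG-VAR2: `sqrt_taylor` and auxiliary lemmas. -/
set_option autoImplicit false
open MeasureTheory Set Filter Topology
open Crest.GeometryTopology.PeriodicPerimeter
namespace Crest.Agent.T3
noncomputable section

/-- elementary lower bound: `√(1-|p+s e_i|²) ≥ √(1-|p|²) - s p_i/√(1-|p|²) - C s²` for `|p|² ≤ 1 - κ₀`, `|s| ≤ s₀`.
(one variable: `g(s) = √(A - 2 p s - s²)`, `A = 1-|p|² ≥ κ₀`.) -/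
theorem sqrt_taylor (κ₀ : ℝ) (hκ : 0 < κ₀) : ∃ C s₀ : ℝ, 0 < s₀ ∧ 0 ≤ C ∧ ∀ A p s : ℝ, κ₀ ≤ A → A ≤ 1 →
    |p| ≤ 1 → |s| ≤ s₀ →
    Real.sqrt A - s * p / Real.sqrt A - C * s ^ 2 ≤ Real.sqrt (A - 2 * p * s - s ^ 2) := by
  set k := Real.sqrt κ₀ with hk
  have hk0 : 0 < k := Real.sqrt_pos.2 hκ
  set C := (1 + (1 / k + 1) ^ 2) / (2 * k) with hC
  have hC0 : 0 < C := by positivity
  refine ⟨C, 1 / C, by positivity, hC0.le, ?_⟩
  intro A p s hA _ hp hs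
  set u := Real.sqrt A with hu
  have hku : k ≤ u := Real.sqrt_le_sqrt hA
  have hu0 : 0 < u := lt_of_lt_of_le hk0 hku
  have huA : u ^ 2 = A := Real.sq_sqrt (by linarith)
  set q := p / u with hq
  have hqp : u * q = p := by rw [hq]; field_simp
  have hq1 : |q| ≤ 1 / k := by
    rw [hq, abs_div, abs_of_pos hu0, div_le_div_iff₀ hu0 hk0]
    nlinarith [abs_nonneg p]
  have hCs : |C * s| ≤ 1 := by
    rw [abs_mul, abs_of_pos hC0]
    calc C * |s| ≤ C * (1 / C) := mul_le_mul_of_nonneg_left hs hC0.le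
      _ = 1 := by field_simp
  have h1 : (q + C * s) ^ 2 ≤ (1 / k + 1) ^ 2 := by
    rw [← sq_abs (q + C * s)]
    exact pow_le_pow_left₀ (abs_nonneg _) ((abs_add_le _ _).trans (add_le_add hq1 hCs)) 2
  have h2 : 1 + (1 / k + 1) ^ 2 ≤ 2 * u * C := by
    have h3 : 2 * k * C = 1 + (1 / k + 1) ^ 2 := by rw [hC]; field_simp
    have h4 : 2 * k * C ≤ 2 * u * C := by
      apply mul_le_mul_of_nonneg_right _ hC0.le
      linarith
    linarith
  refine (le_abs_self _).trans (Real.abs_le_sqrt ?_)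
  have e : (u - s * p / u - C * s ^ 2) ^ 2 =
      A - 2 * p * s + s ^ 2 * ((q + C * s) ^ 2 - 2 * u * C) := by
    have h5 : s * p / u = s * q := by rw [hq]; ring
    rw [h5, ← huA, ← hqp]
    ring
  rw [e]
  have h6 : s ^ 2 * ((q + C * s) ^ 2 - 2 * u * C) ≤ s ^ 2 * (-1) :=
    mul_le_mul_of_nonneg_left (by linarith) (sq_nonneg s)
  linarith

theorem rv2_le (S C e0 : ℝ) (he : 0 < e0) (h : ∀ ε, 0 < ε → ε ≤ e0 → ε * S - C * ε ^ 2 ≤ 0) :
    S ≤ 0 := by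
  by_contra hS
  push Not at hS
  have hC : 0 < 2 * (|C| + 1) := by positivity
  obtain ⟨ε, hε0, hε1, h2⟩ : ∃ ε : ℝ, 0 < ε ∧ ε ≤ e0 ∧ ε ≤ S / (2 * (|C| + 1)) :=
    ⟨min e0 (S / (2 * (|C| + 1))), lt_min he (by positivity), min_le_left _ _, min_le_right _ _⟩
  have h1 := h ε hε0 hε1
  rw [le_div_iff₀ hC] at h2
  have h3 : C * ε ≤ |C| * ε := mul_le_mul_of_nonneg_right (le_abs_self C) hε0.le
  have h4 : 0 < S - C * ε := by nlinarith [abs_nonneg C]
  have h5 := mul_pos hε0 h4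
  nlinarith

theorem rv2_eq (X Y C e0 : ℝ) (he : 0 < e0)
    (h : ∀ ε, |ε| ≤ e0 → ε * X + (ε * Y - C * ε ^ 2) ≤ 0) : X = -Y := by
  have h1 : X + Y ≤ 0 := by
    refine rv2_le _ C e0 he fun ε h0 h1 => ?_
    have := h ε (by rw [abs_of_pos h0]; exact h1)
    linarith
  have h2 : -(X + Y) ≤ 0 := by
    refine rv2_le _ C e0 he fun ε h0 h1 => ?_
    have := h (-ε) (by rw [abs_neg, abs_of_pos h0]; exact h1)
    nlinarith
  linarith

theorem rv2_compact : IsCompact {x : E2 | ∀ i, x i ∈ Icc (0 : ℝ) 1} := by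
  have h : IsCompact ((EuclideanSpace.equiv (Fin 2) ℝ).toHomeomorph ⁻¹'
      (Set.pi univ fun _ => Icc (0 : ℝ) 1)) :=
    (EuclideanSpace.equiv (Fin 2) ℝ).toHomeomorph.isCompact_preimage.2
      (isCompact_univ_pi fun _ => isCompact_Icc)
  have e : {x : E2 | ∀ i, x i ∈ Icc (0 : ℝ) 1} =
      (EuclideanSpace.equiv (Fin 2) ℝ).toHomeomorph ⁻¹' (Set.pi univ fun _ => Icc (0 : ℝ) 1) := by
    ext x
    exact ⟨fun hx i _ => hx i, fun hx i => hx i (mem_univ i)⟩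
  rw [e]
  exact h

theorem rv2_bound (K : Set E2) (hK : IsClosed K) (g : E2 → ℝ) (hg : ContinuousOn g K) :
    ∃ M, 0 ≤ M ∧ ∀ y ∈ K ∩ unitCell 2, |g y| ≤ M := by
  have hc := rv2_compact.inter_left hK
  obtain ⟨M, hM⟩ := hc.exists_bound_of_continuousOn (hg.mono inter_subset_left)
  refine ⟨|M|, abs_nonneg M, fun y hy => ?_⟩
  have h1 := hM y ⟨hy.1, fun i => ⟨(hy.2 i).1, (hy.2 i).2.le⟩⟩
  rw [Real.norm_eq_abs] at h1
  exact h1.trans (le_abs_self M)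

theorem rv2_GG_open {L : E2 → ℝ} (hL : Continuous L) : IsOpen (GG L) :=
  (isOpen_lt continuous_const hL).inter (isOpen_lt hL continuous_const)

theorem rv2_dd_cont {L : E2 → ℝ} (hL : Continuous L) (h1 : ContDiffOn ℝ 1 L (GG L)) (i : Fin 2) :
    ContinuousOn (dd i L) (GG L) :=
  (h1.continuousOn_fderiv_of_isOpen (rv2_GG_open hL) le_rfl).clm_apply continuousOn_const

theorem rv2_dd_meas (L : E2 → ℝ) (i : Fin 2) : Measurable (dd i L) :=
  measurable_fderiv_apply_const ℝ L _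

theorem rv2_ph0_meas (L : E2 → ℝ) (i : Fin 2) : Measurable (ph0 L i) := by
  unfold ph0
  exact (rv2_dd_meas L i).neg.div ((measurable_const.add ((rv2_dd_meas L 0).pow_const 2)).add
    ((rv2_dd_meas L 1).pow_const 2)).sqrt

/-- `1 - |ph0|²` -/
def rv2A (L : E2 → ℝ) (y : E2) : ℝ := 1 - ph0 L 0 y ^ 2 - ph0 L 1 y ^ 2

theorem rv2_wv (L : E2 → ℝ) (i : Fin 2) (s : ℝ) (y : E2) :
    wv L i s y = Real.sqrt (rv2A L y - 2 * ph0 L i y * s - s ^ 2) := by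
  unfold wv rv2A
  congr 1
  fin_cases i
  · simp; ring
  · simp; ring

theorem rv2_wv_meas (L : E2 → ℝ) (i : Fin 2) (s : E2 → ℝ) (hs : Measurable s) :
    Measurable (fun y => wv L i (s y) y) := by
  simp only [rv2_wv]
  unfold rv2A
  exact ((((measurable_const.sub ((rv2_ph0_meas L 0).pow_const 2)).sub
    ((rv2_ph0_meas L 1).pow_const 2)).sub ((measurable_const.mul (rv2_ph0_meas L i)).mul hs)).sub
      (hs.pow_const 2)).sqrt

theorem rv2_wv_le (L : E2 → ℝ) (i : Fin 2) (s : ℝ) (y : E2) : |wv L i s y| ≤ 1 := by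
  unfold wv
  rw [abs_of_nonneg (Real.sqrt_nonneg _)]
  refine Real.sqrt_le_one.2 ?_
  nlinarith [sq_nonneg (ph0 L 0 y + if i = 0 then s else 0),
    sq_nonneg (ph0 L 1 y + if i = 1 then s else 0)]

theorem rv2_A (L : E2 → ℝ) (y : E2) : rv2A L y = 4 / (4 + dd 0 L y ^ 2 + dd 1 L y ^ 2) := by
  unfold rv2A ph0
  have h : 0 < 4 + dd 0 L y ^ 2 + dd 1 L y ^ 2 := by positivity
  rw [div_pow, div_pow, Real.sq_sqrt h.le]
  field_simp
  ring

theorem rv2_ph0_abs (L : E2 → ℝ) (i : Fin 2) (y : E2) : |ph0 L i y| ≤ 1 := by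
  have h1 : 0 ≤ rv2A L y := by rw [rv2_A]; positivity
  unfold rv2A at h1
  rw [← sq_le_one_iff_abs_le_one]
  fin_cases i
  · show ph0 L 0 y ^ 2 ≤ 1
    nlinarith [sq_nonneg (ph0 L 1 y)]
  · show ph0 L 1 y ^ 2 ≤ 1
    nlinarith [sq_nonneg (ph0 L 0 y)]

theorem rv2_ph0_div (L : E2 → ℝ) (i : Fin 2) (y : E2) :
    ph0 L i y / Real.sqrt (rv2A L y) = -dd i L y / 2 := by
  have h : 0 < 4 + dd 0 L y ^ 2 + dd 1 L y ^ 2 := by positivity
  have hT : 0 < Real.sqrt (4 + dd 0 L y ^ 2 + dd 1 L y ^ 2) := Real.sqrt_pos.2 h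
  have h4 : Real.sqrt 4 = 2 := by
    rw [show (4 : ℝ) = 2 ^ 2 by norm_num]
    exact Real.sqrt_sq (by norm_num)
  rw [rv2_A, Real.sqrt_div (by norm_num), h4]
  unfold ph0
  field_simp

theorem rv2_psm (κ U : ℂ) (l : ℝ) (hκ : ‖κ‖ ≤ 1) (hU : ‖U‖ = 1) : |psm κ U l| ≤ 1 := by
  unfold psm
  refine (Complex.abs_re_le_norm _).trans ?_
  rw [norm_mul, norm_mul, hU, mul_one, Complex.norm_exp]
  simpa using hκ

theorem rv2_psp (κ U : ℂ) (l : ℝ) (hκ : ‖κ‖ ≤ 1) (hU : ‖U‖ = 1) : |psp κ U l| ≤ 1 := by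
  unfold psp
  refine (Complex.abs_re_le_norm _).trans ?_
  rw [norm_mul, norm_mul, hU, mul_one, Complex.norm_exp]
  simpa using hκ

theorem rv2_sum (κ U : ℂ) (l : ℝ) : psm κ U l + psp κ U l =
    2 * (κ * (((Real.cos (Real.pi * l) : ℝ) : ℂ) * U)).re := by
  unfold psm psp
  rw [← Complex.add_re]
  have h : κ * U * Complex.exp (-(Real.pi * l * Complex.I)) +
      κ * U * Complex.exp (Real.pi * l * Complex.I) =
      ((2 : ℝ) : ℂ) * (κ * (((Real.cos (Real.pi * l) : ℝ) : ℂ) * U)) := by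
    have h1 := Complex.two_cos ((Real.pi * l : ℝ) : ℂ)
    rw [Complex.ofReal_cos]
    have h2 : Complex.exp (Real.pi * l * Complex.I) + Complex.exp (-(Real.pi * l * Complex.I)) =
        2 * Complex.cos ((Real.pi * l : ℝ) : ℂ) := by
      rw [h1]
      push_cast
      rw [neg_mul]
    push_cast at h2 ⊢
    linear_combination (κ * U) * h2
  rw [h, Complex.re_ofReal_mul]

theorem rv2_psm_meas (κ : ℂ) (U : E2 → ℂ) (hU : Measurable U) (L : E2 → ℝ) (hL : Measurable L) :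
    Measurable (fun y => psm κ (U y) (L y)) := by
  unfold psm
  fun_prop

theorem rv2_R_meas (κ : ℂ) (U : E2 → ℂ) (hU : Measurable U) (L : E2 → ℝ) (hL : Measurable L) :
    Measurable (fun y => (κ * (((Real.cos (Real.pi * L y) : ℝ) : ℂ) * U y)).re) := by
  fun_prop

theorem rv2_psp_meas (κ : ℂ) (U : E2 → ℂ) (hU : Measurable U) (L : E2 → ℝ) (hL : Measurable L) :
    Measurable (fun y => psp κ (U y) (L y)) := by
  unfold psp
  fun_prop

end
end Crest.Agent.T3
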