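import Crest.Agent.T3.RigVar0
import Crest.Agent.T3.RigVar2a
import Crest.Agent.T3.RigVar1
/-! Row 214, rigidity (7a), chunks RIG-VAR1, RIG-VAR2: the first variation. -/
set_option autoImplicit false
open MeasureTheory Set Filter Topology
open Crest.GeometryTopology.PeriodicPerimeter
namespace Crest.Agent.T3
noncomputable section

/-- CHUNK RIG-VAR2 (equality).  PROOF. In `first_var_ineq` use `sqrt_taylor` (`A = 1 - |ph0|² = 4/(4+|∇L|²)`, bounded below on
`K`), `ph0_i/√A = -∂_i L/2`, `psm + psp = 2 Re(κ U cos πL)`; `ε (X + Y) - C' ε² ≤ 0` for all small `ε` of both signs, so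
`X + Y = 0`. -/
theorem first_var (k : Fin 3) {L : E2 → ℝ} {c : ℝ} (hL : Prof L c) (F : Set E3)
    (hF : MeasurableSet F) (hFp : IsLatticePeriodic F) (hll : ∀ᵐ y : E2, ll k F y = L y)
    (f : ℕ → E3 → ℝ) (hf : Approx F c f) (K : Set E2) (hK : IsClosed K)
    (hKp : ∀ v, HasIntegerCoords v → ∀ x, x + v ∈ K ↔ x ∈ K) (hKG : K ⊆ GG L)
    (i : Fin 2) (ζ : E2 → ℝ) (hζ : ContDiff ℝ 1 ζ) (hζp : Per ζ) (hζK : ∀ y, y ∉ K → ζ y = 0)
    (κ : ℂ) (hκ : ‖κ‖ ≤ 1) :
    (∫ y in unitCell 2, dd i ζ y *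
          (κ * (((Real.sin (Real.pi * L y) / Real.pi : ℝ) : ℂ) * UU k F L y)).re) =
      -∫ y in unitCell 2, ζ y * (dd i L y * (κ * (((Real.cos (Real.pi * L y) : ℝ) : ℂ) * UU k F L y)).re) := by
  obtain ⟨ε₀, hε₀, hineq⟩ := first_var_ineq k hL F hF hFp hll f hf K hK hKp hKG i ζ hζ hζp hζK κ hκ
  have hLm : Measurable L := hL.cont.measurable
  have hU : Measurable (UU k F L) := UU_meas k F hF L hL.cont
  have hU1 : ∀ᵐ y : E2, y ∈ GG L → ‖UU k F L y‖ = 1 := by
    filter_upwards [all_arc k hL F hF hFp hll f hf] with y hy hyG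
    obtain ⟨m, hm⟩ := hy hyG
    rw [UU_eq k F L y hyG m hm]
    rw [show (2 * Real.pi * m * Complex.I : ℂ) = ((2 * Real.pi * m : ℝ) : ℂ) * Complex.I by
      push_cast; ring]
    exact Complex.norm_exp_ofReal_mul_I _
  -- bounds on `K`
  obtain ⟨Z, hZ0, hZ⟩ := rv2_bound K hK ζ hζ.continuous.continuousOn
  have hdc : ∀ j, ContinuousOn (dd j L) K := fun j => (rv2_dd_cont hL.cont hL.c1 j).mono hKG
  obtain ⟨M0, hM00, hM0⟩ := rv2_bound K hK (dd 0 L) (hdc 0)
  obtain ⟨M1, hM10, hM1⟩ := rv2_bound K hK (dd 1 L) (hdc 1)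
  have hA : ∀ y ∈ K ∩ unitCell 2, 4 / (4 + M0 ^ 2 + M1 ^ 2) ≤ rv2A L y := by
    intro y hy
    rw [rv2_A]
    have h0 : dd 0 L y ^ 2 ≤ M0 ^ 2 := by
      rw [← sq_abs]; exact pow_le_pow_left₀ (abs_nonneg _) (hM0 y hy) 2
    have h1 : dd 1 L y ^ 2 ≤ M1 ^ 2 := by
      rw [← sq_abs]; exact pow_le_pow_left₀ (abs_nonneg _) (hM1 y hy) 2
    exact div_le_div_of_nonneg_left (by norm_num) (by positivity) (by linarith)
  have hA1 : ∀ y, rv2A L y ≤ 1 := by
    intro y
    unfold rv2A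
    nlinarith [sq_nonneg (ph0 L 0 y), sq_nonneg (ph0 L 1 y)]
  obtain ⟨C, s₀, hs₀, hC0, hC⟩ := sqrt_taylor (4 / (4 + M0 ^ 2 + M1 ^ 2)) (by positivity)
  set R : E2 → ℝ := fun y => (κ * (((Real.cos (Real.pi * L y) : ℝ) : ℂ) * UU k F L y)).re with hR
  set S : Set E2 := K ∩ unitCell 2 with hS
  have hSm : MeasurableSet S := hK.measurableSet.inter (measurableSet_unitCell 2)
  have hSv : volume S ≤ 1 := by
    rw [← volume_unitCell 2]
    exact measure_mono inter_subset_right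
  have hSf : volume S ≠ ⊤ := (hSv.trans_lt ENNReal.one_lt_top).ne
  have hY : ∫ y in unitCell 2, ζ y * (dd i L y * R y) = ∫ y in S, ζ y * (dd i L y * R y) := by
    refine setIntegral_eq_of_subset_of_forall_sdiff_eq_zero (measurableSet_unitCell 2)
      inter_subset_right ?_
    intro y hy
    have : y ∉ K := fun h => hy.2 ⟨h, hy.1⟩
    rw [hζK y this, zero_mul]
  -- a.e. facts on `S`
  have hUS : ∀ᵐ y ∂(volume.restrict S), y ∈ S ∧ ‖UU k F L y‖ = 1 := by
    rw [ae_restrict_iff' hSm]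
    filter_upwards [hU1] with y hy hyS
    exact ⟨hyS, hy (hKG hyS.1)⟩
  have hRm : Measurable R := rv2_R_meas κ (UU k F L) hU L hLm
  have hR1 : ∀ y, ‖UU k F L y‖ = 1 → |R y| ≤ 1 := by
    intro y hy
    have h1 := rv2_sum κ (UU k F L y) (L y)
    have h2 := rv2_psm κ (UU k F L y) (L y) hκ hy
    have h3 := rv2_psp κ (UU k F L y) (L y) hκ hy
    have h4 : 2 * R y = psm κ (UU k F L y) (L y) + psp κ (UU k F L y) (L y) := h1.symm
    rw [abs_le] at h2 h3 ⊢
    constructor <;> linarith [h2.1, h2.2, h3.1, h3.2]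
  have hdb : ∃ M, 0 ≤ M ∧ ∀ y ∈ S, |dd i L y| ≤ M := rv2_bound K hK (dd i L) (hdc i)
  obtain ⟨M, hM0', hM⟩ := hdb
  have hgm : Measurable (fun y => ζ y * (dd i L y * R y)) :=
    hζ.continuous.measurable.mul ((rv2_dd_meas L i).mul hRm)
  have hgi : IntegrableOn (fun y => ζ y * (dd i L y * R y)) S := by
    refine Measure.integrableOn_of_bounded (M := Z * (M * 1)) hSf hgm.aestronglyMeasurable ?_
    filter_upwards [hUS] with y hy
    rw [Real.norm_eq_abs, abs_mul, abs_mul]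
    exact mul_le_mul (hZ y hy.1) (mul_le_mul (hM y hy.1) (hR1 y hy.2) (abs_nonneg _) hM0')
      (mul_nonneg (abs_nonneg _) (abs_nonneg _)) hZ0
  rw [hY]
  refine rv2_eq _ _ (2 * C * Z ^ 2) (min ε₀ (s₀ / (Z + 1))) (lt_min hε₀ (by positivity)) ?_
  intro ε hε
  have hε1 : |ε| ≤ ε₀ := hε.trans (min_le_left _ _)
  have hε2 : |ε| * Z ≤ s₀ := by
    have h1 : |ε| ≤ s₀ / (Z + 1) := hε.trans (min_le_right _ _)
    rw [le_div_iff₀ (by positivity)] at h1
    nlinarith [abs_nonneg ε]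
  have h1 := hineq ε hε1
  refine le_trans (add_le_add (le_refl _) ?_) h1
  have hpm := rv2_psm_meas κ (UU k F L) hU L hLm
  have hpp := rv2_psp_meas κ (UU k F L) hU L hLm
  have hwm : Measurable (fun y => wv L i (ε * ζ y * psm κ (UU k F L y) (L y)) y +
      wv L i (ε * ζ y * psp κ (UU k F L y) (L y)) y - 2 * wv L i 0 y) :=
    ((rv2_wv_meas L i _ ((measurable_const.mul hζ.continuous.measurable).mul hpm)).add
      (rv2_wv_meas L i _ ((measurable_const.mul hζ.continuous.measurable).mul hpp))).sub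
        (measurable_const.mul (rv2_wv_meas L i (fun _ => 0) measurable_const))
  have hwi : IntegrableOn (fun y => wv L i (ε * ζ y * psm κ (UU k F L y) (L y)) y +
      wv L i (ε * ζ y * psp κ (UU k F L y) (L y)) y - 2 * wv L i 0 y) S := by
    refine Measure.integrableOn_of_bounded (M := 4) hSf hwm.aestronglyMeasurable ?_
    refine Eventually.of_forall fun y => ?_
    rw [Real.norm_eq_abs]
    have e1 := rv2_wv_le L i (ε * ζ y * psm κ (UU k F L y) (L y)) y
    have e2 := rv2_wv_le L i (ε * ζ y * psp κ (UU k F L y) (L y)) y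
    have e3 := rv2_wv_le L i 0 y
    rw [abs_le] at e1 e2 e3 ⊢
    constructor <;> linarith [e1.1, e1.2, e2.1, e2.2, e3.1, e3.2]
  have hci : IntegrableOn (fun _ : E2 => 2 * C * Z ^ 2 * ε ^ 2) S :=
    integrableOn_const (hs := hSf)
  have h2 : ∫ y in S, (ε * (ζ y * (dd i L y * R y)) - 2 * C * Z ^ 2 * ε ^ 2) ≤
      ∫ y in S, (wv L i (ε * ζ y * psm κ (UU k F L y) (L y)) y +
        wv L i (ε * ζ y * psp κ (UU k F L y) (L y)) y - 2 * wv L i 0 y) := by
    refine integral_mono_ae ((hgi.const_mul ε).sub hci) hwi ?_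
    filter_upwards [hUS] with y hy
    have b1 := rv2_psm κ (UU k F L y) (L y) hκ hy.2
    have b2 := rv2_psp κ (UU k F L y) (L y) hκ hy.2
    have hsum := rv2_sum κ (UU k F L y) (L y)
    have hRy : 2 * R y = psm κ (UU k F L y) (L y) + psp κ (UU k F L y) (L y) := hsum.symm
    have hs1 : |ε * ζ y * psm κ (UU k F L y) (L y)| ≤ |ε| * Z := by
      rw [abs_mul, abs_mul]
      have := mul_le_mul (mul_le_mul_of_nonneg_left (hZ y hy.1) (abs_nonneg ε)) b1 (abs_nonneg _)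
        (mul_nonneg (abs_nonneg ε) hZ0)
      linarith
    have hs2 : |ε * ζ y * psp κ (UU k F L y) (L y)| ≤ |ε| * Z := by
      rw [abs_mul, abs_mul]
      have := mul_le_mul (mul_le_mul_of_nonneg_left (hZ y hy.1) (abs_nonneg ε)) b2 (abs_nonneg _)
        (mul_nonneg (abs_nonneg ε) hZ0)
      linarith
    have t1 := hC (rv2A L y) (ph0 L i y) _ (hA y hy.1) (hA1 y) (rv2_ph0_abs L i y) (hs1.trans hε2)
    have t2 := hC (rv2A L y) (ph0 L i y) _ (hA y hy.1) (hA1 y) (rv2_ph0_abs L i y) (hs2.trans hε2)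
    have q1 : (ε * ζ y * psm κ (UU k F L y) (L y)) ^ 2 ≤ Z ^ 2 * ε ^ 2 := by
      rw [← sq_abs]
      refine (pow_le_pow_left₀ (abs_nonneg _) hs1 2).trans ?_
      rw [mul_pow, sq_abs]
      linarith
    have q2 : (ε * ζ y * psp κ (UU k F L y) (L y)) ^ 2 ≤ Z ^ 2 * ε ^ 2 := by
      rw [← sq_abs]
      refine (pow_le_pow_left₀ (abs_nonneg _) hs2 2).trans ?_
      rw [mul_pow, sq_abs]
      linarith
    rw [mul_div_assoc, rv2_ph0_div] at t1 t2
    show ε * (ζ y * (dd i L y * R y)) - 2 * C * Z ^ 2 * ε ^ 2 ≤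
      wv L i (ε * ζ y * psm κ (UU k F L y) (L y)) y +
        wv L i (ε * ζ y * psp κ (UU k F L y) (L y)) y - 2 * wv L i 0 y
    rw [rv2_wv, rv2_wv, rv2_wv]
    have e0 : rv2A L y - 2 * ph0 L i y * 0 - 0 ^ 2 = rv2A L y := by ring
    rw [e0]
    have c1 := mul_le_mul_of_nonneg_left q1 hC0
    have c2 := mul_le_mul_of_nonneg_left q2 hC0
    have e1 : ε * (ζ y * (dd i L y * R y)) =
        (ε * ζ y * psm κ (UU k F L y) (L y)) * (dd i L y / 2) +
        (ε * ζ y * psp κ (UU k F L y) (L y)) * (dd i L y / 2) := by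
      linear_combination (ε * ζ y * dd i L y / 2) * hRy
    rw [e1]
    linarith
  refine le_trans ?_ h2
  rw [integral_sub (hgi.const_mul ε) hci, integral_const_mul, setIntegral_const, smul_eq_mul]
  have h3 : volume.real S ≤ 1 := by
    unfold Measure.real
    exact ENNReal.toReal_le_of_le_ofReal zero_le_one (by simpa using hSv)
  have h4 : 0 ≤ 2 * C * Z ^ 2 * ε ^ 2 := by positivity
  nlinarith

end
end Crest.Agent.T3
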