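import Crest.Agent.T3.RigAll
import Crest.Agent.T3.RigU
import Crest.Agent.T3.RigLw
/-! Row 214, rigidity (7a): definitions for the first variation (shared by RigVar1, RigVar2a, RigVar). -/
set_option autoImplicit false
open MeasureTheory Set Filter Topology
open Crest.GeometryTopology.PeriodicPerimeter
namespace Crest.Agent.T3
noncomputable section

/-- values of the trigonometric function at the end points -/
def psm (κ U : ℂ) (l : ℝ) : ℝ := (κ * U * Complex.exp (-(Real.pi * l * Complex.I))).re
def psp (κ U : ℂ) (l : ℝ) : ℝ := (κ * U * Complex.exp (Real.pi * l * Complex.I)).re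

/-- `√(1 - |p + s e_i|²)` -/
def wv (L : E2 → ℝ) (i : Fin 2) (s : ℝ) (y : E2) : ℝ :=
  Real.sqrt (1 - (ph0 L 0 y + if i = 0 then s else 0) ^ 2 - (ph0 L 1 y + if i = 1 then s else 0) ^ 2)

end
end Crest.Agent.T3
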