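import Crest.Agent.T3.RigVar
import Crest.Agent.T3.Ibp
/-! Row 214, rigidity (7a), chunk RIG-WK: the weak gradient of `U` vanishes. -/
set_option autoImplicit false
open MeasureTheory Set Filter Topology
open Crest.GeometryTopology.PeriodicPerimeter
namespace Crest.Agent.T3
noncomputable section

private theorem rigwk_re (κ U : ℂ) (r : ℝ) : (κ * ((r : ℂ) * U)).re = r * (κ * U).re := by
  rw [show κ * ((r : ℂ) * U) = (r : ℂ) * (κ * U) by ring, Complex.re_ofReal_mul]

/-- integrability of a continuous function vanishing off `GG L` times the real part of `κ U` -/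
private theorem rigwk_int (k : Fin 3) {L : E2 → ℝ} {c : ℝ} (hL : Prof L c) (F : Set E3)
    (hF : MeasurableSet F) (hFp : IsLatticePeriodic F) (hll : ∀ᵐ y : E2, ll k F y = L y)
    (f : ℕ → E3 → ℝ) (hf : Approx F c f) (κ : ℂ) (hκ : ‖κ‖ ≤ 1) (g : E2 → ℝ) (hg : Continuous g)
    (h0 : ∀ y, y ∉ GG L → g y = 0) :
    IntegrableOn (fun y => g y * (κ * UU k F L y).re) (unitCell 2) := by
  have hi := cont_integrableOn_cell g hg
  have hm : Measurable (fun y => (κ * UU k F L y).re) :=
    Complex.measurable_re.comp ((UU_meas k F hF L hL.cont).const_mul κ)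
  refine Integrable.mono hi ((hg.measurable.mul hm).aestronglyMeasurable) ?_
  refine ae_restrict_of_ae ?_
  filter_upwards [all_arc k hL F hF hFp hll f hf] with y hy
  by_cases hyG : y ∈ GG L
  · obtain ⟨m, hm'⟩ := hy hyG
    have hU : ‖UU k F L y‖ = 1 := by
      rw [UU_eq k F L y hyG m hm']
      have : (2 * Real.pi * m * Complex.I : ℂ) = ((2 * Real.pi * m : ℝ) : ℂ) * Complex.I := by
        push_cast; ring
      rw [this, Complex.norm_exp_ofReal_mul_I]
    have h1 : |(κ * UU k F L y).re| ≤ 1 := by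
      refine (Complex.abs_re_le_norm _).trans ?_
      rw [norm_mul, hU, mul_one]
      exact hκ
    rw [norm_mul, Real.norm_eq_abs ((κ * UU k F L y).re)]
    exact mul_le_of_le_one_right (norm_nonneg _) h1
  · simp [h0 y hyG]

/-- CHUNK RIG-WK. PROOF. `first_var` with the test function `ζ / sin(πL)` (equal to `0` off `K`; `C¹` because on the open set
`GG L` it is a quotient of `C¹` functions and it vanishes on the open set `Kᶜ`, `K ⊆ GG L`):
`∂_i(ζ/sin πL) sin πL = ∂_iζ - ζ π cos(πL) ∂_iL / sin(πL)`. -/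
theorem weak_const (k : Fin 3) {L : E2 → ℝ} {c : ℝ} (hL : Prof L c) (F : Set E3)
    (hF : MeasurableSet F) (hFp : IsLatticePeriodic F) (hll : ∀ᵐ y : E2, ll k F y = L y)
    (f : ℕ → E3 → ℝ) (hf : Approx F c f) (K : Set E2) (hK : IsClosed K)
    (hKp : ∀ v, HasIntegerCoords v → ∀ x, x + v ∈ K ↔ x ∈ K) (hKG : K ⊆ GG L)
    (i : Fin 2) (ζ : E2 → ℝ) (hζ : ContDiff ℝ 1 ζ) (hζp : Per ζ) (hζK : ∀ y, y ∉ K → ζ y = 0)
    (κ : ℂ) (hκ : ‖κ‖ ≤ 1) :
    ∫ y in unitCell 2, dd i ζ y * (κ * UU k F L y).re = 0 := by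
  have hGo : IsOpen (GG L) := (isOpen_lt continuous_const hL.cont).inter
    (isOpen_lt hL.cont continuous_const)
  have hsin : ∀ y ∈ GG L, 0 < Real.sin (Real.pi * L y) := by
    intro y hy
    apply Real.sin_pos_of_pos_of_lt_pi
    · exact mul_pos Real.pi_pos hy.1
    · have := mul_lt_mul_of_pos_left hy.2 Real.pi_pos
      simpa using this
  set Z : E2 → ℝ := fun y => ζ y / Real.sin (Real.pi * L y) with hZ
  have hLd : ∀ y ∈ GG L, ContDiffAt ℝ 1 L y := fun y hy => hL.c1.contDiffAt (hGo.mem_nhds hy)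
  have hoff : ∀ y, y ∉ GG L → ζ =ᶠ[𝓝 y] fun _ => (0 : ℝ) := by
    intro y hy
    have hyK : y ∈ Kᶜ := fun h => hy (hKG h)
    filter_upwards [hK.isOpen_compl.mem_nhds hyK] with z hz
    exact hζK z hz
  have hZoff : ∀ y, y ∉ GG L → Z =ᶠ[𝓝 y] fun _ => (0 : ℝ) := by
    intro y hy
    filter_upwards [hoff y hy] with z hz
    simp [hZ, hz]
  have hZc : ContDiff ℝ 1 Z := by
    rw [contDiff_iff_contDiffAt]
    intro y
    by_cases hy : y ∈ GG L
    · exact (hζ.contDiffAt).div
        ((Real.contDiff_sin.contDiffAt).comp y (contDiffAt_const.mul (hLd y hy))) (hsin y hy).ne'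
    · exact contDiffAt_const.congr_of_eventuallyEq (hZoff y hy)
  have hZp : Per Z := by
    intro v hv x
    simp only [hZ]
    rw [hζp v hv x, hL.per v hv x]
  have hZK : ∀ y, y ∉ K → Z y = 0 := by
    intro y hy
    simp [hZ, hζK y hy]
  -- the derivative
  have hdd : ∀ y ∈ GG L, dd i Z y * (Real.sin (Real.pi * L y) / Real.pi) =
      (1 / Real.pi) * dd i ζ y - Z y * (dd i L y * Real.cos (Real.pi * L y)) := by
    intro y hy
    have hs := hsin y hy
    have h1 : HasFDerivAt ζ (fderiv ℝ ζ y) y := (hζ.differentiable one_ne_zero y).hasFDerivAt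
    have h2 : HasFDerivAt L (fderiv ℝ L y) y := ((hLd y hy).differentiableAt one_ne_zero).hasFDerivAt
    have h3 : HasFDerivAt (fun y => Real.sin (Real.pi * L y))
        (Real.cos (Real.pi * L y) • (Real.pi • fderiv ℝ L y)) y := (h2.const_mul Real.pi).sin
    have h4 := h1.mul ((hasDerivAt_inv hs.ne').comp_hasFDerivAt y h3)
    have h5 : dd i Z y = ζ y * (-(Real.sin (Real.pi * L y) ^ 2)⁻¹ *
        (Real.cos (Real.pi * L y) * (Real.pi * dd i L y))) +
        (Real.sin (Real.pi * L y))⁻¹ * dd i ζ y := by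
      unfold dd
      have h6 : fderiv ℝ Z y = _ := h4.fderiv
      rw [h6]
      simp
    rw [h5]
    simp only [hZ]
    have hpi := Real.pi_ne_zero
    field_simp
    ring
  have hdd0 : ∀ y, y ∉ GG L → dd i Z y = 0 := by
    intro y hy
    unfold dd
    rw [(hZoff y hy).fderiv_eq]
    simp
  have hdz0 : ∀ y, y ∉ GG L → dd i ζ y = 0 := by
    intro y hy
    unfold dd
    rw [(hoff y hy).fderiv_eq]
    simp
  have hz0 : ∀ y, y ∉ GG L → Z y = 0 := fun y hy => hZK y (fun h => hy (hKG h))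
  have hpt : ∀ y, dd i Z y * (κ * (((Real.sin (Real.pi * L y) / Real.pi : ℝ) : ℂ) * UU k F L y)).re =
      (1 / Real.pi) * (dd i ζ y * (κ * UU k F L y).re) -
        Z y * (dd i L y * (κ * (((Real.cos (Real.pi * L y) : ℝ) : ℂ) * UU k F L y)).re) := by
    intro y
    rw [rigwk_re, rigwk_re]
    by_cases hy : y ∈ GG L
    · linear_combination (κ * UU k F L y).re * hdd y hy
    · rw [hdd0 y hy, hdz0 y hy, hz0 y hy]
      ring
  have hcd : ∀ {η : E2 → ℝ}, ContDiff ℝ 1 η → Continuous (dd i η) := by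
    intro η hη
    exact (hη.continuous_fderiv one_ne_zero).clm_apply continuous_const
  have iA : IntegrableOn (fun y => dd i ζ y * (κ * UU k F L y).re) (unitCell 2) :=
    rigwk_int k hL F hF hFp hll f hf κ hκ (dd i ζ) (hcd hζ) hdz0
  have iA' : IntegrableOn (fun y => (dd i Z y * (Real.sin (Real.pi * L y) / Real.pi)) *
      (κ * UU k F L y).re) (unitCell 2) := by
    refine rigwk_int k hL F hF hFp hll f hf κ hκ _ ?_ ?_
    · exact (hcd hZc).mul ((Real.continuous_sin.comp (continuous_const.mul hL.cont)).div_const _)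
    · intro y hy
      rw [hdd0 y hy, zero_mul]
  have iB : IntegrableOn (fun y => Z y * (dd i L y *
      (κ * (((Real.cos (Real.pi * L y) : ℝ) : ℂ) * UU k F L y)).re)) (unitCell 2) := by
    refine ((iA.const_mul (1 / Real.pi)).sub iA').congr ?_
    refine Eventually.of_forall fun y => ?_
    have := hpt y
    rw [rigwk_re κ (UU k F L y) (Real.sin (Real.pi * L y) / Real.pi)] at this
    simp only [Pi.sub_apply]
    linarith
  have hfv := first_var k hL F hF hFp hll f hf K hK hKp hKG i Z hZc hZp hZK κ hκ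
  simp only [hpt] at hfv
  rw [integral_sub (iA.const_mul _) iB, integral_const_mul] at hfv
  have h7 : 1 / Real.pi * ∫ y in unitCell 2, dd i ζ y * (κ * UU k F L y).re = 0 := by linarith
  rcases mul_eq_zero.1 h7 with h | h
  · exact absurd h (by positivity)
  · exact h

end
end Crest.Agent.T3
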