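import Crest.Agent.T3.SliceCor
import Crest.Agent.T3.SliceLim

/-! Row 214, chunk T3-C3: slicing with calibrations depending on the position. -/

set_option autoImplicit false
open MeasureTheory Set Filter Topology
open Crest.GeometryTopology.PeriodicPerimeter

namespace Crest.Agent.T3

/-- **C3.** `b = b(u)` of class `C¹`, `a = a(u)` continuous, `a ≥ 0`, `a² + b² ≤ 1` near `[u0,u1]`.
Proof: `slice_one` with `a(u,σ) = a(u)`, `B(u,σ) = b(u) σ` at `u0' ↓ u0`, `u1' ↓ u1` in `G`
(`u0' > u0`, `u1' > u1`), right-continuity of `sv` (`sv_right`). -/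
theorem slice_C3 {n : ℕ} (D : Set (Fin (n + 1) → ℝ)) (hD : IsLowerSet D) (hO : IsOpen D)
    (k : Fin (n + 1)) (g : ℝ → ℝ) (M : ℝ) (hgm : Measurable g) (hg : ∀ u, g u ∈ Icc 0 M)
    (hgq : ∀ u ∈ Ioo (0 : ℝ) 1, QL (sl k u D) (g u)) (u0 u1 δ : ℝ) (h0 : 0 ≤ u0) (h01 : u0 < u1)
    (h1 : u1 < 1) (hδ : 0 < δ) (a b : ℝ → ℝ) (ha : Continuous a) (hb : ContDiff ℝ 1 b)
    (hab : ∀ u ∈ Icc u0 (u1 + δ), 0 ≤ a u ∧ (a u) ^ 2 + (b u) ^ 2 ≤ 1) :
    QL D ((∫ u in u0..u1, (a u * g u + deriv b u * sv D k u)) +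
      b u0 * sv D k u0 - b u1 * sv D k u1) := by
  obtain ⟨G, hG, hmain⟩ := slice_one D hD hO k
  obtain ⟨x, hx, hxt⟩ := seq_right hG h01
  obtain ⟨y, hy, hyt⟩ := seq_right hG (show u1 < min 1 (u1 + δ) from lt_min h1 (by linarith))
  have hSm := sv_measurable D hD k
  have hS0 : Tendsto (fun j => sv D k (x j)) atTop (𝓝 (sv D k u0)) :=
    (sv_right D hD hO k u0).comp hxt
  have hS1 : Tendsto (fun j => sv D k (y j)) atTop (𝓝 (sv D k u1)) :=
    (sv_right D hD hO k u1).comp hyt
  have hxt' : Tendsto x atTop (𝓝 u0) := hxt.mono_right nhdsWithin_le_nhds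
  have hyt' : Tendsto y atTop (𝓝 u1) := hyt.mono_right nhdsWithin_le_nhds
  have hbc : Continuous b := hb.continuous
  have hb' : Continuous (deriv b) := hb.continuous_deriv le_rfl
  have key : ∀ j, QL D ((∫ u in (x j)..(y j), (a u * g u + deriv b u * sv D k u)) +
      b (x j) * sv D k (x j) - b (y j) * sv D k (y j)) := by
    intro j
    have hc : CalOn (fun u _ => a u) (fun u σ => b u * σ) (x j) (y j) := by
      refine ⟨ha.comp continuous_fst, (hb.comp contDiff_fst).mul contDiff_snd, fun u hu σ _ => ?_⟩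
      have h2 : deriv (fun τ : ℝ => b u * τ) σ = b u := by
        rw [deriv_const_mul_field, deriv_id'', mul_one]
      simp only
      rw [h2]
      exact hab u ⟨(hx j).2.1.le.trans hu.1.le,
        hu.2.le.trans ((hy j).2.2.le.trans (min_le_right _ _))⟩
    have := hmain g M hgm hg hgq (x j) (hx j).1 (y j) (hy j).1 (h0.trans_lt (hx j).2.1)
      ((hx j).2.2.trans (hy j).2.1) ((hy j).2.2.trans_le (min_le_left _ _)) _ _ hc
    unfold calVal at this
    have h3 : ∀ u, deriv (fun τ => b τ * sv D k u) u = deriv b u * sv D k u := fun u => by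
      rw [deriv_mul_const_field]
    simp only [h3] at this
    exact this
  refine QL_closed key ?_
  refine Tendsto.sub (Tendsto.add ?_ ?_) ?_
  · refine tendsto_interval (fun c d => ?_) hxt' hyt'
    refine IntervalIntegrable.add ?_ ?_
    · refine IntervalIntegrable.continuousOn_mul ?_ ha.continuousOn
      refine ii_of_bdd (M := M) hgm (fun u => ?_) c d
      rw [abs_of_nonneg (hg u).1]; exact (hg u).2
    · refine IntervalIntegrable.continuousOn_mul ?_ hb'.continuousOn
      refine ii_of_bdd (M := 1) hSm (fun u => ?_) c d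
      rw [abs_of_nonneg (sv_mem D k u).1]; exact (sv_mem D k u).2
  · exact ((hbc.tendsto u0).comp hxt').mul hS0
  · exact ((hbc.tendsto u1).comp hyt').mul hS1

end Crest.Agent.T3
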