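import Crest.Agent.T3.SliceUnf
import Crest.Agent.T3.Sv

/-! Row 214, chunk T3-SLICECOR: consequences of `slice_two_ex`. -/

set_option autoImplicit false
open MeasureTheory Set Filter Topology
open Crest.GeometryTopology.PeriodicPerimeter

namespace Crest.Agent.T3

private theorem sc_partial (B : ℝ → ℝ → ℝ) (hB : ContDiff ℝ 1 (fun p : ℝ × ℝ => B p.1 p.2))
    (u σ : ℝ) :
    deriv (fun τ => B τ σ) u = fderiv ℝ (fun p : ℝ × ℝ => B p.1 p.2) (u, σ) (1, 0) := by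
  have h1 : HasFDerivAt (fun p : ℝ × ℝ => B p.1 p.2)
      (fderiv ℝ (fun p : ℝ × ℝ => B p.1 p.2) (u, σ)) (u, σ) :=
    ((hB.differentiable one_ne_zero) (u, σ)).hasFDerivAt
  have h2 : HasDerivAt (fun τ : ℝ => (τ, σ)) ((1 : ℝ), (0 : ℝ)) u :=
    (hasDerivAt_id u).prodMk (hasDerivAt_const u σ)
  exact (h1.comp_hasDerivAt u h2).deriv

private theorem sc_bdd (Φ : ℝ × ℝ → ℝ) (hΦ : Continuous Φ) (S : ℝ → ℝ)
    (hS1 : ∀ u, S u ∈ Icc (0 : ℝ) 1) (u0 u1 : ℝ) :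
    ∃ K : ℝ, ∀ u ∈ Icc u0 u1, ‖Φ (u, S u)‖ ≤ K := by
  obtain ⟨K, hK⟩ := (isCompact_Icc.prod isCompact_Icc).exists_bound_of_continuousOn
    (s := Icc u0 u1 ×ˢ Icc (0 : ℝ) 1) hΦ.continuousOn
  exact ⟨K, fun u hu => hK (u, S u) ⟨hu, hS1 u⟩⟩

private theorem sc_meas (Φ : ℝ × ℝ → ℝ) (hΦ : Continuous Φ) (S : ℝ → ℝ) (hS : Measurable S) :
    Measurable (fun u => Φ (u, S u)) :=
  hΦ.measurable.comp (measurable_id.prodMk hS)

private theorem sc_int1 (Φ : ℝ × ℝ → ℝ) (hΦ : Continuous Φ) (S : ℝ → ℝ) (hS : Measurable S)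
    (hS1 : ∀ u, S u ∈ Icc (0 : ℝ) 1) (g : ℝ → ℝ) (u0 u1 : ℝ) (hg : IntegrableOn g (Ioo u0 u1)) :
    IntegrableOn (fun u => Φ (u, S u) * g u) (Ioo u0 u1) := by
  obtain ⟨K, hK⟩ := sc_bdd Φ hΦ S hS1 u0 u1
  refine Integrable.bdd_mul (c := K) hg (sc_meas Φ hΦ S hS).aestronglyMeasurable ?_
  exact (ae_restrict_mem measurableSet_Ioo).mono (fun u hu => hK u ⟨hu.1.le, hu.2.le⟩)

private theorem sc_int2 (Φ : ℝ × ℝ → ℝ) (hΦ : Continuous Φ) (S : ℝ → ℝ) (hS : Measurable S)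
    (hS1 : ∀ u, S u ∈ Icc (0 : ℝ) 1) (u0 u1 : ℝ) :
    IntegrableOn (fun u => Φ (u, S u)) (Ioo u0 u1) := by
  have := sc_int1 Φ hΦ S hS hS1 (fun _ => 1) u0 u1
    (integrableOn_const (by simp) (by simp))
  simpa using this

private theorem sc_mono (S : ℝ → ℝ) (hS : Measurable S) (hS1 : ∀ u, S u ∈ Icc (0 : ℝ) 1)
    (g g' : ℝ → ℝ) (a B : ℝ → ℝ → ℝ) (u0 u1 : ℝ) (hu : u0 < u1)
    (hg : IntegrableOn g (Ioo u0 u1)) (hg' : IntegrableOn g' (Ioo u0 u1))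
    (hle : ∀ᵐ u, u ∈ Ioo u0 u1 → g u ≤ g' u) (hc : CalOn a B u0 u1) :
    calVal S g a B u0 u1 ≤ calVal S g' a B u0 u1 := by
  have hΦ : Continuous (fun p : ℝ × ℝ => fderiv ℝ (fun p : ℝ × ℝ => B p.1 p.2) p (1, 0)) :=
    (hc.2.1.continuous_fderiv one_ne_zero).clm_apply continuous_const
  have h2 : IntegrableOn (fun u => deriv (fun τ => B τ (S u)) u) (Ioo u0 u1) := by
    have := sc_int2 _ hΦ S hS hS1 u0 u1
    refine this.congr (Eventually.of_forall fun u => ?_)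
    exact (sc_partial B hc.2.1 u (S u)).symm
  have h3 : IntegrableOn (fun u => a u (S u) * g u) (Ioo u0 u1) :=
    sc_int1 (fun p : ℝ × ℝ => a p.1 p.2) hc.1 S hS hS1 g u0 u1 hg
  have h4 : IntegrableOn (fun u => a u (S u) * g' u) (Ioo u0 u1) :=
    sc_int1 (fun p : ℝ × ℝ => a p.1 p.2) hc.1 S hS hS1 g' u0 u1 hg'
  have key : (∫ u in u0..u1, (a u (S u) * g u + deriv (fun τ => B τ (S u)) u)) ≤
      ∫ u in u0..u1, (a u (S u) * g' u + deriv (fun τ => B τ (S u)) u) := by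
    rw [intervalIntegral.integral_of_le hu.le, intervalIntegral.integral_of_le hu.le,
      integral_Ioc_eq_integral_Ioo, integral_Ioc_eq_integral_Ioo]
    refine integral_mono_ae (h3.add h2) (h4.add h2) ?_
    rw [EventuallyLE, ae_restrict_iff' measurableSet_Ioo]
    filter_upwards [hle] with u h hu'
    have h5 := (hc.2.2 u hu' (S u) (hS1 u)).1
    have h6 := mul_le_mul_of_nonneg_left (h hu') h5
    linarith
  unfold calVal
  linarith

/-- Slicing with explicit lower bounds `g` of the slice perimeters (`P(unf D) = ⊤` trivial, otherwise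
`slice_two_ex` with `2Q = P.toReal`; `g ≤ g'` a.e. on `(0,1)` and `a ≥ 0` give
`calVal S g ≤ calVal S g'`; `u ↦ a u (S u)` is bounded and measurable on `(u0,u1)` because `S` is
antitone with values in `[0,1]`). -/
theorem slice_two {n : ℕ} (D : Set (Fin (n + 1) → ℝ)) (hD : IsLowerSet D) (hO : IsOpen D)
    (k : Fin (n + 1)) :
    ∃ G : Set ℝ, (∀ᵐ u, u ∈ G) ∧
      ∀ (g : ℝ → ℝ) (M : ℝ), Measurable g → (∀ u, g u ∈ Icc 0 M) →
        (∀ u ∈ Ioo (0 : ℝ) 1, QL (sl k u D) (g u)) →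
        ∀ u0 ∈ G, ∀ u1 ∈ G, ∀ u2 ∈ G, 0 < u0 → u0 < u1 → u1 < u2 → u2 < 1 →
          ∀ a1 B1 a2 B2 : ℝ → ℝ → ℝ, CalOn a1 B1 u0 u1 → CalOn a2 B2 u1 u2 →
            QL D (calVal (sv D k) g a1 B1 u0 u1 + calVal (sv D k) g a2 B2 u1 u2) := by
  by_cases hP : periodicPerimeter (unf D) = ⊤
  · refine ⟨univ, Eventually.of_forall fun _ => mem_univ _, ?_⟩
    intro g M _ _ _ u0 _ u1 _ u2 _ _ _ _ _ a1 B1 a2 B2 _ _
    unfold QL
    rw [hP]
    exact le_top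
  · have hQ0 : 0 ≤ (periodicPerimeter (unf D)).toReal / 2 := by positivity
    have hQe : ENNReal.ofReal (2 * ((periodicPerimeter (unf D)).toReal / 2)) =
        periodicPerimeter (unf D) := by
      rw [mul_div_cancel₀ _ (two_ne_zero), ENNReal.ofReal_toReal hP]
    obtain ⟨g', ⟨hg'm, hg'0, hg'i, hg'l⟩, G, hG, h⟩ :=
      slice_two_ex D hD hO k _ hQ0 hQe.ge
    refine ⟨G, hG, ?_⟩
    intro g M hgm hgb hgl u0 hu0 u1 hu1 u2 hu2 h0 h01 h12 h21 a1 B1 a2 B2 c1 c2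
    have hSm : Measurable (sv D k) := (sv_anti D hD k).measurable
    have hS1 : ∀ u, sv D k u ∈ Icc (0 : ℝ) 1 := sv_mem D k
    have hle : ∀ᵐ u, u ∈ Ioo (0 : ℝ) 1 → g u ≤ g' u := by
      filter_upwards [hg'l] with u hu hu'
      exact hu hu' _ (hgl u hu')
    have hgi : IntegrableOn g (Ioo 0 1) := by
      refine Measure.integrableOn_of_bounded (M := M) (by simp) hgm.aestronglyMeasurable ?_
      refine Eventually.of_forall fun u => ?_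
      rw [Real.norm_eq_abs, abs_of_nonneg (hgb u).1]
      exact (hgb u).2
    have s1 : Ioo u0 u1 ⊆ Ioo (0 : ℝ) 1 := fun u hu => ⟨by linarith [hu.1], by linarith [hu.2]⟩
    have s2 : Ioo u1 u2 ⊆ Ioo (0 : ℝ) 1 := fun u hu => ⟨by linarith [hu.1], by linarith [hu.2]⟩
    have e1 := sc_mono (sv D k) hSm hS1 g g' a1 B1 u0 u1 h01 (hgi.mono_set s1) (hg'i.mono_set s1)
      (hle.mono fun u h hu => h (s1 hu)) c1
    have e2 := sc_mono (sv D k) hSm hS1 g g' a2 B2 u1 u2 h12 (hgi.mono_set s2) (hg'i.mono_set s2)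
      (hle.mono fun u h hu => h (s2 hu)) c2
    have e3 := h u0 hu0 u1 hu1 u2 hu2 h0 h01 h12 h21 a1 B1 a2 B2 c1 c2
    unfold QL
    rw [← hQe]
    apply ENNReal.ofReal_le_ofReal
    linarith

/-- One piece (take the second calibration zero). -/
theorem slice_one {n : ℕ} (D : Set (Fin (n + 1) → ℝ)) (hD : IsLowerSet D) (hO : IsOpen D)
    (k : Fin (n + 1)) :
    ∃ G : Set ℝ, (∀ᵐ u, u ∈ G) ∧
      ∀ (g : ℝ → ℝ) (M : ℝ), Measurable g → (∀ u, g u ∈ Icc 0 M) →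
        (∀ u ∈ Ioo (0 : ℝ) 1, QL (sl k u D) (g u)) →
        ∀ u0 ∈ G, ∀ u1 ∈ G, 0 < u0 → u0 < u1 → u1 < 1 →
          ∀ a B : ℝ → ℝ → ℝ, CalOn a B u0 u1 → QL D (calVal (sv D k) g a B u0 u1) := by
  obtain ⟨G, hG, h⟩ := slice_two D hD hO k
  refine ⟨G, hG, ?_⟩
  intro g M hgm hgb hgl u0 hu0 u1 hu1 h0 h01 h11 a B c
  obtain ⟨u2, hu2, h2⟩ : ∃ u2, u2 ∈ Ioo u1 1 ∧ u2 ∈ G := by
    by_contra hcon
    push Not at hcon
    have h3 : volume (Ioo u1 1) ≤ volume {u | ¬ u ∈ G} := measure_mono fun u hu => hcon u hu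
    rw [ae_iff.1 hG, Real.volume_Ioo] at h3
    have h4 : ENNReal.ofReal (1 - u1) = 0 := le_antisymm h3 bot_le
    rw [ENNReal.ofReal_eq_zero] at h4
    linarith
  have c2 : CalOn (fun _ _ => 0) (fun _ _ => 0) u1 u2 := by
    refine ⟨continuous_const, contDiff_const, ?_⟩
    intro u _ σ _
    simp
  have h5 := h g M hgm hgb hgl u0 hu0 u1 hu1 u2 h2 h0 h01 hu2.1 hu2.2 a B _ _ c c2
  have h6 : calVal (sv D k) g (fun _ _ => 0) (fun _ _ => 0) u1 u2 = 0 := by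
    unfold calVal
    simp
  rw [h6, add_zero] at h5
  exact h5

end Crest.Agent.T3
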