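import Crest.Agent.T3.Ibp

/-! Row 214, chunk T3-SLICEFNA. -/

set_option autoImplicit false
open MeasureTheory Set Filter Topology
open Crest.GeometryTopology.PeriodicPerimeter

namespace Crest.Agent.T3

private theorem isCompact_closure_cell (n : ℕ) : IsCompact (closure (unitCell n)) := by
  have hb : Bornology.IsBounded (unitCell n) := by
    apply (Metric.isBounded_iff_subset_closedBall (0 : EuclideanSpace ℝ (Fin n))).2
    refine ⟨Real.sqrt n, fun x hx => ?_⟩
    rw [mem_closedBall_zero_iff, EuclideanSpace.norm_eq]
    apply Real.sqrt_le_sqrt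
    calc ∑ i, ‖x i‖ ^ 2 ≤ ∑ _i : Fin n, (1 : ℝ) := by
          apply Finset.sum_le_sum
          intro i _
          have := hx i
          rw [Real.norm_eq_abs, sq_abs]
          nlinarith [this.1, this.2]
      _ = n := by simp
  exact hb.isCompact_closure

private theorem exists_bound_cell {n : ℕ} (F : ℝ → EuclideanSpace ℝ (Fin n) → ℝ)
    (hF : Continuous (fun p : ℝ × EuclideanSpace ℝ (Fin n) => F p.1 p.2)) (t : ℝ) :
    ∃ C : ℝ, ∀ s ∈ Metric.ball t 1, ∀ y ∈ unitCell n, ‖F s y‖ ≤ C := by
  have hK : IsCompact (Metric.closedBall t 1 ×ˢ closure (unitCell n)) :=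
    (isCompact_closedBall t 1).prod (isCompact_closure_cell n)
  obtain ⟨C, hC⟩ := hK.exists_bound_of_continuousOn hF.continuousOn
  refine ⟨C, fun s hs y hy => ?_⟩
  exact hC (s, y) ⟨Metric.ball_subset_closedBall hs, subset_closure hy⟩

/-- Continuity of cell integrals depending on a parameter.
Proof: dominated convergence, or `continuous_parametric_integral_of_continuous` on the compact
closure of the cell (boundedness of `unitCell`, see `cont_integrableOn_cell`). -/
theorem cell_integral_continuous {n : ℕ} (F : ℝ → EuclideanSpace ℝ (Fin n) → ℝ)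
    (hF : Continuous (fun p : ℝ × EuclideanSpace ℝ (Fin n) => F p.1 p.2)) :
    Continuous (fun t => ∫ y in unitCell n, F t y) := by
  rw [continuous_iff_continuousAt]
  intro t
  obtain ⟨C, hC⟩ := exists_bound_cell F hF t
  have hfin : volume (unitCell n) < ⊤ := by rw [volume_unitCell]; exact ENNReal.one_lt_top
  refine MeasureTheory.continuousAt_of_dominated (bound := fun _ => C) ?_ ?_ ?_ ?_
  · refine Filter.Eventually.of_forall fun s => ?_
    exact (hF.comp (Continuous.prodMk continuous_const continuous_id)).aestronglyMeasurable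
  · filter_upwards [Metric.ball_mem_nhds t one_pos] with s hs
    filter_upwards [ae_restrict_mem (measurableSet_unitCell n)] with y hy
    exact hC s hs y hy
  · exact integrableOn_const (hs := hfin.ne)
  · refine Filter.Eventually.of_forall fun y => ?_
    exact (hF.comp (Continuous.prodMk continuous_id continuous_const)).continuousAt

/-- Differentiation under the integral: `d/dt ∫ f(ins k t y) dy = ∫ (∂_k f)(ins k t y) dy`
(`hasDerivAt_ins`, `hasDerivAt_integral_of_dominated_loc_of_deriv_le`, the derivative is bounded on
compact sets). -/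
theorem sj_hasDerivAt {n : ℕ} (f : EuclideanSpace ℝ (Fin (n + 1)) → ℝ) (hf : ContDiff ℝ 1 f)
    (k : Fin (n + 1)) (t : ℝ) :
    HasDerivAt (fun τ => ∫ y in unitCell n, f (ins k τ y))
      (∫ y in unitCell n, fderiv ℝ f (ins k t y) (EuclideanSpace.single k 1)) t := by
  have hcd : Continuous (fun x => fderiv ℝ f x (EuclideanSpace.single k 1)) :=
    (hf.continuous_fderiv (by norm_num)).clm_apply continuous_const
  have hG : Continuous (fun p : ℝ × EuclideanSpace ℝ (Fin n) =>
      fderiv ℝ f (ins k p.1 p.2) (EuclideanSpace.single k 1)) :=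
    hcd.comp (ins_continuous k)
  have hfc : Continuous (fun p : ℝ × EuclideanSpace ℝ (Fin n) => f (ins k p.1 p.2)) :=
    hf.continuous.comp (ins_continuous k)
  obtain ⟨C, hC⟩ := exists_bound_cell
    (fun s y => fderiv ℝ f (ins k s y) (EuclideanSpace.single k 1)) hG t
  have hfin : volume (unitCell n) < ⊤ := by rw [volume_unitCell]; exact ENNReal.one_lt_top
  refine (hasDerivAt_integral_of_dominated_loc_of_deriv_le (bound := fun _ => C)
    (F' := fun s y => fderiv ℝ f (ins k s y) (EuclideanSpace.single k 1))
    (Metric.ball_mem_nhds t one_pos) ?_ ?_ ?_ ?_ ?_ ?_).2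
  · refine Filter.Eventually.of_forall fun s => ?_
    exact (hfc.comp (Continuous.prodMk continuous_const continuous_id)).aestronglyMeasurable
  · exact cont_integrableOn_cell _ (hfc.comp (Continuous.prodMk continuous_const continuous_id))
  · exact (hG.comp (Continuous.prodMk continuous_const continuous_id)).aestronglyMeasurable
  · filter_upwards [ae_restrict_mem (measurableSet_unitCell n)] with y hy
    intro s hs
    exact hC s hs y hy
  · exact integrableOn_const (hs := hfin.ne)
  · refine Filter.Eventually.of_forall fun y s _ => ?_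
    exact hasDerivAt_ins f hf k s y

end Crest.Agent.T3
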