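import Crest.Agent.T3.Ibp

/-! Row 214, chunk T3-SLICEFNB. -/

set_option autoImplicit false
open MeasureTheory Set Filter Topology
open Crest.GeometryTopology.PeriodicPerimeter

namespace Crest.Agent.T3

/-- For almost every `t` the slice functions converge almost everywhere (`ae_slice`), hence the cell
integrals against a bounded continuous weight converge (dominated convergence, `0 ≤ f_j ≤ 1`). -/
theorem slice_tendsto {n : ℕ} {E : Set (EuclideanSpace ℝ (Fin (n + 1)))} {c : ℝ}
    {f : ℕ → EuclideanSpace ℝ (Fin (n + 1)) → ℝ} (hf : Approx E c f) (hE : MeasurableSet E)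
    (k : Fin (n + 1)) :
    ∀ᵐ t : ℝ, ∀ w : EuclideanSpace ℝ (Fin n) → ℝ, Continuous w →
      Tendsto (fun j => ∫ y in unitCell n, f j (ins k t y) * w y) atTop
        (𝓝 (∫ y in slE k t E ∩ unitCell n, w y)) := by
  filter_upwards [ae_slice hf.ae k] with t ht w hw
  have hins : Continuous (fun y : EuclideanSpace ℝ (Fin n) => ins k t y) :=
    (ins_continuous k).comp (continuous_const.prodMk continuous_id)
  have hsl : MeasurableSet (slE k t E) := hins.measurable hE
  have hlim : ∫ y in slE k t E ∩ unitCell n, w y =
      ∫ y in unitCell n, E.indicator (fun _ => (1 : ℝ)) (ins k t y) * w y := by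
    have h1 : (fun y => E.indicator (fun _ => (1 : ℝ)) (ins k t y) * w y) =
        (slE k t E).indicator w := by
      funext y
      by_cases hy : ins k t y ∈ E
      · have hy' : y ∈ slE k t E := hy
        simp [hy, hy']
      · have hy' : y ∉ slE k t E := hy
        simp [hy, hy']
    rw [h1, setIntegral_indicator hsl, inter_comm]
  rw [hlim]
  refine tendsto_integral_of_dominated_convergence (fun y => |w y|) ?_ ?_ ?_ ?_
  · intro j
    exact (((hf.smooth j).continuous.comp hins).mul hw).aestronglyMeasurable
  · exact cont_integrableOn_cell _ hw.abs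
  · intro j
    refine Eventually.of_forall fun y => ?_
    have h := hf.mem j (ins k t y)
    rw [norm_mul, Real.norm_eq_abs, Real.norm_eq_abs, abs_of_nonneg h.1]
    exact mul_le_of_le_one_left (abs_nonneg _) h.2
  · refine ae_restrict_of_ae ?_
    filter_upwards [ht] with y hy
    exact hy.mul_const _

/-- The slice areas converge for almost every `t` (`slice_tendsto` with `w = 1`). -/
theorem sj_tendsto {n : ℕ} {E : Set (EuclideanSpace ℝ (Fin (n + 1)))} {c : ℝ}
    {f : ℕ → EuclideanSpace ℝ (Fin (n + 1)) → ℝ} (hf : Approx E c f) (hE : MeasurableSet E)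
    (k : Fin (n + 1)) :
    ∀ᵐ t : ℝ, Tendsto (fun j => ∫ y in unitCell n, f j (ins k t y)) atTop
        (𝓝 (periodicVolume (slE k t E))) := by
  filter_upwards [slice_tendsto hf hE k] with t ht
  have h := ht (fun _ => 1) continuous_const
  simp only [mul_one] at h
  have h2 : ∫ y in slE k t E ∩ unitCell n, (1 : ℝ) = periodicVolume (slE k t E) := by
    unfold periodicVolume
    simp [Measure.real]
  rwa [h2] at h

end Crest.Agent.T3
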