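import Crest.Agent.T3.SliceFnB

/-! Row 214, chunk T3-SLICELSC. -/

set_option autoImplicit false
open MeasureTheory Set Filter Topology
open Crest.GeometryTopology.PeriodicPerimeter

namespace Crest.Agent.T3

private theorem ins_add_aux {n : ℕ} (k : Fin (n + 1)) (t : ℝ) (x v : EuclideanSpace ℝ (Fin n)) :
    ins k t (x + v) = ins k t x + ins k 0 v := by
  ext j
  refine Fin.succAboveCases k ?_ ?_ j
  · rw [PiLp.add_apply, ins_apply_self, ins_apply_self, ins_apply_self, add_zero]
  · intro i
    rw [PiLp.add_apply, ins_apply_succAbove, ins_apply_succAbove, ins_apply_succAbove,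
      PiLp.add_apply]

private theorem int_ins_aux {n : ℕ} (k : Fin (n + 1)) (v : EuclideanSpace ℝ (Fin n))
    (hv : HasIntegerCoords v) : HasIntegerCoords (ins k 0 v) := by
  intro j
  refine Fin.succAboveCases k ?_ ?_ j
  · exact ⟨0, by rw [ins_apply_self]; simp⟩
  · intro i
    obtain ⟨m, hm⟩ := hv i
    exact ⟨m, by rw [ins_apply_succAbove]; exact hm⟩

private theorem divergence_continuous_aux {n : ℕ}
    (φ : EuclideanSpace ℝ (Fin n) → EuclideanSpace ℝ (Fin n)) (hφ : ContDiff ℝ 1 φ) :
    Continuous (divergence φ) := by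
  unfold divergence
  refine continuous_finsetSum _ fun i _ => ?_
  have h1 : Continuous (fun x => fderiv ℝ φ x (EuclideanSpace.single i 1)) :=
    (hφ.continuous_fderiv (by norm_num)).clm_apply continuous_const
  exact (EuclideanSpace.proj (𝕜 := ℝ) i).continuous.comp h1

/-- Lower semicontinuity of the perimeter of the slices: for a.e. `t`
`P(E_t) ≤ liminf ∫ |∇ (f_j)_t|`. Proof: for each admissible `φ` on `ℝⁿ`, `div φ` is continuous, so
`∫_{E_t} div φ = lim ∫ f_j(ins k t y) div φ(y) dy ≤ liminf ∫ gr (f_j)_t` (`slice_tendsto`,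
`test_le_gr` applied to the periodic function `y ↦ f_j (ins k t y)`). -/
theorem slice_lsc {n : ℕ} {E : Set (EuclideanSpace ℝ (Fin (n + 1)))} {c : ℝ}
    {f : ℕ → EuclideanSpace ℝ (Fin (n + 1)) → ℝ} (hf : Approx E c f) (hE : MeasurableSet E)
    (k : Fin (n + 1)) :
    ∀ᵐ t : ℝ, periodicPerimeter (slE k t E) ≤
      liminf (fun j => ENNReal.ofReal (∫ y in unitCell n, gr (fun z => f j (ins k t z)) y)) atTop := by
  filter_upwards [slice_tendsto hf hE k] with t ht
  unfold periodicPerimeter
  refine iSup_le fun φ => ?_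
  obtain ⟨φ, hφ⟩ := φ
  have hdiv := divergence_continuous_aux φ hφ.1
  have h1 := ht (divergence φ) hdiv
  have h2 : Tendsto (fun j => ENNReal.ofReal
      (∫ y in unitCell n, f j (ins k t y) * divergence φ y)) atTop
      (𝓝 (ENNReal.ofReal (∫ y in slE k t E ∩ unitCell n, divergence φ y))) :=
    (ENNReal.continuous_ofReal.tendsto _).comp h1
  change ENNReal.ofReal (∫ y in slE k t E ∩ unitCell n, divergence φ y) ≤ _
  rw [← h2.liminf_eq]
  refine liminf_le_liminf (Eventually.of_forall fun j => ?_)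
  apply ENNReal.ofReal_le_ofReal
  have hs : ContDiff ℝ 1 (fun z => f j (ins k t z)) := by
    have h3 : ContDiff ℝ 1 (f j) := (hf.smooth j).of_le (by norm_num)
    exact h3.comp ((ins_contDiff k).comp (contDiff_const.prodMk contDiff_id))
  refine test_le_gr (fun z => f j (ins k t z)) hs (fun v hv x => ?_) φ hφ
  rw [ins_add_aux]
  exact hf.per j _ (int_ins_aux k v hv) _

end Crest.Agent.T3
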