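import Crest.Agent.T3.SliceFnA
import Crest.Agent.T3.SliceLsc
import Crest.Agent.T3.FtcB

/-! Row 214, chunk T3-SLICELOC: the local slicing inequality. -/

set_option autoImplicit false
open MeasureTheory Set Filter Topology
open Crest.GeometryTopology.PeriodicPerimeter

namespace Crest.Agent.T3

theorem sloc_meas {n : ℕ} {E : Set (EuclideanSpace ℝ (Fin (n + 1)))} (hE : MeasurableSet E)
    (k : Fin (n + 1)) : Measurable (fun t => periodicVolume (slE k t E)) := by
  have h1 : MeasurableSet ((insE k ⁻¹' E) ∩ (univ ×ˢ unitCell n)) :=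
    ((insE k).measurable hE).inter (MeasurableSet.univ.prod (measurableSet_unitCell n))
  have h2 := (measurable_measure_prodMk_left
    (ν := (volume : Measure (EuclideanSpace ℝ (Fin n)))) h1)
  have h3 : (fun t => periodicVolume (slE k t E)) = fun t =>
      (volume (Prod.mk t ⁻¹' ((insE k ⁻¹' E) ∩ (univ ×ˢ unitCell n)))).toReal := by
    funext t
    unfold periodicVolume
    congr 2
    ext y
    simp [slE, insE_apply]
  rw [h3]
  exact h2.ennreal_toReal

theorem sloc_vol_mem {n : ℕ} (F : Set (EuclideanSpace ℝ (Fin n))) :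
    periodicVolume F ∈ Icc (0:ℝ) 1 := by
  refine ⟨ENNReal.toReal_nonneg, ?_⟩
  unfold periodicVolume
  have h : volume (F ∩ unitCell n) ≤ 1 :=
    (measure_mono inter_subset_right).trans (volume_unitCell n).le
  exact ENNReal.toReal_le_of_le_ofReal zero_le_one (by simpa using h)

theorem sloc_sj_mem {n : ℕ} (F : EuclideanSpace ℝ (Fin n) → ℝ) (hF : Continuous F)
    (h : ∀ x, F x ∈ Icc (0:ℝ) 1) : ∫ y in unitCell n, F y ∈ Icc (0:ℝ) 1 := by
  constructor
  · exact integral_nonneg fun x => (h x).1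
  · calc ∫ y in unitCell n, F y ≤ ∫ _y in unitCell n, (1:ℝ) :=
          setIntegral_mono (cont_integrableOn_cell _ hF) (cont_integrableOn_cell _ continuous_const)
            (fun x => (h x).2)
      _ = 1 := by simp [volume_unitCell, Measure.real]

theorem sloc_ins_contDiff {n : ℕ} (k : Fin (n + 1)) (t : ℝ)
    (f : EuclideanSpace ℝ (Fin (n + 1)) → ℝ) (hf : ContDiff ℝ 1 f) :
    ContDiff ℝ 1 (fun y => f (ins k t y)) :=
  hf.comp ((ins_contDiff k).comp (contDiff_const.prodMk contDiff_id))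

theorem sloc_ins_cont {n : ℕ} (k : Fin (n + 1)) (t : ℝ) :
    Continuous (fun y : EuclideanSpace ℝ (Fin n) => ins k t y) :=
  (ins_continuous k).comp (continuous_const.prodMk continuous_id)

theorem sloc_point {n : ℕ} (f : EuclideanSpace ℝ (Fin (n + 1)) → ℝ) (hf : ContDiff ℝ 1 f)
    (k : Fin (n + 1)) (t : ℝ) (a b : ℝ) (hab : a ^ 2 + b ^ 2 ≤ 1) :
    a * (∫ y in unitCell n, gr (fun z => f (ins k t z)) y) -
      b * (∫ y in unitCell n, fderiv ℝ f (ins k t y) (EuclideanSpace.single k 1)) ≤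
      ∫ y in unitCell n, gr f (ins k t y) := by
  have h1 : Continuous (gr (fun z => f (ins k t z))) :=
    gr_continuous _ (sloc_ins_contDiff k t f hf)
  have h2 : Continuous (fun y : EuclideanSpace ℝ (Fin n) =>
      fderiv ℝ f (ins k t y) (EuclideanSpace.single k 1)) :=
    ((hf.continuous_fderiv (by norm_num)).clm_apply continuous_const).comp (sloc_ins_cont k t)
  have h3 : Continuous (fun y : EuclideanSpace ℝ (Fin n) => gr f (ins k t y)) :=
    (gr_continuous f hf).comp (sloc_ins_cont k t)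
  rw [← integral_const_mul, ← integral_const_mul, ← integral_sub
    ((cont_integrableOn_cell _ h1).const_mul a) ((cont_integrableOn_cell _ h2).const_mul b)]
  exact setIntegral_mono (cont_integrableOn_cell _ ((h1.const_mul a).sub (h2.const_mul b)))
    (cont_integrableOn_cell _ h3) (fun y => gr_ins_ge f hf k t y a b hab)

theorem sloc_gr_joint {n : ℕ} (f : EuclideanSpace ℝ (Fin (n + 1)) → ℝ) (hf : ContDiff ℝ 1 f)
    (k : Fin (n + 1)) :
    Continuous (fun p : ℝ × EuclideanSpace ℝ (Fin n) => gr (fun z => f (ins k p.1 z)) p.2) := by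
  unfold gr
  simp only [fderiv_ins_slice f hf]
  refine Real.continuous_sqrt.comp (continuous_finsetSum _ fun i _ => ?_)
  exact (((hf.continuous_fderiv (by norm_num)).clm_apply continuous_const).comp
    (ins_continuous k)).pow 2

theorem sloc_liminf (A g : ℝ) (Aj pj : ℕ → ℝ) (hA : Tendsto Aj atTop (𝓝 A)) (hA0 : 0 ≤ A)
    (hAj : ∀ j, 0 ≤ Aj j)
    (h : ENNReal.ofReal g ≤ liminf (fun j => ENNReal.ofReal (pj j)) atTop) :
    ENNReal.ofReal (A * g) ≤ liminf (fun j => ENNReal.ofReal (Aj j * pj j)) atTop := by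
  have h1 : Tendsto (fun j => ENNReal.ofReal (Aj j)) atTop (𝓝 (ENNReal.ofReal A)) :=
    ENNReal.tendsto_ofReal hA
  have h2 : (fun j => ENNReal.ofReal (Aj j * pj j)) =
      (fun j => ENNReal.ofReal (Aj j)) * (fun j => ENNReal.ofReal (pj j)) := by
    funext j
    simp [ENNReal.ofReal_mul (hAj j)]
  rw [h2, ENNReal.ofReal_mul hA0, ← h1.liminf_eq]
  exact (mul_le_mul_right h _).trans ENNReal.le_liminf_mul

theorem sloc_dB1 (B : ℝ → ℝ → ℝ) (hB : ContDiff ℝ 1 (fun p : ℝ × ℝ => B p.1 p.2)) :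
    Continuous (fun p : ℝ × ℝ => deriv (fun v => B p.1 v) p.2) := by
  have h1 : (fun p : ℝ × ℝ => deriv (fun v => B p.1 v) p.2) =
      fun p : ℝ × ℝ => fderiv ℝ (fun p : ℝ × ℝ => B p.1 p.2) p (0, 1) := by
    funext p
    have hd : HasFDerivAt (fun p : ℝ × ℝ => B p.1 p.2)
        (fderiv ℝ (fun p : ℝ × ℝ => B p.1 p.2) p) (p.1, p.2) :=
      (hB.differentiable (by norm_num)).differentiableAt.hasFDerivAt
    have h2 : HasDerivAt (fun v : ℝ => (p.1, v)) ((0 : ℝ), (1 : ℝ)) p.2 :=
      (hasDerivAt_const _ _).prodMk (hasDerivAt_id _)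
    exact (hd.comp_hasDerivAt p.2 h2).deriv
  rw [h1]
  exact (hB.continuous_fderiv (by norm_num)).clm_apply continuous_const

theorem sloc_dB0 (B : ℝ → ℝ → ℝ) (hB : ContDiff ℝ 1 (fun p : ℝ × ℝ => B p.1 p.2)) :
    Continuous (fun p : ℝ × ℝ => deriv (fun τ => B τ p.2) p.1) := by
  have h1 : (fun p : ℝ × ℝ => deriv (fun τ => B τ p.2) p.1) =
      fun p : ℝ × ℝ => fderiv ℝ (fun p : ℝ × ℝ => B p.1 p.2) p (1, 0) := by
    funext p
    have hd : HasFDerivAt (fun p : ℝ × ℝ => B p.1 p.2)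
        (fderiv ℝ (fun p : ℝ × ℝ => B p.1 p.2) p) (p.1, p.2) :=
      (hB.differentiable (by norm_num)).differentiableAt.hasFDerivAt
    have h2 : HasDerivAt (fun τ : ℝ => (τ, p.2)) ((1 : ℝ), (0 : ℝ)) p.1 :=
      (hasDerivAt_id _).prodMk (hasDerivAt_const _ _)
    exact (hd.comp_hasDerivAt p.1 h2).deriv
  rw [h1]
  exact (hB.continuous_fderiv (by norm_num)).clm_apply continuous_const

/-- lower bound for each `j` -/
theorem sloc_lower {n : ℕ} (f : EuclideanSpace ℝ (Fin (n + 1)) → ℝ) (hf : ContDiff ℝ 1 f)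
    (hm : ∀ x, f x ∈ Icc (0 : ℝ) 1) (k : Fin (n + 1)) (t0 t1 : ℝ) (h01 : t0 < t1)
    (a B : ℝ → ℝ → ℝ) (ha : Continuous (fun p : ℝ × ℝ => a p.1 p.2))
    (hB : ContDiff ℝ 1 (fun p : ℝ × ℝ => B p.1 p.2))
    (hab : ∀ t ∈ Ioo t0 t1, ∀ σ ∈ Icc (0 : ℝ) 1,
      0 ≤ a t σ ∧ (a t σ) ^ 2 + (deriv (fun τ => B t τ) σ) ^ 2 ≤ 1) :
    (∫ t in t0..t1, a t (∫ y in unitCell n, f (ins k t y)) *
        (∫ y in unitCell n, gr (fun z => f (ins k t z)) y)) +
      (∫ t in t0..t1, deriv (fun τ => B τ (∫ y in unitCell n, f (ins k t y))) t) +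
      B t0 (∫ y in unitCell n, f (ins k t0 y)) - B t1 (∫ y in unitCell n, f (ins k t1 y)) ≤
      ∫ t in t0..t1, ∫ y in unitCell n, gr f (ins k t y) := by
  set s : ℝ → ℝ := fun t => ∫ y in unitCell n, f (ins k t y) with hs
  set s' : ℝ → ℝ := fun t => ∫ y in unitCell n,
    fderiv ℝ f (ins k t y) (EuclideanSpace.single k 1) with hs'
  set P : ℝ → ℝ := fun t => ∫ y in unitCell n, gr (fun z => f (ins k t z)) y with hP
  have hsd : ∀ t, HasDerivAt s (s' t) t := fun t => sj_hasDerivAt f hf k t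
  have hs'c : Continuous s' := cell_integral_continuous
    (fun t y => fderiv ℝ f (ins k t y) (EuclideanSpace.single k 1))
    (((hf.continuous_fderiv (by norm_num)).clm_apply continuous_const).comp (ins_continuous k))
  have hsc : Continuous s := continuous_iff_continuousAt.2 fun t => (hsd t).continuousAt
  have hPc : Continuous P := cell_integral_continuous
    (fun t y => gr (fun z => f (ins k t z)) y) (sloc_gr_joint f hf k)
  have hGc : Continuous (fun t => ∫ y in unitCell n, gr f (ins k t y)) := cell_integral_continuous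
    (fun t y => gr f (ins k t y)) ((gr_continuous f hf).comp (ins_continuous k))
  have hb : Continuous (fun t => deriv (fun v => B t v) (s t)) :=
    (sloc_dB1 B hB).comp (continuous_id.prodMk hsc)
  have hBt : Continuous (fun t => deriv (fun τ => B τ (s t)) t) :=
    (sloc_dB0 B hB).comp (continuous_id.prodMk hsc)
  have hac : Continuous (fun t => a t (s t)) := ha.comp (continuous_id.prodMk hsc)
  have hftc := ftc_B B hB s s' hsd hs'c t0 t1
  have h1 : ∫ t in t0..t1, (a t (s t) * P t - deriv (fun v => B t v) (s t) * s' t) ≤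
      ∫ t in t0..t1, ∫ y in unitCell n, gr f (ins k t y) := by
    refine intervalIntegral.integral_mono_on_of_le_Ioo h01.le
      (((hac.mul hPc).sub (hb.mul hs'c)).intervalIntegrable _ _)
      (hGc.intervalIntegrable _ _) ?_
    intro t ht
    exact sloc_point f hf k t _ _ (hab t ht _
      (sloc_sj_mem _ (hf.continuous.comp (sloc_ins_cont k t)) (fun x => hm _))).2
  have c1 : Continuous (fun t => a t (s t) * P t) := hac.mul hPc
  have c2 : Continuous (fun t => deriv (fun v => B t v) (s t) * s' t) := hb.mul hs'c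
  rw [intervalIntegral.integral_sub (c1.intervalIntegrable _ _)
    (c2.intervalIntegrable _ _)] at h1
  rw [intervalIntegral.integral_add (c2.intervalIntegrable _ _)
    (hBt.intervalIntegrable _ _)] at hftc
  change (∫ t in t0..t1, a t (s t) * P t) + (∫ t in t0..t1, deriv (fun τ => B τ (s t)) t) +
    B t0 (s t0) - B t1 (s t1) ≤ _
  linarith

/-- **Local slicing inequality.** `a ≥ 0`, `a² + (∂_σ B)² ≤ 1`; `g ≥ 0` integrable with
`g(t) ≤ liminf_j ∫ |∇ (f_j)_t|`. For every `ε > 0`, eventually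
`∫_{t0}^{t1} (a(t,s(t)) g(t) + ∂_t B(t,s(t))) dt + B(t0,s(t0)) - B(t1,s(t1)) - ε ≤
 ∫_{t0}^{t1} ∫ |∇ f_j|`, where `s(t) = |E_t|`.
Proof. With `s_j(t) = ∫ f_j(ins k t y) dy`, `p_j(t) = ∫ gr (f_j)_t`, `b = ∂_σ B`:
`gr_ins_ge` with `a = a(t, s_j(t))`, `b = b(t, s_j(t))` (note `0 ≤ s_j ≤ 1`) gives
`∫_{cell} gr f_j (ins k t y) dy ≥ a(t,s_j) p_j(t) - b(t,s_j) s_j'(t)`; integrate over `[t0,t1]` and use
`ftc_B`:  `∫∫ |∇f_j| ≥ ∫ a(t,s_j) p_j dt + B(t0,s_j(t0)) - B(t1,s_j(t1)) + ∫ ∂_t B(t,s_j) dt`.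
As `j → ∞`: `s_j(t) → s(t)` a.e. (`sj_tendsto`), dominated convergence for `∫ ∂_t B(t,s_j)` (continuous
on the compact set `[t0,t1] × [0,1]`), continuity of `B` at the endpoints (`h0`, `h1`), and Fatou
(`lintegral_liminf_le`): `liminf ∫ a(t,s_j) p_j ≥ ∫ liminf (a(t,s_j) p_j) ≥ ∫ a(t,s(t)) g(t)`. -/
theorem slicing_local {n : ℕ} {E : Set (EuclideanSpace ℝ (Fin (n + 1)))} {c : ℝ}
    {f : ℕ → EuclideanSpace ℝ (Fin (n + 1)) → ℝ} (hf : Approx E c f) (hE : MeasurableSet E)
    (k : Fin (n + 1)) (t0 t1 : ℝ) (h01 : t0 < t1)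
    (g : ℝ → ℝ) (hgm : Measurable g) (hg : ∀ t, 0 ≤ g t) (hgi : IntervalIntegrable g volume t0 t1)
    (hgl : ∀ᵐ t, t ∈ Ioo t0 t1 → ENNReal.ofReal (g t) ≤
      liminf (fun j => ENNReal.ofReal (∫ y in unitCell n, gr (fun z => f j (ins k t z)) y)) atTop)
    (a B : ℝ → ℝ → ℝ) (ha : Continuous (fun p : ℝ × ℝ => a p.1 p.2))
    (hB : ContDiff ℝ 1 (fun p : ℝ × ℝ => B p.1 p.2))
    (hab : ∀ t ∈ Ioo t0 t1, ∀ σ ∈ Icc (0 : ℝ) 1,
      0 ≤ a t σ ∧ (a t σ) ^ 2 + (deriv (fun τ => B t τ) σ) ^ 2 ≤ 1)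
    (h0 : Tendsto (fun j => ∫ y in unitCell n, f j (ins k t0 y)) atTop
        (𝓝 (periodicVolume (slE k t0 E))))
    (h1 : Tendsto (fun j => ∫ y in unitCell n, f j (ins k t1 y)) atTop
        (𝓝 (periodicVolume (slE k t1 E))))
    (ε : ℝ) (hε : 0 < ε) :
    ∀ᶠ j in atTop,
      (∫ t in t0..t1, (a t (periodicVolume (slE k t E)) * g t +
          deriv (fun τ => B τ (periodicVolume (slE k t E))) t)) +
        B t0 (periodicVolume (slE k t0 E)) - B t1 (periodicVolume (slE k t1 E)) - ε ≤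
      ∫ t in t0..t1, ∫ y in unitCell n, gr (f j) (ins k t y) := by
  have hfs : ∀ j, ContDiff ℝ 1 (f j) := fun j => (hf.smooth j).of_le (by norm_num)
  set s : ℝ → ℝ := fun t => periodicVolume (slE k t E) with hs
  set sj : ℕ → ℝ → ℝ := fun j t => ∫ y in unitCell n, f j (ins k t y) with hsj
  set pj : ℕ → ℝ → ℝ := fun j t => ∫ y in unitCell n, gr (fun z => f j (ins k t z)) y with hpj
  have hsm : Measurable s := sloc_meas hE k
  have hs01 : ∀ t, s t ∈ Icc (0:ℝ) 1 := fun t => sloc_vol_mem _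
  have hsj01 : ∀ j t, sj j t ∈ Icc (0:ℝ) 1 := fun j t =>
    sloc_sj_mem _ ((hfs j).continuous.comp (sloc_ins_cont k t)) (fun x => hf.mem j _)
  have hsjc : ∀ j, Continuous (sj j) := fun j =>
    continuous_iff_continuousAt.2 fun t => (sj_hasDerivAt (f j) (hfs j) k t).continuousAt
  have hpjc : ∀ j, Continuous (pj j) := fun j => cell_integral_continuous
    (fun t y => gr (fun z => f j (ins k t z)) y) (sloc_gr_joint (f j) (hfs j) k)
  have hpj0 : ∀ j t, 0 ≤ pj j t := fun j t => integral_nonneg fun y => Real.sqrt_nonneg _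
  have hbt := sloc_dB0 B hB
  -- compactness bounds
  have hK : IsCompact (Icc t0 t1 ×ˢ Icc (0:ℝ) 1) := isCompact_Icc.prod isCompact_Icc
  obtain ⟨C1, hC1⟩ := hK.exists_bound_of_continuousOn hbt.continuousOn
  obtain ⟨C2, hC2⟩ := hK.exists_bound_of_continuousOn ha.continuousOn
  -- (i) dominated convergence
  have hi : Tendsto (fun j => ∫ t in t0..t1, deriv (fun τ => B τ (sj j t)) t) atTop
      (𝓝 (∫ t in t0..t1, deriv (fun τ => B τ (s t)) t)) := by
    refine intervalIntegral.tendsto_integral_filter_of_dominated_convergence (fun _ => C1) ?_ ?_ ?_ ?_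
    · refine Eventually.of_forall fun j => ?_
      exact (hbt.comp (continuous_id.prodMk (hsjc j))).aestronglyMeasurable
    · refine Eventually.of_forall fun j => Eventually.of_forall fun t ht => ?_
      rw [uIoc_of_le h01.le] at ht
      exact hC1 (t, sj j t) ⟨Ioc_subset_Icc_self ht, hsj01 j t⟩
    · simp
    · filter_upwards [sj_tendsto hf hE k] with t ht _
      exact (hbt.tendsto (t, s t)).comp (tendsto_const_nhds.prodMk_nhds ht)
  -- (ii) endpoints
  have hB0 : Tendsto (fun j => B t0 (sj j t0)) atTop (𝓝 (B t0 (s t0))) :=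
    (hB.continuous.tendsto (t0, s t0)).comp (tendsto_const_nhds.prodMk_nhds h0)
  have hB1 : Tendsto (fun j => B t1 (sj j t1)) atTop (𝓝 (B t1 (s t1))) :=
    (hB.continuous.tendsto (t1, s t1)).comp (tendsto_const_nhds.prodMk_nhds h1)
  -- integrability
  have hasm : Measurable (fun t => a t (s t)) := ha.measurable.comp (measurable_id.prodMk hsm)
  have hag : IntervalIntegrable (fun t => a t (s t) * g t) volume t0 t1 := by
    rw [intervalIntegrable_iff_integrableOn_Ioc_of_le h01.le] at hgi ⊢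
    refine Integrable.bdd_mul (c := C2) hgi hasm.aestronglyMeasurable ?_
    refine (ae_restrict_iff' measurableSet_Ioc).2 (Eventually.of_forall fun t ht => ?_)
    exact hC2 (t, s t) ⟨Ioc_subset_Icc_self ht, hs01 t⟩
  have hbti : IntervalIntegrable (fun t => deriv (fun τ => B τ (s t)) t) volume t0 t1 := by
    rw [intervalIntegrable_iff_integrableOn_Ioc_of_le h01.le]
    refine Measure.integrableOn_of_bounded (M := C1) (by simp)
      (hbt.measurable.comp (measurable_id.prodMk hsm)).aestronglyMeasurable ?_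
    refine (ae_restrict_iff' measurableSet_Ioc).2 (Eventually.of_forall fun t ht => ?_)
    exact hC1 (t, s t) ⟨Ioc_subset_Icc_self ht, hs01 t⟩
  -- (iii) Fatou
  have hanonneg : ∀ᵐ t ∂(volume.restrict (Ioc t0 t1)), ∀ σ ∈ Icc (0:ℝ) 1, 0 ≤ a t σ := by
    rw [← restrict_Ioo_eq_restrict_Ioc]
    refine (ae_restrict_iff' measurableSet_Ioo).2 (Eventually.of_forall fun t ht σ hσ => ?_)
    exact (hab t ht σ hσ).1
  have hfat : ENNReal.ofReal (∫ t in t0..t1, a t (s t) * g t) ≤
      liminf (fun j => ENNReal.ofReal (∫ t in t0..t1, a t (sj j t) * pj j t)) atTop := by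
    have e1 : ENNReal.ofReal (∫ t in t0..t1, a t (s t) * g t) =
        ∫⁻ t in Ioc t0 t1, ENNReal.ofReal (a t (s t) * g t) := by
      rw [intervalIntegral.integral_of_le h01.le]
      rw [ofReal_integral_eq_lintegral_ofReal]
      · exact (intervalIntegrable_iff_integrableOn_Ioc_of_le h01.le).1 hag
      · filter_upwards [hanonneg] with t ht
        exact mul_nonneg (ht _ (hs01 t)) (hg t)
    have e2 : ∀ j, ENNReal.ofReal (∫ t in t0..t1, a t (sj j t) * pj j t) =
        ∫⁻ t in Ioc t0 t1, ENNReal.ofReal (a t (sj j t) * pj j t) := by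
      intro j
      rw [intervalIntegral.integral_of_le h01.le]
      rw [ofReal_integral_eq_lintegral_ofReal]
      · exact (intervalIntegrable_iff_integrableOn_Ioc_of_le h01.le).1
          (((ha.comp (continuous_id.prodMk (hsjc j))).mul (hpjc j)).intervalIntegrable _ _)
      · filter_upwards [hanonneg] with t ht
        exact mul_nonneg (ht _ (hsj01 j t)) (hpj0 j t)
    simp only [e1, e2]
    refine le_trans ?_ (lintegral_liminf_le ?_)
    · refine lintegral_mono_ae ?_
      have h5 := ae_restrict_of_ae (s := Ioc t0 t1) (sj_tendsto hf hE k)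
      have h7 : ∀ᵐ t ∂(volume.restrict (Ioc t0 t1)),
          ENNReal.ofReal (g t) ≤ liminf (fun j => ENNReal.ofReal (pj j t)) atTop := by
        rw [← restrict_Ioo_eq_restrict_Ioc]
        exact (ae_restrict_iff' measurableSet_Ioo).2 hgl
      filter_upwards [hanonneg, h5, h7] with t g1 g2 g4
      refine sloc_liminf (a t (s t)) (g t) (fun j => a t (sj j t)) (fun j => pj j t) ?_
        (g1 _ (hs01 t)) (fun j => g1 _ (hsj01 j t)) g4
      exact (ha.tendsto (t, s t)).comp (tendsto_const_nhds.prodMk_nhds g2)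
    · intro j
      exact ((ha.comp (continuous_id.prodMk (hsjc j))).mul (hpjc j)).measurable.ennreal_ofReal
  -- conclusion
  have hfin : ∀ᶠ j in atTop, (∫ t in t0..t1, a t (s t) * g t) - ε / 4 ≤
      ∫ t in t0..t1, a t (sj j t) * pj j t := by
    have hnn : ∀ j, 0 ≤ ∫ t in t0..t1, a t (sj j t) * pj j t := by
      intro j
      rw [intervalIntegral.integral_of_le h01.le]
      refine integral_nonneg_of_ae ?_
      filter_upwards [hanonneg] with t ht
      exact mul_nonneg (ht _ (hsj01 j t)) (hpj0 j t)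
    by_cases hI : (∫ t in t0..t1, a t (s t) * g t) - ε / 4 ≤ 0
    · exact Eventually.of_forall fun j => hI.trans (hnn j)
    · push Not at hI
      have h8 : ENNReal.ofReal ((∫ t in t0..t1, a t (s t) * g t) - ε / 4) <
          liminf (fun j => ENNReal.ofReal (∫ t in t0..t1, a t (sj j t) * pj j t)) atTop := by
        refine lt_of_lt_of_le ?_ hfat
        exact (ENNReal.ofReal_lt_ofReal_iff (by linarith)).2 (by linarith)
      filter_upwards [eventually_lt_of_lt_liminf h8] with j hj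
      exact ((ENNReal.ofReal_lt_ofReal_iff_of_nonneg hI.le).1 hj).le
  have hsum : (∫ t in t0..t1, (a t (s t) * g t + deriv (fun τ => B τ (s t)) t)) =
      (∫ t in t0..t1, a t (s t) * g t) + ∫ t in t0..t1, deriv (fun τ => B τ (s t)) t :=
    intervalIntegral.integral_add hag hbti
  have e3 : ∀ᶠ j in atTop, (∫ t in t0..t1, deriv (fun τ => B τ (s t)) t) - ε / 4 ≤
      ∫ t in t0..t1, deriv (fun τ => B τ (sj j t)) t :=
    hi.eventually_const_le (by linarith)
  have e4 : ∀ᶠ j in atTop, B t0 (s t0) - ε / 4 ≤ B t0 (sj j t0) :=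
    hB0.eventually_const_le (by linarith)
  have e5 : ∀ᶠ j in atTop, B t1 (sj j t1) ≤ B t1 (s t1) + ε / 4 :=
    hB1.eventually_le_const (by linarith)
  filter_upwards [hfin, e3, e4, e5] with j k1 k2 k3 k4
  have h9 := sloc_lower (f j) (hfs j) (hf.mem j) k t0 t1 h01 a B ha hB hab
  change (∫ t in t0..t1, (a t (s t) * g t + deriv (fun τ => B τ (s t)) t)) + B t0 (s t0) -
    B t1 (s t1) - ε ≤ _
  change (∫ t in t0..t1, a t (sj j t) * pj j t) +
    (∫ t in t0..t1, deriv (fun τ => B τ (sj j t)) t) + B t0 (sj j t0) - B t1 (sj j t1) ≤ _ at h9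
  rw [hsum]
  linarith

end Crest.Agent.T3
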