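import Crest.Agent.T3.SliceUnfAux

/-! Row 214, chunk T3-SLICEUNF: the slicing inequality for `unf D`, in the scaled variable `u = 2t`. -/

set_option autoImplicit false
open MeasureTheory Set Filter Topology
open Crest.GeometryTopology.PeriodicPerimeter

namespace Crest.Agent.T3

/-- The value of a calibration. `S u = sv D k u`. -/
noncomputable def calVal (S g : ℝ → ℝ) (a B : ℝ → ℝ → ℝ) (u0 u1 : ℝ) : ℝ :=
  (∫ u in u0..u1, (a u (S u) * g u + deriv (fun τ => B τ (S u)) u)) + B u0 (S u0) - B u1 (S u1)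

/-- The properties of the slice perimeter function `g`: measurable, nonnegative, integrable, above all
lower bounds of the slices. -/
def IsSlicePer {n : ℕ} (D : Set (Fin (n + 1) → ℝ)) (k : Fin (n + 1)) (g : ℝ → ℝ) : Prop :=
  Measurable g ∧ (∀ u, 0 ≤ g u) ∧ IntegrableOn g (Ioo 0 1) ∧
    ∀ᵐ u, u ∈ Ioo (0 : ℝ) 1 → ∀ c, QL (sl k u D) c → c ≤ g u

/-- The scaled slice perimeters of the approximating functions depend continuously on the position. -/
theorem pj_continuous {n : ℕ} (f : EuclideanSpace ℝ (Fin (n + 1)) → ℝ) (hf : ContDiff ℝ 1 f)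
    (k : Fin (n + 1)) :
    Continuous (fun t => ∫ y in unitCell n, gr (fun z => f (ins k t z)) y) := by
  refine cell_integral_continuous (fun t y => gr (fun z => f (ins k t z)) y) ?_
  unfold gr
  simp only [fderiv_ins_slice f hf]
  refine Real.continuous_sqrt.comp (continuous_finsetSum _ fun i _ => ?_)
  have h1 : Continuous (fun x => fderiv ℝ f x (EuclideanSpace.single (k.succAbove i) 1)) :=
    (hf.continuous_fderiv (by norm_num)).clm_apply continuous_const
  exact (h1.comp (ins_continuous k)).pow 2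

theorem Gj_continuous {n : ℕ} (f : EuclideanSpace ℝ (Fin (n + 1)) → ℝ) (hf : ContDiff ℝ 1 f)
    (k : Fin (n + 1)) :
    Continuous (fun t => ∫ y in unitCell n, gr f (ins k t y)) :=
  cell_integral_continuous (fun t y => gr f (ins k t y))
    ((gr_continuous f hf).comp (ins_continuous k))

theorem gr_nonneg {n : ℕ} (f : EuclideanSpace ℝ (Fin n) → ℝ) (x : EuclideanSpace ℝ (Fin n)) :
    0 ≤ gr f x := Real.sqrt_nonneg _

theorem pj_le_Gj {n : ℕ} (f : EuclideanSpace ℝ (Fin (n + 1)) → ℝ) (hf : ContDiff ℝ 1 f)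
    (k : Fin (n + 1)) (t : ℝ) :
    ∫ y in unitCell n, gr (fun z => f (ins k t z)) y ≤ ∫ y in unitCell n, gr f (ins k t y) := by
  have hsl : ContDiff ℝ 1 (fun z => f (ins k t z)) :=
    hf.comp ((ins_contDiff k).comp (contDiff_const.prodMk contDiff_id))
  refine setIntegral_mono (cont_integrableOn_cell _ (gr_continuous _ hsl))
    (cont_integrableOn_cell _ ((gr_continuous f hf).comp
      ((ins_continuous k).comp (continuous_const.prodMk continuous_id)))) ?_
  intro y
  have := gr_ins_ge f hf k t y 1 0 (by norm_num)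
  simpa using this

/-- **Slicing inequality for `unf D`, two pieces.** There are a slice perimeter function `g` and a set `G`
of full measure such that for `u0 < u1 < u2` in `G ∩ (0,1)` and calibrations `(a1,B1)` on `(u0,u1)`,
`(a2,B2)` on `(u1,u2)`, the sum of the two values is at most `Q` (`P(unf D) ≤ 2Q`).
Proof. `P(unf D) ≤ ofReal (2Q) < ⊤`: take `f` with `Approx (unf D) (P(unf D).toReal) f`
(`exists_approx`). `p_j(t) = ∫ gr (f_j)_t` (continuous in `t`), `L(t) = liminf_j ofReal (p_j t)`, measurable,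
`∫⁻_{(-1/2,1/2)} L ≤ liminf ∫ p_j ≤ liminf ∫∫ |∇f_j| < ⊤` (Fatou, `gr_ins_ge` with `a = 1, b = 0`,
`integral_cell_shift`), so `L < ⊤` a.e.; `g(u) := ((L (u/2)).toReal + (L (-u/2)).toReal)/4`
(`slice_lsc`: `L(±u/2) ≥ P(unf (sl k u D)) ≥ ofReal (2c)`).
`G` = set of `u` such that `t = u/2` and `t = -u/2` are good for `sj_tendsto`
(full measure: preimages of null sets under `u ↦ ±u/2` are null). `slE k t (unf D) = unf (sl k (fold t) D)`,
`periodicVolume = vol01` (`periodicVolume_unf`), `fold (±u/2) = u`. Apply `slicing_local` four times: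
on `(u0/2,u1/2)` with `a(2t,σ)`, `B(2t,σ)`, `g̃(t) = (L t).toReal`; on `(-u1/2,-u0/2)` with `a(-2t,σ)`,
`-B(-2t,σ)`, `(L t).toReal`; the same for `(u1,u2)`. After the substitution `u = ±2t` the sum of the four
values is `2 (calVal .. + calVal ..)`. The four intervals are disjoint in `(-1/2,1/2)`, `gr ≥ 0`, so
the sum of the four double integrals of `|∇f_j|` is at most `c ≤ 2Q` (`integral_cell_shift`,
`t0 = -1/2`); let `ε → 0`. -/
theorem slice_two_ex {n : ℕ} (D : Set (Fin (n + 1) → ℝ)) (hD : IsLowerSet D) (hO : IsOpen D)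
    (k : Fin (n + 1)) (Q : ℝ) (hQ0 : 0 ≤ Q)
    (hQ : periodicPerimeter (unf D) ≤ ENNReal.ofReal (2 * Q)) :
    ∃ g : ℝ → ℝ, IsSlicePer D k g ∧ ∃ G : Set ℝ, (∀ᵐ u, u ∈ G) ∧
        ∀ u0 ∈ G, ∀ u1 ∈ G, ∀ u2 ∈ G, 0 < u0 → u0 < u1 → u1 < u2 → u2 < 1 →
          ∀ a1 B1 a2 B2 : ℝ → ℝ → ℝ, CalOn a1 B1 u0 u1 → CalOn a2 B2 u1 u2 →
            calVal (sv D k) g a1 B1 u0 u1 + calVal (sv D k) g a2 B2 u1 u2 ≤ Q := by
  have hE : MeasurableSet (unf D) := (unf_open D hO).measurableSet
  have hfin : periodicPerimeter (unf D) ≠ ⊤ := ne_top_of_le_ne_top ENNReal.ofReal_ne_top hQ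
  obtain ⟨f, hf⟩ := exists_approx (unf D) hE (unf_periodic D) hfin
  set c := (periodicPerimeter (unf D)).toReal with hc
  have hcQ : c ≤ 2 * Q := by
    rw [hc]
    exact ENNReal.toReal_le_of_le_ofReal (by linarith) hQ
  have hf1 : ∀ j, ContDiff ℝ 1 (f j) := fun j => (hf.smooth j).of_le (by norm_num)
  set p : ℕ → ℝ → ℝ := fun j t => ∫ y in unitCell n, gr (fun z => f j (ins k t z)) y with hp
  set Gj : ℕ → ℝ → ℝ := fun j t => ∫ y in unitCell n, gr (f j) (ins k t y) with hGj
  have hpc : ∀ j, Continuous (p j) := fun j => pj_continuous (f j) (hf1 j) k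
  have hGc : ∀ j, Continuous (Gj j) := fun j => Gj_continuous (f j) (hf1 j) k
  have hG0 : ∀ j t, 0 ≤ Gj j t := fun j t => integral_nonneg fun y => gr_nonneg _ _
  have hp0 : ∀ j t, 0 ≤ p j t := fun j t => integral_nonneg fun y => gr_nonneg _ _
  have hGtot : ∀ j, ∫ t in (-1 / 2 : ℝ)..(1 / 2), Gj j t ≤ c := by
    intro j
    have := integral_cell_shift hf k (-1 / 2) j
    rwa [show (-1 / 2 : ℝ) + 1 = 1 / 2 by norm_num] at this
  set L : ℝ → ENNReal := fun t => liminf (fun j => ENNReal.ofReal (p j t)) atTop with hL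
  have hLm : Measurable L := Measurable.liminf fun j => (hpc j).measurable.ennreal_ofReal
  have hLint : ∫⁻ t in Ioc (-1 / 2 : ℝ) (1 / 2), L t ≤ ENNReal.ofReal c := by
    refine (lintegral_liminf_le fun j => (hpc j).measurable.ennreal_ofReal).trans ?_
    refine liminf_le_of_frequently_le' (Eventually.frequently (Eventually.of_forall fun j => ?_))
    have h1 : ∫⁻ t in Ioc (-1 / 2 : ℝ) (1 / 2), ENNReal.ofReal (p j t) =
        ENNReal.ofReal (∫ t in (-1 / 2 : ℝ)..(1 / 2), p j t) := by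
      rw [intervalIntegral.integral_of_le (by norm_num)]
      rw [ofReal_integral_eq_lintegral_ofReal]
      · exact ((hpc j).intervalIntegrable _ _).1
      · exact Eventually.of_forall fun t => hp0 j t
    rw [h1]
    apply ENNReal.ofReal_le_ofReal
    refine le_trans ?_ (hGtot j)
    exact intervalIntegral.integral_mono_on (by norm_num) ((hpc j).intervalIntegrable _ _)
      ((hGc j).intervalIntegrable _ _) fun t _ => pj_le_Gj (f j) (hf1 j) k t
  have hLne : ∫⁻ t in Ioc (-1 / 2 : ℝ) (1 / 2), L t ≠ ⊤ :=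
    ne_top_of_le_ne_top ENNReal.ofReal_ne_top hLint
  have hLfin : ∀ᵐ t : ℝ, t ∈ Ioc (-1 / 2 : ℝ) (1 / 2) → L t < ⊤ := by
    rw [← ae_restrict_iff' measurableSet_Ioc]
    exact ae_lt_top hLm hLne
  set l : ℝ → ℝ := fun t => (L t).toReal with hl
  have hlm : Measurable l := hLm.ennreal_toReal
  have hl0 : ∀ t, 0 ≤ l t := fun t => ENNReal.toReal_nonneg
  have hli : IntervalIntegrable l volume (-1 / 2) (1 / 2) := by
    rw [intervalIntegrable_iff_integrableOn_Ioc_of_le (by norm_num)]
    exact integrable_toReal_of_lintegral_ne_top hLm.aemeasurable hLne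
  have hlL : ∀ t, ENNReal.ofReal (l t) ≤
      liminf (fun j => ENNReal.ofReal (∫ y in unitCell n, gr (fun z => f j (ins k t z)) y)) atTop :=
    fun t => ENNReal.ofReal_toReal_le
  -- the slice perimeter function
  set g : ℝ → ℝ := fun u => (l ((1 / 2) * u) + l ((-1 / 2) * u)) / 4 with hg
  have hip : IntervalIntegrable (fun u => l ((1 / 2) * u)) volume 0 1 := by
    have h1 : IntervalIntegrable l volume 0 (1 / 2) := hli.mono_set (by
      rw [uIcc_of_le (by norm_num), uIcc_of_le (by norm_num)]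
      exact Icc_subset_Icc (by norm_num) le_rfl)
    have h2 := h1.comp_mul_left (c := 1 / 2)
    norm_num at h2 ⊢
    exact h2
  have him : IntervalIntegrable (fun u => l ((-1 / 2) * u)) volume 0 1 := by
    have h1 : IntervalIntegrable l volume 0 (-1 / 2) := (hli.mono_set (by
      rw [uIcc_of_le (by norm_num), uIcc_of_le (by norm_num)]
      exact Icc_subset_Icc le_rfl (by norm_num))).symm
    have h2 := h1.comp_mul_left (c := -1 / 2)
    norm_num at h2 ⊢
    exact h2
  have hgi : IntervalIntegrable g volume 0 1 := (hip.add him).div_const 4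
  have hgm : Measurable g := ((hlm.comp (measurable_const_mul _)).add
    (hlm.comp (measurable_const_mul _))).div_const 4
  have hlow : ∀ᵐ u, u ∈ Ioo (0 : ℝ) 1 → ∀ c, QL (sl k u D) c → c ≤ g u := by
    have hlsc := slice_lsc hf hE k
    filter_upwards [ae_comp_mul hlsc (1 / 2) (by norm_num), ae_comp_mul hlsc (-1 / 2) (by norm_num),
      ae_comp_mul hLfin (1 / 2) (by norm_num), ae_comp_mul hLfin (-1 / 2) (by norm_num)]
      with u h1 h2 h3 h4 hu c hcq
    have h3' := h3 ⟨by linarith [hu.1, hu.2], by linarith [hu.1, hu.2]⟩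
    have h4' := h4 ⟨by linarith [hu.1, hu.2], by linarith [hu.1, hu.2]⟩
    rw [slE_unf, fold_half_mul u hu.1.le hu.2.le] at h1
    rw [slE_unf, fold_neg_half_mul u hu.1.le hu.2.le] at h2
    have h5 : ENNReal.ofReal (2 * c) ≤ L ((1 / 2) * u) := le_trans hcq h1
    have h6 : ENNReal.ofReal (2 * c) ≤ L ((-1 / 2) * u) := le_trans hcq h2
    have h7 : 2 * c ≤ l ((1 / 2) * u) := (ENNReal.ofReal_le_iff_le_toReal h3'.ne).1 h5
    have h8 : 2 * c ≤ l ((-1 / 2) * u) := (ENNReal.ofReal_le_iff_le_toReal h4'.ne).1 h6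
    simp only [hg]
    linarith
  refine ⟨g, ⟨hgm, fun u => by simp only [hg]; have := hl0 ((1/2)*u); have := hl0 ((-1/2)*u); positivity,
    ((intervalIntegrable_iff_integrableOn_Ioo_of_le zero_le_one).1 hgi), hlow⟩, ?_⟩
  have hsj := sj_tendsto hf hE k
  refine ⟨{u | Tendsto (fun j => ∫ y in unitCell n, f j (ins k ((1 / 2) * u) y)) atTop
        (𝓝 (periodicVolume (slE k ((1 / 2) * u) (unf D)))) ∧
      Tendsto (fun j => ∫ y in unitCell n, f j (ins k ((-1 / 2) * u) y)) atTop
        (𝓝 (periodicVolume (slE k ((-1 / 2) * u) (unf D))))}, ?_, ?_⟩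
  · filter_upwards [ae_comp_mul hsj (1 / 2) (by norm_num), ae_comp_mul hsj (-1 / 2) (by norm_num)]
      with u h1 h2
    exact ⟨h1, h2⟩
  intro u0 hu0 u1 hu1 u2 hu2 h0 h01 h12 h2 a1 B1 a2 B2 hc1 hc2
  -- integrability of the calibration integrands
  have hSm : Measurable (sv D k) := (sv_anti D hD k).measurable
  have hint : ∀ (a B : ℝ → ℝ → ℝ) (v0 v1 : ℝ), 0 < v0 → v0 < v1 → v1 < 1 → CalOn a B v0 v1 →
      ∀ h : ℝ → ℝ, IntervalIntegrable h volume 0 1 →
      IntervalIntegrable (fun u => a u (sv D k u) * h u) volume v0 v1 := by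
    intro a B v0 v1 hv0 hv01 hv1 hcal h hh
    have hh' : IntervalIntegrable h volume v0 v1 := hh.mono_set (by
      rw [uIcc_of_le hv01.le, uIcc_of_le zero_le_one]
      exact Icc_subset_Icc hv0.le hv1.le)
    have ham : Measurable (fun u => a u (sv D k u)) :=
      hcal.1.measurable.comp (measurable_id.prodMk hSm)
    rw [intervalIntegrable_iff_integrableOn_Ioo_of_le hv01.le] at hh' ⊢
    refine Integrable.bdd_mul (c := 1) hh' ham.aestronglyMeasurable ?_
    filter_upwards [ae_restrict_mem measurableSet_Ioo] with u hu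
    have := hcal.2.2 u hu (sv D k u) (sv_mem D k u)
    rw [Real.norm_eq_abs, abs_of_nonneg this.1]
    nlinarith [sq_nonneg (deriv (fun τ => B u τ) (sv D k u))]
  have hint2 : ∀ (a B : ℝ → ℝ → ℝ) (v0 v1 : ℝ), v0 < v1 → CalOn a B v0 v1 →
      IntervalIntegrable (fun u => deriv (fun τ => B τ (sv D k u)) u) volume v0 v1 := by
    intro a B v0 v1 hv01 hcal
    have hBc : Continuous (fun q : ℝ × ℝ => deriv (fun τ => B τ q.2) q.1) := by
      have h1 : ∀ q : ℝ × ℝ, deriv (fun τ => B τ q.2) q.1 =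
          fderiv ℝ (fun p : ℝ × ℝ => B p.1 p.2) q (1, 0) := by
        intro q
        have hd : HasFDerivAt (fun p : ℝ × ℝ => B p.1 p.2)
            (fderiv ℝ (fun p : ℝ × ℝ => B p.1 p.2) q) (q.1, q.2) :=
          ((hcal.2.1.differentiable (by norm_num)).differentiableAt).hasFDerivAt
        have h2 : HasDerivAt (fun τ : ℝ => (τ, q.2)) ((1 : ℝ), (0 : ℝ)) q.1 :=
          (hasDerivAt_id q.1).prodMk (hasDerivAt_const q.1 q.2)
        exact (hd.comp_hasDerivAt q.1 h2).deriv
      simp only [h1]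
      exact (hcal.2.1.continuous_fderiv (by norm_num)).clm_apply continuous_const
    have hK : IsCompact (Icc v0 v1 ×ˢ Icc (0 : ℝ) 1) := isCompact_Icc.prod isCompact_Icc
    obtain ⟨C, hC⟩ := hK.exists_bound_of_continuousOn hBc.continuousOn
    have hm : Measurable (fun u => deriv (fun τ => B τ (sv D k u)) u) :=
      hBc.measurable.comp (measurable_id.prodMk hSm)
    rw [intervalIntegrable_iff_integrableOn_Ioo_of_le hv01.le]
    refine Integrable.mono' (integrable_const C) hm.aestronglyMeasurable ?_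
    filter_upwards [ae_restrict_mem measurableSet_Ioo] with u hu
    exact hC (u, sv D k u) ⟨Ioo_subset_Icc_self hu, sv_mem D k u⟩
  -- combination of the two signs
  have hcomb : ∀ (a B : ℝ → ℝ → ℝ) (v0 v1 : ℝ), 0 < v0 → v0 < v1 → v1 < 1 → CalOn a B v0 v1 →
      (1 / 2) * (∫ u in v0..v1, (a u (sv D k u) * l ((1 / 2) * u) +
          2 * deriv (fun τ => B τ (sv D k u)) u)) +
      (1 / 2) * (∫ u in v0..v1, (a u (sv D k u) * l ((-1 / 2) * u) +
          2 * deriv (fun τ => B τ (sv D k u)) u)) =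
      2 * ∫ u in v0..v1, (a u (sv D k u) * g u + deriv (fun τ => B τ (sv D k u)) u) := by
    intro a B v0 v1 hv0 hv01 hv1 hcal
    have i1 := hint a B v0 v1 hv0 hv01 hv1 hcal _ hip
    have i2 := hint a B v0 v1 hv0 hv01 hv1 hcal _ him
    have i3 := hint2 a B v0 v1 hv01 hcal
    have i4 := hint a B v0 v1 hv0 hv01 hv1 hcal _ hgi
    rw [intervalIntegral.integral_add i1 (i3.const_mul 2),
      intervalIntegral.integral_add i2 (i3.const_mul 2), intervalIntegral.integral_add i4 i3]
    have e1 : ∫ u in v0..v1, a u (sv D k u) * g u =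
        ((∫ u in v0..v1, a u (sv D k u) * l ((1 / 2) * u)) +
          ∫ u in v0..v1, a u (sv D k u) * l ((-1 / 2) * u)) / 4 := by
      rw [← intervalIntegral.integral_add i1 i2, ← intervalIntegral.integral_div]
      congr 1
      funext u
      simp only [hg]
      ring
    rw [e1, intervalIntegral.integral_const_mul]
    ring
  apply le_of_forall_pos_le_add
  intro ε hε
  have hε2 : 0 < ε / 2 := by linarith
  have q1 := piece_plus D hO k hf l hlm hl0 hli hlL u0 u1 h0 h01 (by linarith) hu0.1 hu1.1 a1 B1 hc1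
    (ε / 2) hε2
  have q2 := piece_minus D hO k hf l hlm hl0 hli hlL u0 u1 h0 h01 (by linarith) hu0.2 hu1.2 a1 B1
    hc1 (ε / 2) hε2
  have q3 := piece_plus D hO k hf l hlm hl0 hli hlL u1 u2 (by linarith) h12 h2 hu1.1 hu2.1 a2 B2 hc2
    (ε / 2) hε2
  have q4 := piece_minus D hO k hf l hlm hl0 hli hlL u1 u2 (by linarith) h12 h2 hu1.2 hu2.2 a2 B2 hc2
    (ε / 2) hε2
  obtain ⟨j, hj1, hj2, hj3, hj4⟩ := (q1.and (q2.and (q3.and q4))).exists
  have hii : ∀ x y, IntervalIntegrable (Gj j) volume x y := fun x y => (hGc j).intervalIntegrable x y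
  have hnn : ∀ x y, x ≤ y → 0 ≤ ∫ t in x..y, Gj j t := fun x y hxy =>
    intervalIntegral.integral_nonneg hxy fun t _ => hG0 j t
  have htot := hGtot j
  have s1 : ∫ t in (-1 / 2 : ℝ)..(1 / 2), Gj j t =
      (∫ t in (-1 / 2 : ℝ)..((-1 / 2) * u2), Gj j t) +
      (∫ t in ((-1 / 2) * u2)..((-1 / 2) * u1), Gj j t) +
      (∫ t in ((-1 / 2) * u1)..((-1 / 2) * u0), Gj j t) +
      (∫ t in ((-1 / 2) * u0)..((1 / 2) * u0), Gj j t) +
      (∫ t in ((1 / 2) * u0)..((1 / 2) * u1), Gj j t) +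
      (∫ t in ((1 / 2) * u1)..((1 / 2) * u2), Gj j t) +
      (∫ t in ((1 / 2) * u2)..(1 / 2), Gj j t) := by
    rw [intervalIntegral.integral_add_adjacent_intervals (hii _ _) (hii _ _),
      intervalIntegral.integral_add_adjacent_intervals (hii _ _) (hii _ _),
      intervalIntegral.integral_add_adjacent_intervals (hii _ _) (hii _ _),
      intervalIntegral.integral_add_adjacent_intervals (hii _ _) (hii _ _),
      intervalIntegral.integral_add_adjacent_intervals (hii _ _) (hii _ _),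
      intervalIntegral.integral_add_adjacent_intervals (hii _ _) (hii _ _)]
  have n1 := hnn (-1 / 2) ((-1 / 2) * u2) (by linarith)
  have n2 := hnn ((-1 / 2) * u0) ((1 / 2) * u0) (by linarith)
  have n3 := hnn ((1 / 2) * u2) (1 / 2) (by linarith)
  have c1 := hcomb a1 B1 u0 u1 h0 h01 (by linarith) hc1
  have c2 := hcomb a2 B2 u1 u2 (by linarith) h12 h2 hc2
  unfold calVal
  simp only [hGj] at *
  linarith

end Crest.Agent.T3
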