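import Crest.Agent.T3.SliceLoc
import Crest.Agent.T3.CellShift
import Crest.Agent.T3.Moll
import Crest.Agent.T3.Unf

/-! Row 214, chunk T3-SLICEUNF: auxiliary lemmas for `slice_two_ex`. -/

set_option autoImplicit false
open MeasureTheory Set Filter Topology
open Crest.GeometryTopology.PeriodicPerimeter

namespace Crest.Agent.T3

/-- The conditions on a calibration `(a, B)` on the interval `(u0,u1)`. -/
def CalOn (a B : ℝ → ℝ → ℝ) (u0 u1 : ℝ) : Prop :=
  Continuous (fun p : ℝ × ℝ => a p.1 p.2) ∧ ContDiff ℝ 1 (fun p : ℝ × ℝ => B p.1 p.2) ∧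
  ∀ u ∈ Ioo u0 u1, ∀ σ ∈ Icc (0 : ℝ) 1,
    0 ≤ a u σ ∧ (a u σ) ^ 2 + (deriv (fun τ => B u τ) σ) ^ 2 ≤ 1

theorem ae_comp_mul {p : ℝ → Prop} (h : ∀ᵐ t : ℝ, p t) (c : ℝ) (hc : c ≠ 0) :
    ∀ᵐ u : ℝ, p (c * u) := by
  have h1 : volume {t | ¬ p t} = 0 := h
  have h2 : volume ((fun x => c * x) ⁻¹' {t | ¬ p t}) = 0 := by
    rw [Real.volume_preimage_mul_left hc, h1, mul_zero]
  exact h2

theorem pv_unf {n : ℕ} (D : Set (Fin (n + 1) → ℝ)) (hO : IsOpen D) (k : Fin (n + 1)) (t : ℝ) :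
    periodicVolume (slE k t (unf D)) = sv D k (fold t) := by
  rw [slE_unf, periodicVolume_unf _ (sl_open D hO k _)]
  rfl

theorem fold_half_mul (u : ℝ) (h0 : 0 ≤ u) (h1 : u ≤ 1) : fold ((1 / 2) * u) = u := by
  rw [show (1 / 2 : ℝ) * u = u / 2 by ring]
  exact fold_half u h0 h1

theorem fold_neg_half_mul (u : ℝ) (h0 : 0 ≤ u) (h1 : u ≤ 1) : fold ((-1 / 2) * u) = u := by
  rw [show (-1 / 2 : ℝ) * u = -(u / 2) by ring, fold_neg]
  exact fold_half u h0 h1

theorem piece_plus {n : ℕ} (D : Set (Fin (n + 1) → ℝ)) (hO : IsOpen D)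
    (k : Fin (n + 1)) {c : ℝ} {f : ℕ → EuclideanSpace ℝ (Fin (n + 1)) → ℝ}
    (hf : Approx (unf D) c f) (l : ℝ → ℝ) (hlm : Measurable l) (hl0 : ∀ t, 0 ≤ l t)
    (hli : IntervalIntegrable l volume (-1 / 2) (1 / 2))
    (hlL : ∀ t, ENNReal.ofReal (l t) ≤
      liminf (fun j => ENNReal.ofReal (∫ y in unitCell n, gr (fun z => f j (ins k t z)) y)) atTop)
    (u0 u1 : ℝ) (h0 : 0 < u0) (h01 : u0 < u1) (h1 : u1 < 1)
    (hg0 : Tendsto (fun j => ∫ y in unitCell n, f j (ins k ((1 / 2) * u0) y)) atTop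
        (𝓝 (periodicVolume (slE k ((1 / 2) * u0) (unf D)))))
    (hg1 : Tendsto (fun j => ∫ y in unitCell n, f j (ins k ((1 / 2) * u1) y)) atTop
        (𝓝 (periodicVolume (slE k ((1 / 2) * u1) (unf D)))))
    (a B : ℝ → ℝ → ℝ) (hcal : CalOn a B u0 u1) (ε : ℝ) (hε : 0 < ε) :
    ∀ᶠ j in atTop,
      (1 / 2) * (∫ u in u0..u1, (a u (sv D k u) * l ((1 / 2) * u) +
          2 * deriv (fun τ => B τ (sv D k u)) u)) + B u0 (sv D k u0) - B u1 (sv D k u1) - ε ≤
      ∫ t in ((1 / 2) * u0)..((1 / 2) * u1), ∫ y in unitCell n, gr (f j) (ins k t y) := by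
  obtain ⟨ha, hB, hab⟩ := hcal
  have hE : MeasurableSet (unf D) := (unf_open D hO).measurableSet
  have hBd : ∀ σ t, HasDerivAt (fun τ => B (2 * τ) σ) (2 * deriv (fun τ => B τ σ) (2 * t)) t := by
    intro σ t
    have hd : DifferentiableAt ℝ (fun τ => B τ σ) (2 * t) := by
      have : ContDiff ℝ 1 (fun τ => B τ σ) :=
        hB.comp (contDiff_id.prodMk contDiff_const)
      exact (this.differentiable (by norm_num)).differentiableAt
    have := hd.hasDerivAt.comp t ((hasDerivAt_id t).const_mul 2)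
    simpa [mul_comm, Function.comp_def] using this
  have hB2 : ContDiff ℝ 1 (fun p : ℝ × ℝ => B (2 * p.1) p.2) := by
    have h : ContDiff ℝ 1 (fun p : ℝ × ℝ => ((2 : ℝ) * p.1, p.2)) := by fun_prop
    exact hB.comp h
  have key := slicing_local hf hE k ((1 / 2) * u0) ((1 / 2) * u1) (by linarith) l hlm hl0
    (hli.mono_set (by
      rw [uIcc_of_le (by linarith), uIcc_of_le (by norm_num)]
      exact Icc_subset_Icc (by linarith) (by linarith)))
    (Eventually.of_forall fun t _ => hlL t)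
    (fun t σ => a (2 * t) σ) (fun t σ => B (2 * t) σ)
    (ha.comp ((continuous_const.mul continuous_fst).prodMk continuous_snd))
    hB2
    (fun t ht σ hσ => hab (2 * t) ⟨by linarith [ht.1], by linarith [ht.2]⟩ σ hσ)
    hg0 hg1 ε hε
  filter_upwards [key] with j hj
  refine le_trans (le_of_eq ?_) hj
  have e0 : fold ((1 / 2) * u0) = u0 := fold_half_mul u0 h0.le (by linarith)
  have e1 : fold ((1 / 2) * u1) = u1 := fold_half_mul u1 (by linarith) h1.le
  rw [pv_unf D hO, pv_unf D hO, e0, e1]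
  have e2 : (2 : ℝ) * ((1 / 2) * u0) = u0 := by ring
  have e3 : (2 : ℝ) * ((1 / 2) * u1) = u1 := by ring
  simp only [e2, e3]
  congr 3
  have hint : ∀ t ∈ uIcc ((1 / 2) * u0) ((1 / 2) * u1),
      a (2 * t) (periodicVolume (slE k t (unf D))) * l t +
        deriv (fun τ => B (2 * τ) (periodicVolume (slE k t (unf D)))) t =
      (fun u => a u (sv D k u) * l ((1 / 2) * u) + 2 * deriv (fun τ => B τ (sv D k u)) u) (2 * t) := by
    intro t ht
    rw [uIcc_of_le (by linarith)] at ht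
    have e4 : fold t = 2 * t := by
      have := fold_half_mul (2 * t) (by linarith [ht.1]) (by linarith [ht.2])
      rwa [show (1 / 2 : ℝ) * (2 * t) = t by ring] at this
    rw [pv_unf D hO, e4, (hBd _ t).deriv]
    simp only
    rw [show (1 / 2 : ℝ) * (2 * t) = t by ring]
  rw [intervalIntegral.integral_congr hint]
  rw [intervalIntegral.integral_comp_mul_left (fun u => a u (sv D k u) * l ((1 / 2) * u) +
    2 * deriv (fun τ => B τ (sv D k u)) u) (by norm_num : (2 : ℝ) ≠ 0), e2, e3]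
  simp only [smul_eq_mul]
  norm_num

theorem piece_minus {n : ℕ} (D : Set (Fin (n + 1) → ℝ)) (hO : IsOpen D)
    (k : Fin (n + 1)) {c : ℝ} {f : ℕ → EuclideanSpace ℝ (Fin (n + 1)) → ℝ}
    (hf : Approx (unf D) c f) (l : ℝ → ℝ) (hlm : Measurable l) (hl0 : ∀ t, 0 ≤ l t)
    (hli : IntervalIntegrable l volume (-1 / 2) (1 / 2))
    (hlL : ∀ t, ENNReal.ofReal (l t) ≤
      liminf (fun j => ENNReal.ofReal (∫ y in unitCell n, gr (fun z => f j (ins k t z)) y)) atTop)
    (u0 u1 : ℝ) (h0 : 0 < u0) (h01 : u0 < u1) (h1 : u1 < 1)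
    (hg0 : Tendsto (fun j => ∫ y in unitCell n, f j (ins k ((-1 / 2) * u0) y)) atTop
        (𝓝 (periodicVolume (slE k ((-1 / 2) * u0) (unf D)))))
    (hg1 : Tendsto (fun j => ∫ y in unitCell n, f j (ins k ((-1 / 2) * u1) y)) atTop
        (𝓝 (periodicVolume (slE k ((-1 / 2) * u1) (unf D)))))
    (a B : ℝ → ℝ → ℝ) (hcal : CalOn a B u0 u1) (ε : ℝ) (hε : 0 < ε) :
    ∀ᶠ j in atTop,
      (1 / 2) * (∫ u in u0..u1, (a u (sv D k u) * l ((-1 / 2) * u) +
          2 * deriv (fun τ => B τ (sv D k u)) u)) + B u0 (sv D k u0) - B u1 (sv D k u1) - ε ≤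
      ∫ t in ((-1 / 2) * u1)..((-1 / 2) * u0), ∫ y in unitCell n, gr (f j) (ins k t y) := by
  obtain ⟨ha, hB, hab⟩ := hcal
  have hE : MeasurableSet (unf D) := (unf_open D hO).measurableSet
  have hBd : ∀ σ t, HasDerivAt (fun τ => -B (-2 * τ) σ) (2 * deriv (fun τ => B τ σ) (-2 * t)) t := by
    intro σ t
    have hd : DifferentiableAt ℝ (fun τ => B τ σ) (-2 * t) := by
      have : ContDiff ℝ 1 (fun τ => B τ σ) :=
        hB.comp (contDiff_id.prodMk contDiff_const)
      exact (this.differentiable (by norm_num)).differentiableAt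
    have := (hd.hasDerivAt.comp t ((hasDerivAt_id t).const_mul (-2))).fun_neg
    simpa [mul_comm, Function.comp_def] using this
  have hBσ : ∀ u σ, deriv (fun τ => -B u τ) σ = - deriv (fun τ => B u τ) σ := by
    intro u σ
    exact deriv.fun_neg
  have hB2 : ContDiff ℝ 1 (fun p : ℝ × ℝ => -B (-2 * p.1) p.2) := by
    have h : ContDiff ℝ 1 (fun p : ℝ × ℝ => ((-2 : ℝ) * p.1, p.2)) := by fun_prop
    exact (hB.comp h).neg
  have key := slicing_local hf hE k ((-1 / 2) * u1) ((-1 / 2) * u0) (by linarith) l hlm hl0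
    (hli.mono_set (by
      rw [uIcc_of_le (by linarith), uIcc_of_le (by norm_num)]
      exact Icc_subset_Icc (by linarith) (by linarith)))
    (Eventually.of_forall fun t _ => hlL t)
    (fun t σ => a (-2 * t) σ) (fun t σ => -B (-2 * t) σ)
    (ha.comp ((continuous_const.mul continuous_fst).prodMk continuous_snd))
    hB2
    (fun t ht σ hσ => by
      have := hab (-2 * t) ⟨by linarith [ht.2], by linarith [ht.1]⟩ σ hσ
      rw [hBσ, neg_sq]
      exact this)
    hg1 hg0 ε hε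
  filter_upwards [key] with j hj
  refine le_trans (le_of_eq ?_) hj
  have e0 : fold ((-1 / 2) * u0) = u0 := fold_neg_half_mul u0 h0.le (by linarith)
  have e1 : fold ((-1 / 2) * u1) = u1 := fold_neg_half_mul u1 (by linarith) h1.le
  rw [pv_unf D hO, pv_unf D hO, e0, e1]
  have e2 : (-2 : ℝ) * ((-1 / 2) * u0) = u0 := by ring
  have e3 : (-2 : ℝ) * ((-1 / 2) * u1) = u1 := by ring
  simp only [e2, e3]
  have hint : ∀ t ∈ uIcc ((-1 / 2) * u1) ((-1 / 2) * u0),
      a (-2 * t) (periodicVolume (slE k t (unf D))) * l t +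
        deriv (fun τ => -B (-2 * τ) (periodicVolume (slE k t (unf D)))) t =
      (fun u => a u (sv D k u) * l ((-1 / 2) * u) + 2 * deriv (fun τ => B τ (sv D k u)) u)
        (-2 * t) := by
    intro t ht
    rw [uIcc_of_le (by linarith)] at ht
    have e4 : fold t = -2 * t := by
      have := fold_neg_half_mul (-2 * t) (by linarith [ht.2]) (by linarith [ht.1])
      rwa [show (-1 / 2 : ℝ) * (-2 * t) = t by ring] at this
    rw [pv_unf D hO, e4, (hBd _ t).deriv]
    simp only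
    rw [show (-1 / 2 : ℝ) * (-2 * t) = t by ring]
  rw [intervalIntegral.integral_congr hint]
  rw [intervalIntegral.integral_comp_mul_left (fun u => a u (sv D k u) * l ((-1 / 2) * u) +
    2 * deriv (fun τ => B τ (sv D k u)) u) (by norm_num : (-2 : ℝ) ≠ 0), e2, e3,
    intervalIntegral.integral_symm u0 u1]
  simp only [smul_eq_mul]
  ring

end Crest.Agent.T3
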