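import Crest.Agent.T3.StnP

/-! Row 214, Steiner step, chunk STN-A. -/

set_option autoImplicit false
open MeasureTheory Set Filter Topology
open Crest.GeometryTopology.PeriodicPerimeter

namespace Crest.Agent.T3.Stn

theorem stnA_ins_add {n : ℕ} (k : Fin (n + 1)) (t : ℝ) (y v : EuclideanSpace ℝ (Fin n)) :
    ins k t (y + v) = ins k t y + ins k 0 v := by
  ext j
  refine Fin.succAboveCases k ?_ ?_ j
  · simp [ins_apply_self]
  · intro j
    simp [ins_apply_succAbove]

theorem stnA_ins_int {n : ℕ} (k : Fin (n + 1)) {v : EuclideanSpace ℝ (Fin n)}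
    (hv : HasIntegerCoords v) : HasIntegerCoords (ins k 0 v) := by
  intro j
  refine Fin.succAboveCases k ?_ ?_ j
  · exact ⟨0, by simp [ins_apply_self]⟩
  · intro j
    obtain ⟨m, hm⟩ := hv j
    exact ⟨m, by rw [ins_apply_succAbove, hm]⟩

/-- CHUNK STN-A: horizontal integration by parts, one component `G = φ_{σ i}` of the field.
PROOF. With `Ψ(y,h) = ∫_0^h G(ins k t y) dt` (`prim_param`, `ins_contDiff`), the function
`W(y) = Ψ(y, l y / 2) - Ψ(y, -(l y / 2))` is `C¹` and periodic (`ins k t (y + v) = ins k t y + ins k 0 v`,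
and `ins k 0 v` has integer coordinates), and its derivative in direction `e_i` is the integrand
(chain rule; `fderiv_ins_slice` for `fderiv (fun z => G (ins k t z)) y e_i = dd (k.succAbove i) G (ins k t y)`;
`intervalIntegral.integral_interval_sub_left`). Then `integral_deriv_cell`. -/
theorem stnA {n : ℕ} (k : Fin (n + 1)) (G : EuclideanSpace ℝ (Fin (n + 1)) → ℝ) (hG : ContDiff ℝ 1 G)
    (hGp : Per G) (l : EuclideanSpace ℝ (Fin n) → ℝ) (hl : ContDiff ℝ 1 l) (hlp : Per l) (i : Fin n) :
    ∫ y in unitCell n, ((∫ t in (-(l y / 2))..(l y / 2), dd (k.succAbove i) G (ins k t y)) +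
      (G (ins k (l y / 2) y) + G (ins k (-(l y / 2)) y)) / 2 * dd i l y) = 0 := by
  set F : EuclideanSpace ℝ (Fin n) → ℝ → ℝ := fun y t => G (ins k t y) with hFdef
  have hF : ContDiff ℝ 1 (fun p : EuclideanSpace ℝ (Fin n) × ℝ => F p.1 p.2) :=
    hG.comp ((ins_contDiff k).comp (contDiff_snd.prodMk contDiff_fst))
  obtain ⟨hΨ, hΨd⟩ := prim_param F hF
  set Ψ : EuclideanSpace ℝ (Fin n) × ℝ → ℝ := fun p => ∫ t in (0 : ℝ)..p.2, F p.1 t with hΨdef
  have hl2 : ContDiff ℝ 1 (fun y => l y / 2) := hl.div_const 2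
  have hW : ContDiff ℝ 1 (fun y => Ψ (y, l y / 2) - Ψ (y, -(l y / 2))) :=
    (hΨ.comp (contDiff_id.prodMk hl2)).sub (hΨ.comp (contDiff_id.prodMk hl2.neg))
  have hFper : ∀ v, HasIntegerCoords v → ∀ y t, F (y + v) t = F y t := by
    intro v hv y t
    simp only [hFdef]
    rw [stnA_ins_add]
    exact hGp _ (stnA_ins_int k hv) _
  have hWp : ∀ v, HasIntegerCoords v → ∀ y, (fun y => Ψ (y, l y / 2) - Ψ (y, -(l y / 2))) (y + v) =
      (fun y => Ψ (y, l y / 2) - Ψ (y, -(l y / 2))) y := by
    intro v hv y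
    simp only [hΨdef]
    rw [hlp v hv y]
    simp only [hFper v hv]
  have hdd : Continuous (dd (k.succAbove i) G) :=
    (hG.continuous_fderiv (by norm_num)).clm_apply continuous_const
  have hderiv : ∀ y, fderiv ℝ (fun y => Ψ (y, l y / 2) - Ψ (y, -(l y / 2))) y
      (EuclideanSpace.single i 1) =
      (∫ t in (-(l y / 2))..(l y / 2), dd (k.succAbove i) G (ins k t y)) +
      (G (ins k (l y / 2) y) + G (ins k (-(l y / 2)) y)) / 2 * dd i l y := by
    intro y
    have e1 : HasFDerivAt l (fderiv ℝ l y) y :=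
      (hl.differentiable (by norm_num)).differentiableAt.hasFDerivAt
    have hd : ∀ q, HasFDerivAt Ψ (fderiv ℝ Ψ q) q := fun q =>
      (hΨ.differentiable (by norm_num)).differentiableAt.hasFDerivAt
    have e2 : HasFDerivAt (fun y : EuclideanSpace ℝ (Fin n) => (y, l y / 2))
        ((ContinuousLinearMap.id ℝ _).prod ((2 : ℝ)⁻¹ • fderiv ℝ l y)) y := by
      have hfun : (fun y : EuclideanSpace ℝ (Fin n) => (y, l y / 2)) =
          fun y => (id y, ((2 : ℝ)⁻¹ • l) y) := by
        funext y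
        simp [div_eq_inv_mul]
      rw [hfun]
      exact (hasFDerivAt_id y).prodMk (e1.const_smul (2 : ℝ)⁻¹)
    have e3 : HasFDerivAt (fun y : EuclideanSpace ℝ (Fin n) => (y, -(l y / 2)))
        ((ContinuousLinearMap.id ℝ _).prod ((-(2 : ℝ)⁻¹) • fderiv ℝ l y)) y := by
      have hfun : (fun y : EuclideanSpace ℝ (Fin n) => (y, -(l y / 2))) =
          fun y => (id y, ((-(2 : ℝ)⁻¹) • l) y) := by
        funext y
        simp [div_eq_inv_mul]
      rw [hfun]
      exact (hasFDerivAt_id y).prodMk (e1.const_smul (-(2 : ℝ)⁻¹))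
    have e4 := ((hd (y, l y / 2)).comp y e2).sub ((hd (y, -(l y / 2))).comp y e3)
    have e5 : fderiv ℝ (fun y => Ψ (y, l y / 2) - Ψ (y, -(l y / 2))) y = _ := e4.fderiv
    rw [e5]
    simp only [sub_apply, ContinuousLinearMap.comp_apply, ContinuousLinearMap.prod_apply,
      ContinuousLinearMap.id_apply, smul_apply, smul_eq_mul]
    rw [hΨd, hΨd]
    have e6 : ∀ t, fderiv ℝ (fun z => F z t) y (EuclideanSpace.single i 1) =
        dd (k.succAbove i) G (ins k t y) := fun t => fderiv_ins_slice G hG k t y i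
    simp only [e6]
    have hcy : Continuous (fun t : ℝ => dd (k.succAbove i) G (ins k t y)) :=
      hdd.comp ((ins_continuous k).comp (continuous_id.prodMk continuous_const))
    have e7 := intervalIntegral.integral_interval_sub_left (μ := volume)
      (hcy.intervalIntegrable 0 (l y / 2)) (hcy.intervalIntegrable 0 (-(l y / 2)))
    rw [← e7]
    simp only [hFdef]
    unfold dd
    ring
  have h := integral_deriv_cell _ hW hWp i
  simp only [hderiv] at h
  exact h

end Crest.Agent.T3.Stn
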