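import Crest.Agent.T3.RigDefs

/-! Row 214, Steiner step: definitions. `φ` is an admissible field on `ℝⁿ⁺¹`, `k` the direction of
symmetrisation. -/

set_option autoImplicit false
open MeasureTheory Set Filter Topology
open Crest.GeometryTopology.PeriodicPerimeter

namespace Crest.Agent.T3.Stn

noncomputable section

/-- Horizontal part of the divergence. -/
def hdv {n : ℕ} (k : Fin (n + 1)) (φ : EuclideanSpace ℝ (Fin (n + 1)) → EuclideanSpace ℝ (Fin (n + 1)))
    (x : EuclideanSpace ℝ (Fin (n + 1))) : ℝ :=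
  ∑ i : Fin n, dd (k.succAbove i) (fun z => φ z (k.succAbove i)) x

/-- Integral of the horizontal divergence over the centred interval of length `h` over `y`. -/
def Hh {n : ℕ} (k : Fin (n + 1)) (φ : EuclideanSpace ℝ (Fin (n + 1)) → EuclideanSpace ℝ (Fin (n + 1)))
    (y : EuclideanSpace ℝ (Fin n)) (h : ℝ) : ℝ :=
  ∫ t in (-(h / 2))..(h / 2), hdv k φ (ins k t y)

/-- Half the flux of the `k`-th component through the two end points. -/
def kap {n : ℕ} (k : Fin (n + 1)) (φ : EuclideanSpace ℝ (Fin (n + 1)) → EuclideanSpace ℝ (Fin (n + 1)))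
    (y : EuclideanSpace ℝ (Fin n)) (h : ℝ) : ℝ :=
  (φ (ins k (h / 2) y) k - φ (ins k (-(h / 2)) y) k) / 2

/-- Average of the horizontal components at the two end points. -/
def mm {n : ℕ} (k : Fin (n + 1)) (φ : EuclideanSpace ℝ (Fin (n + 1)) → EuclideanSpace ℝ (Fin (n + 1)))
    (y : EuclideanSpace ℝ (Fin n)) (h : ℝ) (i : Fin n) : ℝ :=
  (φ (ins k (h / 2) y) (k.succAbove i) + φ (ins k (-(h / 2)) y) (k.succAbove i)) / 2

/-- The integral of `f` over the circle in direction `k` over `y`. -/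
def lf {n : ℕ} (k : Fin (n + 1)) (f : EuclideanSpace ℝ (Fin (n + 1)) → ℝ)
    (y : EuclideanSpace ℝ (Fin n)) : ℝ := ∫ t in (0 : ℝ)..1, f (ins k t y)

end

end Crest.Agent.T3.Stn
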