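import Crest.Agent.T3.StnDefs
import Crest.Agent.T3.Ins
import Crest.Agent.T3.Ibp
import Crest.Agent.T3.RigFub
import Crest.Agent.T3.RigArc

/-! Row 214, Steiner step, chunk STN-M: measurability, volume. -/

set_option autoImplicit false
open MeasureTheory Set Filter Topology
open Crest.GeometryTopology.PeriodicPerimeter

namespace Crest.Agent.T3.Stn

/-- CHUNK STN-M. PROOF: `measurable_measure_prodMk_left` for `rigFubE k ⁻¹' E ∩ (univ ×ˢ Ico 0 1)`. -/
theorem ll_meas {n : ℕ} (k : Fin (n + 1)) (E : Set (EuclideanSpace ℝ (Fin (n + 1))))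
    (hE : MeasurableSet E) : Measurable (ll k E) := by
  have hs : MeasurableSet ((rigFubE k) ⁻¹' E ∩ (univ ×ˢ Ico (0 : ℝ) 1)) :=
    ((rigFubE k).measurable hE).inter (MeasurableSet.univ.prod measurableSet_Ico)
  have h := measurable_measure_prodMk_left (ν := (volume : Measure ℝ)) hs
  have e : ll k E = fun y => (volume (Prod.mk y ⁻¹'
      ((rigFubE k) ⁻¹' E ∩ (univ ×ˢ Ico (0 : ℝ) 1)))).toReal := by
    funext y
    unfold ll
    congr 2
    ext t
    constructor
    · rintro ⟨h1, h2⟩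
      exact ⟨h1, mem_univ _, h2⟩
    · rintro ⟨h1, -, h2⟩
      exact ⟨h1, h2⟩
  rw [e]
  exact h.ennreal_toReal

theorem ll_mem {n : ℕ} (k : Fin (n + 1)) (E : Set (EuclideanSpace ℝ (Fin (n + 1))))
    (y : EuclideanSpace ℝ (Fin n)) : ll k E y ∈ Icc (0 : ℝ) 1 := by
  refine ⟨ENNReal.toReal_nonneg, ?_⟩
  unfold ll
  have h : volume (lineE k E y ∩ Ico (0 : ℝ) 1) ≤ 1 := by
    refine (measure_mono inter_subset_right).trans ?_
    rw [Real.volume_Ico]
    simp
  exact ENNReal.toReal_le_of_le_ofReal zero_le_one (by simpa using h)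

/-- `lineE k (St k E) y = arc 0 (ll k E y)` (`rem_ins`, `ins_self`). -/
theorem lineE_St {n : ℕ} (k : Fin (n + 1)) (E : Set (EuclideanSpace ℝ (Fin (n + 1))))
    (y : EuclideanSpace ℝ (Fin n)) : lineE k (St k E) y = arc 0 (ll k E y) := by
  ext t
  show fold ((ins k t y) k) < ll k E (rem k (ins k t y)) ↔ fold (t - 0) < ll k E y
  rw [ins_self, rem_ins, sub_zero]

end Crest.Agent.T3.Stn
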