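import Crest.Agent.T3.StnDefs
import Crest.Agent.T3.Ins
import Crest.Agent.T3.Ibp
import Crest.Agent.T3.RigFub

/-! Row 214, Steiner step, chunk STN-P: the primitive of a `C¹` function with parameters. -/

set_option autoImplicit false
open MeasureTheory Set Filter Topology
open Crest.GeometryTopology.PeriodicPerimeter

namespace Crest.Agent.T3.Stn

private noncomputable abbrev Fy {n : ℕ} (F : EuclideanSpace ℝ (Fin n) → ℝ → ℝ) (y : EuclideanSpace ℝ (Fin n)) (t : ℝ) :
    EuclideanSpace ℝ (Fin n) →L[ℝ] ℝ :=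
  fderiv ℝ (fun z => F z t) y

private theorem hasFy {n : ℕ} (F : EuclideanSpace ℝ (Fin n) → ℝ → ℝ)
    (hF : ContDiff ℝ 1 (fun p : EuclideanSpace ℝ (Fin n) × ℝ => F p.1 p.2)) (y : EuclideanSpace ℝ (Fin n)) (t : ℝ) :
    HasFDerivAt (fun z => F z t)
      ((fderiv ℝ (fun p : EuclideanSpace ℝ (Fin n) × ℝ => F p.1 p.2) (y, t)).comp
        (ContinuousLinearMap.inl ℝ (EuclideanSpace ℝ (Fin n)) ℝ)) y := by
  have h1 : HasFDerivAt (fun p : EuclideanSpace ℝ (Fin n) × ℝ => F p.1 p.2)
      (fderiv ℝ (fun p : EuclideanSpace ℝ (Fin n) × ℝ => F p.1 p.2) (y, t)) (y, t) :=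
    (hF.differentiable one_ne_zero _).hasFDerivAt
  have h2 : HasFDerivAt (fun z : EuclideanSpace ℝ (Fin n) => (z, t))
      (ContinuousLinearMap.inl ℝ (EuclideanSpace ℝ (Fin n)) ℝ) y := hasFDerivAt_prodMk_left y t
  exact h1.comp y h2

private theorem Fy_eq {n : ℕ} (F : EuclideanSpace ℝ (Fin n) → ℝ → ℝ)
    (hF : ContDiff ℝ 1 (fun p : EuclideanSpace ℝ (Fin n) × ℝ => F p.1 p.2)) (y : EuclideanSpace ℝ (Fin n)) (t : ℝ) :
    Fy F y t = (fderiv ℝ (fun p : EuclideanSpace ℝ (Fin n) × ℝ => F p.1 p.2) (y, t)).comp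
        (ContinuousLinearMap.inl ℝ (EuclideanSpace ℝ (Fin n)) ℝ) := (hasFy F hF y t).fderiv

private theorem Fy_cont {n : ℕ} (F : EuclideanSpace ℝ (Fin n) → ℝ → ℝ)
    (hF : ContDiff ℝ 1 (fun p : EuclideanSpace ℝ (Fin n) × ℝ => F p.1 p.2)) :
    Continuous (Function.uncurry (Fy F)) := by
  have h : Function.uncurry (Fy F) = fun p =>
      (fderiv ℝ (fun p : EuclideanSpace ℝ (Fin n) × ℝ => F p.1 p.2) p).comp
        (ContinuousLinearMap.inl ℝ (EuclideanSpace ℝ (Fin n)) ℝ) := by
    funext p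
    exact Fy_eq F hF p.1 p.2
  rw [h]
  exact (hF.continuous_fderiv one_ne_zero).clm_comp continuous_const

private theorem d1 {n : ℕ} (F : EuclideanSpace ℝ (Fin n) → ℝ → ℝ)
    (hF : ContDiff ℝ 1 (fun p : EuclideanSpace ℝ (Fin n) × ℝ => F p.1 p.2)) (y : EuclideanSpace ℝ (Fin n)) (h : ℝ) :
    HasFDerivAt (fun z => ∫ t in (0 : ℝ)..h, F z t) (∫ t in (0 : ℝ)..h, Fy F y t) y := by
  have hc := Fy_cont F hF
  have hFc : Continuous (Function.uncurry F) := hF.continuous
  obtain ⟨C, hC⟩ := ((isCompact_closedBall y 1).prod (isCompact_uIcc (a := (0 : ℝ)) (b := h))).exists_bound_of_continuousOn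
    hc.continuousOn
  refine intervalIntegral.hasFDerivAt_integral_of_dominated_of_fderiv_le (F := F) (F' := Fy F)
    (s := Metric.closedBall y 1) (bound := fun _ => C) (Metric.closedBall_mem_nhds y one_pos) ?_ ?_ ?_ ?_ ?_ ?_
  · filter_upwards with z
    exact (hFc.comp (by fun_prop : Continuous fun t : ℝ => (z, t))).aestronglyMeasurable
  · exact (hFc.comp (by fun_prop : Continuous fun t : ℝ => (y, t))).intervalIntegrable _ _
  · exact (hc.comp (by fun_prop : Continuous fun t : ℝ => (y, t))).aestronglyMeasurable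
  · filter_upwards with t ht z hz
    exact hC (z, t) ⟨hz, uIoc_subset_uIcc ht⟩
  · exact intervalIntegrable_const
  · filter_upwards with t _ z _
    exact (hasFy F hF z t).differentiableAt.hasFDerivAt

private theorem d2 {n : ℕ} (F : EuclideanSpace ℝ (Fin n) → ℝ → ℝ)
    (hF : ContDiff ℝ 1 (fun p : EuclideanSpace ℝ (Fin n) × ℝ => F p.1 p.2)) (y : EuclideanSpace ℝ (Fin n)) (h : ℝ) :
    HasFDerivAt (fun s => ∫ t in (0 : ℝ)..s, F y t) (ContinuousLinearMap.toSpanSingleton ℝ (F y h)) h := by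
  have hFc : Continuous (Function.uncurry F) := hF.continuous
  have h1 : Continuous (F y) := hFc.comp (by fun_prop : Continuous fun t : ℝ => (y, t))
  have h2 : HasDerivAt (fun s => ∫ t in (0 : ℝ)..s, F y t) (F y h) h :=
    intervalIntegral.integral_hasDerivAt_right (h1.intervalIntegrable _ _)
      (h1.stronglyMeasurableAtFilter _ _) h1.continuousAt
  exact h2.hasFDerivAt

private theorem dd {n : ℕ} (F : EuclideanSpace ℝ (Fin n) → ℝ → ℝ)
    (hF : ContDiff ℝ 1 (fun p : EuclideanSpace ℝ (Fin n) × ℝ => F p.1 p.2)) :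
    ∀ p : EuclideanSpace ℝ (Fin n) × ℝ,
    HasFDerivAt (fun p : EuclideanSpace ℝ (Fin n) × ℝ => ∫ t in (0 : ℝ)..p.2, F p.1 t)
      ((∫ t in (0 : ℝ)..p.2, Fy F p.1 t).coprod (ContinuousLinearMap.toSpanSingleton ℝ (F p.1 p.2))) p := by
  intro p
  have hFc : Continuous (Function.uncurry F) := hF.continuous
  have := hasStrictFDerivAt_uncurry_coprod (𝕜 := ℝ) (u := p)
    (f := fun (y : EuclideanSpace ℝ (Fin n)) (h : ℝ) => ∫ t in (0 : ℝ)..h, F y t)
    (f₁ := fun y h => ∫ t in (0 : ℝ)..h, Fy F y t)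
    (f₂ := fun y h => ContinuousLinearMap.toSpanSingleton ℝ (F y h))
    (Eventually.of_forall fun v => d1 F hF v.1 v.2) (Eventually.of_forall fun v => d2 F hF v.1 v.2)
    (intervalIntegral.continuous_parametric_primitive_of_continuous (Fy_cont F hF)).continuousAt
    (by
      have : Continuous fun p : EuclideanSpace ℝ (Fin n) × ℝ =>
          ContinuousLinearMap.toSpanSingleton ℝ (F p.1 p.2) := by
        have h3 : Continuous fun x : ℝ => ContinuousLinearMap.toSpanSingleton ℝ x :=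
          (ContinuousLinearMap.toSpanSingletonCLE (𝕜 := ℝ) (E := ℝ)).continuous
        exact h3.comp hFc
      exact this.continuousAt)
  exact this.hasFDerivAt

/-- PROOF. Partial derivatives: in `y` for fixed `h` by `intervalIntegral.hasFDerivAt_integral_of_dominated_of_fderiv_le`
(local bound by compactness of `closedBall y 1 ×ˢ uIcc 0 h`), in `h` by
`intervalIntegral.integral_hasDerivAt_right`; both are jointly continuous
(`intervalIntegral.continuous_parametric_intervalIntegral_of_continuous` with values in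
`EuclideanSpace ℝ (Fin n) →L[ℝ] ℝ`), so `hasStrictFDerivAt_uncurry_coprod`
(Mathlib.Analysis.Calculus.FDeriv.Partial) gives the derivative; `contDiff_one_iff_fderiv`. -/
theorem prim_param {n : ℕ} (F : EuclideanSpace ℝ (Fin n) → ℝ → ℝ)
    (hF : ContDiff ℝ 1 (fun p : EuclideanSpace ℝ (Fin n) × ℝ => F p.1 p.2)) :
    ContDiff ℝ 1 (fun p : EuclideanSpace ℝ (Fin n) × ℝ => ∫ t in (0 : ℝ)..p.2, F p.1 t) ∧
    ∀ (y v : EuclideanSpace ℝ (Fin n)) (h w : ℝ),
      fderiv ℝ (fun p : EuclideanSpace ℝ (Fin n) × ℝ => ∫ t in (0 : ℝ)..p.2, F p.1 t) (y, h) (v, w) =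
        (∫ t in (0 : ℝ)..h, fderiv ℝ (fun z => F z t) y v) + F y h * w := by
  have hFc : Continuous (Function.uncurry F) := hF.continuous
  have hd := dd F hF
  constructor
  · rw [contDiff_one_iff_fderiv]
    refine ⟨fun p => (hd p).differentiableAt, ?_⟩
    have h1 : fderiv ℝ (fun p : EuclideanSpace ℝ (Fin n) × ℝ => ∫ t in (0 : ℝ)..p.2, F p.1 t) =
        fun p => ((∫ t in (0 : ℝ)..p.2, Fy F p.1 t).coprod
          (ContinuousLinearMap.toSpanSingleton ℝ (F p.1 p.2))) := by
      funext p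
      exact (hd p).fderiv
    rw [h1]
    have h2 := intervalIntegral.continuous_parametric_primitive_of_continuous (μ := volume) (a₀ := 0) (Fy_cont F hF)
    have h3 : Continuous fun x : ℝ => ContinuousLinearMap.toSpanSingleton ℝ x :=
      (ContinuousLinearMap.toSpanSingletonCLE (𝕜 := ℝ) (E := ℝ)).continuous
    have h4 := h3.comp hFc
    exact (ContinuousLinearMap.coprodEquivL (𝕜 := ℝ) (E := EuclideanSpace ℝ (Fin n)) (F := ℝ) (G := ℝ) ℝ).continuous.comp (h2.prodMk h4)
  · intro y v h w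
    rw [(hd (y, h)).fderiv, ContinuousLinearMap.coprod_apply]
    congr 1
    · rw [ContinuousLinearMap.intervalIntegral_apply]
      exact ((Fy_cont F hF).comp (by fun_prop : Continuous fun t : ℝ => (y, t))).intervalIntegrable _ _
    · simp [mul_comm]

end Crest.Agent.T3.Stn
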