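import Crest.Agent.T3.Thin1D
import Crest.Agent.T3.EqStd
import Crest.Agent.T3.Cases
import Crest.Agent.T3.KfLemmas

/-! Row 214: thin directions (case II) with strictness, and the region `s0 ≤ 2/5`. -/

set_option autoImplicit false
open MeasureTheory Set Filter Topology
open Crest.GeometryTopology.PeriodicPerimeter

namespace Crest.Agent.T3

theorem NT_of (A : Set (Fin 2 → ℝ)) (i : Fin 2) (h1 : ∃ u ∈ Ico (0 : ℝ) 1, pt i u 0 ∉ A)
    (h2 : ∃ v ∈ Ico (0 : ℝ) 1, pt i 0 v ∉ A) : NT A := by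
  fin_cases i
  · exact ⟨h1, h2⟩
  · refine ⟨?_, ?_⟩
    · obtain ⟨v, hv, hvA⟩ := h2
      exact ⟨v, hv, by rw [pt_swap01]; exact hvA⟩
    · obtain ⟨u, hu, huA⟩ := h1
      exact ⟨u, hu, by rw [pt_swap01]; exact huA⟩

/-- Case II for one direction, all the information. -/
def CaseIIs (D : Set (Fin 3 → ℝ)) (β : ℝ) (k : Fin 3) : Prop :=
  ∀ t ∈ Ioo (0 : ℝ) 1, NT (sl k t D) ∨
    (∀ l ∈ Icc (0 : ℝ) 1, QL (sl k t D) (l * (sv D k t - β) + Kf 1 l)) ∨
    (QL (sl k t D) (Real.sqrt (Real.pi * (1 - sv D k t))) ∧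
      ∀ l ∈ Ioc (0 : ℝ) 1, l ^ 2 * (4 * (1 - sv D k t) / Real.pi) ≤ 1 →
        QL (sl k t D) (l * (1 - sv D k t) + Kf (1 - β) l))

theorem slice_both_thin_s (D : Set (Fin 3 → ℝ)) (hD : IsLowerSet D) (hO : IsOpen D) (k a b : Fin 3)
    (hka : a ≠ k) (hkb : b ≠ k) (hab : a ≠ b) (t : ℝ) (ht : 0 ≤ t) (β : ℝ) (hβ : 0 ≤ β)
    (hβ1 : β < 1) (ha : Tch D a k t) (hb : Tch D b k t) (hth : ¬ Tch D b a β) (l : ℝ)
    (hl : l ∈ Ioc (0 : ℝ) 1) (hc : l ^ 2 * (4 * (1 - sv D k t) / Real.pi) ≤ 1) :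
    QL (sl k t D) (l * (1 - sv D k t) + Kf (1 - β) l) := by
  obtain ⟨i, hi⟩ := slice_pt D k a b hka hkb hab t
  have e : sv D k t = vol01 (sl k t D) := rfl
  rw [tch_slice D k a b hka hkb hab] at ha
  rw [tch_slice D k b a hkb hka hab.symm] at hb
  rw [e] at hc ⊢
  refine two_F4 _ (sl_lower D hD k t) (sl_open D hO k t) i β l ?_ ?_ hβ hβ1 ?_ hl.1 ?_ hc
  · intro u hu
    rw [hi]; exact ha u hu
  · intro v hv
    rw [hi, p3_swap a b hab]; exact hb v hv
  · intro y hy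
    obtain ⟨x, hx, hx2⟩ := thin_slice D hD b a β t ht hth y hy.1.le
    exact ⟨x, hx, by rw [hi, p3_swap a b hab]; exact hx2⟩
  · nlinarith [hl.1, hl.2]

theorem slice_NT (D : Set (Fin 3 → ℝ)) (k a b : Fin 3)
    (hka : a ≠ k) (hkb : b ≠ k) (hab : a ≠ b) (t : ℝ) (ha : ¬ Tch D a k t) (hb : ¬ Tch D b k t) :
    NT (sl k t D) := by
  obtain ⟨i, hi⟩ := slice_pt D k a b hka hkb hab t
  rw [tch_slice D k a b hka hkb hab] at ha
  rw [tch_slice D k b a hkb hka hab.symm] at hb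
  push Not at ha hb
  refine NT_of _ i ?_ ?_
  · obtain ⟨u, hu, hu2⟩ := ha
    exact ⟨u, hu, by rw [hi]; exact hu2⟩
  · obtain ⟨v, hv, hv2⟩ := hb
    exact ⟨v, hv, by rw [hi, p3_swap a b hab]; exact hv2⟩

/-- two-cycle -/
theorem caseIIs_two (D : Set (Fin 3 → ℝ)) (hD : IsLowerSet D) (hO : IsOpen D) (β : ℝ) (hβ : 0 ≤ β)
    (hβ1 : β < 1) (k a b : Fin 3) (hka : a ≠ k) (hkb : b ≠ k) (hab : a ≠ b)
    (h1 : ¬ Tch D a b β) (h2 : ¬ Tch D b a β) : CaseIIs D β k := by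
  intro t ht
  by_cases ha : Tch D a k t
  · by_cases hb : Tch D b k t
    · right; right
      exact ⟨slice_both D hD hO k a b hka hkb hab t ha hb, fun l hl hc =>
        slice_both_thin_s D hD hO k a b hka hkb hab t ht.1.le β hβ hβ1 ha hb h2 l hl hc⟩
    · right; left
      exact fun l hl => slice_single D hD hO k a b hka hkb hab t ht.1.le β hβ ha hb h1 l hl
  · by_cases hb : Tch D b k t
    · right; left
      exact fun l hl => slice_single D hD hO k b a hkb hka hab.symm t ht.1.le β hβ hb ha h2 l hl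
    · left
      exact slice_NT D k a b hka hkb hab t ha hb

/-- three-cycle -/
theorem caseIIs_three (D : Set (Fin 3 → ℝ)) (hD : IsLowerSet D) (hO : IsOpen D) (β : ℝ) (hβ : 0 ≤ β)
    (hβ1 : β < 1) (k a b : Fin 3) (hka : a ≠ k) (hkb : b ≠ k) (hab : a ≠ b)
    (h1 : ¬ Tch D a k β) (h2 : Tch D b k β) (h3 : ¬ Tch D b a β) : CaseIIs D β k := by
  intro t ht
  by_cases ha : Tch D a k t
  · have htβ : t ≤ β := by
      by_contra hc
      push Not at hc
      exact h1 (tch_anti D hD a k hc.le ha)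
    have hb : Tch D b k t := tch_anti D hD b k htβ h2
    right; right
    exact ⟨slice_both D hD hO k a b hka hkb hab t ha hb, fun l hl hc =>
      slice_both_thin_s D hD hO k a b hka hkb hab t ht.1.le β hβ hβ1 ha hb h3 l hl hc⟩
  · by_cases hb : Tch D b k t
    · right; left
      exact fun l hl => slice_single D hD hO k b a hkb hka hab.symm t ht.1.le β hβ hb ha h3 l hl
    · left
      exact slice_NT D k a b hka hkb hab t ha hb

/-- **The case distinction**, strict version. -/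
theorem case_split_s (D : Set (Fin 3 → ℝ)) (hD : IsLowerSet D) (hO : IsOpen D) (β : ℝ) (hβ : 0 ≤ β)
    (hβ1 : β < 1) : (∃ k a b : Fin 3, a ≠ k ∧ b ≠ k ∧ a ≠ b ∧ Tch D a k β ∧ Tch D b k β) ∨
      (∃ k, CaseII D β k ∧ CaseIIs D β k) := by
  by_cases c0 : Tch D 1 0 β ∧ Tch D 2 0 β
  · exact Or.inl ⟨0, 1, 2, by decide, by decide, by decide, c0.1, c0.2⟩
  by_cases c1 : Tch D 0 1 β ∧ Tch D 2 1 β
  · exact Or.inl ⟨1, 0, 2, by decide, by decide, by decide, c1.1, c1.2⟩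
  by_cases c2 : Tch D 0 2 β ∧ Tch D 1 2 β
  · exact Or.inl ⟨2, 0, 1, by decide, by decide, by decide, c2.1, c2.2⟩
  right
  by_cases d0 : ¬ Tch D 1 2 β ∧ ¬ Tch D 2 1 β
  · exact ⟨0, caseII_two D hD hO β hβ hβ1 0 1 2 (by decide) (by decide) (by decide) d0.1 d0.2,
      caseIIs_two D hD hO β hβ hβ1 0 1 2 (by decide) (by decide) (by decide) d0.1 d0.2⟩
  by_cases d1 : ¬ Tch D 0 2 β ∧ ¬ Tch D 2 0 β
  · exact ⟨1, caseII_two D hD hO β hβ hβ1 1 0 2 (by decide) (by decide) (by decide) d1.1 d1.2,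
      caseIIs_two D hD hO β hβ hβ1 1 0 2 (by decide) (by decide) (by decide) d1.1 d1.2⟩
  by_cases d2 : ¬ Tch D 0 1 β ∧ ¬ Tch D 1 0 β
  · exact ⟨2, caseII_two D hD hO β hβ hβ1 2 0 1 (by decide) (by decide) (by decide) d2.1 d2.2,
      caseIIs_two D hD hO β hβ hβ1 2 0 1 (by decide) (by decide) (by decide) d2.1 d2.2⟩
  by_cases e : Tch D 1 0 β
  · have f1 : ¬ Tch D 2 0 β := by tauto
    have f2 : ¬ Tch D 1 2 β := by tauto
    exact ⟨0, caseII_three D hD hO β hβ hβ1 0 2 1 (by decide) (by decide) (by decide) f1 e f2,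
      caseIIs_three D hD hO β hβ hβ1 0 2 1 (by decide) (by decide) (by decide) f1 e f2⟩
  · have f1 : Tch D 2 0 β := by tauto
    have f2 : ¬ Tch D 2 1 β := by tauto
    exact ⟨0, caseII_three D hD hO β hβ hβ1 0 1 2 (by decide) (by decide) (by decide) e f1 f2,
      caseIIs_three D hD hO β hβ hβ1 0 1 2 (by decide) (by decide) (by decide) e f1 f2⟩

/-- `K(√2/2)`. -/
theorem Kf_half : Kf 1 (Real.sqrt 2 / 2) = (Real.sqrt 2 / 2 + Real.pi * Real.sqrt 2 / 4) / 2 := by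
  have h2 : Real.sqrt 2 ^ 2 = 2 := Real.sq_sqrt (by norm_num)
  have h2' : 0 < Real.sqrt 2 := Real.sqrt_pos.2 (by norm_num)
  have hle : Real.sqrt 2 / 2 * 1 ≤ 1 := by nlinarith
  rw [Kf_closed 1 (Real.sqrt 2 / 2) zero_le_one (by positivity) hle]
  have h3 : Real.arcsin (Real.sqrt 2 / 2 * 1) = Real.pi / 4 := by
    rw [mul_one, ← Real.sin_pi_div_four, Real.arcsin_sin (by linarith [Real.pi_pos]) (by linarith [Real.pi_pos])]
  have h4 : Real.sqrt (1 - (Real.sqrt 2 / 2) ^ 2 * 1 ^ 2) = Real.sqrt 2 / 2 := by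
    have : 1 - (Real.sqrt 2 / 2) ^ 2 * 1 ^ 2 = (Real.sqrt 2 / 2) ^ 2 := by nlinarith
    rw [this, Real.sqrt_sq (by positivity)]
  rw [h3, h4]
  field_simp
  rw [h2]
  ring

theorem thin_key (s : ℝ) (h0 : 0 ≤ s) (h1 : s ≤ 2 / 5) :
    Real.sqrt (Real.pi * s) < Real.sqrt 2 / 2 * (s - 1 / 10) + Kf 1 (Real.sqrt 2 / 2) := by
  have hπ := Real.pi_pos
  have hπ3 := Real.pi_gt_three
  have hπ4 := Real.pi_lt_d2
  have h2 : Real.sqrt 2 ^ 2 = 2 := Real.sq_sqrt (by norm_num)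
  have h2' : 0 < Real.sqrt 2 := Real.sqrt_pos.2 (by norm_num)
  rw [Kf_half]
  have e : Real.sqrt 2 / 2 * (s - 1 / 10) + (Real.sqrt 2 / 2 + Real.pi * Real.sqrt 2 / 4) / 2
      = Real.sqrt 2 * (s / 2 + 1 / 5 + Real.pi / 8) := by ring
  rw [e]
  refine (Real.sqrt_lt' (by positivity)).2 ?_
  rw [mul_pow, h2]
  -- `2 (s/2 + 1/5 + π/8)² > π s`
  have h3 : 0 < (16 / 5 - Real.pi) * (16 / 5 - Real.pi) := by
    have : 0 < 16 / 5 - Real.pi := by linarith
    positivity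
  nlinarith [mul_nonneg h0 (sub_nonneg.2 h1), sq_nonneg (s - 2 / 5)]

theorem Kf_nine : 657 / 1000 ≤ Kf (1 - 1 / 10) 1 := by
  unfold Kf
  have h1 : ∫ u in (0 : ℝ)..(1 - 1 / 10), (1 - u ^ 2) = 657 / 1000 := by
    rw [intervalIntegral.integral_sub (by simp) ((by fun_prop : Continuous fun u : ℝ => u ^ 2).intervalIntegrable _ _),
      integral_pow]
    norm_num
  rw [← h1]
  refine intervalIntegral.integral_mono_on (by norm_num)
    ((by fun_prop : Continuous fun u : ℝ => 1 - u ^ 2).intervalIntegrable _ _)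
    ((by fun_prop : Continuous fun u : ℝ => Real.sqrt (1 - 1 ^ 2 * u ^ 2)).intervalIntegrable _ _)
    fun u hu => ?_
  have h3 : 0 ≤ 1 - u ^ 2 := by nlinarith [hu.1, hu.2]
  refine Real.le_sqrt_of_sq_le ?_
  nlinarith [sq_nonneg u]

/-- For `s0 ≤ 2/5` a thin direction satisfies `ThinDir`. -/
theorem thinDir_of (D : Set (Fin 3 → ℝ)) (hD : IsLowerSet D) (k : Fin 3)
    (h : CaseIIs D (1 / 10) k) (h0 : sv D k 0 ≤ 2 / 5) : ThinDir D k := by
  intro t ht hpos
  have hs : sv D k t ≤ 2 / 5 := (sv_anti D hD k ht.1.le).trans h0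
  have hπ := Real.pi_pos
  have hπ3 := Real.pi_gt_three
  have hπ4 := Real.pi_lt_d2
  rcases h t ht with h | h | ⟨h1, h2⟩
  · exact Or.inl h
  · right
    have h2' : 0 < Real.sqrt 2 := Real.sqrt_pos.2 (by norm_num)
    have h2 : Real.sqrt 2 ^ 2 = 2 := Real.sq_sqrt (by norm_num)
    exact ⟨_, thin_key _ hpos.le hs, h _ ⟨by positivity, by nlinarith⟩⟩
  · right
    by_cases hc : (1 : ℝ) ^ 2 * (4 * (1 - sv D k t) / Real.pi) ≤ 1
    · refine ⟨_, ?_, h2 1 ⟨one_pos, le_rfl⟩ hc⟩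
      refine (Real.sqrt_lt' (by linarith [Kf_nine])).2 ?_
      have h3 := Kf_nine
      have h4 : 1257 / 1000 ≤ 1 * (1 - sv D k t) + Kf (1 - 1 / 10) 1 := by linarith
      have h5 : (1257 / 1000) ^ 2 ≤ (1 * (1 - sv D k t) + Kf (1 - 1 / 10) 1) ^ 2 :=
        pow_le_pow_left₀ (by norm_num) h4 2
      nlinarith
    · refine ⟨_, ?_, h1⟩
      exact Real.sqrt_lt_sqrt (by positivity) (by nlinarith)

/-- A thin direction: lower bound and equality case. -/
theorem thin_final (D : Set (Fin 3 → ℝ)) (hD : IsLowerSet D) (hO : IsOpen D) (k : Fin 3) (V : ℝ)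
    (hV : 0 < V) (hV2 : V ≤ 1 / 2) (hvol : vol01 D = V) (hthin : ThinDir D k) :
    ENNReal.ofReal (Crest.Agent.IT.prof V) ≤ periodicPerimeter (unf D) ∧
      (periodicPerimeter (unf D) ≤ ENNReal.ofReal (Crest.Agent.IT.prof V) → StdConcl V D) := by
  have hπ := Real.pi_pos
  have hπ3 := Real.pi_gt_three
  set R := (6 * V / Real.pi) ^ ((1 : ℝ) / 3) with hR
  set w := Real.sqrt (4 * V / Real.pi) with hw
  have hRpos : 0 < R := Real.rpow_pos_of_pos (by positivity) _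
  have hwpos : 0 < w := Real.sqrt_pos.2 (by positivity)
  have hR3 : R ^ 3 = 6 * V / Real.pi := by
    rw [hR, ← Real.rpow_natCast, ← Real.rpow_mul (by positivity)]
    norm_num
  have hw2 : w ^ 2 = 4 * V / Real.pi := Real.sq_sqrt (by positivity)
  have hR3' : Real.pi * R ^ 3 / 6 = V := by rw [hR3]; field_simp
  have hw2' : Real.pi * w ^ 2 / 4 = V := by rw [hw2]; field_simp
  have hβ : (36 * Real.pi) ^ ((1 : ℝ) / 3) * V ^ ((2 : ℝ) / 3) = Real.pi * R ^ 2 := by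
    have h1 := Crest.Agent.IT.beta_pow V hV.le
    have h2 : (Real.pi * R ^ 2) ^ 3 = 36 * Real.pi * V ^ 2 := by
      have : (Real.pi * R ^ 2) ^ 3 = Real.pi ^ 3 * (R ^ 3) ^ 2 := by ring
      rw [this, hR3]; field_simp; ring
    rw [← h2] at h1
    exact (pow_left_inj₀ (Crest.Agent.IT.beta_nonneg V hV.le) (by positivity) (by norm_num)).1 h1
  have hγ : 2 * Real.sqrt (Real.pi * V) = Real.pi * w := by
    have h1 := Crest.Agent.IT.gamma_sq V hV.le
    have h2 : (Real.pi * w) ^ 2 = 4 * Real.pi * V := by rw [mul_pow, hw2]; field_simp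
    rw [← h2] at h1
    exact (pow_left_inj₀ (by positivity) (by positivity) (by norm_num)).1 h1
  have hp1 : Crest.Agent.IT.prof V ≤ Real.pi * R ^ 2 := by
    rw [← hβ]; exact (min_le_left _ _).trans (min_le_left _ _)
  have hp2 : Crest.Agent.IT.prof V ≤ Real.pi * w := by
    rw [← hγ]; exact (min_le_left _ _).trans (min_le_right _ _)
  have hp0 : 0 < Crest.Agent.IT.prof V := by
    unfold Crest.Agent.IT.prof
    rw [hβ, hγ]
    exact lt_min (lt_min (by positivity) (by positivity)) (by norm_num)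
  have hg : ∀ t ∈ Ioo (0 : ℝ) 1, QL (sl k t D) (Real.sqrt (Real.pi * sv D k t)) := by
    intro t ht
    by_cases hpos : 0 < sv D k t
    · rcases hthin t ht hpos with h | ⟨c, hc1, hc2⟩
      · exact two_F1 _ (sl_lower D hD k t) (sl_open D hO k t) 0 h.1 h.2
      · exact QLmono hc1.le hc2
    · have : sv D k t = 0 := le_antisymm (not_lt.1 hpos) (sv_mem D k t).1
      rw [this, mul_zero, Real.sqrt_zero]
      unfold QL; simp
  have hmain : ∀ Q : ℝ, 0 ≤ Q → periodicPerimeter (unf D) ≤ ENNReal.ofReal (2 * Q) →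
      2 * Q ≤ Crest.Agent.IT.prof V →
      (sv D k 0 = V ∧ sEnd D k = V ∧ Q = Real.pi / 2 * w) ∨
      (sEnd D k = 0 ∧ sv D k 0 = Real.pi * R ^ 2 / 4 ∧ Q = Real.pi / 2 * R ^ 2) := by
    intro Q hQ0 hQ hQp
    exact thin_main D hD hO k V R w Q hV hRpos hwpos hR3' hw2' hvol hQ0 hQ (by linarith) (by linarith) hg
  constructor
  · by_contra hlt
    push Not at hlt
    have hfin : periodicPerimeter (unf D) ≠ ⊤ := (hlt.trans ENNReal.ofReal_lt_top).ne
    set P := (periodicPerimeter (unf D)).toReal with hP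
    have hPeq : periodicPerimeter (unf D) = ENNReal.ofReal P := (ENNReal.ofReal_toReal hfin).symm
    have hPlt : P < Crest.Agent.IT.prof V := by
      rw [hPeq] at hlt
      exact (ENNReal.ofReal_lt_ofReal_iff hp0).1 hlt
    have hP0 : 0 ≤ P := ENNReal.toReal_nonneg
    rcases hmain (P / 2) (by positivity) (by rw [hPeq]; exact ENNReal.ofReal_le_ofReal (by linarith))
      (by linarith) with ⟨_, _, h⟩ | ⟨_, _, h⟩ <;> linarith
  · intro hle
    rcases hmain (Crest.Agent.IT.prof V / 2) (by positivity)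
      (by rwa [mul_div_cancel₀ _ (two_ne_zero)]) (by linarith) with ⟨h1, h2, h3⟩ | ⟨h1, h2, h3⟩
    · exact concl_tube D hD hO k V hV hV2 h1 h2 (by rw [hγ]; linarith) hle hthin
    · have hR1 : R < 1 := by
        have : R ^ 3 < 1 := by
          rw [hR3, div_lt_one hπ]; linarith
        by_contra hcon
        push Not at hcon
        have := one_le_pow₀ (n := 3) hcon
        linarith
      exact concl_ball D hD hO k R V hRpos hR1 h2 h1 hvol hR3'.symm (by linarith) hle hthin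

/-- **Region `s0 ≤ 2/5` of case II.** -/
theorem thin_region (D : Set (Fin 3 → ℝ)) (hD : IsLowerSet D) (hO : IsOpen D) (k : Fin 3) (V : ℝ)
    (hV : 0 < V) (hV2 : V ≤ 1 / 2) (hvol : vol01 D = V) (h : CaseIIs D (1 / 10) k)
    (h0 : sv D k 0 ≤ 2 / 5) :
    ENNReal.ofReal (Crest.Agent.IT.prof V) ≤ periodicPerimeter (unf D) ∧
      (periodicPerimeter (unf D) ≤ ENNReal.ofReal (Crest.Agent.IT.prof V) → StdConcl V D) :=
  thin_final D hD hO k V hV hV2 hvol (thinDir_of D hD k h h0)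

end Crest.Agent.T3
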